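import Mathlib

set_option linter.unusedSectionVars false
set_option linter.unusedVariables false

/-!
# P125 polynomial rate, step (B) (= Step 3 without martingales)

`R` a stochastic matrix, `h = R F - F`, `V z = ∑ w, R z w (F w - F z)^2`.  Then for all `m, y, c`
`∑ z, (R^m) y z |F z - c| ≤ sqrt ((F y - c)^2 + ∑_{i<m} (R^i V) y) + ∑_{i<m} (R^i |h|) y`.
-/

namespace Vale.Agent.P125.Poly51

open scoped BigOperators
open Matrix

variable {S : Type} [Fintype S] [DecidableEq S]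

/-- Jensen for the square root with probability weights -/
lemma sum_sqrt_le (p x : S → ℝ) (hp : ∀ w, 0 ≤ p w) (hp1 : ∑ w, p w = 1) (hx : ∀ w, 0 ≤ x w) :
    ∑ w, p w * Real.sqrt (x w) ≤ Real.sqrt (∑ w, p w * x w) := by
  apply Real.le_sqrt_of_sq_le
  have h := Finset.sum_mul_sq_le_sq_mul_sq Finset.univ (fun w => Real.sqrt (p w))
    (fun w => Real.sqrt (p w) * Real.sqrt (x w))
  have e1 : ∑ w, Real.sqrt (p w) * (Real.sqrt (p w) * Real.sqrt (x w))
      = ∑ w, p w * Real.sqrt (x w) := by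
    refine Finset.sum_congr rfl fun w _ => ?_
    rw [← mul_assoc, Real.mul_self_sqrt (hp w)]
  have e2 : ∑ w, Real.sqrt (p w) ^ 2 = 1 := by
    rw [← hp1]
    exact Finset.sum_congr rfl fun w _ => Real.sq_sqrt (hp w)
  have e3 : ∑ w, (Real.sqrt (p w) * Real.sqrt (x w)) ^ 2 = ∑ w, p w * x w := by
    refine Finset.sum_congr rfl fun w _ => ?_
    rw [mul_pow, Real.sq_sqrt (hp w), Real.sq_sqrt (hx w)]
  rw [e1, e2, e3, one_mul] at h
  exact h

/-- triangle inequality in the plane -/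
lemma sqrt_shift (x b s : ℝ) (hs : 0 ≤ s) :
    Real.sqrt ((x + b) ^ 2 + s) ≤ Real.sqrt (x ^ 2 + s) + |b| := by
  have h0 : 0 ≤ x ^ 2 + s := by positivity
  have h1 : |x| ≤ Real.sqrt (x ^ 2 + s) := by
    apply Real.abs_le_sqrt
    linarith
  have h2 : 0 ≤ Real.sqrt (x ^ 2 + s) + |b| := by positivity
  rw [Real.sqrt_le_left h2] 
  have h3 : (Real.sqrt (x ^ 2 + s) + |b|) ^ 2
      = x ^ 2 + s + 2 * (Real.sqrt (x ^ 2 + s) * |b|) + b ^ 2 := by
    have := Real.sq_sqrt h0
    have hb := sq_abs b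
    nlinarith
  rw [h3]
  have h4 : x * b ≤ Real.sqrt (x ^ 2 + s) * |b| := by
    calc x * b ≤ |x * b| := le_abs_self _
      _ = |x| * |b| := abs_mul _ _
      _ ≤ Real.sqrt (x ^ 2 + s) * |b| := mul_le_mul_of_nonneg_right h1 (abs_nonneg _)
  nlinarith

/-- second moment around `c` after one step -/
lemma second_moment_le (p F : S → ℝ) (hp1 : ∑ w, p w = 1) (a c : ℝ) :
    ∑ w, p w * (F w - c) ^ 2 ≤ (∑ w, p w * F w - c) ^ 2 + ∑ w, p w * (F w - a) ^ 2 := by
  have e : ∀ d : ℝ, ∑ w, p w * (F w - d) ^ 2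
      = ∑ w, p w * F w ^ 2 - 2 * d * ∑ w, p w * F w + d ^ 2 := by
    intro d
    have : ∀ w, p w * (F w - d) ^ 2 = p w * F w ^ 2 - 2 * d * (p w * F w) + d ^ 2 * p w := by
      intro w
      ring
    simp only [this]
    rw [Finset.sum_add_distrib, Finset.sum_sub_distrib, ← Finset.mul_sum, ← Finset.mul_sum, hp1]
    ring
  rw [e c, e a]
  nlinarith [sq_nonneg (∑ w, p w * F w - a)]

/-- the drift of `F` -/
def drift (R : Matrix S S ℝ) (F : S → ℝ) (z : S) : ℝ := ∑ w, R z w * F w - F z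

/-- the one step quadratic variation of `F` -/
def qv (R : Matrix S S ℝ) (F : S → ℝ) (z : S) : ℝ := ∑ w, R z w * (F w - F z) ^ 2

lemma pow_succ_apply_sum (R : Matrix S S ℝ) (i : ℕ) (g : S → ℝ) (y : S) :
    ∑ z, (R ^ (i + 1)) y z * g z = ∑ w, R y w * ∑ z, (R ^ i) w z * g z := by
  rw [pow_succ']
  simp only [Matrix.mul_apply, Finset.sum_mul, Finset.mul_sum]
  rw [Finset.sum_comm]
  refine Finset.sum_congr rfl fun w _ => Finset.sum_congr rfl fun z _ => ?_
  ring

lemma pow_nonneg_apply (R : Matrix S S ℝ) (hR0 : ∀ i j, 0 ≤ R i j) (i : ℕ) (y z : S) :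
    0 ≤ (R ^ i) y z := by
  induction i generalizing y z with
  | zero =>
    rw [pow_zero, Matrix.one_apply]
    split_ifs <;> norm_num
  | succ i ih =>
    rw [pow_succ', Matrix.mul_apply]
    exact Finset.sum_nonneg fun w _ => mul_nonneg (hR0 y w) (ih w z)

lemma range_shift (R : Matrix S S ℝ) (g : S → ℝ) (m : ℕ) (y : S) :
    g y + ∑ w, R y w * ∑ i ∈ Finset.range m, ∑ z, (R ^ i) w z * g z
      = ∑ i ∈ Finset.range (m + 1), ∑ z, (R ^ i) y z * g z := by
  rw [Finset.sum_range_succ']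
  have e0 : ∑ z, (R ^ 0) y z * g z = g y := by
    simp [Matrix.one_apply]
  rw [e0, add_comm]
  congr 1
  simp only [Finset.mul_sum]
  rw [Finset.sum_comm]
  refine Finset.sum_congr rfl fun i _ => ?_
  rw [pow_succ_apply_sum]
  simp only [Finset.mul_sum]

/-- **Step (B).** -/
theorem sqrt_step (R : Matrix S S ℝ) (hR0 : ∀ i j, 0 ≤ R i j) (hR1 : ∀ i, ∑ j, R i j = 1)
    (F : S → ℝ) (c : ℝ) (m : ℕ) (y : S) :
    ∑ z, (R ^ m) y z * |F z - c| ≤
      Real.sqrt ((F y - c) ^ 2 + ∑ i ∈ Finset.range m, ∑ z, (R ^ i) y z * qv R F z)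
        + ∑ i ∈ Finset.range m, ∑ z, (R ^ i) y z * |drift R F z| := by
  induction m generalizing y with
  | zero =>
    simp only [pow_zero, Finset.range_zero, Finset.sum_empty, add_zero]
    rw [Real.sqrt_sq_eq_abs]
    simp [Matrix.one_apply]
  | succ m ih =>
    have hqv : ∀ z, 0 ≤ qv R F z := fun z =>
      Finset.sum_nonneg fun w _ => mul_nonneg (hR0 z w) (sq_nonneg _)
    set Sm : S → ℝ := fun w => ∑ i ∈ Finset.range m, ∑ z, (R ^ i) w z * qv R F z with hSm
    set Tm : S → ℝ := fun w => ∑ i ∈ Finset.range m, ∑ z, (R ^ i) w z * |drift R F z| with hTm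
    have hSm0 : ∀ w, 0 ≤ Sm w := fun w =>
      Finset.sum_nonneg fun i _ => Finset.sum_nonneg fun z _ =>
        mul_nonneg (pow_nonneg_apply R hR0 i w z) (hqv z)
    have h1 : ∑ z, (R ^ (m + 1)) y z * |F z - c|
        ≤ ∑ w, R y w * (Real.sqrt ((F w - c) ^ 2 + Sm w) + Tm w) := by
      rw [pow_succ_apply_sum]
      exact Finset.sum_le_sum fun w _ => mul_le_mul_of_nonneg_left (ih w) (hR0 y w)
    have h2 : ∑ w, R y w * (Real.sqrt ((F w - c) ^ 2 + Sm w) + Tm w)
        = ∑ w, R y w * Real.sqrt ((F w - c) ^ 2 + Sm w) + ∑ w, R y w * Tm w := by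
      rw [← Finset.sum_add_distrib]
      exact Finset.sum_congr rfl fun w _ => by ring
    have h3 : ∑ w, R y w * Real.sqrt ((F w - c) ^ 2 + Sm w)
        ≤ Real.sqrt (∑ w, R y w * ((F w - c) ^ 2 + Sm w)) :=
      sum_sqrt_le (fun w => R y w) (fun w => (F w - c) ^ 2 + Sm w) (hR0 y) (hR1 y)
        (fun w => add_nonneg (sq_nonneg _) (hSm0 w))
    have h4 : ∑ w, R y w * ((F w - c) ^ 2 + Sm w)
        ≤ ((F y - c) + drift R F y) ^ 2 + (qv R F y + ∑ w, R y w * Sm w) := by
      have e : ∑ w, R y w * ((F w - c) ^ 2 + Sm w)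
          = ∑ w, R y w * (F w - c) ^ 2 + ∑ w, R y w * Sm w := by
        rw [← Finset.sum_add_distrib]
        exact Finset.sum_congr rfl fun w _ => by ring
      have := second_moment_le (fun w => R y w) F (hR1 y) (F y) c
      have e2 : (F y - c) + drift R F y = ∑ w, R y w * F w - c := by
        unfold drift
        ring
      rw [e, e2]
      unfold qv
      linarith
    have hs0 : 0 ≤ qv R F y + ∑ w, R y w * Sm w :=
      add_nonneg (hqv y) (Finset.sum_nonneg fun w _ => mul_nonneg (hR0 y w) (hSm0 w))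
    have h5 := sqrt_shift (F y - c) (drift R F y) _ hs0
    have e6 : qv R F y + ∑ w, R y w * Sm w
        = ∑ i ∈ Finset.range (m + 1), ∑ z, (R ^ i) y z * qv R F z := range_shift R _ m y
    have e7 : |drift R F y| + ∑ w, R y w * Tm w
        = ∑ i ∈ Finset.range (m + 1), ∑ z, (R ^ i) y z * |drift R F z| :=
      range_shift R (fun z => |drift R F z|) m y
    rw [← e6, ← e7]
    have h8 := Real.sqrt_le_sqrt h4
    linarith

end Vale.Agent.P125.Poly51
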