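import Vale.Agent.P125.Poly.StepA_97
import Vale.Agent.P125.P57.Qb

set_option linter.unusedSectionVars false
set_option linter.unusedVariables false

/-! # P125 Poly: input (A) of `P57/Master.lean` (helper57), from `Poly97.stepA` -/

namespace Vale.Agent.P125.Poly97

open Finset Vale.Agent.P125.Dich Vale.Agent.P125.P57

variable {S : Type} [Fintype S] [DecidableEq S]

theorem gj_Fp (fk : ℕ → S → ℝ) (j : ℕ) : gj (Fp fk) j = fk j := by
  funext x
  unfold gj Fp
  rw [sum_range_succ]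
  ring

theorem ll_Fp (fk : ℕ → S → ℝ) (n : ℕ) (x y : S) : ll (Fp fk) n x y = P57.ell n fk x y := by
  unfold ll P57.ell
  simp only [gj_Fp]

theorem Lam_Fp (μ : S → ℝ) (P : Matrix S S ℝ) (fk : ℕ → S → ℝ) (n : ℕ) :
    Lam μ P (Fp fk) n = Wd μ P n fk := by
  unfold Lam Wd
  simp only [ll_Fp]

theorem QQ_Fp {μ : S → ℝ} {P : Matrix S S ℝ} (hc : IsChain μ P) (fk : ℕ → S → ℝ) (n s : ℕ) :
    QQ μ P (Fp fk) n s = Qd μ P n fk s := by
  unfold QQ Qd Qs
  apply sum_congr rfl; intro j _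
  rw [gj_Fp, sum_comm]
  apply sum_congr rfl; intro y _
  unfold al
  rw [mul_sum (f := fun b => P y b * |fk j b - fk j y|), sum_mul]
  apply sum_congr rfl; intro x _
  rw [mul_sum]
  apply sum_congr rfl; intro z _
  rw [hc.2.2.2.2 x y, abs_sub_comm (fk j y) (fk j x)]
  ring

/-- input (A) of `P57.master`, for an arbitrary selector `K` -/
theorem hA_97 {μ : S → ℝ} {P : Matrix S S ℝ} (hc : IsChain μ P) (n : ℕ) (fk : ℕ → S → ℝ)
    (K : S → S → ℕ) (hK : ∀ a d, K a d ≤ n) (t : ℕ) :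
    ∑ a, ∑ d, μ a * (P ^ t) a d * (Fp fk (K a d) d - Fp fk (K a d) a) ^ 2
      ≤ 2 * (t : ℝ) * Wd μ P n fk + 4 * ∑ r ∈ range t, Qd μ P n fk r := by
  have h := stepA hc (Fp fk) (by intro x; simp [Fp]) n t K hK
  rw [Lam_Fp] at h
  simp only [QQ_Fp hc] at h
  rw [sum_add_distrib, sum_range_reflect (fun r => Qd μ P n fk r) t] at h
  linarith

end Vale.Agent.P125.Poly97
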