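import Mathlib
import Vale.Agent.P125.Poly.Defs58

/-!
# P125 Poly: Step 4 (duality), in the exact shape `StDual` of `Defs58`
-/

namespace Vale.Agent.P125.Poly

open scoped BigOperators
open Vale.Agent.P125.Dich

variable {S : Type} [Fintype S] [DecidableEq S]

/-- telescoping: `P^τ g - g = ∑_{i<τ} P^i (P g - g)` -/
theorem tele_68 {μ : S → ℝ} {P : Matrix S S ℝ} (L : Lib μ P) (g : S → ℝ) (τ : ℕ) (z : S) :
    op P τ g z - g z = ∑ i ∈ Finset.range τ, op P i (fun y => op P 1 g y - g y) z := by
  induction τ with
  | zero => simp [L.op_zero]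
  | succ τ ih =>
    rw [Finset.sum_range_succ, ← ih, L.op_sub]
    have h : op P τ (fun y => op P 1 g y) z = op P (τ + 1) g z :=
      congrFun (L.op_op τ 1 g) z
    rw [h]; ring

/-- Dirichlet form identity -/
theorem dirichlet_68 {μ : S → ℝ} {P : Matrix S S ℝ} (hc : IsChain μ P) (G H : S → ℝ) :
    av μ (fun x => G x * ((∑ y, P x y * H y) - H x)) =
      -(1 / 2) * ∑ a, ∑ b, μ a * P a b * ((G b - G a) * (H b - H a)) := by
  obtain ⟨h0, h1, h2, h3, h4⟩ := hc
  have e1 : av μ (fun x => G x * ((∑ y, P x y * H y) - H x)) =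
      ∑ a, ∑ b, μ a * P a b * (G a * (H b - H a)) := by
    simp only [av]
    refine Finset.sum_congr rfl fun a _ => ?_
    have hH : H a = ∑ b, P a b * H a := by rw [← Finset.sum_mul, h3 a, one_mul]
    calc μ a * (G a * ((∑ y, P a y * H y) - H a))
        = μ a * (G a * ((∑ y, P a y * H y) - ∑ b, P a b * H a)) := by rw [← hH]
      _ = ∑ b, μ a * P a b * (G a * (H b - H a)) := by
          rw [← Finset.sum_sub_distrib, Finset.mul_sum, Finset.mul_sum]
          refine Finset.sum_congr rfl fun b _ => ?_
          ring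
  have e2 : ∑ a, ∑ b, μ a * P a b * (G a * (H b - H a)) =
      ∑ a, ∑ b, μ a * P a b * (G b * (H a - H b)) := by
    rw [Finset.sum_comm]
    refine Finset.sum_congr rfl fun a _ => Finset.sum_congr rfl fun b _ => ?_
    rw [h4 b a]
  have e3 : ∑ a, ∑ b, μ a * P a b * ((G b - G a) * (H b - H a)) =
      -(∑ a, ∑ b, μ a * P a b * (G a * (H b - H a))) -
        ∑ a, ∑ b, μ a * P a b * (G b * (H a - H b)) := by
    rw [← Finset.sum_neg_distrib, ← Finset.sum_sub_distrib]
    refine Finset.sum_congr rfl fun a _ => ?_
    rw [← Finset.sum_neg_distrib, ← Finset.sum_sub_distrib]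
    refine Finset.sum_congr rfl fun b _ => ?_
    ring
  rw [e1, e3, ← e2]; ring

theorem stDual_68 : StDual := by
  intro S _ _ μ P hc L n f τ s
  have key : ∀ k : Fin n, av μ (fun b => om P f k b * op P s (fun z => |hh P f τ k z|) b) =
      -(1 / 2) * ∑ a, ∑ b, μ a * P a b *
        ((Mk P f τ s k b - Mk P f τ s k a) * (F f k b - F f k a)) := by
    intro k
    rw [L.av_adj s (om P f k) (fun z => |hh P f τ k z|)]
    have e1 : av μ (fun x => op P s (om P f k) x * |hh P f τ k x|) =
        av μ (fun x => zt P f τ s k x * hh P f τ k x) := by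
      simp only [av]
      refine Finset.sum_congr rfl fun x _ => ?_
      unfold zt
      have hs : |hh P f τ k x| = (SignType.sign (hh P f τ k x) : ℝ) * hh P f τ k x := by
        rw [sign_mul_self]
      rw [hs]; ring
    rw [e1]
    have e2 : ∀ x, hh P f τ k x =
        ∑ i ∈ Finset.range τ, op P i (fun y => op P 1 (F f k) y - F f k y) x :=
      fun x => tele_68 L (F f k) τ x
    have e3 : av μ (fun x => zt P f τ s k x * hh P f τ k x) =
        av μ (fun x => Mk P f τ s k x * (op P 1 (F f k) x - F f k x)) := by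
      calc av μ (fun x => zt P f τ s k x * hh P f τ k x)
          = ∑ i ∈ Finset.range τ, av μ (fun x => zt P f τ s k x *
              op P i (fun y => op P 1 (F f k) y - F f k y) x) := by
            simp only [av]
            rw [Finset.sum_comm]
            refine Finset.sum_congr rfl fun x _ => ?_
            rw [e2 x, Finset.mul_sum, Finset.mul_sum]
        _ = ∑ i ∈ Finset.range τ, av μ (fun x => op P i (zt P f τ s k) x *
              (op P 1 (F f k) x - F f k x)) := by
            refine Finset.sum_congr rfl fun i _ => ?_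
            exact L.av_adj i (zt P f τ s k) (fun y => op P 1 (F f k) y - F f k y)
        _ = av μ (fun x => Mk P f τ s k x * (op P 1 (F f k) x - F f k x)) := by
            simp only [av, Mk]
            rw [Finset.sum_comm]
            refine Finset.sum_congr rfl fun x _ => ?_
            rw [Finset.sum_mul, Finset.mul_sum]
    rw [e3, ← dirichlet_68 hc (Mk P f τ s k) (F f k)]
    simp only [av]
    refine Finset.sum_congr rfl fun x _ => ?_
    rw [L.op_one]
  have abel : ∀ a b : S, ∑ k, (Mk P f τ s k b - Mk P f τ s k a) * (F f k b - F f k a) =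
      ∑ j, (f b j - f a j) * (UU P f τ s j b - UU P f τ s j a) := by
    intro a b
    have h1 : ∀ k, F f k b - F f k a = ∑ j, if j ≤ k then (f b j - f a j) else 0 := by
      intro k
      unfold F
      rw [← Finset.sum_sub_distrib]
      refine Finset.sum_congr rfl fun j _ => ?_
      split_ifs <;> simp
    have h2 : ∀ j, UU P f τ s j b - UU P f τ s j a =
        ∑ k, if j ≤ k then (Mk P f τ s k b - Mk P f τ s k a) else 0 := by
      intro j
      unfold UU
      rw [← Finset.sum_sub_distrib]
      refine Finset.sum_congr rfl fun k _ => ?_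
      split_ifs <;> simp
    simp_rw [h1, h2, Finset.mul_sum]
    rw [Finset.sum_comm]
    refine Finset.sum_congr rfl fun j _ => Finset.sum_congr rfl fun k _ => ?_
    split_ifs <;> ring
  have hR : Rr μ P f τ s = -(1 / 2) * ∑ a, ∑ b, μ a * P a b *
      ∑ j, (f b j - f a j) * (UU P f τ s j b - UU P f τ s j a) := by
    unfold Rr
    rw [Finset.sum_congr rfl (fun k _ => key k), ← Finset.mul_sum]
    congr 1
    rw [Finset.sum_comm]
    refine Finset.sum_congr rfl fun a _ => ?_
    rw [Finset.sum_comm]
    refine Finset.sum_congr rfl fun b _ => ?_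
    rw [← Finset.mul_sum, abel a b]
  rw [hR, neg_mul, ← mul_neg, ← Finset.sum_neg_distrib]
  refine mul_le_mul_of_nonneg_left ?_ (by norm_num)
  refine Finset.sum_le_sum fun a _ => ?_
  rw [← Finset.sum_neg_distrib]
  refine Finset.sum_le_sum fun b _ => ?_
  rw [← mul_neg]
  have hP : 0 ≤ P a b := hc.2.2.1 a b
  refine mul_le_mul_of_nonneg_left ?_ (mul_nonneg (L.mu_nonneg a) hP)
  rw [← Finset.sum_neg_distrib]
  refine Finset.sum_le_sum fun j _ => ?_
  unfold w
  rw [← abs_mul]
  have hx : -((f b j - f a j) * (UU P f τ s j b - UU P f τ s j a)) =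
      (f b j - f a j) * (UU P f τ s j a - UU P f τ s j b) := by ring
  rw [hx]; exact le_abs_self _

end Vale.Agent.P125.Poly
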