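import Vale.Agent.P125.Poly.Blk_10

set_option linter.unusedSectionVars false
set_option linter.unusedVariables false

/-!
# P125 Poly: `StRem` (remainder of the block decomposition) from `StSmall`, `StTriv1`
-/

namespace Vale.Agent.P125.Poly

open scoped BigOperators
open Vale.Agent.P125.Dich

theorem stRem_10 (hs : StSmall) (h1 : StTriv1) : StRem := by
  intro S _ _ μ P hc hL n f m ρ
  obtain ⟨hom0, homsum, hlb0, hl20, havl2, havlb, hU0, hFell, hwsym, hellsym⟩ := hs S μ P hc hL n f
  set G : S → ℝ := fun b => ∑ i ∈ Finset.range ρ, op P (m + i) (lbar P f) b with hG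
  have hpt : ∀ k b, Ak P f (m + ρ) k b ≤ Ak P f m k b + G b := by
    intro k b
    have e1 : Ak P f (m + ρ) k b
        = ∑ z, (P ^ m) b z * ∑ y, (P ^ ρ) z y * |F f k y - F f k b| := by
      unfold Ak
      simp only [hL.pw_add m ρ b, Finset.sum_mul, Finset.mul_sum]
      rw [Finset.sum_comm]
      refine Finset.sum_congr rfl fun z _ => Finset.sum_congr rfl fun y _ => ?_
      ring
    have e2 : ∀ z, ∑ y, (P ^ ρ) z y * |F f k y - F f k b| ≤
        Ak P f ρ k z + |F f k z - F f k b| := by
      intro z
      have : ∑ y, (P ^ ρ) z y * |F f k y - F f k b| ≤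
          ∑ y, ((P ^ ρ) z y * |F f k y - F f k z| + (P ^ ρ) z y * |F f k z - F f k b|) := by
        refine Finset.sum_le_sum fun y _ => ?_
        rw [← mul_add]
        refine mul_le_mul_of_nonneg_left ?_ (hL.pw_nonneg ρ z y)
        have : F f k y - F f k b = (F f k y - F f k z) + (F f k z - F f k b) := by ring
        rw [this]
        exact abs_add_le _ _
      refine this.trans (le_of_eq ?_)
      rw [Finset.sum_add_distrib, ← Finset.sum_mul, hL.pw_sum ρ z, one_mul]
      rfl
    rw [e1]
    have e3 : ∑ z, (P ^ m) b z * ∑ y, (P ^ ρ) z y * |F f k y - F f k b| ≤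
        ∑ z, ((P ^ m) b z * (∑ i ∈ Finset.range ρ, op P i (lbar P f) z)
          + (P ^ m) b z * |F f k z - F f k b|) := by
      refine Finset.sum_le_sum fun z _ => ?_
      rw [← mul_add]
      refine mul_le_mul_of_nonneg_left ?_ (hL.pw_nonneg m b z)
      have := h1 S μ P hc hL n f k ρ z
      linarith [e2 z]
    refine e3.trans (le_of_eq ?_)
    rw [Finset.sum_add_distrib, add_comm]
    congr 1
    have e4 : ∑ z, (P ^ m) b z * (∑ i ∈ Finset.range ρ, op P i (lbar P f) z)
        = op P m (fun z => ∑ i ∈ Finset.range ρ, op P i (lbar P f) z) b := rfl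
    rw [e4, hL.op_sum]
    refine Finset.sum_congr rfl fun i _ => ?_
    rw [hL.op_op]
  have hQ : Qsum μ P f (m + ρ) ≤ Qsum μ P f m + av μ (fun b => lbar P f b * G b) := by
    unfold Qsum Qk
    have e0 : av μ (fun b => lbar P f b * G b) = ∑ k, av μ (fun b => om P f k b * G b) := by
      rw [← av_sum_10]
      unfold av
      refine Finset.sum_congr rfl fun b _ => ?_
      beta_reduce
      rw [← homsum b, Finset.sum_mul]
    rw [e0, ← Finset.sum_add_distrib]
    refine Finset.sum_le_sum fun k _ => ?_
    have e : av μ (fun b => om P f k b * Ak P f m k b) + av μ (fun b => om P f k b * G b)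
        = av μ (fun b => om P f k b * (Ak P f m k b + G b)) := by
      unfold av
      rw [← Finset.sum_add_distrib]
      refine Finset.sum_congr rfl fun b _ => ?_
      beta_reduce
      ring
    rw [e]
    exact hL.av_mono _ _ (fun b => mul_le_mul_of_nonneg_left (hpt k b) (hom0 k b))
  have hterm : ∀ i, av μ (fun b => lbar P f b * op P (m + i) (lbar P f) b) ≤ U μ P f := by
    intro i
    have hcs := hL.av_cs (lbar P f) (op P (m + i) (lbar P f))
    have h2 : av μ (fun x => op P (m + i) (lbar P f) x ^ 2) ≤ U μ P f := by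
      have h3 := hL.av_mono _ _ (fun x => hL.sq_op (m + i) (lbar P f) x)
      rw [hL.av_op] at h3
      exact h3.trans havlb
    have h4 : Real.sqrt (av μ fun x => lbar P f x ^ 2) ≤ Real.sqrt (U μ P f) :=
      Real.sqrt_le_sqrt havlb
    have h5 : Real.sqrt (av μ fun x => op P (m + i) (lbar P f) x ^ 2) ≤ Real.sqrt (U μ P f) :=
      Real.sqrt_le_sqrt h2
    have h6 := mul_le_mul h4 h5 (Real.sqrt_nonneg _) (Real.sqrt_nonneg _)
    rw [Real.mul_self_sqrt hU0] at h6
    exact hcs.trans h6
  have hG2 : av μ (fun b => lbar P f b * G b) ≤ ρ * U μ P f := by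
    have e : av μ (fun b => lbar P f b * G b)
        = ∑ i ∈ Finset.range ρ, av μ (fun b => lbar P f b * op P (m + i) (lbar P f) b) := by
      rw [← av_sum_10]
      unfold av
      refine Finset.sum_congr rfl fun b _ => ?_
      beta_reduce
      rw [hG, Finset.mul_sum]
    rw [e]
    refine (Finset.sum_le_sum fun i _ => hterm i).trans (le_of_eq ?_)
    rw [Finset.sum_const, Finset.card_range, nsmul_eq_mul]
  linarith

end Vale.Agent.P125.Poly
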