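import Vale.Agent.P125.Poly.Defs58

set_option linter.unusedSectionVars false
set_option linter.unusedVariables false

/-!
# P125 Poly: the bound of `Q` (subtask Q), from REM, BLK and RB
-/

namespace Vale.Agent.P125.Poly

open scoped BigOperators
open Vale.Agent.P125.Dich

theorem stQ_49 (hs : StSmall) (h1 : StRem) (h2 : StBlk) (h3 : StR) : StQ := by
  intro S _ _ μ P hc hL n f τ t' hτ
  obtain ⟨-, -, -, -, -, -, hU, -, -, -⟩ := hs S μ P hc hL n f
  have ht : t' = τ * (t' / τ) + t' % τ := (Nat.div_add_mod t' τ).symm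
  have hρlt : t' % τ < τ := Nat.mod_lt _ (by omega)
  generalize t' / τ = J at ht
  generalize t' % τ = ρ at ht hρlt
  have a1 := h1 S μ P hc hL n f (τ * J) ρ
  have a2 := h2 S μ P hc hL n f τ J
  have a3 : ∑ j ∈ Finset.range J, Rr μ P f τ (τ * j)
      ≤ J * ((3 / 2) * (τ : ℝ) ^ (3 / 4 : ℝ) * U μ P f) := by
    have := Finset.sum_le_card_nsmul (Finset.range J) (fun j => Rr μ P f τ (τ * j))
      ((3 / 2) * (τ : ℝ) ^ (3 / 4 : ℝ) * U μ P f) (fun j _ => h3 S μ P hc hL n f τ (τ * j))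
    simpa using this
  rw [← ht] at a1
  have hτ0 : (0 : ℝ) < τ := by exact_mod_cast (by omega : 0 < τ)
  have hJτ : (J : ℝ) * τ ≤ t' := by
    have h0 : τ * J ≤ t' := by omega
    have h' : ((τ * J : ℕ) : ℝ) ≤ (t' : ℝ) := by exact_mod_cast h0
    push_cast at h'
    linarith
  have b1 : Real.sqrt J * τ ≤ Real.sqrt (t' * τ) := by
    have e : Real.sqrt J * τ = Real.sqrt (J * τ * τ) := by
      rw [mul_assoc, Real.sqrt_mul (Nat.cast_nonneg J), Real.sqrt_mul_self hτ0.le]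
    rw [e]
    exact Real.sqrt_le_sqrt (mul_le_mul_of_nonneg_right hJτ hτ0.le)
  have b2 : (J : ℝ) * (τ : ℝ) ^ (3 / 4 : ℝ) ≤ t' * (τ : ℝ) ^ (-(1 / 4) : ℝ) := by
    have e : (τ : ℝ) ^ (3 / 4 : ℝ) = τ * (τ : ℝ) ^ (-(1 / 4) : ℝ) := by
      have h34 : (3 / 4 : ℝ) = 1 + (-(1 / 4)) := by norm_num
      rw [h34, Real.rpow_add hτ0, Real.rpow_one]
    rw [e, ← mul_assoc]
    exact mul_le_mul_of_nonneg_right hJτ (Real.rpow_nonneg hτ0.le _)
  have b3 : (ρ : ℝ) ≤ τ := by exact_mod_cast hρlt.le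
  have c1 := mul_le_mul_of_nonneg_right b1 hU
  have c2 := mul_le_mul_of_nonneg_right b2 hU
  have c3 := mul_le_mul_of_nonneg_right b3 hU
  nlinarith [c1, c2, c3, a1, a2, a3]

end Vale.Agent.P125.Poly
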