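import Vale.Agent.P125.Poly.Defs58

set_option linter.unusedSectionVars false
set_option linter.unusedVariables false

/-!
# P125 Poly: remainder of the block decomposition (subtask REM)
-/

namespace Vale.Agent.P125.Poly

open scoped BigOperators
open Vale.Agent.P125.Dich

theorem stRem_16 (hs : StSmall) (h1 : StTriv1) : StRem := by
  intro S _ _ μ P hc hL n f m ρ
  obtain ⟨hom0, homsum, hlb0, hl20, hl2U, hlbU, hU0, hFell, hwsymm, hellsymm⟩ :=
    hs S μ P hc hL n f
  set D : S → ℝ := fun z => ∑ i ∈ Finset.range ρ, op P i (lbar P f) z with hD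
  have hA : ∀ k b, Ak P f (m + ρ) k b ≤ Ak P f m k b + op P m D b := by
    intro k b
    have e1 : Ak P f (m + ρ) k b
        = ∑ z, ∑ y, (P ^ m) b z * (P ^ ρ) z y * |F f k y - F f k b| := by
      simp only [Ak]
      rw [Finset.sum_comm]
      refine Finset.sum_congr rfl fun y _ => ?_
      rw [hL.pw_add, Finset.sum_mul]
    rw [e1]
    have e2 : ∀ z, ∑ y, (P ^ m) b z * (P ^ ρ) z y * |F f k y - F f k b|
        ≤ (P ^ m) b z * |F f k z - F f k b| + (P ^ m) b z * D z := by
      intro z
      calc ∑ y, (P ^ m) b z * (P ^ ρ) z y * |F f k y - F f k b|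
          ≤ ∑ y, ((P ^ m) b z * |F f k z - F f k b| * (P ^ ρ) z y
              + (P ^ m) b z * ((P ^ ρ) z y * |F f k y - F f k z|)) := by
            refine Finset.sum_le_sum fun y _ => ?_
            have t : |F f k y - F f k b| ≤ |F f k y - F f k z| + |F f k z - F f k b| :=
              abs_sub_le _ _ _
            have p : 0 ≤ (P ^ m) b z * (P ^ ρ) z y :=
              mul_nonneg (hL.pw_nonneg _ _ _) (hL.pw_nonneg _ _ _)
            have := mul_le_mul_of_nonneg_left t p
            calc (P ^ m) b z * (P ^ ρ) z y * |F f k y - F f k b|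
                ≤ (P ^ m) b z * (P ^ ρ) z y * (|F f k y - F f k z| + |F f k z - F f k b|) := this
              _ = _ := by ring
        _ = (P ^ m) b z * |F f k z - F f k b| + (P ^ m) b z * Ak P f ρ k z := by
            rw [Finset.sum_add_distrib, ← Finset.mul_sum, ← Finset.mul_sum, hL.pw_sum, mul_one]
            rfl
        _ ≤ _ := by
            have h2 := h1 S μ P hc hL n f k ρ z
            have h3 := mul_le_mul_of_nonneg_left h2 (hL.pw_nonneg m b z)
            linarith
    calc ∑ z, ∑ y, (P ^ m) b z * (P ^ ρ) z y * |F f k y - F f k b|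
        ≤ ∑ z, ((P ^ m) b z * |F f k z - F f k b| + (P ^ m) b z * D z) :=
          Finset.sum_le_sum fun z _ => e2 z
      _ = _ := by
          rw [Finset.sum_add_distrib]
          rfl
  have hQ : Qsum μ P f (m + ρ)
      ≤ Qsum μ P f m + av μ (fun b => lbar P f b * op P m D b) := by
    simp only [Qsum, Qk]
    calc ∑ k, av μ (fun b => om P f k b * Ak P f (m + ρ) k b)
        ≤ ∑ k, (av μ (fun b => om P f k b * Ak P f m k b)
            + av μ (fun b => om P f k b * op P m D b)) := by
          refine Finset.sum_le_sum fun k _ => ?_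
          have e : av μ (fun b => om P f k b * Ak P f m k b)
              + av μ (fun b => om P f k b * op P m D b)
              = av μ (fun b => om P f k b * (Ak P f m k b + op P m D b)) := by
            simp only [av, ← Finset.sum_add_distrib]
            refine Finset.sum_congr rfl fun b _ => by ring
          rw [e]
          exact hL.av_mono _ _ fun b => mul_le_mul_of_nonneg_left (hA k b) (hom0 k b)
      _ = _ := by
          rw [Finset.sum_add_distrib]
          congr 1
          simp only [av]
          rw [Finset.sum_comm]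
          refine Finset.sum_congr rfl fun b _ => ?_
          rw [← homsum b, Finset.sum_mul, Finset.mul_sum]
  have hterm : ∀ j, av μ (fun b => lbar P f b * op P j (lbar P f) b) ≤ U μ P f := by
    intro j
    have c := hL.av_cs (lbar P f) (op P j (lbar P f))
    have s1 : av μ (fun x => op P j (lbar P f) x ^ 2) ≤ av μ (fun x => lbar P f x ^ 2) := by
      calc av μ (fun x => op P j (lbar P f) x ^ 2)
          ≤ av μ (op P j (fun y => lbar P f y ^ 2)) :=
            hL.av_mono _ _ (fun x => hL.sq_op j _ x)
        _ = _ := hL.av_op j _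
    have s2 : Real.sqrt (av μ (fun x => op P j (lbar P f) x ^ 2)) ≤ Real.sqrt (U μ P f) :=
      Real.sqrt_le_sqrt (s1.trans hlbU)
    have s3 : Real.sqrt (av μ (fun x => lbar P f x ^ 2)) ≤ Real.sqrt (U μ P f) :=
      Real.sqrt_le_sqrt hlbU
    calc av μ (fun b => lbar P f b * op P j (lbar P f) b)
        ≤ Real.sqrt (av μ (fun x => lbar P f x ^ 2))
            * Real.sqrt (av μ (fun x => op P j (lbar P f) x ^ 2)) := c
      _ ≤ Real.sqrt (U μ P f) * Real.sqrt (U μ P f) :=
          mul_le_mul s3 s2 (Real.sqrt_nonneg _) (Real.sqrt_nonneg _)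
      _ = U μ P f := Real.mul_self_sqrt hU0
  have hD2 : av μ (fun b => lbar P f b * op P m D b)
      = ∑ i ∈ Finset.range ρ, av μ (fun b => lbar P f b * op P (m + i) (lbar P f) b) := by
    have e : ∀ b, op P m D b = ∑ i ∈ Finset.range ρ, op P (m + i) (lbar P f) b := by
      intro b
      rw [hD, hL.op_sum]
      refine Finset.sum_congr rfl fun i _ => ?_
      rw [hL.op_op]
    simp only [av, e]
    rw [Finset.sum_comm]
    refine Finset.sum_congr rfl fun b _ => ?_
    rw [Finset.mul_sum, Finset.mul_sum]
  have hD3 : av μ (fun b => lbar P f b * op P m D b) ≤ ρ * U μ P f := by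
    rw [hD2]
    calc ∑ i ∈ Finset.range ρ, av μ (fun b => lbar P f b * op P (m + i) (lbar P f) b)
        ≤ ∑ i ∈ Finset.range ρ, U μ P f := Finset.sum_le_sum fun i _ => hterm (m + i)
      _ = ρ * U μ P f := by simp
  linarith

end Vale.Agent.P125.Poly
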