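import Mathlib

/-!
# P125, polynomial rate: Step 3 without martingales (part (B) of board 624)
-/

namespace Vale.Agent.P125.Poly93

open scoped BigOperators

theorem sqrt_shift (x b s : ℝ) (hs : 0 ≤ s) :
    Real.sqrt ((x + b) ^ 2 + s) ≤ Real.sqrt (x ^ 2 + s) + |b| := by
  have h1 : 0 ≤ Real.sqrt (x ^ 2 + s) := Real.sqrt_nonneg _
  have h2 : 0 ≤ x ^ 2 + s := by positivity
  have h3 : |x| ≤ Real.sqrt (x ^ 2 + s) := by
    apply Real.abs_le_sqrt
    linarith
  rw [Real.sqrt_le_left (by positivity)]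
  have h4 : Real.sqrt (x ^ 2 + s) ^ 2 = x ^ 2 + s := Real.sq_sqrt h2
  have h5 : x * b ≤ |x| * |b| := by
    rw [← abs_mul]
    exact le_abs_self _
  have h6 : |x| * |b| ≤ Real.sqrt (x ^ 2 + s) * |b| :=
    mul_le_mul_of_nonneg_right h3 (abs_nonneg _)
  have h7 : |b| ^ 2 = b ^ 2 := sq_abs b
  nlinarith

/-- Jensen for the square root -/
theorem sum_sqrt_le {S : Type} [Fintype S] (p A : S → ℝ) (hp : ∀ w, 0 ≤ p w)
    (hp1 : ∑ w, p w = 1) (hA : ∀ w, 0 ≤ A w) :
    ∑ w, p w * Real.sqrt (A w) ≤ Real.sqrt (∑ w, p w * A w) := by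
  apply Real.le_sqrt_of_sq_le
  have h := Finset.sum_mul_sq_le_sq_mul_sq Finset.univ (fun w => Real.sqrt (p w))
    (fun w => Real.sqrt (p w) * Real.sqrt (A w))
  have e1 : ∀ w, Real.sqrt (p w) * (Real.sqrt (p w) * Real.sqrt (A w)) = p w * Real.sqrt (A w) := by
    intro w
    rw [← mul_assoc, Real.mul_self_sqrt (hp w)]
  have e2 : ∀ w, Real.sqrt (p w) ^ 2 = p w := fun w => Real.sq_sqrt (hp w)
  have e3 : ∀ w, (Real.sqrt (p w) * Real.sqrt (A w)) ^ 2 = p w * A w := by
    intro w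
    rw [mul_pow, Real.sq_sqrt (hp w), Real.sq_sqrt (hA w)]
  simp only [e1, e2, e3, hp1, one_mul] at h
  exact h

variable {S : Type} [Fintype S] [DecidableEq S]

theorem pow_nonneg_entry (R : Matrix S S ℝ) (h0 : ∀ i j, 0 ≤ R i j) (m : ℕ) :
    ∀ i j, 0 ≤ (R ^ m) i j := by
  induction m with
  | zero =>
    intro i j
    rw [pow_zero, Matrix.one_apply]
    split_ifs <;> norm_num
  | succ m ih =>
    intro i j
    rw [pow_succ, Matrix.mul_apply]
    exact Finset.sum_nonneg fun k _ => mul_nonneg (ih i k) (h0 k j)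

/-- one more step in front -/
theorem pow_succ_apply_sum (R : Matrix S S ℝ) (m : ℕ) (y : S) (φ : S → ℝ) :
    ∑ z, (R ^ (m + 1)) y z * φ z = ∑ w, R y w * ∑ z, (R ^ m) w z * φ z := by
  rw [pow_succ']
  simp only [Matrix.mul_apply, Finset.sum_mul, Finset.mul_sum]
  rw [Finset.sum_comm]
  apply Finset.sum_congr rfl
  intro w _
  apply Finset.sum_congr rfl
  intro z _
  ring

/-- **Step 3 without martingales.** -/
theorem no_mart (R : Matrix S S ℝ) (h0 : ∀ i j, 0 ≤ R i j) (h1 : ∀ i, ∑ j, R i j = 1)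
    (F : S → ℝ) (c : ℝ) (m : ℕ) : ∀ y : S,
    ∑ z, (R ^ m) y z * |F z - c| ≤
      Real.sqrt ((F y - c) ^ 2 + ∑ i ∈ Finset.range m,
          ∑ z, (R ^ i) y z * (∑ w, R z w * (F w - F z) ^ 2))
        + ∑ i ∈ Finset.range m, ∑ z, (R ^ i) y z * |∑ w, R z w * F w - F z| := by
  set V : S → ℝ := fun z => ∑ w, R z w * (F w - F z) ^ 2 with hV
  set h : S → ℝ := fun z => ∑ w, R z w * F w - F z with hh
  have hV0 : ∀ z, 0 ≤ V z := fun z =>
    Finset.sum_nonneg fun w _ => mul_nonneg (h0 z w) (sq_nonneg _)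
  have hRV0 : ∀ i y, 0 ≤ ∑ z, (R ^ i) y z * V z := fun i y =>
    Finset.sum_nonneg fun z _ => mul_nonneg (pow_nonneg_entry R h0 i y z) (hV0 z)
  induction m with
  | zero =>
    intro y
    simp only [pow_zero, Finset.range_zero, Finset.sum_empty, add_zero, Matrix.one_apply]
    simp only [ite_mul, one_mul, zero_mul, Finset.sum_ite_eq, Finset.mem_univ, if_true]
    rw [Real.sqrt_sq_eq_abs]
  | succ m ih =>
    intro y
    rw [pow_succ_apply_sum]
    -- apply the induction hypothesis after the first step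
    have s1 : ∑ w, R y w * ∑ z, (R ^ m) w z * |F z - c| ≤
        ∑ w, R y w * (Real.sqrt ((F w - c) ^ 2 + ∑ i ∈ Finset.range m, ∑ z, (R ^ i) w z * V z)
          + ∑ i ∈ Finset.range m, ∑ z, (R ^ i) w z * |h z|) :=
      Finset.sum_le_sum fun w _ => mul_le_mul_of_nonneg_left (ih w) (h0 y w)
    refine s1.trans ?_
    simp only [mul_add, Finset.sum_add_distrib]
    -- the square root part
    have s2 := sum_sqrt_le (fun w => R y w)
      (fun w => (F w - c) ^ 2 + ∑ i ∈ Finset.range m, ∑ z, (R ^ i) w z * V z) (h0 y) (h1 y)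
      (fun w => add_nonneg (sq_nonneg _) (Finset.sum_nonneg fun i _ => hRV0 i w))
    have e1 : ∑ w, R y w * ((F w - c) ^ 2 + ∑ i ∈ Finset.range m, ∑ z, (R ^ i) w z * V z) =
        ∑ w, R y w * (F w - c) ^ 2 + ∑ i ∈ Finset.range m, ∑ z, (R ^ (i + 1)) y z * V z := by
      simp only [mul_add, Finset.sum_add_distrib]
      congr 1
      simp only [pow_succ_apply_sum, Finset.mul_sum]
      rw [Finset.sum_comm]
    have e2 : ∑ w, R y w * (F w - c) ^ 2 = (F y - c + h y) ^ 2 + V y - h y ^ 2 := by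
      have a1 : ∀ w, R y w * (F w - c) ^ 2 =
          R y w * (F w - F y) ^ 2 + 2 * (F y - c) * (R y w * F w) - 2 * (F y - c) * F y * R y w
            + (F y - c) ^ 2 * R y w := by
        intro w
        ring
      simp only [a1, Finset.sum_add_distrib, Finset.sum_sub_distrib, ← Finset.mul_sum, h1 y]
      simp only [hh, hV]
      ring
    have e3 : ∑ i ∈ Finset.range (m + 1), ∑ z, (R ^ i) y z * V z =
        V y + ∑ i ∈ Finset.range m, ∑ z, (R ^ (i + 1)) y z * V z := by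
      rw [Finset.sum_range_succ', add_comm]
      congr 1
      simp only [pow_zero, Matrix.one_apply, ite_mul, one_mul, zero_mul, Finset.sum_ite_eq,
        Finset.mem_univ, if_true]
    have e4 : ∑ i ∈ Finset.range (m + 1), ∑ z, (R ^ i) y z * |h z| =
        |h y| + ∑ i ∈ Finset.range m, ∑ z, (R ^ (i + 1)) y z * |h z| := by
      rw [Finset.sum_range_succ', add_comm]
      congr 1
      simp only [pow_zero, Matrix.one_apply, ite_mul, one_mul, zero_mul, Finset.sum_ite_eq,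
        Finset.mem_univ, if_true]
    have e5 : ∑ w, R y w * ∑ i ∈ Finset.range m, ∑ z, (R ^ i) w z * |h z| =
        ∑ i ∈ Finset.range m, ∑ z, (R ^ (i + 1)) y z * |h z| := by
      simp only [pow_succ_apply_sum, Finset.mul_sum]
      rw [Finset.sum_comm]
    have hs0 : 0 ≤ ∑ i ∈ Finset.range (m + 1), ∑ z, (R ^ i) y z * V z :=
      Finset.sum_nonneg fun i _ => hRV0 i y
    have s3 := sqrt_shift (F y - c) (h y) _ hs0
    have s4 : Real.sqrt (∑ w, R y w *
        ((F w - c) ^ 2 + ∑ i ∈ Finset.range m, ∑ z, (R ^ i) w z * V z)) ≤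
        Real.sqrt ((F y - c + h y) ^ 2 + ∑ i ∈ Finset.range (m + 1), ∑ z, (R ^ i) y z * V z) := by
      apply Real.sqrt_le_sqrt
      rw [e1, e2, e3]
      nlinarith [sq_nonneg (h y)]
    rw [e5, e4]
    linarith

end Vale.Agent.P125.Poly93
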