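import Vale.Agent.P125.Poly.Defs58
import Vale.Agent.P125.Poly.NoMart_93

set_option linter.unusedSectionVars false
set_option linter.unusedVariables false

namespace Vale.Agent.P125.Poly

open scoped BigOperators
open Vale.Agent.P125.Dich

theorem stSqrt_93 : StSqrt := by
  intro S _ _ μ R hC hL G J c b
  obtain ⟨h1, h2, h3, h4, h5⟩ := hC
  have key := Poly93.no_mart R h3 h4 G (G b - c) J b
  have e1 : ∀ y, |G y - (G b - c)| = |c + G y - G b| := by
    intro y
    congr 1
    ring
  have e2 : (G b - (G b - c)) ^ 2 = c ^ 2 := by ring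
  have e3 : ∀ z, ∑ w, R z w * G w - G z = ∑ y, R z y * (G y - G z) := by
    intro z
    simp only [mul_sub, Finset.sum_sub_distrib, ← Finset.sum_mul, h4 z, one_mul]
  simp only [e1, e2, e3] at key
  exact key

end Vale.Agent.P125.Poly
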