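import Mathlib
import Vale.Agent.P125.Poly.Defs58

/-!
# P125 Poly: telescoping along the four point path measure, shape `StTel` of `Defs58`
-/

namespace Vale.Agent.P125.Poly

open scoped BigOperators
open Vale.Agent.P125.Dich

theorem stTel_68 : StTel := by
  intro S _ _ μ P hc L g Φ hΦ t
  have hP : ∀ a b, 0 ≤ P a b := hc.2.2.1
  have ident : ∀ x y : S, (P ^ t) x y * (g y - g x) =
      ∑ r ∈ Finset.range t, ∑ a, ∑ b,
        (P ^ r) x a * P a b * (P ^ (t - 1 - r)) b y * (g b - g a) := by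
    intro x y
    have hterm : ∀ r ∈ Finset.range t,
        ∑ a, ∑ b, (P ^ r) x a * P a b * (P ^ (t - 1 - r)) b y * (g b - g a) =
          (fun r => ∑ b, (P ^ r) x b * g b * (P ^ (t - r)) b y) (r + 1) -
            (fun r => ∑ b, (P ^ r) x b * g b * (P ^ (t - r)) b y) r := by
      intro r hr
      have hr' : r < t := Finset.mem_range.mp hr
      have h1 : ∑ a, ∑ b, (P ^ r) x a * P a b * (P ^ (t - 1 - r)) b y * g b =
          ∑ b, (P ^ (r + 1)) x b * g b * (P ^ (t - (r + 1))) b y := by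
        rw [Finset.sum_comm]
        refine Finset.sum_congr rfl fun b _ => ?_
        have ht : t - (r + 1) = t - 1 - r := by omega
        rw [ht, L.pw_add r 1 x b, Finset.sum_mul, Finset.sum_mul]
        refine Finset.sum_congr rfl fun a _ => ?_
        rw [pow_one]; ring
      have h2 : ∑ a, ∑ b, (P ^ r) x a * P a b * (P ^ (t - 1 - r)) b y * g a =
          ∑ b, (P ^ r) x b * g b * (P ^ (t - r)) b y := by
        refine Finset.sum_congr rfl fun a _ => ?_
        have ht : t - r = 1 + (t - 1 - r) := by omega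
        rw [ht, L.pw_add 1 (t - 1 - r) a y, Finset.mul_sum]
        refine Finset.sum_congr rfl fun b _ => ?_
        rw [pow_one]; ring
      show _ = (∑ b, (P ^ (r + 1)) x b * g b * (P ^ (t - (r + 1))) b y) -
        ∑ b, (P ^ r) x b * g b * (P ^ (t - r)) b y
      rw [← h1, ← h2, ← Finset.sum_sub_distrib]
      refine Finset.sum_congr rfl fun a _ => ?_
      rw [← Finset.sum_sub_distrib]
      refine Finset.sum_congr rfl fun b _ => ?_
      ring
    rw [Finset.sum_congr rfl hterm,
      Finset.sum_range_sub (fun r => ∑ b, (P ^ r) x b * g b * (P ^ (t - r)) b y) t]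
    have c0 : ∑ b, (P ^ 0) x b * g b * (P ^ (t - 0)) b y = g x * (P ^ t) x y := by
      simp [Matrix.one_apply]
    have ct : ∑ b, (P ^ t) x b * g b * (P ^ (t - t)) b y = (P ^ t) x y * g y := by
      simp [Matrix.one_apply]
    show _ = (∑ b, (P ^ t) x b * g b * (P ^ (t - t)) b y) -
      ∑ b, (P ^ 0) x b * g b * (P ^ (t - 0)) b y
    rw [c0, ct]; ring
  have pw : ∀ x y : S, μ x * (P ^ t) x y * (|g y - g x| * Φ x y) ≤
      ∑ r ∈ Finset.range t, ∑ a, ∑ b,
        μ x * (P ^ r) x a * P a b * (P ^ (t - 1 - r)) b y * (|g b - g a| * Φ x y) := by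
    intro x y
    have h1 : (P ^ t) x y * |g y - g x| ≤ ∑ r ∈ Finset.range t, ∑ a, ∑ b,
        (P ^ r) x a * P a b * (P ^ (t - 1 - r)) b y * |g b - g a| := by
      have h0 : (P ^ t) x y * |g y - g x| = |(P ^ t) x y * (g y - g x)| := by
        rw [abs_mul, abs_of_nonneg (L.pw_nonneg t x y)]
      rw [h0, ident x y]
      refine (Finset.abs_sum_le_sum_abs _ _).trans (Finset.sum_le_sum fun r _ => ?_)
      refine (Finset.abs_sum_le_sum_abs _ _).trans (Finset.sum_le_sum fun a _ => ?_)
      refine (Finset.abs_sum_le_sum_abs _ _).trans (Finset.sum_le_sum fun b _ => ?_)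
      rw [abs_mul, abs_of_nonneg (mul_nonneg (mul_nonneg (L.pw_nonneg r x a) (hP a b))
        (L.pw_nonneg _ b y))]
    have h2 : 0 ≤ μ x * Φ x y := mul_nonneg (L.mu_nonneg x) (hΦ x y)
    calc μ x * (P ^ t) x y * (|g y - g x| * Φ x y)
        = (μ x * Φ x y) * ((P ^ t) x y * |g y - g x|) := by ring
      _ ≤ (μ x * Φ x y) * ∑ r ∈ Finset.range t, ∑ a, ∑ b,
          (P ^ r) x a * P a b * (P ^ (t - 1 - r)) b y * |g b - g a| :=
          mul_le_mul_of_nonneg_left h1 h2
      _ = _ := by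
        rw [Finset.mul_sum]
        refine Finset.sum_congr rfl fun r _ => ?_
        rw [Finset.mul_sum]
        refine Finset.sum_congr rfl fun a _ => ?_
        rw [Finset.mul_sum]
        refine Finset.sum_congr rfl fun b _ => ?_
        ring
  have e1 : ∀ x : S, ∑ y, ∑ r ∈ Finset.range t, ∑ a, ∑ b,
        μ x * (P ^ r) x a * P a b * (P ^ (t - 1 - r)) b y * (|g b - g a| * Φ x y) =
      ∑ r ∈ Finset.range t, ∑ a, ∑ b, ∑ y,
        μ x * (P ^ r) x a * P a b * (P ^ (t - 1 - r)) b y * (|g b - g a| * Φ x y) := by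
    intro x
    rw [Finset.sum_comm]
    refine Finset.sum_congr rfl fun r _ => ?_
    rw [Finset.sum_comm]
    refine Finset.sum_congr rfl fun a _ => ?_
    rw [Finset.sum_comm]
  calc ∑ x, ∑ y, μ x * (P ^ t) x y * (|g y - g x| * Φ x y)
      ≤ ∑ x, ∑ y, ∑ r ∈ Finset.range t, ∑ a, ∑ b,
        μ x * (P ^ r) x a * P a b * (P ^ (t - 1 - r)) b y * (|g b - g a| * Φ x y) :=
        Finset.sum_le_sum fun x _ => Finset.sum_le_sum fun y _ => pw x y
    _ = _ := by
      rw [Finset.sum_congr rfl (fun x _ => e1 x), Finset.sum_comm]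

end Vale.Agent.P125.Poly
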