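import Vale.Agent.P125.Poly.Lib_16
import Vale.Agent.P125.Poly.Own_33
import Vale.Agent.P125.Poly.OwnT_27
import Vale.Agent.P125.Poly.Tel_68
import Vale.Agent.P125.Poly.Small_93
import Vale.Agent.P125.Poly.Col_85
import Vale.Agent.P125.Poly.Two_13
import Vale.Agent.P125.Poly.Triv1_69
import Vale.Agent.P125.Poly.Triv2_85
import Vale.Agent.P125.Poly.Sqrt_93
import Vale.Agent.P125.Poly.Rem_16
import Vale.Agent.P125.Poly.Blk_89
import Vale.Agent.P125.Poly.Dual_51
import Vale.Agent.P125.Poly.Down_73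
import Vale.Agent.P125.Poly.Back_88
import Vale.Agent.P125.Poly.En_56
import Vale.Agent.P125.Poly.BB_38
import Vale.Agent.P125.Poly.Xi_87
import Vale.Agent.P125.Poly.R_14
import Vale.Agent.P125.Poly.Q_49
import Vale.Agent.P125.Poly.Core_21
import Vale.Agent.P125.Poly.Wrap_75

/-!
# P125 Poly: assembly of the whole chain of `Defs58` (hedge copy by helper16)
-/

namespace Vale.Agent.P125.Poly

open scoped BigOperators
open Vale.Agent.P125.Dich

theorem stCore_all_16 : StCore := by
  have hLib : StLib := stLib_16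
  have hOwn : StOwn := stOwn_33
  have hOwnT : StOwnT := stOwnT_27 hOwn
  have hTel : StTel := stTel_68
  have hSm : StSmall := stSmall_93
  have hCol : StCol := stCol_85 hSm
  have hTwo : StTwo := stTwo_13 hOwn hTel hCol hSm
  have hT1 : StTriv1 := stTriv1_69 hSm
  have hT2 : StTriv2 := stTriv2_85 hSm
  have hSq : StSqrt := stSqrt_93
  have hRem : StRem := stRem_16 hSm hT1
  have hBlk : StBlk := stBlk_89 hLib hSm hT2 hSq
  have hDual : StDual := stDual_51
  have hDown : StDown := stDown_73 hOwnT hSm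
  have hBack : StBack := stBack_88 hSm
  have hEn : StEn := stEn_56 hSm
  have hBB : StBB := stBB_38 hSm
  have hXi : StXi := stXi_87 hSm hEn hBB
  have hR : StR := stR_14 hSm hDual hDown hBack hXi
  have hQ : StQ := stQ_49 hSm hRem hBlk hR
  exact stCore_21 hLib hSm hTwo hQ

theorem poly_rate_16 : ∀ t : ℕ, 1 ≤ t →
    ∀ (n : ℕ) (S : Type) [Fintype S] [DecidableEq S] (μ : S → ℝ) (P : Matrix S S ℝ),
      (∀ i, 0 ≤ μ i) → ∑ i, μ i = 1 → (∀ i j, 0 ≤ P i j) → (∀ i, ∑ j, P i j = 1) →
      (∀ i j, μ i * P i j = μ j * P j i) → ∀ f : S → Fin n → ℝ,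
        ∑ i, ∑ j, μ i * (P ^ t) i j *
            (Finset.univ.sup' Finset.univ_nonempty (fun k : Fin (n + 1) =>
              |∑ l : Fin n, if l.val < k.val then f j l - f i l else 0|)) ^ 2 ≤
          24 * (t : ℝ) ^ (11 / 6 : ℝ) *
            ∑ i, ∑ j, μ i * P i j * (∑ l : Fin n, |f j l - f i l|) ^ 2 :=
  stWrap_75 stCore_all_16

end Vale.Agent.P125.Poly
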