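import Mathlib
import Vale.Agent.P125.Poly.Defs58

/-!
# P125 Poly: REM (remainder of the block decomposition), race copy of helper27
-/

namespace Vale.Agent.P125.Poly

open scoped BigOperators
open Vale.Agent.P125.Dich

set_option linter.unusedSectionVars false
set_option linter.unusedVariables false

variable {S : Type} [Fintype S] [DecidableEq S]

theorem stRem_27 (hs : StSmall) (h1 : StTriv1) : StRem := by
  intro S _ _ μ P hc hL n f m ρ
  obtain ⟨hom0, homsum, hlb0, -, -, havlb, hU0, -, -, -⟩ := hs S μ P hc hL n f
  have hT := h1 S μ P hc hL n f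
  set B : S → ℝ := fun z => ∑ i ∈ Finset.range ρ, op P i (lbar P f) z with hB
  -- pointwise
  have hAk : ∀ k b, Ak P f (m + ρ) k b ≤ Ak P f m k b + op P m B b := by
    intro k b
    have e1 : Ak P f (m + ρ) k b =
        ∑ z, (P ^ m) b z * ∑ y, (P ^ ρ) z y * |F f k y - F f k b| := by
      unfold Ak
      simp only [hL.pw_add m ρ, Finset.sum_mul, Finset.mul_sum]
      rw [Finset.sum_comm]
      refine Finset.sum_congr rfl fun z _ => Finset.sum_congr rfl fun y _ => by ring
    have e2 : Ak P f m k b + op P m B b =
        ∑ z, (P ^ m) b z * (|F f k z - F f k b| + B z) := by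
      unfold Ak op
      rw [← Finset.sum_add_distrib]
      refine Finset.sum_congr rfl fun z _ => by ring
    rw [e1, e2]
    refine Finset.sum_le_sum fun z _ => mul_le_mul_of_nonneg_left ?_ (hL.pw_nonneg m b z)
    calc ∑ y, (P ^ ρ) z y * |F f k y - F f k b|
        ≤ ∑ y, (P ^ ρ) z y * (|F f k y - F f k z| + |F f k z - F f k b|) := by
          refine Finset.sum_le_sum fun y _ =>
            mul_le_mul_of_nonneg_left ?_ (hL.pw_nonneg ρ z y)
          have := abs_add_le (F f k y - F f k z) (F f k z - F f k b)
          have e : F f k y - F f k z + (F f k z - F f k b) = F f k y - F f k b := by ring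
          rwa [e] at this
      _ = Ak P f ρ k z + |F f k z - F f k b| := by
          simp only [mul_add]
          rw [Finset.sum_add_distrib, ← Finset.sum_mul, hL.pw_sum, one_mul]
          rfl
      _ ≤ |F f k z - F f k b| + B z := by
          have := hT k ρ z
          linarith
  -- cross term
  have hcross : ∀ j, av μ (fun b => lbar P f b * op P j (lbar P f) b) ≤ U μ P f := by
    intro j
    refine (hL.av_cs _ _).trans ?_
    have h2 : av μ (fun x => op P j (lbar P f) x ^ 2) ≤ U μ P f := by
      refine (hL.av_mono _ _ (fun x => hL.sq_op j (lbar P f) x)).trans ?_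
      rw [hL.av_op]
      exact havlb
    calc Real.sqrt (av μ fun x => lbar P f x ^ 2) * Real.sqrt (av μ fun x => op P j (lbar P f) x ^ 2)
        ≤ Real.sqrt (U μ P f) * Real.sqrt (U μ P f) :=
          mul_le_mul (Real.sqrt_le_sqrt havlb) (Real.sqrt_le_sqrt h2) (Real.sqrt_nonneg _)
            (Real.sqrt_nonneg _)
      _ = U μ P f := Real.mul_self_sqrt hU0
  have hC : av μ (fun b => lbar P f b * op P m B b) ≤ ρ * U μ P f := by
    have e : ∀ b, op P m B b = ∑ i ∈ Finset.range ρ, op P (m + i) (lbar P f) b := by
      intro b
      rw [hB, hL.op_sum ℕ (Finset.range ρ) m (fun i => op P i (lbar P f)) b]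
      refine Finset.sum_congr rfl fun i _ => ?_
      rw [hL.op_op]
    simp only [e]
    have e2 : av μ (fun b => lbar P f b * ∑ i ∈ Finset.range ρ, op P (m + i) (lbar P f) b) =
        ∑ i ∈ Finset.range ρ, av μ (fun b => lbar P f b * op P (m + i) (lbar P f) b) := by
      unfold av
      rw [Finset.sum_comm]
      refine Finset.sum_congr rfl fun z _ => ?_
      beta_reduce
      rw [Finset.mul_sum, Finset.mul_sum]
    rw [e2]
    calc ∑ i ∈ Finset.range ρ, av μ (fun b => lbar P f b * op P (m + i) (lbar P f) b)
        ≤ ∑ i ∈ Finset.range ρ, U μ P f := Finset.sum_le_sum fun i _ => hcross _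
      _ = ρ * U μ P f := by rw [Finset.sum_const, Finset.card_range, nsmul_eq_mul]
  -- assembly
  have hsum : ∑ k, av μ (fun b => om P f k b * op P m B b) =
      av μ (fun b => lbar P f b * op P m B b) := by
    unfold av
    rw [Finset.sum_comm]
    refine Finset.sum_congr rfl fun b _ => ?_
    beta_reduce
    rw [← homsum b, Finset.sum_mul, Finset.mul_sum]
  calc Qsum μ P f (m + ρ)
      ≤ ∑ k, (av μ (fun b => om P f k b * Ak P f m k b) +
          av μ (fun b => om P f k b * op P m B b)) := by
        unfold Qsum Qk
        refine Finset.sum_le_sum fun k _ => ?_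
        have e : av μ (fun b => om P f k b * Ak P f m k b) +
            av μ (fun b => om P f k b * op P m B b) =
            av μ (fun b => om P f k b * (Ak P f m k b + op P m B b)) := by
          unfold av
          rw [← Finset.sum_add_distrib]
          refine Finset.sum_congr rfl fun b _ => by ring
        rw [e]
        exact hL.av_mono _ _ (fun b => mul_le_mul_of_nonneg_left (hAk k b) (hom0 k b))
    _ = Qsum μ P f m + av μ (fun b => lbar P f b * op P m B b) := by
        rw [Finset.sum_add_distrib, hsum]
        rfl
    _ ≤ Qsum μ P f m + ρ * U μ P f := by linarith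

end Vale.Agent.P125.Poly
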