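import Mathlib
import Vale.Agent.P125.Poly.Defs58
import Vale.Agent.P125.Poly.Lib_66
import Vale.Agent.P125.Poly.Own_33
import Vale.Agent.P125.Poly.OwnT_27
import Vale.Agent.P125.Poly.Tel_68
import Vale.Agent.P125.Poly.Small_93
import Vale.Agent.P125.Poly.Col_85
import Vale.Agent.P125.Poly.Two_27
import Vale.Agent.P125.Poly.Triv1_69
import Vale.Agent.P125.Poly.Triv2_85
import Vale.Agent.P125.Poly.Sqrt_33
import Vale.Agent.P125.Poly.Rem_27
import Vale.Agent.P125.Poly.Blk_89
import Vale.Agent.P125.Poly.Dual_27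
import Vale.Agent.P125.Poly.Down_73
import Vale.Agent.P125.Poly.Back_88
import Vale.Agent.P125.Poly.En_27
import Vale.Agent.P125.Poly.BB_38
import Vale.Agent.P125.Poly.Xi_87
import Vale.Agent.P125.Poly.R_14
import Vale.Agent.P125.Poly.Q_64
import Vale.Agent.P125.Poly.Core_27
import Vale.Agent.P125.Poly.Wrap_27

/-!
# P125 Poly: assembly of the skeleton of helper58 (Defs58): `StCore` and the plain statement
-/

namespace Vale.Agent.P125.Poly

theorem core_27 : StCore :=
  have hs : StSmall := stSmall_93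
  have hlib : StLib := stLib_66
  have hown : StOwn := stOwn_33
  have htwo : StTwo := stTwo_27 hown stTel_68 (stCol_85 hs) hs
  have hblk : StBlk := stBlk_89 hlib hs (stTriv2_85 hs) stSqrt_33
  have hrem : StRem := stRem_27 hs (stTriv1_69 hs)
  have hxi : StXi := stXi_87 hs (stEn_27 hs) (stBB_38 hs)
  have hr : StR := stR_14 hs (stDual_27 hs) (stDown_73 (stOwnT_27 hown) hs) (stBack_88 hs) hxi
  have hq : StQ := stQ_64 hs hrem hblk hr
  stCore_27 hlib htwo hq hs

/-- the plain statement (Mathlib vocabulary only): polynomial rate `t^(11/6)` for the summing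
operators `l_1^n -> l_infty^(n+1)`, uniformly in `n` and in the reversible chain -/
theorem plain_27 : ∀ t : ℕ, 1 ≤ t →
    ∀ (n : ℕ) (S : Type) [Fintype S] [DecidableEq S] (μ : S → ℝ) (P : Matrix S S ℝ),
      (∀ i, 0 ≤ μ i) → ∑ i, μ i = 1 → (∀ i j, 0 ≤ P i j) → (∀ i, ∑ j, P i j = 1) →
      (∀ i j, μ i * P i j = μ j * P j i) → ∀ f : S → Fin n → ℝ,
        ∑ i, ∑ j, μ i * (P ^ t) i j *
            (Finset.univ.sup' Finset.univ_nonempty (fun k : Fin (n + 1) =>
              |∑ l : Fin n, if l.val < k.val then f j l - f i l else 0|)) ^ 2 ≤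
          24 * (t : ℝ) ^ (11 / 6 : ℝ) *
            ∑ i, ∑ j, μ i * P i j * (∑ l : Fin n, |f j l - f i l|) ^ 2 :=
  stWrap_27 core_27

end Vale.Agent.P125.Poly
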