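import Mathlib
import Vale.Agent.P125.Poly.Defs58

set_option linter.unusedSectionVars false
set_option linter.unusedVariables false

/-!
# P125 Poly: triangle inequality and collapse of the four point sums (COL), helper45
-/

namespace Vale.Agent.P125.Poly

open scoped BigOperators
open Vale.Agent.P125.Dich

theorem stCol_45 (hs : StSmall) : StCol := by
  intro S _ _ μ P hC hL n f k r r'
  obtain ⟨hom0, homsum, hlb0, hl20, havl2, havlb, hU0, hFell, hwsym, hellsym⟩ :=
    hs S μ P hC hL n f
  have hrev1 : ∀ a b, μ a * P a b = μ b * P b a := by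
    intro a b
    have := hL.pw_rev 1 a b
    simpa using this
  have hP0 : ∀ a b, 0 ≤ P a b := by
    intro a b
    have := hL.pw_nonneg 1 a b
    simpa using this
  have hw0 : ∀ a b, 0 ≤ w f a b k := fun a b => abs_nonneg _
  -- collapse of the x sum
  have hcolx : ∀ (G : S → S → S → ℝ),
      ∑ x, ∑ a, ∑ b, ∑ y, μ x * (P ^ r) x a * P a b * (P ^ r') b y * G a b y =
        ∑ a, ∑ b, ∑ y, μ a * P a b * (P ^ r') b y * G a b y := by
    intro G
    rw [Finset.sum_comm]
    refine Finset.sum_congr rfl (fun a _ => ?_)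
    have h1 : ∀ x, ∑ b, ∑ y, μ x * (P ^ r) x a * P a b * (P ^ r') b y * G a b y =
        (P ^ r) a x * ∑ b, ∑ y, μ a * P a b * (P ^ r') b y * G a b y := by
      intro x
      rw [Finset.mul_sum]
      refine Finset.sum_congr rfl (fun b _ => ?_)
      rw [Finset.mul_sum]
      refine Finset.sum_congr rfl (fun y _ => ?_)
      rw [hL.pw_rev r x a]
      ring
    simp only [h1]
    rw [← Finset.sum_mul, hL.pw_sum, one_mul]
  -- collapse of the y sum
  have hcoly : ∀ (G : S → S → S → ℝ),
      ∑ x, ∑ a, ∑ b, ∑ y, μ x * (P ^ r) x a * P a b * (P ^ r') b y * G x a b =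
        ∑ x, ∑ a, ∑ b, μ x * (P ^ r) x a * P a b * G x a b := by
    intro G
    refine Finset.sum_congr rfl (fun x _ => Finset.sum_congr rfl (fun a _ =>
      Finset.sum_congr rfl (fun b _ => ?_)))
    have h1 : ∀ y, μ x * (P ^ r) x a * P a b * (P ^ r') b y * G x a b =
        (P ^ r') b y * (μ x * (P ^ r) x a * P a b * G x a b) := by
      intro y
      ring
    simp only [h1]
    rw [← Finset.sum_mul, hL.pw_sum, one_mul]
  -- the three sums
  have hT1 : ∑ x, ∑ a, ∑ b, ∑ y, μ x * (P ^ r) x a * P a b * (P ^ r') b y *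
      (w f a b k * |F f k y - F f k b|) = Qk μ P f r' k := by
    rw [hcolx (fun a b y => w f a b k * |F f k y - F f k b|)]
    rw [Finset.sum_comm]
    unfold Qk av om Ak
    refine Finset.sum_congr rfl (fun b _ => ?_)
    show _ = μ b * ((∑ x, P b x * w f b x k) * ∑ y, (P ^ r') b y * |F f k y - F f k b|)
    rw [Finset.sum_mul_sum, Finset.mul_sum]
    refine Finset.sum_congr rfl (fun a _ => ?_)
    rw [Finset.mul_sum]
    refine Finset.sum_congr rfl (fun y _ => ?_)
    rw [hrev1 a b, hwsym a b k]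
    ring
  have hT2 : ∑ x, ∑ a, ∑ b, ∑ y, μ x * (P ^ r) x a * P a b * (P ^ r') b y *
      (w f a b k * ell f a b) = ∑ a, ∑ b, μ a * P a b * (w f a b k * ell f a b) := by
    rw [hcolx (fun a b y => w f a b k * ell f a b)]
    refine Finset.sum_congr rfl (fun a _ => Finset.sum_congr rfl (fun b _ => ?_))
    have h1 : ∀ y, μ a * P a b * (P ^ r') b y * (w f a b k * ell f a b) =
        (P ^ r') b y * (μ a * P a b * (w f a b k * ell f a b)) := by
      intro y
      ring
    simp only [h1]
    rw [← Finset.sum_mul, hL.pw_sum, one_mul]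
  have hT3 : ∑ x, ∑ a, ∑ b, ∑ y, μ x * (P ^ r) x a * P a b * (P ^ r') b y *
      (w f a b k * |F f k x - F f k a|) = Qk μ P f r k := by
    rw [hcoly (fun x a b => w f a b k * |F f k x - F f k a|)]
    rw [Finset.sum_comm]
    unfold Qk av om Ak
    refine Finset.sum_congr rfl (fun a _ => ?_)
    show _ = μ a * ((∑ x, P a x * w f a x k) * ∑ y, (P ^ r) a y * |F f k y - F f k a|)
    rw [Finset.sum_mul_sum, Finset.mul_sum, Finset.sum_comm]
    refine Finset.sum_congr rfl (fun x _ => ?_)
    rw [Finset.mul_sum]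
    refine Finset.sum_congr rfl (fun b _ => ?_)
    rw [hL.pw_rev r b a]
    ring
  rw [← hT1, ← hT2, ← hT3]
  simp only [← Finset.sum_add_distrib]
  refine Finset.sum_le_sum (fun x _ => Finset.sum_le_sum (fun a _ =>
    Finset.sum_le_sum (fun b _ => Finset.sum_le_sum (fun y _ => ?_))))
  have hc : 0 ≤ μ x * (P ^ r) x a * P a b * (P ^ r') b y :=
    mul_nonneg (mul_nonneg (mul_nonneg (hL.mu_nonneg x) (hL.pw_nonneg r x a)) (hP0 a b))
      (hL.pw_nonneg r' b y)
  rw [← mul_add, ← mul_add]
  refine mul_le_mul_of_nonneg_left ?_ hc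
  rw [← mul_add, ← mul_add]
  refine mul_le_mul_of_nonneg_left ?_ (hw0 a b)
  have h1 : F f k y - F f k x =
      (F f k y - F f k b) + (F f k b - F f k a) + (F f k a - F f k x) := by ring
  have h2 := abs_add_three (F f k y - F f k b) (F f k b - F f k a) (F f k a - F f k x)
  rw [← h1] at h2
  have h3 := hFell k a b
  have h4 : |F f k a - F f k x| = |F f k x - F f k a| := abs_sub_comm _ _
  linarith

end Vale.Agent.P125.Poly
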