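import Vale.Agent.P125.Poly.Defs58

set_option linter.unusedSectionVars false
set_option linter.unusedVariables false

/-!
# P125 Poly: CORE (scalar optimisation)
-/

namespace Vale.Agent.P125.Poly

open scoped BigOperators
open Vale.Agent.P125.Dich

lemma scal_73 (t : ℕ) (ht : 1 ≤ t) : ∃ τ : ℕ, 1 ≤ τ ∧ ∃ z : ℝ, 1 ≤ z ∧ (t : ℝ) = z ^ 6 ∧
    (t : ℝ) ^ (11 / 6 : ℝ) = z ^ 11 ∧ ∀ t' : ℕ, t' ≤ t →
      Real.sqrt (t' * τ) + τ + (3 / 2) * t' * (τ : ℝ) ^ (-(1 / 4) : ℝ) ≤ 5 * z ^ 5 := by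
  have hx1 : (1 : ℝ) ≤ (t : ℝ) := by exact_mod_cast ht
  have hx0 : (0 : ℝ) ≤ (t : ℝ) := by linarith
  set z : ℝ := (t : ℝ) ^ (1 / 6 : ℝ) with hz
  have hz1 : 1 ≤ z := Real.one_le_rpow hx1 (by norm_num)
  have hz0 : 0 < z := by linarith
  have hpow : ∀ k : ℕ, z ^ k = (t : ℝ) ^ ((k : ℝ) / 6) := by
    intro k
    rw [hz, ← Real.rpow_natCast, ← Real.rpow_mul hx0]
    congr 1
    ring
  have h6 : (t : ℝ) = z ^ 6 := by
    rw [hpow 6]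
    norm_num
  have h11 : (t : ℝ) ^ (11 / 6 : ℝ) = z ^ 11 := by
    rw [hpow 11]
    norm_num
  refine ⟨⌈z ^ 4⌉₊, ?_, z, hz1, h6, h11, ?_⟩
  · have : 0 < ⌈z ^ 4⌉₊ := Nat.ceil_pos.mpr (by positivity)
    omega
  intro t' ht'
  set τ : ℝ := ((⌈z ^ 4⌉₊ : ℕ) : ℝ) with hτ
  have hz4 : 1 ≤ z ^ 4 := one_le_pow₀ hz1
  have hτ1 : z ^ 4 ≤ τ := Nat.le_ceil _
  have hτ2 : τ ≤ 2 * z ^ 4 := by
    have := (Nat.ceil_lt_add_one (by positivity : (0 : ℝ) ≤ z ^ 4)).le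
    linarith
  have hτ0 : 0 < τ := by linarith
  have hs0 : (0 : ℝ) ≤ (t' : ℝ) := Nat.cast_nonneg _
  have hs1 : (t' : ℝ) ≤ z ^ 6 := by
    rw [← h6]
    exact_mod_cast ht'
  have hz5 : z ^ 4 ≤ z ^ 5 := pow_le_pow_right₀ hz1 (by norm_num)
  have a1 : Real.sqrt (t' * τ) ≤ (3 / 2) * z ^ 5 := by
    rw [Real.sqrt_le_iff]
    refine ⟨by positivity, ?_⟩
    calc (t' : ℝ) * τ ≤ z ^ 6 * (2 * z ^ 4) := mul_le_mul hs1 hτ2 hτ0.le (by positivity)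
      _ = 2 * (z ^ 5) ^ 2 := by ring
      _ ≤ ((3 / 2) * z ^ 5) ^ 2 := by nlinarith [sq_nonneg (z ^ 5)]
  have a2 : τ ≤ 2 * z ^ 5 := by linarith
  have a3 : τ ^ (-(1 / 4) : ℝ) ≤ z⁻¹ := by
    have b1 : τ ^ (-(1 / 4) : ℝ) ≤ (z ^ 4) ^ (-(1 / 4) : ℝ) :=
      Real.rpow_le_rpow_of_nonpos (by positivity) hτ1 (by norm_num)
    have b2 : (z ^ 4) ^ (-(1 / 4) : ℝ) = z⁻¹ := by
      rw [← Real.rpow_natCast, ← Real.rpow_mul hz0.le, ← Real.rpow_neg_one]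
      congr 1
      norm_num
    rwa [b2] at b1
  have a4 : (3 / 2) * (t' : ℝ) * τ ^ (-(1 / 4) : ℝ) ≤ (3 / 2) * z ^ 5 := by
    calc (3 / 2) * (t' : ℝ) * τ ^ (-(1 / 4) : ℝ) ≤ (3 / 2) * z ^ 6 * z⁻¹ := by
          apply mul_le_mul (by linarith) a3 (by positivity) (by positivity)
      _ = (3 / 2) * z ^ 5 := by
          field_simp
  linarith

theorem stCore_73 (hlib : StLib) (hs : StSmall) (h1 : StTwo) (h2 : StQ) : StCore := by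
  intro S _ _ μ P hc n f κ t ht
  have hL := hlib S μ P hc
  obtain ⟨-, -, -, -, -, -, hU, -⟩ := hs S μ P hc hL n f
  obtain ⟨τ, hτ, z, hz1, h6, h11, hq⟩ := scal_73 t ht
  have hz0 : 0 < z := by linarith
  have hQ : ∀ t' : ℕ, t' ≤ t → Qsum μ P f t' ≤ 5 * z ^ 5 * U μ P f := by
    intro t' ht'
    exact (h2 S μ P hc hL n f τ t' hτ).trans (mul_le_mul_of_nonneg_right (hq t' ht') hU)
  refine (h1 S μ P hc hL n f κ t).trans ?_
  have hsum : ∑ r ∈ Finset.range t, (Qsum μ P f (t - 1 - r) + Qsum μ P f r)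
      ≤ ∑ r ∈ Finset.range t, (10 * z ^ 5 * U μ P f) := by
    refine Finset.sum_le_sum fun r hr => ?_
    have hr' : r < t := Finset.mem_range.mp hr
    have e1 := hQ (t - 1 - r) (by omega)
    have e2 := hQ r (by omega)
    linarith
  rw [Finset.sum_const, Finset.card_range, nsmul_eq_mul] at hsum
  rw [h11]
  rw [h6] at hsum ⊢
  have hz611 : z ^ 6 ≤ z ^ 11 := pow_le_pow_right₀ hz1 (by norm_num)
  have : 2 * z ^ 6 * U μ P f ≤ 2 * z ^ 11 * U μ P f :=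
    mul_le_mul_of_nonneg_right (by linarith) hU
  have e3 : z ^ 6 * (10 * z ^ 5 * U μ P f) = 10 * z ^ 11 * U μ P f := by ring
  have e4 : 0 ≤ z ^ 11 * U μ P f := by positivity
  nlinarith

end Vale.Agent.P125.Poly
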