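import Vale.Agent.P125.Poly.Defs58

set_option linter.unusedSectionVars false
set_option linter.unusedVariables false

/-!
# P125 Poly: `StTriv1` and `StRem` of `Defs58`
-/

namespace Vale.Agent.P125.Poly

open scoped BigOperators
open Vale.Agent.P125.Dich

variable {S : Type} [Fintype S] [DecidableEq S] {n : ℕ}

lemma Ak_add_4 {μ : S → ℝ} {P : Matrix S S ℝ} (hL : Lib μ P) (f : S → Fin n → ℝ) (k : Fin n)
    (a b : ℕ) (z : S) :
    Ak P f (a + b) k z ≤ Ak P f a k z + op P a (Ak P f b k) z := by
  unfold Ak op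
  have e1 : ∑ y, (P ^ (a + b)) z y * |F f k y - F f k z| =
      ∑ u, ∑ y, (P ^ a) z u * (P ^ b) u y * |F f k y - F f k z| := by
    simp_rw [hL.pw_add, Finset.sum_mul]
    rw [Finset.sum_comm]
  have e2 : ∑ u, (P ^ a) z u * |F f k u - F f k z| +
        ∑ u, (P ^ a) z u * ∑ y, (P ^ b) u y * |F f k y - F f k u| =
      ∑ u, ∑ y, (P ^ a) z u * (P ^ b) u y * (|F f k u - F f k z| + |F f k y - F f k u|) := by
    rw [← Finset.sum_add_distrib]
    refine Finset.sum_congr rfl fun u _ => ?_
    have : ∀ y, (P ^ a) z u * (P ^ b) u y * (|F f k u - F f k z| + |F f k y - F f k u|) =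
        (P ^ a) z u * |F f k u - F f k z| * (P ^ b) u y +
          (P ^ a) z u * ((P ^ b) u y * |F f k y - F f k u|) := by
      intro y
      ring
    simp_rw [this]
    rw [Finset.sum_add_distrib, ← Finset.mul_sum, ← Finset.mul_sum, hL.pw_sum, mul_one]
  rw [e1, e2]
  refine Finset.sum_le_sum fun u _ => Finset.sum_le_sum fun y _ => ?_
  apply mul_le_mul_of_nonneg_left _ (mul_nonneg (hL.pw_nonneg a z u) (hL.pw_nonneg b u y))
  have : F f k y - F f k z = (F f k u - F f k z) + (F f k y - F f k u) := by ring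
  rw [this]
  exact abs_add_le _ _

theorem stTriv1_4 (hs : StSmall) : StTriv1 := by
  intro S _ _ μ P hc hL n f k ρ
  obtain ⟨-, -, -, -, -, -, -, hFell, -, -⟩ := hs S μ P hc hL n f
  induction ρ with
  | zero =>
    intro z
    unfold Ak
    simp only [Finset.range_zero, Finset.sum_empty, pow_zero]
    refine le_of_eq (Finset.sum_eq_zero fun y _ => ?_)
    rw [Matrix.one_apply]
    by_cases h : z = y
    · subst h
      simp
    · simp [h]
  | succ ρ ih =>
    intro z
    rw [Finset.sum_range_succ]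
    have h1 := Ak_add_4 hL f k ρ 1 z
    have h2 : op P ρ (Ak P f 1 k) z ≤ op P ρ (lbar P f) z := by
      apply hL.op_mono
      intro u
      unfold Ak lbar
      rw [pow_one]
      exact Finset.sum_le_sum fun y _ => mul_le_mul_of_nonneg_left (hFell k u y) (hc.2.2.1 u y)
    linarith [ih z]

theorem stRem_4 (hs : StSmall) (h1 : StTriv1) : StRem := by
  intro S _ _ μ P hc hL n f m ρ
  obtain ⟨hom0, homsum, hlb0, -, -, hlbU, -, -, -, -⟩ := hs S μ P hc hL n f
  have hT := h1 S μ P hc hL n f
  set T : S → ℝ := fun b => ∑ i ∈ Finset.range ρ, op P (m + i) (lbar P f) b with hTdef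
  have a1 : ∀ k b, Ak P f (m + ρ) k b ≤ Ak P f m k b + T b := by
    intro k b
    have b1 := Ak_add_4 hL f k m ρ b
    have b2 : op P m (Ak P f ρ k) b ≤
        op P m (fun z => ∑ i ∈ Finset.range ρ, op P i (lbar P f) z) b :=
      hL.op_mono _ _ _ (fun z => hT k ρ z) b
    have b3 : op P m (fun z => ∑ i ∈ Finset.range ρ, op P i (lbar P f) z) b = T b := by
      rw [hL.op_sum ℕ (Finset.range ρ) m (fun i => op P i (lbar P f)) b]
      refine Finset.sum_congr rfl fun i _ => ?_
      rw [hL.op_op]
    linarith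
  have a2 : Qsum μ P f (m + ρ) ≤ Qsum μ P f m + ∑ k, av μ (fun b => om P f k b * T b) := by
    unfold Qsum Qk
    rw [← Finset.sum_add_distrib]
    refine Finset.sum_le_sum fun k _ => ?_
    unfold av
    rw [← Finset.sum_add_distrib]
    refine Finset.sum_le_sum fun b _ => ?_
    have := mul_le_mul_of_nonneg_left (a1 k b) (mul_nonneg (hL.mu_nonneg b) (hom0 k b))
    nlinarith
  have a3 : ∑ k, av μ (fun b => om P f k b * T b) =
      ∑ i ∈ Finset.range ρ, av μ (fun b => lbar P f b * op P (m + i) (lbar P f) b) := by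
    unfold av
    rw [Finset.sum_comm]
    have c1 : ∀ b, ∑ k, μ b * (om P f k b * T b) = μ b * (lbar P f b * T b) := by
      intro b
      rw [← homsum b, Finset.sum_mul, Finset.mul_sum]
    simp_rw [c1, hTdef, Finset.mul_sum]
    rw [Finset.sum_comm]
  have a4 : ∀ j, av μ (fun b => lbar P f b * op P j (lbar P f) b) ≤ U μ P f := by
    intro j
    have d1 : av μ (fun x => lbar P f x * op P j (lbar P f) x) ≤
        av μ (fun x => (1 / 2) * lbar P f x ^ 2 + (1 / 2) * op P j (fun y => lbar P f y ^ 2) x) :=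
      hL.av_mono _ _ (fun x => by
        nlinarith [hL.sq_op j (lbar P f) x, sq_nonneg (lbar P f x - op P j (lbar P f) x)])
    have d2 : av μ (fun x => (1 / 2) * lbar P f x ^ 2 +
          (1 / 2) * op P j (fun y => lbar P f y ^ 2) x) =
        (1 / 2) * av μ (fun x => lbar P f x ^ 2) +
          (1 / 2) * av μ (op P j (fun y => lbar P f y ^ 2)) := by
      unfold av
      simp_rw [mul_add]
      rw [Finset.sum_add_distrib, Finset.mul_sum, Finset.mul_sum]
      congr 1 <;> exact Finset.sum_congr rfl fun x _ => by ring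
    rw [hL.av_op] at d2
    linarith
  have a5 : ∑ i ∈ Finset.range ρ, av μ (fun b => lbar P f b * op P (m + i) (lbar P f) b) ≤
      ρ * U μ P f := by
    calc _ ≤ ∑ i ∈ Finset.range ρ, U μ P f := Finset.sum_le_sum fun i _ => a4 (m + i)
      _ = ρ * U μ P f := by simp
  linarith

end Vale.Agent.P125.Poly
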