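import Vale.Agent.P125.Poly.Block_4

set_option linter.unusedSectionVars false
set_option linter.unusedVariables false

/-!
# P125, polynomial rate: kernel calculus and the energy bound (step S7 of the pen proof)
-/

namespace Vale.Agent.P125.Poly4

open scoped BigOperators
open Finset

variable {S : Type} [Fintype S] [DecidableEq S]

lemma kp_succ' (R : Matrix S S ℝ) (i : ℕ) (g : S → ℝ) (y : S) :
    kp R (i + 1) g y = kp R i (fun w => ∑ z, R w z * g z) y := by
  unfold kp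
  simp_rw [pow_succ, Matrix.mul_apply, Finset.sum_mul, Finset.mul_sum]
  rw [Finset.sum_comm]
  refine Finset.sum_congr rfl fun w _ => Finset.sum_congr rfl fun z _ => ?_
  ring

lemma kp_add_fun (R : Matrix S S ℝ) (i : ℕ) (g g' : S → ℝ) (y : S) :
    kp R i (fun w => g w + g' w) y = kp R i g y + kp R i g' y := by
  unfold kp
  simp_rw [mul_add]
  rw [Finset.sum_add_distrib]

lemma kp_sub_fun (R : Matrix S S ℝ) (i : ℕ) (g g' : S → ℝ) (y : S) :
    kp R i (fun w => g w - g' w) y = kp R i g y - kp R i g' y := by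
  unfold kp
  simp_rw [mul_sub]
  rw [Finset.sum_sub_distrib]

lemma kp_const_mul (R : Matrix S S ℝ) (i : ℕ) (c : ℝ) (g : S → ℝ) (y : S) :
    kp R i (fun w => c * g w) y = c * kp R i g y := by
  unfold kp
  rw [Finset.mul_sum]
  refine Finset.sum_congr rfl fun w _ => ?_
  ring

lemma pow_nonneg' (R : Matrix S S ℝ) (h0 : ∀ i j, 0 ≤ R i j) (k : ℕ) : ∀ i j, 0 ≤ (R ^ k) i j := by
  induction k with
  | zero =>
    intro i j
    rw [pow_zero, Matrix.one_apply]
    split_ifs <;> norm_num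
  | succ k ih =>
    intro i j
    rw [pow_succ, Matrix.mul_apply]
    exact Finset.sum_nonneg fun w _ => mul_nonneg (ih i w) (h0 w j)

lemma kp_mono (R : Matrix S S ℝ) (h0 : ∀ i j, 0 ≤ R i j) (i : ℕ) (g g' : S → ℝ)
    (h : ∀ w, g w ≤ g' w) (y : S) : kp R i g y ≤ kp R i g' y := by
  unfold kp
  exact Finset.sum_le_sum fun w _ => mul_le_mul_of_nonneg_left (h w) (pow_nonneg' R h0 i y w)

lemma kp_nonneg (R : Matrix S S ℝ) (h0 : ∀ i j, 0 ≤ R i j) (i : ℕ) (g : S → ℝ)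
    (h : ∀ w, 0 ≤ g w) (y : S) : 0 ≤ kp R i g y := by
  unfold kp
  exact Finset.sum_nonneg fun w _ => mul_nonneg (pow_nonneg' R h0 i y w) (h w)

lemma kp_abs_le (R : Matrix S S ℝ) (h0 : ∀ i j, 0 ≤ R i j) (i : ℕ) (g g' : S → ℝ)
    (h : ∀ w, |g w| ≤ g' w) (y : S) : |kp R i g y| ≤ kp R i g' y := by
  unfold kp
  refine le_trans (Finset.abs_sum_le_sum_abs _ _) ?_
  refine Finset.sum_le_sum fun w _ => ?_
  rw [abs_mul, abs_of_nonneg (pow_nonneg' R h0 i y w)]
  exact mul_le_mul_of_nonneg_left (h w) (pow_nonneg' R h0 i y w)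

/-- Jensen for a probability vector -/
lemma sq_sum_le_sum_sq (p x : S → ℝ) (hp : ∀ w, 0 ≤ p w) (hp1 : ∑ w, p w = 1) :
    (∑ w, p w * x w) ^ 2 ≤ ∑ w, p w * x w ^ 2 := by
  have h : 0 ≤ ∑ w, p w * (x w - ∑ w', p w' * x w') ^ 2 :=
    Finset.sum_nonneg fun w _ => mul_nonneg (hp w) (sq_nonneg _)
  have e : ∑ w, p w * (x w - ∑ w', p w' * x w') ^ 2
      = ∑ w, p w * x w ^ 2 - (∑ w, p w * x w) ^ 2 := by
    have b : ∀ w, p w * (x w - ∑ w', p w' * x w') ^ 2 = p w * x w ^ 2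
        - 2 * (∑ w', p w' * x w') * (p w * x w) + (∑ w', p w' * x w') ^ 2 * p w := by
      intro w
      ring
    simp_rw [b]
    rw [Finset.sum_add_distrib, Finset.sum_sub_distrib, ← Finset.mul_sum, ← Finset.mul_sum, hp1]
    ring
  linarith

lemma kp_sq_le (R : Matrix S S ℝ) (h0 : ∀ i j, 0 ≤ R i j) (h1 : ∀ i, ∑ j, R i j = 1) (i : ℕ)
    (g : S → ℝ) : ∀ y, kp R i g y ^ 2 ≤ kp R i (fun w => g w ^ 2) y := by
  induction i with
  | zero => intro y; rw [kp_zero, kp_zero]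
  | succ i ih =>
    intro y
    rw [kp_succ, kp_succ]
    refine le_trans (sq_sum_le_sum_sq (R y) _ (h0 y) (h1 y)) ?_
    exact Finset.sum_le_sum fun w _ => mul_le_mul_of_nonneg_left (ih w) (h0 y w)

/-- stationarity -/
lemma kp_stat (μ : S → ℝ) (R : Matrix S S ℝ) (hst : ∀ x, ∑ a, μ a * R a x = μ x) (i : ℕ) :
    ∀ g : S → ℝ, ∑ y, μ y * kp R i g y = ∑ y, μ y * g y := by
  induction i with
  | zero => intro g; simp_rw [kp_zero]
  | succ i ih =>
    intro g
    simp_rw [kp_succ']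
    rw [ih]
    simp_rw [Finset.mul_sum]
    rw [Finset.sum_comm]
    refine Finset.sum_congr rfl fun z _ => ?_
    rw [← hst z, Finset.sum_mul]
    refine Finset.sum_congr rfl fun w _ => ?_
    ring

/-- the carre du champ -/
lemma gam_eq (P : Matrix S S ℝ) (h1 : ∀ i, ∑ j, P i j = 1) (v : S → ℝ) (a : S) :
    ∑ b, P a b * (v b - v a) ^ 2 =
      (∑ b, P a b * v b ^ 2) - v a ^ 2 - 2 * v a * ((∑ b, P a b * v b) - v a) := by
  have e : ∀ b, P a b * (v b - v a) ^ 2 = P a b * v b ^ 2 - 2 * v a * (P a b * v b)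
      + v a ^ 2 * P a b := by
    intro b
    ring
  simp_rw [e]
  rw [Finset.sum_add_distrib, Finset.sum_sub_distrib, ← Finset.mul_sum, ← Finset.mul_sum, h1 a]
  ring

/-- **the energy bound, pointwise and uniform in `φ`** -/
theorem energy (P : Matrix S S ℝ) (h0 : ∀ i j, 0 ≤ P i j) (h1 : ∀ i, ∑ j, P i j = 1)
    (φ Lb : S → ℝ) (hφ : ∀ z, |φ z| ≤ Lb z) (τ : ℕ) (hτ : 1 ≤ τ) (s : ℕ) (v AL : S → ℝ)
    (hv : ∀ z, v z = (1 / (τ : ℝ)) * ∑ i ∈ range τ, kp P i φ z)
    (hAL : ∀ z, AL z = (1 / (τ : ℝ)) * ∑ i ∈ range τ, kp P i Lb z) (y : S) :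
    ∑ i ∈ range τ, kp P (s + i) (fun a => ∑ b, P a b * (v b - v a) ^ 2) y ≤
      kp P (s + τ) (fun a => AL a ^ 2) y
        + (2 / (τ : ℝ)) * ∑ i ∈ range τ, kp P (s + i) (fun a => AL a * (kp P τ Lb a + Lb a)) y := by
  have hτ0 : (0 : ℝ) < τ := by exact_mod_cast hτ
  have hvAL : ∀ z, |v z| ≤ AL z := by
    intro z
    rw [hv, hAL, abs_mul, abs_of_nonneg (by positivity : (0 : ℝ) ≤ 1 / (τ : ℝ))]
    apply mul_le_mul_of_nonneg_left _ (by positivity)
    refine le_trans (Finset.abs_sum_le_sum_abs _ _) ?_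
    exact Finset.sum_le_sum fun i _ => kp_abs_le P h0 i φ Lb hφ z
  have hPv : ∀ a, (∑ b, P a b * v b) - v a = (1 / (τ : ℝ)) * (kp P τ φ a - φ a) := by
    intro a
    have e1 : ∑ b, P a b * v b = (1 / (τ : ℝ)) * ∑ i ∈ range τ, kp P (i + 1) φ a := by
      simp_rw [hv, kp_succ, Finset.mul_sum]
      rw [Finset.sum_comm]
      refine Finset.sum_congr rfl fun i _ => Finset.sum_congr rfl fun b _ => ?_
      ring
    rw [e1, hv, ← mul_sub, ← Finset.sum_sub_distrib,
      Finset.sum_range_sub (fun i => kp P i φ a), kp_zero]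
  have hdrift : ∀ a, -(2 * v a * ((∑ b, P a b * v b) - v a)) ≤
      (2 / (τ : ℝ)) * (AL a * (kp P τ Lb a + Lb a)) := by
    intro a
    rw [hPv]
    have b1 := hvAL a
    have b2 := kp_abs_le P h0 τ φ Lb hφ a
    have b3 := hφ a
    have b4 : |kp P τ φ a - φ a| ≤ kp P τ Lb a + Lb a := by
      refine le_trans (abs_sub _ _) ?_
      linarith
    have b5 : |v a * (kp P τ φ a - φ a)| ≤ AL a * (kp P τ Lb a + Lb a) := by
      rw [abs_mul]
      exact mul_le_mul b1 b4 (abs_nonneg _) (le_trans (abs_nonneg _) b1)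
    have b6 := neg_abs_le (v a * (kp P τ φ a - φ a))
    have b7 : -(2 * v a * (1 / (τ : ℝ) * (kp P τ φ a - φ a)))
        = (2 / (τ : ℝ)) * (-(v a * (kp P τ φ a - φ a))) := by
      field_simp
    rw [b7]
    apply mul_le_mul_of_nonneg_left _ (by positivity)
    linarith
  -- each term
  have hterm : ∀ i, kp P (s + i) (fun a => ∑ b, P a b * (v b - v a) ^ 2) y ≤
      (kp P (s + (i + 1)) (fun a => v a ^ 2) y - kp P (s + i) (fun a => v a ^ 2) y)
        + (2 / (τ : ℝ)) * kp P (s + i) (fun a => AL a * (kp P τ Lb a + Lb a)) y := by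
    intro i
    have c1 : kp P (s + (i + 1)) (fun a => v a ^ 2) y
        = kp P (s + i) (fun a => ∑ b, P a b * v b ^ 2) y := by
      rw [← add_assoc, kp_succ']
    rw [c1, ← kp_sub_fun, ← kp_const_mul, ← kp_add_fun]
    apply kp_mono P h0
    intro a
    rw [gam_eq P h1]
    have := hdrift a
    linarith
  refine le_trans (Finset.sum_le_sum fun i _ => hterm i) ?_
  rw [Finset.sum_add_distrib, ← Finset.mul_sum,
    Finset.sum_range_sub (fun i => kp P (s + i) (fun a => v a ^ 2) y)]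
  have d1 : kp P (s + τ) (fun a => v a ^ 2) y ≤ kp P (s + τ) (fun a => AL a ^ 2) y := by
    apply kp_mono P h0
    intro a
    have := hvAL a
    exact sq_le_sq' (by linarith [neg_abs_le (v a)]) (le_trans (le_abs_self _) this)
  have d2 : 0 ≤ kp P (s + 0) (fun a => v a ^ 2) y := kp_nonneg P h0 _ _ (fun a => sq_nonneg _) y
  linarith

end Vale.Agent.P125.Poly4
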