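import Vale.Agent.P125.Poly.Defs58
import Vale.Agent.P125.Poly.Energy_4

set_option linter.unusedSectionVars false
set_option linter.unusedVariables false

/-!
# P125 Poly: `StSqrt` of `Defs58` from the block lemma of `Block_4`
-/

namespace Vale.Agent.P125.Poly

open scoped BigOperators
open Vale.Agent.P125.Dich

theorem stSqrt_4 : StSqrt := by
  intro S _ _ μ R hc _ G J c b
  obtain ⟨-, -, h0, h1, -⟩ := hc
  have key := Poly4.block R h0 h1 G (fun z => ∑ y, R z y * (G y - G z) ^ 2)
    (fun z => ∑ y, R z y * (G y - G z)) (fun z => rfl)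
    (by
      intro z
      simp_rw [mul_sub]
      rw [Finset.sum_sub_distrib, ← Finset.sum_mul, h1 z, one_mul]) J b (G b - c)
  have e1 : ∀ y, |c + G y - G b| = |G y - (G b - c)| := by
    intro y
    congr 1
    ring
  have e2 : (G b - (G b - c)) ^ 2 = c ^ 2 := by ring
  simp_rw [e1]
  rw [e2] at key
  exact key

end Vale.Agent.P125.Poly
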