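import Vale.Agent.P125.Poly.Defs58

set_option linter.unusedSectionVars false
set_option linter.unusedVariables false

/-!
# P125 Poly: `StTel` of `Defs58` (telescoping along the four point measure)
-/

namespace Vale.Agent.P125.Poly4

open scoped BigOperators
open Finset

variable {S : Type} [Fintype S] [DecidableEq S]

lemma tel_pt (P : Matrix S S ℝ) (h0 : ∀ k x y, 0 ≤ (P ^ k) x y) (hP : ∀ x y, 0 ≤ P x y)
    (g : S → ℝ) (t : ℕ) : ∀ x y,
    (P ^ t) x y * |g y - g x| ≤
      ∑ r ∈ range t, ∑ a, ∑ b, (P ^ r) x a * P a b * (P ^ (t - 1 - r)) b y * |g b - g a| := by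
  induction t with
  | zero =>
    intro x y
    rw [pow_zero, Matrix.one_apply]
    by_cases h : x = y
    · subst h
      simp
    · simp [h]
  | succ t ih =>
    intro x y
    rw [Finset.sum_range_succ]
    have s1 : (P ^ (t + 1)) x y * |g y - g x| = ∑ z, (P ^ t) x z * P z y * |g y - g x| := by
      rw [pow_succ, Matrix.mul_apply, Finset.sum_mul]
    have s2 : ∑ z, (P ^ t) x z * P z y * |g y - g x| ≤
        ∑ z, ((P ^ t) x z * |g z - g x|) * P z y + ∑ z, (P ^ t) x z * P z y * |g y - g z| := by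
      rw [← Finset.sum_add_distrib]
      refine Finset.sum_le_sum fun z _ => ?_
      have tri : |g y - g x| ≤ |g z - g x| + |g y - g z| := by
        have : g y - g x = (g z - g x) + (g y - g z) := by ring
        rw [this]
        exact abs_add_le _ _
      have nn : 0 ≤ (P ^ t) x z * P z y := mul_nonneg (h0 t x z) (hP z y)
      nlinarith
    have s3 : ∑ z, ((P ^ t) x z * |g z - g x|) * P z y ≤
        ∑ z, (∑ r ∈ range t, ∑ a, ∑ b,
          (P ^ r) x a * P a b * (P ^ (t - 1 - r)) b z * |g b - g a|) * P z y :=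
      Finset.sum_le_sum fun z _ => mul_le_mul_of_nonneg_right (ih x z) (hP z y)
    have s4 : ∑ z, (∑ r ∈ range t, ∑ a, ∑ b,
          (P ^ r) x a * P a b * (P ^ (t - 1 - r)) b z * |g b - g a|) * P z y =
        ∑ r ∈ range t, ∑ a, ∑ b,
          (P ^ r) x a * P a b * (P ^ (t + 1 - 1 - r)) b y * |g b - g a| := by
      simp_rw [Finset.sum_mul]
      rw [Finset.sum_comm]
      refine Finset.sum_congr rfl fun r hr => ?_
      rw [Finset.sum_comm]
      refine Finset.sum_congr rfl fun a _ => ?_
      rw [Finset.sum_comm]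
      refine Finset.sum_congr rfl fun b _ => ?_
      have hr' : r < t := Finset.mem_range.mp hr
      have e : t + 1 - 1 - r = (t - 1 - r) + 1 := by omega
      rw [e, pow_succ, Matrix.mul_apply, Finset.mul_sum, Finset.sum_mul]
      refine Finset.sum_congr rfl fun z _ => ?_
      ring
    have s5 : ∑ z, (P ^ t) x z * P z y * |g y - g z| =
        ∑ a, ∑ b, (P ^ t) x a * P a b * (P ^ (t + 1 - 1 - t)) b y * |g b - g a| := by
      refine Finset.sum_congr rfl fun a _ => ?_
      have e : t + 1 - 1 - t = 0 := by omega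
      rw [e, pow_zero]
      rw [Finset.sum_eq_single y]
      · simp
      · intro b _ hb
        simp [hb]
      · intro h
        exact absurd (Finset.mem_univ y) h
    rw [s1]
    linarith

end Vale.Agent.P125.Poly4

namespace Vale.Agent.P125.Poly

open scoped BigOperators
open Vale.Agent.P125.Dich

theorem stTel_4 : StTel := by
  intro S _ _ μ P hc hL g Φ hΦ t
  have hP : ∀ x y, 0 ≤ P x y := hc.2.2.1
  have hμ : ∀ x, 0 ≤ μ x := hc.1
  have h1 : ∑ x, ∑ y, μ x * (P ^ t) x y * (|g y - g x| * Φ x y) ≤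
      ∑ x, ∑ y, (μ x * Φ x y) * ∑ r ∈ Finset.range t, ∑ a, ∑ b,
        (P ^ r) x a * P a b * (P ^ (t - 1 - r)) b y * |g b - g a| := by
    refine Finset.sum_le_sum fun x _ => Finset.sum_le_sum fun y _ => ?_
    have := Poly4.tel_pt P hL.pw_nonneg hP g t x y
    have nn : 0 ≤ μ x * Φ x y := mul_nonneg (hμ x) (hΦ x y)
    calc μ x * (P ^ t) x y * (|g y - g x| * Φ x y)
        = (μ x * Φ x y) * ((P ^ t) x y * |g y - g x|) := by ring
      _ ≤ _ := mul_le_mul_of_nonneg_left this nn
  refine le_trans h1 (le_of_eq ?_)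
  simp_rw [Finset.mul_sum]
  have c1 : ∀ x, ∑ y, ∑ r ∈ Finset.range t, ∑ a, ∑ b, μ x * Φ x y *
        ((P ^ r) x a * P a b * (P ^ (t - 1 - r)) b y * |g b - g a|) =
      ∑ r ∈ Finset.range t, ∑ a, ∑ b, ∑ y,
        μ x * (P ^ r) x a * P a b * (P ^ (t - 1 - r)) b y * (|g b - g a| * Φ x y) := by
    intro x
    rw [Finset.sum_comm]
    refine Finset.sum_congr rfl fun r _ => ?_
    rw [Finset.sum_comm]
    refine Finset.sum_congr rfl fun a _ => ?_
    rw [Finset.sum_comm]
    refine Finset.sum_congr rfl fun b _ => Finset.sum_congr rfl fun y _ => ?_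
    ring
  simp_rw [c1]
  rw [Finset.sum_comm]

end Vale.Agent.P125.Poly
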