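import Vale.Agent.P125.Poly.Defs58

set_option linter.unusedSectionVars false
set_option linter.unusedVariables false

/-!
# P125 Poly: the bound of `Q`, statement `StQ`
-/

namespace Vale.Agent.P125.Poly

open scoped BigOperators
open Vale.Agent.P125.Dich

theorem stQ_59 (hs : StSmall) (h1 : StRem) (h2 : StBlk) (h3 : StR) : StQ := by
  intro S _ _ μ P hP hL n f τ t' hτ
  obtain ⟨-, -, -, -, -, -, hU, -, -, -⟩ := hs S μ P hP hL n f
  set J := t' / τ with hJ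
  set ρ := t' % τ with hρ
  have ht : t' = τ * J + ρ := (Nat.div_add_mod t' τ).symm
  have hρlt : ρ < τ := Nat.mod_lt _ (by omega)
  have a1 := h1 S μ P hP hL n f (τ * J) ρ
  have a2 := h2 S μ P hP hL n f τ J
  have a3 : ∑ j ∈ Finset.range J, Rr μ P f τ (τ * j)
      ≤ J * ((3 / 2) * (τ : ℝ) ^ (3 / 4 : ℝ) * U μ P f) := by
    have : ∑ j ∈ Finset.range J, Rr μ P f τ (τ * j)
        ≤ ∑ j ∈ Finset.range J, ((3 / 2) * (τ : ℝ) ^ (3 / 4 : ℝ) * U μ P f) :=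
      Finset.sum_le_sum fun j _ => h3 S μ P hP hL n f τ (τ * j)
    simpa using this
  have hτ0 : (0 : ℝ) < (τ : ℝ) := by exact_mod_cast (by omega : 0 < τ)
  have hJt : (J : ℝ) * τ ≤ t' := by
    have : J * τ ≤ t' := by
      rw [ht]
      nlinarith
    exact_mod_cast this
  have b1 : Real.sqrt J * τ ≤ Real.sqrt (t' * τ) := by
    have e : Real.sqrt J * τ = Real.sqrt (J * τ ^ 2) := by
      rw [Real.sqrt_mul (Nat.cast_nonneg J), Real.sqrt_sq hτ0.le]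
    rw [e]
    apply Real.sqrt_le_sqrt
    nlinarith
  have b2 : (J : ℝ) * (τ : ℝ) ^ (3 / 4 : ℝ) ≤ t' * (τ : ℝ) ^ (-(1 / 4) : ℝ) := by
    have e : (τ : ℝ) ^ (3 / 4 : ℝ) = τ * (τ : ℝ) ^ (-(1 / 4) : ℝ) := by
      have : (3 / 4 : ℝ) = 1 + (-(1 / 4) : ℝ) := by norm_num
      rw [this, Real.rpow_add hτ0, Real.rpow_one]
    rw [e, ← mul_assoc]
    exact mul_le_mul_of_nonneg_right hJt (Real.rpow_nonneg hτ0.le _)
  have b3 : (ρ : ℝ) ≤ τ := by exact_mod_cast hρlt.le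
  rw [← ht] at a1
  have c1 := mul_le_mul_of_nonneg_right b1 hU
  have c2 := mul_le_mul_of_nonneg_right b2 hU
  have c3 := mul_le_mul_of_nonneg_right b3 hU
  calc Qsum μ P f t' ≤ Qsum μ P f (τ * J) + ρ * U μ P f := a1
    _ ≤ Real.sqrt J * τ * U μ P f + J * ((3 / 2) * (τ : ℝ) ^ (3 / 4 : ℝ) * U μ P f)
        + ρ * U μ P f := by linarith
    _ ≤ (Real.sqrt (t' * τ) + τ + (3 / 2) * t' * (τ : ℝ) ^ (-(1 / 4) : ℝ)) * U μ P f := by
      nlinarith

end Vale.Agent.P125.Poly
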