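import Vale.Agent.P125.Poly.Defs58
import Vale.Agent.P125.Poly.SqrtStep_51

set_option linter.unusedSectionVars false
set_option linter.unusedVariables false

/-! # P125 Poly: `StSqrt` (from `Poly51.sqrt_step`) -/

namespace Vale.Agent.P125.Poly

open scoped BigOperators
open Vale.Agent.P125.Dich

theorem stSqrt_51 : StSqrt := by
  intro S _ _ μ R hc _ G J c b
  obtain ⟨_, _, c2, c3, _⟩ := hc
  have key := Poly51.sqrt_step R c2 c3 G (G b - c) J b
  have e1 : ∀ y, |G y - (G b - c)| = |c + G y - G b| := by
    intro y
    congr 1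
    ring
  have e2 : (G b - (G b - c)) ^ 2 = c ^ 2 := by ring
  have e3 : ∀ z, Poly51.drift R G z = ∑ y, R z y * (G y - G z) := by
    intro z
    unfold Poly51.drift
    have : ∑ y, R z y * (G y - G z) = ∑ y, R z y * G y - (∑ y, R z y) * G z := by
      rw [Finset.sum_mul, ← Finset.sum_sub_distrib]
      exact Finset.sum_congr rfl fun y _ => by ring
    rw [this, c3 z, one_mul]
  simp only [e1, e2, e3] at key
  exact key

end Vale.Agent.P125.Poly
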