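import Vale.Agent.P125.Poly.Defs58

set_option linter.unusedSectionVars false
set_option linter.unusedVariables false

/-! # P125 Poly: TRIV1 and REM -/

namespace Vale.Agent.P125.Poly

open scoped BigOperators
open Vale.Agent.P125.Dich

theorem stTriv1_13 (hs : StSmall) : StTriv1 := by
  intro S _ _ μ P hc hL n f k ρ z
  obtain ⟨hom0, homsum, hlb0, hl20, hl2U, hlbU, hU0, hFell, hwsym, hellsym⟩ := hs S μ P hc hL n f
  induction ρ with
  | zero =>
    unfold Ak
    simp [Matrix.one_apply]
  | succ ρ ih =>
    rw [Finset.sum_range_succ]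
    refine le_trans ?_ (add_le_add_left ih _)
    unfold Ak op
    have e : ∀ y, (P ^ (ρ + 1)) z y = ∑ x, (P ^ ρ) z x * P x y := by
      intro y
      rw [pow_succ, Matrix.mul_apply]
    simp only [e, Finset.sum_mul]
    rw [Finset.sum_comm, ← Finset.sum_add_distrib]
    refine Finset.sum_le_sum fun x _ => ?_
    have h1 : ∑ y, P x y * |F f k y - F f k z| ≤ |F f k x - F f k z| + lbar P f x := by
      unfold lbar
      have h2 : ∑ y, P x y * |F f k y - F f k z|
          ≤ ∑ y, (P x y * |F f k x - F f k z| + P x y * ell f x y) := by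
        refine Finset.sum_le_sum fun y _ => ?_
        rw [← mul_add]
        apply mul_le_mul_of_nonneg_left _ (hc.2.2.1 x y)
        have h4 := hFell k x y
        have h3 : |F f k y - F f k z| ≤ |F f k y - F f k x| + |F f k x - F f k z| :=
          abs_sub_le _ _ _
        linarith
      rw [Finset.sum_add_distrib, ← Finset.sum_mul, hc.2.2.2.1 x, one_mul] at h2
      exact h2
    calc ∑ y, (P ^ ρ) z x * P x y * |F f k y - F f k z|
        = (P ^ ρ) z x * ∑ y, P x y * |F f k y - F f k z| := by
          rw [Finset.mul_sum]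
          exact Finset.sum_congr rfl fun y _ => by ring
      _ ≤ (P ^ ρ) z x * (|F f k x - F f k z| + lbar P f x) :=
          mul_le_mul_of_nonneg_left h1 (hL.pw_nonneg ρ z x)
      _ = (P ^ ρ) z x * |F f k x - F f k z| + (P ^ ρ) z x * lbar P f x := by ring

end Vale.Agent.P125.Poly
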