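import Vale.Agent.P125.Poly.Lib_16
import Vale.Agent.P125.Poly.Small_93
import Vale.Agent.P125.Poly.Own_33
import Vale.Agent.P125.Poly.OwnT_27
import Vale.Agent.P125.Poly.Tel_59
import Vale.Agent.P125.Poly.Col_59
import Vale.Agent.P125.Poly.Two_59
import Vale.Agent.P125.Poly.Triv1_13
import Vale.Agent.P125.Poly.Triv2_85
import Vale.Agent.P125.Poly.Sqrt_51
import Vale.Agent.P125.Poly.Rem_11
import Vale.Agent.P125.Poly.Blk_89
import Vale.Agent.P125.Poly.Dual_59
import Vale.Agent.P125.Poly.Down_73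
import Vale.Agent.P125.Poly.Back_88
import Vale.Agent.P125.Poly.En_59
import Vale.Agent.P125.Poly.BB_38
import Vale.Agent.P125.Poly.Xi_87
import Vale.Agent.P125.Poly.R_14
import Vale.Agent.P125.Poly.Q_59
import Vale.Agent.P125.Poly.Core_21
import Vale.Agent.P125.Poly.Wrap_75

/-!
# P125 Poly: assembly of the polynomial rate
-/

namespace Vale.Agent.P125.Poly

open scoped BigOperators

theorem stCore_all_59 : StCore := by
  have hlib := stLib_16
  have hs := stSmall_93
  have hown := stOwn_33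
  have hownT := stOwnT_27 hown
  have htwo := stTwo_59 hown stTel_59 (stCol_59 hs) hs
  have ht1 := stTriv1_13 hs
  have ht2 := stTriv2_85 hs
  have hrem := stRem_11 hs ht1
  have hblk := stBlk_89 hlib hs ht2 stSqrt_51
  have hxi := stXi_87 hs stEn_59 (stBB_38 hs)
  have hR := stR_14 hs stDual_59 (stDown_73 hownT hs) (stBack_88 hs) hxi
  have hQ := stQ_59 hs hrem hblk hR
  exact stCore_21 hlib hs htwo hQ

/-- the polynomial rate in plain terms -/
theorem poly_rate_59 : ∀ t : ℕ, 1 ≤ t →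
    ∀ (n : ℕ) (S : Type) [Fintype S] [DecidableEq S] (μ : S → ℝ) (P : Matrix S S ℝ),
      (∀ i, 0 ≤ μ i) → ∑ i, μ i = 1 → (∀ i j, 0 ≤ P i j) → (∀ i, ∑ j, P i j = 1) →
      (∀ i j, μ i * P i j = μ j * P j i) → ∀ f : S → Fin n → ℝ,
        ∑ i, ∑ j, μ i * (P ^ t) i j *
            (Finset.univ.sup' Finset.univ_nonempty (fun k : Fin (n + 1) =>
              |∑ l : Fin n, if l.val < k.val then f j l - f i l else 0|)) ^ 2 ≤
          24 * (t : ℝ) ^ (11 / 6 : ℝ) *
            ∑ i, ∑ j, μ i * P i j * (∑ l : Fin n, |f j l - f i l|) ^ 2 :=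
  stWrap_75 stCore_all_59

end Vale.Agent.P125.Poly
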