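import Mathlib
import Vale.Agent.P125.Poly.Defs58

set_option linter.unusedSectionVars false
set_option linter.unusedVariables false

/-!
# P125 Poly: Step 3 (`StBlk`) from `StLib`, `StSmall`, `StTriv2`, `StSqrt` (helper77)
-/

namespace Vale.Agent.P125.Poly

open scoped BigOperators
open Vale.Agent.P125.Dich

theorem stBlk_77 (hlib : StLib) (hs : StSmall) (h2 : StTriv2) (h3 : StSqrt) : StBlk := by
  intro S _ _ μ P hc L n f τ J
  obtain ⟨hom, hsum, hlb, hl2, havl2, havlb, hU, -, -, -⟩ := hs S μ P hc L n f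
  have hcR : IsChain μ (P ^ τ) := isChain_pow hc τ
  have LR := hlib S μ (P ^ τ) hcR
  have hop : ∀ j (g : S → ℝ), op (P ^ τ) j g = op P (τ * j) g := by
    intro j g; unfold op; rw [← pow_mul]
  obtain ⟨V, hV⟩ : ∃ V : S → ℝ, V = fun z => (τ : ℝ) * ∑ i ∈ Finset.range τ, op P i (l2 P f) z :=
    ⟨_, rfl⟩
  obtain ⟨Wf, hWf⟩ : ∃ Wf : S → ℝ, Wf = fun b => ∑ j ∈ Finset.range J, op P (τ * j) V b :=
    ⟨_, rfl⟩
  have hA : ∀ k b, Ak P f (τ * J) k b ≤ Real.sqrt (Wf b) +
      ∑ j ∈ Finset.range J, op P (τ * j) (fun z => |hh P f τ k z|) b := by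
    intro k b
    have := h3 S μ (P ^ τ) hcR LR (F f k) J 0 b
    rw [← pow_mul] at this
    simp only [hop] at this
    have e1 : ∑ y, (P ^ (τ * J)) b y * |0 + F f k y - F f k b| = Ak P f (τ * J) k b := by
      unfold Ak; simp
    have e2 : (fun z => |∑ y, (P ^ τ) z y * (F f k y - F f k z)|) = fun z => |hh P f τ k z| := by
      funext z
      congr 1
      unfold hh op
      simp only [mul_sub]
      rw [Finset.sum_sub_distrib, ← Finset.sum_mul, L.pw_sum, one_mul]
    rw [e1, e2] at this
    refine this.trans ?_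
    refine add_le_add_left (Real.sqrt_le_sqrt ?_) _
    rw [hWf]
    simp only [ne_eq, OfNat.ofNat_ne_zero, not_false_eq_true, zero_pow, zero_add]
    refine Finset.sum_le_sum fun j _ => ?_
    refine L.op_mono _ _ _ (fun z => ?_) b
    rw [hV]
    exact h2 S μ P hc L n f k τ z
  have hV0 : ∀ z, 0 ≤ V z := by
    intro z
    rw [hV]
    refine mul_nonneg (by positivity) (Finset.sum_nonneg fun i _ => ?_)
    have := L.op_mono i (fun _ => 0) (l2 P f) hl2 z
    rw [L.op_const] at this
    exact this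
  have hW0 : ∀ b, 0 ≤ Wf b := by
    intro b
    rw [hWf]
    refine Finset.sum_nonneg fun j _ => ?_
    have := L.op_mono (τ * j) (fun _ => 0) V hV0 b
    rw [L.op_const] at this
    exact this
  have av_sum : ∀ (m : ℕ) (g : ℕ → S → ℝ),
      av μ (fun b => ∑ j ∈ Finset.range m, g j b) = ∑ j ∈ Finset.range m, av μ (g j) := by
    intro m g
    unfold av
    rw [Finset.sum_comm]
    exact Finset.sum_congr rfl fun x _ => Finset.mul_sum _ _ _
  have havV : av μ V = (τ : ℝ) * (τ * U μ P f) := by
    have : av μ V = (τ : ℝ) * av μ (fun z => ∑ i ∈ Finset.range τ, op P i (l2 P f) z) := by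
      rw [hV]; unfold av; rw [Finset.mul_sum]
      exact Finset.sum_congr rfl fun x _ => by ring
    rw [this, av_sum]
    simp only [L.av_op, havl2, Finset.sum_const, Finset.card_range, nsmul_eq_mul]
  have havW : av μ Wf = (J : ℝ) * ((τ : ℝ) * (τ * U μ P f)) := by
    rw [hWf, av_sum]
    simp only [L.av_op, havV, Finset.sum_const, Finset.card_range, nsmul_eq_mul]
  -- the first part
  have p1 : av μ (fun b => lbar P f b * Real.sqrt (Wf b)) ≤ Real.sqrt J * τ * U μ P f := by
    refine (L.av_cs _ _).trans ?_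
    have e : (fun x => Real.sqrt (Wf x) ^ 2) = Wf := by
      funext x; exact Real.sq_sqrt (hW0 x)
    rw [e, havW]
    have h1 : Real.sqrt (av μ fun x => lbar P f x ^ 2) ≤ Real.sqrt (U μ P f) :=
      Real.sqrt_le_sqrt havlb
    have h4 : Real.sqrt ((J : ℝ) * ((τ : ℝ) * (τ * U μ P f))) =
        Real.sqrt J * (τ * Real.sqrt (U μ P f)) := by
      rw [Real.sqrt_mul (by positivity)]
      congr 1
      rw [← mul_assoc, Real.sqrt_mul (by positivity), Real.sqrt_mul_self (by positivity)]
    rw [h4]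
    calc Real.sqrt (av μ fun x => lbar P f x ^ 2) * (Real.sqrt J * (τ * Real.sqrt (U μ P f)))
        ≤ Real.sqrt (U μ P f) * (Real.sqrt J * (τ * Real.sqrt (U μ P f))) :=
          mul_le_mul_of_nonneg_right h1 (by positivity)
      _ = Real.sqrt J * τ * (Real.sqrt (U μ P f) * Real.sqrt (U μ P f)) := by ring
      _ = Real.sqrt J * τ * U μ P f := by rw [Real.mul_self_sqrt hU]
  -- assemble
  have q1 : Qsum μ P f (τ * J) ≤ ∑ k, av μ (fun b => om P f k b * (Real.sqrt (Wf b) +
      ∑ j ∈ Finset.range J, op P (τ * j) (fun z => |hh P f τ k z|) b)) := by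
    unfold Qsum Qk
    refine Finset.sum_le_sum fun k _ => L.av_mono _ _ fun b => ?_
    exact mul_le_mul_of_nonneg_left (hA k b) (hom k b)
  have q2 : ∑ k, av μ (fun b => om P f k b * (Real.sqrt (Wf b) +
      ∑ j ∈ Finset.range J, op P (τ * j) (fun z => |hh P f τ k z|) b)) =
      av μ (fun b => lbar P f b * Real.sqrt (Wf b)) +
        ∑ j ∈ Finset.range J, Rr μ P f τ (τ * j) := by
    have a1 : ∀ k, av μ (fun b => om P f k b * (Real.sqrt (Wf b) +
        ∑ j ∈ Finset.range J, op P (τ * j) (fun z => |hh P f τ k z|) b)) =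
        av μ (fun b => om P f k b * Real.sqrt (Wf b)) +
        ∑ j ∈ Finset.range J, av μ (fun b => om P f k b *
          op P (τ * j) (fun z => |hh P f τ k z|) b) := by
      intro k
      rw [← av_sum]
      unfold av
      rw [← Finset.sum_add_distrib]
      refine Finset.sum_congr rfl fun x _ => ?_
      simp only [Finset.mul_sum, mul_add]
    simp only [a1]
    rw [Finset.sum_add_distrib]
    congr 1
    · unfold av
      rw [Finset.sum_comm]
      refine Finset.sum_congr rfl fun x _ => ?_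
      show ∑ k, μ x * (om P f k x * Real.sqrt (Wf x)) = μ x * (lbar P f x * Real.sqrt (Wf x))
      rw [← hsum x, Finset.sum_mul, Finset.mul_sum]
    · rw [Finset.sum_comm]
      rfl
  rw [q2] at q1
  linarith

end Vale.Agent.P125.Poly
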