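import Mathlib
import Vale.Agent.P125.Poly.Defs58

set_option linter.unusedSectionVars false
set_option linter.unusedVariables false

/-!
# P125 Poly: the bound of `Q` (`StQ`) from `StSmall`, `StRem`, `StBlk`, `StR` (helper77)
-/

namespace Vale.Agent.P125.Poly

open scoped BigOperators
open Vale.Agent.P125.Dich

theorem stQ_77 (hs : StSmall) (h1 : StRem) (h2 : StBlk) (h3 : StR) : StQ := by
  intro S _ _ μ P hc L n f τ t' hτ
  obtain ⟨-, -, -, -, -, -, hU, -⟩ := hs S μ P hc L n f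
  obtain ⟨J, hJ⟩ : ∃ J : ℕ, J = t' / τ := ⟨_, rfl⟩
  obtain ⟨ρ, hρ⟩ : ∃ ρ : ℕ, ρ = t' % τ := ⟨_, rfl⟩
  have hdm : τ * J + ρ = t' := by rw [hJ, hρ]; exact Nat.div_add_mod t' τ
  have hρτ : ρ ≤ τ := by rw [hρ]; exact (Nat.mod_lt _ (by omega)).le
  have hJt : τ * J ≤ t' := by omega
  have a1 := h1 S μ P hc L n f (τ * J) ρ
  rw [hdm] at a1
  have a2 := h2 S μ P hc L n f τ J
  have a3 : ∑ j ∈ Finset.range J, Rr μ P f τ (τ * j) ≤
      ∑ j ∈ Finset.range J, ((3 / 2) * (τ : ℝ) ^ (3 / 4 : ℝ) * U μ P f) :=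
    Finset.sum_le_sum fun j _ => h3 S μ P hc L n f τ (τ * j)
  rw [Finset.sum_const, Finset.card_range, nsmul_eq_mul] at a3
  have hτ0 : (0 : ℝ) < τ := by exact_mod_cast (by omega : 0 < τ)
  have hJt' : (τ : ℝ) * J ≤ t' := by exact_mod_cast hJt
  have hρτ' : (ρ : ℝ) ≤ τ := by exact_mod_cast hρτ
  have b1 : Real.sqrt J * τ ≤ Real.sqrt (t' * τ) := by
    have : Real.sqrt J * τ = Real.sqrt (J * (τ * τ)) := by
      rw [Real.sqrt_mul (by positivity), Real.sqrt_mul_self hτ0.le]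
    rw [this]
    refine Real.sqrt_le_sqrt ?_
    nlinarith
  have hpw : (τ : ℝ) ^ (3 / 4 : ℝ) = τ * (τ : ℝ) ^ (-(1 / 4) : ℝ) := by
    have : (3 / 4 : ℝ) = 1 + (-(1 / 4) : ℝ) := by norm_num
    rw [this, Real.rpow_add hτ0, Real.rpow_one]
  have hm0 : (0 : ℝ) ≤ (τ : ℝ) ^ (-(1 / 4) : ℝ) := Real.rpow_nonneg hτ0.le _
  have b2 : (J : ℝ) * ((3 / 2) * (τ : ℝ) ^ (3 / 4 : ℝ)) ≤
      (3 / 2) * t' * (τ : ℝ) ^ (-(1 / 4) : ℝ) := by
    rw [hpw]
    have := mul_le_mul_of_nonneg_right hJt' hm0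
    nlinarith
  have c1 := mul_le_mul_of_nonneg_right b1 hU
  have c2 := mul_le_mul_of_nonneg_right b2 hU
  have c3 := mul_le_mul_of_nonneg_right hρτ' hU
  nlinarith [a1, a2, a3, c1, c2, c3]

end Vale.Agent.P125.Poly
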