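import Mathlib
import Vale.Agent.P125.Poly.Defs58

set_option linter.unusedSectionVars false
set_option linter.unusedVariables false

/-!
# P125 Poly: remainder of the block decomposition (`StRem`) from `StSmall`, `StTriv1` (helper77)
-/

namespace Vale.Agent.P125.Poly

open scoped BigOperators
open Vale.Agent.P125.Dich

theorem stRem_77 (hs : StSmall) (h1 : StTriv1) : StRem := by
  intro S _ _ μ P hc L n f m ρ
  obtain ⟨hom, hsum, hlb, hl2, havl2, havlb, hU, -, -, -⟩ := hs S μ P hc L n f
  -- pointwise
  have hA : ∀ k b, Ak P f (m + ρ) k b ≤ Ak P f m k b +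
      ∑ i ∈ Finset.range ρ, op P (m + i) (lbar P f) b := by
    intro k b
    have e1 : Ak P f (m + ρ) k b =
        ∑ z, (P ^ m) b z * ∑ y, (P ^ ρ) z y * |F f k y - F f k b| := by
      unfold Ak
      simp only [L.pw_add, Finset.sum_mul, Finset.mul_sum]
      rw [Finset.sum_comm]
      exact Finset.sum_congr rfl fun z _ => Finset.sum_congr rfl fun y _ => by ring
    have e2 : ∀ z, ∑ y, (P ^ ρ) z y * |F f k y - F f k b| ≤
        Ak P f ρ k z + |F f k z - F f k b| := by
      intro z
      have : Ak P f ρ k z + |F f k z - F f k b| =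
          ∑ y, (P ^ ρ) z y * (|F f k y - F f k z| + |F f k z - F f k b|) := by
        simp only [mul_add]
        rw [Finset.sum_add_distrib, ← Finset.sum_mul, L.pw_sum, one_mul]
        rfl
      rw [this]
      refine Finset.sum_le_sum fun y _ => mul_le_mul_of_nonneg_left ?_ (L.pw_nonneg ρ z y)
      have := abs_add_le (F f k y - F f k z) (F f k z - F f k b)
      simpa using this
    rw [e1]
    calc ∑ z, (P ^ m) b z * ∑ y, (P ^ ρ) z y * |F f k y - F f k b|
        ≤ ∑ z, (P ^ m) b z * ((∑ i ∈ Finset.range ρ, op P i (lbar P f) z) +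
            |F f k z - F f k b|) := by
          refine Finset.sum_le_sum fun z _ => mul_le_mul_of_nonneg_left ?_ (L.pw_nonneg m b z)
          have := h1 S μ P hc L n f k ρ z
          linarith [e2 z]
      _ = Ak P f m k b + ∑ i ∈ Finset.range ρ, op P (m + i) (lbar P f) b := by
          simp only [mul_add]
          rw [Finset.sum_add_distrib, add_comm]
          congr 1
          have := L.op_sum ℕ (Finset.range ρ) m (fun i => op P i (lbar P f)) b
          simp only [L.op_op] at this
          rw [← this]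
          rfl
  have hcs : ∀ j, av μ (fun b => lbar P f b * op P j (lbar P f) b) ≤ U μ P f := by
    intro j
    refine (L.av_cs _ _).trans ?_
    have a1 : av μ (fun x => op P j (lbar P f) x ^ 2) ≤ av μ (fun x => lbar P f x ^ 2) := by
      rw [← L.av_op j (fun x => lbar P f x ^ 2)]
      exact L.av_mono _ _ fun x => L.sq_op j _ x
    have a2 : Real.sqrt (av μ (fun x => op P j (lbar P f) x ^ 2)) ≤ Real.sqrt (U μ P f) :=
      Real.sqrt_le_sqrt (a1.trans havlb)
    have a3 : Real.sqrt (av μ (fun x => lbar P f x ^ 2)) ≤ Real.sqrt (U μ P f) :=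
      Real.sqrt_le_sqrt havlb
    calc _ ≤ Real.sqrt (U μ P f) * Real.sqrt (U μ P f) :=
          mul_le_mul a3 a2 (Real.sqrt_nonneg _) (Real.sqrt_nonneg _)
      _ = U μ P f := Real.mul_self_sqrt hU
  have q1 : Qsum μ P f (m + ρ) ≤ ∑ k, av μ (fun b => om P f k b * (Ak P f m k b +
      ∑ i ∈ Finset.range ρ, op P (m + i) (lbar P f) b)) := by
    unfold Qsum Qk
    refine Finset.sum_le_sum fun k _ => L.av_mono _ _ fun b => ?_
    exact mul_le_mul_of_nonneg_left (hA k b) (hom k b)
  have q2 : ∑ k, av μ (fun b => om P f k b * (Ak P f m k b +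
      ∑ i ∈ Finset.range ρ, op P (m + i) (lbar P f) b)) =
      Qsum μ P f m + ∑ i ∈ Finset.range ρ, av μ (fun b => lbar P f b * op P (m + i) (lbar P f) b) := by
    unfold Qsum Qk av
    simp only [mul_add]
    simp only [Finset.sum_add_distrib]
    congr 1
    rw [Finset.sum_comm]
    have : ∀ x, ∑ k, μ x * (om P f k x * ∑ i ∈ Finset.range ρ, op P (m + i) (lbar P f) x) =
        ∑ i ∈ Finset.range ρ, μ x * (lbar P f x * op P (m + i) (lbar P f) x) := by
      intro x
      rw [← Finset.mul_sum, ← Finset.sum_mul, hsum x, Finset.mul_sum, Finset.mul_sum]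
    simp only [this]
    rw [Finset.sum_comm]
  have q3 : ∑ i ∈ Finset.range ρ, av μ (fun b => lbar P f b * op P (m + i) (lbar P f) b) ≤
      ∑ i ∈ Finset.range ρ, U μ P f := Finset.sum_le_sum fun i _ => hcs _
  rw [Finset.sum_const, Finset.card_range, nsmul_eq_mul] at q3
  rw [q2] at q1
  linarith

end Vale.Agent.P125.Poly
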