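import Vale.Agent.P125.Poly.Defs58

set_option linter.unusedSectionVars false
set_option linter.unusedVariables false

/-! # P125 Poly (helper58 skeleton): CORE, scalar arithmetic -/

namespace Vale.Agent.P125.Poly

open scoped BigOperators
open Vale.Agent.P125.Dich

/-- the scalar part: with `x = t^(1/6)`, `x^4 ≤ τ ≤ 2 x^4`, `t' ≤ x^6` -/
private lemma scal (x τ s i : ℝ) (hx : 1 ≤ x) (h1 : x ^ 4 ≤ τ) (h2 : τ ≤ 2 * x ^ 4) (hs0 : 0 ≤ s)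
    (hs : s ≤ x ^ 6) (hi0 : 0 ≤ i) (hi : i ≤ x⁻¹) :
    Real.sqrt (s * τ) + τ + (3 / 2) * s * i ≤ 5 * x ^ 5 := by
  have hx0 : 0 < x := by linarith
  have a1 : Real.sqrt (s * τ) ≤ (3 / 2) * x ^ 5 := by
    rw [Real.sqrt_le_iff]
    refine ⟨by positivity, ?_⟩
    have : s * τ ≤ x ^ 6 * (2 * x ^ 4) :=
      mul_le_mul hs h2 (le_trans (by positivity) h1) (by positivity)
    nlinarith [pow_pos hx0 10]
  have a2 : τ ≤ 2 * x ^ 5 := by
    have : x ^ 4 ≤ x ^ 5 := pow_le_pow_right₀ hx (by norm_num)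
    linarith
  have a3 : s * i ≤ x ^ 5 := by
    have : s * i ≤ x ^ 6 * x⁻¹ := mul_le_mul hs hi hi0 (by positivity)
    have e : x ^ 6 * x⁻¹ = x ^ 5 := by field_simp
    linarith
  nlinarith

theorem stCore_79 (hlib : StLib) (hs : StSmall) (h1 : StTwo) (h2 : StQ) : StCore := by
  intro S _ _ μ P hc n f κ t ht
  have hL := hlib S μ P hc
  have hU : 0 ≤ U μ P f := (hs S μ P hc hL n f).2.2.2.2.2.2.1
  have hT1 : (1 : ℝ) ≤ (t : ℝ) := by exact_mod_cast ht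
  have hT0 : (0 : ℝ) ≤ (t : ℝ) := by linarith
  set x : ℝ := (t : ℝ) ^ (1 / 6 : ℝ) with hx
  have hx1 : 1 ≤ x := Real.one_le_rpow hT1 (by norm_num)
  have hx0 : 0 < x := by linarith
  have e6 : x ^ 6 = (t : ℝ) := by
    rw [hx, ← Real.rpow_natCast, ← Real.rpow_mul hT0]; norm_num
  have e4 : (t : ℝ) ^ (2 / 3 : ℝ) = x ^ 4 := by
    rw [hx, ← Real.rpow_natCast, ← Real.rpow_mul hT0]; norm_num
  have e11 : (t : ℝ) ^ (11 / 6 : ℝ) = x ^ 11 := by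
    rw [hx, ← Real.rpow_natCast, ← Real.rpow_mul hT0]; norm_num
  set τ : ℕ := Nat.ceil ((t : ℝ) ^ (2 / 3 : ℝ)) with hτ
  have t1 : x ^ 4 ≤ (τ : ℝ) := by rw [← e4]; exact Nat.le_ceil _
  have t2 : (τ : ℝ) ≤ 2 * x ^ 4 := by
    have : (τ : ℝ) < (t : ℝ) ^ (2 / 3 : ℝ) + 1 := Nat.ceil_lt_add_one (by positivity)
    have h4 : 1 ≤ x ^ 4 := one_le_pow₀ hx1
    rw [e4] at this
    linarith
  have hτ1 : 1 ≤ τ := by
    have h4 : 1 ≤ x ^ 4 := one_le_pow₀ hx1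
    have : (1 : ℝ) ≤ (τ : ℝ) := le_trans h4 t1
    exact_mod_cast this
  have hi0 : 0 ≤ (τ : ℝ) ^ (-(1 / 4) : ℝ) := by positivity
  have hi : (τ : ℝ) ^ (-(1 / 4) : ℝ) ≤ x⁻¹ := by
    have h4 : 0 < x ^ 4 := by positivity
    have a : (τ : ℝ) ^ (-(1 / 4) : ℝ) ≤ (x ^ 4) ^ (-(1 / 4) : ℝ) :=
      Real.rpow_le_rpow_of_nonpos h4 t1 (by norm_num)
    have b : (x ^ 4) ^ (-(1 / 4) : ℝ) = x⁻¹ := by
      rw [← Real.rpow_natCast, ← Real.rpow_mul hx0.le, ← Real.rpow_neg_one]; norm_num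
    linarith
  have hQ : ∀ t' : ℕ, t' ≤ t → Qsum μ P f t' ≤ 5 * x ^ 5 * U μ P f := by
    intro t' ht'
    refine (h2 S μ P hc hL n f τ t' hτ1).trans ?_
    refine mul_le_mul_of_nonneg_right ?_ hU
    have hs1 : ((t' : ℕ) : ℝ) ≤ x ^ 6 := by rw [e6]; exact_mod_cast ht'
    exact scal x τ t' _ hx1 t1 t2 (Nat.cast_nonneg _) hs1 hi0 hi
  refine (h1 S μ P hc hL n f κ t).trans ?_
  have hsum : ∑ r ∈ Finset.range t, (Qsum μ P f (t - 1 - r) + Qsum μ P f r) ≤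
      ∑ r ∈ Finset.range t, (10 * x ^ 5 * U μ P f) := by
    refine Finset.sum_le_sum fun r hr => ?_
    have hr' : r < t := Finset.mem_range.mp hr
    have a := hQ (t - 1 - r) (by omega)
    have b := hQ r (by omega)
    linarith
  rw [Finset.sum_const, Finset.card_range, nsmul_eq_mul] at hsum
  rw [e11]
  have e : (t : ℝ) * (10 * x ^ 5 * U μ P f) = 10 * x ^ 11 * U μ P f := by
    rw [← e6]; ring
  rw [e] at hsum
  have h611 : x ^ 6 ≤ x ^ 11 := pow_le_pow_right₀ hx1 (by norm_num)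
  have : 2 * (t : ℝ) * U μ P f ≤ 2 * x ^ 11 * U μ P f := by
    rw [← e6]
    exact mul_le_mul_of_nonneg_right (by linarith) hU
  have h11 : 0 ≤ x ^ 11 * U μ P f := by positivity
  nlinarith
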