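import Mathlib
import Vale.Agent.P125.Poly.Defs58

/-!
# P125 Poly, REM (helper85): remainder of the block decomposition.
-/

namespace Vale.Agent.P125.Poly

open scoped BigOperators
open Vale.Agent.P125.Dich

theorem stRem_85 (hs : StSmall) (h1 : StTriv1) : StRem := by
  intro S _ _ μ P hc hL n f m ρ
  obtain ⟨hom0, homsum, hlb0, -, -, hlbU, hU0, hF, -, -⟩ := hs S μ P hc hL n f
  have hT := h1 S μ P hc hL n f
  have hA : ∀ k b, Ak P f (m + ρ) k b ≤
      Ak P f m k b + ∑ i ∈ Finset.range ρ, op P (m + i) (lbar P f) b := by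
    intro k b
    unfold Ak
    have e1 : ∑ y, (P ^ (m + ρ)) b y * |F f k y - F f k b|
        = ∑ z, (P ^ m) b z * ∑ y, (P ^ ρ) z y * |F f k y - F f k b| := by
      simp_rw [hL.pw_add m ρ, Finset.sum_mul, Finset.mul_sum]
      rw [Finset.sum_comm]
      apply Finset.sum_congr rfl; intro z _
      apply Finset.sum_congr rfl; intro y _; ring
    rw [e1]
    have e2 : ∀ z, ∑ y, (P ^ ρ) z y * |F f k y - F f k b| ≤
        |F f k z - F f k b| + ∑ i ∈ Finset.range ρ, op P i (lbar P f) z := by
      intro z
      have h := hT k ρ z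
      unfold Ak at h
      have h' : ∑ y, (P ^ ρ) z y * |F f k y - F f k b| ≤
          ∑ y, ((P ^ ρ) z y * |F f k y - F f k z| + (P ^ ρ) z y * |F f k z - F f k b|) := by
        apply Finset.sum_le_sum; intro y _
        rw [← mul_add]
        apply mul_le_mul_of_nonneg_left _ (hL.pw_nonneg ρ z y)
        have h3 : F f k y - F f k b = (F f k y - F f k z) + (F f k z - F f k b) := by ring
        rw [h3]; exact abs_add_le _ _
      rw [Finset.sum_add_distrib, ← Finset.sum_mul, hL.pw_sum, one_mul] at h'
      linarith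
    have e3 : ∑ z, (P ^ m) b z * ∑ i ∈ Finset.range ρ, op P i (lbar P f) z
        = ∑ i ∈ Finset.range ρ, op P (m + i) (lbar P f) b := by
      have h := hL.op_sum ℕ (Finset.range ρ) m (fun i => op P i (lbar P f)) b
      simp_rw [hL.op_op] at h
      exact h
    calc ∑ z, (P ^ m) b z * ∑ y, (P ^ ρ) z y * |F f k y - F f k b|
        ≤ ∑ z, (P ^ m) b z * (|F f k z - F f k b|
            + ∑ i ∈ Finset.range ρ, op P i (lbar P f) z) :=
          Finset.sum_le_sum (fun z _ => mul_le_mul_of_nonneg_left (e2 z) (hL.pw_nonneg m b z))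
      _ = ∑ z, (P ^ m) b z * |F f k z - F f k b|
            + ∑ i ∈ Finset.range ρ, op P (m + i) (lbar P f) b := by
          simp_rw [mul_add, Finset.sum_add_distrib]
          rw [e3]
  have hB : ∀ j, av μ (fun b => lbar P f b * op P j (lbar P f) b) ≤ U μ P f := by
    intro j
    have h1 : av μ (fun b => lbar P f b * op P j (lbar P f) b) ≤
        av μ (fun b => (1/2) * lbar P f b ^ 2 + (1/2) * op P j (fun y => lbar P f y ^ 2) b) := by
      apply hL.av_mono
      intro x
      have := hL.sq_op j (lbar P f) x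
      nlinarith [sq_nonneg (lbar P f x - op P j (lbar P f) x)]
    have h2 : av μ (fun b => (1/2) * lbar P f b ^ 2
          + (1/2) * op P j (fun y => lbar P f y ^ 2) b)
        = (1/2) * av μ (fun b => lbar P f b ^ 2)
          + (1/2) * av μ (op P j (fun y => lbar P f y ^ 2)) := by
      unfold av
      rw [Finset.mul_sum, Finset.mul_sum, ← Finset.sum_add_distrib]
      apply Finset.sum_congr rfl; intro x _; ring
    rw [h2, hL.av_op] at h1
    linarith
  unfold Qsum Qk
  have hk : ∀ k, av μ (fun b => om P f k b * Ak P f (m + ρ) k b) ≤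
      av μ (fun b => om P f k b * Ak P f m k b)
        + av μ (fun b => om P f k b * ∑ i ∈ Finset.range ρ, op P (m + i) (lbar P f) b) := by
    intro k
    have h : av μ (fun b => om P f k b * Ak P f (m + ρ) k b) ≤
        av μ (fun b => om P f k b * Ak P f m k b
          + om P f k b * ∑ i ∈ Finset.range ρ, op P (m + i) (lbar P f) b) := by
      apply hL.av_mono; intro x
      rw [← mul_add]
      exact mul_le_mul_of_nonneg_left (hA k x) (hom0 k x)
    refine h.trans (le_of_eq ?_)
    unfold av
    rw [← Finset.sum_add_distrib]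
    apply Finset.sum_congr rfl; intro x _; ring
  have hsum : ∑ k, av μ (fun b => om P f k b * ∑ i ∈ Finset.range ρ, op P (m + i) (lbar P f) b)
      = ∑ i ∈ Finset.range ρ, av μ (fun b => lbar P f b * op P (m + i) (lbar P f) b) := by
    unfold av
    rw [Finset.sum_comm]
    have h : ∀ x, ∑ k, μ x * (om P f k x * ∑ i ∈ Finset.range ρ, op P (m + i) (lbar P f) x)
        = ∑ i ∈ Finset.range ρ, μ x * (lbar P f x * op P (m + i) (lbar P f) x) := by
      intro x
      rw [← Finset.mul_sum, ← Finset.sum_mul, homsum x, Finset.mul_sum, Finset.mul_sum]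
    simp_rw [h]
    rw [Finset.sum_comm]
  have hlast : ∑ i ∈ Finset.range ρ, av μ (fun b => lbar P f b * op P (m + i) (lbar P f) b)
      ≤ ρ * U μ P f := by
    have h : ∑ i ∈ Finset.range ρ, av μ (fun b => lbar P f b * op P (m + i) (lbar P f) b)
        ≤ ∑ i ∈ Finset.range ρ, U μ P f := Finset.sum_le_sum (fun i _ => hB (m + i))
    simpa using h
  calc ∑ k, av μ (fun b => om P f k b * Ak P f (m + ρ) k b)
      ≤ ∑ k, (av μ (fun b => om P f k b * Ak P f m k b)
        + av μ (fun b => om P f k b * ∑ i ∈ Finset.range ρ, op P (m + i) (lbar P f) b)) :=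
        Finset.sum_le_sum (fun k _ => hk k)
    _ = ∑ k, av μ (fun b => om P f k b * Ak P f m k b)
        + ∑ i ∈ Finset.range ρ, av μ (fun b => lbar P f b * op P (m + i) (lbar P f) b) := by
        rw [Finset.sum_add_distrib, hsum]
    _ ≤ _ := by linarith

end Vale.Agent.P125.Poly
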