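import Vale.Agent.P125.Poly.Defs58

set_option linter.unusedSectionVars false
set_option linter.unusedVariables false

/-! # P125 Poly: the block step (Step 3) in the shape of `Defs58` -/

namespace Vale.Agent.P125.Poly

open scoped BigOperators
open Vale.Agent.P125.Dich

variable {S : Type} [Fintype S] [DecidableEq S]

lemma av_sum_90 (μ : S → ℝ) {ι : Type} (s : Finset ι) (g : ι → S → ℝ) :
    av μ (fun x => ∑ i ∈ s, g i x) = ∑ i ∈ s, av μ (g i) := by
  unfold av
  simp only [Finset.mul_sum]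
  exact Finset.sum_comm

lemma av_smul_90 (μ : S → ℝ) (c : ℝ) (g : S → ℝ) :
    av μ (fun x => c * g x) = c * av μ g := by
  unfold av
  rw [Finset.mul_sum]
  exact Finset.sum_congr rfl fun x _ => by ring

lemma op_nonneg_90 {μ : S → ℝ} {P : Matrix S S ℝ} (hL : Lib μ P) (k : ℕ) (g : S → ℝ)
    (hg : ∀ y, 0 ≤ g y) (x : S) : 0 ≤ op P k g x := by
  have h := hL.op_mono k (fun _ => 0) g hg x
  rwa [hL.op_const k 0 x] at h

theorem stBlk_90 (hlib : StLib) (hs : StSmall) (h2 : StTriv2) (h3 : StSqrt) : StBlk := by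
  intro S _ _ μ P hc hL n f τ J
  obtain ⟨om0, omsum, lb0, l20, avl2, avlb, U0, Fle, wsym, ellsym⟩ := hs S μ P hc hL n f
  have hcR : IsChain μ (P ^ τ) := isChain_pow hc τ
  have hLR : Lib μ (P ^ τ) := hlib S μ (P ^ τ) hcR
  have opR : ∀ (j : ℕ) (g : S → ℝ) (x : S), op (P ^ τ) j g x = op P (τ * j) g x := by
    intro j g x
    unfold op
    rw [← pow_mul]
  let Vs : S → ℝ := fun z => (τ : ℝ) * ∑ i ∈ Finset.range τ, op P i (l2 P f) z
  let D : S → ℝ := fun b => ∑ j ∈ Finset.range J, op P (τ * j) Vs b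
  have hVs0 : ∀ z, 0 ≤ Vs z := fun z =>
    mul_nonneg (Nat.cast_nonneg τ) (Finset.sum_nonneg fun i _ => op_nonneg_90 hL i _ l20 z)
  have hD0 : ∀ b, 0 ≤ D b := fun b =>
    Finset.sum_nonneg fun j _ => op_nonneg_90 hL (τ * j) Vs hVs0 b
  have hAk : ∀ k b, Ak P f (τ * J) k b ≤ Real.sqrt (D b) +
      ∑ j ∈ Finset.range J, op P (τ * j) (fun z => |hh P f τ k z|) b := by
    intro k b
    have key := h3 S μ (P ^ τ) hcR hLR (F f k) J 0 b
    have e1 : ∑ y, ((P ^ τ) ^ J) b y * |0 + F f k y - F f k b| = Ak P f (τ * J) k b := by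
      unfold Ak
      rw [← pow_mul]
      refine Finset.sum_congr rfl fun y _ => ?_
      rw [zero_add]
    rw [e1] at key
    refine key.trans (add_le_add ?_ (le_of_eq ?_))
    · apply Real.sqrt_le_sqrt
      have z2 : (0 : ℝ) ^ 2 = 0 := by norm_num
      rw [z2, zero_add]
      refine Finset.sum_le_sum fun j _ => ?_
      rw [opR]
      exact hL.op_mono (τ * j) _ _ (fun z => h2 S μ P hc hL n f k τ z) b
    · refine Finset.sum_congr rfl fun j _ => ?_
      rw [opR]
      congr 1
      funext z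
      congr 1
      unfold hh op
      simp only [mul_sub]
      rw [Finset.sum_sub_distrib, ← Finset.sum_mul, hL.pw_sum τ z, one_mul]
  have step1 : Qsum μ P f (τ * J) ≤ ∑ k, av μ (fun b => om P f k b * (Real.sqrt (D b) +
      ∑ j ∈ Finset.range J, op P (τ * j) (fun z => |hh P f τ k z|) b)) := by
    unfold Qsum Qk
    refine Finset.sum_le_sum fun k _ => hL.av_mono _ _ fun b => ?_
    exact mul_le_mul_of_nonneg_left (hAk k b) (om0 k b)
  have step2 : ∑ k, av μ (fun b => om P f k b * (Real.sqrt (D b) +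
      ∑ j ∈ Finset.range J, op P (τ * j) (fun z => |hh P f τ k z|) b))
      = av μ (fun b => lbar P f b * Real.sqrt (D b))
        + ∑ j ∈ Finset.range J, Rr μ P f τ (τ * j) := by
    unfold Rr av
    have e : ∀ (k : Fin n) (x : S), μ x * (om P f k x * (Real.sqrt (D x) +
        ∑ j ∈ Finset.range J, op P (τ * j) (fun z => |hh P f τ k z|) x))
        = μ x * (om P f k x * Real.sqrt (D x)) + ∑ j ∈ Finset.range J,
          μ x * (om P f k x * op P (τ * j) (fun z => |hh P f τ k z|) x) := by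
      intro k x
      rw [mul_add, mul_add, Finset.mul_sum, Finset.mul_sum]
    simp only [e, Finset.sum_add_distrib]
    congr 1
    · rw [Finset.sum_comm]
      refine Finset.sum_congr rfl fun x _ => ?_
      rw [← omsum x, Finset.sum_mul, Finset.mul_sum]
    · calc ∑ k : Fin n, ∑ x, ∑ j ∈ Finset.range J,
            μ x * (om P f k x * op P (τ * j) (fun z => |hh P f τ k z|) x)
          = ∑ k : Fin n, ∑ j ∈ Finset.range J, ∑ x,
            μ x * (om P f k x * op P (τ * j) (fun z => |hh P f τ k z|) x) :=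
            Finset.sum_congr rfl fun k _ => Finset.sum_comm
        _ = _ := Finset.sum_comm
  have avVs : av μ Vs = (τ : ℝ) * ((τ : ℝ) * U μ P f) := by
    show av μ (fun z => (τ : ℝ) * ∑ i ∈ Finset.range τ, op P i (l2 P f) z) = _
    rw [av_smul_90, av_sum_90]
    congr 1
    have : ∀ i ∈ Finset.range τ, av μ (op P i (l2 P f)) = U μ P f := fun i _ => by
      rw [hL.av_op i, avl2]
    rw [Finset.sum_congr rfl this, Finset.sum_const, Finset.card_range, nsmul_eq_mul]
  have avD : av μ D = (J : ℝ) * ((τ : ℝ) ^ 2 * U μ P f) := by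
    show av μ (fun b => ∑ j ∈ Finset.range J, op P (τ * j) Vs b) = _
    rw [av_sum_90]
    have : ∀ j ∈ Finset.range J, av μ (op P (τ * j) Vs) = (τ : ℝ) * ((τ : ℝ) * U μ P f) :=
      fun j _ => by rw [hL.av_op (τ * j), avVs]
    rw [Finset.sum_congr rfl this, Finset.sum_const, Finset.card_range, nsmul_eq_mul]
    ring
  have step3 : av μ (fun b => lbar P f b * Real.sqrt (D b)) ≤ Real.sqrt J * τ * U μ P f := by
    have cs := hL.av_cs (lbar P f) (fun b => Real.sqrt (D b))
    have e1 : av μ (fun x => Real.sqrt (D x) ^ 2) = av μ D := by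
      unfold av
      refine Finset.sum_congr rfl fun x _ => ?_
      show μ x * Real.sqrt (D x) ^ 2 = μ x * D x
      rw [Real.sq_sqrt (hD0 x)]
    rw [e1, avD] at cs
    have e2 : Real.sqrt ((J : ℝ) * ((τ : ℝ) ^ 2 * U μ P f))
        = Real.sqrt J * (τ * Real.sqrt (U μ P f)) := by
      rw [Real.sqrt_mul (Nat.cast_nonneg J), Real.sqrt_mul (sq_nonneg _),
        Real.sqrt_sq (Nat.cast_nonneg τ)]
    rw [e2] at cs
    have e3 : Real.sqrt (av μ (fun x => lbar P f x ^ 2)) ≤ Real.sqrt (U μ P f) :=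
      Real.sqrt_le_sqrt avlb
    have e4 : 0 ≤ Real.sqrt J * (τ * Real.sqrt (U μ P f)) :=
      mul_nonneg (Real.sqrt_nonneg _) (mul_nonneg (Nat.cast_nonneg τ) (Real.sqrt_nonneg _))
    have e5 := mul_le_mul_of_nonneg_right e3 e4
    have e6 : Real.sqrt (U μ P f) * (Real.sqrt J * (τ * Real.sqrt (U μ P f)))
        = Real.sqrt J * τ * U μ P f := by
      have := Real.mul_self_sqrt U0
      calc Real.sqrt (U μ P f) * (Real.sqrt J * (τ * Real.sqrt (U μ P f)))
          = Real.sqrt J * τ * (Real.sqrt (U μ P f) * Real.sqrt (U μ P f)) := by ring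
        _ = _ := by rw [this]
    linarith
  linarith

end Vale.Agent.P125.Poly
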