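import Vale.Agent.P125.Poly.Defs58

namespace Vale.Agent.P125.Poly

open scoped BigOperators
open Vale.Agent.P125.Dich

theorem av_add_r40 {S : Type} [Fintype S] (μ g h : S → ℝ) :
    av μ (fun x => g x + h x) = av μ g + av μ h := by
  unfold av
  rw [← Finset.sum_add_distrib]
  apply Finset.sum_congr rfl
  intro x _
  ring

theorem av_sum_r40 {S : Type} [Fintype S] {ι : Type} (s : Finset ι) (μ : S → ℝ)
    (g : ι → S → ℝ) : av μ (fun x => ∑ i ∈ s, g i x) = ∑ i ∈ s, av μ (g i) := by
  unfold av
  rw [Finset.sum_comm]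
  apply Finset.sum_congr rfl
  intro x _
  rw [Finset.mul_sum]

theorem stRem_40 (hs : StSmall) (h1 : StTriv1) : StRem := by
  intro S _ _ μ P hP hL n f m ρ
  obtain ⟨hom0, homsum, hlb0, hl20, hl2U, hlbU, hU0, -, -, -⟩ := hs S μ P hP hL n f
  set T : S → ℝ := fun z => ∑ i ∈ Finset.range ρ, op P i (lbar P f) z with hT
  -- pointwise
  have hAk : ∀ k b, Ak P f (m + ρ) k b ≤ Ak P f m k b + op P m T b := by
    intro k b
    have e1 : Ak P f (m + ρ) k b =
        ∑ z, (P ^ m) b z * ∑ y, (P ^ ρ) z y * |F f k y - F f k b| := by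
      unfold Ak
      simp only [hL.pw_add m ρ b, Finset.sum_mul, Finset.mul_sum]
      rw [Finset.sum_comm]
      apply Finset.sum_congr rfl
      intro z _
      apply Finset.sum_congr rfl
      intro y _
      ring
    have e2 : ∀ z, ∑ y, (P ^ ρ) z y * |F f k y - F f k b| ≤ |F f k z - F f k b| + T z := by
      intro z
      have t1 : ∀ y, (P ^ ρ) z y * |F f k y - F f k b| ≤
          (P ^ ρ) z y * |F f k z - F f k b| + (P ^ ρ) z y * |F f k y - F f k z| := by
        intro y
        rw [← mul_add]
        apply mul_le_mul_of_nonneg_left _ (hL.pw_nonneg ρ z y)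
        have : F f k y - F f k b = (F f k z - F f k b) + (F f k y - F f k z) := by ring
        rw [this]
        exact abs_add_le _ _
      refine le_trans (Finset.sum_le_sum (fun y _ => t1 y)) ?_
      rw [Finset.sum_add_distrib, ← Finset.sum_mul, hL.pw_sum, one_mul]
      apply add_le_add_right
      exact h1 S μ P hP hL n f k ρ z
    rw [e1]
    have e3 : ∀ z, (P ^ m) b z * ∑ y, (P ^ ρ) z y * |F f k y - F f k b| ≤
        (P ^ m) b z * |F f k z - F f k b| + (P ^ m) b z * T z := by
      intro z
      rw [← mul_add]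
      exact mul_le_mul_of_nonneg_left (e2 z) (hL.pw_nonneg m b z)
    refine le_trans (Finset.sum_le_sum (fun z _ => e3 z)) ?_
    rw [Finset.sum_add_distrib]
    rfl
  have hQ : Qsum μ P f (m + ρ) ≤ Qsum μ P f m + av μ (fun b => lbar P f b * op P m T b) := by
    unfold Qsum Qk
    have step : ∀ k, av μ (fun b => om P f k b * Ak P f (m + ρ) k b) ≤
        av μ (fun b => om P f k b * Ak P f m k b) + av μ (fun b => om P f k b * op P m T b) := by
      intro k
      rw [← av_add_r40]
      apply hL.av_mono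
      intro b
      rw [← mul_add]
      exact mul_le_mul_of_nonneg_left (hAk k b) (hom0 k b)
    refine le_trans (Finset.sum_le_sum (fun k _ => step k)) ?_
    rw [Finset.sum_add_distrib]
    apply add_le_add_right
    apply le_of_eq
    rw [← av_sum_r40]
    congr 1
    funext b
    rw [← Finset.sum_mul, homsum]
  refine le_trans hQ ?_
  apply add_le_add_right
  -- the remainder
  have e4 : ∀ b, op P m T b = ∑ i ∈ Finset.range ρ, op P (m + i) (lbar P f) b := by
    intro b
    rw [hT, hL.op_sum]
    apply Finset.sum_congr rfl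
    intro i _
    rw [hL.op_op]
  have e5 : av μ (fun b => lbar P f b * op P m T b) =
      ∑ i ∈ Finset.range ρ, av μ (fun b => lbar P f b * op P (m + i) (lbar P f) b) := by
    rw [← av_sum_r40]
    congr 1
    funext b
    rw [e4, Finset.mul_sum]
  rw [e5]
  have e6 : ∀ i ∈ Finset.range ρ,
      av μ (fun b => lbar P f b * op P (m + i) (lbar P f) b) ≤ U μ P f := by
    intro i _
    have hcs := hL.av_cs (lbar P f) (op P (m + i) (lbar P f))
    refine le_trans hcs ?_
    have a1 : Real.sqrt (av μ (fun x => lbar P f x ^ 2)) ≤ Real.sqrt (U μ P f) :=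
      Real.sqrt_le_sqrt hlbU
    have a2 : av μ (fun x => op P (m + i) (lbar P f) x ^ 2) ≤ U μ P f := by
      have b1 : av μ (fun x => op P (m + i) (lbar P f) x ^ 2) ≤
          av μ (op P (m + i) (fun y => lbar P f y ^ 2)) :=
        hL.av_mono _ _ (fun x => hL.sq_op (m + i) (lbar P f) x)
      rw [hL.av_op] at b1
      exact le_trans b1 hlbU
    have a3 : Real.sqrt (av μ (fun x => op P (m + i) (lbar P f) x ^ 2)) ≤ Real.sqrt (U μ P f) :=
      Real.sqrt_le_sqrt a2
    calc _ ≤ Real.sqrt (U μ P f) * Real.sqrt (U μ P f) :=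
          mul_le_mul a1 a3 (Real.sqrt_nonneg _) (Real.sqrt_nonneg _)
      _ = U μ P f := Real.mul_self_sqrt hU0
  refine le_trans (Finset.sum_le_sum e6) ?_
  simp

end Vale.Agent.P125.Poly
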