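import Vale.Agent.P125.Poly.Defs58

set_option linter.unusedSectionVars false
set_option linter.unusedVariables false

namespace Vale.Agent.P125.Poly

open scoped BigOperators
open Vale.Agent.P125.Dich

/-- linearity of `av` over finite sums -/
lemma av_sum_92 {S : Type} [Fintype S] {ι : Type} (μ : S → ℝ) (s : Finset ι) (g : ι → S → ℝ) :
    av μ (fun x => ∑ i ∈ s, g i x) = ∑ i ∈ s, av μ (g i) := by
  unfold av
  simp only [Finset.mul_sum]
  rw [Finset.sum_comm]

lemma av_smul_92 {S : Type} [Fintype S] (μ : S → ℝ) (c : ℝ) (g : S → ℝ) :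
    av μ (fun x => c * g x) = c * av μ g := by
  unfold av
  rw [Finset.mul_sum]
  refine Finset.sum_congr rfl fun x _ => ?_
  ring

lemma av_add_92 {S : Type} [Fintype S] (μ : S → ℝ) (g h : S → ℝ) :
    av μ (fun x => g x + h x) = av μ g + av μ h := by
  unfold av
  rw [← Finset.sum_add_distrib]
  refine Finset.sum_congr rfl fun x _ => ?_
  ring

theorem stBlk_92 (hlib : StLib) (hs : StSmall) (h2 : StTriv2) (h3 : StSqrt) : StBlk := by
  intro S _ _ μ P hP hL n f τ J
  obtain ⟨hom0, homsum, hlb0, hl20, havl2, havlb, hU0, -, -, -⟩ := hs S μ P hP hL n f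
  have hR : IsChain μ (P ^ τ) := isChain_pow hP τ
  have LR : Lib μ (P ^ τ) := hlib S μ (P ^ τ) hR
  -- the variance proxy
  set V : S → ℝ := fun z => (τ : ℝ) * ∑ i ∈ Finset.range τ, op P i (l2 P f) z with hV
  set Wf : S → ℝ := fun b => ∑ j ∈ Finset.range J, op P (τ * j) V b with hWf
  have hopR : ∀ (j : ℕ) (g : S → ℝ), op (P ^ τ) j g = op P (τ * j) g := by
    intro j g
    funext x
    unfold op
    rw [← pow_mul]
  have hV0 : ∀ z, 0 ≤ V z := by
    intro z
    have h1 : ∀ i ∈ Finset.range τ, 0 ≤ op P i (l2 P f) z := by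
      intro i _
      have := hL.op_mono i (fun _ => (0 : ℝ)) (l2 P f) hl20 z
      rwa [hL.op_const] at this
    exact mul_nonneg (Nat.cast_nonneg τ) (Finset.sum_nonneg h1)
  have hW0 : ∀ b, 0 ≤ Wf b := by
    intro b
    refine Finset.sum_nonneg fun j _ => ?_
    have := hL.op_mono (τ * j) (fun _ => (0 : ℝ)) V hV0 b
    rwa [hL.op_const] at this
  -- pointwise bound of Ak
  have hAk : ∀ (k : Fin n) (b : S), Ak P f (τ * J) k b ≤
      Real.sqrt (Wf b) + ∑ j ∈ Finset.range J, op P (τ * j) (fun z => |hh P f τ k z|) b := by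
    intro k b
    have h := h3 S μ (P ^ τ) hR LR (F f k) J 0 b
    have e1 : ∑ y, ((P ^ τ) ^ J) b y * |0 + F f k y - F f k b| = Ak P f (τ * J) k b := by
      unfold Ak
      rw [← pow_mul]
      refine Finset.sum_congr rfl fun y _ => ?_
      rw [zero_add]
    rw [e1] at h
    refine le_trans h (add_le_add ?_ (le_of_eq ?_))
    · apply Real.sqrt_le_sqrt
      have : (0 : ℝ) ^ 2 = 0 := by norm_num
      rw [this, zero_add]
      refine Finset.sum_le_sum fun j _ => ?_
      rw [hopR]
      exact hL.op_mono (τ * j) _ V (fun z => h2 S μ P hP hL n f k τ z) b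
    · refine Finset.sum_congr rfl fun j _ => ?_
      rw [hopR]
      congr 1
      funext z
      congr 1
      unfold hh op
      have : ∑ y, (P ^ τ) z y * (F f k y - F f k z) =
          ∑ y, (P ^ τ) z y * F f k y - (∑ y, (P ^ τ) z y) * F f k z := by
        rw [Finset.sum_mul, ← Finset.sum_sub_distrib]
        refine Finset.sum_congr rfl fun y _ => ?_
        ring
      rw [this, hL.pw_sum τ z, one_mul]
  -- sum up
  have hQ : Qsum μ P f (τ * J) ≤ av μ (fun b => lbar P f b * Real.sqrt (Wf b)) +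
      ∑ j ∈ Finset.range J, Rr μ P f τ (τ * j) := by
    have e2 : av μ (fun b => lbar P f b * Real.sqrt (Wf b)) =
        ∑ k, av μ (fun b => om P f k b * Real.sqrt (Wf b)) := by
      rw [← av_sum_92]
      congr 1
      funext b
      rw [← homsum b, Finset.sum_mul]
    have e3 : ∑ j ∈ Finset.range J, Rr μ P f τ (τ * j) =
        ∑ k, av μ (fun b => om P f k b *
          ∑ j ∈ Finset.range J, op P (τ * j) (fun z => |hh P f τ k z|) b) := by
      unfold Rr
      rw [Finset.sum_comm]
      refine Finset.sum_congr rfl fun k _ => ?_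
      rw [← av_sum_92]
      congr 1
      funext b
      rw [Finset.mul_sum]
    rw [e2, e3, ← Finset.sum_add_distrib]
    unfold Qsum Qk
    refine Finset.sum_le_sum fun k _ => ?_
    rw [← av_add_92]
    refine hL.av_mono _ _ fun b => ?_
    rw [← mul_add]
    exact mul_le_mul_of_nonneg_left (hAk k b) (hom0 k b)
  -- Cauchy-Schwarz
  have havV : av μ V = (τ : ℝ) ^ 2 * U μ P f := by
    rw [hV, av_smul_92, av_sum_92]
    have : ∀ i ∈ Finset.range τ, av μ (op P i (l2 P f)) = U μ P f := by
      intro i _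
      rw [hL.av_op, havl2]
    rw [Finset.sum_congr rfl this, Finset.sum_const, Finset.card_range, nsmul_eq_mul]
    ring
  have havW : av μ Wf = (J : ℝ) * ((τ : ℝ) ^ 2 * U μ P f) := by
    rw [hWf, av_sum_92]
    have : ∀ j ∈ Finset.range J, av μ (op P (τ * j) V) = (τ : ℝ) ^ 2 * U μ P f := by
      intro j _
      rw [hL.av_op, havV]
    rw [Finset.sum_congr rfl this, Finset.sum_const, Finset.card_range, nsmul_eq_mul]
  have hcs : av μ (fun b => lbar P f b * Real.sqrt (Wf b)) ≤ Real.sqrt J * τ * U μ P f := by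
    have h := hL.av_cs (lbar P f) (fun b => Real.sqrt (Wf b))
    have e4 : av μ (fun x => Real.sqrt (Wf x) ^ 2) = av μ Wf := by
      congr 1
      funext x
      exact Real.sq_sqrt (hW0 x)
    rw [e4, havW] at h
    refine le_trans h ?_
    have h5 : Real.sqrt (av μ (fun x => lbar P f x ^ 2)) ≤ Real.sqrt (U μ P f) :=
      Real.sqrt_le_sqrt havlb
    have h6 : Real.sqrt ((J : ℝ) * ((τ : ℝ) ^ 2 * U μ P f)) =
        Real.sqrt J * (τ * Real.sqrt (U μ P f)) := by
      rw [Real.sqrt_mul (Nat.cast_nonneg J), Real.sqrt_mul (sq_nonneg _),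
        Real.sqrt_sq (Nat.cast_nonneg τ)]
    rw [h6]
    have h7 : Real.sqrt (U μ P f) * Real.sqrt (U μ P f) = U μ P f := Real.mul_self_sqrt hU0
    calc Real.sqrt (av μ (fun x => lbar P f x ^ 2)) * (Real.sqrt J * (τ * Real.sqrt (U μ P f)))
        ≤ Real.sqrt (U μ P f) * (Real.sqrt J * (τ * Real.sqrt (U μ P f))) :=
          mul_le_mul_of_nonneg_right h5 (by positivity)
      _ = Real.sqrt J * τ * (Real.sqrt (U μ P f) * Real.sqrt (U μ P f)) := by ring
      _ = Real.sqrt J * τ * U μ P f := by rw [h7]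
  linarith

end Vale.Agent.P125.Poly
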