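import Vale.Agent.P125.Poly.Defs58

set_option linter.unusedSectionVars false
set_option linter.unusedVariables false

/-! # P125 Poly: COL (triangle inequality and collapse of the four point sums) -/

namespace Vale.Agent.P125.Poly

open scoped BigOperators
open Vale.Agent.P125.Dich

theorem stCol_25 (hs : StSmall) : StCol := by
  intro S _ _ μ P hC hL n f k r r'
  obtain ⟨hom0, hsum, hlb0, hl20, havl2, havlb, hU0, hFell, hwsymm, hellsymm⟩ := hs S μ P hC hL n f
  have hw0 : ∀ a b, 0 ≤ w f a b k := fun a b => abs_nonneg _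
  have hstat : ∀ (q : ℕ) (a : S), ∑ x, μ x * (P ^ q) x a = μ a := by
    intro q a
    have : ∀ x, μ x * (P ^ q) x a = μ a * (P ^ q) a x := fun x => hL.pw_rev q x a
    simp_rw [this]
    rw [← Finset.mul_sum, hL.pw_sum, mul_one]
  -- pointwise triangle inequality
  have hpt : ∀ x a b y, μ x * (P ^ r) x a * P a b * (P ^ r') b y *
        (w f a b k * |F f k y - F f k x|) ≤
      μ x * (P ^ r) x a * P a b * (P ^ r') b y * (w f a b k * |F f k y - F f k b|) +
      μ x * (P ^ r) x a * P a b * (P ^ r') b y * (w f a b k * ell f a b) +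
      μ x * (P ^ r) x a * P a b * (P ^ r') b y * (w f a b k * |F f k x - F f k a|) := by
    intro x a b y
    have hc : 0 ≤ μ x * (P ^ r) x a * P a b * (P ^ r') b y :=
      mul_nonneg (mul_nonneg (mul_nonneg (hL.mu_nonneg x) (hL.pw_nonneg r x a)) (hC.2.2.1 a b))
        (hL.pw_nonneg r' b y)
    have h1 : |F f k y - F f k x| ≤ |F f k y - F f k b| + ell f a b + |F f k x - F f k a| := by
      have e : F f k y - F f k x = (F f k y - F f k b) + (F f k b - F f k a) - (F f k x - F f k a) := by
        ring
      rw [e]
      have h2 := abs_sub (F f k y - F f k b + (F f k b - F f k a)) (F f k x - F f k a)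
      have h3 := abs_add_le (F f k y - F f k b) (F f k b - F f k a)
      have h4 := hFell k a b
      linarith
    have h5 := mul_le_mul_of_nonneg_left (mul_le_mul_of_nonneg_left h1 (hw0 a b)) hc
    calc _ ≤ _ := h5
      _ = _ := by ring
  -- the three sums
  have hS1 : ∑ x, ∑ a, ∑ b, ∑ y, μ x * (P ^ r) x a * P a b * (P ^ r') b y *
      (w f a b k * |F f k y - F f k b|) = Qk μ P f r' k := by
    have e1 : ∀ a b, ∑ x, ∑ y, μ x * (P ^ r) x a * P a b * (P ^ r') b y *
        (w f a b k * |F f k y - F f k b|) = μ a * (P a b * w f a b k) * Ak P f r' k b := by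
      intro a b
      rw [← hstat r a]
      unfold Ak
      rw [Finset.sum_mul, Finset.sum_mul]
      refine Finset.sum_congr rfl fun x _ => ?_
      rw [Finset.mul_sum]
      exact Finset.sum_congr rfl fun y _ => by ring
    calc _ = ∑ a, ∑ b, ∑ x, ∑ y, μ x * (P ^ r) x a * P a b * (P ^ r') b y *
          (w f a b k * |F f k y - F f k b|) := by
          rw [Finset.sum_comm]
          exact Finset.sum_congr rfl fun a _ => Finset.sum_comm
      _ = ∑ a, ∑ b, μ a * (P a b * w f a b k) * Ak P f r' k b := by
          exact Finset.sum_congr rfl fun a _ => Finset.sum_congr rfl fun b _ => e1 a b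
      _ = ∑ b, ∑ a, μ a * (P a b * w f a b k) * Ak P f r' k b := Finset.sum_comm
      _ = Qk μ P f r' k := by
          unfold Qk av om
          refine Finset.sum_congr rfl fun b _ => ?_
          beta_reduce
          rw [Finset.sum_mul, Finset.mul_sum]
          refine Finset.sum_congr rfl fun a _ => ?_
          have h1 := hC.2.2.2.2 a b
          rw [hwsymm a b k]
          calc μ a * (P a b * w f b a k) * Ak P f r' k b
              = (μ a * P a b) * w f b a k * Ak P f r' k b := by ring
            _ = (μ b * P b a) * w f b a k * Ak P f r' k b := by rw [h1]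
            _ = _ := by ring
  have hS2 : ∑ x, ∑ a, ∑ b, ∑ y, μ x * (P ^ r) x a * P a b * (P ^ r') b y *
      (w f a b k * ell f a b) = ∑ a, ∑ b, μ a * P a b * (w f a b k * ell f a b) := by
    have e1 : ∀ a b, ∑ x, ∑ y, μ x * (P ^ r) x a * P a b * (P ^ r') b y *
        (w f a b k * ell f a b) = μ a * P a b * (w f a b k * ell f a b) := by
      intro a b
      have e2 : μ a * P a b * (w f a b k * ell f a b)
          = (∑ x, μ x * (P ^ r) x a) * (P a b * (w f a b k * ell f a b)) * ∑ y, (P ^ r') b y := by
        rw [hstat r a, hL.pw_sum]; ring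
      rw [e2, Finset.sum_mul, Finset.sum_mul]
      refine Finset.sum_congr rfl fun x _ => ?_
      rw [Finset.mul_sum]
      exact Finset.sum_congr rfl fun y _ => by ring
    calc _ = ∑ a, ∑ b, ∑ x, ∑ y, μ x * (P ^ r) x a * P a b * (P ^ r') b y *
          (w f a b k * ell f a b) := by
          rw [Finset.sum_comm]
          exact Finset.sum_congr rfl fun a _ => Finset.sum_comm
      _ = _ := Finset.sum_congr rfl fun a _ => Finset.sum_congr rfl fun b _ => e1 a b
  have hS3 : ∑ x, ∑ a, ∑ b, ∑ y, μ x * (P ^ r) x a * P a b * (P ^ r') b y *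
      (w f a b k * |F f k x - F f k a|) = Qk μ P f r k := by
    have e1 : ∀ x a, ∑ b, ∑ y, μ x * (P ^ r) x a * P a b * (P ^ r') b y *
        (w f a b k * |F f k x - F f k a|)
        = μ a * (om P f k a * ((P ^ r) a x * |F f k x - F f k a|)) := by
      intro x a
      have e2 : ∀ b, ∑ y, μ x * (P ^ r) x a * P a b * (P ^ r') b y *
          (w f a b k * |F f k x - F f k a|)
          = μ x * (P ^ r) x a * |F f k x - F f k a| * (P a b * w f a b k) := by
        intro b
        have : ∀ y, μ x * (P ^ r) x a * P a b * (P ^ r') b y * (w f a b k * |F f k x - F f k a|)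
            = (μ x * (P ^ r) x a * |F f k x - F f k a| * (P a b * w f a b k)) * (P ^ r') b y :=
          fun y => by ring
        simp_rw [this]
        rw [← Finset.mul_sum, hL.pw_sum, mul_one]
      simp_rw [e2]
      rw [← Finset.mul_sum, hL.pw_rev r x a]
      unfold om
      ring
    calc _ = ∑ x, ∑ a, μ a * (om P f k a * ((P ^ r) a x * |F f k x - F f k a|)) :=
          Finset.sum_congr rfl fun x _ => Finset.sum_congr rfl fun a _ => e1 x a
      _ = ∑ a, ∑ x, μ a * (om P f k a * ((P ^ r) a x * |F f k x - F f k a|)) := Finset.sum_comm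
      _ = Qk μ P f r k := by
          unfold Qk av Ak
          refine Finset.sum_congr rfl fun a _ => ?_
          beta_reduce
          rw [Finset.mul_sum, Finset.mul_sum]
  calc _ ≤ ∑ x, ∑ a, ∑ b, ∑ y,
        (μ x * (P ^ r) x a * P a b * (P ^ r') b y * (w f a b k * |F f k y - F f k b|) +
        μ x * (P ^ r) x a * P a b * (P ^ r') b y * (w f a b k * ell f a b) +
        μ x * (P ^ r) x a * P a b * (P ^ r') b y * (w f a b k * |F f k x - F f k a|)) :=
        Finset.sum_le_sum fun x _ => Finset.sum_le_sum fun a _ => Finset.sum_le_sum fun b _ =>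
          Finset.sum_le_sum fun y _ => hpt x a b y
    _ = _ := by
        simp only [Finset.sum_add_distrib]
        rw [hS1, hS2, hS3]

end Vale.Agent.P125.Poly
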