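import Vale.Agent.P125.Poly.Defs58

set_option linter.unusedSectionVars false
set_option linter.unusedVariables false

/-!
# P125 Poly: Step 4 (duality), statement `StDual` of `Defs58` (race copy of helper21)
-/

namespace Vale.Agent.P125.Poly

open scoped BigOperators
open Vale.Agent.P125.Dich

variable {S : Type} [Fintype S] [DecidableEq S] {n : ℕ}

/-- one step drift of `F_k` -/
def dd21 (P : Matrix S S ℝ) (f : S → Fin n → ℝ) (k : Fin n) (z : S) : ℝ :=
  op P 1 (F f k) z - F f k z

lemma av_sum_21 {ι : Type} (μ : S → ℝ) (s : Finset ι) (g : ι → S → ℝ) :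
    av μ (fun x => ∑ i ∈ s, g i x) = ∑ i ∈ s, av μ (g i) := by
  unfold av
  simp only [Finset.mul_sum]
  rw [Finset.sum_comm]

lemma hh_eq_21 {μ : S → ℝ} {P : Matrix S S ℝ} (hL : Lib μ P) (f : S → Fin n → ℝ) (τ : ℕ)
    (k : Fin n) (z : S) :
    hh P f τ k z = ∑ i ∈ Finset.range τ, op P i (dd21 P f k) z := by
  have h1 : ∀ i, op P i (dd21 P f k) z = op P (i + 1) (F f k) z - op P i (F f k) z := by
    intro i
    have h0 := hL.op_sub i (op P 1 (F f k)) (F f k) z
    have h2 : op P i (op P 1 (F f k)) = op P (i + 1) (F f k) := hL.op_op i 1 (F f k)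
    rw [h2] at h0
    exact h0
  simp only [h1]
  rw [Finset.sum_range_sub (fun i => op P i (F f k) z) τ, hL.op_zero]
  rfl

lemma term_21 {μ : S → ℝ} {P : Matrix S S ℝ} (hL : Lib μ P) (f : S → Fin n → ℝ) (τ s : ℕ)
    (k : Fin n) :
    av μ (fun b => om P f k b * op P s (fun z => |hh P f τ k z|) b) =
      av μ (fun a => Mk P f τ s k a * dd21 P f k a) := by
  rw [hL.av_adj s (om P f k) (fun z => |hh P f τ k z|)]
  have e1 : (fun x => op P s (om P f k) x * |hh P f τ k x|) =
      fun x => ∑ i ∈ Finset.range τ, zt P f τ s k x * op P i (dd21 P f k) x := by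
    funext x
    rw [← Finset.mul_sum, ← hh_eq_21 hL]
    have hsg : ((SignType.sign (hh P f τ k x) : SignType) : ℝ) * hh P f τ k x
        = |hh P f τ k x| := sign_mul_self _
    rw [← hsg]
    unfold zt
    ring
  rw [e1, av_sum_21]
  have e2 : (fun a => Mk P f τ s k a * dd21 P f k a) =
      fun a => ∑ i ∈ Finset.range τ, op P i (zt P f τ s k) a * dd21 P f k a := by
    funext a
    unfold Mk
    rw [Finset.sum_mul]
  rw [e2, av_sum_21]
  exact Finset.sum_congr rfl fun i _ => hL.av_adj i (zt P f τ s k) (dd21 P f k)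

lemma dd_eq_21 {μ : S → ℝ} {P : Matrix S S ℝ} (hc : IsChain μ P) (hL : Lib μ P)
    (f : S → Fin n → ℝ) (k : Fin n) (a : S) :
    dd21 P f k a = ∑ b, P a b * ∑ j, (if j ≤ k then (f b j - f a j) else 0) := by
  unfold dd21
  rw [hL.op_one]
  have h1 : ∀ b, (∑ j, (if j ≤ k then (f b j - f a j) else 0)) = F f k b - F f k a := by
    intro b
    unfold F
    rw [← Finset.sum_sub_distrib]
    refine Finset.sum_congr rfl fun j _ => ?_
    split_ifs <;> simp
  simp only [h1, mul_sub]
  rw [Finset.sum_sub_distrib, ← Finset.sum_mul, hc.2.2.2.1 a, one_mul]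

lemma swap_21 (M : Fin n → ℝ) (D : Fin n → ℝ) :
    ∑ k, M k * ∑ j, (if j ≤ k then D j else 0) = ∑ j, D j * ∑ k, (if j ≤ k then M k else 0) := by
  simp only [Finset.mul_sum]
  rw [Finset.sum_comm]
  refine Finset.sum_congr rfl fun j _ => Finset.sum_congr rfl fun k _ => ?_
  split_ifs <;> ring

lemma Rr_eq_21 {μ : S → ℝ} {P : Matrix S S ℝ} (hc : IsChain μ P) (hL : Lib μ P)
    (f : S → Fin n → ℝ) (τ s : ℕ) :
    Rr μ P f τ s = ∑ a, ∑ b, μ a * P a b * ∑ j, (f b j - f a j) * UU P f τ s j a := by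
  unfold Rr
  simp only [term_21 hL]
  unfold av
  rw [Finset.sum_comm]
  refine Finset.sum_congr rfl fun a _ => ?_
  have h1 : ∀ k, μ a * (Mk P f τ s k a * dd21 P f k a) =
      ∑ b, μ a * P a b * (Mk P f τ s k a * ∑ j, (if j ≤ k then (f b j - f a j) else 0)) := by
    intro k
    rw [dd_eq_21 hc hL, Finset.mul_sum, Finset.mul_sum]
    refine Finset.sum_congr rfl fun b _ => by ring
  simp only [h1]
  rw [Finset.sum_comm]
  refine Finset.sum_congr rfl fun b _ => ?_
  rw [← Finset.mul_sum, swap_21 (fun k => Mk P f τ s k a) (fun j => f b j - f a j)]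
  rfl

theorem stDual_21 (hs : StSmall) : StDual := by
  intro S _ _ μ P hc hL n f τ s
  set G : S → S → ℝ := fun a b => ∑ j, (f b j - f a j) * UU P f τ s j a with hG
  have hR : Rr μ P f τ s = ∑ a, ∑ b, μ a * P a b * G a b := Rr_eq_21 hc hL f τ s
  have hflip : Rr μ P f τ s = ∑ a, ∑ b, μ a * P a b * G b a := by
    rw [hR, Finset.sum_comm]
    refine Finset.sum_congr rfl fun a _ => Finset.sum_congr rfl fun b _ => ?_
    rw [hc.2.2.2.2 b a]
  have h2 : Rr μ P f τ s = (1 / 2) * ∑ a, ∑ b, μ a * P a b * (G a b + G b a) := by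
    have : ∑ a, ∑ b, μ a * P a b * (G a b + G b a) = Rr μ P f τ s + Rr μ P f τ s := by
      nth_rewrite 1 [hR]
      rw [hflip, ← Finset.sum_add_distrib]
      refine Finset.sum_congr rfl fun a _ => ?_
      rw [← Finset.sum_add_distrib]
      refine Finset.sum_congr rfl fun b _ => by ring
    rw [this]; ring
  rw [h2]
  refine mul_le_mul_of_nonneg_left ?_ (by norm_num)
  refine Finset.sum_le_sum fun a _ => Finset.sum_le_sum fun b _ => ?_
  refine mul_le_mul_of_nonneg_left ?_ (mul_nonneg (hc.1 a) (hc.2.2.1 a b))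
  have h3 : G a b + G b a = ∑ j, (f b j - f a j) * (UU P f τ s j a - UU P f τ s j b) := by
    simp only [hG]
    rw [← Finset.sum_add_distrib]
    refine Finset.sum_congr rfl fun j _ => by ring
  rw [h3]
  refine Finset.sum_le_sum fun j _ => ?_
  unfold w
  rw [← abs_mul]
  exact le_abs_self _

end Vale.Agent.P125.Poly
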