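import Vale.Agent.P125.Poly.Defs58

set_option linter.unusedSectionVars false
set_option linter.unusedVariables false

namespace Vale.Agent.P125.Poly

open scoped BigOperators
open Vale.Agent.P125.Dich

private theorem op_nonneg14 {S : Type} [Fintype S] [DecidableEq S] {μ : S → ℝ} {R : Matrix S S ℝ}
    (hL : Lib μ R) (k : ℕ) (g : S → ℝ) (hg : ∀ y, 0 ≤ g y) (x : S) : 0 ≤ op R k g x := by
  have := hL.op_mono k (fun _ => 0) g hg x
  rwa [hL.op_const] at this

private theorem sqrt_step14 (c D W : ℝ) (hW : 0 ≤ W) :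
    Real.sqrt (c ^ 2 + 2 * c * D + W) ≤ Real.sqrt (c ^ 2 + W) + |D| := by
  have h0 : 0 ≤ c ^ 2 + W := by positivity
  have hs : |c| ≤ Real.sqrt (c ^ 2 + W) := Real.abs_le_sqrt (by linarith)
  rw [Real.sqrt_le_iff]
  refine ⟨by positivity, ?_⟩
  have e : (Real.sqrt (c ^ 2 + W) + |D|) ^ 2
      = (c ^ 2 + W) + 2 * Real.sqrt (c ^ 2 + W) * |D| + D ^ 2 := by
    have := Real.sq_sqrt h0
    have h2 := sq_abs D
    nlinarith
  rw [e]
  have h1 : c * D ≤ |c| * |D| := by
    rw [← abs_mul]
    exact le_abs_self _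
  have h2 : |c| * |D| ≤ Real.sqrt (c ^ 2 + W) * |D| := mul_le_mul_of_nonneg_right hs (abs_nonneg _)
  nlinarith [sq_nonneg D]

theorem stSqrt_14 : StSqrt := by
  intro S _ _ μ R hC hL G J
  set V : S → ℝ := fun z => ∑ y, R z y * (G y - G z) ^ 2 with hV
  set Dd : S → ℝ := fun z => ∑ y, R z y * (G y - G z) with hDd
  have hR0 : ∀ x y, 0 ≤ R x y := hC.2.2.1
  have hR1 : ∀ x, ∑ y, R x y = 1 := hC.2.2.2.1
  have hV0 : ∀ z, 0 ≤ V z := fun z =>
    Finset.sum_nonneg fun y _ => mul_nonneg (hR0 z y) (sq_nonneg _)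
  induction J with
  | zero =>
    intro c b
    simp only [pow_zero, Finset.range_zero, Finset.sum_empty, add_zero]
    have : ∑ y, (1 : Matrix S S ℝ) b y * |c + G y - G b| = |c| := by
      rw [Finset.sum_eq_single b]
      · simp
      · intro y _ hy
        rw [Matrix.one_apply_ne (Ne.symm hy), zero_mul]
      · intro h
        exact absurd (Finset.mem_univ b) h
    rw [this, Real.sqrt_sq_eq_abs]
  | succ J ih =>
    intro c b
    -- first step decomposition
    have e1 : ∑ y, (R ^ (J + 1)) b y * |c + G y - G b|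
        = ∑ z, R b z * ∑ y, (R ^ J) z y * |(c + G z - G b) + G y - G z| := by
      have hp : ∀ y, (R ^ (J + 1)) b y = ∑ z, R b z * (R ^ J) z y := by
        intro y
        rw [Nat.add_comm, hL.pw_add 1 J b y, pow_one]
      simp only [hp, Finset.sum_mul, Finset.mul_sum]
      rw [Finset.sum_comm]
      refine Finset.sum_congr rfl fun z _ => Finset.sum_congr rfl fun y _ => ?_
      have : c + G y - G b = (c + G z - G b) + G y - G z := by ring
      rw [this]
      ring
    rw [e1]
    set A : S → ℝ := fun z => (c + G z - G b) ^ 2 + ∑ j ∈ Finset.range J, op R j V z with hA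
    set B : S → ℝ := fun z => ∑ j ∈ Finset.range J, op R j (fun z => |Dd z|) z with hB
    have hA0 : ∀ z, 0 ≤ A z := fun z =>
      add_nonneg (sq_nonneg _) (Finset.sum_nonneg fun j _ => op_nonneg14 hL j V hV0 z)
    have h2 : ∑ z, R b z * ∑ y, (R ^ J) z y * |(c + G z - G b) + G y - G z|
        ≤ ∑ z, R b z * (Real.sqrt (A z) + B z) :=
      Finset.sum_le_sum fun z _ => mul_le_mul_of_nonneg_left (ih (c + G z - G b) z) (hR0 b z)
    have h3 : ∑ z, R b z * (Real.sqrt (A z) + B z)
        = op R 1 (fun z => Real.sqrt (A z)) b + op R 1 B b := by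
      rw [hL.op_one, hL.op_one, ← Finset.sum_add_distrib]
      refine Finset.sum_congr rfl fun z _ => by ring
    -- the drift part
    have h4 : op R 1 B b = ∑ j ∈ Finset.range J, op R (j + 1) (fun z => |Dd z|) b := by
      rw [hB, hL.op_sum]
      refine Finset.sum_congr rfl fun j _ => ?_
      have := congrFun (hL.op_op 1 j (fun z => |Dd z|)) b
      rw [this, Nat.add_comm]
    -- the square root part
    have h5 : op R 1 (fun z => Real.sqrt (A z)) b ≤ Real.sqrt (op R 1 A b) := by
      have hsq := hL.sq_op 1 (fun z => Real.sqrt (A z)) b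
      have : (fun y => Real.sqrt (A y) ^ 2) = A := by
        funext y
        exact Real.sq_sqrt (hA0 y)
      rw [this] at hsq
      exact le_trans (le_abs_self _) (Real.abs_le_sqrt hsq)
    have h6 : op R 1 A b = c ^ 2 + 2 * c * Dd b + ∑ j ∈ Finset.range (J + 1), op R j V b := by
      have a1 : op R 1 A b = op R 1 (fun z => (c + G z - G b) ^ 2) b
          + op R 1 (fun z => ∑ j ∈ Finset.range J, op R j V z) b := by
        rw [hA, hL.op_add]
      have a2 : op R 1 (fun z => ∑ j ∈ Finset.range J, op R j V z) b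
          = ∑ j ∈ Finset.range J, op R (j + 1) V b := by
        rw [hL.op_sum]
        refine Finset.sum_congr rfl fun j _ => ?_
        have := congrFun (hL.op_op 1 j V) b
        rw [this, Nat.add_comm]
      have a3 : op R 1 (fun z => (c + G z - G b) ^ 2) b = c ^ 2 + 2 * c * Dd b + V b := by
        rw [hL.op_one, hDd, hV]
        simp only
        have : ∀ z, R b z * (c + G z - G b) ^ 2
            = c ^ 2 * R b z + 2 * c * (R b z * (G z - G b)) + R b z * (G z - G b) ^ 2 := by
          intro z
          ring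
        simp only [this, Finset.sum_add_distrib, ← Finset.mul_sum, hR1 b]
        ring
      rw [a1, a2, a3, Finset.sum_range_succ', hL.op_zero]
      ring
    have hW0 : 0 ≤ ∑ j ∈ Finset.range (J + 1), op R j V b :=
      Finset.sum_nonneg fun j _ => op_nonneg14 hL j V hV0 b
    have h7 := sqrt_step14 c (Dd b) _ hW0
    rw [← h6] at h7
    have h8 : ∑ j ∈ Finset.range (J + 1), op R j (fun z => |Dd z|) b
        = ∑ j ∈ Finset.range J, op R (j + 1) (fun z => |Dd z|) b + |Dd b| := by
      rw [Finset.sum_range_succ', hL.op_zero]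
    rw [h8]
    linarith

end Vale.Agent.P125.Poly
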