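import Vale.Agent.P125.Poly.Defs_79

set_option linter.unusedSectionVars false
set_option linter.unusedVariables false

/-! # P125 polynomial rate, path-free form (board 624): linearity and positivity of op -/

namespace Vale.Agent.P125.Poly79

open scoped BigOperators
open Vale.Agent.P125.Dich Vale.Agent.P125.BV

variable {S : Type} [Fintype S] [DecidableEq S]


lemma op_nonneg (R : Matrix S S ℝ) (hR : ∀ i j, 0 ≤ R i j) (g : S → ℝ) (hg : ∀ x, 0 ≤ g x) (x : S) :
    0 ≤ op R g x := Finset.sum_nonneg fun y _ => mul_nonneg (hR x y) (hg y)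

lemma op_mono (R : Matrix S S ℝ) (hR : ∀ i j, 0 ≤ R i j) (g h : S → ℝ) (hgh : ∀ x, g x ≤ h x)
    (x : S) : op R g x ≤ op R h x :=
  Finset.sum_le_sum fun y _ => mul_le_mul_of_nonneg_left (hgh y) (hR x y)

lemma op_abs_le (R : Matrix S S ℝ) (hR : ∀ i j, 0 ≤ R i j) (g : S → ℝ) (x : S) :
    |op R g x| ≤ op R (fun z => |g z|) x := by
  unfold op
  refine (Finset.abs_sum_le_sum_abs _ _).trans (le_of_eq ?_)
  refine Finset.sum_congr rfl fun y _ => ?_
  rw [abs_mul, abs_of_nonneg (hR x y)]

lemma op_add (R : Matrix S S ℝ) (g h : S → ℝ) (x : S) :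
    op R (fun z => g z + h z) x = op R g x + op R h x := by
  unfold op
  rw [← Finset.sum_add_distrib]
  exact Finset.sum_congr rfl fun y _ => by ring

lemma op_sub (R : Matrix S S ℝ) (g h : S → ℝ) (x : S) :
    op R (fun z => g z - h z) x = op R g x - op R h x := by
  unfold op
  rw [← Finset.sum_sub_distrib]
  exact Finset.sum_congr rfl fun y _ => by ring

lemma op_smul (R : Matrix S S ℝ) (c : ℝ) (g : S → ℝ) (x : S) :
    op R (fun z => c * g z) x = c * op R g x := by
  unfold op
  rw [Finset.mul_sum]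
  exact Finset.sum_congr rfl fun y _ => by ring

lemma op_sum {ι : Type} (R : Matrix S S ℝ) (s : Finset ι) (g : ι → S → ℝ) (x : S) :
    op R (fun z => ∑ i ∈ s, g i z) x = ∑ i ∈ s, op R (g i) x := by
  unfold op
  rw [Finset.sum_comm]
  exact Finset.sum_congr rfl fun y _ => by rw [Finset.mul_sum]

lemma op_const (R : Matrix S S ℝ) (h1 : ∀ i, ∑ j, R i j = 1) (c : ℝ) (x : S) :
    op R (fun _ => c) x = c := by
  unfold op
  rw [← Finset.sum_mul, h1, one_mul]

lemma op_pow_add (P : Matrix S S ℝ) (a b : ℕ) (g : S → ℝ) (x : S) :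
    op (P ^ (a + b)) g x = op (P ^ a) (op (P ^ b) g) x := by
  unfold op
  simp only [pow_add, Matrix.mul_apply, Finset.sum_mul, Finset.mul_sum]
  rw [Finset.sum_comm]
  exact Finset.sum_congr rfl fun y _ => Finset.sum_congr rfl fun z _ => by ring

lemma op_pow_zero (P : Matrix S S ℝ) (g : S → ℝ) (x : S) : op (P ^ 0) g x = g x := by
  unfold op
  simp [Matrix.one_apply]

lemma op_pow_one (P : Matrix S S ℝ) (g : S → ℝ) (x : S) : op (P ^ 1) g x = op P g x := by
  rw [pow_one]

end Vale.Agent.P125.Poly79
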