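import Vale.Agent.P125.Poly.Defs_79

set_option linter.unusedSectionVars false
set_option linter.unusedVariables false

/-! # P125 polynomial rate, path-free form (board 624): reversible chains: symmetry, stationarity, Jensen, contraction, Cauchy-Schwarz -/

namespace Vale.Agent.P125.Poly79

open scoped BigOperators
open Vale.Agent.P125.Dich Vale.Agent.P125.BV

variable {S : Type} [Fintype S] [DecidableEq S]

lemma ip_symm {μ : S → ℝ} {R : Matrix S S ℝ} (hc : IsChain μ R) (g h : S → ℝ) :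
    ∑ x, μ x * g x * op R h x = ∑ x, μ x * op R g x * h x := by
  obtain ⟨h1, h2, h3, h4, h5⟩ := hc
  unfold op
  have e1 : ∑ x, μ x * g x * ∑ y, R x y * h y = ∑ x, ∑ y, μ x * R x y * (g x * h y) := by
    refine Finset.sum_congr rfl fun x _ => ?_
    rw [Finset.mul_sum]
    exact Finset.sum_congr rfl fun y _ => by ring
  have e2 : ∑ x, μ x * (∑ y, R x y * g y) * h x = ∑ x, ∑ y, μ y * R y x * (g y * h x) := by
    refine Finset.sum_congr rfl fun x _ => ?_
    rw [Finset.mul_sum, Finset.sum_mul]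
    refine Finset.sum_congr rfl fun y _ => ?_
    rw [← h5 x y]
    ring
  rw [e1, e2, Finset.sum_comm]

lemma stat {μ : S → ℝ} {R : Matrix S S ℝ} (hc : IsChain μ R) (g : S → ℝ) :
    ∑ x, μ x * op R g x = ∑ x, μ x * g x := by
  have h4 := hc.2.2.2.1
  have := ip_symm hc (fun _ => (1 : ℝ)) g
  have e : ∀ x, op R (fun _ => (1 : ℝ)) x = 1 := by
    intro x
    unfold op
    simp [h4 x]
  simp only [e, mul_one] at this
  exact this

lemma jensen {μ : S → ℝ} {R : Matrix S S ℝ} (hc : IsChain μ R) (g : S → ℝ) (x : S) :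
    (op R g x) ^ 2 ≤ op R (fun z => g z ^ 2) x := by
  obtain ⟨h1, h2, h3, h4, h5⟩ := hc
  unfold op
  have e : ∀ m : ℝ, ∑ y, R x y * (g y - m) ^ 2 =
      (∑ y, R x y * g y ^ 2) - 2 * m * (∑ y, R x y * g y) + m ^ 2 * (∑ y, R x y) := by
    intro m
    rw [Finset.mul_sum, Finset.mul_sum, ← Finset.sum_sub_distrib, ← Finset.sum_add_distrib]
    exact Finset.sum_congr rfl fun y _ => by ring
  have hv : 0 ≤ ∑ y, R x y * (g y - ∑ y, R x y * g y) ^ 2 :=
    Finset.sum_nonneg fun y _ => mul_nonneg (h3 x y) (sq_nonneg _)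
  rw [e, h4 x] at hv
  nlinarith

lemma contr {μ : S → ℝ} {R : Matrix S S ℝ} (hc : IsChain μ R) (g : S → ℝ) :
    ∑ x, μ x * (op R g x) ^ 2 ≤ ∑ x, μ x * g x ^ 2 := by
  rw [← stat hc (fun z => g z ^ 2)]
  exact Finset.sum_le_sum fun x _ => mul_le_mul_of_nonneg_left (jensen hc g x) (hc.1 x)

lemma cs {μ : S → ℝ} (hμ : ∀ x, 0 ≤ μ x) (g h : S → ℝ) :
    (∑ x, μ x * g x * h x) ^ 2 ≤ (∑ x, μ x * g x ^ 2) * (∑ x, μ x * h x ^ 2) := by
  have := Finset.sum_mul_sq_le_sq_mul_sq Finset.univ (fun x => Real.sqrt (μ x) * g x)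
    (fun x => Real.sqrt (μ x) * h x)
  have e1 : ∀ x, Real.sqrt (μ x) * g x * (Real.sqrt (μ x) * h x) = μ x * g x * h x := by
    intro x
    have := Real.mul_self_sqrt (hμ x)
    calc Real.sqrt (μ x) * g x * (Real.sqrt (μ x) * h x)
        = (Real.sqrt (μ x) * Real.sqrt (μ x)) * g x * h x := by ring
      _ = _ := by rw [this]
  have e2 : ∀ (k : S → ℝ) x, (Real.sqrt (μ x) * k x) ^ 2 = μ x * k x ^ 2 := by
    intro k x
    rw [mul_pow, Real.sq_sqrt (hμ x)]
  simp only [e1, e2] at this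
  exact this

end Vale.Agent.P125.Poly79
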