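import Vale.Agent.P125.Poly.Defs_79
import Vale.Agent.P125.Poly.ApiA_79
import Vale.Agent.P125.Poly.ApiB_79

set_option linter.unusedSectionVars false
set_option linter.unusedVariables false

/-! # P125 polynomial rate, path-free form (board 624): facts on the profile -/

namespace Vale.Agent.P125.Poly79

open scoped BigOperators
open Vale.Agent.P125.Dich Vale.Agent.P125.BV

variable {S : Type} [Fintype S] [DecidableEq S]

lemma aa_nonneg {μ : S → ℝ} {P : Matrix S S ℝ} (hc : IsChain μ P) (F : ℕ → S → ℝ) (k : ℕ) (y : S) :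
    0 ≤ aa P F k y :=
  Finset.sum_nonneg fun b _ => mul_nonneg (hc.2.2.1 y b) (abs_nonneg _)

lemma ll_nonneg (n : ℕ) (F : ℕ → S → ℝ) (a b : S) : 0 ≤ ll n F a b :=
  Finset.sum_nonneg fun _ _ => abs_nonneg _

lemma ll_symm (n : ℕ) (F : ℕ → S → ℝ) (a b : S) : ll n F a b = ll n F b a :=
  Finset.sum_congr rfl fun _ _ => abs_sub_comm _ _

lemma WW_nonneg {μ : S → ℝ} {P : Matrix S S ℝ} (hc : IsChain μ P) (n : ℕ) (F : ℕ → S → ℝ) :
    0 ≤ WW μ P n F :=
  Finset.sum_nonneg fun a _ => Finset.sum_nonneg fun b _ =>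
    mul_nonneg (mul_nonneg (hc.1 a) (hc.2.2.1 a b)) (sq_nonneg _)

lemma lb_eq (P : Matrix S S ℝ) (n : ℕ) (F : ℕ → S → ℝ) (y : S) :
    lb P n F y = ∑ b, P y b * ll n F y b := by
  unfold lb aa ll
  rw [Finset.sum_comm]
  exact Finset.sum_congr rfl fun b _ => by rw [Finset.mul_sum]

lemma lb_nonneg {μ : S → ℝ} {P : Matrix S S ℝ} (hc : IsChain μ P) (n : ℕ) (F : ℕ → S → ℝ) (y : S) :
    0 ≤ lb P n F y :=
  Finset.sum_nonneg fun k _ => aa_nonneg hc F k y

/-- Jensen for the row `P y .` -/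
lemma lb_sq_le {μ : S → ℝ} {P : Matrix S S ℝ} (hc : IsChain μ P) (n : ℕ) (F : ℕ → S → ℝ) :
    ∑ y, μ y * lb P n F y ^ 2 ≤ WW μ P n F := by
  unfold WW
  refine Finset.sum_le_sum fun y _ => ?_
  have h := jensen hc (fun b => ll n F y b) y
  have e : op P (fun b => ll n F y b) y = lb P n F y := (lb_eq P n F y).symm
  rw [e] at h
  calc μ y * lb P n F y ^ 2 ≤ μ y * op P (fun z => ll n F y z ^ 2) y :=
        mul_le_mul_of_nonneg_left h (hc.1 y)
    _ = ∑ b, μ y * P y b * ll n F y b ^ 2 := by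
        unfold op
        rw [Finset.mul_sum]
        exact Finset.sum_congr rfl fun b _ => by ring

/-- `F j = ∑_{k<j} dd F k` -/
lemma abs_F_le (n : ℕ) (F : ℕ → S → ℝ) (hF0 : ∀ x, F 0 x = 0) (j : ℕ) (hj : j ≤ n) (a b : S) :
    |F j b - F j a| ≤ ll n F a b := by
  have e : F j b - F j a = ∑ k ∈ Finset.range j, (dd F k b - dd F k a) := by
    have h := Finset.sum_range_sub (fun k => F k b - F k a) j
    simp only [hF0, sub_zero] at h
    rw [← h]
    exact Finset.sum_congr rfl fun k _ => by unfold dd; ring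
  rw [e]
  refine (Finset.abs_sum_le_sum_abs _ _).trans ?_
  unfold ll
  exact Finset.sum_le_sum_of_subset_of_nonneg
    (Finset.range_subset_range.mpr hj) (fun _ _ _ => abs_nonneg _)

end Vale.Agent.P125.Poly79
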