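import Vale.Agent.P125.Poly.Defs_79
import Vale.Agent.P125.Poly.ApiB_79

set_option linter.unusedSectionVars false
set_option linter.unusedVariables false

/-! # P125 polynomial rate, path-free form (board 624): mixed Cauchy-Schwarz -/

namespace Vale.Agent.P125.Poly79

open scoped BigOperators
open Vale.Agent.P125.Dich Vale.Agent.P125.BV

variable {S : Type} [Fintype S] [DecidableEq S]

/-- mixed Cauchy-Schwarz: `T k y ≤ sqrt (B y)`, sum over `k`, then `cs` with `g = ∑ a k`,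
`h = sqrt B`. -/
lemma mixed_cs {μ : S → ℝ} (hμ : ∀ x, 0 ≤ μ x) (n : ℕ) (a T : ℕ → S → ℝ) (B : S → ℝ)
    (ha : ∀ k y, 0 ≤ a k y) (hT : ∀ k y, T k y ^ 2 ≤ B y) :
    (∑ k ∈ Finset.range n, ∑ y, μ y * a k y * T k y) ^ 2 ≤
      (∑ y, μ y * (∑ k ∈ Finset.range n, a k y) ^ 2) * (∑ y, μ y * B y) := by
  have hB : ∀ y, 0 ≤ B y := fun y => le_trans (sq_nonneg _) (hT 0 y)
  have hTs : ∀ k y, |T k y| ≤ Real.sqrt (B y) := fun k y => Real.abs_le_sqrt (hT k y)
  have habs : |∑ k ∈ Finset.range n, ∑ y, μ y * a k y * T k y| ≤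
      ∑ y, μ y * (∑ k ∈ Finset.range n, a k y) * Real.sqrt (B y) := by
    calc |∑ k ∈ Finset.range n, ∑ y, μ y * a k y * T k y|
        ≤ ∑ k ∈ Finset.range n, |∑ y, μ y * a k y * T k y| := Finset.abs_sum_le_sum_abs _ _
      _ ≤ ∑ k ∈ Finset.range n, ∑ y, μ y * a k y * Real.sqrt (B y) := by
          refine Finset.sum_le_sum fun k _ => ?_
          refine (Finset.abs_sum_le_sum_abs _ _).trans (Finset.sum_le_sum fun y _ => ?_)
          rw [abs_mul, abs_of_nonneg (mul_nonneg (hμ y) (ha k y))]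
          exact mul_le_mul_of_nonneg_left (hTs k y) (mul_nonneg (hμ y) (ha k y))
      _ = ∑ y, ∑ k ∈ Finset.range n, μ y * a k y * Real.sqrt (B y) := Finset.sum_comm
      _ = ∑ y, μ y * (∑ k ∈ Finset.range n, a k y) * Real.sqrt (B y) := by
          refine Finset.sum_congr rfl fun y _ => ?_
          rw [Finset.mul_sum, Finset.sum_mul]
  have h1 : (∑ k ∈ Finset.range n, ∑ y, μ y * a k y * T k y) ^ 2 ≤
      (∑ y, μ y * (∑ k ∈ Finset.range n, a k y) * Real.sqrt (B y)) ^ 2 := by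
    rw [← sq_abs]
    exact pow_le_pow_left₀ (abs_nonneg _) habs 2
  have h2 := cs hμ (fun y => ∑ k ∈ Finset.range n, a k y) (fun y => Real.sqrt (B y))
  have e : ∀ y, μ y * Real.sqrt (B y) ^ 2 = μ y * B y := fun y => by rw [Real.sq_sqrt (hB y)]
  simp only [e] at h2
  exact h1.trans h2

end Vale.Agent.P125.Poly79
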