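import Vale.Agent.P125.Poly.Defs_79

set_option linter.unusedSectionVars false
set_option linter.unusedVariables false

/-! # P125 polynomial rate, path-free form (board 624): the trivial bound for the l_1 size -/

namespace Vale.Agent.P125.Poly79

open scoped BigOperators
open Vale.Agent.P125.Dich Vale.Agent.P125.BV

variable {S : Type} [Fintype S] [DecidableEq S]

/-- from `n1_triv` of `BV/Top` with `f x k := dd F k x` (`k : Fin n`), `n1 (f b - f a) = ll n F a b` -/
lemma ll_triv {μ : S → ℝ} {P : Matrix S S ℝ} (hc : IsChain μ P) (n : ℕ) (F : ℕ → S → ℝ) (r : ℕ) :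
    ∑ a, ∑ b, μ a * (P ^ r) a b * ll n F a b ^ 2 ≤ (r : ℝ) ^ 2 * WW μ P n F := by
  have key := n1_triv r μ P hc (fun x (k : Fin n) => dd F k.val x)
  have e : ∀ a b : S, n1 ((fun x (k : Fin n) => dd F k.val x) b - (fun x (k : Fin n) => dd F k.val x) a)
      = ll n F a b := by
    intro a b
    unfold n1 ll
    simp only [Pi.sub_apply]
    exact Fin.sum_univ_eq_sum_range (fun k => |dd F k b - dd F k a|) n
  simp only [e] at key
  exact key

end Vale.Agent.P125.Poly79
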