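import Vale.Agent.P125.Dich.Iter

set_option linter.unusedSectionVars false
set_option linter.unusedVariables false

/-!
# P125, polynomial rate: matrix API for stationary reversible chains
-/

namespace Vale.Agent.P125.Poly38

open scoped BigOperators
open Vale.Agent.P125.Dich
open Matrix

variable {S : Type} [Fintype S] [DecidableEq S] {μ : S → ℝ} {P : Matrix S S ℝ}

lemma mv_apply (P : Matrix S S ℝ) (g : S → ℝ) (x : S) : (P *ᵥ g) x = ∑ z, P x z * g z := rfl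

lemma mv_sum {ι : Type*} (P : Matrix S S ℝ) (s : Finset ι) (g : ι → S → ℝ) (x : S) :
    (P *ᵥ (fun z => ∑ i ∈ s, g i z)) x = ∑ i ∈ s, (P *ᵥ g i) x := by
  simp only [mv_apply, Finset.mul_sum]
  rw [Finset.sum_comm]

lemma mv_smul (P : Matrix S S ℝ) (c : ℝ) (g : S → ℝ) (x : S) :
    (P *ᵥ (fun z => c * g z)) x = c * (P *ᵥ g) x := by
  simp only [mv_apply, Finset.mul_sum]
  refine Finset.sum_congr rfl fun z _ => ?_
  ring

lemma mv_add (P : Matrix S S ℝ) (g k : S → ℝ) (x : S) :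
    (P *ᵥ (fun z => g z + k z)) x = (P *ᵥ g) x + (P *ᵥ k) x := by
  simp only [mv_apply, mul_add, Finset.sum_add_distrib]

lemma mv_sub (P : Matrix S S ℝ) (g k : S → ℝ) (x : S) :
    (P *ᵥ (fun z => g z - k z)) x = (P *ᵥ g) x - (P *ᵥ k) x := by
  simp only [mv_apply, mul_sub, Finset.sum_sub_distrib]

lemma mv_nonneg (h : IsChain μ P) {g : S → ℝ} (hg : ∀ x, 0 ≤ g x) (x : S) : 0 ≤ (P *ᵥ g) x := by
  rw [mv_apply]
  exact Finset.sum_nonneg fun z _ => mul_nonneg (h.2.2.1 x z) (hg z)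

lemma mv_mono (h : IsChain μ P) {g k : S → ℝ} (hgk : ∀ x, g x ≤ k x) (x : S) :
    (P *ᵥ g) x ≤ (P *ᵥ k) x := by
  rw [mv_apply, mv_apply]
  exact Finset.sum_le_sum fun z _ => mul_le_mul_of_nonneg_left (hgk z) (h.2.2.1 x z)

lemma mv_const (h : IsChain μ P) (c : ℝ) (x : S) : (P *ᵥ (fun _ => c)) x = c := by
  rw [mv_apply, ← Finset.sum_mul, h.2.2.2.1 x, one_mul]

lemma abs_mv_le (h : IsChain μ P) (g : S → ℝ) (x : S) :
    |(P *ᵥ g) x| ≤ (P *ᵥ (fun z => |g z|)) x := by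
  rw [mv_apply, mv_apply]
  refine le_trans (Finset.abs_sum_le_sum_abs _ _) ?_
  refine Finset.sum_le_sum fun z _ => ?_
  rw [abs_mul, abs_of_nonneg (h.2.2.1 x z)]

lemma abs_mv_le_of (h : IsChain μ P) {g L : S → ℝ} (hg : ∀ x, |g x| ≤ L x) (x : S) :
    |(P *ᵥ g) x| ≤ (P *ᵥ L) x :=
  le_trans (abs_mv_le h g x) (mv_mono h hg x)

lemma selfadj (h : IsChain μ P) (g k : S → ℝ) :
    ∑ x, μ x * (g x * (P *ᵥ k) x) = ∑ x, μ x * ((P *ᵥ g) x * k x) := by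
  simp only [mv_apply, Finset.mul_sum, Finset.sum_mul]
  rw [Finset.sum_comm]
  refine Finset.sum_congr rfl fun y _ => Finset.sum_congr rfl fun x _ => ?_
  have := h.2.2.2.2 x y
  calc μ x * (g x * (P x y * k y)) = (μ x * P x y) * (g x * k y) := by ring
    _ = (μ y * P y x) * (g x * k y) := by rw [this]
    _ = μ y * (P y x * g x * k y) := by ring

lemma stat (h : IsChain μ P) (g : S → ℝ) : ∑ x, μ x * (P *ᵥ g) x = ∑ x, μ x * g x := by
  have := selfadj h (fun _ => 1) g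
  simp only [one_mul] at this
  rw [this]
  refine Finset.sum_congr rfl fun x _ => ?_
  rw [mv_const h 1 x, one_mul]

lemma jensen (h : IsChain μ P) (g : S → ℝ) (x : S) :
    ((P *ᵥ g) x) ^ 2 ≤ (P *ᵥ (fun z => g z ^ 2)) x := by
  set m := (P *ᵥ g) x with hm
  have h1 : 0 ≤ ∑ z, P x z * (g z - m) ^ 2 :=
    Finset.sum_nonneg fun z _ => mul_nonneg (h.2.2.1 x z) (sq_nonneg _)
  have h2 : ∑ z, P x z * (g z - m) ^ 2
      = (P *ᵥ (fun z => g z ^ 2)) x - 2 * m * (P *ᵥ g) x + m ^ 2 * ∑ z, P x z := by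
    simp only [mv_apply, Finset.mul_sum]
    rw [← Finset.sum_sub_distrib, ← Finset.sum_add_distrib]
    refine Finset.sum_congr rfl fun z _ => ?_
    ring
  rw [h2, h.2.2.2.1 x, ← hm] at h1
  nlinarith

lemma l2contr (h : IsChain μ P) (g : S → ℝ) :
    ∑ x, μ x * ((P *ᵥ g) x) ^ 2 ≤ ∑ x, μ x * g x ^ 2 := by
  rw [← stat h (fun z => g z ^ 2)]
  exact Finset.sum_le_sum fun x _ => mul_le_mul_of_nonneg_left (jensen h g x) (h.1 x)

lemma gamma_id (h : IsChain μ P) (v : S → ℝ) (a : S) :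
    ∑ b, P a b * (v b - v a) ^ 2
      = (P *ᵥ (fun z => v z ^ 2)) a - v a ^ 2 - 2 * v a * ((P *ᵥ v) a - v a) := by
  have h2 : ∑ b, P a b * (v b - v a) ^ 2
      = (P *ᵥ (fun z => v z ^ 2)) a - 2 * v a * (P *ᵥ v) a + v a ^ 2 * ∑ z, P a z := by
    simp only [mv_apply, Finset.mul_sum]
    rw [← Finset.sum_sub_distrib, ← Finset.sum_add_distrib]
    refine Finset.sum_congr rfl fun z _ => ?_
    ring
  rw [h2, h.2.2.2.1 a]
  ring

lemma dirichlet (h : IsChain μ P) (U F : S → ℝ) :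
    ∑ x, μ x * (U x * ((P *ᵥ F) x - F x))
      = -(1 / 2) * ∑ a, ∑ b, μ a * P a b * ((U b - U a) * (F b - F a)) := by
  have e1 : ∑ a, ∑ b, μ a * P a b * (U a * F b) = ∑ x, μ x * (U x * (P *ᵥ F) x) := by
    simp only [mv_apply, Finset.mul_sum]
    refine Finset.sum_congr rfl fun a _ => Finset.sum_congr rfl fun b _ => ?_
    ring
  have e2 : ∑ a, ∑ b, μ a * P a b * (U b * F a) = ∑ x, μ x * (U x * (P *ᵥ F) x) := by
    rw [← e1, Finset.sum_comm]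
    refine Finset.sum_congr rfl fun a _ => Finset.sum_congr rfl fun b _ => ?_
    rw [h.2.2.2.2 b a]
  have e3 : ∑ a, ∑ b, μ a * P a b * (U a * F a) = ∑ x, μ x * (U x * F x) := by
    refine Finset.sum_congr rfl fun a _ => ?_
    calc ∑ b, μ a * P a b * (U a * F a) = (μ a * (U a * F a)) * ∑ b, P a b := by
          rw [Finset.mul_sum]
          refine Finset.sum_congr rfl fun b _ => ?_
          ring
      _ = _ := by rw [h.2.2.2.1 a, mul_one]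
  have e4 : ∑ a, ∑ b, μ a * P a b * (U b * F b) = ∑ x, μ x * (U x * F x) := by
    rw [← e3, Finset.sum_comm]
    refine Finset.sum_congr rfl fun a _ => Finset.sum_congr rfl fun b _ => ?_
    rw [h.2.2.2.2 b a]
  have e5 : ∑ a, ∑ b, μ a * P a b * ((U b - U a) * (F b - F a))
      = ∑ a, ∑ b, μ a * P a b * (U b * F b) - ∑ a, ∑ b, μ a * P a b * (U b * F a)
        - ∑ a, ∑ b, μ a * P a b * (U a * F b) + ∑ a, ∑ b, μ a * P a b * (U a * F a) := by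
    simp only [← Finset.sum_sub_distrib, ← Finset.sum_add_distrib]
    refine Finset.sum_congr rfl fun a _ => Finset.sum_congr rfl fun b _ => ?_
    ring
  rw [e5, e1, e2, e3, e4]
  have e6 : ∑ x, μ x * (U x * ((P *ᵥ F) x - F x))
      = ∑ x, μ x * (U x * (P *ᵥ F) x) - ∑ x, μ x * (U x * F x) := by
    rw [← Finset.sum_sub_distrib]
    refine Finset.sum_congr rfl fun x _ => ?_
    ring
  rw [e6]
  ring

lemma pow_add_mv (P : Matrix S S ℝ) (a b : ℕ) (g : S → ℝ) :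
    (P ^ (a + b)) *ᵥ g = (P ^ a) *ᵥ ((P ^ b) *ᵥ g) := by
  rw [pow_add, Matrix.mulVec_mulVec]

lemma pow_succ_mv (P : Matrix S S ℝ) (i : ℕ) (g : S → ℝ) :
    (P ^ (i + 1)) *ᵥ g = (P ^ i) *ᵥ (P *ᵥ g) := by
  rw [pow_succ, Matrix.mulVec_mulVec]

lemma pow_succ_mv' (P : Matrix S S ℝ) (i : ℕ) (g : S → ℝ) :
    (P ^ (i + 1)) *ᵥ g = P *ᵥ ((P ^ i) *ᵥ g) := by
  rw [pow_succ', Matrix.mulVec_mulVec]

lemma pow_zero_mv (P : Matrix S S ℝ) (g : S → ℝ) : (P ^ 0) *ᵥ g = g := by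
  rw [pow_zero, Matrix.one_mulVec]

/-- `P^τ F - F = ∑_{i<τ} P^i (P F - F)` -/
lemma geom (P : Matrix S S ℝ) (τ : ℕ) (F : S → ℝ) (x : S) :
    ((P ^ τ) *ᵥ F) x - F x
      = ∑ i ∈ Finset.range τ, ((P ^ i) *ᵥ (fun z => (P *ᵥ F) z - F z)) x := by
  have h1 : ∀ i, ((P ^ i) *ᵥ (fun z => (P *ᵥ F) z - F z)) x
      = ((P ^ (i + 1)) *ᵥ F) x - ((P ^ i) *ᵥ F) x := by
    intro i
    rw [mv_sub, pow_succ_mv]
  simp only [h1]
  rw [Finset.sum_range_sub (fun i => ((P ^ i) *ᵥ F) x), pow_zero_mv]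

/-- the averaging operator -/
noncomputable def Av (P : Matrix S S ℝ) (τ : ℕ) (g : S → ℝ) : S → ℝ :=
  fun x => (1 / (τ : ℝ)) * ∑ i ∈ Finset.range τ, ((P ^ i) *ᵥ g) x

lemma Av_abs_le (h : IsChain μ P) (τ : ℕ) {g L : S → ℝ} (hg : ∀ x, |g x| ≤ L x) (x : S) :
    |Av P τ g x| ≤ Av P τ L x := by
  unfold Av
  rw [abs_mul, abs_of_nonneg (by positivity : (0 : ℝ) ≤ 1 / (τ : ℝ))]
  apply mul_le_mul_of_nonneg_left _ (by positivity)
  refine le_trans (Finset.abs_sum_le_sum_abs _ _) ?_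
  exact Finset.sum_le_sum fun i _ => abs_mv_le_of (isChain_pow h i) hg x

/-- `P (Av g) - Av g = (P^τ g - g) / τ` -/
lemma Av_step (P : Matrix S S ℝ) (τ : ℕ) (g : S → ℝ) (x : S) :
    (P *ᵥ (Av P τ g)) x - Av P τ g x = (1 / (τ : ℝ)) * (((P ^ τ) *ᵥ g) x - g x) := by
  have h1 : (P *ᵥ (Av P τ g)) x
      = (1 / (τ : ℝ)) * ∑ i ∈ Finset.range τ, ((P ^ (i + 1)) *ᵥ g) x := by
    unfold Av
    rw [mv_smul, mv_sum]
    congr 1
    refine Finset.sum_congr rfl fun i _ => ?_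
    rw [pow_succ_mv']
  rw [h1]
  unfold Av
  rw [← mul_sub, ← Finset.sum_sub_distrib,
    Finset.sum_range_sub (fun i => ((P ^ i) *ᵥ g) x), pow_zero_mv]

lemma Av_l2 (h : IsChain μ P) (τ : ℕ) (hτ : 1 ≤ τ) (g : S → ℝ) :
    ∑ x, μ x * (Av P τ g x) ^ 2 ≤ ∑ x, μ x * g x ^ 2 := by
  have hτr : (0 : ℝ) < τ := by exact_mod_cast hτ
  have h1 : ∀ x, (Av P τ g x) ^ 2
      ≤ (1 / (τ : ℝ)) * ∑ i ∈ Finset.range τ, (((P ^ i) *ᵥ g) x) ^ 2 := by
    intro x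
    unfold Av
    have hcs := sq_sum_le_card_mul_sum_sq (s := Finset.range τ)
      (f := fun i => ((P ^ i) *ᵥ g) x)
    rw [Finset.card_range] at hcs
    rw [mul_pow]
    have e : (1 / (τ : ℝ)) ^ 2 * ((τ : ℝ) * ∑ i ∈ Finset.range τ, (((P ^ i) *ᵥ g) x) ^ 2)
        = (1 / (τ : ℝ)) * ∑ i ∈ Finset.range τ, (((P ^ i) *ᵥ g) x) ^ 2 := by
      field_simp
    rw [← e]
    exact mul_le_mul_of_nonneg_left hcs (by positivity)
  calc ∑ x, μ x * (Av P τ g x) ^ 2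
      ≤ ∑ x, μ x * ((1 / (τ : ℝ)) * ∑ i ∈ Finset.range τ, (((P ^ i) *ᵥ g) x) ^ 2) :=
        Finset.sum_le_sum fun x _ => mul_le_mul_of_nonneg_left (h1 x) (h.1 x)
    _ = (1 / (τ : ℝ)) * ∑ i ∈ Finset.range τ, ∑ x, μ x * (((P ^ i) *ᵥ g) x) ^ 2 := by
        rw [Finset.sum_comm, Finset.mul_sum]
        refine Finset.sum_congr rfl fun x _ => ?_
        rw [Finset.mul_sum, Finset.mul_sum, Finset.mul_sum]
        refine Finset.sum_congr rfl fun i _ => ?_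
        ring
    _ ≤ (1 / (τ : ℝ)) * ∑ i ∈ Finset.range τ, ∑ x, μ x * g x ^ 2 := by
        apply mul_le_mul_of_nonneg_left _ (by positivity)
        exact Finset.sum_le_sum fun i _ => l2contr (isChain_pow h i) g
    _ = ∑ x, μ x * g x ^ 2 := by
        rw [Finset.sum_const, Finset.card_range, nsmul_eq_mul]
        field_simp

end Vale.Agent.P125.Poly38
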