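import Vale.Agent.P125.Dich.Iter

set_option linter.unusedSectionVars false
set_option linter.unusedVariables false

/-!
# P125, polynomial rate: operator calculus for a stationary reversible chain
-/

namespace Vale.Agent.P125.Poly59

open scoped BigOperators
open Vale.Agent.P125.Dich

variable {S : Type} [Fintype S] [DecidableEq S]

/-- weighted inner product -/
def ip (μ : S → ℝ) (g h : S → ℝ) : ℝ := ∑ x, μ x * (g x * h x)

lemma mv_apply (Q : Matrix S S ℝ) (g : S → ℝ) (x : S) : Q.mulVec g x = ∑ y, Q x y * g y := rfl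

variable {μ : S → ℝ} {Q : Matrix S S ℝ}

lemma mv_nonneg (hQ : IsChain μ Q) {g : S → ℝ} (hg : ∀ x, 0 ≤ g x) (x : S) :
    0 ≤ Q.mulVec g x := by
  rw [mv_apply]
  exact Finset.sum_nonneg fun y _ => mul_nonneg (hQ.2.2.1 x y) (hg y)

lemma mv_mono (hQ : IsChain μ Q) {g h : S → ℝ} (hg : ∀ x, g x ≤ h x) (x : S) :
    Q.mulVec g x ≤ Q.mulVec h x := by
  rw [mv_apply, mv_apply]
  exact Finset.sum_le_sum fun y _ => mul_le_mul_of_nonneg_left (hg y) (hQ.2.2.1 x y)

lemma mv_abs_le (hQ : IsChain μ Q) (g : S → ℝ) (x : S) :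
    |Q.mulVec g x| ≤ Q.mulVec (fun y => |g y|) x := by
  rw [mv_apply, mv_apply]
  refine (Finset.abs_sum_le_sum_abs _ _).trans (le_of_eq ?_)
  apply Finset.sum_congr rfl
  intro y _
  rw [abs_mul, abs_of_nonneg (hQ.2.2.1 x y)]

lemma mv_abs_le_of (hQ : IsChain μ Q) {g h : S → ℝ} (hg : ∀ x, |g x| ≤ h x) (x : S) :
    |Q.mulVec g x| ≤ Q.mulVec h x :=
  (mv_abs_le hQ g x).trans (mv_mono hQ hg x)

lemma mv_const (hQ : IsChain μ Q) (c : ℝ) (x : S) : Q.mulVec (fun _ => c) x = c := by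
  rw [mv_apply, ← Finset.sum_mul, hQ.2.2.2.1 x, one_mul]

lemma mv_add (Q : Matrix S S ℝ) (g h : S → ℝ) (x : S) :
    Q.mulVec (fun y => g y + h y) x = Q.mulVec g x + Q.mulVec h x := by
  simp only [mv_apply, mul_add, Finset.sum_add_distrib]

lemma mv_sub (Q : Matrix S S ℝ) (g h : S → ℝ) (x : S) :
    Q.mulVec (fun y => g y - h y) x = Q.mulVec g x - Q.mulVec h x := by
  simp only [mv_apply, mul_sub, Finset.sum_sub_distrib]

lemma mv_smul (Q : Matrix S S ℝ) (c : ℝ) (g : S → ℝ) (x : S) :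
    Q.mulVec (fun y => c * g y) x = c * Q.mulVec g x := by
  simp only [mv_apply, Finset.mul_sum]
  apply Finset.sum_congr rfl
  intro y _
  ring

lemma mv_sum {ι : Type*} (Q : Matrix S S ℝ) (s : Finset ι) (g : ι → S → ℝ) (x : S) :
    Q.mulVec (fun y => ∑ i ∈ s, g i y) x = ∑ i ∈ s, Q.mulVec (g i) x := by
  simp only [mv_apply, Finset.mul_sum]
  rw [Finset.sum_comm]

lemma mv_sq_le (hQ : IsChain μ Q) (g : S → ℝ) (x : S) :
    (Q.mulVec g x) ^ 2 ≤ Q.mulVec (fun y => g y ^ 2) x := by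
  set m := Q.mulVec g x with hm
  have h0 : 0 ≤ ∑ y, Q x y * (g y - m) ^ 2 :=
    Finset.sum_nonneg fun y _ => mul_nonneg (hQ.2.2.1 x y) (sq_nonneg _)
  have h1 : ∑ y, Q x y * (g y - m) ^ 2
      = Q.mulVec (fun y => g y ^ 2) x - 2 * m * Q.mulVec g x + m ^ 2 * ∑ y, Q x y := by
    simp only [mv_apply, Finset.mul_sum, ← Finset.sum_sub_distrib, ← Finset.sum_add_distrib]
    apply Finset.sum_congr rfl
    intro y _
    ring
  rw [hQ.2.2.2.1 x, ← hm] at h1
  nlinarith

lemma ip_mv (hQ : IsChain μ Q) (g h : S → ℝ) : ip μ g (Q.mulVec h) = ip μ (Q.mulVec g) h := by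
  unfold ip
  simp only [mv_apply, Finset.mul_sum, Finset.sum_mul]
  rw [Finset.sum_comm]
  apply Finset.sum_congr rfl
  intro y _
  apply Finset.sum_congr rfl
  intro x _
  have := hQ.2.2.2.2 x y
  calc μ x * (g x * (Q x y * h y)) = (μ x * Q x y) * (g x * h y) := by ring
    _ = (μ y * Q y x) * (g x * h y) := by rw [this]
    _ = μ y * (Q y x * g x * h y) := by ring

lemma sum_mu_mv (hQ : IsChain μ Q) (g : S → ℝ) : ∑ x, μ x * Q.mulVec g x = ∑ x, μ x * g x := by
  have h := ip_mv hQ (fun _ => 1) g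
  unfold ip at h
  simp only [mv_const hQ, one_mul] at h
  exact h

lemma ip_nonneg (hQ : IsChain μ Q) {g h : S → ℝ} (hg : ∀ x, 0 ≤ g x) (hh : ∀ x, 0 ≤ h x) :
    0 ≤ ip μ g h :=
  Finset.sum_nonneg fun x _ => mul_nonneg (hQ.1 x) (mul_nonneg (hg x) (hh x))

lemma ip_mono (hQ : IsChain μ Q) {g h h' : S → ℝ} (hg : ∀ x, 0 ≤ g x) (hh : ∀ x, h x ≤ h' x) :
    ip μ g h ≤ ip μ g h' :=
  Finset.sum_le_sum fun x _ =>
    mul_le_mul_of_nonneg_left (mul_le_mul_of_nonneg_left (hh x) (hg x)) (hQ.1 x)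

lemma ip_comm (μ g h : S → ℝ) : ip μ g h = ip μ h g := by
  unfold ip
  apply Finset.sum_congr rfl
  intro x _
  ring

lemma ip_cs (hQ : IsChain μ Q) (g h : S → ℝ) : (ip μ g h) ^ 2 ≤ ip μ g g * ip μ h h := by
  have h1 := Finset.sum_mul_sq_le_sq_mul_sq Finset.univ
    (fun x => Real.sqrt (μ x) * g x) (fun x => Real.sqrt (μ x) * h x)
  have e1 : ∀ x, Real.sqrt (μ x) * g x * (Real.sqrt (μ x) * h x) = μ x * (g x * h x) := by
    intro x
    have := Real.mul_self_sqrt (hQ.1 x)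
    calc Real.sqrt (μ x) * g x * (Real.sqrt (μ x) * h x)
        = (Real.sqrt (μ x) * Real.sqrt (μ x)) * (g x * h x) := by ring
      _ = μ x * (g x * h x) := by rw [this]
  have e2 : ∀ (k : S → ℝ) x, (Real.sqrt (μ x) * k x) ^ 2 = μ x * (k x * k x) := by
    intro k x
    have := Real.mul_self_sqrt (hQ.1 x)
    calc (Real.sqrt (μ x) * k x) ^ 2
        = (Real.sqrt (μ x) * Real.sqrt (μ x)) * (k x * k x) := by ring
      _ = μ x * (k x * k x) := by rw [this]
  simp only [e1, e2] at h1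
  exact h1

lemma ip_mv_sq_le (hQ : IsChain μ Q) (g : S → ℝ) :
    ip μ (Q.mulVec g) (Q.mulVec g) ≤ ip μ g g := by
  have h1 : ip μ (Q.mulVec g) (Q.mulVec g) ≤ ∑ x, μ x * Q.mulVec (fun y => g y ^ 2) x := by
    unfold ip
    apply Finset.sum_le_sum
    intro x _
    apply mul_le_mul_of_nonneg_left _ (hQ.1 x)
    have := mv_sq_le hQ g x
    nlinarith
  rw [sum_mu_mv hQ] at h1
  refine h1.trans (le_of_eq ?_)
  unfold ip
  apply Finset.sum_congr rfl
  intro x _
  ring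

/-- Dirichlet form identity -/
lemma dirichlet (hQ : IsChain μ Q) (U G : S → ℝ) :
    ip μ U (fun x => Q.mulVec G x - G x)
      = -(1 / 2) * ∑ a, ∑ b, μ a * Q a b * ((U b - U a) * (G b - G a)) := by
  have h1 : ∑ a, ∑ b, μ a * Q a b * (U b * G b) = ∑ a, μ a * (U a * G a) := by
    have := sum_mu_mv hQ (fun x => U x * G x)
    simp only [mv_apply, Finset.mul_sum] at this
    rw [← this]
    apply Finset.sum_congr rfl
    intro a _
    apply Finset.sum_congr rfl
    intro b _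
    ring
  have h2 : ∑ a, ∑ b, μ a * Q a b * (U a * G a) = ∑ a, μ a * (U a * G a) := by
    apply Finset.sum_congr rfl
    intro a _
    have : ∑ b, μ a * Q a b * (U a * G a) = (∑ b, Q a b) * (μ a * (U a * G a)) := by
      rw [Finset.sum_mul]
      apply Finset.sum_congr rfl
      intro b _
      ring
    rw [this, hQ.2.2.2.1 a, one_mul]
  have h3 : ∑ a, ∑ b, μ a * Q a b * (U a * G b) = ip μ U (Q.mulVec G) := by
    unfold ip
    simp only [mv_apply, Finset.mul_sum]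
    apply Finset.sum_congr rfl
    intro a _
    apply Finset.sum_congr rfl
    intro b _
    ring
  have h4 : ∑ a, ∑ b, μ a * Q a b * (U b * G a) = ip μ U (Q.mulVec G) := by
    rw [ip_mv hQ]
    unfold ip
    simp only [mv_apply, Finset.mul_sum, Finset.sum_mul]
    apply Finset.sum_congr rfl
    intro a _
    apply Finset.sum_congr rfl
    intro b _
    ring
  have h5 : ∑ a, ∑ b, μ a * Q a b * ((U b - U a) * (G b - G a))
      = ∑ a, ∑ b, μ a * Q a b * (U b * G b) + ∑ a, ∑ b, μ a * Q a b * (U a * G a)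
        - ∑ a, ∑ b, μ a * Q a b * (U a * G b) - ∑ a, ∑ b, μ a * Q a b * (U b * G a) := by
    simp only [← Finset.sum_add_distrib, ← Finset.sum_sub_distrib]
    apply Finset.sum_congr rfl
    intro a _
    apply Finset.sum_congr rfl
    intro b _
    ring
  have h6 : ip μ U (fun x => Q.mulVec G x - G x) = ip μ U (Q.mulVec G) - ∑ a, μ a * (U a * G a) := by
    unfold ip
    rw [← Finset.sum_sub_distrib]
    apply Finset.sum_congr rfl
    intro a _
    ring
  rw [h5, h1, h2, h3, h4, h6]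
  ring

/-- carre du champ -/
lemma gamma_eq (hQ : IsChain μ Q) (v : S → ℝ) (a : S) :
    ∑ b, Q a b * (v b - v a) ^ 2
      = Q.mulVec (fun y => v y ^ 2) a - v a ^ 2 - 2 * v a * (Q.mulVec v a - v a) := by
  have h1 : ∑ b, Q a b * (v b - v a) ^ 2
      = Q.mulVec (fun y => v y ^ 2) a - 2 * v a * Q.mulVec v a + v a ^ 2 * ∑ b, Q a b := by
    simp only [mv_apply, Finset.mul_sum, ← Finset.sum_sub_distrib, ← Finset.sum_add_distrib]
    apply Finset.sum_congr rfl
    intro y _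
    ring
  rw [h1, hQ.2.2.2.1 a]
  ring

lemma pow_mv_add (P : Matrix S S ℝ) (i j : ℕ) (g : S → ℝ) :
    (P ^ (i + j)).mulVec g = (P ^ i).mulVec ((P ^ j).mulVec g) := by
  rw [pow_add, Matrix.mulVec_mulVec]

lemma pow_mv_succ (P : Matrix S S ℝ) (i : ℕ) (g : S → ℝ) :
    (P ^ (i + 1)).mulVec g = (P ^ i).mulVec (P.mulVec g) := by
  rw [pow_succ, Matrix.mulVec_mulVec]

lemma pow_mv_succ' (P : Matrix S S ℝ) (i : ℕ) (g : S → ℝ) :
    (P ^ (i + 1)).mulVec g = P.mulVec ((P ^ i).mulVec g) := by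
  rw [pow_succ', Matrix.mulVec_mulVec]

/-- telescoping -/
lemma tele (P : Matrix S S ℝ) (τ : ℕ) (g : S → ℝ) (x : S) :
    ∑ i ∈ Finset.range τ, (P ^ i).mulVec (fun y => P.mulVec g y - g y) x
      = (P ^ τ).mulVec g x - g x := by
  induction τ with
  | zero => simp
  | succ τ ih =>
    rw [Finset.sum_range_succ, ih, mv_sub, pow_mv_succ]
    ring

end Vale.Agent.P125.Poly59
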