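import Mathlib

/-!
# P125, polynomial rate: the final arithmetic (choice of the block length, real exponents)
-/

namespace Vale.Agent.P125.Poly33

/-- a block length `τ` with `t^(2/3) ≤ τ ≤ 2 t^(2/3)` -/
theorem exists_tau (t : ℕ) (ht : 1 ≤ t) :
    ∃ τ : ℕ, 1 ≤ τ ∧ (t : ℝ) ^ (2 / 3 : ℝ) ≤ τ ∧ (τ : ℝ) ≤ 2 * (t : ℝ) ^ (2 / 3 : ℝ) := by
  have h1 : (1 : ℝ) ≤ (t : ℝ) := by exact_mod_cast ht
  have h2 : (1 : ℝ) ≤ (t : ℝ) ^ (2 / 3 : ℝ) := Real.one_le_rpow h1 (by norm_num)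
  refine ⟨⌈(t : ℝ) ^ (2 / 3 : ℝ)⌉₊, ?_, Nat.le_ceil _, ?_⟩
  · have : (1 : ℝ) ≤ (⌈(t : ℝ) ^ (2 / 3 : ℝ)⌉₊ : ℝ) := le_trans h2 (Nat.le_ceil _)
    exact_mod_cast this
  · have := Nat.ceil_lt_add_one (le_trans zero_le_one h2)
    linarith

/-- fourth root extraction: `A^4 ≤ 5 τ^3 W^4` gives `A ≤ (3/2) τ^(3/4) W` -/
theorem root_bound (A W τ : ℝ) (hW : 0 ≤ W) (hτ : 0 < τ)
    (h : A ^ 4 ≤ 5 * τ ^ 3 * W ^ 4) : A ≤ 3 / 2 * τ ^ (3 / 4 : ℝ) * W := by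
  have hy : (τ ^ (3 / 4 : ℝ)) ^ 4 = τ ^ 3 := by
    rw [← Real.rpow_natCast, ← Real.rpow_mul hτ.le, ← Real.rpow_natCast]
    norm_num
  have hB : 0 ≤ 3 / 2 * τ ^ (3 / 4 : ℝ) * W := by positivity
  by_contra hc
  rw [not_le] at hc
  have h1 : (3 / 2 * τ ^ (3 / 4 : ℝ) * W) ^ 4 < A ^ 4 := pow_lt_pow_left₀ hc hB (by norm_num)
  have h2 : (3 / 2 * τ ^ (3 / 4 : ℝ) * W) ^ 4 = 81 / 16 * τ ^ 3 * W ^ 4 := by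
    rw [mul_pow, mul_pow, hy]; norm_num
  have h3 : 0 ≤ τ ^ 3 * W ^ 4 := by positivity
  nlinarith

/-- the three elementary estimates -/
theorem three_bounds (t τ m : ℕ) (ht : 1 ≤ t) (hτ1 : 1 ≤ τ)
    (h1 : (t : ℝ) ^ (2 / 3 : ℝ) ≤ τ) (h2 : (τ : ℝ) ≤ 2 * (t : ℝ) ^ (2 / 3 : ℝ))
    (hm : m * τ ≤ t) :
    Real.sqrt m * τ ≤ 3 / 2 * (t : ℝ) ^ (5 / 6 : ℝ) ∧ (τ : ℝ) ≤ 2 * (t : ℝ) ^ (5 / 6 : ℝ) ∧
      (m : ℝ) * (τ : ℝ) ^ (3 / 4 : ℝ) ≤ (t : ℝ) ^ (5 / 6 : ℝ) := by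
  have ha : (1 : ℝ) ≤ (t : ℝ) := by exact_mod_cast ht
  have ha0 : (0 : ℝ) < (t : ℝ) := by linarith
  have hb : (1 : ℝ) ≤ (τ : ℝ) := by exact_mod_cast hτ1
  have hb0 : (0 : ℝ) < (τ : ℝ) := by linarith
  set x : ℝ := (t : ℝ) ^ (1 / 6 : ℝ) with hx
  set y : ℝ := (τ : ℝ) ^ (1 / 4 : ℝ) with hy
  have hx1 : 1 ≤ x := Real.one_le_rpow ha (by norm_num)
  have hy1 : 1 ≤ y := Real.one_le_rpow hb (by norm_num)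
  have ex6 : x ^ 6 = (t : ℝ) := by
    rw [hx, ← Real.rpow_natCast, ← Real.rpow_mul ha0.le]; norm_num
  have ex4 : x ^ 4 = (t : ℝ) ^ (2 / 3 : ℝ) := by
    rw [hx, ← Real.rpow_natCast, ← Real.rpow_mul ha0.le]; norm_num
  have ex5 : x ^ 5 = (t : ℝ) ^ (5 / 6 : ℝ) := by
    rw [hx, ← Real.rpow_natCast, ← Real.rpow_mul ha0.le]; norm_num
  have ey4 : y ^ 4 = (τ : ℝ) := by
    rw [hy, ← Real.rpow_natCast, ← Real.rpow_mul hb0.le]; norm_num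
  have ey3 : y ^ 3 = (τ : ℝ) ^ (3 / 4 : ℝ) := by
    rw [hy, ← Real.rpow_natCast, ← Real.rpow_mul hb0.le]; norm_num
  have hmr : (m : ℝ) * (τ : ℝ) ≤ (t : ℝ) := by exact_mod_cast hm
  have hm0 : (0 : ℝ) ≤ (m : ℝ) := Nat.cast_nonneg m
  rw [← ex4] at h1 h2
  rw [← ex5, ← ey3]
  have hxy : x ≤ y := by
    by_contra hc
    rw [not_le] at hc
    have : y ^ 4 < x ^ 4 := pow_lt_pow_left₀ hc (by linarith) (by norm_num)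
    linarith
  refine ⟨?_, ?_, ?_⟩
  · have hs : Real.sqrt m ^ 2 = m := Real.sq_sqrt hm0
    have hs0 : 0 ≤ Real.sqrt m := Real.sqrt_nonneg _
    have h5 : (Real.sqrt m * τ) ^ 2 ≤ (3 / 2 * x ^ 5) ^ 2 := by
      have e1 : (Real.sqrt m * τ) ^ 2 = ((m : ℝ) * τ) * τ := by rw [mul_pow, hs]; ring
      have e2 : ((m : ℝ) * τ) * τ ≤ x ^ 6 * (2 * x ^ 4) := by
        rw [ex6]
        exact mul_le_mul hmr h2 hb0.le ha0.le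
      have e3 : (3 / 2 * x ^ 5) ^ 2 = 9 / 4 * (x ^ 6 * x ^ 4) := by ring
      have e4 : 0 ≤ x ^ 6 * x ^ 4 := by positivity
      rw [e1, e3]
      nlinarith
    exact (abs_le_of_sq_le_sq' h5 (by positivity)).2 |> fun h => h
  · have : x ^ 4 ≤ x ^ 5 := pow_le_pow_right₀ hx1 (by norm_num)
    linarith
  · -- m y^3 ≤ x^5 from m y^4 ≤ x^6, x ≤ y
    have hy0 : 0 < y := by linarith
    have e1 : (m : ℝ) * y ^ 3 * y ≤ x ^ 5 * y := by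
      have : (m : ℝ) * y ^ 3 * y = (m : ℝ) * y ^ 4 := by ring
      rw [this, ey4]
      calc (m : ℝ) * τ ≤ x ^ 6 := by rw [ex6]; exact hmr
        _ = x ^ 5 * x := by ring
        _ ≤ x ^ 5 * y := mul_le_mul_of_nonneg_left hxy (by positivity)
    exact le_of_mul_le_mul_right e1 hy0

/-- the final bound -/
theorem final_bound (t τ m : ℕ) (ht : 1 ≤ t) (hτ1 : 1 ≤ τ)
    (h1 : (t : ℝ) ^ (2 / 3 : ℝ) ≤ τ) (h2 : (τ : ℝ) ≤ 2 * (t : ℝ) ^ (2 / 3 : ℝ))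
    (hm : m * τ ≤ t) (W Qb : ℝ) (hW : 0 ≤ W)
    (hQ : Qb ≤ (Real.sqrt m * τ + τ + (m : ℝ) * (3 / 2 * (τ : ℝ) ^ (3 / 4 : ℝ))) * W) :
    Qb ≤ 5 * (t : ℝ) ^ (5 / 6 : ℝ) * W := by
  obtain ⟨b1, b2, b3⟩ := three_bounds t τ m ht hτ1 h1 h2 hm
  refine le_trans hQ ?_
  refine mul_le_mul_of_nonneg_right ?_ hW
  nlinarith

/-- from `X ≤ 2 t W + 4 t Q`, `Q ≤ 5 t^(5/6) W` to `X ≤ 22 t^(11/6) W` -/
theorem final_bound' (t : ℕ) (ht : 1 ≤ t) (W Qb X : ℝ) (hW : 0 ≤ W)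
    (hQ : Qb ≤ 5 * (t : ℝ) ^ (5 / 6 : ℝ) * W) (hX : X ≤ 2 * t * W + 4 * t * Qb) :
    X ≤ 22 * (t : ℝ) ^ (11 / 6 : ℝ) * W := by
  have ha : (1 : ℝ) ≤ (t : ℝ) := by exact_mod_cast ht
  have ha0 : (0 : ℝ) < (t : ℝ) := by linarith
  have e1 : (t : ℝ) * (t : ℝ) ^ (5 / 6 : ℝ) = (t : ℝ) ^ (11 / 6 : ℝ) := by
    rw [mul_comm, ← Real.rpow_add_one ha0.ne']; norm_num
  have e2 : (t : ℝ) ≤ (t : ℝ) ^ (11 / 6 : ℝ) := by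
    calc (t : ℝ) = (t : ℝ) ^ (1 : ℝ) := (Real.rpow_one _).symm
      _ ≤ (t : ℝ) ^ (11 / 6 : ℝ) := Real.rpow_le_rpow_of_exponent_le ha (by norm_num)
  have e3 : 4 * (t : ℝ) * Qb ≤ 4 * (t : ℝ) * (5 * (t : ℝ) ^ (5 / 6 : ℝ) * W) :=
    mul_le_mul_of_nonneg_left hQ (by positivity)
  have e4 : 4 * (t : ℝ) * (5 * (t : ℝ) ^ (5 / 6 : ℝ) * W) = 20 * (t : ℝ) ^ (11 / 6 : ℝ) * W := by
    rw [← e1]; ring
  have e5 : 2 * (t : ℝ) * W ≤ 2 * (t : ℝ) ^ (11 / 6 : ℝ) * W :=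
    mul_le_mul_of_nonneg_right (by linarith) hW
  linarith

end Vale.Agent.P125.Poly33
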