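import Mathlib

/-!
Last step of the polynomial rate for P125: choice of the block length,
integer rounding and real powers.  Only real arithmetic, no definitions of the project.
-/

namespace Vale.Agent.P125.Poly44

open Finset

/-- block length: the ceiling of `t^(2/3)` -/
noncomputable def tauOf (t : ℕ) : ℕ := ⌈(t : ℝ) ^ ((2 : ℝ) / 3)⌉₊

theorem one_le_rpow_t (t : ℕ) (ht : 1 ≤ t) (a : ℝ) (ha : 0 ≤ a) : (1 : ℝ) ≤ (t : ℝ) ^ a := by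
  have h1 : (1 : ℝ) ≤ (t : ℝ) := by exact_mod_cast ht
  exact Real.one_le_rpow h1 ha

theorem le_tauOf (t : ℕ) : (t : ℝ) ^ ((2 : ℝ) / 3) ≤ (tauOf t : ℝ) := Nat.le_ceil _

theorem tauOf_le (t : ℕ) (ht : 1 ≤ t) : (tauOf t : ℝ) ≤ 2 * (t : ℝ) ^ ((2 : ℝ) / 3) := by
  have h0 : (0 : ℝ) ≤ (t : ℝ) ^ ((2 : ℝ) / 3) := by positivity
  have h1 := (Nat.ceil_lt_add_one h0).le
  have h2 := one_le_rpow_t t ht ((2 : ℝ) / 3) (by norm_num)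
  unfold tauOf
  linarith

theorem one_le_tauOf (t : ℕ) (ht : 1 ≤ t) : 1 ≤ tauOf t := by
  have h2 := one_le_rpow_t t ht ((2 : ℝ) / 3) (by norm_num)
  have h3 := le_tauOf t
  have : (1 : ℝ) ≤ (tauOf t : ℝ) := le_trans h2 h3
  exact_mod_cast this

/-- (G1a) martingale part -/
theorem part_sqrt (t : ℕ) (ht : 1 ≤ t) (m : ℕ) (hm : m * tauOf t ≤ t) :
    Real.sqrt m * (tauOf t : ℝ) ≤ Real.sqrt 2 * (t : ℝ) ^ ((5 : ℝ) / 6) := by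
  have ht0 : (0 : ℝ) < (t : ℝ) := by exact_mod_cast ht
  have hmR : (m : ℝ) * (tauOf t : ℝ) ≤ (t : ℝ) := by exact_mod_cast hm
  have hτ0 : (0 : ℝ) ≤ (tauOf t : ℝ) := by positivity
  have hτ := tauOf_le t ht
  have hrhs : (0 : ℝ) ≤ Real.sqrt 2 * (t : ℝ) ^ ((5 : ℝ) / 6) := by positivity
  have hlhs : (0 : ℝ) ≤ Real.sqrt m * (tauOf t : ℝ) := by positivity
  refine abs_le_of_sq_le_sq' ?_ hrhs |>.2
  have e1 : (Real.sqrt m * (tauOf t : ℝ)) ^ 2 = ((m : ℝ) * (tauOf t : ℝ)) * (tauOf t : ℝ) := by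
    rw [mul_pow, Real.sq_sqrt (by positivity)]; ring
  have e2 : (Real.sqrt 2 * (t : ℝ) ^ ((5 : ℝ) / 6)) ^ 2
      = (t : ℝ) * (2 * (t : ℝ) ^ ((2 : ℝ) / 3)) := by
    rw [mul_pow, Real.sq_sqrt (by norm_num)]
    have : ((t : ℝ) ^ ((5 : ℝ) / 6)) ^ 2 = (t : ℝ) * (t : ℝ) ^ ((2 : ℝ) / 3) := by
      rw [← Real.rpow_natCast, ← Real.rpow_mul ht0.le]
      nth_rewrite 2 [← Real.rpow_one (t : ℝ)]
      rw [← Real.rpow_add ht0]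
      norm_num
    rw [this]; ring
  rw [e1, e2]
  exact mul_le_mul hmR hτ hτ0 ht0.le

/-- (G1b) remainder part -/
theorem part_rem (t : ℕ) (ht : 1 ≤ t) :
    (tauOf t : ℝ) ≤ 2 * (t : ℝ) ^ ((5 : ℝ) / 6) := by
  have h1 : (1 : ℝ) ≤ (t : ℝ) := by exact_mod_cast ht
  have hτ := tauOf_le t ht
  have : (t : ℝ) ^ ((2 : ℝ) / 3) ≤ (t : ℝ) ^ ((5 : ℝ) / 6) :=
    Real.rpow_le_rpow_of_exponent_le h1 (by norm_num)
  linarith

/-- (G1c) drift part -/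
theorem part_drift (t : ℕ) (ht : 1 ≤ t) (m : ℕ) (hm : m * tauOf t ≤ t) :
    (m : ℝ) * (tauOf t : ℝ) ^ ((3 : ℝ) / 4) ≤ (t : ℝ) ^ ((5 : ℝ) / 6) := by
  have ht0 : (0 : ℝ) < (t : ℝ) := by exact_mod_cast ht
  have hmR : (m : ℝ) * (tauOf t : ℝ) ≤ (t : ℝ) := by exact_mod_cast hm
  have hτ1 : (0 : ℝ) < (tauOf t : ℝ) := by exact_mod_cast one_le_tauOf t ht
  have hle := le_tauOf t
  -- tau^(3/4) = tau * tau^(-1/4)
  have e1 : (tauOf t : ℝ) ^ ((3 : ℝ) / 4) = (tauOf t : ℝ) * (tauOf t : ℝ) ^ (-(1 : ℝ) / 4) := by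
    nth_rewrite 2 [← Real.rpow_one (tauOf t : ℝ)]
    rw [← Real.rpow_add hτ1]; norm_num
  have e2 : (tauOf t : ℝ) ^ (-(1 : ℝ) / 4) ≤ (t : ℝ) ^ (-(1 : ℝ) / 6) := by
    have h3 : (tauOf t : ℝ) ^ (-(1 : ℝ) / 4) ≤ ((t : ℝ) ^ ((2 : ℝ) / 3)) ^ (-(1 : ℝ) / 4) :=
      Real.rpow_le_rpow_of_nonpos (by positivity) hle (by norm_num)
    have h4 : ((t : ℝ) ^ ((2 : ℝ) / 3)) ^ (-(1 : ℝ) / 4) = (t : ℝ) ^ (-(1 : ℝ) / 6) := by
      rw [← Real.rpow_mul ht0.le]; norm_num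
    rw [h4] at h3; exact h3
  have e3 : (t : ℝ) ^ ((5 : ℝ) / 6) = (t : ℝ) * (t : ℝ) ^ (-(1 : ℝ) / 6) := by
    nth_rewrite 2 [← Real.rpow_one (t : ℝ)]
    rw [← Real.rpow_add ht0]; norm_num
  rw [e1, e3, ← mul_assoc]
  exact mul_le_mul hmR e2 (by positivity) ht0.le

/-- (G1) the choice of the block length -/
theorem tau_choice (c : ℝ) (hc : 0 ≤ c) (t : ℕ) (ht : 1 ≤ t) :
    ∃ τ : ℕ, 1 ≤ τ ∧ ∀ m : ℕ, m * τ ≤ t →
      Real.sqrt m * (τ : ℝ) + (τ : ℝ) + (m : ℝ) * (c * (τ : ℝ) ^ ((3 : ℝ) / 4))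
        ≤ (Real.sqrt 2 + 2 + c) * (t : ℝ) ^ ((5 : ℝ) / 6) := by
  refine ⟨tauOf t, one_le_tauOf t ht, fun m hm => ?_⟩
  have h1 := part_sqrt t ht m hm
  have h2 := part_rem t ht
  have h3 := mul_le_mul_of_nonneg_left (part_drift t ht m hm) hc
  nlinarith [h1, h2, h3]

/-- (G2) assembling the three estimates -/
theorem final_rate (W : ℝ) (hW : 0 ≤ W) (E Q : ℕ → ℝ) (R : ℕ → ℕ → ℝ) (c : ℝ) (hc : 0 ≤ c)
    (hA : ∀ t, E t ≤ 2 * (t : ℝ) * W + 2 * ∑ k ∈ range t, (Q (t - 1 - k) + Q k))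
    (hB : ∀ τ m r : ℕ, 1 ≤ τ → r < τ →
      Q (m * τ + r) ≤ Real.sqrt m * (τ : ℝ) * W + (τ : ℝ) * W + ∑ i ∈ range m, R (i * τ) τ)
    (hR : ∀ s τ : ℕ, 1 ≤ τ → R s τ ≤ c * (τ : ℝ) ^ ((3 : ℝ) / 4) * W) :
    ∀ t : ℕ, 1 ≤ t →
      E t ≤ (2 + 4 * (Real.sqrt 2 + 2 + c)) * (t : ℝ) ^ ((11 : ℝ) / 6) * W := by
  intro t ht
  obtain ⟨τ, hτ, hch⟩ := tau_choice c hc t ht
  have ht0 : (0 : ℝ) < (t : ℝ) := by exact_mod_cast ht
  have ht1 : (1 : ℝ) ≤ (t : ℝ) := by exact_mod_cast ht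
  set C : ℝ := Real.sqrt 2 + 2 + c with hC
  set p : ℝ := (t : ℝ) ^ ((5 : ℝ) / 6) with hp
  -- bound on Q
  have hQ : ∀ q : ℕ, q ≤ t → Q q ≤ C * p * W := by
    intro q hq
    have hdm : (q / τ) * τ + q % τ = q := Nat.div_add_mod' q τ
    have hr : q % τ < τ := Nat.mod_lt _ hτ
    have hb := hB τ (q / τ) (q % τ) hτ hr
    rw [hdm] at hb
    have hmt : (q / τ) * τ ≤ t := le_trans (Nat.div_mul_le_self q τ) hq
    have hsum : ∑ i ∈ range (q / τ), R (i * τ) τ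
        ≤ ((q / τ : ℕ) : ℝ) * (c * (τ : ℝ) ^ ((3 : ℝ) / 4) * W) := by
      calc ∑ i ∈ range (q / τ), R (i * τ) τ
          ≤ ∑ _i ∈ range (q / τ), (c * (τ : ℝ) ^ ((3 : ℝ) / 4) * W) :=
            sum_le_sum (fun i _ => hR (i * τ) τ hτ)
        _ = ((q / τ : ℕ) : ℝ) * (c * (τ : ℝ) ^ ((3 : ℝ) / 4) * W) := by
            rw [sum_const, card_range, nsmul_eq_mul]
    have h5 := mul_le_mul_of_nonneg_right (hch (q / τ) hmt) hW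
    calc Q q ≤ Real.sqrt ((q / τ : ℕ) : ℝ) * (τ : ℝ) * W + (τ : ℝ) * W
          + ∑ i ∈ range (q / τ), R (i * τ) τ := hb
      _ ≤ Real.sqrt ((q / τ : ℕ) : ℝ) * (τ : ℝ) * W + (τ : ℝ) * W
          + ((q / τ : ℕ) : ℝ) * (c * (τ : ℝ) ^ ((3 : ℝ) / 4) * W) := by linarith
      _ = (Real.sqrt ((q / τ : ℕ) : ℝ) * (τ : ℝ) + (τ : ℝ)
          + ((q / τ : ℕ) : ℝ) * (c * (τ : ℝ) ^ ((3 : ℝ) / 4))) * W := by ring
      _ ≤ C * p * W := h5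
  have hsumQ : ∑ k ∈ range t, (Q (t - 1 - k) + Q k) ≤ (t : ℝ) * (2 * (C * p * W)) := by
    calc ∑ k ∈ range t, (Q (t - 1 - k) + Q k)
        ≤ ∑ _k ∈ range t, (2 * (C * p * W)) := by
          refine sum_le_sum (fun k hk => ?_)
          have hk' : k < t := mem_range.mp hk
          have h1 := hQ (t - 1 - k) (by omega)
          have h2 := hQ k (by omega)
          linarith
      _ = (t : ℝ) * (2 * (C * p * W)) := by rw [sum_const, card_range, nsmul_eq_mul]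
  have e11 : (t : ℝ) ^ ((11 : ℝ) / 6) = (t : ℝ) * p := by
    rw [hp]
    nth_rewrite 2 [← Real.rpow_one (t : ℝ)]
    rw [← Real.rpow_add ht0]; norm_num
  have hp1 : (1 : ℝ) ≤ p := one_le_rpow_t t ht _ (by norm_num)
  have h6 : (t : ℝ) * W ≤ (t : ℝ) * p * W := by
    have : (t : ℝ) * 1 ≤ (t : ℝ) * p := mul_le_mul_of_nonneg_left hp1 ht0.le
    nlinarith
  have := hA t
  rw [e11]
  nlinarith [this, hsumQ, h6]

/-- (G3a) converter: from a bound on the square -/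
theorem conv_sq (K W R : ℝ) (τ : ℕ) (hK : 0 ≤ K) (hW : 0 ≤ W)
    (h : R ^ 2 ≤ K * (τ : ℝ) * Real.sqrt τ * W ^ 2) :
    R ≤ Real.sqrt K * (τ : ℝ) ^ ((3 : ℝ) / 4) * W := by
  have hτ0 : (0 : ℝ) ≤ (τ : ℝ) := by positivity
  have hrhs : (0 : ℝ) ≤ Real.sqrt K * (τ : ℝ) ^ ((3 : ℝ) / 4) * W := by positivity
  refine abs_le_of_sq_le_sq' ?_ hrhs |>.2
  have e : (Real.sqrt K * (τ : ℝ) ^ ((3 : ℝ) / 4) * W) ^ 2
      = K * (τ : ℝ) * Real.sqrt τ * W ^ 2 := by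
    rw [mul_pow, mul_pow, Real.sq_sqrt hK]
    have : ((τ : ℝ) ^ ((3 : ℝ) / 4)) ^ 2 = (τ : ℝ) * Real.sqrt τ := by
      rcases Nat.eq_zero_or_pos τ with h0 | h0
      · subst h0; simp
      · have hp : (0 : ℝ) < (τ : ℝ) := by exact_mod_cast h0
        rw [Real.sqrt_eq_rpow, ← Real.rpow_natCast, ← Real.rpow_mul hτ0]
        nth_rewrite 2 [← Real.rpow_one (τ : ℝ)]
        rw [← Real.rpow_add hp]; norm_num
    rw [this]; ring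
  rw [e]; exact h

/-- (G3b) converter: from a bound on the fourth power -/
theorem conv_four (K W R : ℝ) (τ : ℕ) (hK : 0 ≤ K) (hW : 0 ≤ W)
    (h : R ^ 4 ≤ K * (τ : ℝ) ^ 3 * W ^ 4) :
    R ≤ Real.sqrt (Real.sqrt K) * (τ : ℝ) ^ ((3 : ℝ) / 4) * W := by
  have hτ0 : (0 : ℝ) ≤ (τ : ℝ) := by positivity
  apply conv_sq (Real.sqrt K) W R τ (Real.sqrt_nonneg _) hW
  have hrhs : (0 : ℝ) ≤ Real.sqrt K * (τ : ℝ) * Real.sqrt τ * W ^ 2 := by positivity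
  refine abs_le_of_sq_le_sq' ?_ hrhs |>.2
  have e : (Real.sqrt K * (τ : ℝ) * Real.sqrt τ * W ^ 2) ^ 2 = K * (τ : ℝ) ^ 3 * W ^ 4 := by
    rw [mul_pow, mul_pow, mul_pow, Real.sq_sqrt hK, Real.sq_sqrt hτ0]; ring
  rw [e]
  calc (R ^ 2) ^ 2 = R ^ 4 := by ring
    _ ≤ _ := h

/-- (G3c) converter: the shape produced by steps (C)-(F) of the plan -/
theorem conv_plan (W R : ℝ) (τ : ℕ) (hτ : 1 ≤ τ) (hW : 0 ≤ W)
    (h : R ≤ ((τ : ℝ) / 2) * Real.sqrt W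
      * Real.sqrt ((4 / (τ : ℝ)) * (Real.sqrt W * Real.sqrt (5 * (τ : ℝ) * W)))) :
    R ≤ Real.sqrt (Real.sqrt 5) * (τ : ℝ) ^ ((3 : ℝ) / 4) * W := by
  have hp : (0 : ℝ) < (τ : ℝ) := by exact_mod_cast hτ
  refine le_trans h ?_
  set B : ℝ := ((τ : ℝ) / 2) * Real.sqrt W
      * Real.sqrt ((4 / (τ : ℝ)) * (Real.sqrt W * Real.sqrt (5 * (τ : ℝ) * W))) with hB
  apply conv_sq (Real.sqrt 5) W B τ (Real.sqrt_nonneg _) hW
  have h1 : (0 : ℝ) ≤ (4 / (τ : ℝ)) * (Real.sqrt W * Real.sqrt (5 * (τ : ℝ) * W)) := by positivity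
  have h2 : Real.sqrt (5 * (τ : ℝ) * W) = Real.sqrt 5 * Real.sqrt τ * Real.sqrt W := by
    rw [Real.sqrt_mul (by positivity), Real.sqrt_mul (by norm_num)]
  have h3 : Real.sqrt W * Real.sqrt W = W := Real.mul_self_sqrt hW
  rw [hB, mul_pow, mul_pow, Real.sq_sqrt h1, Real.sq_sqrt hW, h2]
  have : ((τ : ℝ) / 2) ^ 2 * W * (4 / (τ : ℝ) * (Real.sqrt W * (Real.sqrt 5 * Real.sqrt τ * Real.sqrt W)))
      = Real.sqrt 5 * (τ : ℝ) * Real.sqrt τ * W * (Real.sqrt W * Real.sqrt W) := by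
    field_simp
    ring
  rw [this, h3]
  apply le_of_eq; ring

end Vale.Agent.P125.Poly44
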