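import Mathlib
import Vale.Agent.P125.Poly.Defs58

/-! P125 Poly, subtask Q (race copy, helper98). -/

namespace Vale.Agent.P125.Poly

open scoped BigOperators
open Vale.Agent.P125.Dich

theorem stQ_98 (hs : StSmall) (h1 : StRem) (h2 : StBlk) (h3 : StR) : StQ := by
  intro S _ _ μ P hC hL n f τ t' hτ
  have hU : 0 ≤ U μ P f := (hs S μ P hC hL n f).2.2.2.2.2.2.1
  set J := t' / τ with hJ
  set ρ := t' % τ with hρ
  have ht : τ * J + ρ = t' := Nat.div_add_mod t' τ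
  have hρlt : ρ < τ := Nat.mod_lt _ (by omega)
  have hτ0 : (0 : ℝ) < τ := by exact_mod_cast (by omega : 0 < τ)
  have e1 : Qsum μ P f t' ≤ Qsum μ P f (τ * J) + ρ * U μ P f := by
    have := h1 S μ P hC hL n f (τ * J) ρ
    rwa [ht] at this
  have e2 := h2 S μ P hC hL n f τ J
  have e3 : ∑ j ∈ Finset.range J, Rr μ P f τ (τ * j) ≤
      J * ((3 / 2) * (τ : ℝ) ^ (3 / 4 : ℝ) * U μ P f) := by
    calc ∑ j ∈ Finset.range J, Rr μ P f τ (τ * j)
        ≤ ∑ j ∈ Finset.range J, ((3 / 2) * (τ : ℝ) ^ (3 / 4 : ℝ) * U μ P f) :=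
          Finset.sum_le_sum (fun j _ => h3 S μ P hC hL n f τ (τ * j))
      _ = J * ((3 / 2) * (τ : ℝ) ^ (3 / 4 : ℝ) * U μ P f) := by
          rw [Finset.sum_const, Finset.card_range, nsmul_eq_mul]
  have hJt : (τ : ℝ) * J ≤ t' := by
    have : τ * J ≤ t' := by omega
    exact_mod_cast this
  have hJ0 : (0 : ℝ) ≤ J := Nat.cast_nonneg _
  have a1 : Real.sqrt J * τ ≤ Real.sqrt (t' * τ) := by
    have : Real.sqrt J * τ = Real.sqrt (J * τ ^ 2) := by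
      rw [Real.sqrt_mul hJ0, Real.sqrt_sq hτ0.le]
    rw [this]
    apply Real.sqrt_le_sqrt
    nlinarith
  have a2 : (J : ℝ) * (τ : ℝ) ^ (3 / 4 : ℝ) ≤ t' * (τ : ℝ) ^ (-(1 / 4) : ℝ) := by
    have : (τ : ℝ) ^ (3 / 4 : ℝ) = τ * (τ : ℝ) ^ (-(1 / 4) : ℝ) := by
      have h := Real.rpow_add hτ0 1 (-(1 / 4) : ℝ)
      rw [Real.rpow_one] at h
      rw [← h]
      norm_num
    rw [this]
    have hp : 0 ≤ (τ : ℝ) ^ (-(1 / 4) : ℝ) := Real.rpow_nonneg hτ0.le _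
    nlinarith
  have a3 : (ρ : ℝ) ≤ τ := by exact_mod_cast hρlt.le
  have b1 := mul_le_mul_of_nonneg_right a1 hU
  have b2 := mul_le_mul_of_nonneg_right a2 hU
  have b3 := mul_le_mul_of_nonneg_right a3 hU
  nlinarith

end Vale.Agent.P125.Poly
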