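import Mathlib
import Vale.Agent.P125.Poly.Defs58

/-! P125 Poly, subtask Rem (race copy, helper98). -/

namespace Vale.Agent.P125.Poly

open scoped BigOperators
open Vale.Agent.P125.Dich

theorem stRem_98 (hs : StSmall) (h1 : StTriv1) : StRem := by
  intro S _ _ μ P hC hL n f m ρ
  obtain ⟨hom, hsum, hlb, -, -, hlb2, hU, -, -, -⟩ := hs S μ P hC hL n f
  -- pointwise
  have hA : ∀ k b, Ak P f (m + ρ) k b ≤ Ak P f m k b +
      op P m (fun z => ∑ i ∈ Finset.range ρ, op P i (lbar P f) z) b := by
    intro k b
    have e1 : Ak P f (m + ρ) k b =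
        ∑ z, (P ^ m) b z * ∑ y, (P ^ ρ) z y * |F f k y - F f k b| := by
      unfold Ak
      simp_rw [hL.pw_add m ρ, Finset.sum_mul, Finset.mul_sum]
      rw [Finset.sum_comm]
      refine Finset.sum_congr rfl (fun z _ => Finset.sum_congr rfl (fun y _ => by ring))
    have e2 : ∀ z, ∑ y, (P ^ ρ) z y * |F f k y - F f k b| ≤
        Ak P f ρ k z + |F f k z - F f k b| := by
      intro z
      calc ∑ y, (P ^ ρ) z y * |F f k y - F f k b|
          ≤ ∑ y, ((P ^ ρ) z y * |F f k y - F f k z| + (P ^ ρ) z y * |F f k z - F f k b|) := by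
            refine Finset.sum_le_sum (fun y _ => ?_)
            rw [← mul_add]
            refine mul_le_mul_of_nonneg_left ?_ (hL.pw_nonneg ρ z y)
            have : F f k y - F f k b = (F f k y - F f k z) + (F f k z - F f k b) := by ring
            rw [this]
            exact abs_add_le _ _
        _ = Ak P f ρ k z + |F f k z - F f k b| := by
            rw [Finset.sum_add_distrib, ← Finset.sum_mul, hL.pw_sum ρ z, one_mul]
            rfl
    rw [e1]
    calc ∑ z, (P ^ m) b z * ∑ y, (P ^ ρ) z y * |F f k y - F f k b|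
        ≤ ∑ z, ((P ^ m) b z * |F f k z - F f k b| + (P ^ m) b z *
            ∑ i ∈ Finset.range ρ, op P i (lbar P f) z) := by
          refine Finset.sum_le_sum (fun z _ => ?_)
          rw [← mul_add]
          refine mul_le_mul_of_nonneg_left ?_ (hL.pw_nonneg m b z)
          have := e2 z
          have := h1 S μ P hC hL n f k ρ z
          linarith
      _ = _ := by
          rw [Finset.sum_add_distrib]
          rfl
  set W : S → ℝ := op P m (fun z => ∑ i ∈ Finset.range ρ, op P i (lbar P f) z) with hW
  have hQk : ∀ k, Qk μ P f (m + ρ) k ≤ Qk μ P f m k + av μ (fun b => om P f k b * W b) := by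
    intro k
    have : av μ (fun b => om P f k b * Ak P f (m + ρ) k b) ≤
        av μ (fun b => om P f k b * Ak P f m k b + om P f k b * W b) := by
      refine hL.av_mono _ _ (fun b => ?_)
      rw [← mul_add]
      exact mul_le_mul_of_nonneg_left (hA k b) (hom k b)
    unfold Qk
    refine this.trans (le_of_eq ?_)
    unfold av
    rw [← Finset.sum_add_distrib]
    exact Finset.sum_congr rfl (fun x _ => by ring)
  have hsumk : ∑ k, av μ (fun b => om P f k b * W b) = av μ (fun b => lbar P f b * W b) := by
    unfold av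
    rw [Finset.sum_comm]
    refine Finset.sum_congr rfl (fun x _ => ?_)
    beta_reduce
    rw [← hsum x, Finset.sum_mul, Finset.mul_sum]
  have hWeq : ∀ b, W b = ∑ i ∈ Finset.range ρ, op P (m + i) (lbar P f) b := by
    intro b
    rw [hW, hL.op_sum ℕ (Finset.range ρ) m (fun i => op P i (lbar P f)) b]
    refine Finset.sum_congr rfl (fun i _ => ?_)
    rw [hL.op_op]
  have hone : ∀ j, av μ (fun b => lbar P f b * op P j (lbar P f) b) ≤ U μ P f := by
    intro j
    have c := hL.av_cs (lbar P f) (op P j (lbar P f))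
    have d : av μ (fun x => op P j (lbar P f) x ^ 2) ≤ av μ (fun x => lbar P f x ^ 2) := by
      calc av μ (fun x => op P j (lbar P f) x ^ 2)
          ≤ av μ (op P j (fun y => lbar P f y ^ 2)) := hL.av_mono _ _ (fun x => hL.sq_op j _ x)
        _ = _ := hL.av_op j _
    have d' := Real.sqrt_le_sqrt d
    have nn : 0 ≤ av μ (fun x => lbar P f x ^ 2) := by
      unfold av
      exact Finset.sum_nonneg (fun x _ => mul_nonneg (hL.mu_nonneg x) (sq_nonneg _))
    calc av μ (fun b => lbar P f b * op P j (lbar P f) b)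
        ≤ Real.sqrt (av μ (fun x => lbar P f x ^ 2)) *
            Real.sqrt (av μ (fun x => op P j (lbar P f) x ^ 2)) := c
      _ ≤ Real.sqrt (av μ (fun x => lbar P f x ^ 2)) *
            Real.sqrt (av μ (fun x => lbar P f x ^ 2)) :=
          mul_le_mul_of_nonneg_left d' (Real.sqrt_nonneg _)
      _ = av μ (fun x => lbar P f x ^ 2) := Real.mul_self_sqrt nn
      _ ≤ U μ P f := hlb2
  have hlast : av μ (fun b => lbar P f b * W b) ≤ ρ * U μ P f := by
    have : av μ (fun b => lbar P f b * W b) =
        ∑ i ∈ Finset.range ρ, av μ (fun b => lbar P f b * op P (m + i) (lbar P f) b) := by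
      unfold av
      rw [Finset.sum_comm]
      refine Finset.sum_congr rfl (fun x _ => ?_)
      beta_reduce
      rw [hWeq x, Finset.mul_sum, Finset.mul_sum]
    rw [this]
    calc ∑ i ∈ Finset.range ρ, av μ (fun b => lbar P f b * op P (m + i) (lbar P f) b)
        ≤ ∑ i ∈ Finset.range ρ, U μ P f := Finset.sum_le_sum (fun i _ => hone (m + i))
      _ = ρ * U μ P f := by rw [Finset.sum_const, Finset.card_range, nsmul_eq_mul]
  unfold Qsum
  calc ∑ k, Qk μ P f (m + ρ) k
      ≤ ∑ k, (Qk μ P f m k + av μ (fun b => om P f k b * W b)) :=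
        Finset.sum_le_sum (fun k _ => hQk k)
    _ = ∑ k, Qk μ P f m k + av μ (fun b => lbar P f b * W b) := by
        rw [Finset.sum_add_distrib, hsumk]
    _ ≤ _ := by linarith

end Vale.Agent.P125.Poly
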