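import Mathlib
import Vale.Agent.P125.Poly.Defs58
import Vale.Agent.P125.Poly.Lib_16
import Vale.Agent.P125.Poly.Own_33
import Vale.Agent.P125.Poly.OwnT_27
import Vale.Agent.P125.Poly.Tel_68
import Vale.Agent.P125.Poly.Small_93
import Vale.Agent.P125.Poly.Col_85
import Vale.Agent.P125.Poly.Two_98
import Vale.Agent.P125.Poly.Triv1_69
import Vale.Agent.P125.Poly.Triv2_85
import Vale.Agent.P125.Poly.Sqrt_51
import Vale.Agent.P125.Poly.Rem_98
import Vale.Agent.P125.Poly.Blk_89
import Vale.Agent.P125.Poly.Dual_67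
import Vale.Agent.P125.Poly.Down_73
import Vale.Agent.P125.Poly.Back_88
import Vale.Agent.P125.Poly.En_30
import Vale.Agent.P125.Poly.BB_38
import Vale.Agent.P125.Poly.Xi_87
import Vale.Agent.P125.Poly.R_14
import Vale.Agent.P125.Poly.Q_98
import Vale.Agent.P125.Poly.Glue_98
import Vale.Agent.P125.Poly.Wrap_75

/-! P125 Poly: assembly of the 22 pieces of helper58's skeleton (helper98). -/

namespace Vale.Agent.P125.Poly

open scoped BigOperators
open Vale.Agent.P125.Dich

theorem stCore_98 : StCore := by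
  have hLib : StLib := stLib_16
  have hOwn : StOwn := stOwn_33
  have hOwnT : StOwnT := stOwnT_27 hOwn
  have hTel : StTel := stTel_68
  have hs : StSmall := stSmall_93
  have hCol : StCol := stCol_85 hs
  have hTwo : StTwo := stTwo_98 hOwn hTel hCol hs
  have hT1 : StTriv1 := stTriv1_69 hs
  have hT2 : StTriv2 := stTriv2_85 hs
  have hSq : StSqrt := stSqrt_51
  have hRem : StRem := stRem_98 hs hT1
  have hBlk : StBlk := stBlk_89 hLib hs hT2 hSq
  have hDual : StDual := stDual_67
  have hDown : StDown := stDown_73 hOwnT hs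
  have hBack : StBack := stBack_88 hs
  have hEn : StEn := stEn_30
  have hBB : StBB := stBB_38 hs
  have hXi : StXi := stXi_87 hs hEn hBB
  have hR : StR := stR_14 hs hDual hDown hBack hXi
  have hQ : StQ := stQ_98 hs hRem hBlk hR
  exact stCoreG_98 hLib hTwo hQ hs

/-- polynomial rate `t^(11/6)` for the summing operators, plain statement -/
theorem poly_rate_98 : ∀ t : ℕ, 1 ≤ t →
    ∀ (n : ℕ) (S : Type) [Fintype S] [DecidableEq S] (μ : S → ℝ) (P : Matrix S S ℝ),
      (∀ i, 0 ≤ μ i) → ∑ i, μ i = 1 → (∀ i j, 0 ≤ P i j) → (∀ i, ∑ j, P i j = 1) →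
      (∀ i j, μ i * P i j = μ j * P j i) → ∀ f : S → Fin n → ℝ,
        ∑ i, ∑ j, μ i * (P ^ t) i j *
            (Finset.univ.sup' Finset.univ_nonempty (fun k : Fin (n + 1) =>
              |∑ l : Fin n, if l.val < k.val then f j l - f i l else 0|)) ^ 2 ≤
          24 * (t : ℝ) ^ (11 / 6 : ℝ) *
            ∑ i, ∑ j, μ i * P i j * (∑ l : Fin n, |f j l - f i l|) ^ 2 :=
  stWrap_75 stCore_98

end Vale.Agent.P125.Poly

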