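import Mathlib

set_option linter.unusedSectionVars false
set_option linter.unusedVariables false

/-!
# P125, polynomial rate: the block lemma in kernel form (no path space)

`R` is a stochastic matrix, `F` a function, `h = R F - F`, `V z = ∑ w, R z w (F w - F z)^2`.  Then
`∑ z, R^m y z |F z - c| ≤ sqrt ((F y - c)^2 + ∑_{i<m} (R^i V) y) + ∑_{i<m} (R^i |h|) y`.
-/

namespace Vale.Agent.P125.Poly4

open scoped BigOperators
open Finset

variable {S : Type} [Fintype S] [DecidableEq S]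

/-- the function `R ^ i g` -/
def kp (R : Matrix S S ℝ) (i : ℕ) (g : S → ℝ) (y : S) : ℝ := ∑ w, (R ^ i) y w * g w

lemma kp_zero (R : Matrix S S ℝ) (g : S → ℝ) (y : S) : kp R 0 g y = g y := by
  unfold kp
  simp [Matrix.one_apply]

lemma kp_succ (R : Matrix S S ℝ) (i : ℕ) (g : S → ℝ) (y : S) :
    kp R (i + 1) g y = ∑ w, R y w * kp R i g w := by
  unfold kp
  simp_rw [pow_succ', Matrix.mul_apply, Finset.sum_mul, Finset.mul_sum]
  rw [Finset.sum_comm]
  refine Finset.sum_congr rfl fun w _ => Finset.sum_congr rfl fun z _ => ?_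
  ring

lemma sqrt_jensen (p a : S → ℝ) (hp : ∀ w, 0 ≤ p w) (hp1 : ∑ w, p w = 1) (ha : ∀ w, 0 ≤ a w) :
    ∑ w, p w * Real.sqrt (a w) ≤ Real.sqrt (∑ w, p w * a w) := by
  have h := (Real.strictConcaveOn_sqrt.concaveOn).le_map_sum (t := Finset.univ) (w := p) (p := a)
    (fun i _ => hp i) hp1 (fun i _ => ha i)
  simpa [smul_eq_mul] using h

lemma sqrt_shift (x b s : ℝ) (hs : 0 ≤ s) :
    Real.sqrt ((x + b) ^ 2 + s) ≤ Real.sqrt (x ^ 2 + s) + |b| := by
  have h0 : 0 ≤ Real.sqrt (x ^ 2 + s) + |b| := by positivity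
  rw [Real.sqrt_le_left h0] 
  have h1 : Real.sqrt (x ^ 2 + s) ^ 2 = x ^ 2 + s := Real.sq_sqrt (by positivity)
  have h2 : |x| ≤ Real.sqrt (x ^ 2 + s) := by
    rw [← Real.sqrt_sq_eq_abs]
    exact Real.sqrt_le_sqrt (by linarith)
  have h3 : x * b ≤ |x| * |b| := by
    rw [← abs_mul]
    exact le_abs_self _
  have h4 : |x| * |b| ≤ Real.sqrt (x ^ 2 + s) * |b| :=
    mul_le_mul_of_nonneg_right h2 (abs_nonneg b)
  have h5 : |b| ^ 2 = b ^ 2 := sq_abs b
  nlinarith

/-- **the block lemma** -/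
theorem block (R : Matrix S S ℝ) (h0 : ∀ i j, 0 ≤ R i j) (h1 : ∀ i, ∑ j, R i j = 1) (F : S → ℝ)
    (V h : S → ℝ) (hV : ∀ z, V z = ∑ w, R z w * (F w - F z) ^ 2)
    (hh : ∀ z, h z = ∑ w, R z w * F w - F z) (m : ℕ) :
    ∀ (y : S) (c : ℝ), ∑ z, (R ^ m) y z * |F z - c| ≤
      Real.sqrt ((F y - c) ^ 2 + ∑ i ∈ range m, kp R i V y)
        + ∑ i ∈ range m, kp R i (fun w => |h w|) y := by
  have hV0 : ∀ z, 0 ≤ V z := by
    intro z
    rw [hV]
    exact Finset.sum_nonneg fun w _ => mul_nonneg (h0 z w) (sq_nonneg _)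
  have hkp0 : ∀ (i : ℕ) (y : S), 0 ≤ kp R i V y := by
    intro i
    induction i with
    | zero => intro y; rw [kp_zero]; exact hV0 y
    | succ i ih =>
      intro y
      rw [kp_succ]
      exact Finset.sum_nonneg fun w _ => mul_nonneg (h0 y w) (ih w)
  induction m with
  | zero =>
    intro y c
    simp only [pow_zero, Finset.range_zero, Finset.sum_empty, add_zero]
    rw [Real.sqrt_sq_eq_abs]
    simp [Matrix.one_apply]
  | succ m ih =>
    intro y c
    have e1 : ∑ z, (R ^ (m + 1)) y z * |F z - c| = ∑ w, R y w * ∑ z, (R ^ m) w z * |F z - c| :=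
      kp_succ R m (fun z => |F z - c|) y
    rw [e1]
    have e2 : ∑ w, R y w * ∑ z, (R ^ m) w z * |F z - c| ≤
        ∑ w, R y w * (Real.sqrt ((F w - c) ^ 2 + ∑ i ∈ range m, kp R i V w)
          + ∑ i ∈ range m, kp R i (fun w => |h w|) w) :=
      Finset.sum_le_sum fun w _ => mul_le_mul_of_nonneg_left (ih w c) (h0 y w)
    refine le_trans e2 ?_
    simp_rw [mul_add]
    rw [Finset.sum_add_distrib]
    have e3 : ∑ w, R y w * Real.sqrt ((F w - c) ^ 2 + ∑ i ∈ range m, kp R i V w) ≤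
        Real.sqrt (∑ w, R y w * ((F w - c) ^ 2 + ∑ i ∈ range m, kp R i V w)) :=
      sqrt_jensen (R y) _ (h0 y) (h1 y)
        (fun w => add_nonneg (sq_nonneg _) (Finset.sum_nonneg fun i _ => hkp0 i w))
    have e4 : ∑ w, R y w * ((F w - c) ^ 2 + ∑ i ∈ range m, kp R i V w) ≤
        (F y - c + h y) ^ 2 + ∑ i ∈ range (m + 1), kp R i V y := by
      simp_rw [mul_add]
      rw [Finset.sum_add_distrib, Finset.sum_range_succ', kp_zero]
      have a1 : ∑ w, R y w * ∑ i ∈ range m, kp R i V w = ∑ i ∈ range m, kp R (i + 1) V y := by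
        simp_rw [kp_succ, Finset.mul_sum]
        rw [Finset.sum_comm]
      have a2 : ∑ w, R y w * (F w - c) ^ 2 = V y + (F y - c + h y) ^ 2 - h y ^ 2 := by
        have b1 : ∀ w, R y w * (F w - c) ^ 2 = R y w * (F w - F y) ^ 2
            + 2 * (F y - c) * (R y w * F w) + ((F y - c) ^ 2 - 2 * (F y - c) * F y) * R y w := by
          intro w
          ring
        simp_rw [b1]
        rw [Finset.sum_add_distrib, Finset.sum_add_distrib, ← Finset.mul_sum, ← Finset.mul_sum,
          h1 y, ← hV y]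
        have b2 : ∑ w, R y w * F w = h y + F y := by
          rw [hh y]
          ring
        rw [b2]
        ring
      rw [a1, a2]
      nlinarith [sq_nonneg (h y)]
    have e5 : Real.sqrt ((F y - c + h y) ^ 2 + ∑ i ∈ range (m + 1), kp R i V y) ≤
        Real.sqrt ((F y - c) ^ 2 + ∑ i ∈ range (m + 1), kp R i V y) + |h y| :=
      sqrt_shift _ _ _ (Finset.sum_nonneg fun i _ => hkp0 i y)
    have e6 : ∑ w, R y w * ∑ i ∈ range m, kp R i (fun w => |h w|) w + |h y| =
        ∑ i ∈ range (m + 1), kp R i (fun w => |h w|) y := by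
      rw [Finset.sum_range_succ', kp_zero]
      congr 1
      simp_rw [kp_succ, Finset.mul_sum]
      rw [Finset.sum_comm]
    have e7 := Real.sqrt_le_sqrt e4
    linarith

end Vale.Agent.P125.Poly4
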