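import Vale.Agent.P125.BV.Top
import Vale.Agent.P125.Poly.Api75
import Vale.Agent.P125.Poly.Block_4

set_option linter.unusedSectionVars false
set_option linter.unusedVariables false

/-!
# P125, polynomial rate: application of the block lemma (bound of `Q r`)
-/

namespace Vale.Agent.P125.Poly23

open scoped BigOperators
open Vale.Agent.P125.Dich Vale.Agent.P125.BV Vale.Agent.P125.Poly75 Vale.Agent.P125.Poly4

variable {S : Type} [Fintype S] [DecidableEq S] {n : ℕ}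

/-- the one step energy in the `ℓ_1` norm -/
def W (μ : S → ℝ) (P : Matrix S S ℝ) (f : S → Fin n → ℝ) : ℝ :=
  ∑ a, ∑ b, μ a * P a b * n1 (f b - f a) ^ 2

/-- the mean size of the coordinate `k` of a step from `y` -/
def aK (P : Matrix S S ℝ) (f : S → Fin n → ℝ) (k : Fin n) (y : S) : ℝ :=
  ∑ b, P y b * |f b k - f y k|

/-- the mean `ℓ_1` size of a step from `y` -/
def lb (P : Matrix S S ℝ) (f : S → Fin n → ℝ) (y : S) : ℝ := ∑ b, P y b * n1 (f b - f y)

/-- the selector quantity -/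
def Q (μ : S → ℝ) (P : Matrix S S ℝ) (f : S → Fin n → ℝ) (r : ℕ) : ℝ :=
  ∑ k : Fin n, ∑ y, μ y * aK P f k y * ∑ z, (P ^ r) y z * |pre (f z - f y) (k.val + 1)|

/-- the drift over a block of length `τ` of the sum of the first `j` coordinates -/
def hk (P : Matrix S S ℝ) (f : S → Fin n → ℝ) (τ j : ℕ) (z : S) : ℝ :=
  op (P ^ τ) (fun w => pre (f w) j) z - pre (f z) j

/-- the drift quantity -/
def Rs (μ : S → ℝ) (P : Matrix S S ℝ) (f : S → Fin n → ℝ) (τ s : ℕ) : ℝ :=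
  ∑ k : Fin n, ∑ y, μ y * aK P f k y * op (P ^ s) (fun z => |hk P f τ (k.val + 1) z|) y

lemma pre_sub (u v : Fin n → ℝ) (j : ℕ) : pre (u - v) j = pre u j - pre v j := by
  have h : u - v = u + (-v) := sub_eq_add_neg u v
  rw [h, pre_add, pre_neg]
  simp [sub_eq_add_neg]

lemma sum_aK (P : Matrix S S ℝ) (f : S → Fin n → ℝ) (y : S) : ∑ k, aK P f k y = lb P f y := by
  unfold aK lb n1
  rw [Finset.sum_comm]
  refine Finset.sum_congr rfl fun b _ => ?_
  rw [Finset.mul_sum]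
  rfl

lemma aK_nonneg {μ : S → ℝ} {P : Matrix S S ℝ} (hc : IsChain μ P) (f : S → Fin n → ℝ) (k : Fin n)
    (y : S) : 0 ≤ aK P f k y :=
  Finset.sum_nonneg fun b _ => mul_nonneg (hc.2.2.1 y b) (abs_nonneg _)

lemma lb_nonneg {μ : S → ℝ} {P : Matrix S S ℝ} (hc : IsChain μ P) (f : S → Fin n → ℝ)
    (y : S) : 0 ≤ lb P f y :=
  Finset.sum_nonneg fun b _ => mul_nonneg (hc.2.2.1 y b) (n1_nonneg _)

lemma W_nonneg {μ : S → ℝ} {P : Matrix S S ℝ} (hc : IsChain μ P) (f : S → Fin n → ℝ) :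
    0 ≤ W μ P f := U_nonneg μ P hc f

/-- the mean `ℓ_1` displacement after `ρ` steps, squared, is at most `ρ ^ 2 W` in mean -/
lemma ip_B_le {μ : S → ℝ} {P : Matrix S S ℝ} (hc : IsChain μ P) (f : S → Fin n → ℝ) (ρ : ℕ) :
    ip μ (fun w => ∑ z, (P ^ ρ) w z * n1 (f z - f w)) (fun w => ∑ z, (P ^ ρ) w z * n1 (f z - f w))
      ≤ (ρ : ℝ) ^ 2 * W μ P f := by
  refine le_trans ?_ (n1_triv ρ μ P hc f)
  unfold ip
  refine Finset.sum_le_sum fun w _ => ?_
  have hcρ := isChain_pow hc ρ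
  have h := op_sq_le hcρ (fun z => n1 (f z - f w)) w
  unfold op at h
  rw [mul_assoc, ← pow_two]
  calc μ w * (∑ z, (P ^ ρ) w z * n1 (f z - f w)) ^ 2
      ≤ μ w * ∑ z, (P ^ ρ) w z * n1 (f z - f w) ^ 2 := mul_le_mul_of_nonneg_left h (hc.1 w)
    _ = ∑ z, μ w * (P ^ ρ) w z * n1 (f z - f w) ^ 2 := by
        rw [Finset.mul_sum]
        exact Finset.sum_congr rfl fun z _ => by ring

lemma ip_lb_le {μ : S → ℝ} {P : Matrix S S ℝ} (hc : IsChain μ P) (f : S → Fin n → ℝ) :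
    ip μ (lb P f) (lb P f) ≤ W μ P f := by
  have h := ip_B_le hc f 1
  simp only [pow_one, Nat.cast_one, one_pow, one_mul] at h
  exact h

/-- weighted sums over the coordinates of a bound that does not depend on the coordinate -/
lemma sum_aK_mul (μ : S → ℝ) (P : Matrix S S ℝ) (f : S → Fin n → ℝ) (G : S → ℝ) :
    ∑ k : Fin n, ∑ y, μ y * aK P f k y * G y = ip μ (lb P f) G := by
  unfold ip
  rw [Finset.sum_comm]
  refine Finset.sum_congr rfl fun y _ => ?_
  rw [← sum_aK, Finset.mul_sum, Finset.sum_mul]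

/-- the mean square `ℓ_1` displacement over a block -/
def Vs (P : Matrix S S ℝ) (f : S → Fin n → ℝ) (τ : ℕ) (z : S) : ℝ :=
  ∑ w, (P ^ τ) z w * n1 (f w - f z) ^ 2

/-- the mean `ℓ_1` displacement over `ρ` steps -/
def Bρ (P : Matrix S S ℝ) (f : S → Fin n → ℝ) (ρ : ℕ) (w : S) : ℝ :=
  ∑ z, (P ^ ρ) w z * n1 (f z - f w)

lemma Vs_nonneg {μ : S → ℝ} {P : Matrix S S ℝ} (hc : IsChain μ P) (f : S → Fin n → ℝ) (τ : ℕ)
    (z : S) : 0 ≤ Vs P f τ z :=
  Finset.sum_nonneg fun w _ => mul_nonneg ((isChain_pow hc τ).2.2.1 z w) (sq_nonneg _)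

lemma point {μ : S → ℝ} {P : Matrix S S ℝ} (hc : IsChain μ P) (f : S → Fin n → ℝ)
    (τ m ρ j : ℕ) (y : S) :
    ∑ z, (P ^ (m * τ + ρ)) y z * |pre (f z - f y) j| ≤
      Real.sqrt (∑ i ∈ Finset.range m, op ((P ^ τ) ^ i) (Vs P f τ) y)
        + ∑ i ∈ Finset.range m, op ((P ^ τ) ^ i) (fun w => |hk P f τ j w|) y
        + op (P ^ (m * τ)) (Bρ P f ρ) y := by
  have hcρ := isChain_pow hc ρ
  have hcτ := isChain_pow hc τ
  have hcm := isChain_pow hc (m * τ)
  set F : S → ℝ := fun z => pre (f z) j with hF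
  have e0 : ∀ z w, pre (f z - f w) j = F z - F w := fun z w => pre_sub _ _ _
  have h1 : ∑ z, (P ^ (m * τ + ρ)) y z * |pre (f z - f y) j|
      = op (P ^ (m * τ)) (op (P ^ ρ) (fun z => |F z - F y|)) y := by
    rw [← op_pow_add]
    unfold op
    exact Finset.sum_congr rfl fun z _ => by rw [e0]
  have h2 : ∀ w, op (P ^ ρ) (fun z => |F z - F y|) w ≤ |F w - F y| + Bρ P f ρ w := by
    intro w
    have a1 : op (P ^ ρ) (fun z => |F z - F y|) w
        ≤ op (P ^ ρ) (fun z => n1 (f z - f w) + |F w - F y|) w := by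
      apply op_mono hcρ
      intro z
      have b1 : |F z - F y| ≤ |F z - F w| + |F w - F y| := by
        have : F z - F y = (F z - F w) + (F w - F y) := by ring
        rw [this]
        exact abs_add_le _ _
      have b2 : |F z - F w| ≤ n1 (f z - f w) := by
        rw [← e0]
        exact abs_pre_le _ _
      linarith
    rw [op_add, op_const hcρ] at a1
    unfold Bρ
    unfold op at a1 ⊢
    linarith
  have h3 : op (P ^ (m * τ)) (op (P ^ ρ) (fun z => |F z - F y|)) y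
      ≤ op (P ^ (m * τ)) (fun w => |F w - F y|) y + op (P ^ (m * τ)) (Bρ P f ρ) y := by
    rw [← op_add]
    exact op_mono hcm h2 y
  have h4 : op (P ^ (m * τ)) (fun w => |F w - F y|) y
      = ∑ z, ((P ^ τ) ^ m) y z * |F z - F y| := by
    rw [mul_comm m τ, pow_mul]
    rfl
  have hb := block (P ^ τ) hcτ.2.2.1 hcτ.2.2.2.1 F
    (fun z => ∑ w, (P ^ τ) z w * (F w - F z) ^ 2) (fun z => hk P f τ j z)
    (fun z => rfl) (fun z => rfl) m y (F y)
  have h5 : ∀ i, kp (P ^ τ) i (fun z => ∑ w, (P ^ τ) z w * (F w - F z) ^ 2) y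
      ≤ op ((P ^ τ) ^ i) (Vs P f τ) y := by
    intro i
    have hci := isChain_pow hcτ i
    apply op_mono hci
    intro z
    unfold Vs
    refine Finset.sum_le_sum fun w _ => mul_le_mul_of_nonneg_left ?_ (hcτ.2.2.1 z w)
    rw [← e0, ← sq_abs]
    exact pow_le_pow_left₀ (abs_nonneg _) (abs_pre_le _ _) 2
  have h6 : Real.sqrt ((F y - F y) ^ 2 + ∑ i ∈ Finset.range m,
      kp (P ^ τ) i (fun z => ∑ w, (P ^ τ) z w * (F w - F z) ^ 2) y)
      ≤ Real.sqrt (∑ i ∈ Finset.range m, op ((P ^ τ) ^ i) (Vs P f τ) y) := by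
    apply Real.sqrt_le_sqrt
    rw [sub_self]
    have := Finset.sum_le_sum (fun i (_ : i ∈ Finset.range m) => h5 i)
    simpa using this
  have h7 : ∑ i ∈ Finset.range m, kp (P ^ τ) i (fun w => |hk P f τ j w|) y
      = ∑ i ∈ Finset.range m, op ((P ^ τ) ^ i) (fun w => |hk P f τ j w|) y := rfl
  rw [h1]
  rw [h4] at h3
  linarith

theorem Q_le {μ : S → ℝ} {P : Matrix S S ℝ} (hc : IsChain μ P) (f : S → Fin n → ℝ)
    (τ m ρ : ℕ) (hρ : ρ ≤ τ) :
    Q μ P f (m * τ + ρ) ≤ (Real.sqrt m * τ + τ) * W μ P f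
      + ∑ i ∈ Finset.range m, Rs μ P f τ (τ * i) := by
  have hW := W_nonneg hc f
  have hcτ := isChain_pow hc τ
  have hcm := isChain_pow hc (m * τ)
  set G1 : S → ℝ := fun y => Real.sqrt (∑ i ∈ Finset.range m, op ((P ^ τ) ^ i) (Vs P f τ) y)
    with hG1
  set G3 : S → ℝ := fun y => op (P ^ (m * τ)) (Bρ P f ρ) y with hG3
  have step1 : Q μ P f (m * τ + ρ) ≤ ∑ k : Fin n, ∑ y, (μ y * aK P f k y * G1 y
      + μ y * aK P f k y * ∑ i ∈ Finset.range m,
          op ((P ^ τ) ^ i) (fun w => |hk P f τ (k.val + 1) w|) y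
      + μ y * aK P f k y * G3 y) := by
    unfold Q
    refine Finset.sum_le_sum fun k _ => Finset.sum_le_sum fun y _ => ?_
    have h := point hc f τ m ρ (k.val + 1) y
    have h0 : 0 ≤ μ y * aK P f k y := mul_nonneg (hc.1 y) (aK_nonneg hc f k y)
    have := mul_le_mul_of_nonneg_left h h0
    calc _ ≤ _ := this
      _ = _ := by ring
  have step2 : ∑ k : Fin n, ∑ y, (μ y * aK P f k y * G1 y
      + μ y * aK P f k y * ∑ i ∈ Finset.range m,
          op ((P ^ τ) ^ i) (fun w => |hk P f τ (k.val + 1) w|) y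
      + μ y * aK P f k y * G3 y)
      = ip μ (lb P f) G1 + ∑ i ∈ Finset.range m, Rs μ P f τ (τ * i) + ip μ (lb P f) G3 := by
    have mid : ∑ k : Fin n, ∑ y, μ y * aK P f k y * ∑ i ∈ Finset.range m,
          op ((P ^ τ) ^ i) (fun w => |hk P f τ (k.val + 1) w|) y
        = ∑ i ∈ Finset.range m, Rs μ P f τ (τ * i) := by
      unfold Rs
      calc ∑ k : Fin n, ∑ y, μ y * aK P f k y * ∑ i ∈ Finset.range m,
            op ((P ^ τ) ^ i) (fun w => |hk P f τ (k.val + 1) w|) y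
          = ∑ k : Fin n, ∑ y, ∑ i ∈ Finset.range m, μ y * aK P f k y *
            op ((P ^ τ) ^ i) (fun w => |hk P f τ (k.val + 1) w|) y := by
            simp only [Finset.mul_sum]
        _ = ∑ k : Fin n, ∑ i ∈ Finset.range m, ∑ y, μ y * aK P f k y *
            op ((P ^ τ) ^ i) (fun w => |hk P f τ (k.val + 1) w|) y :=
            Finset.sum_congr rfl fun k _ => Finset.sum_comm
        _ = ∑ i ∈ Finset.range m, ∑ k : Fin n, ∑ y, μ y * aK P f k y *
            op ((P ^ τ) ^ i) (fun w => |hk P f τ (k.val + 1) w|) y := Finset.sum_comm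
        _ = _ := by simp only [pow_mul]
    simp only [Finset.sum_add_distrib]
    rw [sum_aK_mul, sum_aK_mul, mid]
  have hlb : Real.sqrt (ip μ (lb P f) (lb P f)) ≤ Real.sqrt (W μ P f) :=
    Real.sqrt_le_sqrt (ip_lb_le hc f)
  -- first term
  have t1 : ip μ (lb P f) G1 ≤ Real.sqrt m * τ * W μ P f := by
    have a1 := ip_le_sqrt hc (lb P f) G1
    have a2 : ip μ G1 G1 ≤ (m : ℝ) * (τ : ℝ) ^ 2 * W μ P f := by
      have b1 : ip μ G1 G1 = ∑ y, μ y * ∑ i ∈ Finset.range m, op ((P ^ τ) ^ i) (Vs P f τ) y := by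
        unfold ip
        refine Finset.sum_congr rfl fun y _ => ?_
        rw [mul_assoc, hG1]
        simp only
        rw [Real.mul_self_sqrt]
        exact Finset.sum_nonneg fun i _ =>
          op_nonneg (isChain_pow hcτ i) (Vs_nonneg hc f τ) y
      have b2 : ∑ y, μ y * ∑ i ∈ Finset.range m, op ((P ^ τ) ^ i) (Vs P f τ) y
          = ∑ i ∈ Finset.range m, ∑ y, μ y * Vs P f τ y := by
        simp only [Finset.mul_sum]
        rw [Finset.sum_comm]
        refine Finset.sum_congr rfl fun i _ => ?_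
        exact sum_op (isChain_pow hcτ i) (Vs P f τ)
      have b3 : ∑ y, μ y * Vs P f τ y ≤ (τ : ℝ) ^ 2 * W μ P f := by
        refine le_trans (le_of_eq ?_) (n1_triv τ μ P hc f)
        refine Finset.sum_congr rfl fun y _ => ?_
        unfold Vs
        rw [Finset.mul_sum]
        exact Finset.sum_congr rfl fun z _ => by ring
      rw [b1, b2, Finset.sum_const, Finset.card_range, nsmul_eq_mul]
      have : (m : ℝ) * ∑ y, μ y * Vs P f τ y ≤ (m : ℝ) * ((τ : ℝ) ^ 2 * W μ P f) :=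
        mul_le_mul_of_nonneg_left b3 (Nat.cast_nonneg m)
      linarith
    have a3 : Real.sqrt (ip μ G1 G1) ≤ Real.sqrt ((m : ℝ) * (τ : ℝ) ^ 2 * W μ P f) :=
      Real.sqrt_le_sqrt a2
    have a4 : Real.sqrt (W μ P f) * Real.sqrt ((m : ℝ) * (τ : ℝ) ^ 2 * W μ P f)
        = Real.sqrt m * τ * W μ P f := by
      rw [← Real.sqrt_mul hW]
      have : W μ P f * ((m : ℝ) * (τ : ℝ) ^ 2 * W μ P f) = (m : ℝ) * ((τ : ℝ) * W μ P f) ^ 2 := by
        ring
      rw [this, Real.sqrt_mul (Nat.cast_nonneg m), Real.sqrt_sq (by positivity)]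
      ring
    calc ip μ (lb P f) G1 ≤ Real.sqrt (ip μ (lb P f) (lb P f)) * Real.sqrt (ip μ G1 G1) := a1
      _ ≤ Real.sqrt (W μ P f) * Real.sqrt ((m : ℝ) * (τ : ℝ) ^ 2 * W μ P f) :=
          mul_le_mul hlb a3 (Real.sqrt_nonneg _) (Real.sqrt_nonneg _)
      _ = _ := a4
  -- third term
  have t3 : ip μ (lb P f) G3 ≤ τ * W μ P f := by
    have a1 := ip_le_sqrt hc (lb P f) G3
    have a2 : ip μ G3 G3 ≤ (ρ : ℝ) ^ 2 * W μ P f :=
      (ip_op_op_le hcm (Bρ P f ρ)).trans (ip_B_le hc f ρ)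
    have a3 : Real.sqrt (ip μ G3 G3) ≤ Real.sqrt ((ρ : ℝ) ^ 2 * W μ P f) := Real.sqrt_le_sqrt a2
    have a4 : Real.sqrt (W μ P f) * Real.sqrt ((ρ : ℝ) ^ 2 * W μ P f) = ρ * W μ P f := by
      rw [← Real.sqrt_mul hW]
      have : W μ P f * ((ρ : ℝ) ^ 2 * W μ P f) = ((ρ : ℝ) * W μ P f) ^ 2 := by ring
      rw [this, Real.sqrt_sq (by positivity)]
    have a5 : (ρ : ℝ) * W μ P f ≤ τ * W μ P f :=
      mul_le_mul_of_nonneg_right (by exact_mod_cast hρ) hW
    calc ip μ (lb P f) G3 ≤ Real.sqrt (ip μ (lb P f) (lb P f)) * Real.sqrt (ip μ G3 G3) := a1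
      _ ≤ Real.sqrt (W μ P f) * Real.sqrt ((ρ : ℝ) ^ 2 * W μ P f) :=
          mul_le_mul hlb a3 (Real.sqrt_nonneg _) (Real.sqrt_nonneg _)
      _ = _ := a4
      _ ≤ _ := a5
  rw [step2] at step1
  linarith

end Vale.Agent.P125.Poly23
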