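import Vale.Agent.P125.Poly.Api_66

set_option linter.unusedSectionVars false
set_option linter.unusedVariables false

/-! # P125, polynomial rate, path-free form: Cesaro sums, Dirichlet form, own measure (helper66) -/

namespace Vale.Agent.P125.Poly66

open Vale.Agent.P125.Dich
open scoped BigOperators

variable {S : Type} [Fintype S] [DecidableEq S]

/-- `sum_{i<τ} P^i g` -/
def Sm (P : Matrix S S ℝ) (τ : ℕ) (g : S → ℝ) (x : S) : ℝ := ∑ i ∈ Finset.range τ, ap (P ^ i) g x

lemma Sm_tele (P : Matrix S S ℝ) (τ : ℕ) (g : S → ℝ) (x : S) :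
    ap P (Sm P τ g) x - Sm P τ g x = ap (P ^ τ) g x - g x := by
  have e : ap P (Sm P τ g) x = ∑ i ∈ Finset.range τ, ap (P ^ (i + 1)) g x := by
    unfold Sm
    rw [ap_sum]
    exact Finset.sum_congr rfl fun i _ => (ap_pow_succ' P i g x).symm
  rw [e]
  unfold Sm
  rw [← Finset.sum_sub_distrib, Finset.sum_range_sub (fun i => ap (P ^ i) g x), pow_zero, ap_one]

lemma Sm_tele' (P : Matrix S S ℝ) (τ : ℕ) (g : S → ℝ) (x : S) :
    Sm P τ (fun y => ap P g y - g y) x = ap (P ^ τ) g x - g x := by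
  unfold Sm
  have : ∀ i, ap (P ^ i) (fun y => ap P g y - g y) x = ap (P ^ (i + 1)) g x - ap (P ^ i) g x := by
    intro i
    rw [ap_sub, ap_pow_succ]
  simp only [this]
  rw [Finset.sum_range_sub (fun i => ap (P ^ i) g x), pow_zero, ap_one]

lemma Sm_add (P : Matrix S S ℝ) (τ : ℕ) (g h : S → ℝ) (x : S) :
    Sm P τ (fun y => g y + h y) x = Sm P τ g x + Sm P τ h x := by
  unfold Sm
  rw [← Finset.sum_add_distrib]
  exact Finset.sum_congr rfl fun i _ => ap_add _ _ _ _

lemma Sm_smul (P : Matrix S S ℝ) (τ : ℕ) (c : ℝ) (g : S → ℝ) (x : S) :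
    Sm P τ (fun y => c * g y) x = c * Sm P τ g x := by
  unfold Sm
  rw [Finset.mul_sum]
  exact Finset.sum_congr rfl fun i _ => ap_smul _ _ _ _

lemma Sm_sum {ι : Type*} (P : Matrix S S ℝ) (τ : ℕ) (s : Finset ι) (g : ι → S → ℝ) (x : S) :
    Sm P τ (fun y => ∑ i ∈ s, g i y) x = ∑ i ∈ s, Sm P τ (g i) x := by
  unfold Sm
  rw [Finset.sum_comm]
  exact Finset.sum_congr rfl fun i _ => ap_sum _ _ _ _

variable {μ : S → ℝ} {P : Matrix S S ℝ}

lemma Sm_mono (h : IsChain μ P) (τ : ℕ) {g k : S → ℝ} (hg : ∀ y, g y ≤ k y) (x : S) :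
    Sm P τ g x ≤ Sm P τ k x :=
  Finset.sum_le_sum fun i _ => ap_mono (isChain_pow h i) hg x

lemma Sm_nonneg (h : IsChain μ P) (τ : ℕ) {g : S → ℝ} (hg : ∀ y, 0 ≤ g y) (x : S) :
    0 ≤ Sm P τ g x :=
  Finset.sum_nonneg fun i _ => ap_nonneg (isChain_pow h i) hg x

lemma abs_Sm_le (h : IsChain μ P) (τ : ℕ) {g k : S → ℝ} (hg : ∀ y, |g y| ≤ k y) (x : S) :
    |Sm P τ g x| ≤ Sm P τ k x :=
  (Finset.abs_sum_le_sum_abs _ _).trans
    (Finset.sum_le_sum fun i _ => abs_ap_le (isChain_pow h i) hg x)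

lemma itg_Sm (h : IsChain μ P) (τ : ℕ) (g : S → ℝ) : itg μ (Sm P τ g) = τ * itg μ g := by
  have : itg μ (Sm P τ g) = ∑ i ∈ Finset.range τ, itg μ (ap (P ^ i) g) := itg_sum μ _ _
  rw [this, Finset.sum_congr rfl fun i _ => itg_ap (isChain_pow h i) g]
  simp

lemma itg_Sm_mul (h : IsChain μ P) (τ : ℕ) (g k : S → ℝ) :
    itg μ (fun x => g x * Sm P τ k x) = itg μ (fun x => Sm P τ g x * k x) := by
  unfold Sm
  simp only [Finset.mul_sum, Finset.sum_mul]
  rw [itg_sum, itg_sum]
  exact Finset.sum_congr rfl fun i _ => itg_ap_mul (isChain_pow h i) g k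

lemma Sm_sq_le (h : IsChain μ P) (τ : ℕ) (g : S → ℝ) (x : S) :
    Sm P τ g x ^ 2 ≤ τ * Sm P τ (fun y => g y ^ 2) x := by
  refine (sum_sq_le_card τ _).trans (mul_le_mul_of_nonneg_left ?_ (Nat.cast_nonneg τ))
  exact Finset.sum_le_sum fun i _ => ap_sq_le (isChain_pow h i) g x

lemma itg_Sm_sq_le (h : IsChain μ P) (τ : ℕ) (g : S → ℝ) :
    itg μ (fun x => Sm P τ g x ^ 2) ≤ (τ : ℝ) ^ 2 * itg μ (fun x => g x ^ 2) := by
  calc itg μ (fun x => Sm P τ g x ^ 2) ≤ itg μ (fun x => τ * Sm P τ (fun y => g y ^ 2) x) :=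
        itg_mono h (fun x => Sm_sq_le h τ g x)
    _ = τ * itg μ (Sm P τ (fun y => g y ^ 2)) := itg_smul _ _ _
    _ = (τ : ℝ) ^ 2 * itg μ (fun x => g x ^ 2) := by rw [itg_Sm h]; ring

/-- expansion of the edge form at a vertex -/
lemma edge_expand (h : IsChain μ P) (U g : S → ℝ) (a : S) :
    ∑ b, P a b * ((U b - U a) * (g b - g a)) =
      ap P (fun y => U y * g y) a - g a * ap P U a - U a * ap P g a + U a * g a := by
  have h1 : ∑ b, P a b = 1 := h.2.2.2.1 a
  unfold ap
  calc ∑ b, P a b * ((U b - U a) * (g b - g a))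
      = ∑ b, (P a b * (U b * g b) - g a * (P a b * U b) - U a * (P a b * g b)
          + (U a * g a) * P a b) := Finset.sum_congr rfl fun b _ => by ring
    _ = _ := by
        rw [Finset.sum_add_distrib, Finset.sum_sub_distrib, Finset.sum_sub_distrib,
          ← Finset.mul_sum, ← Finset.mul_sum, ← Finset.mul_sum, h1, mul_one]

/-- Dirichlet form identity -/
lemma dirichlet (h : IsChain μ P) (U g : S → ℝ) :
    itg μ (fun x => (ap P U x - U x) * g x) =
      -(1 / 2) * itg μ (fun a => ∑ b, P a b * ((U b - U a) * (g b - g a))) := by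
  have e1 : itg μ (fun a => ∑ b, P a b * ((U b - U a) * (g b - g a))) =
      itg μ (ap P (fun y => U y * g y)) - itg μ (fun a => ap P U a * g a)
        - itg μ (fun a => U a * ap P g a) + itg μ (fun a => U a * g a) := by
    simp only [edge_expand h]
    unfold itg
    rw [← Finset.sum_sub_distrib, ← Finset.sum_sub_distrib, ← Finset.sum_add_distrib]
    exact Finset.sum_congr rfl fun a _ => by ring
  rw [e1, itg_ap h, itg_ap_mul h U g]
  have e2 : itg μ (fun x => (ap P U x - U x) * g x) =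
      itg μ (fun a => ap P U a * g a) - itg μ (fun a => U a * g a) := by
    unfold itg
    rw [← Finset.sum_sub_distrib]
    exact Finset.sum_congr rfl fun a _ => by ring
  rw [e2]
  ring

/-- symmetry of the edge measure -/
lemma edge_symm (h : IsChain μ P) (H : S → S → ℝ) :
    itg μ (fun a => ∑ b, P a b * H a b) = itg μ (fun a => ∑ b, P a b * H b a) := by
  unfold itg
  simp only [Finset.mul_sum]
  rw [Finset.sum_comm]
  refine Finset.sum_congr rfl fun b _ => Finset.sum_congr rfl fun a _ => ?_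
  have := h.2.2.2.2 a b
  calc μ a * (P a b * H a b) = (μ a * P a b) * H a b := by ring
    _ = (μ b * P b a) * H a b := by rw [this]
    _ = μ b * (P b a * H a b) := by ring

/-- own measure lemma, suffix form -/
lemma own_suffix (n : ℕ) (δ : ℕ → ℝ) : ∀ d l, l + d = n →
    (∑ k ∈ Finset.Ico l n, δ k) ^ 2 ≤
      2 * ∑ k ∈ Finset.Ico l n, |δ k| * |∑ j ∈ Finset.Ico k n, δ j| := by
  intro d
  induction d with
  | zero =>
    intro l hl
    have : l = n := by omega
    subst this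
    simp
  | succ d ih =>
    intro l hl
    have hlt : l < n := by omega
    have ih' := ih (l + 1) (by omega)
    rw [Finset.sum_eq_sum_Ico_succ_bot hlt (fun k => |δ k| * |∑ j ∈ Finset.Ico k n, δ j|)]
    have e : ∑ k ∈ Finset.Ico l n, δ k = δ l + ∑ k ∈ Finset.Ico (l + 1) n, δ k :=
      Finset.sum_eq_sum_Ico_succ_bot hlt δ
    set A := ∑ k ∈ Finset.Ico l n, δ k with hA
    set B := ∑ k ∈ Finset.Ico (l + 1) n, δ k with hB
    have h1 : δ l * A ≤ |δ l| * |A| := by
      rw [← abs_mul]; exact le_abs_self _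
    have h2 : δ l = A - B := by rw [e]; ring
    have h3 : A ^ 2 ≤ B ^ 2 + 2 * (δ l * A) := by
      rw [h2]; nlinarith [sq_nonneg (A - B)]
    linarith

lemma own_suffix' (n : ℕ) (δ : ℕ → ℝ) (l : ℕ) :
    (∑ k ∈ Finset.Ico l n, δ k) ^ 2 ≤
      2 * ∑ k ∈ Finset.range n, |δ k| * |∑ j ∈ Finset.Ico k n, δ j| := by
  by_cases hl : l ≤ n
  · refine (own_suffix n δ (n - l) l (by omega)).trans ?_
    refine mul_le_mul_of_nonneg_left ?_ (by norm_num)
    refine Finset.sum_le_sum_of_subset_of_nonneg ?_ (fun k _ _ => by positivity)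
    intro k hk
    simp only [Finset.mem_Ico] at hk
    simp only [Finset.mem_range]
    exact hk.2
  · rw [Finset.Ico_eq_empty (by omega)]
    simp only [Finset.sum_empty]
    have : 0 ≤ ∑ k ∈ Finset.range n, |δ k| * |∑ j ∈ Finset.Ico k n, δ j| :=
      Finset.sum_nonneg fun k _ => by positivity
    nlinarith

/-- own measure lemma, initial segment form -/
lemma own_init (w : ℕ → ℝ) (j : ℕ) :
    (∑ k ∈ Finset.range j, w k) ^ 2 ≤
      2 * ∑ k ∈ Finset.range j, |w k| * |∑ i ∈ Finset.range (k + 1), w i| := by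
  induction j with
  | zero => simp
  | succ j ih =>
    rw [Finset.sum_range_succ (fun k => |w k| * |∑ i ∈ Finset.range (k + 1), w i|)]
    have e : ∑ k ∈ Finset.range (j + 1), w k = ∑ k ∈ Finset.range j, w k + w j :=
      Finset.sum_range_succ _ _
    set A := ∑ k ∈ Finset.range (j + 1), w k with hA
    set B := ∑ k ∈ Finset.range j, w k with hB
    have h1 : w j * A ≤ |w j| * |A| := by
      rw [← abs_mul]; exact le_abs_self _
    have h2 : w j = A - B := by rw [e]; ring
    have h3 : A ^ 2 ≤ B ^ 2 + 2 * (w j * A) := by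
      rw [h2]; nlinarith [sq_nonneg (A - B)]
    linarith

end Vale.Agent.P125.Poly66
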