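import Vale.Agent.P125.Poly.Defs58
import Vale.Agent.P125.Poly.Sm_66

set_option linter.unusedSectionVars false
set_option linter.unusedVariables false

/-! # P125 Poly: StBB (helper66) -/

namespace Vale.Agent.P125.Poly

open scoped BigOperators
open Vale.Agent.P125.Dich
open Vale.Agent.P125.Poly66

theorem stBB_66 (hs : StSmall) : StBB := by
  intro S _ _ μ P h hL n f τ s
  obtain ⟨_, _, hlb0, _, _, hlbU, hU0, _, _, _⟩ := hs S μ P h hL n f
  have hk : ∀ k, IsChain μ (P ^ k) := fun k => isChain_pow h k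
  set L : S → ℝ := LL P f s with hLdef
  have hL0 : ∀ y, 0 ≤ L y := fun y => ap_nonneg (hk s) hlb0 y
  have hA0 : ∀ y, 0 ≤ AA P f τ s y := fun y => Sm_nonneg h τ hL0 y
  have hX0 : ∀ z, 0 ≤ op P τ L z + L z := fun z => add_nonneg (ap_nonneg (hk τ) hL0 z) (hL0 z)
  set N : ℝ := itg μ (fun x => L x ^ 2) with hN
  have hNU : N ≤ U μ P f := (itg_ap_sq_le (hk s) (lbar P f)).trans hlbU
  have hN0 : 0 ≤ N := itg_nonneg h (fun _ => sq_nonneg _)
  constructor
  · intro y
    unfold BB
    refine add_nonneg (ap_nonneg (hk _) (fun z => sq_nonneg _) y) (mul_nonneg (by norm_num) ?_)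
    exact Finset.sum_nonneg fun i _ => ap_nonneg (hk _) (fun z => mul_nonneg (hA0 z) (hX0 z)) y
  · have e : av μ (BB P f τ s) = itg μ (fun z => AA P f τ s z ^ 2) +
        2 * (τ * itg μ (fun z => AA P f τ s z * (op P τ L z + L z))) := by
      have e0 : av μ (BB P f τ s) = itg μ (fun y => ap (P ^ (s + τ)) (fun z => AA P f τ s z ^ 2) y +
          2 * ∑ i ∈ Finset.range τ,
            ap (P ^ (i + s)) (fun z => AA P f τ s z * (op P τ L z + L z)) y) := rfl
      rw [e0, itg_add, itg_smul, itg_sum, itg_ap (hk _)]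
      rw [Finset.sum_congr rfl fun i _ => itg_ap (hk (i + s)) _]
      simp
    rw [e]
    have b1 : itg μ (fun z => AA P f τ s z ^ 2) ≤ (τ : ℝ) ^ 2 * N := itg_Sm_sq_le h τ L
    have b2 : itg μ (fun z => AA P f τ s z * (op P τ L z + L z)) ≤ 2 * τ * N := by
      have e1 : itg μ (fun z => AA P f τ s z * (op P τ L z + L z)) =
          ∑ i ∈ Finset.range τ, itg μ (fun z => ap (P ^ i) L z * (op P τ L z + L z)) := by
        rw [← itg_sum]
        unfold itg
        refine Finset.sum_congr rfl fun z _ => ?_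
        show μ z * ((∑ i ∈ Finset.range τ, ap (P ^ i) L z) * _) = _
        rw [Finset.sum_mul]
      rw [e1]
      have b3 : ∀ i ∈ Finset.range τ,
          itg μ (fun z => ap (P ^ i) L z * (op P τ L z + L z)) ≤ 2 * N := by
        intro i _
        have c1 : itg μ (fun z => ap (P ^ i) L z * (op P τ L z + L z)) ≤
            itg μ (fun z => ap (P ^ i) L z ^ 2 + ((1 / 2) * ap (P ^ τ) L z ^ 2
              + (1 / 2) * L z ^ 2)) := by
          refine itg_mono h fun z => ?_
          show ap (P ^ i) L z * (ap (P ^ τ) L z + L z) ≤ _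
          nlinarith [sq_nonneg (ap (P ^ i) L z - ap (P ^ τ) L z), sq_nonneg (ap (P ^ i) L z - L z)]
        rw [itg_add, itg_add, itg_smul, itg_smul] at c1
        have c2 := itg_ap_sq_le (hk i) L
        have c3 := itg_ap_sq_le (hk τ) L
        linarith
      calc ∑ i ∈ Finset.range τ, itg μ (fun z => ap (P ^ i) L z * (op P τ L z + L z))
          ≤ ∑ i ∈ Finset.range τ, 2 * N := Finset.sum_le_sum b3
        _ = 2 * τ * N := by simp; ring
    have hτ : (0 : ℝ) ≤ τ := Nat.cast_nonneg τ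
    have b4 : (τ : ℝ) * itg μ (fun z => AA P f τ s z * (op P τ L z + L z)) ≤ τ * (2 * τ * N) :=
      mul_le_mul_of_nonneg_left b2 hτ
    have b5 : (τ : ℝ) ^ 2 * N ≤ (τ : ℝ) ^ 2 * U μ P f :=
      mul_le_mul_of_nonneg_left hNU (sq_nonneg _)
    nlinarith

end Vale.Agent.P125.Poly
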