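import Vale.Agent.P125.Poly.Defs58

set_option linter.unusedSectionVars false
set_option linter.unusedVariables false

/-! # P125 Poly: statement BLK (Step 3) -/

namespace Vale.Agent.P125.Poly

open scoped BigOperators
open Vale.Agent.P125.Dich

theorem stBlk_30 (hlib : StLib) (hs : StSmall) (h2 : StTriv2) (h3 : StSqrt) : StBlk := by
  intro S _ _ μ P hc L n f τ J
  obtain ⟨hom0, homsum, hlb0, hl20, havl2, havlb, hU0, hFell, hwsymm, hellsymm⟩ :=
    hs S μ P hc L n f
  have hcR := isChain_pow hc τ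
  have LR := hlib S μ (P ^ τ) hcR
  have hopR : ∀ j (g : S → ℝ), op (P ^ τ) j g = op P (τ * j) g := by
    intro j g
    funext x
    unfold op
    rw [← pow_mul]
  have hop0 : ∀ k (g : S → ℝ), (∀ y, 0 ≤ g y) → ∀ x, 0 ≤ op P k g x := fun k g hg x =>
    Finset.sum_nonneg fun y _ => mul_nonneg (L.pw_nonneg k x y) (hg y)
  set Vs : S → ℝ := fun z => (τ : ℝ) * ∑ i ∈ Finset.range τ, op P i (l2 P f) z with hVs
  set Ws : S → ℝ := fun b => ∑ j ∈ Finset.range J, op P (τ * j) Vs b with hWs
  have hVs0 : ∀ z, 0 ≤ Vs z := fun z =>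
    mul_nonneg (Nat.cast_nonneg τ) (Finset.sum_nonneg fun i _ => hop0 i _ hl20 z)
  have hWs0 : ∀ b, 0 ≤ Ws b := fun b => Finset.sum_nonneg fun j _ => hop0 _ _ hVs0 b
  have hAk : ∀ k b, Ak P f (τ * J) k b ≤ Real.sqrt (Ws b)
      + ∑ j ∈ Finset.range J, op P (τ * j) (fun z => |hh P f τ k z|) b := by
    intro k b
    have key := h3 S μ (P ^ τ) hcR LR (F f k) J 0 b
    simp only [zero_add, hopR] at key
    rw [← pow_mul] at key
    have e1 : (fun z => |∑ y, (P ^ τ) z y * (F f k y - F f k z)|) = fun z => |hh P f τ k z| := by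
      funext z
      congr 1
      unfold hh op
      simp_rw [mul_sub]
      rw [Finset.sum_sub_distrib, ← Finset.sum_mul, L.pw_sum τ z, one_mul]
    rw [e1] at key
    have e2 : (0 : ℝ) ^ 2 + ∑ j ∈ Finset.range J,
        op P (τ * j) (fun z => ∑ y, (P ^ τ) z y * (F f k y - F f k z) ^ 2) b ≤ Ws b := by
      rw [zero_pow two_ne_zero, zero_add]
      refine Finset.sum_le_sum fun j _ => ?_
      exact L.op_mono _ _ _ (fun z => h2 S μ P hc L n f k τ z) b
    have e3 := Real.sqrt_le_sqrt e2
    unfold Ak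
    linarith
  -- sum over k and average
  have step1 : Qsum μ P f (τ * J) ≤ ∑ k, av μ (fun b => om P f k b * (Real.sqrt (Ws b)
      + ∑ j ∈ Finset.range J, op P (τ * j) (fun z => |hh P f τ k z|) b)) := by
    unfold Qsum Qk
    refine Finset.sum_le_sum fun k _ => ?_
    exact L.av_mono _ _ fun b => mul_le_mul_of_nonneg_left (hAk k b) (hom0 k b)
  have step2 : ∑ k, av μ (fun b => om P f k b * (Real.sqrt (Ws b)
      + ∑ j ∈ Finset.range J, op P (τ * j) (fun z => |hh P f τ k z|) b))
      = av μ (fun b => lbar P f b * Real.sqrt (Ws b))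
        + ∑ j ∈ Finset.range J, Rr μ P f τ (τ * j) := by
    unfold Rr av
    have e4 : ∀ k, ∑ x, μ x * (om P f k x * (Real.sqrt (Ws x)
        + ∑ j ∈ Finset.range J, op P (τ * j) (fun z => |hh P f τ k z|) x))
        = ∑ x, μ x * (om P f k x * Real.sqrt (Ws x))
          + ∑ j ∈ Finset.range J, ∑ x, μ x * (om P f k x *
            op P (τ * j) (fun z => |hh P f τ k z|) x) := by
      intro k
      rw [Finset.sum_comm, ← Finset.sum_add_distrib]
      refine Finset.sum_congr rfl fun x _ => ?_
      rw [mul_add, mul_add, Finset.mul_sum, Finset.mul_sum]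
    simp_rw [e4]
    rw [Finset.sum_add_distrib]
    congr 1
    · rw [Finset.sum_comm]
      refine Finset.sum_congr rfl fun x _ => ?_
      rw [← homsum x, Finset.sum_mul, Finset.mul_sum]
    · rw [Finset.sum_comm]
  have step3 : av μ (fun b => lbar P f b * Real.sqrt (Ws b))
      ≤ Real.sqrt J * τ * U μ P f := by
    have cs := L.av_cs (lbar P f) (fun b => Real.sqrt (Ws b))
    have e5 : av μ (fun x => Real.sqrt (Ws x) ^ 2) = (J : ℝ) * (τ : ℝ) ^ 2 * U μ P f := by
      have : (fun x => Real.sqrt (Ws x) ^ 2) = Ws := by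
        funext x
        exact Real.sq_sqrt (hWs0 x)
      rw [this]
      have a1 : av μ Vs = (τ : ℝ) ^ 2 * U μ P f := by
        have : av μ Vs = (τ : ℝ) * ∑ i ∈ Finset.range τ, av μ (op P i (l2 P f)) := by
          unfold av
          rw [Finset.sum_comm, Finset.mul_sum]
          refine Finset.sum_congr rfl fun x _ => ?_
          rw [hVs]
          simp only
          rw [Finset.mul_sum, Finset.mul_sum, Finset.mul_sum]
          exact Finset.sum_congr rfl fun i _ => by ring
        rw [this]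
        simp_rw [L.av_op, havl2]
        rw [Finset.sum_const, Finset.card_range, nsmul_eq_mul]
        ring
      have a2 : av μ Ws = ∑ j ∈ Finset.range J, av μ (op P (τ * j) Vs) := by
        unfold av
        rw [Finset.sum_comm]
        refine Finset.sum_congr rfl fun x _ => ?_
        rw [hWs]
        simp only
        rw [Finset.mul_sum]
      rw [a2]
      simp_rw [L.av_op, a1]
      rw [Finset.sum_const, Finset.card_range, nsmul_eq_mul]
      ring
    rw [e5] at cs
    have e6 : Real.sqrt (av μ (fun x => lbar P f x ^ 2)) ≤ Real.sqrt (U μ P f) :=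
      Real.sqrt_le_sqrt havlb
    have e7 : Real.sqrt ((J : ℝ) * (τ : ℝ) ^ 2 * U μ P f)
        = Real.sqrt J * τ * Real.sqrt (U μ P f) := by
      rw [Real.sqrt_mul (by positivity), Real.sqrt_mul (Nat.cast_nonneg J),
        Real.sqrt_sq (Nat.cast_nonneg τ)]
    rw [e7] at cs
    calc av μ (fun b => lbar P f b * Real.sqrt (Ws b))
        ≤ Real.sqrt (av μ (fun x => lbar P f x ^ 2)) * (Real.sqrt J * τ * Real.sqrt (U μ P f)) := cs
      _ ≤ Real.sqrt (U μ P f) * (Real.sqrt J * τ * Real.sqrt (U μ P f)) :=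
          mul_le_mul_of_nonneg_right e6 (by positivity)
      _ = Real.sqrt J * τ * (Real.sqrt (U μ P f) * Real.sqrt (U μ P f)) := by ring
      _ = Real.sqrt J * τ * U μ P f := by rw [Real.mul_self_sqrt hU0]
  rw [step2] at step1
  linarith

end Vale.Agent.P125.Poly
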