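import Vale.Agent.P125.Poly.Defs58

set_option linter.unusedSectionVars false
set_option linter.unusedVariables false

/-! # P125 Poly: the block step `StBlk` -/

namespace Vale.Agent.P125.Poly

open scoped BigOperators
open Vale.Agent.P125.Dich

theorem stBlk_34 (hlib : StLib) (hs : StSmall) (h2 : StTriv2) (h3 : StSqrt) : StBlk := by
  intro S _ _ μ P hC hL n f τ J
  obtain ⟨hom0, homsum, hlb0, hl20, hl2U, hlbU, hU0, hFell, hwsym, hellsym⟩ := hs S μ P hC hL n f
  have hCR : IsChain μ (P ^ τ) := isChain_pow hC τ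
  have hLR : Lib μ (P ^ τ) := hlib S μ (P ^ τ) hCR
  have hop : ∀ (j : ℕ) (g : S → ℝ), op (P ^ τ) j g = op P (τ * j) g := by
    intro j g
    unfold op
    rw [← pow_mul]
  set Λ : S → ℝ := fun z => ∑ i ∈ Finset.range τ, op P i (l2 P f) z with hΛ
  set Ψ : S → ℝ := fun b => ∑ j ∈ Finset.range J, op P (τ * j) (fun z => (τ : ℝ) * Λ z) b with hΨ
  have hΛ0 : ∀ z, 0 ≤ Λ z := by
    intro z
    refine Finset.sum_nonneg fun i _ => ?_
    have := hL.op_mono i (fun _ => 0) (l2 P f) hl20 z
    rwa [hL.op_const] at this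
  have hΨ0 : ∀ b, 0 ≤ Ψ b := by
    intro b
    refine Finset.sum_nonneg fun j _ => ?_
    have := hL.op_mono (τ * j) (fun _ => 0) (fun z => (τ : ℝ) * Λ z)
      (fun z => mul_nonneg (Nat.cast_nonneg _) (hΛ0 z)) b
    rwa [hL.op_const] at this
  -- pointwise bound
  have hA : ∀ k b, Ak P f (τ * J) k b ≤ Real.sqrt (Ψ b) +
      ∑ j ∈ Finset.range J, op P (τ * j) (fun z => |hh P f τ k z|) b := by
    intro k b
    have h := h3 S μ (P ^ τ) hCR hLR (F f k) J 0 b
    have e1 : ∑ y, ((P ^ τ) ^ J) b y * |0 + F f k y - F f k b| = Ak P f (τ * J) k b := by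
      unfold Ak
      rw [← pow_mul]
      refine Finset.sum_congr rfl fun y _ => ?_
      rw [zero_add]
    rw [e1] at h
    refine h.trans (add_le_add ?_ (le_of_eq ?_))
    · apply Real.sqrt_le_sqrt
      have : (0 : ℝ) ^ 2 = 0 := by norm_num
      rw [this, zero_add]
      refine Finset.sum_le_sum fun j _ => ?_
      rw [hop]
      apply hL.op_mono
      intro z
      exact h2 S μ P hC hL n f k τ z
    · refine Finset.sum_congr rfl fun j _ => ?_
      rw [hop]
      congr 1
      funext z
      congr 1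
      unfold hh op
      have : ∑ y, (P ^ τ) z y * (F f k y - F f k z)
          = ∑ y, (P ^ τ) z y * F f k y - (∑ y, (P ^ τ) z y) * F f k z := by
        rw [Finset.sum_mul, ← Finset.sum_sub_distrib]
        exact Finset.sum_congr rfl fun y _ => by ring
      rw [this, hL.pw_sum τ z, one_mul]
  -- sum over k
  have hQ : Qsum μ P f (τ * J) ≤ av μ (fun b => lbar P f b * Real.sqrt (Ψ b)) +
      ∑ j ∈ Finset.range J, Rr μ P f τ (τ * j) := by
    have s1 : Qsum μ P f (τ * J) ≤ ∑ k, av μ (fun b => om P f k b * (Real.sqrt (Ψ b) +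
        ∑ j ∈ Finset.range J, op P (τ * j) (fun z => |hh P f τ k z|) b)) := by
      unfold Qsum Qk
      refine Finset.sum_le_sum fun k _ => ?_
      apply hL.av_mono
      intro b
      exact mul_le_mul_of_nonneg_left (hA k b) (hom0 k b)
    refine s1.trans (le_of_eq ?_)
    have s2 : ∀ k, av μ (fun b => om P f k b * (Real.sqrt (Ψ b) +
        ∑ j ∈ Finset.range J, op P (τ * j) (fun z => |hh P f τ k z|) b))
        = av μ (fun b => om P f k b * Real.sqrt (Ψ b)) +
          ∑ j ∈ Finset.range J, av μ (fun b => om P f k b *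
            op P (τ * j) (fun z => |hh P f τ k z|) b) := by
      intro k
      simp only [av]
      rw [Finset.sum_comm, ← Finset.sum_add_distrib]
      refine Finset.sum_congr rfl fun b _ => ?_
      rw [mul_add, mul_add, Finset.mul_sum, Finset.mul_sum]
    rw [Finset.sum_congr rfl fun k _ => s2 k, Finset.sum_add_distrib]
    congr 1
    · simp only [av]
      rw [Finset.sum_comm]
      refine Finset.sum_congr rfl fun b _ => ?_
      rw [← homsum b, Finset.sum_mul, Finset.mul_sum]
    · rw [Finset.sum_comm]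
      rfl
  -- the Cauchy-Schwarz term
  have hav : av μ Ψ = (J : ℝ) * ((τ : ℝ) * ((τ : ℝ) * U μ P f)) := by
    have a1 : av μ Λ = (τ : ℝ) * U μ P f := by
      have : av μ Λ = ∑ i ∈ Finset.range τ, av μ (op P i (l2 P f)) := by
        simp only [av]
        rw [Finset.sum_comm]
        refine Finset.sum_congr rfl fun b _ => ?_
        rw [Finset.mul_sum]
      rw [this, Finset.sum_congr rfl fun i _ => hL.av_op i (l2 P f), Finset.sum_const,
        Finset.card_range, nsmul_eq_mul, hl2U]
    have a2 : av μ (fun z => (τ : ℝ) * Λ z) = (τ : ℝ) * av μ Λ := by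
      simp only [av]
      rw [Finset.mul_sum]
      exact Finset.sum_congr rfl fun b _ => by ring
    have : av μ Ψ = ∑ j ∈ Finset.range J, av μ (op P (τ * j) (fun z => (τ : ℝ) * Λ z)) := by
      simp only [av]
      rw [Finset.sum_comm]
      refine Finset.sum_congr rfl fun b _ => ?_
      rw [Finset.mul_sum]
    rw [this, Finset.sum_congr rfl fun j _ => hL.av_op (τ * j) (fun z => (τ : ℝ) * Λ z),
      Finset.sum_const, Finset.card_range, nsmul_eq_mul, a2, a1]
  have hcs : av μ (fun b => lbar P f b * Real.sqrt (Ψ b)) ≤ Real.sqrt J * τ * U μ P f := by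
    have c1 := hL.av_cs (lbar P f) (fun b => Real.sqrt (Ψ b))
    have c2 : av μ (fun b => Real.sqrt (Ψ b) ^ 2) = av μ Ψ := by
      simp only [av]
      exact Finset.sum_congr rfl fun b _ => by rw [Real.sq_sqrt (hΨ0 b)]
    rw [c2, hav] at c1
    have c3 : Real.sqrt (av μ (fun x => lbar P f x ^ 2)) ≤ Real.sqrt (U μ P f) :=
      Real.sqrt_le_sqrt hlbU
    have c4 : Real.sqrt ((J : ℝ) * ((τ : ℝ) * ((τ : ℝ) * U μ P f)))
        = Real.sqrt J * (τ * Real.sqrt (U μ P f)) := by
      rw [Real.sqrt_mul (Nat.cast_nonneg J)]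
      congr 1
      have : (τ : ℝ) * ((τ : ℝ) * U μ P f) = (τ : ℝ) ^ 2 * U μ P f := by ring
      rw [this, Real.sqrt_mul (by positivity), Real.sqrt_sq (Nat.cast_nonneg τ)]
    rw [c4] at c1
    have c5 : Real.sqrt (U μ P f) * Real.sqrt (U μ P f) = U μ P f := Real.mul_self_sqrt hU0
    calc av μ (fun b => lbar P f b * Real.sqrt (Ψ b)) ≤ _ := c1
      _ ≤ Real.sqrt (U μ P f) * (Real.sqrt J * (τ * Real.sqrt (U μ P f))) :=
          mul_le_mul_of_nonneg_right c3 (by positivity)
      _ = Real.sqrt J * τ * (Real.sqrt (U μ P f) * Real.sqrt (U μ P f)) := by ring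
      _ = Real.sqrt J * τ * U μ P f := by rw [c5]
  linarith

end Vale.Agent.P125.Poly
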