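import Vale.Agent.P125.Poly.Defs58

namespace Vale.Agent.P125.Poly

open scoped BigOperators
open Vale.Agent.P125.Dich

theorem op_pow_40 {S : Type} [Fintype S] [DecidableEq S] (P : Matrix S S ℝ) (τ j : ℕ)
    (g : S → ℝ) : op (P ^ τ) j g = op P (τ * j) g := by
  funext x
  unfold op
  rw [← pow_mul]

theorem av_add_40 {S : Type} [Fintype S] (μ g h : S → ℝ) :
    av μ (fun x => g x + h x) = av μ g + av μ h := by
  unfold av
  rw [← Finset.sum_add_distrib]
  apply Finset.sum_congr rfl
  intro x _
  ring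

theorem av_sum_40 {S : Type} [Fintype S] {ι : Type} (s : Finset ι) (μ : S → ℝ) (g : ι → S → ℝ) :
    av μ (fun x => ∑ i ∈ s, g i x) = ∑ i ∈ s, av μ (g i) := by
  unfold av
  rw [Finset.sum_comm]
  apply Finset.sum_congr rfl
  intro x _
  rw [Finset.mul_sum]

theorem av_smul_40 {S : Type} [Fintype S] (μ : S → ℝ) (c : ℝ) (g : S → ℝ) :
    av μ (fun x => c * g x) = c * av μ g := by
  unfold av
  rw [Finset.mul_sum]
  apply Finset.sum_congr rfl
  intro x _
  ring

theorem stBlk_40 (hlib : StLib) (hs : StSmall) (h2 : StTriv2) (h3 : StSqrt) : StBlk := by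
  intro S _ _ μ P hP hL n f τ J
  obtain ⟨hom0, homsum, hlb0, hl20, hl2U, hlbU, hU0, -, -, -⟩ := hs S μ P hP hL n f
  have hR : IsChain μ (P ^ τ) := isChain_pow hP τ
  have hLR : Lib μ (P ^ τ) := hlib S μ (P ^ τ) hR
  -- the variance proxy
  set V : S → ℝ := fun z => (τ : ℝ) * ∑ i ∈ Finset.range τ, op P i (l2 P f) z with hV
  set W : S → ℝ := fun b => ∑ j ∈ Finset.range J, op P (τ * j) V b with hW
  have hV0 : ∀ z, 0 ≤ V z := by
    intro z
    apply mul_nonneg (Nat.cast_nonneg _)
    apply Finset.sum_nonneg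
    intro i _
    have := hL.op_mono i (fun _ => 0) (l2 P f) hl20 z
    rw [hL.op_const] at this
    exact this
  have hW0 : ∀ b, 0 ≤ W b := by
    intro b
    apply Finset.sum_nonneg
    intro j _
    have := hL.op_mono (τ * j) (fun _ => 0) V hV0 b
    rw [hL.op_const] at this
    exact this
  -- pointwise bound of Ak
  have hAk : ∀ k b, Ak P f (τ * J) k b ≤ Real.sqrt (W b) +
      ∑ j ∈ Finset.range J, op P (τ * j) (fun z => |hh P f τ k z|) b := by
    intro k b
    have h := h3 S μ (P ^ τ) hR hLR (F f k) J 0 b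
    have e1 : ∑ y, ((P ^ τ) ^ J) b y * |0 + F f k y - F f k b| = Ak P f (τ * J) k b := by
      unfold Ak
      rw [← pow_mul]
      apply Finset.sum_congr rfl
      intro y _
      rw [zero_add]
    rw [e1] at h
    refine le_trans h ?_
    apply add_le_add
    · apply Real.sqrt_le_sqrt
      have : (0 : ℝ) ^ 2 = 0 := by norm_num
      rw [this, zero_add]
      apply Finset.sum_le_sum
      intro j _
      rw [op_pow_40]
      apply hL.op_mono
      intro z
      exact h2 S μ P hP hL n f k τ z
    · apply le_of_eq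
      apply Finset.sum_congr rfl
      intro j _
      rw [op_pow_40]
      congr 1
      funext z
      congr 1
      unfold hh op
      have : ∑ y, (P ^ τ) z y * (F f k y - F f k z) =
          ∑ y, (P ^ τ) z y * F f k y - (∑ y, (P ^ τ) z y) * F f k z := by
        rw [Finset.sum_mul, ← Finset.sum_sub_distrib]
        apply Finset.sum_congr rfl
        intro y _
        ring
      rw [this, hL.pw_sum, one_mul]
  -- sum over k
  have hQ : Qsum μ P f (τ * J) ≤ av μ (fun b => lbar P f b * Real.sqrt (W b)) +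
      ∑ j ∈ Finset.range J, Rr μ P f τ (τ * j) := by
    unfold Qsum Qk
    have step : ∀ k, av μ (fun b => om P f k b * Ak P f (τ * J) k b) ≤
        av μ (fun b => om P f k b * Real.sqrt (W b)) +
          ∑ j ∈ Finset.range J,
            av μ (fun b => om P f k b * op P (τ * j) (fun z => |hh P f τ k z|) b) := by
      intro k
      rw [← av_sum_40, ← av_add_40]
      apply hL.av_mono
      intro b
      rw [← Finset.mul_sum, ← mul_add]
      exact mul_le_mul_of_nonneg_left (hAk k b) (hom0 k b)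
    refine le_trans (Finset.sum_le_sum (fun k _ => step k)) ?_
    rw [Finset.sum_add_distrib]
    apply add_le_add
    · apply le_of_eq
      rw [← av_sum_40]
      congr 1
      funext b
      rw [← Finset.sum_mul, homsum]
    · apply le_of_eq
      rw [Finset.sum_comm]
      rfl
  refine le_trans hQ ?_
  apply add_le_add_left
  -- Cauchy-Schwarz
  have hcs := hL.av_cs (lbar P f) (fun b => Real.sqrt (W b))
  refine le_trans hcs ?_
  have e2 : av μ (fun x => Real.sqrt (W x) ^ 2) = av μ W := by
    congr 1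
    funext x
    exact Real.sq_sqrt (hW0 x)
  have e3 : av μ W = (J : ℝ) * ((τ : ℝ) * ((τ : ℝ) * U μ P f)) := by
    rw [hW, av_sum_40]
    have : ∀ j ∈ Finset.range J, av μ (op P (τ * j) V) = (τ : ℝ) * ((τ : ℝ) * U μ P f) := by
      intro j _
      rw [hL.av_op, hV, av_smul_40, av_sum_40]
      congr 1
      have : ∀ i ∈ Finset.range τ, av μ (op P i (l2 P f)) = U μ P f := by
        intro i _
        rw [hL.av_op, hl2U]
      rw [Finset.sum_congr rfl this]
      simp
    rw [Finset.sum_congr rfl this]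
    simp
  rw [e2, e3]
  have e4 : Real.sqrt ((J : ℝ) * ((τ : ℝ) * ((τ : ℝ) * U μ P f))) =
      Real.sqrt J * τ * Real.sqrt (U μ P f) := by
    have : (J : ℝ) * ((τ : ℝ) * ((τ : ℝ) * U μ P f)) = (J : ℝ) * ((τ : ℝ) ^ 2 * U μ P f) := by ring
    rw [this, Real.sqrt_mul (Nat.cast_nonneg _), Real.sqrt_mul (sq_nonneg _),
      Real.sqrt_sq (Nat.cast_nonneg _)]
    ring
  rw [e4]
  have e5 : Real.sqrt (av μ (fun x => lbar P f x ^ 2)) ≤ Real.sqrt (U μ P f) :=
    Real.sqrt_le_sqrt hlbU
  calc Real.sqrt (av μ (fun x => lbar P f x ^ 2)) * (Real.sqrt J * τ * Real.sqrt (U μ P f))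
      ≤ Real.sqrt (U μ P f) * (Real.sqrt J * τ * Real.sqrt (U μ P f)) := by
        apply mul_le_mul_of_nonneg_right e5
        positivity
    _ = Real.sqrt J * τ * (Real.sqrt (U μ P f) * Real.sqrt (U μ P f)) := by ring
    _ = Real.sqrt J * τ * U μ P f := by rw [Real.mul_self_sqrt hU0]

end Vale.Agent.P125.Poly
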