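import Mathlib
import Vale.Agent.P125.Poly.Defs58

set_option linter.unusedSectionVars false
set_option linter.unusedVariables false

/-! P125 Poly, item Blk (Step 3): block decomposition, from StSqrt and StTriv2. -/

namespace Vale.Agent.P125.Poly

open scoped BigOperators
open Vale.Agent.P125.Dich

theorem op_pow_44 {S : Type} [Fintype S] [DecidableEq S] (P : Matrix S S ℝ) (τ j : ℕ)
    (g : S → ℝ) : op (P ^ τ) j g = op P (τ * j) g := by
  unfold op
  rw [← pow_mul]

theorem av_add_44 {S : Type} [Fintype S] (μ g h : S → ℝ) :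
    av μ (fun x => g x + h x) = av μ g + av μ h := by
  unfold av
  rw [← Finset.sum_add_distrib]
  exact Finset.sum_congr rfl fun x _ => by ring

theorem av_sum_44 {S ι : Type} [Fintype S] (μ : S → ℝ) (s : Finset ι) (g : ι → S → ℝ) :
    av μ (fun x => ∑ i ∈ s, g i x) = ∑ i ∈ s, av μ (g i) := by
  unfold av
  rw [Finset.sum_comm]
  exact Finset.sum_congr rfl fun x _ => by rw [Finset.mul_sum]

theorem av_smul_44 {S : Type} [Fintype S] (μ g : S → ℝ) (c : ℝ) :
    av μ (fun x => c * g x) = c * av μ g := by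
  unfold av
  rw [Finset.mul_sum]
  exact Finset.sum_congr rfl fun x _ => by ring

theorem stBlk_44 (hlib : StLib) (hs : StSmall) (h2 : StTriv2) (h3 : StSqrt) : StBlk := by
  intro S _ _ μ P hc hL n f τ J
  obtain ⟨hom0, hsum, hlb0, hl20, havl2, havlb, hU0, hFell, hwsym, hellsym⟩ :=
    hs S μ P hc hL n f
  have hcR : IsChain μ (P ^ τ) := isChain_pow hc τ
  have hLR : Lib μ (P ^ τ) := hlib S μ (P ^ τ) hcR
  obtain ⟨V, hV⟩ : ∃ V : S → ℝ,
      V = fun z => (τ : ℝ) * ∑ i ∈ Finset.range τ, op P i (l2 P f) z := ⟨_, rfl⟩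
  obtain ⟨Wf, hWf⟩ : ∃ Wf : S → ℝ,
      Wf = fun b => ∑ j ∈ Finset.range J, op P (τ * j) V b := ⟨_, rfl⟩
  obtain ⟨D, hD⟩ : ∃ D : Fin n → S → ℝ,
      D = fun k b => ∑ j ∈ Finset.range J, op P (τ * j) (fun z => |hh P f τ k z|) b := ⟨_, rfl⟩
  have hopnn : ∀ k (g : S → ℝ), (∀ y, 0 ≤ g y) → ∀ x, 0 ≤ op P k g x := by
    intro k g hg x
    exact Finset.sum_nonneg fun y _ => mul_nonneg (hL.pw_nonneg k x y) (hg y)
  have hV0 : ∀ z, 0 ≤ V z := by
    intro z
    rw [hV]
    exact mul_nonneg (Nat.cast_nonneg _) (Finset.sum_nonneg fun i _ => hopnn i _ hl20 z)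
  have hW0 : ∀ b, 0 ≤ Wf b := by
    intro b
    rw [hWf]
    exact Finset.sum_nonneg fun j _ => hopnn _ _ hV0 b
  have hpt : ∀ k b, Ak P f (τ * J) k b ≤ Real.sqrt (Wf b) + D k b := by
    intro k b
    have h := h3 S μ (P ^ τ) hcR hLR (F f k) J 0 b
    have e1 : ∑ y, ((P ^ τ) ^ J) b y * |0 + F f k y - F f k b| = Ak P f (τ * J) k b := by
      unfold Ak
      rw [← pow_mul]
      exact Finset.sum_congr rfl fun y _ => by rw [zero_add]
    rw [e1] at h
    have e0 : (fun z => |∑ y, (P ^ τ) z y * (F f k y - F f k z)|)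
        = (fun z => |hh P f τ k z|) := by
      funext z
      congr 1
      unfold hh op
      have hrow := hL.pw_sum τ z
      calc ∑ y, (P ^ τ) z y * (F f k y - F f k z)
          = ∑ y, (P ^ τ) z y * F f k y - (∑ y, (P ^ τ) z y) * F f k z := by
            rw [Finset.sum_mul, ← Finset.sum_sub_distrib]
            exact Finset.sum_congr rfl fun y _ => by ring
        _ = ∑ y, (P ^ τ) z y * F f k y - F f k z := by rw [hrow, one_mul]
    have e2 : ∀ j, op (P ^ τ) j (fun z => |∑ y, (P ^ τ) z y * (F f k y - F f k z)|) b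
        = op P (τ * j) (fun z => |hh P f τ k z|) b := by
      intro j
      rw [op_pow_44, e0]
    have e3 : ∀ j, op (P ^ τ) j (fun z => ∑ y, (P ^ τ) z y * (F f k y - F f k z) ^ 2) b
        ≤ op P (τ * j) V b := by
      intro j
      rw [op_pow_44]
      refine hL.op_mono (τ * j) _ _ (fun z => ?_) b
      rw [hV]
      exact h2 S μ P hc hL n f k τ z
    refine le_trans h (add_le_add ?_ (le_of_eq ?_))
    · apply Real.sqrt_le_sqrt
      have h00 : (0 : ℝ) ^ 2 = 0 := by norm_num
      rw [h00, zero_add, hWf]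
      exact Finset.sum_le_sum fun j _ => e3 j
    · rw [hD]
      exact Finset.sum_congr rfl fun j _ => e2 j
  have havV : av μ V = (τ : ℝ) * ((τ : ℝ) * U μ P f) := by
    rw [hV, av_smul_44 μ (fun z => ∑ i ∈ Finset.range τ, op P i (l2 P f) z), av_sum_44]
    congr 1
    rw [Finset.sum_congr rfl (fun i _ => hL.av_op i (l2 P f)), Finset.sum_const,
      Finset.card_range, nsmul_eq_mul, havl2]
  have havW : av μ Wf = (J : ℝ) * ((τ : ℝ) * ((τ : ℝ) * U μ P f)) := by
    rw [hWf, av_sum_44]
    rw [Finset.sum_congr rfl (fun j _ => hL.av_op (τ * j) V), Finset.sum_const,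
      Finset.card_range, nsmul_eq_mul, havV]
  have hfirst : ∑ k, av μ (fun b => om P f k b * Real.sqrt (Wf b))
      ≤ Real.sqrt J * τ * U μ P f := by
    have e : ∑ k, av μ (fun b => om P f k b * Real.sqrt (Wf b))
        = av μ (fun b => lbar P f b * Real.sqrt (Wf b)) := by
      rw [← av_sum_44]
      congr 1
      funext b
      rw [← Finset.sum_mul, hsum b]
    rw [e]
    have hcs := hL.av_cs (lbar P f) (fun b => Real.sqrt (Wf b))
    have e2 : av μ (fun x => Real.sqrt (Wf x) ^ 2) = av μ Wf := by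
      congr 1
      funext x
      exact Real.sq_sqrt (hW0 x)
    rw [e2, havW] at hcs
    refine le_trans hcs ?_
    have s1 : Real.sqrt (av μ fun x => lbar P f x ^ 2) ≤ Real.sqrt (U μ P f) :=
      Real.sqrt_le_sqrt havlb
    have s2 : Real.sqrt ((J : ℝ) * ((τ : ℝ) * ((τ : ℝ) * U μ P f)))
        = Real.sqrt J * τ * Real.sqrt (U μ P f) := by
      rw [Real.sqrt_mul (by positivity), ← mul_assoc, Real.sqrt_mul (by positivity),
        Real.sqrt_mul_self (by positivity)]
      ring
    rw [s2]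
    calc Real.sqrt (av μ fun x => lbar P f x ^ 2) * (Real.sqrt J * τ * Real.sqrt (U μ P f))
        ≤ Real.sqrt (U μ P f) * (Real.sqrt J * τ * Real.sqrt (U μ P f)) :=
          mul_le_mul_of_nonneg_right s1 (by positivity)
      _ = Real.sqrt J * τ * (Real.sqrt (U μ P f) * Real.sqrt (U μ P f)) := by ring
      _ = Real.sqrt J * τ * U μ P f := by rw [Real.mul_self_sqrt hU0]
  have hsecond : ∑ k, av μ (fun b => om P f k b * D k b)
      = ∑ j ∈ Finset.range J, Rr μ P f τ (τ * j) := by
    unfold Rr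
    rw [Finset.sum_comm]
    refine Finset.sum_congr rfl fun k _ => ?_
    rw [← av_sum_44]
    congr 1
    funext b
    rw [hD, Finset.mul_sum]
  unfold Qsum Qk
  calc ∑ k, av μ (fun b => om P f k b * Ak P f (τ * J) k b)
      ≤ ∑ k, av μ (fun b => om P f k b * (Real.sqrt (Wf b) + D k b)) := by
        refine Finset.sum_le_sum fun k _ => hL.av_mono _ _ fun b =>
          mul_le_mul_of_nonneg_left (hpt k b) (hom0 k b)
    _ = ∑ k, av μ (fun b => om P f k b * Real.sqrt (Wf b))
          + ∑ k, av μ (fun b => om P f k b * D k b) := by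
        rw [← Finset.sum_add_distrib]
        refine Finset.sum_congr rfl fun k _ => ?_
        rw [← av_add_44]
        congr 1
        funext b
        ring
    _ ≤ Real.sqrt J * τ * U μ P f + ∑ j ∈ Finset.range J, Rr μ P f τ (τ * j) := by
        rw [hsecond]
        linarith [hfirst]

end Vale.Agent.P125.Poly
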