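import Mathlib

/-!
Own-measure inequality (Step 1 / Step 5 of the polynomial-rate argument for the summing operators):
if `G ξ = ∑_{th i ≤ ξ} lam i` then `G ξ ^ 2 ≤ 2 ∑ i, |lam i| * |G (th i)|`.
-/

namespace Vale.Agent.P125.Poly

open scoped BigOperators

theorem diag_nonneg {ι K : Type*} [DecidableEq K] (t : Finset ι) (th : ι → K) (lam : ι → ℝ) :
    0 ≤ ∑ i ∈ t, ∑ j ∈ t, (if th j = th i then lam i * lam j else 0) := by
  classical
  have h : ∑ i ∈ t, ∑ j ∈ t, (if th j = th i then lam i * lam j else 0)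
      = ∑ k ∈ t.image th, (∑ i ∈ t with th i = k, lam i) ^ 2 := by
    rw [← Finset.sum_fiberwise_of_maps_to (s := t) (t := t.image th) (g := th)
      (fun i hi => Finset.mem_image_of_mem th hi)]
    refine Finset.sum_congr rfl (fun k _ => ?_)
    rw [sq, Finset.sum_mul]
    refine Finset.sum_congr rfl (fun i hi => ?_)
    have hik : th i = k := (Finset.mem_filter.mp hi).2
    rw [Finset.mul_sum, Finset.sum_filter]
    refine Finset.sum_congr rfl (fun j _ => ?_)
    rw [hik]
  rw [h]
  exact Finset.sum_nonneg (fun k _ => sq_nonneg _)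

/-- signed form: `G ξ ^ 2 ≤ 2 ∑_{th i ≤ ξ} lam i * G (th i)` -/
theorem own_measure_signed {ι K : Type*} [LinearOrder K] (s : Finset ι) (th : ι → K)
    (lam : ι → ℝ) (ξ : K) :
    (∑ i ∈ s with th i ≤ ξ, lam i) ^ 2
      ≤ 2 * ∑ i ∈ s with th i ≤ ξ, lam i * ∑ j ∈ s with th j ≤ th i, lam j := by
  classical
  set t := s.filter (fun i => th i ≤ ξ) with ht
  have hG : ∀ i ∈ t, ∑ j ∈ s with th j ≤ th i, lam j
      = ∑ j ∈ t, (if th j ≤ th i then lam j else 0) := by
    intro i hi
    have hi' : th i ≤ ξ := (Finset.mem_filter.mp hi).2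
    rw [ht, Finset.sum_filter, Finset.sum_filter]
    refine Finset.sum_congr rfl (fun j _ => ?_)
    by_cases h : th j ≤ th i
    · simp [h, le_trans h hi']
    · simp [h]
  have e1 : (∑ i ∈ t, lam i) ^ 2 = ∑ i ∈ t, ∑ j ∈ t, lam i * lam j := by
    rw [sq, Finset.sum_mul_sum]
  have e2 : ∑ i ∈ t, ∑ j ∈ t, lam i * lam j
      = ∑ i ∈ t, ∑ j ∈ t, (if th j ≤ th i then lam i * lam j else 0)
        + ∑ i ∈ t, ∑ j ∈ t, (if th i < th j then lam i * lam j else 0) := by
    rw [← Finset.sum_add_distrib]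
    refine Finset.sum_congr rfl (fun i _ => ?_)
    rw [← Finset.sum_add_distrib]
    refine Finset.sum_congr rfl (fun j _ => ?_)
    by_cases h : th j ≤ th i
    · simp [h, not_lt.mpr h]
    · simp [h, not_le.mp h]
  have e3 : ∑ i ∈ t, ∑ j ∈ t, (if th i < th j then lam i * lam j else 0)
      = ∑ i ∈ t, ∑ j ∈ t, (if th j < th i then lam i * lam j else 0) := by
    rw [Finset.sum_comm]
    refine Finset.sum_congr rfl (fun i _ => Finset.sum_congr rfl (fun j _ => ?_))
    rw [mul_comm]
  have e4 : ∑ i ∈ t, ∑ j ∈ t, (if th j < th i then lam i * lam j else 0)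
      = ∑ i ∈ t, ∑ j ∈ t, (if th j ≤ th i then lam i * lam j else 0)
        - ∑ i ∈ t, ∑ j ∈ t, (if th j = th i then lam i * lam j else 0) := by
    rw [← Finset.sum_sub_distrib]
    refine Finset.sum_congr rfl (fun i _ => ?_)
    rw [← Finset.sum_sub_distrib]
    refine Finset.sum_congr rfl (fun j _ => ?_)
    rcases lt_trichotomy (th j) (th i) with h | h | h
    · simp [h, h.le, h.ne]
    · simp [h]
    · simp [not_lt.mpr h.le, not_le.mpr h, h.ne']
  have e5 := diag_nonneg t th lam
  have e6 : ∑ i ∈ t, ∑ j ∈ t, (if th j ≤ th i then lam i * lam j else 0)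
      = ∑ i ∈ t, lam i * ∑ j ∈ s with th j ≤ th i, lam j := by
    refine Finset.sum_congr rfl (fun i hi => ?_)
    rw [hG i hi, Finset.mul_sum]
    refine Finset.sum_congr rfl (fun j _ => ?_)
    split_ifs <;> simp
  linarith

/-- own-measure inequality -/
theorem own_measure {ι K : Type*} [LinearOrder K] (s : Finset ι) (th : ι → K)
    (lam : ι → ℝ) (ξ : K) :
    (∑ i ∈ s with th i ≤ ξ, lam i) ^ 2
      ≤ 2 * ∑ i ∈ s, |lam i| * |∑ j ∈ s with th j ≤ th i, lam j| := by
  classical
  have h := own_measure_signed s th lam ξ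
  have h2 : ∑ i ∈ s with th i ≤ ξ, lam i * ∑ j ∈ s with th j ≤ th i, lam j
      ≤ ∑ i ∈ s, |lam i| * |∑ j ∈ s with th j ≤ th i, lam j| := by
    calc _ ≤ ∑ i ∈ s with th i ≤ ξ, |lam i| * |∑ j ∈ s with th j ≤ th i, lam j| := by
          refine Finset.sum_le_sum (fun i _ => ?_)
          rw [← abs_mul]
          exact le_abs_self _
      _ ≤ _ := by
          refine Finset.sum_le_sum_of_subset_of_nonneg (Finset.filter_subset _ _)
            (fun i _ _ => by positivity)
  linarith

theorem sum_map_eq {M : Type*} (f : M → ℝ) (l : List M) :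
    (l.map f).sum = ∑ i : Fin l.length, f (l.get i) := by
  induction l with
  | nil => simp
  | cons a l ih =>
    rw [List.map_cons, List.sum_cons, ih]
    exact (Fin.sum_univ_succ (n := l.length) (fun i : Fin (l.length + 1) => f ((a :: l).get i))).symm

/-- own-measure inequality, list form (for paths of marks) -/
theorem own_measure_list {M K : Type*} [LinearOrder K] (th : M → K) (lam : M → ℝ)
    (l : List M) (ξ : K) :
    ((l.map (fun m => if th m ≤ ξ then lam m else 0)).sum) ^ 2
      ≤ 2 * (l.map (fun m => |lam m|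
          * |(l.map (fun m' => if th m' ≤ th m then lam m' else 0)).sum|)).sum := by
  have h := own_measure (Finset.univ : Finset (Fin l.length)) (fun i => th (l.get i))
    (fun i => lam (l.get i)) ξ
  rw [sum_map_eq, sum_map_eq]
  rw [Finset.sum_filter] at h
  refine h.trans (le_of_eq ?_)
  congr 1
  refine Finset.sum_congr rfl (fun i _ => ?_)
  rw [sum_map_eq, Finset.sum_filter]

end Vale.Agent.P125.Poly
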