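import Vale.Agent.P125.Poly.Api_38
import Vale.Agent.P125.Poly.Own_88

set_option linter.unusedSectionVars false
set_option linter.unusedVariables false

/-!
# P125, polynomial rate: the duality step (steps (C), (D), (E) of the path-free plan)
-/

namespace Vale.Agent.P125.Poly62

open scoped BigOperators
open Vale.Agent.P125.Dich Vale.Agent.P125.Poly38
open Matrix

variable {S : Type} [Fintype S] [DecidableEq S] {μ : S → ℝ} {P A T : Matrix S S ℝ}

/-- weighted Cauchy-Schwarz -/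
lemma wcs {ι : Type*} (s : Finset ι) (w x y : ι → ℝ) (hw : ∀ i ∈ s, 0 ≤ w i) :
    (∑ i ∈ s, w i * (x i * y i)) ^ 2 ≤ (∑ i ∈ s, w i * x i ^ 2) * (∑ i ∈ s, w i * y i ^ 2) := by
  have h := Finset.sum_mul_sq_le_sq_mul_sq s (fun i => Real.sqrt (w i) * x i)
    (fun i => Real.sqrt (w i) * y i)
  have e1 : ∑ i ∈ s, Real.sqrt (w i) * x i * (Real.sqrt (w i) * y i)
      = ∑ i ∈ s, w i * (x i * y i) := by
    refine Finset.sum_congr rfl fun i hi => ?_
    have := Real.mul_self_sqrt (hw i hi)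
    calc Real.sqrt (w i) * x i * (Real.sqrt (w i) * y i)
        = (Real.sqrt (w i) * Real.sqrt (w i)) * (x i * y i) := by ring
      _ = _ := by rw [this]
  have e2 : ∀ z : ι → ℝ, ∑ i ∈ s, (Real.sqrt (w i) * z i) ^ 2 = ∑ i ∈ s, w i * z i ^ 2 := by
    intro z
    refine Finset.sum_congr rfl fun i hi => ?_
    rw [mul_pow, Real.sq_sqrt (hw i hi)]
  rw [e1, e2, e2] at h
  exact h

/-- the own-measure lemma for tails -/
lemma tail_own {n : ℕ} (d : Fin n → ℝ) (k : Fin n) :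
    (∑ j, if k ≤ j then d j else 0) ^ 2
      ≤ 2 * ∑ i, |d i| * |∑ j, if i ≤ j then d j else 0| := by
  have h := Vale.Agent.P125.Poly.own_measure (Finset.univ : Finset (Fin n))
    (fun i => OrderDual.toDual i) d (OrderDual.toDual k)
  simp only [OrderDual.toDual_le_toDual, Finset.sum_filter] at h
  exact h

/-- prefix sums -/
def FF {n : ℕ} (f : Fin n → S → ℝ) (j : Fin n) (x : S) : ℝ := ∑ k, if k ≤ j then f k x else 0

/-- mean absolute increment of the coordinate `k` -/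
def aa {n : ℕ} (P : Matrix S S ℝ) (f : Fin n → S → ℝ) (k : Fin n) (y : S) : ℝ :=
  ∑ b, P y b * |f k b - f k y|

/-- the `ℓ_1` length of an edge -/
def ell {n : ℕ} (f : Fin n → S → ℝ) (a b : S) : ℝ := ∑ k, |f k b - f k a|

/-- the energy -/
def WW {n : ℕ} (μ : S → ℝ) (P : Matrix S S ℝ) (f : Fin n → S → ℝ) : ℝ :=
  ∑ a, ∑ b, μ a * P a b * ell f a b ^ 2

/-- mean length -/
def lb {n : ℕ} (P : Matrix S S ℝ) (f : Fin n → S → ℝ) (y : S) : ℝ := ∑ k, aa P f k y

lemma ell_nonneg {n : ℕ} (f : Fin n → S → ℝ) (a b : S) : 0 ≤ ell f a b :=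
  Finset.sum_nonneg fun _ _ => abs_nonneg _

lemma aa_nonneg {n : ℕ} (hP : IsChain μ P) (f : Fin n → S → ℝ) (k : Fin n) (y : S) :
    0 ≤ aa P f k y :=
  Finset.sum_nonneg fun b _ => mul_nonneg (hP.2.2.1 y b) (abs_nonneg _)

lemma lb_eq {n : ℕ} (f : Fin n → S → ℝ) (y : S) : lb P f y = ∑ b, P y b * ell f y b := by
  unfold lb aa ell
  rw [Finset.sum_comm]
  refine Finset.sum_congr rfl fun b _ => ?_
  rw [Finset.mul_sum]

lemma lb_nonneg {n : ℕ} (hP : IsChain μ P) (f : Fin n → S → ℝ) (y : S) : 0 ≤ lb P f y :=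
  Finset.sum_nonneg fun k _ => aa_nonneg hP f k y

lemma WW_nonneg {n : ℕ} (hP : IsChain μ P) (f : Fin n → S → ℝ) : 0 ≤ WW μ P f :=
  Finset.sum_nonneg fun a _ => Finset.sum_nonneg fun b _ =>
    mul_nonneg (mul_nonneg (hP.1 a) (hP.2.2.1 a b)) (sq_nonneg _)

lemma lb_sq_le {n : ℕ} (hP : IsChain μ P) (f : Fin n → S → ℝ) :
    ∑ y, μ y * lb P f y ^ 2 ≤ WW μ P f := by
  unfold WW
  refine Finset.sum_le_sum fun y _ => ?_
  have h := jensen hP (fun b => ell f y b) y
  rw [mv_apply, mv_apply, ← lb_eq] at h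
  calc μ y * lb P f y ^ 2 ≤ μ y * ∑ b, P y b * ell f y b ^ 2 :=
        mul_le_mul_of_nonneg_left h (hP.1 y)
    _ = _ := by
        rw [Finset.mul_sum]
        refine Finset.sum_congr rfl fun b _ => ?_
        ring

/-- the drift over the averaging window -/
def hh (P A : Matrix S S ℝ) (τ : ℝ) (F : S → ℝ) (z : S) : ℝ :=
  τ * (A *ᵥ (fun x => (P *ᵥ F) x - F x)) z

/-- its sign -/
noncomputable def YY (P A : Matrix S S ℝ) (τ : ℝ) (F : S → ℝ) (z : S) : ℝ :=
  if 0 ≤ hh P A τ F z then 1 else -1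

lemma YY_mul (τ : ℝ) (F : S → ℝ) (z : S) : YY P A τ F z * hh P A τ F z = |hh P A τ F z| := by
  unfold YY
  split_ifs with h
  · rw [one_mul, abs_of_nonneg h]
  · rw [abs_of_neg (not_le.1 h)]
    ring

lemma YY_abs (τ : ℝ) (F : S → ℝ) (z : S) : |YY P A τ F z| = 1 := by
  unfold YY
  split_ifs <;> simp

/-- the dual test function -/
noncomputable def ph (P A T : Matrix S S ℝ) (τ : ℝ) (g F : S → ℝ) (z : S) : ℝ :=
  YY P A τ F z * (T *ᵥ g) z

lemma stepC_one (hP : IsChain μ P) (hA : IsChain μ A) (hT : IsChain μ T) (τ : ℝ) (g F : S → ℝ) :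
    ∑ y, μ y * (g y * (T *ᵥ (fun z => |hh P A τ F z|)) y)
      = -(τ / 2) * ∑ a, ∑ b, μ a * P a b *
          (((A *ᵥ ph P A T τ g F) b - (A *ᵥ ph P A T τ g F) a) * (F b - F a)) := by
  rw [selfadj hT g (fun z => |hh P A τ F z|)]
  have e1 : ∑ x, μ x * ((T *ᵥ g) x * |hh P A τ F x|)
      = τ * ∑ x, μ x * (ph P A T τ g F x * (A *ᵥ (fun x => (P *ᵥ F) x - F x)) x) := by
    rw [Finset.mul_sum]
    refine Finset.sum_congr rfl fun x _ => ?_
    rw [← YY_mul]
    unfold ph hh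
    ring
  rw [e1, selfadj hA, dirichlet hP]
  ring

lemma abel {n : ℕ} (x u : Fin n → ℝ) :
    ∑ j, x j * (∑ k, if k ≤ j then u k else 0) = ∑ k, u k * (∑ j, if k ≤ j then x j else 0) := by
  simp only [Finset.mul_sum]
  rw [Finset.sum_comm]
  refine Finset.sum_congr rfl fun k _ => Finset.sum_congr rfl fun j _ => ?_
  split_ifs <;> ring

lemma FF_sub {n : ℕ} (f : Fin n → S → ℝ) (j : Fin n) (a b : S) :
    FF f j b - FF f j a = ∑ k, if k ≤ j then f k b - f k a else 0 := by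
  unfold FF
  rw [← Finset.sum_sub_distrib]
  refine Finset.sum_congr rfl fun k _ => ?_
  split_ifs <;> ring

section main

variable {n : ℕ} (P A T) (f : Fin n → S → ℝ) (τ : ℝ)

/-- smoothed dual functions -/
noncomputable def ww (j : Fin n) : S → ℝ := A *ᵥ ph P A T τ (aa P f j) (FF f j)

noncomputable def dd (j : Fin n) (a b : S) : ℝ := ww P A T f τ j b - ww P A T f τ j a

noncomputable def DD (k : Fin n) (a b : S) : ℝ := ∑ j, if k ≤ j then dd P A T f τ j a b else 0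

noncomputable def Xi (a b : S) : ℝ := 2 * ∑ i, |dd P A T f τ i a b| * |DD P A T f τ i a b|

noncomputable def RR (μ : S → ℝ) : ℝ :=
  ∑ j, ∑ y, μ y * (aa P f j y * (T *ᵥ (fun z => |hh P A τ (FF f j) z|)) y)

variable {P A T}

lemma DD_sq_le (k : Fin n) (a b : S) : DD P A T f τ k a b ^ 2 ≤ Xi P A T f τ a b :=
  tail_own (fun j => dd P A T f τ j a b) k

lemma Xi_nonneg (a b : S) : 0 ≤ Xi P A T f τ a b :=
  mul_nonneg (by norm_num) (Finset.sum_nonneg fun i _ => mul_nonneg (abs_nonneg _) (abs_nonneg _))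

lemma RR_eq (hP : IsChain μ P) (hA : IsChain μ A) (hT : IsChain μ T) :
    RR P A T f τ μ = -(τ / 2) * ∑ a, ∑ b, μ a * P a b *
      ∑ k, (f k b - f k a) * DD P A T f τ k a b := by
  unfold RR
  have e1 : ∀ j, ∑ y, μ y * (aa P f j y * (T *ᵥ (fun z => |hh P A τ (FF f j) z|)) y)
      = -(τ / 2) * ∑ a, ∑ b, μ a * P a b * (dd P A T f τ j a b * (FF f j b - FF f j a)) :=
    fun j => stepC_one hP hA hT τ (aa P f j) (FF f j)
  simp only [e1]
  rw [← Finset.mul_sum]
  congr 1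
  rw [Finset.sum_comm]
  refine Finset.sum_congr rfl fun a _ => ?_
  rw [Finset.sum_comm]
  refine Finset.sum_congr rfl fun b _ => ?_
  rw [← Finset.mul_sum]
  congr 1
  simp only [FF_sub]
  exact abel (fun j => dd P A T f τ j a b) (fun k => f k b - f k a)

lemma RR_le (hP : IsChain μ P) (hA : IsChain μ A) (hT : IsChain μ T) (hτ : 0 ≤ τ) :
    RR P A T f τ μ ≤ (τ / 2) * ∑ a, ∑ b, μ a * P a b *
      (ell f a b * Real.sqrt (Xi P A T f τ a b)) := by
  rw [RR_eq f τ hP hA hT, neg_mul, ← mul_neg, ← Finset.sum_neg_distrib]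
  refine mul_le_mul_of_nonneg_left ?_ (by positivity)
  refine Finset.sum_le_sum fun a _ => ?_
  rw [← Finset.sum_neg_distrib]
  refine Finset.sum_le_sum fun b _ => ?_
  rw [← mul_neg]
  refine mul_le_mul_of_nonneg_left ?_ (mul_nonneg (hP.1 a) (hP.2.2.1 a b))
  unfold ell
  rw [← Finset.sum_neg_distrib, Finset.sum_mul]
  refine Finset.sum_le_sum fun k _ => ?_
  have h1 : |DD P A T f τ k a b| ≤ Real.sqrt (Xi P A T f τ a b) :=
    Real.abs_le_sqrt (DD_sq_le f τ k a b)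
  calc -((f k b - f k a) * DD P A T f τ k a b) ≤ |(f k b - f k a) * DD P A T f τ k a b| :=
        neg_le_abs _
    _ = |f k b - f k a| * |DD P A T f τ k a b| := abs_mul _ _
    _ ≤ _ := mul_le_mul_of_nonneg_left h1 (abs_nonneg _)

variable (P A T)

noncomputable def nu (i : Fin n) : S → ℝ := A *ᵥ (T *ᵥ aa P f i)

noncomputable def phs (i : Fin n) (z : S) : ℝ :=
  ∑ j, if i ≤ j then ph P A T τ (aa P f j) (FF f j) z else 0

noncomputable def gr (i : Fin n) (a : S) : ℝ := ∑ b, P a b * |DD P A T f τ i a b|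

variable {P A T}

lemma Taa_nonneg (hP : IsChain μ P) (hT : IsChain μ T) (j : Fin n) (z : S) :
    0 ≤ (T *ᵥ aa P f j) z := mv_nonneg hT (aa_nonneg hP f j) z

lemma ph_abs (hP : IsChain μ P) (hT : IsChain μ T) (j : Fin n) (z : S) :
    |ph P A T τ (aa P f j) (FF f j) z| ≤ (T *ᵥ aa P f j) z := by
  unfold ph
  rw [abs_mul, YY_abs, one_mul, abs_of_nonneg (Taa_nonneg f hP hT j z)]

lemma ww_abs (hP : IsChain μ P) (hA : IsChain μ A) (hT : IsChain μ T) (j : Fin n) (x : S) :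
    |ww P A T f τ j x| ≤ nu P A T f j x :=
  abs_mv_le_of hA (ph_abs f τ hP hT j) x

lemma dd_abs (hP : IsChain μ P) (hA : IsChain μ A) (hT : IsChain μ T) (j : Fin n) (a b : S) :
    |dd P A T f τ j a b| ≤ nu P A T f j a + nu P A T f j b := by
  unfold dd
  have h1 := ww_abs f τ hP hA hT j a
  have h2 := ww_abs f τ hP hA hT j b
  have h3 := abs_sub (ww P A T f τ j b) (ww P A T f τ j a)
  linarith

lemma phs_abs (hP : IsChain μ P) (hT : IsChain μ T) (i : Fin n) (y : S) :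
    |phs P A T f τ i y| ≤ (T *ᵥ lb P f) y := by
  have e : (T *ᵥ lb P f) y = ∑ j, (T *ᵥ aa P f j) y :=
    mv_sum T Finset.univ (fun j => aa P f j) y
  rw [e]
  unfold phs
  refine (Finset.abs_sum_le_sum_abs _ _).trans (Finset.sum_le_sum fun j _ => ?_)
  split_ifs
  · exact ph_abs f τ hP hT j y
  · rw [abs_zero]
    exact Taa_nonneg f hP hT j y

lemma A_phs (i : Fin n) (x : S) :
    (A *ᵥ phs P A T f τ i) x = ∑ j, if i ≤ j then ww P A T f τ j x else 0 := by
  have e : (A *ᵥ phs P A T f τ i) x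
      = ∑ j, (A *ᵥ (fun z => if i ≤ j then ph P A T τ (aa P f j) (FF f j) z else 0)) x :=
    mv_sum A Finset.univ (fun j z => if i ≤ j then ph P A T τ (aa P f j) (FF f j) z else 0) x
  rw [e]
  refine Finset.sum_congr rfl fun j _ => ?_
  split_ifs
  · rfl
  · simp [mv_apply]

lemma DD_eq (i : Fin n) (a b : S) :
    DD P A T f τ i a b = (A *ᵥ phs P A T f τ i) b - (A *ᵥ phs P A T f τ i) a := by
  rw [A_phs, A_phs, ← Finset.sum_sub_distrib]
  unfold DD dd
  refine Finset.sum_congr rfl fun j _ => ?_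
  split_ifs <;> ring

lemma DD_symm (i : Fin n) (a b : S) : |DD P A T f τ i b a| = |DD P A T f τ i a b| := by
  rw [DD_eq, DD_eq, abs_sub_comm]

lemma gr_nonneg (hP : IsChain μ P) (i : Fin n) (a : S) : 0 ≤ gr P A T f τ i a :=
  Finset.sum_nonneg fun b _ => mul_nonneg (hP.2.2.1 a b) (abs_nonneg _)

lemma sumXi_le (hP : IsChain μ P) (hA : IsChain μ A) (hT : IsChain μ T) :
    ∑ a, ∑ b, μ a * P a b * Xi P A T f τ a b
      ≤ 4 * ∑ i, ∑ a, μ a * (nu P A T f i a * gr P A T f τ i a) := by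
  have h1 : ∀ a b, Xi P A T f τ a b
      ≤ 2 * ∑ i, (nu P A T f i a + nu P A T f i b) * |DD P A T f τ i a b| := by
    intro a b
    unfold Xi
    refine mul_le_mul_of_nonneg_left ?_ (by norm_num)
    exact Finset.sum_le_sum fun i _ =>
      mul_le_mul_of_nonneg_right (dd_abs f τ hP hA hT i a b) (abs_nonneg _)
  have e1 : ∀ i, ∑ a, ∑ b, μ a * P a b * (nu P A T f i a * |DD P A T f τ i a b|)
      = ∑ a, μ a * (nu P A T f i a * gr P A T f τ i a) := by
    intro i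
    refine Finset.sum_congr rfl fun a _ => ?_
    unfold gr
    rw [Finset.mul_sum, Finset.mul_sum]
    refine Finset.sum_congr rfl fun b _ => ?_
    ring
  have e2 : ∀ i, ∑ a, ∑ b, μ a * P a b * (nu P A T f i b * |DD P A T f τ i a b|)
      = ∑ a, μ a * (nu P A T f i a * gr P A T f τ i a) := by
    intro i
    rw [← e1 i, Finset.sum_comm]
    refine Finset.sum_congr rfl fun a _ => Finset.sum_congr rfl fun b _ => ?_
    rw [hP.2.2.2.2 b a, DD_symm]
  calc ∑ a, ∑ b, μ a * P a b * Xi P A T f τ a b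
      ≤ ∑ a, ∑ b, μ a * P a b *
          (2 * ∑ i, (nu P A T f i a + nu P A T f i b) * |DD P A T f τ i a b|) :=
        Finset.sum_le_sum fun a _ => Finset.sum_le_sum fun b _ =>
          mul_le_mul_of_nonneg_left (h1 a b) (mul_nonneg (hP.1 a) (hP.2.2.1 a b))
    _ = 2 * ∑ i, (∑ a, ∑ b, μ a * P a b * (nu P A T f i a * |DD P A T f τ i a b|)
          + ∑ a, ∑ b, μ a * P a b * (nu P A T f i b * |DD P A T f τ i a b|)) := by
        have s1 : ∀ a b, μ a * P a b *
            (2 * ∑ i, (nu P A T f i a + nu P A T f i b) * |DD P A T f τ i a b|)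
            = ∑ i, 2 * (μ a * P a b * (nu P A T f i a * |DD P A T f τ i a b|)
              + μ a * P a b * (nu P A T f i b * |DD P A T f τ i a b|)) := by
          intro a b
          rw [Finset.mul_sum, Finset.mul_sum]
          refine Finset.sum_congr rfl fun i _ => ?_
          ring
        simp only [s1]
        have s2 : ∀ a, ∑ b, ∑ i, 2 * (μ a * P a b * (nu P A T f i a * |DD P A T f τ i a b|)
              + μ a * P a b * (nu P A T f i b * |DD P A T f τ i a b|))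
            = ∑ i, ∑ b, 2 * (μ a * P a b * (nu P A T f i a * |DD P A T f τ i a b|)
              + μ a * P a b * (nu P A T f i b * |DD P A T f τ i a b|)) :=
          fun a => Finset.sum_comm
        simp only [s2]
        rw [Finset.sum_comm, Finset.mul_sum]
        refine Finset.sum_congr rfl fun i _ => ?_
        rw [← Finset.sum_add_distrib, Finset.mul_sum]
        refine Finset.sum_congr rfl fun a _ => ?_
        rw [← Finset.sum_add_distrib, Finset.mul_sum]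
    _ = _ := by
        simp only [e1, e2, Finset.mul_sum]
        refine Finset.sum_congr rfl fun i _ => ?_
        rw [← Finset.mul_sum]
        ring

lemma nu_gr (hA : IsChain μ A) (hT : IsChain μ T) (i : Fin n) :
    ∑ a, μ a * (nu P A T f i a * gr P A T f τ i a)
      = ∑ y, μ y * (aa P f i y * (T *ᵥ (A *ᵥ gr P A T f τ i)) y) := by
  unfold nu
  rw [← selfadj hA (T *ᵥ aa P f i) (gr P A T f τ i), ← selfadj hT (aa P f i)]

lemma gr_sq_le (hP : IsChain μ P) (i : Fin n) (a : S) :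
    gr P A T f τ i a ^ 2
      ≤ ∑ b, P a b * ((A *ᵥ phs P A T f τ i) b - (A *ᵥ phs P A T f τ i) a) ^ 2 := by
  have h := jensen hP (fun b => |DD P A T f τ i a b|) a
  rw [mv_apply, mv_apply] at h
  simp only [sq_abs] at h
  simp only [DD_eq] at h
  unfold gr
  simp only [DD_eq]
  exact h

lemma TAgr_sq (hP : IsChain μ P) (hA : IsChain μ A) (hT : IsChain μ T) (i : Fin n) (y : S) :
    ((T *ᵥ (A *ᵥ gr P A T f τ i)) y) ^ 2
      ≤ (T *ᵥ (A *ᵥ (fun a => ∑ b, P a b *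
          ((A *ᵥ phs P A T f τ i) b - (A *ᵥ phs P A T f τ i) a) ^ 2))) y := by
  refine (jensen hT _ y).trans ?_
  refine mv_mono hT (fun z => ?_) y
  refine (jensen hA _ z).trans ?_
  exact mv_mono hA (fun a => gr_sq_le f τ hP i a) z

lemma wcs2 (w x y : S → S → ℝ) (hw : ∀ a b, 0 ≤ w a b) :
    (∑ a, ∑ b, w a b * (x a b * y a b)) ^ 2
      ≤ (∑ a, ∑ b, w a b * x a b ^ 2) * (∑ a, ∑ b, w a b * y a b ^ 2) := by
  have h := wcs (Finset.univ ×ˢ Finset.univ : Finset (S × S)) (fun p => w p.1 p.2)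
    (fun p => x p.1 p.2) (fun p => y p.1 p.2) (fun p _ => hw p.1 p.2)
  rw [Finset.sum_product, Finset.sum_product, Finset.sum_product] at h
  exact h

theorem cde (hP : IsChain μ P) (hA : IsChain μ A) (hT : IsChain μ T) (hτ : 0 < τ)
    (EnS : S → ℝ)
    (hF : ∀ φ : S → ℝ, (∀ y, |φ y| ≤ (T *ᵥ lb P f) y) → ∀ y,
      τ * (T *ᵥ (A *ᵥ (fun a => ∑ b, P a b * ((A *ᵥ φ) b - (A *ᵥ φ) a) ^ 2))) y ≤ EnS y)
    (hEn : ∑ y, μ y * EnS y ≤ 5 * ∑ y, μ y * ((T *ᵥ lb P f) y) ^ 2) :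
    RR P A T f τ μ ^ 2 ≤ τ ^ 2 * WW μ P f ^ 2 * Real.sqrt (5 / τ) := by
  have hW := WW_nonneg hP f
  set W := WW μ P f with hWdef
  -- nonnegativity of EnS
  have hEn0 : ∀ y, 0 ≤ EnS y / τ := by
    intro y
    have h0 := hF (fun _ => 0) (fun y => by
      rw [abs_zero]; exact mv_nonneg hT (lb_nonneg hP f) y) y
    have h1 : 0 ≤ (T *ᵥ (A *ᵥ (fun a => ∑ b, P a b *
        ((A *ᵥ (fun _ => (0:ℝ))) b - (A *ᵥ (fun _ => (0:ℝ))) a) ^ 2))) y :=
      mv_nonneg hT (fun z => mv_nonneg hA (fun a => Finset.sum_nonneg fun b _ =>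
        mul_nonneg (hP.2.2.1 a b) (sq_nonneg _)) z) y
    have h2 : 0 ≤ EnS y := le_trans (mul_nonneg hτ.le h1) h0
    positivity
  set ρ : S → ℝ := fun y => Real.sqrt (EnS y / τ) with hρ
  have hTA : ∀ i y, (T *ᵥ (A *ᵥ gr P A T f τ i)) y ≤ ρ y := by
    intro i y
    have h1 := TAgr_sq f τ hP hA hT i y
    have h2 := hF (phs P A T f τ i) (phs_abs f τ hP hT i) y
    have h3 : ((T *ᵥ (A *ᵥ gr P A T f τ i)) y) ^ 2 ≤ EnS y / τ := by
      rw [le_div_iff₀ hτ]
      calc ((T *ᵥ (A *ᵥ gr P A T f τ i)) y) ^ 2 * τ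
          ≤ (T *ᵥ (A *ᵥ (fun a => ∑ b, P a b *
          ((A *ᵥ phs P A T f τ i) b - (A *ᵥ phs P A T f τ i) a) ^ 2))) y * τ :=
            mul_le_mul_of_nonneg_right h1 hτ.le
        _ ≤ EnS y := by rw [mul_comm]; exact h2
    exact (le_abs_self _).trans (Real.abs_le_sqrt h3)
  set GG := ∑ i, ∑ a, μ a * (nu P A T f i a * gr P A T f τ i a) with hGG
  have hGG0 : 0 ≤ GG := Finset.sum_nonneg fun i _ => Finset.sum_nonneg fun a _ =>
    mul_nonneg (hP.1 a) (mul_nonneg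
      (mv_nonneg hA (fun z => Taa_nonneg f hP hT i z) a) (gr_nonneg f τ hP i a))
  have hG1 : GG ≤ ∑ y, μ y * (lb P f y * ρ y) := by
    rw [hGG]
    simp only [nu_gr f τ hA hT]
    rw [Finset.sum_comm]
    refine Finset.sum_le_sum fun y _ => ?_
    rw [← Finset.mul_sum]
    refine mul_le_mul_of_nonneg_left ?_ (hP.1 y)
    unfold lb
    rw [Finset.sum_mul]
    exact Finset.sum_le_sum fun i _ =>
      mul_le_mul_of_nonneg_left (hTA i y) (aa_nonneg hP f i y)
  have hG2 : (∑ y, μ y * (lb P f y * ρ y)) ^ 2 ≤ W * (5 * W / τ) := by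
    have h1 := wcs Finset.univ μ (lb P f) ρ (fun y _ => hP.1 y)
    have h2 : ∑ y, μ y * ρ y ^ 2 ≤ 5 * W / τ := by
      have e : ∑ y, μ y * ρ y ^ 2 = (∑ y, μ y * EnS y) / τ := by
        rw [Finset.sum_div]
        refine Finset.sum_congr rfl fun y _ => ?_
        rw [hρ]
        simp only
        rw [Real.sq_sqrt (hEn0 y)]
        ring
      rw [e]
      refine div_le_div_of_nonneg_right ?_ hτ.le
      refine hEn.trans ?_
      refine mul_le_mul_of_nonneg_left ?_ (by norm_num)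
      exact (l2contr hT (lb P f)).trans (lb_sq_le hP f)
    have h3 : 0 ≤ ∑ y, μ y * ρ y ^ 2 :=
      Finset.sum_nonneg fun y _ => mul_nonneg (hP.1 y) (sq_nonneg _)
    calc _ ≤ (∑ y, μ y * lb P f y ^ 2) * (∑ y, μ y * ρ y ^ 2) := h1
      _ ≤ W * (5 * W / τ) := mul_le_mul (lb_sq_le hP f) h2 h3 hW
  have hG3 : GG ≤ W * Real.sqrt (5 / τ) := by
    have h1 : GG ^ 2 ≤ W ^ 2 * (5 / τ) := by
      calc GG ^ 2 ≤ (∑ y, μ y * (lb P f y * ρ y)) ^ 2 := by
            exact pow_le_pow_left₀ hGG0 hG1 2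
        _ ≤ W * (5 * W / τ) := hG2
        _ = W ^ 2 * (5 / τ) := by ring
    have h2 := Real.abs_le_sqrt h1
    rw [Real.sqrt_mul (sq_nonneg W), Real.sqrt_sq hW] at h2
    exact (le_abs_self _).trans h2
  set M := ∑ a, ∑ b, μ a * P a b * (ell f a b * Real.sqrt (Xi P A T f τ a b)) with hM
  have hM0 : 0 ≤ M := Finset.sum_nonneg fun a _ => Finset.sum_nonneg fun b _ =>
    mul_nonneg (mul_nonneg (hP.1 a) (hP.2.2.1 a b))
      (mul_nonneg (ell_nonneg f a b) (Real.sqrt_nonneg _))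
  have hM1 : M ^ 2 ≤ W * (4 * GG) := by
    have h1 := wcs2 (fun a b => μ a * P a b) (fun a b => ell f a b)
      (fun a b => Real.sqrt (Xi P A T f τ a b)) (fun a b => mul_nonneg (hP.1 a) (hP.2.2.1 a b))
    have e : ∑ a, ∑ b, μ a * P a b * Real.sqrt (Xi P A T f τ a b) ^ 2
        = ∑ a, ∑ b, μ a * P a b * Xi P A T f τ a b := by
      refine Finset.sum_congr rfl fun a _ => Finset.sum_congr rfl fun b _ => ?_
      rw [Real.sq_sqrt (Xi_nonneg f τ a b)]
    rw [e] at h1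
    exact h1.trans (mul_le_mul_of_nonneg_left (sumXi_le f τ hP hA hT) hW)
  have hR0 : 0 ≤ RR P A T f τ μ := Finset.sum_nonneg fun j _ => Finset.sum_nonneg fun y _ =>
    mul_nonneg (hP.1 y) (mul_nonneg (aa_nonneg hP f j y)
      (mv_nonneg hT (fun z => abs_nonneg _) y))
  have hR1 := RR_le f τ hP hA hT hτ.le
  calc RR P A T f τ μ ^ 2 ≤ ((τ / 2) * M) ^ 2 := pow_le_pow_left₀ hR0 hR1 2
    _ = τ ^ 2 / 4 * M ^ 2 := by ring
    _ ≤ τ ^ 2 / 4 * (W * (4 * (W * Real.sqrt (5 / τ)))) := by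
        refine mul_le_mul_of_nonneg_left ?_ (by positivity)
        refine hM1.trans (mul_le_mul_of_nonneg_left ?_ hW)
        linarith
    _ = τ ^ 2 * W ^ 2 * Real.sqrt (5 / τ) := by ring

end main

end Vale.Agent.P125.Poly62
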