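import Vale.Agent.P125.Dich.ApiB3
import Vale.Agent.P125.Dich.ApiB2
import Vale.Agent.P125.Dich.ApiB1

set_option linter.unusedSectionVars false
set_option linter.unusedVariables false

/-! # Cauchy-Schwarz, Jensen, absolute values for `MChain.E` and `MChain.valT` -/

namespace Vale.Agent.P125.Poly

open Vale.Agent.P125.Dich
open scoped BigOperators

variable {S M : Type} [Fintype S] [Fintype M] (C : MChain S M)

theorem cs_of_quad (a b c : ℝ) (h : ∀ s : ℝ, 0 ≤ a * (s * s) + (2 * b) * s + c) :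
    b ^ 2 ≤ a * c := by
  have h1 := discrim_le_zero h
  unfold discrim at h1
  nlinarith

theorem valT_neg (b : ℕ) (Φ : List M → S → ℝ) (x : S) :
    C.valT b (fun l z => - Φ l z) x = - C.valT b Φ x := by
  have h := valT_const_mul C b (-1) Φ x
  simp only [neg_mul, one_mul] at h
  exact h

theorem valT_sub (b : ℕ) (Φ Ψ : List M → S → ℝ) (x : S) :
    C.valT b (fun l z => Φ l z - Ψ l z) x = C.valT b Φ x - C.valT b Ψ x := by
  have h := valT_add C b Φ (fun l z => - Ψ l z) x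
  rw [valT_neg] at h
  simp only [← sub_eq_add_neg] at h
  exact h

theorem E_neg (b : ℕ) (Φ : List M → ℝ) : C.E b (fun l => - Φ l) = - C.E b Φ := by
  have h := E_const_mul C b (-1) Φ
  simp only [neg_mul, one_mul] at h
  exact h

theorem E_sub (b : ℕ) (Φ Ψ : List M → ℝ) :
    C.E b (fun l => Φ l - Ψ l) = C.E b Φ - C.E b Ψ := by
  have h := E_add C b Φ (fun l => - Ψ l)
  rw [E_neg] at h
  simp only [← sub_eq_add_neg] at h
  exact h

theorem valT_abs_le (b : ℕ) (Φ : List M → S → ℝ) (x : S) :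
    |C.valT b Φ x| ≤ C.valT b (fun l z => |Φ l z|) x := by
  rw [abs_le]
  constructor
  · rw [← valT_neg]
    exact valT_mono C b _ _ (fun l z _ => neg_abs_le _) x
  · exact valT_mono C b _ _ (fun l z _ => le_abs_self _) x

theorem E_abs_le (b : ℕ) (Φ : List M → ℝ) : |C.E b Φ| ≤ C.E b (fun l => |Φ l|) := by
  rw [abs_le]
  constructor
  · rw [← E_neg]
    exact E_mono C b _ _ (fun l _ => neg_abs_le _)
  · exact E_mono C b _ _ (fun l _ => le_abs_self _)

/-- Cauchy-Schwarz for the conditional expectation -/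
theorem valT_cs (b : ℕ) (Φ Ψ : List M → S → ℝ) (x : S) :
    (C.valT b (fun l z => Φ l z * Ψ l z) x) ^ 2
      ≤ C.valT b (fun l z => Φ l z ^ 2) x * C.valT b (fun l z => Ψ l z ^ 2) x := by
  apply cs_of_quad
  intro s
  have h0 : 0 ≤ C.valT b (fun l z => (s * Φ l z + Ψ l z) ^ 2) x :=
    valT_nonneg C b _ (fun l z _ => sq_nonneg _) x
  have h1 : C.valT b (fun l z => (s * Φ l z + Ψ l z) ^ 2) x
      = C.valT b (fun l z => (s * s) * Φ l z ^ 2 + ((2 * s) * (Φ l z * Ψ l z) + Ψ l z ^ 2)) x :=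
    valT_congr C b _ _ (fun l z _ => by ring) x
  rw [h1, valT_add C b (fun l z => (s * s) * Φ l z ^ 2)
      (fun l z => (2 * s) * (Φ l z * Ψ l z) + Ψ l z ^ 2),
    valT_add C b (fun l z => (2 * s) * (Φ l z * Ψ l z)) (fun l z => Ψ l z ^ 2),
    valT_const_mul C b (s * s) (fun l z => Φ l z ^ 2),
    valT_const_mul C b (2 * s) (fun l z => Φ l z * Ψ l z)] at h0
  linarith

/-- Jensen for the conditional expectation -/
theorem valT_sq_le (b : ℕ) (Φ : List M → S → ℝ) (x : S) :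
    (C.valT b Φ x) ^ 2 ≤ C.valT b (fun l z => Φ l z ^ 2) x := by
  have h := valT_cs C b Φ (fun _ _ => 1) x
  simp only [mul_one, one_pow, valT_const] at h
  exact h

/-- Cauchy-Schwarz for the stationary expectation -/
theorem E_cs (b : ℕ) (Φ Ψ : List M → ℝ) :
    (C.E b (fun l => Φ l * Ψ l)) ^ 2 ≤ C.E b (fun l => Φ l ^ 2) * C.E b (fun l => Ψ l ^ 2) := by
  apply cs_of_quad
  intro s
  have h0 : 0 ≤ C.E b (fun l => (s * Φ l + Ψ l) ^ 2) := E_nonneg C b _ (fun l _ => sq_nonneg _)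
  have h1 : C.E b (fun l => (s * Φ l + Ψ l) ^ 2)
      = C.E b (fun l => (s * s) * Φ l ^ 2 + ((2 * s) * (Φ l * Ψ l) + Ψ l ^ 2)) :=
    E_congr C b _ _ (fun l _ => by ring)
  rw [h1, E_add C b (fun l => (s * s) * Φ l ^ 2) (fun l => (2 * s) * (Φ l * Ψ l) + Ψ l ^ 2),
    E_add C b (fun l => (2 * s) * (Φ l * Ψ l)) (fun l => Ψ l ^ 2),
    E_const_mul C b (s * s) (fun l => Φ l ^ 2),
    E_const_mul C b (2 * s) (fun l => Φ l * Ψ l)] at h0
  linarith

/-- Cauchy-Schwarz, square root form -/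
theorem E_cs_sqrt (b : ℕ) (Φ Ψ : List M → ℝ) :
    C.E b (fun l => Φ l * Ψ l)
      ≤ Real.sqrt (C.E b (fun l => Φ l ^ 2)) * Real.sqrt (C.E b (fun l => Ψ l ^ 2)) := by
  have h := E_cs C b Φ Ψ
  have hA : 0 ≤ C.E b (fun l => Φ l ^ 2) := E_nonneg C b _ (fun l _ => sq_nonneg _)
  rw [← Real.sqrt_mul hA]
  exact Real.le_sqrt_of_sq_le h

/-- Jensen for the stationary expectation -/
theorem E_sq_le (b : ℕ) (Φ : List M → ℝ) : (C.E b Φ) ^ 2 ≤ C.E b (fun l => Φ l ^ 2) := by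
  have h := E_cs C b Φ (fun _ => 1)
  simp only [mul_one, one_pow, E_const] at h
  exact h

/-- weighted state-space Cauchy-Schwarz -/
theorem mu_cs (g k : S → ℝ) :
    (∑ x, C.μ x * (g x * k x)) ^ 2 ≤ (∑ x, C.μ x * g x ^ 2) * (∑ x, C.μ x * k x ^ 2) := by
  apply cs_of_quad
  intro s
  have h0 : 0 ≤ ∑ x, C.μ x * (s * g x + k x) ^ 2 :=
    Finset.sum_nonneg (fun x _ => mul_nonneg (C.μ_nonneg x) (sq_nonneg _))
  have h1 : ∑ x, C.μ x * (s * g x + k x) ^ 2
      = (∑ x, C.μ x * g x ^ 2) * (s * s) + 2 * (∑ x, C.μ x * (g x * k x)) * s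
        + ∑ x, C.μ x * k x ^ 2 := by
    rw [Finset.sum_mul, Finset.mul_sum, Finset.sum_mul, ← Finset.sum_add_distrib,
      ← Finset.sum_add_distrib]
    refine Finset.sum_congr rfl (fun x _ => by ring)
  linarith

/-- the conditional expectation contracts `L_2(μ)`: `∑ μ (E_x g(Z_a))^2 ≤ ∑ μ g^2` -/
theorem mu_valT_sq_le (a : ℕ) (g : S → ℝ) :
    ∑ x, C.μ x * (C.valT a (fun _ z => g z) x) ^ 2 ≤ ∑ x, C.μ x * g x ^ 2 := by
  rw [← stationary_iter C a (fun x => g x ^ 2)]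
  refine Finset.sum_le_sum (fun x _ => mul_le_mul_of_nonneg_left ?_ (C.μ_nonneg x))
  exact valT_sq_le C a (fun _ z => g z) x

end Vale.Agent.P125.Poly
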