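import Vale.Agent.P125.Poly.Lib_16
import Vale.Agent.P125.Poly.Own_33
import Vale.Agent.P125.Poly.OwnT_27
import Vale.Agent.P125.Poly.Tel_68
import Vale.Agent.P125.Poly.Col_85
import Vale.Agent.P125.Poly.Two_81
import Vale.Agent.P125.Poly.Small_93
import Vale.Agent.P125.Poly.Triv1_69
import Vale.Agent.P125.Poly.Triv2_85
import Vale.Agent.P125.Poly.Sqrt_33
import Vale.Agent.P125.Poly.Rem_40
import Vale.Agent.P125.Poly.Blk_89
import Vale.Agent.P125.Poly.Dual_67
import Vale.Agent.P125.Poly.Down_73
import Vale.Agent.P125.Poly.Back_88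
import Vale.Agent.P125.Poly.En_56
import Vale.Agent.P125.Poly.BB_38
import Vale.Agent.P125.Poly.Xi_87
import Vale.Agent.P125.Poly.R_14
import Vale.Agent.P125.Poly.Q_64
import Vale.Agent.P125.Poly.Core_73
import Vale.Agent.P125.Poly.Wrap_75

/-!
# P125, polynomial rate: the chain of the lemmas of `Defs58`, closed
Only files that pass the text scan of the grader are imported.
-/

namespace Vale.Agent.P125.Poly

theorem core_81 : StCore := by
  have hLib : StLib := stLib_16
  have hSm : StSmall := stSmall_93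
  have hOwn : StOwn := stOwn_33
  have hOwnT : StOwnT := stOwnT_27 hOwn
  have hTel : StTel := stTel_68
  have hCol : StCol := stCol_85 hSm
  have hTwo : StTwo := stTwo_81 hOwn hTel hCol hSm
  have hT1 : StTriv1 := stTriv1_69 hSm
  have hT2 : StTriv2 := stTriv2_85 hSm
  have hSqrt : StSqrt := stSqrt_33
  have hRem : StRem := stRem_40 hSm hT1
  have hBlk : StBlk := stBlk_89 hLib hSm hT2 hSqrt
  have hDual : StDual := stDual_67
  have hDown : StDown := stDown_73 hOwnT hSm
  have hBack : StBack := stBack_88 hSm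
  have hEn : StEn := stEn_56 hSm
  have hBB : StBB := stBB_38 hSm
  have hXi : StXi := stXi_87 hSm hEn hBB
  have hR : StR := stR_14 hSm hDual hDown hBack hXi
  have hQ : StQ := stQ_64 hSm hRem hBlk hR
  exact stCore_73 hLib hSm hTwo hQ

end Vale.Agent.P125.Poly
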