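import Mathlib
import Vale.Agent.P125.Poly.Defs58

set_option linter.unusedSectionVars false
set_option linter.unusedVariables false

/-! P125 Poly, item Col: triangle inequality and collapse of the four point sums. -/

namespace Vale.Agent.P125.Poly

open scoped BigOperators
open Vale.Agent.P125.Dich

theorem stCol_44 (hs : StSmall) : StCol := by
  intro S _ _ μ P hc hL n f k r r'
  obtain ⟨hom0, hsum, hlb0, hl20, havl2, havlb, hU0, hFell, hwsym, hellsym⟩ :=
    hs S μ P hc hL n f
  have hPnn : ∀ a b, 0 ≤ P a b := fun a b => by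
    have := hL.pw_nonneg 1 a b
    rwa [pow_one] at this
  have hPrev : ∀ a b, μ a * P a b = μ b * P b a := fun a b => by
    have := hL.pw_rev 1 a b
    rwa [pow_one] at this
  have hw0 : ∀ a b, 0 ≤ w f a b k := fun a b => abs_nonneg _
  have hpt : ∀ x a b y,
      μ x * (P ^ r) x a * P a b * (P ^ r') b y * (w f a b k * |F f k y - F f k x|)
      ≤ μ x * (P ^ r) x a * P a b * (P ^ r') b y * (w f a b k * |F f k y - F f k b|)
        + μ x * (P ^ r) x a * P a b * (P ^ r') b y * (w f a b k * ell f a b)
        + μ x * (P ^ r) x a * P a b * (P ^ r') b y * (w f a b k * |F f k x - F f k a|) := by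
    intro x a b y
    have hT : 0 ≤ μ x * (P ^ r) x a * P a b * (P ^ r') b y :=
      mul_nonneg (mul_nonneg (mul_nonneg (hL.mu_nonneg x) (hL.pw_nonneg r x a)) (hPnn a b))
        (hL.pw_nonneg r' b y)
    have htri : |F f k y - F f k x|
        ≤ |F f k y - F f k b| + ell f a b + |F f k x - F f k a| := by
      have h1 := hFell k a b
      have h2 : F f k y - F f k x
          = (F f k y - F f k b) + (F f k b - F f k a) + (F f k a - F f k x) := by ring
      have h3 := abs_add_three (F f k y - F f k b) (F f k b - F f k a) (F f k a - F f k x)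
      rw [← h2, abs_sub_comm (F f k a) (F f k x)] at h3
      linarith
    have h5 := mul_le_mul_of_nonneg_left (mul_le_mul_of_nonneg_left htri (hw0 a b)) hT
    refine le_trans h5 (le_of_eq ?_)
    ring
  have hcl : ∀ H : S → ℝ, ∑ x, ∑ a, μ x * (P ^ r) x a * H a = ∑ a, μ a * H a := by
    intro H
    rw [Finset.sum_comm]
    refine Finset.sum_congr rfl fun a _ => ?_
    calc ∑ x, μ x * (P ^ r) x a * H a = ∑ x, μ a * H a * (P ^ r) a x := by
          refine Finset.sum_congr rfl fun x _ => ?_
          rw [hL.pw_rev r x a]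
          ring
      _ = μ a * H a := by rw [← Finset.mul_sum, hL.pw_sum r a, mul_one]
  have hT1 : ∑ x, ∑ a, ∑ b, ∑ y,
      μ x * (P ^ r) x a * P a b * (P ^ r') b y * (w f a b k * |F f k y - F f k b|)
      = Qk μ P f r' k := by
    calc ∑ x, ∑ a, ∑ b, ∑ y,
          μ x * (P ^ r) x a * P a b * (P ^ r') b y * (w f a b k * |F f k y - F f k b|)
        = ∑ x, ∑ a, μ x * (P ^ r) x a * (∑ b, P a b * (w f a b k * Ak P f r' k b)) := by
          refine Finset.sum_congr rfl fun x _ => Finset.sum_congr rfl fun a _ => ?_
          rw [Finset.mul_sum]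
          refine Finset.sum_congr rfl fun b _ => ?_
          unfold Ak
          rw [Finset.mul_sum, Finset.mul_sum, Finset.mul_sum]
          exact Finset.sum_congr rfl fun y _ => by ring
      _ = ∑ a, μ a * (∑ b, P a b * (w f a b k * Ak P f r' k b)) := hcl _
      _ = ∑ a, ∑ b, μ b * (P b a * w f b a k * Ak P f r' k b) := by
          refine Finset.sum_congr rfl fun a _ => ?_
          rw [Finset.mul_sum]
          refine Finset.sum_congr rfl fun b _ => ?_
          rw [hwsym a b k]
          calc μ a * (P a b * (w f b a k * Ak P f r' k b))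
              = (μ a * P a b) * (w f b a k * Ak P f r' k b) := by ring
            _ = (μ b * P b a) * (w f b a k * Ak P f r' k b) := by rw [hPrev a b]
            _ = μ b * (P b a * w f b a k * Ak P f r' k b) := by ring
      _ = ∑ b, ∑ a, μ b * (P b a * w f b a k * Ak P f r' k b) := Finset.sum_comm
      _ = Qk μ P f r' k := by
          unfold Qk av om
          refine Finset.sum_congr rfl fun b _ => ?_
          show _ = μ b * ((∑ x, P b x * w f b x k) * Ak P f r' k b)
          rw [Finset.sum_mul, Finset.mul_sum]
  have hT2 : ∑ x, ∑ a, ∑ b, ∑ y,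
      μ x * (P ^ r) x a * P a b * (P ^ r') b y * (w f a b k * ell f a b)
      = ∑ a, ∑ b, μ a * P a b * (w f a b k * ell f a b) := by
    calc ∑ x, ∑ a, ∑ b, ∑ y,
          μ x * (P ^ r) x a * P a b * (P ^ r') b y * (w f a b k * ell f a b)
        = ∑ x, ∑ a, μ x * (P ^ r) x a * (∑ b, P a b * (w f a b k * ell f a b)) := by
          refine Finset.sum_congr rfl fun x _ => Finset.sum_congr rfl fun a _ => ?_
          rw [Finset.mul_sum]
          refine Finset.sum_congr rfl fun b _ => ?_
          calc ∑ y, μ x * (P ^ r) x a * P a b * (P ^ r') b y * (w f a b k * ell f a b)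
              = ∑ y, (μ x * (P ^ r) x a * (P a b * (w f a b k * ell f a b))) * (P ^ r') b y :=
                Finset.sum_congr rfl fun y _ => by ring
            _ = μ x * (P ^ r) x a * (P a b * (w f a b k * ell f a b)) := by
                rw [← Finset.mul_sum, hL.pw_sum r' b, mul_one]
      _ = ∑ a, μ a * (∑ b, P a b * (w f a b k * ell f a b)) := hcl _
      _ = ∑ a, ∑ b, μ a * P a b * (w f a b k * ell f a b) := by
          refine Finset.sum_congr rfl fun a _ => ?_
          rw [Finset.mul_sum]
          exact Finset.sum_congr rfl fun b _ => by ring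
  have hT3 : ∑ x, ∑ a, ∑ b, ∑ y,
      μ x * (P ^ r) x a * P a b * (P ^ r') b y * (w f a b k * |F f k x - F f k a|)
      = Qk μ P f r k := by
    calc ∑ x, ∑ a, ∑ b, ∑ y,
          μ x * (P ^ r) x a * P a b * (P ^ r') b y * (w f a b k * |F f k x - F f k a|)
        = ∑ x, ∑ a, μ a * (om P f k a * ((P ^ r) a x * |F f k x - F f k a|)) := by
          refine Finset.sum_congr rfl fun x _ => Finset.sum_congr rfl fun a _ => ?_
          have hb : ∀ b, ∑ y,
              μ x * (P ^ r) x a * P a b * (P ^ r') b y * (w f a b k * |F f k x - F f k a|)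
              = μ x * (P ^ r) x a * |F f k x - F f k a| * (P a b * w f a b k) := by
            intro b
            calc ∑ y,
                  μ x * (P ^ r) x a * P a b * (P ^ r') b y * (w f a b k * |F f k x - F f k a|)
                = ∑ y, (μ x * (P ^ r) x a * |F f k x - F f k a| * (P a b * w f a b k))
                    * (P ^ r') b y := Finset.sum_congr rfl fun y _ => by ring
              _ = μ x * (P ^ r) x a * |F f k x - F f k a| * (P a b * w f a b k) := by
                  rw [← Finset.mul_sum, hL.pw_sum r' b, mul_one]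
          rw [Finset.sum_congr rfl fun b _ => hb b, ← Finset.mul_sum, hL.pw_rev r x a]
          unfold om
          ring
      _ = ∑ a, ∑ x, μ a * (om P f k a * ((P ^ r) a x * |F f k x - F f k a|)) := Finset.sum_comm
      _ = Qk μ P f r k := by
          unfold Qk av Ak
          refine Finset.sum_congr rfl fun a _ => ?_
          show _ = μ a * (om P f k a * ∑ y, (P ^ r) a y * |F f k y - F f k a|)
          rw [Finset.mul_sum, Finset.mul_sum]
  calc ∑ x, ∑ a, ∑ b, ∑ y, μ x * (P ^ r) x a * P a b * (P ^ r') b y *
        (w f a b k * |F f k y - F f k x|)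
      ≤ ∑ x, ∑ a, ∑ b, ∑ y,
        (μ x * (P ^ r) x a * P a b * (P ^ r') b y * (w f a b k * |F f k y - F f k b|)
        + μ x * (P ^ r) x a * P a b * (P ^ r') b y * (w f a b k * ell f a b)
        + μ x * (P ^ r) x a * P a b * (P ^ r') b y * (w f a b k * |F f k x - F f k a|)) :=
        Finset.sum_le_sum fun x _ => Finset.sum_le_sum fun a _ => Finset.sum_le_sum fun b _ =>
          Finset.sum_le_sum fun y _ => hpt x a b y
    _ = Qk μ P f r' k + (∑ a, ∑ b, μ a * P a b * (w f a b k * ell f a b)) + Qk μ P f r k := by
        simp only [Finset.sum_add_distrib]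
        rw [hT1, hT2, hT3]

end Vale.Agent.P125.Poly
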