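import Mathlib
import Vale.Agent.P125.Poly.Defs58

set_option linter.unusedSectionVars false
set_option linter.unusedVariables false

/-! # P125 Poly: triangle inequality + collapse of the four point sums (subtask Col), helper8 -/

namespace Vale.Agent.P125.Poly

open scoped BigOperators
open Vale.Agent.P125.Dich

theorem stCol_8 (hs : StSmall) : StCol := by
  intro S _ _ μ P hc hL n f k r r'
  obtain ⟨hom, hsum, hlb, -, -, -, -, hFl, hwsym, hlsym⟩ := hs S μ P hc hL n f
  have hP1 : ∀ a b, 0 ≤ P a b := fun a b => by simpa using hL.pw_nonneg 1 a b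
  have hrev1 : ∀ a b, μ a * P a b = μ b * P b a := fun a b => by simpa using hL.pw_rev 1 a b
  have hw : ∀ a b, 0 ≤ w f a b k := fun a b => abs_nonneg _
  have hcx : ∀ a, ∑ x, μ x * (P ^ r) x a = μ a := by
    intro a
    have : ∀ x, μ x * (P ^ r) x a = μ a * (P ^ r) a x := fun x => hL.pw_rev r x a
    simp only [this]
    rw [← Finset.mul_sum, hL.pw_sum, mul_one]
  have hcy : ∀ b, ∑ y, (P ^ r') b y = 1 := hL.pw_sum r'
  have h0 : ∑ x, ∑ a, ∑ b, ∑ y, μ x * (P ^ r) x a * P a b * (P ^ r') b y *
        (w f a b k * |F f k y - F f k x|) ≤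
      ∑ x, ∑ a, ∑ b, ∑ y,
        (μ x * (P ^ r) x a * P a b * (P ^ r') b y * (w f a b k * |F f k y - F f k b|)
        + μ x * (P ^ r) x a * P a b * (P ^ r') b y * (w f a b k * ell f a b)
        + μ x * (P ^ r) x a * P a b * (P ^ r') b y * (w f a b k * |F f k x - F f k a|)) := by
    refine Finset.sum_le_sum fun x _ => Finset.sum_le_sum fun a _ =>
      Finset.sum_le_sum fun b _ => Finset.sum_le_sum fun y _ => ?_
    have hT : 0 ≤ μ x * (P ^ r) x a * P a b * (P ^ r') b y :=
      mul_nonneg (mul_nonneg (mul_nonneg (hL.mu_nonneg x) (hL.pw_nonneg r x a)) (hP1 a b))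
        (hL.pw_nonneg r' b y)
    have htri : |F f k y - F f k x| ≤
        |F f k y - F f k b| + ell f a b + |F f k x - F f k a| := by
      have h1 : F f k y - F f k x =
          (F f k y - F f k b) + (F f k b - F f k a) + -(F f k x - F f k a) := by ring
      rw [h1]
      refine (abs_add_three _ _ _).trans ?_
      rw [abs_neg]
      have := hFl k a b
      linarith
    rw [← mul_add, ← mul_add, ← mul_add, ← mul_add]
    exact mul_le_mul_of_nonneg_left (mul_le_mul_of_nonneg_left htri (hw a b)) hT
  have e1 : ∑ x, ∑ a, ∑ b, ∑ y, μ x * (P ^ r) x a * P a b * (P ^ r') b y *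
      (w f a b k * |F f k y - F f k b|) = Qk μ P f r' k := by
    calc _ = ∑ a, ∑ x, (μ x * (P ^ r) x a) *
            ∑ b, ∑ y, P a b * (P ^ r') b y * (w f a b k * |F f k y - F f k b|) := by
          rw [Finset.sum_comm]
          refine Finset.sum_congr rfl fun a _ => Finset.sum_congr rfl fun x _ => ?_
          rw [Finset.mul_sum]
          refine Finset.sum_congr rfl fun b _ => ?_
          rw [Finset.mul_sum]
          refine Finset.sum_congr rfl fun y _ => ?_
          ring
      _ = ∑ a, μ a * ∑ b, ∑ y, P a b * (P ^ r') b y * (w f a b k * |F f k y - F f k b|) := by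
          refine Finset.sum_congr rfl fun a _ => ?_
          rw [← Finset.sum_mul, hcx]
      _ = ∑ a, ∑ b, (μ a * P a b) * (w f a b k * Ak P f r' k b) := by
          refine Finset.sum_congr rfl fun a _ => ?_
          rw [Finset.mul_sum]
          refine Finset.sum_congr rfl fun b _ => ?_
          unfold Ak
          rw [Finset.mul_sum, Finset.mul_sum, Finset.mul_sum]
          refine Finset.sum_congr rfl fun y _ => ?_
          ring
      _ = ∑ a, ∑ b, μ b * ((P b a * w f b a k) * Ak P f r' k b) := by
          refine Finset.sum_congr rfl fun a _ => Finset.sum_congr rfl fun b _ => ?_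
          rw [hrev1 a b, hwsym a b k]; ring
      _ = ∑ b, μ b * (om P f k b * Ak P f r' k b) := by
          rw [Finset.sum_comm]
          refine Finset.sum_congr rfl fun b _ => ?_
          unfold om
          rw [Finset.sum_mul, Finset.mul_sum]
      _ = Qk μ P f r' k := rfl
  have e2 : ∑ x, ∑ a, ∑ b, ∑ y, μ x * (P ^ r) x a * P a b * (P ^ r') b y *
      (w f a b k * ell f a b) = ∑ a, ∑ b, μ a * P a b * (w f a b k * ell f a b) := by
    calc _ = ∑ a, ∑ x, (μ x * (P ^ r) x a) *
            ∑ b, (P a b * (w f a b k * ell f a b)) * ∑ y, (P ^ r') b y := by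
          rw [Finset.sum_comm]
          refine Finset.sum_congr rfl fun a _ => Finset.sum_congr rfl fun x _ => ?_
          rw [Finset.mul_sum]
          refine Finset.sum_congr rfl fun b _ => ?_
          rw [Finset.mul_sum, Finset.mul_sum]
          refine Finset.sum_congr rfl fun y _ => ?_
          ring
      _ = ∑ a, ∑ b, μ a * P a b * (w f a b k * ell f a b) := by
          refine Finset.sum_congr rfl fun a _ => ?_
          rw [← Finset.sum_mul, hcx, Finset.mul_sum]
          refine Finset.sum_congr rfl fun b _ => ?_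
          rw [hcy]; ring
  have e3 : ∑ x, ∑ a, ∑ b, ∑ y, μ x * (P ^ r) x a * P a b * (P ^ r') b y *
      (w f a b k * |F f k x - F f k a|) = Qk μ P f r k := by
    calc _ = ∑ x, ∑ a, ∑ b, (μ x * (P ^ r) x a) *
            (P a b * w f a b k * |F f k x - F f k a|) * ∑ y, (P ^ r') b y := by
          refine Finset.sum_congr rfl fun x _ => Finset.sum_congr rfl fun a _ =>
            Finset.sum_congr rfl fun b _ => ?_
          rw [Finset.mul_sum]
          refine Finset.sum_congr rfl fun y _ => ?_
          ring
      _ = ∑ x, ∑ a, μ a * ((P ^ r) a x * |F f k x - F f k a| * om P f k a) := by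
          refine Finset.sum_congr rfl fun x _ => Finset.sum_congr rfl fun a _ => ?_
          unfold om
          rw [Finset.mul_sum, Finset.mul_sum]
          refine Finset.sum_congr rfl fun b _ => ?_
          rw [hcy, hL.pw_rev r x a]; ring
      _ = ∑ a, μ a * (om P f k a * Ak P f r k a) := by
          rw [Finset.sum_comm]
          refine Finset.sum_congr rfl fun a _ => ?_
          unfold Ak
          rw [← Finset.mul_sum]
          congr 1
          rw [Finset.mul_sum]
          refine Finset.sum_congr rfl fun x _ => ?_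
          ring
      _ = Qk μ P f r k := rfl
  calc _ ≤ _ := h0
    _ = _ := by
      simp only [Finset.sum_add_distrib]
      rw [e1, e2, e3]

end Vale.Agent.P125.Poly
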