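import Vale.Agent.P125.Poly.Defs58

set_option linter.unusedSectionVars false
set_option linter.unusedVariables false

/-! # P125 Poly: collapse of the four point sums, statement `StCol` of `Defs58` -/

namespace Vale.Agent.P125.Poly

open scoped BigOperators
open Vale.Agent.P125.Dich

theorem stCol_80 (hs : StSmall) : StCol := by
  intro S _ _ μ P hc hL n f k r r'
  obtain ⟨_, _, _, _, _, _, _, hF, hw, _⟩ := hs S μ P hc hL n f
  have hP : ∀ a b, 0 ≤ P a b := hc.2.2.1
  have hμ : ∀ a, 0 ≤ μ a := hc.1
  have hw0 : ∀ a b, 0 ≤ w f a b k := fun a b => abs_nonneg _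
  have hst : ∀ a, ∑ x, μ x * (P ^ r) x a = μ a := by
    intro a
    calc ∑ x, μ x * (P ^ r) x a = ∑ x, μ a * (P ^ r) a x :=
          Finset.sum_congr rfl fun x _ => hL.pw_rev r x a
      _ = μ a := by rw [← Finset.mul_sum, hL.pw_sum, mul_one]
  have hcol : ∀ H : S → ℝ, ∑ x, ∑ a, μ x * (P ^ r) x a * H a = ∑ a, μ a * H a := by
    intro H
    rw [Finset.sum_comm]
    refine Finset.sum_congr rfl fun a _ => ?_
    rw [← Finset.sum_mul, hst a]
  -- first term
  have T1 : ∑ x, ∑ a, ∑ b, ∑ y, μ x * (P ^ r) x a * P a b * (P ^ r') b y *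
      (w f a b k * |F f k y - F f k b|) = Qk μ P f r' k := by
    have e : ∀ x a, ∑ b, ∑ y, μ x * (P ^ r) x a * P a b * (P ^ r') b y *
        (w f a b k * |F f k y - F f k b|)
        = μ x * (P ^ r) x a * ∑ b, P a b * (w f a b k * Ak P f r' k b) := by
      intro x a
      rw [Finset.mul_sum]
      refine Finset.sum_congr rfl fun b _ => ?_
      unfold Ak
      rw [Finset.mul_sum, Finset.mul_sum, Finset.mul_sum]
      refine Finset.sum_congr rfl fun y _ => ?_
      ring
    rw [Finset.sum_congr rfl fun x _ => Finset.sum_congr rfl fun a _ => e x a, hcol]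
    unfold Qk av om
    calc ∑ a, μ a * ∑ b, P a b * (w f a b k * Ak P f r' k b)
        = ∑ a, ∑ b, μ b * P b a * (w f b a k * Ak P f r' k b) := by
          refine Finset.sum_congr rfl fun a _ => ?_
          rw [Finset.mul_sum]
          refine Finset.sum_congr rfl fun b _ => ?_
          rw [← mul_assoc, hc.2.2.2.2 a b, hw a b k]
      _ = ∑ b, ∑ a, μ b * P b a * (w f b a k * Ak P f r' k b) := Finset.sum_comm
      _ = _ := by
          refine Finset.sum_congr rfl fun b _ => ?_
          beta_reduce
          rw [Finset.sum_mul, Finset.mul_sum]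
          refine Finset.sum_congr rfl fun a _ => ?_
          ring
  -- second term
  have T2 : ∑ x, ∑ a, ∑ b, ∑ y, μ x * (P ^ r) x a * P a b * (P ^ r') b y *
      (w f a b k * |F f k b - F f k a|) ≤ ∑ a, ∑ b, μ a * P a b * (w f a b k * ell f a b) := by
    have e : ∀ x a, ∑ b, ∑ y, μ x * (P ^ r) x a * P a b * (P ^ r') b y *
        (w f a b k * |F f k b - F f k a|)
        = μ x * (P ^ r) x a * ∑ b, P a b * (w f a b k * |F f k b - F f k a|) := by
      intro x a
      rw [Finset.mul_sum]
      refine Finset.sum_congr rfl fun b _ => ?_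
      calc ∑ y, μ x * (P ^ r) x a * P a b * (P ^ r') b y * (w f a b k * |F f k b - F f k a|)
          = (μ x * (P ^ r) x a * P a b * (w f a b k * |F f k b - F f k a|)) * ∑ y, (P ^ r') b y := by
            rw [Finset.mul_sum]
            refine Finset.sum_congr rfl fun y _ => ?_
            ring
        _ = _ := by
            rw [hL.pw_sum, mul_one]
            ring
    rw [Finset.sum_congr rfl fun x _ => Finset.sum_congr rfl fun a _ => e x a, hcol]
    refine Finset.sum_le_sum fun a _ => ?_
    rw [Finset.mul_sum]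
    refine Finset.sum_le_sum fun b _ => ?_
    rw [← mul_assoc]
    exact mul_le_mul_of_nonneg_left (mul_le_mul_of_nonneg_left (hF k a b) (hw0 a b))
      (mul_nonneg (hμ a) (hP a b))
  -- third term
  have T3 : ∑ x, ∑ a, ∑ b, ∑ y, μ x * (P ^ r) x a * P a b * (P ^ r') b y *
      (w f a b k * |F f k a - F f k x|) = Qk μ P f r k := by
    have e : ∀ x a, ∑ b, ∑ y, μ x * (P ^ r) x a * P a b * (P ^ r') b y *
        (w f a b k * |F f k a - F f k x|)
        = μ a * (P ^ r) a x * (om P f k a * |F f k x - F f k a|) := by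
      intro x a
      unfold om
      rw [Finset.sum_mul, Finset.mul_sum]
      refine Finset.sum_congr rfl fun b _ => ?_
      calc ∑ y, μ x * (P ^ r) x a * P a b * (P ^ r') b y * (w f a b k * |F f k a - F f k x|)
          = (μ x * (P ^ r) x a * P a b * (w f a b k * |F f k a - F f k x|)) * ∑ y, (P ^ r') b y := by
            rw [Finset.mul_sum]
            refine Finset.sum_congr rfl fun y _ => ?_
            ring
        _ = _ := by
            rw [hL.pw_sum, mul_one, hL.pw_rev r x a, abs_sub_comm]
            ring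
    rw [Finset.sum_congr rfl fun x _ => Finset.sum_congr rfl fun a _ => e x a, Finset.sum_comm]
    unfold Qk av Ak
    refine Finset.sum_congr rfl fun a _ => ?_
    beta_reduce
    rw [Finset.mul_sum, Finset.mul_sum]
    refine Finset.sum_congr rfl fun x _ => ?_
    ring
  rw [← T1, ← T3]
  refine le_trans ?_ (add_le_add_left (add_le_add_right T2 _) _)
  rw [← Finset.sum_add_distrib, ← Finset.sum_add_distrib]
  refine Finset.sum_le_sum fun x _ => ?_
  rw [← Finset.sum_add_distrib, ← Finset.sum_add_distrib]
  refine Finset.sum_le_sum fun a _ => ?_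
  rw [← Finset.sum_add_distrib, ← Finset.sum_add_distrib]
  refine Finset.sum_le_sum fun b _ => ?_
  rw [← Finset.sum_add_distrib, ← Finset.sum_add_distrib]
  refine Finset.sum_le_sum fun y _ => ?_
  have hW : 0 ≤ μ x * (P ^ r) x a * P a b * (P ^ r') b y :=
    mul_nonneg (mul_nonneg (mul_nonneg (hμ x) (hL.pw_nonneg r x a)) (hP a b)) (hL.pw_nonneg r' b y)
  have htri : |F f k y - F f k x| ≤ |F f k y - F f k b| + |F f k b - F f k a| + |F f k a - F f k x| := by
    have e : F f k y - F f k x = (F f k y - F f k b) + (F f k b - F f k a) + (F f k a - F f k x) := by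
      ring
    rw [e]
    exact (abs_add_le _ _).trans (add_le_add_left (abs_add_le _ _) _)
  have := mul_le_mul_of_nonneg_left (mul_le_mul_of_nonneg_left htri (hw0 a b)) hW
  calc _ ≤ _ := this
    _ = _ := by ring

end Vale.Agent.P125.Poly
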