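import Mathlib
import Vale.Agent.P125.Poly.Defs58

set_option linter.unusedSectionVars false
set_option linter.unusedVariables false

/-! # P125 Poly: COL (helper97) -/

namespace Vale.Agent.P125.Poly

open scoped BigOperators
open Vale.Agent.P125.Dich Finset

theorem stCol_97 (hs : StSmall) : StCol := by
  intro S _ _ μ P hc L n f k r r'
  obtain ⟨-, -, -, -, -, -, -, hFl, hws, -⟩ := hs S μ P hc L n f
  have hP0 : ∀ a b, 0 ≤ P a b := hc.2.2.1
  have hw0 : ∀ a b, 0 ≤ w f a b k := fun a b => abs_nonneg _
  -- stationarity
  have st : ∀ a, ∑ x, μ x * (P ^ r) x a = μ a := by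
    intro a
    calc ∑ x, μ x * (P ^ r) x a = ∑ x, μ a * (P ^ r) a x :=
          sum_congr rfl fun x _ => L.pw_rev r x a
      _ = μ a := by rw [← mul_sum, L.pw_sum, mul_one]
  -- step 1: triangle inequality
  have h1 : ∑ x, ∑ a, ∑ b, ∑ y, μ x * (P ^ r) x a * P a b * (P ^ r') b y *
        (w f a b k * |F f k y - F f k x|)
      ≤ ∑ x, ∑ a, ∑ b, ∑ y, μ x * (P ^ r) x a * P a b * (P ^ r') b y *
        (w f a b k * (|F f k y - F f k b| + ell f a b + |F f k x - F f k a|)) := by
    apply sum_le_sum; intro x _
    apply sum_le_sum; intro a _
    apply sum_le_sum; intro b _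
    apply sum_le_sum; intro y _
    apply mul_le_mul_of_nonneg_left
    · apply mul_le_mul_of_nonneg_left _ (hw0 a b)
      have t1 : |F f k y - F f k x| ≤ |F f k y - F f k b| + |F f k b - F f k x| :=
        abs_sub_le _ _ _
      have t2 : |F f k b - F f k x| ≤ |F f k b - F f k a| + |F f k a - F f k x| :=
        abs_sub_le _ _ _
      have t3 := hFl k a b
      rw [abs_sub_comm (F f k a) (F f k x)] at t2
      linarith
    · exact mul_nonneg (mul_nonneg (mul_nonneg (L.mu_nonneg x) (L.pw_nonneg r x a)) (hP0 a b))
        (L.pw_nonneg r' b y)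
  refine h1.trans (le_of_eq ?_)
  -- three terms
  have T1 : ∑ x, ∑ a, ∑ b, ∑ y, μ x * (P ^ r) x a * P a b * (P ^ r') b y *
        (w f a b k * |F f k y - F f k b|) = Qk μ P f r' k := by
    calc _ = ∑ a, ∑ x, (μ x * (P ^ r) x a) * ∑ b, P a b * w f a b k * Ak P f r' k b := by
          rw [sum_comm]
          apply sum_congr rfl; intro a _
          apply sum_congr rfl; intro x _
          rw [mul_sum]
          apply sum_congr rfl; intro b _
          unfold Ak
          rw [mul_sum, mul_sum]
          apply sum_congr rfl; intro y _
          ring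
      _ = ∑ a, μ a * ∑ b, P a b * w f a b k * Ak P f r' k b := by
          apply sum_congr rfl; intro a _
          rw [← sum_mul, st a]
      _ = ∑ a, ∑ b, μ b * P b a * w f b a k * Ak P f r' k b := by
          apply sum_congr rfl; intro a _
          rw [mul_sum]
          apply sum_congr rfl; intro b _
          rw [hws b a k, ← hc.2.2.2.2 a b]
          ring
      _ = _ := by
          rw [sum_comm]
          unfold Qk av om
          apply sum_congr rfl; intro b _
          beta_reduce
          rw [sum_mul, mul_sum]
          apply sum_congr rfl; intro a _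
          ring
  have T2 : ∑ x, ∑ a, ∑ b, ∑ y, μ x * (P ^ r) x a * P a b * (P ^ r') b y *
        (w f a b k * ell f a b) = ∑ a, ∑ b, μ a * P a b * (w f a b k * ell f a b) := by
    calc _ = ∑ a, ∑ x, (μ x * (P ^ r) x a) * ∑ b, P a b * (w f a b k * ell f a b) := by
          rw [sum_comm]
          apply sum_congr rfl; intro a _
          apply sum_congr rfl; intro x _
          rw [mul_sum]
          apply sum_congr rfl; intro b _
          calc ∑ y, μ x * (P ^ r) x a * P a b * (P ^ r') b y * (w f a b k * ell f a b)
              = (μ x * (P ^ r) x a * P a b * (w f a b k * ell f a b)) * ∑ y, (P ^ r') b y := by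
                rw [mul_sum]; apply sum_congr rfl; intro y _; ring
            _ = _ := by rw [L.pw_sum]; ring
      _ = _ := by
          apply sum_congr rfl; intro a _
          rw [← sum_mul, st a, mul_sum]
          apply sum_congr rfl; intro b _
          ring
  have T3 : ∑ x, ∑ a, ∑ b, ∑ y, μ x * (P ^ r) x a * P a b * (P ^ r') b y *
        (w f a b k * |F f k x - F f k a|) = Qk μ P f r k := by
    calc _ = ∑ a, ∑ x, ∑ b, μ a * (P ^ r) a x * P a b * (w f a b k * |F f k x - F f k a|) := by
          rw [sum_comm]
          apply sum_congr rfl; intro a _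
          apply sum_congr rfl; intro x _
          apply sum_congr rfl; intro b _
          calc ∑ y, μ x * (P ^ r) x a * P a b * (P ^ r') b y * (w f a b k * |F f k x - F f k a|)
              = (μ x * (P ^ r) x a * P a b * (w f a b k * |F f k x - F f k a|))
                  * ∑ y, (P ^ r') b y := by
                rw [mul_sum]; apply sum_congr rfl; intro y _; ring
            _ = _ := by rw [L.pw_sum, L.pw_rev r x a]; ring
      _ = _ := by
          unfold Qk av om Ak
          apply sum_congr rfl; intro a _
          beta_reduce
          rw [sum_mul_sum, mul_sum, sum_comm]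
          apply sum_congr rfl; intro b _
          rw [mul_sum]
          apply sum_congr rfl; intro x _
          ring
  rw [← T1, ← T2, ← T3]
  simp only [← sum_add_distrib]
  apply sum_congr rfl; intro x _
  apply sum_congr rfl; intro a _
  apply sum_congr rfl; intro b _
  apply sum_congr rfl; intro y _
  ring

end Vale.Agent.P125.Poly
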