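import Mathlib

/-!
# P125, polynomial rate: the own measure lemma (Steps 1 and 5 of board 579)
-/

namespace Vale.Agent.P125.Poly93

open scoped BigOperators

theorem own_step (a b : ℝ) : b ^ 2 - a ^ 2 ≤ 2 * (|b - a| * |b|) := by
  have h1 : (b - a) * b ≤ |b - a| * |b| := by
    rw [← abs_mul]
    exact le_abs_self _
  nlinarith [sq_nonneg (b - a)]

/-- a sequence started at `0` : its square is paid by its own increments -/
theorem own_head_aux (G : ℕ → ℝ) (h0 : G 0 = 0) (j : ℕ) :
    G j ^ 2 ≤ 2 * ∑ i ∈ Finset.range j, |G (i + 1) - G i| * |G (i + 1)| := by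
  induction j with
  | zero => simp [h0]
  | succ j ih =>
    rw [Finset.sum_range_succ]
    have := own_step (G j) (G (j + 1))
    linarith

theorem own_head (G : ℕ → ℝ) (h0 : G 0 = 0) (n j : ℕ) (hj : j ≤ n) :
    G j ^ 2 ≤ 2 * ∑ i ∈ Finset.range n, |G (i + 1) - G i| * |G (i + 1)| := by
  refine (own_head_aux G h0 j).trans ?_
  apply mul_le_mul_of_nonneg_left _ (by norm_num)
  apply Finset.sum_le_sum_of_subset_of_nonneg
  · intro i hi
    exact Finset.mem_range.2 (lt_of_lt_of_le (Finset.mem_range.1 hi) hj)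
  · intro i _ _
    exact mul_nonneg (abs_nonneg _) (abs_nonneg _)

/-- the same with dominating weights -/
theorem own_head_w (G w : ℕ → ℝ) (h0 : G 0 = 0) (n j : ℕ) (hj : j ≤ n)
    (hw : ∀ i, i < n → |G (i + 1) - G i| ≤ w i) :
    G j ^ 2 ≤ 2 * ∑ i ∈ Finset.range n, w i * |G (i + 1)| := by
  refine (own_head G h0 n j hj).trans ?_
  apply mul_le_mul_of_nonneg_left _ (by norm_num)
  apply Finset.sum_le_sum
  intro i hi
  exact mul_le_mul_of_nonneg_right (hw i (Finset.mem_range.1 hi)) (abs_nonneg _)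

/-- a sequence ending at `0` -/
theorem own_tail (G : ℕ → ℝ) (n : ℕ) (hn : G n = 0) (j : ℕ) (hj : j ≤ n) :
    G j ^ 2 ≤ 2 * ∑ i ∈ Finset.range n, |G (i + 1) - G i| * |G i| := by
  have h := own_head (fun i => G (n - i)) (by simpa using hn) n (n - j) (Nat.sub_le _ _)
  have e1 : n - (n - j) = j := by omega
  simp only [e1] at h
  refine h.trans (le_of_eq ?_)
  congr 1
  rw [← Finset.sum_range_reflect]
  apply Finset.sum_congr rfl
  intro i hi
  have hi' := Finset.mem_range.1 hi
  have e2 : n - (n - 1 - i + 1) = i := by omega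
  have e3 : n - (n - 1 - i) = i + 1 := by omega
  rw [e2, e3, abs_sub_comm]

theorem own_tail_w (G w : ℕ → ℝ) (n : ℕ) (hn : G n = 0) (j : ℕ) (hj : j ≤ n)
    (hw : ∀ i, i < n → |G (i + 1) - G i| ≤ w i) :
    G j ^ 2 ≤ 2 * ∑ i ∈ Finset.range n, w i * |G i| := by
  refine (own_tail G n hn j hj).trans ?_
  apply mul_le_mul_of_nonneg_left _ (by norm_num)
  apply Finset.sum_le_sum
  intro i hi
  exact mul_le_mul_of_nonneg_right (hw i (Finset.mem_range.1 hi)) (abs_nonneg _)

end Vale.Agent.P125.Poly93
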