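import Vale.Agent.P125.Poly.StepF_43
import Vale.Agent.P125.Poly.Api75
import Vale.Agent.P125.Poly.Own_93

set_option linter.unusedSectionVars false
set_option linter.unusedVariables false

/-!
# P125, polynomial rate: the core bound on the block drifts (steps (C), (D), (E) with (F))

Coordinates are indexed by `k < n` in `ℕ`.  `Δ k` is the `k`-th coordinate function, `Fp Δ k` the sum
of the coordinates `≤ k`, `b k ≥ 0` arbitrary weights.
-/

namespace Vale.Agent.P125.P52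

open scoped BigOperators
open Vale.Agent.P125.Dich Vale.Agent.P125.Poly43

variable {S : Type} [Fintype S] [DecidableEq S]

lemma selfadj {μ : S → ℝ} {R : Matrix S S ℝ} (h : IsChain μ R) (g k : S → ℝ) :
    ∑ a, μ a * (g a * R.mulVec k a) = ∑ a, μ a * (R.mulVec g a * k a) := by
  simp only [mv_apply, Finset.mul_sum, Finset.sum_mul]
  rw [Finset.sum_comm]
  refine Finset.sum_congr rfl fun b _ => Finset.sum_congr rfl fun a _ => ?_
  have := h.2.2.2.2 a b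
  calc μ a * (g a * (R a b * k b)) = (μ a * R a b) * (g a * k b) := by ring
    _ = (μ b * R b a) * (g a * k b) := by rw [this]
    _ = μ b * (R b a * g a * k b) := by ring

lemma mv_sum (R : Matrix S S ℝ) (s : Finset ℕ) (g : ℕ → S → ℝ) (a : S) :
    R.mulVec (fun z => ∑ k ∈ s, g k z) a = ∑ k ∈ s, R.mulVec (g k) a := by
  simp only [mv_apply, Finset.mul_sum]
  rw [Finset.sum_comm]

lemma swap3 (X : ℕ → S → S → ℝ) (n : ℕ) :
    ∑ a, ∑ c, ∑ k ∈ Finset.range n, X k a c = ∑ k ∈ Finset.range n, ∑ a, ∑ c, X k a c := by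
  calc ∑ a, ∑ c, ∑ k ∈ Finset.range n, X k a c
      = ∑ a, ∑ k ∈ Finset.range n, ∑ c, X k a c :=
        Finset.sum_congr rfl fun a _ => Finset.sum_comm
    _ = ∑ k ∈ Finset.range n, ∑ a, ∑ c, X k a c := Finset.sum_comm

/-- a sign with `sg x * x = |x|` -/
noncomputable def sg (x : ℝ) : ℝ := if 0 ≤ x then 1 else -1

lemma sg_mul (x : ℝ) : sg x * x = |x| := by
  unfold sg
  split_ifs with h
  · rw [one_mul, abs_of_nonneg h]
  · rw [abs_of_neg (not_le.1 h)]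
    ring

lemma abs_sg (x : ℝ) : |sg x| = 1 := by
  unfold sg
  split_ifs <;> simp

/-- sum of the coordinates `≤ k` -/
def Fp (Δ : ℕ → S → ℝ) (k : ℕ) (x : S) : ℝ := ∑ i ∈ Finset.range (k + 1), Δ i x

/-- block drift -/
def hk (P : Matrix S S ℝ) (τ : ℕ) (Δ : ℕ → S → ℝ) (k : ℕ) (z : S) : ℝ :=
  (P ^ τ).mulVec (Fp Δ k) z - Fp Δ k z

noncomputable def zt (P : Matrix S S ℝ) (τ : ℕ) (Δ b : ℕ → S → ℝ) (k : ℕ) (z : S) : ℝ :=
  sg (hk P τ Δ k z) * b k z

noncomputable def mm (P : Matrix S S ℝ) (τ : ℕ) (Δ b : ℕ → S → ℝ) (k : ℕ) : S → ℝ :=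
  (Av P τ).mulVec (zt P τ Δ b k)

noncomputable def ph (P : Matrix S S ℝ) (τ : ℕ) (Δ b : ℕ → S → ℝ) (n i : ℕ) (z : S) : ℝ :=
  ∑ k ∈ Finset.Ico i n, zt P τ Δ b k z

noncomputable def vv (P : Matrix S S ℝ) (τ : ℕ) (Δ b : ℕ → S → ℝ) (n i : ℕ) : S → ℝ :=
  (Av P τ).mulVec (ph P τ Δ b n i)

def LL (b : ℕ → S → ℝ) (n : ℕ) (y : S) : ℝ := ∑ k ∈ Finset.range n, b k y

noncomputable def nu (P : Matrix S S ℝ) (τ : ℕ) (b : ℕ → S → ℝ) (k : ℕ) : S → ℝ :=
  (Av P τ).mulVec (b k)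

noncomputable def gr (P : Matrix S S ℝ) (τ : ℕ) (Δ b : ℕ → S → ℝ) (n k : ℕ) (a : S) : ℝ :=
  ∑ c, P a c * |vv P τ Δ b n k c - vv P τ Δ b n k a|

section

variable {μ : S → ℝ} {P : Matrix S S ℝ} (hc : IsChain μ P) (τ : ℕ) (hτ : 1 ≤ τ) (n : ℕ)
  (Δ b : ℕ → S → ℝ) (hb : ∀ k y, 0 ≤ b k y)

include hb in
lemma abs_zt (k : ℕ) (z : S) : |zt P τ Δ b k z| ≤ b k z := by
  unfold zt
  rw [abs_mul, abs_sg, one_mul, abs_of_nonneg (hb k z)]

include hb in
lemma abs_ph (i : ℕ) (z : S) : |ph P τ Δ b n i z| ≤ LL b n z := by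
  unfold ph LL
  refine (Finset.abs_sum_le_sum_abs _ _).trans ?_
  refine (Finset.sum_le_sum fun k _ => abs_zt τ Δ b hb k z).trans ?_
  apply Finset.sum_le_sum_of_subset_of_nonneg
  · intro k hk
    exact Finset.mem_range.2 (Finset.mem_Ico.1 hk).2
  · intro k _ _
    exact hb k z

lemma vv_eq (i : ℕ) (a : S) :
    vv P τ Δ b n i a = ∑ k ∈ Finset.Ico i n, mm P τ Δ b k a := by
  unfold vv mm ph
  exact mv_sum _ _ _ a

lemma vv_succ (i : ℕ) (hi : i < n) (a : S) :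
    vv P τ Δ b n i a = mm P τ Δ b i a + vv P τ Δ b n (i + 1) a := by
  rw [vv_eq, vv_eq, Finset.sum_eq_sum_Ico_succ_bot hi]

lemma vv_top (a : S) : vv P τ Δ b n n a = 0 := by
  rw [vv_eq]
  simp

include hc hτ in
/-- steps (C1), (C2): one coordinate -/
lemma drift_one (k : ℕ) :
    ∑ z, μ z * (b k z * |hk P τ Δ k z|) =
      -((τ : ℝ) / 2) * ∑ a, ∑ c, μ a * P a c *
        ((Fp Δ k c - Fp Δ k a) * (mm P τ Δ b k c - mm P τ Δ b k a)) := by
  have hτ0 : (0 : ℝ) < τ := by exact_mod_cast hτ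
  have e1 : ∑ z, μ z * (b k z * |hk P τ Δ k z|) =
      ∑ z, μ z * (zt P τ Δ b k z * (P ^ τ).mulVec (Fp Δ k) z)
        - ∑ z, μ z * (zt P τ Δ b k z * Fp Δ k z) := by
    rw [← Finset.sum_sub_distrib]
    refine Finset.sum_congr rfl fun z _ => ?_
    have : zt P τ Δ b k z * hk P τ Δ k z = b k z * |hk P τ Δ k z| := by
      unfold zt
      rw [← sg_mul (hk P τ Δ k z)]
      ring
    rw [← this]
    unfold hk
    ring
  rw [e1, selfadj (isChain_pow hc τ), ← Finset.sum_sub_distrib]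
  have e2 : ∀ z, μ z * ((P ^ τ).mulVec (zt P τ Δ b k) z * Fp Δ k z)
      - μ z * (zt P τ Δ b k z * Fp Δ k z) =
      (τ : ℝ) * (μ z * Fp Δ k z *
        (Poly75.op P (mm P τ Δ b k) z - mm P τ Δ b k z)) := by
    intro z
    have h := P_Av_sub P τ (zt P τ Δ b k) z
    have h' : Poly75.op P (mm P τ Δ b k) z - mm P τ Δ b k z =
        (1 / (τ : ℝ)) * ((P ^ τ).mulVec (zt P τ Δ b k) z - zt P τ Δ b k z) := h
    rw [h']
    field_simp
  rw [Finset.sum_congr rfl fun z _ => e2 z, ← Finset.mul_sum]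
  have hd := Poly75.dirichlet hc (Fp Δ k) (mm P τ Δ b k)
  unfold Poly75.ip at hd
  rw [hd]
  ring

lemma abel (x y : ℕ → ℝ) :
    ∑ k ∈ Finset.range n, (∑ i ∈ Finset.range (k + 1), x i) * y k =
      ∑ i ∈ Finset.range n, x i * ∑ k ∈ Finset.Ico i n, y k := by
  simp only [Finset.sum_mul, Finset.mul_sum]
  apply Finset.sum_comm'
  intro k i
  simp only [Finset.mem_range, Finset.mem_Ico]
  omega

include hc hτ in
/-- steps (C1)-(C3) -/
lemma drift_all :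
    ∑ k ∈ Finset.range n, ∑ z, μ z * (b k z * |hk P τ Δ k z|) =
      -((τ : ℝ) / 2) * ∑ a, ∑ c, μ a * P a c * ∑ i ∈ Finset.range n,
        (Δ i c - Δ i a) * (vv P τ Δ b n i c - vv P τ Δ b n i a) := by
  rw [Finset.sum_congr rfl fun k _ => drift_one hc τ hτ Δ b k, ← Finset.mul_sum]
  congr 1
  rw [Finset.sum_comm]
  refine Finset.sum_congr rfl fun a _ => ?_
  rw [Finset.sum_comm]
  refine Finset.sum_congr rfl fun c _ => ?_
  rw [← Finset.mul_sum]
  congr 1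
  have h := abel n (fun i => Δ i c - Δ i a) (fun k => mm P τ Δ b k c - mm P τ Δ b k a)
  have e1 : ∀ k, (Fp Δ k c - Fp Δ k a) = ∑ i ∈ Finset.range (k + 1), (Δ i c - Δ i a) := by
    intro k
    unfold Fp
    rw [Finset.sum_sub_distrib]
  have e2 : ∀ i, vv P τ Δ b n i c - vv P τ Δ b n i a =
      ∑ k ∈ Finset.Ico i n, (mm P τ Δ b k c - mm P τ Δ b k a) := by
    intro i
    rw [vv_eq, vv_eq, Finset.sum_sub_distrib]
  simp only [e1, e2]
  exact h

include hc hτ hb in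
lemma abs_mm (k : ℕ) (a : S) : |mm P τ Δ b k a| ≤ nu P τ b k a :=
  mv_abs_le (isChain_Av hc τ hτ) (abs_zt τ Δ b hb k) a

include hc hτ hb in
/-- step (D) -/
lemma own_D (a c : S) (i : ℕ) (hi : i ≤ n) :
    (vv P τ Δ b n i c - vv P τ Δ b n i a) ^ 2 ≤
      2 * ∑ k ∈ Finset.range n, (nu P τ b k a + nu P τ b k c) *
        |vv P τ Δ b n k c - vv P τ Δ b n k a| := by
  apply Poly93.own_tail_w (fun i => vv P τ Δ b n i c - vv P τ Δ b n i a)
    (fun k => nu P τ b k a + nu P τ b k c) n (by simp [vv_top]) i hi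
  intro k hk
  have h1 := vv_succ (P := P) τ n Δ b k hk a
  have h2 := vv_succ (P := P) τ n Δ b k hk c
  have h3 := abs_mm hc τ hτ Δ b hb k a
  have h4 := abs_mm hc τ hτ Δ b hb k c
  have : vv P τ Δ b n (k + 1) c - vv P τ Δ b n (k + 1) a - (vv P τ Δ b n k c - vv P τ Δ b n k a)
      = mm P τ Δ b k a - mm P τ Δ b k c := by
    rw [h1, h2]
    ring
  show |vv P τ Δ b n (k + 1) c - vv P τ Δ b n (k + 1) a -
    (vv P τ Δ b n k c - vv P τ Δ b n k a)| ≤ _
  rw [this]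
  exact (abs_sub _ _).trans (add_le_add h3 h4)

include hc in
/-- step (E), symmetry -/
lemma sym_E (k : ℕ) :
    ∑ a, ∑ c, μ a * P a c * ((nu P τ b k a + nu P τ b k c) *
        |vv P τ Δ b n k c - vv P τ Δ b n k a|) =
      2 * ∑ a, μ a * (nu P τ b k a * gr P τ Δ b n k a) := by
  have e1 : ∑ a, ∑ c, μ a * P a c * (nu P τ b k c * |vv P τ Δ b n k c - vv P τ Δ b n k a|) =
      ∑ a, ∑ c, μ a * P a c * (nu P τ b k a * |vv P τ Δ b n k c - vv P τ Δ b n k a|) := by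
    rw [Finset.sum_comm]
    refine Finset.sum_congr rfl fun c _ => Finset.sum_congr rfl fun a _ => ?_
    rw [hc.2.2.2.2 a c, abs_sub_comm]
  have e2 : ∑ a, ∑ c, μ a * P a c * (nu P τ b k a * |vv P τ Δ b n k c - vv P τ Δ b n k a|) =
      ∑ a, μ a * (nu P τ b k a * gr P τ Δ b n k a) := by
    refine Finset.sum_congr rfl fun a _ => ?_
    unfold gr
    rw [Finset.mul_sum, Finset.mul_sum]
    refine Finset.sum_congr rfl fun c _ => ?_
    ring
  have e3 : ∑ a, ∑ c, μ a * P a c * ((nu P τ b k a + nu P τ b k c) *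
        |vv P τ Δ b n k c - vv P τ Δ b n k a|) =
      ∑ a, ∑ c, μ a * P a c * (nu P τ b k a * |vv P τ Δ b n k c - vv P τ Δ b n k a|) +
      ∑ a, ∑ c, μ a * P a c * (nu P τ b k c * |vv P τ Δ b n k c - vv P τ Δ b n k a|) := by
    rw [← Finset.sum_add_distrib]
    refine Finset.sum_congr rfl fun a _ => ?_
    rw [← Finset.sum_add_distrib]
    refine Finset.sum_congr rfl fun c _ => ?_
    ring
  rw [e3, e1, e2]
  ring

lemma Av_mv (g : S → ℝ) (y : S) :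
    (Av P τ).mulVec g y = (1 / (τ : ℝ)) * ∑ i ∈ Finset.range τ, (P ^ i).mulVec g y := by
  simp only [mv_apply, Av_apply]
  rw [Finset.sum_comm, Finset.mul_sum]
  refine Finset.sum_congr rfl fun c _ => ?_
  rw [mul_assoc, Finset.sum_mul]

include hc hτ hb in
/-- steps (E), (F): the averaged gradient is small, uniformly in `k` -/
lemma Agr_sq (k : ℕ) (y : S) :
    ((Av P τ).mulVec (gr P τ Δ b n k) y) ^ 2 ≤ EnS P τ 0 (LL b n) y / τ := by
  have hτ0 : (0 : ℝ) < τ := by exact_mod_cast hτ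
  have hA := isChain_Av hc τ hτ
  have h1 := mv_jensen hA (gr P τ Δ b n k) y
  have h2 : ∀ a, gr P τ Δ b n k a ^ 2 ≤ Gam P (vv P τ Δ b n k) a := by
    intro a
    have := mv_jensen hc (fun c => |vv P τ Δ b n k c - vv P τ Δ b n k a|) a
    simp only [sq_abs] at this
    exact this
  have h3 := mv_mono hA h2 y
  have h4 := F1 hc τ 0 hτ (ph P τ Δ b n k) (LL b n) (abs_ph τ n Δ b hb k) y
  simp only [zero_add] at h4
  have h5 : (Av P τ).mulVec (Gam P (vv P τ Δ b n k)) y ≤ EnS P τ 0 (LL b n) y / τ := by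
    rw [Av_mv]
    have e : EnS P τ 0 (LL b n) y / τ = (1 / (τ : ℝ)) * EnS P τ 0 (LL b n) y := by ring
    rw [e]
    exact mul_le_mul_of_nonneg_left h4 (by positivity)
  exact h1.trans (h3.trans h5)

include hc hτ hb in
lemma EnS_nonneg (y : S) : 0 ≤ EnS P τ 0 (LL b n) y := by
  have hτ0 : (0 : ℝ) < τ := by exact_mod_cast hτ
  have h := Agr_sq hc τ hτ n (fun _ _ => 0) b hb 0 y
  have h2 : 0 ≤ EnS P τ 0 (LL b n) y / τ := (sq_nonneg _).trans h
  have := mul_nonneg h2 hτ0.le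
  rwa [div_mul_cancel₀ _ hτ0.ne'] at this

include hc hτ hb in
/-- the weighted sum of the gradients -/
lemma sum_nu_gr (κ : ℝ) (hκ : 0 < κ) :
    ∑ k ∈ Finset.range n, ∑ a, μ a * (nu P τ b k a * gr P τ Δ b n k a) ≤
      (κ / 2 + 5 / (2 * κ * τ)) * ∑ y, μ y * LL b n y ^ 2 := by
  have hτ0 : (0 : ℝ) < τ := by exact_mod_cast hτ
  have hA := isChain_Av hc τ hτ
  have e1 : ∀ k, ∑ a, μ a * (nu P τ b k a * gr P τ Δ b n k a) =
      ∑ y, μ y * (b k y * (Av P τ).mulVec (gr P τ Δ b n k) y) := by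
    intro k
    exact (selfadj hA (b k) (gr P τ Δ b n k)).symm
  rw [Finset.sum_congr rfl fun k _ => e1 k, Finset.sum_comm]
  have h2 : ∀ y, ∑ k ∈ Finset.range n, μ y * (b k y * (Av P τ).mulVec (gr P τ Δ b n k) y) ≤
      μ y * (κ / 2 * LL b n y ^ 2 + 1 / (2 * κ * τ) * EnS P τ 0 (LL b n) y) := by
    intro y
    set e := Real.sqrt (EnS P τ 0 (LL b n) y / τ) with he
    have he2 : e ^ 2 = EnS P τ 0 (LL b n) y / τ :=
      Real.sq_sqrt (div_nonneg (EnS_nonneg hc τ hτ n b hb y) hτ0.le)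
    have h3 : ∀ k, (Av P τ).mulVec (gr P τ Δ b n k) y ≤ e := fun k =>
      (le_abs_self _).trans (Real.abs_le_sqrt (Agr_sq hc τ hτ n Δ b hb k y))
    rw [← Finset.mul_sum]
    apply mul_le_mul_of_nonneg_left _ (hc.1 y)
    have h4 : ∑ k ∈ Finset.range n, b k y * (Av P τ).mulVec (gr P τ Δ b n k) y ≤ LL b n y * e := by
      unfold LL
      rw [Finset.sum_mul]
      exact Finset.sum_le_sum fun k _ => mul_le_mul_of_nonneg_left (h3 k) (hb k y)
    have h5 : LL b n y * e ≤ κ / 2 * LL b n y ^ 2 + 1 / (2 * κ) * e ^ 2 := by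
      have h6 : 0 ≤ (κ * LL b n y - e) ^ 2 / (2 * κ) := by positivity
      have h7 : (κ * LL b n y - e) ^ 2 / (2 * κ) =
          κ / 2 * LL b n y ^ 2 + 1 / (2 * κ) * e ^ 2 - LL b n y * e := by
        field_simp
        ring
      linarith
    rw [he2] at h5
    have h8 : 1 / (2 * κ) * (EnS P τ 0 (LL b n) y / τ) =
        1 / (2 * κ * τ) * EnS P τ 0 (LL b n) y := by
      field_simp
    linarith
  refine (Finset.sum_le_sum fun y _ => h2 y).trans ?_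
  have hF2 := F2 hc τ 0 hτ (LL b n)
  have e3 : ∑ y, μ y * (κ / 2 * LL b n y ^ 2 + 1 / (2 * κ * τ) * EnS P τ 0 (LL b n) y) =
      κ / 2 * ∑ y, μ y * LL b n y ^ 2 + 1 / (2 * κ * τ) * ∑ y, μ y * EnS P τ 0 (LL b n) y := by
    rw [Finset.mul_sum, Finset.mul_sum, ← Finset.sum_add_distrib]
    refine Finset.sum_congr rfl fun y _ => ?_
    ring
  rw [e3]
  have h9 : 1 / (2 * κ * τ) * ∑ y, μ y * EnS P τ 0 (LL b n) y ≤
      1 / (2 * κ * τ) * (5 * ∑ y, μ y * LL b n y ^ 2) :=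
    mul_le_mul_of_nonneg_left hF2 (by positivity)
  have e4 : (κ / 2 + 5 / (2 * κ * τ)) * ∑ y, μ y * LL b n y ^ 2 =
      κ / 2 * ∑ y, μ y * LL b n y ^ 2 + 1 / (2 * κ * τ) * (5 * ∑ y, μ y * LL b n y ^ 2) := by
    ring
  rw [e4]
  linarith

include hc hτ hb in
/-- **The core bound.** -/
theorem core (θ κ : ℝ) (hθ : 0 < θ) (hκ : 0 < κ) :
    ∑ k ∈ Finset.range n, ∑ z, μ z * (b k z * |hk P τ Δ k z|) ≤
      ((τ : ℝ) / 2) * (θ / 2 * ∑ a, ∑ c, μ a * P a c * (∑ i ∈ Finset.range n, |Δ i c - Δ i a|) ^ 2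
        + 2 / θ * ((κ / 2 + 5 / (2 * κ * τ)) * ∑ y, μ y * LL b n y ^ 2)) := by
  have hτ0 : (0 : ℝ) < τ := by exact_mod_cast hτ
  rw [drift_all hc τ hτ n Δ b]
  -- pointwise bound
  have hpt : ∀ a c, -(∑ i ∈ Finset.range n,
      (Δ i c - Δ i a) * (vv P τ Δ b n i c - vv P τ Δ b n i a)) ≤
      θ / 2 * (∑ i ∈ Finset.range n, |Δ i c - Δ i a|) ^ 2 + 1 / (2 * θ) *
        (2 * ∑ k ∈ Finset.range n, (nu P τ b k a + nu P τ b k c) *
          |vv P τ Δ b n k c - vv P τ Δ b n k a|) := by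
    intro a c
    set X2 := 2 * ∑ k ∈ Finset.range n, (nu P τ b k a + nu P τ b k c) *
          |vv P τ Δ b n k c - vv P τ Δ b n k a| with hX2
    set l := ∑ i ∈ Finset.range n, |Δ i c - Δ i a| with hl
    have hX0 : 0 ≤ X2 := by
      have := own_D hc τ hτ n Δ b hb a c n le_rfl
      exact (sq_nonneg _).trans this
    set x := Real.sqrt X2 with hx
    have hx2 : x ^ 2 = X2 := Real.sq_sqrt hX0
    have h1 : -(∑ i ∈ Finset.range n,
        (Δ i c - Δ i a) * (vv P τ Δ b n i c - vv P τ Δ b n i a)) ≤ l * x := by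
      rw [← Finset.sum_neg_distrib, hl, Finset.sum_mul]
      refine Finset.sum_le_sum fun i hi => ?_
      have h2 : |vv P τ Δ b n i c - vv P τ Δ b n i a| ≤ x :=
        Real.abs_le_sqrt (own_D hc τ hτ n Δ b hb a c i (Finset.mem_range.1 hi).le)
      calc -((Δ i c - Δ i a) * (vv P τ Δ b n i c - vv P τ Δ b n i a))
          ≤ |(Δ i c - Δ i a) * (vv P τ Δ b n i c - vv P τ Δ b n i a)| := neg_le_abs _
        _ = |Δ i c - Δ i a| * |vv P τ Δ b n i c - vv P τ Δ b n i a| := abs_mul _ _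
        _ ≤ |Δ i c - Δ i a| * x := mul_le_mul_of_nonneg_left h2 (abs_nonneg _)
    have h3 : l * x ≤ θ / 2 * l ^ 2 + 1 / (2 * θ) * x ^ 2 := by
      have h6 : 0 ≤ (θ * l - x) ^ 2 / (2 * θ) := by positivity
      have h7 : (θ * l - x) ^ 2 / (2 * θ) = θ / 2 * l ^ 2 + 1 / (2 * θ) * x ^ 2 - l * x := by
        field_simp
        ring
      linarith
    rw [hx2] at h3
    exact h1.trans h3
  have h1 : -((τ : ℝ) / 2) * ∑ a, ∑ c, μ a * P a c * ∑ i ∈ Finset.range n,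
        (Δ i c - Δ i a) * (vv P τ Δ b n i c - vv P τ Δ b n i a) =
      ((τ : ℝ) / 2) * ∑ a, ∑ c, μ a * P a c * -(∑ i ∈ Finset.range n,
        (Δ i c - Δ i a) * (vv P τ Δ b n i c - vv P τ Δ b n i a)) := by
    simp only [mul_neg, Finset.sum_neg_distrib]
    ring
  rw [h1]
  apply mul_le_mul_of_nonneg_left _ (by positivity)
  refine (Finset.sum_le_sum fun a _ => Finset.sum_le_sum fun c _ =>
    mul_le_mul_of_nonneg_left (hpt a c) (mul_nonneg (hc.1 a) (hc.2.2.1 a c))).trans ?_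
  have e5 : ∑ a, ∑ c, μ a * P a c * (θ / 2 * (∑ i ∈ Finset.range n, |Δ i c - Δ i a|) ^ 2 +
      1 / (2 * θ) * (2 * ∑ k ∈ Finset.range n, (nu P τ b k a + nu P τ b k c) *
          |vv P τ Δ b n k c - vv P τ Δ b n k a|)) =
      θ / 2 * ∑ a, ∑ c, μ a * P a c * (∑ i ∈ Finset.range n, |Δ i c - Δ i a|) ^ 2 +
      1 / θ * ∑ k ∈ Finset.range n, ∑ a, ∑ c, μ a * P a c * ((nu P τ b k a + nu P τ b k c) *
        |vv P τ Δ b n k c - vv P τ Δ b n k a|) := by
    have s1 : ∀ a c, μ a * P a c * (θ / 2 * (∑ i ∈ Finset.range n, |Δ i c - Δ i a|) ^ 2 +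
        1 / (2 * θ) * (2 * ∑ k ∈ Finset.range n, (nu P τ b k a + nu P τ b k c) *
          |vv P τ Δ b n k c - vv P τ Δ b n k a|)) =
        θ / 2 * (μ a * P a c * (∑ i ∈ Finset.range n, |Δ i c - Δ i a|) ^ 2) +
        1 / θ * ∑ k ∈ Finset.range n, μ a * P a c * ((nu P τ b k a + nu P τ b k c) *
          |vv P τ Δ b n k c - vv P τ Δ b n k a|) := by
      intro a c
      rw [← Finset.mul_sum]
      field_simp
    have s2 : ∑ a, ∑ c, ∑ k ∈ Finset.range n, μ a * P a c * ((nu P τ b k a + nu P τ b k c) *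
          |vv P τ Δ b n k c - vv P τ Δ b n k a|) =
        ∑ k ∈ Finset.range n, ∑ a, ∑ c, μ a * P a c * ((nu P τ b k a + nu P τ b k c) *
          |vv P τ Δ b n k c - vv P τ Δ b n k a|) :=
      swap3 (fun k a c => μ a * P a c * ((nu P τ b k a + nu P τ b k c) *
          |vv P τ Δ b n k c - vv P τ Δ b n k a|)) n
    rw [← s2, Finset.mul_sum, Finset.mul_sum, ← Finset.sum_add_distrib]
    refine Finset.sum_congr rfl fun a _ => ?_
    rw [Finset.mul_sum, Finset.mul_sum, ← Finset.sum_add_distrib]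
    exact Finset.sum_congr rfl fun c _ => s1 a c
  rw [e5, Finset.sum_congr rfl fun k _ => sym_E hc τ n Δ b k, ← Finset.mul_sum]
  have h9 := sum_nu_gr hc τ hτ n Δ b hb κ hκ
  have h10 : 1 / θ * (2 * ∑ k ∈ Finset.range n, ∑ a, μ a * (nu P τ b k a * gr P τ Δ b n k a)) ≤
      1 / θ * (2 * ((κ / 2 + 5 / (2 * κ * τ)) * ∑ y, μ y * LL b n y ^ 2)) :=
    mul_le_mul_of_nonneg_left (by linarith) (by positivity)
  have e6 : 2 / θ * ((κ / 2 + 5 / (2 * κ * τ)) * ∑ y, μ y * LL b n y ^ 2) =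
      1 / θ * (2 * ((κ / 2 + 5 / (2 * κ * τ)) * ∑ y, μ y * LL b n y ^ 2)) := by ring
  rw [e6]
  linarith

end

end Vale.Agent.P125.P52
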