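import Mathlib

set_option linter.unusedSectionVars false
set_option linter.unusedVariables false

/-!
# P125, polynomial rate: the final scalar step

Choice of the block length `τ = ⌈t^(2/3)⌉` and the arithmetic with real powers.
-/

namespace Vale.Agent.P125.Poly75

open scoped BigOperators

/-- the sixth root of `t` -/
lemma exists_root (t : ℕ) (ht : 1 ≤ t) :
    ∃ x : ℝ, 1 ≤ x ∧ x ^ 6 = (t : ℝ) ∧ x ^ 11 = (t : ℝ) ^ ((11 : ℝ) / 6) := by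
  have ht0 : (0 : ℝ) ≤ (t : ℝ) := Nat.cast_nonneg t
  have ht1 : (1 : ℝ) ≤ (t : ℝ) := by exact_mod_cast ht
  refine ⟨(t : ℝ) ^ ((1 : ℝ) / 6), ?_, ?_, ?_⟩
  · exact Real.one_le_rpow ht1 (by norm_num)
  · rw [← Real.rpow_natCast, ← Real.rpow_mul ht0]
    norm_num
  · rw [← Real.rpow_natCast, ← Real.rpow_mul ht0]
    norm_num

/-- the block length -/
lemma exists_tau (x : ℝ) (hx : 1 ≤ x) : ∃ τ : ℕ, 1 ≤ τ ∧ x ^ 4 ≤ (τ : ℝ) ∧ (τ : ℝ) ≤ 2 * x ^ 4 := by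
  have h1 : (1 : ℝ) ≤ x ^ 4 := one_le_pow₀ hx
  refine ⟨⌈x ^ 4⌉₊, ?_, Nat.le_ceil _, ?_⟩
  · have : (0 : ℝ) < x ^ 4 := by linarith
    exact Nat.ceil_pos.mpr this
  · have := Nat.ceil_lt_add_one (show (0 : ℝ) ≤ x ^ 4 by linarith)
    linarith

/-- the three terms for one value of `m` -/
lemma three_terms (x T m K : ℝ) (hx : 1 ≤ x) (hT1 : x ^ 4 ≤ T) (hT2 : T ≤ 2 * x ^ 4)
    (hm0 : 0 ≤ m) (hm : m * T ≤ x ^ 6) (hK0 : 0 ≤ K) (hK : K ^ 4 ≤ T ^ 3) :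
    Real.sqrt m * T + T + (3 / 2) * m * K ≤ 5 * x ^ 5 := by
  have hx0 : (0 : ℝ) < x := by linarith
  have hT0 : (0 : ℝ) < T := lt_of_lt_of_le (by positivity) hT1
  -- first term
  have a1 : Real.sqrt m * T ≤ (3 / 2) * x ^ 5 := by
    have e : Real.sqrt m * T = Real.sqrt (m * T ^ 2) := by
      rw [Real.sqrt_mul hm0, Real.sqrt_sq hT0.le]
    rw [e]
    apply Real.sqrt_le_iff.mpr
    refine ⟨by positivity, ?_⟩
    have : m * T ^ 2 ≤ x ^ 6 * (2 * x ^ 4) := by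
      calc m * T ^ 2 = (m * T) * T := by ring
        _ ≤ x ^ 6 * (2 * x ^ 4) := mul_le_mul hm hT2 hT0.le (by positivity)
    have h2 : x ^ 6 * (2 * x ^ 4) ≤ ((3 / 2) * x ^ 5) ^ 2 := by
      have : (0 : ℝ) ≤ x ^ 10 := by positivity
      nlinarith
    linarith
  -- second term
  have a2 : T ≤ 2 * x ^ 5 := by
    have : x ^ 4 ≤ x ^ 5 := pow_le_pow_right₀ hx (by norm_num)
    linarith
  -- third term
  have a3 : m * K ≤ x ^ 5 := by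
    have hmK0 : 0 ≤ m * K := mul_nonneg hm0 hK0
    have h4 : (m * K) ^ 4 ≤ (x ^ 5) ^ 4 := by
      have e1 : (m * K) ^ 4 * T ≤ (x ^ 6) ^ 4 := by
        calc (m * K) ^ 4 * T = m ^ 4 * K ^ 4 * T := by ring
          _ ≤ m ^ 4 * T ^ 3 * T := by
              apply mul_le_mul_of_nonneg_right _ hT0.le
              exact mul_le_mul_of_nonneg_left hK (by positivity)
          _ = (m * T) ^ 4 := by ring
          _ ≤ (x ^ 6) ^ 4 := pow_le_pow_left₀ (mul_nonneg hm0 hT0.le) hm 4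
      have e2 : (m * K) ^ 4 * x ^ 4 ≤ (m * K) ^ 4 * T :=
        mul_le_mul_of_nonneg_left hT1 (by positivity)
      have e3 : (m * K) ^ 4 * x ^ 4 ≤ (x ^ 5) ^ 4 * x ^ 4 := by
        calc (m * K) ^ 4 * x ^ 4 ≤ (x ^ 6) ^ 4 := e2.trans e1
          _ = (x ^ 5) ^ 4 * x ^ 4 := by ring
      exact le_of_mul_le_mul_right e3 (by positivity)
    exact le_of_pow_le_pow_left₀ (by norm_num) (by positivity) h4
  nlinarith

/-- the final scalar step -/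
theorem final_abs (t : ℕ) (ht : 1 ≤ t) (E W : ℝ) (hW : 0 ≤ W) (Q : ℕ → ℝ) (K : ℕ → ℝ)
    (hK : ∀ τ : ℕ, 0 ≤ K τ ∧ K τ ^ 4 ≤ (τ : ℝ) ^ 3)
    (hA : E ≤ 2 * (t : ℝ) * W + 4 * ∑ r ∈ Finset.range t, Q r)
    (hQ : ∀ τ : ℕ, 1 ≤ τ → ∀ r : ℕ, Q r ≤
      (Real.sqrt ((r / τ : ℕ) : ℝ) * (τ : ℝ) + (τ : ℝ) + (3 / 2) * ((r / τ : ℕ) : ℝ) * K τ) * W) :
    E ≤ 22 * (t : ℝ) ^ ((11 : ℝ) / 6) * W := by
  obtain ⟨x, hx, hx6, hx11⟩ := exists_root t ht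
  obtain ⟨τ, hτ1, hτa, hτb⟩ := exists_tau x hx
  have hx0 : (0 : ℝ) < x := by linarith
  have hq : ∀ r ∈ Finset.range t, Q r ≤ 5 * x ^ 5 * W := by
    intro r hr
    have hr' : r < t := Finset.mem_range.mp hr
    refine (hQ τ hτ1 r).trans (mul_le_mul_of_nonneg_right ?_ hW)
    refine three_terms x τ _ (K τ) hx hτa hτb (Nat.cast_nonneg _) ?_ (hK τ).1 (hK τ).2
    have h1 : (r / τ) * τ ≤ r := Nat.div_mul_le_self r τ
    have h2 : (((r / τ : ℕ) : ℝ)) * (τ : ℝ) ≤ (t : ℝ) := by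
      have : (r / τ) * τ ≤ t := h1.trans hr'.le
      exact_mod_cast this
    rw [hx6]
    exact h2
  have hs : ∑ r ∈ Finset.range t, Q r ≤ (t : ℝ) * (5 * x ^ 5 * W) := by
    have := Finset.sum_le_card_nsmul (Finset.range t) Q (5 * x ^ 5 * W) hq
    simpa using this
  rw [← hx11]
  rw [← hx6] at hs hA
  have h611 : x ^ 6 ≤ x ^ 11 := pow_le_pow_right₀ hx (by norm_num)
  have e : 2 * x ^ 6 * W + 4 * (x ^ 6 * (5 * x ^ 5 * W)) = (2 * x ^ 6 + 20 * x ^ 11) * W := by ring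
  have : (2 * x ^ 6 + 20 * x ^ 11) * W ≤ 22 * x ^ 11 * W :=
    mul_le_mul_of_nonneg_right (by linarith) hW
  linarith

end Vale.Agent.P125.Poly75
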