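import Vale.Agent.P125.Poly.Defs58
import Vale.Agent.P125.Poly.Final75

set_option linter.unusedSectionVars false
set_option linter.unusedVariables false

/-! # P125 Poly: the scalar end (`StCore`) -/

namespace Vale.Agent.P125.Poly

open scoped BigOperators
open Vale.Agent.P125.Dich

theorem stCore_67 (hlib : StLib) (hs : StSmall) (h1 : StTwo) (h2 : StQ) : StCore := by
  intro S _ _ μ P hc n f κ t ht
  have L := hlib S μ P hc
  obtain ⟨_, _, _, _, _, _, hU0, _, _, _⟩ := hs S μ P hc L n f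
  have hTwo := h1 S μ P hc L n f κ t
  obtain ⟨x, hx, hx6, hx11⟩ := Vale.Agent.P125.Poly75.exists_root t ht
  obtain ⟨τ, hτ1, hτa, hτb⟩ := Vale.Agent.P125.Poly75.exists_tau x hx
  have hx0 : (0 : ℝ) < x := by linarith
  have hτ0 : (0 : ℝ) < (τ : ℝ) := lt_of_lt_of_le (by positivity) hτa
  have hQ : ∀ t' : ℕ, t' < t → Qsum μ P f t' ≤ 5 * x ^ 5 * U μ P f := by
    intro t' ht'
    refine (h2 S μ P hc L n f τ t' hτ1).trans (mul_le_mul_of_nonneg_right ?_ hU0)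
    have ht'R : (t' : ℝ) ≤ x ^ 6 := by
      rw [hx6]
      exact_mod_cast ht'.le
    have ht'0 : (0 : ℝ) ≤ (t' : ℝ) := Nat.cast_nonneg t'
    have a1 : Real.sqrt ((t' : ℝ) * (τ : ℝ)) ≤ (3 / 2) * x ^ 5 := by
      apply Real.sqrt_le_iff.mpr
      refine ⟨by positivity, ?_⟩
      have h3 : (t' : ℝ) * (τ : ℝ) ≤ x ^ 6 * (2 * x ^ 4) :=
        mul_le_mul ht'R hτb hτ0.le (by positivity)
      have h4 : (0 : ℝ) ≤ x ^ 10 := by positivity
      nlinarith
    have a2 : (τ : ℝ) ≤ 2 * x ^ 5 := by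
      have : x ^ 4 ≤ x ^ 5 := pow_le_pow_right₀ hx (by norm_num)
      linarith
    have a3 : (t' : ℝ) * (τ : ℝ) ^ (-(1 / 4) : ℝ) ≤ x ^ 5 := by
      have b1 : (τ : ℝ) ^ (-(1 / 4) : ℝ) ≤ (x ^ 4 : ℝ) ^ (-(1 / 4) : ℝ) :=
        Real.rpow_le_rpow_of_nonpos (by positivity) hτa (by norm_num)
      have b2 : (x ^ 4 : ℝ) ^ (-(1 / 4) : ℝ) = x⁻¹ := by
        rw [← Real.rpow_natCast x 4, ← Real.rpow_mul hx0.le]
        norm_num
        exact Real.rpow_neg_one x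
      have b3 : 0 ≤ (τ : ℝ) ^ (-(1 / 4) : ℝ) := by positivity
      calc (t' : ℝ) * (τ : ℝ) ^ (-(1 / 4) : ℝ) ≤ x ^ 6 * x⁻¹ :=
            mul_le_mul ht'R (b1.trans b2.le) b3 (by positivity)
        _ = x ^ 5 := by field_simp
    linarith
  have hsum : ∑ r ∈ Finset.range t, (Qsum μ P f (t - 1 - r) + Qsum μ P f r) ≤
      (t : ℝ) * (10 * x ^ 5 * U μ P f) := by
    have h5 : ∀ r ∈ Finset.range t, Qsum μ P f (t - 1 - r) + Qsum μ P f r ≤ 10 * x ^ 5 * U μ P f := by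
      intro r hr
      have hr' : r < t := Finset.mem_range.mp hr
      have c1 := hQ (t - 1 - r) (by omega)
      have c2 := hQ r hr'
      linarith
    have := Finset.sum_le_card_nsmul (Finset.range t) _ (10 * x ^ 5 * U μ P f) h5
    simpa using this
  refine hTwo.trans ?_
  rw [← hx11]
  rw [← hx6] at hsum ⊢
  have h611 : x ^ 6 ≤ x ^ 11 := pow_le_pow_right₀ hx (by norm_num)
  have e : 2 * x ^ 6 * U μ P f + 2 * (x ^ 6 * (10 * x ^ 5 * U μ P f))
      = (2 * x ^ 6 + 20 * x ^ 11) * U μ P f := by ring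
  have h7 : (2 * x ^ 6 + 20 * x ^ 11) * U μ P f ≤ 24 * x ^ 11 * U μ P f :=
    mul_le_mul_of_nonneg_right (by nlinarith [pow_pos hx0 11]) hU0
  linarith

end Vale.Agent.P125.Poly
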