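import Vale.Agent.P125.Poly.Defs58

set_option linter.unusedSectionVars false
set_option linter.unusedVariables false

namespace Vale.Agent.P125.Poly

open scoped BigOperators
open Vale.Agent.P125.Dich

/-- scalar part: with `y = t^(1/6)`, `y^4 ≤ τ ≤ 2 y^4`, `t' ≤ t = y^6` -/
theorem core_scalar_84 (y T' τ : ℝ) (hy : 1 ≤ y) (h0 : 0 ≤ T') (hT' : T' ≤ y ^ 6)
    (hτ1 : y ^ 4 ≤ τ) (hτ2 : τ ≤ 2 * y ^ 4) :
    Real.sqrt (T' * τ) + τ + (3 / 2) * T' * τ ^ (-(1 / 4) : ℝ) ≤ 5 * y ^ 5 := by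
  have hy0 : 0 < y := by linarith
  have hy4 : 0 < y ^ 4 := by positivity
  have hτ0 : 0 < τ := by linarith
  have h1 : Real.sqrt (T' * τ) ≤ (3 / 2) * y ^ 5 := by
    rw [Real.sqrt_le_iff]
    refine ⟨by positivity, ?_⟩
    have : T' * τ ≤ y ^ 6 * (2 * y ^ 4) := mul_le_mul hT' hτ2 hτ0.le (by positivity)
    have h10 : 0 ≤ y ^ 10 := by positivity
    nlinarith
  have h2 : τ ≤ 2 * y ^ 5 := by
    have : y ^ 4 ≤ y ^ 5 := pow_le_pow_right₀ hy (by norm_num)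
    linarith
  have h3 : τ ^ (-(1 / 4) : ℝ) ≤ y⁻¹ := by
    have ha : τ ^ (-(1 / 4) : ℝ) ≤ (y ^ 4) ^ (-(1 / 4) : ℝ) :=
      Real.rpow_le_rpow_of_nonpos hy4 hτ1 (by norm_num)
    have hb : (y ^ 4) ^ (-(1 / 4) : ℝ) = y⁻¹ := by
      rw [← Real.rpow_natCast, ← Real.rpow_mul hy0.le, ← Real.rpow_neg_one]
      norm_num
    rwa [hb] at ha
  have h4 : (3 / 2) * T' * τ ^ (-(1 / 4) : ℝ) ≤ (3 / 2) * y ^ 5 := by
    have hpos : 0 ≤ τ ^ (-(1 / 4) : ℝ) := Real.rpow_nonneg hτ0.le _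
    calc (3 / 2) * T' * τ ^ (-(1 / 4) : ℝ) ≤ (3 / 2) * y ^ 6 * y⁻¹ := by
          apply mul_le_mul _ h3 hpos (by positivity)
          linarith
      _ = (3 / 2) * y ^ 5 := by
          field_simp
  have h5 : 2 * y ^ 4 ≤ 2 * y ^ 5 := by
    have : y ^ 4 ≤ y ^ 5 := pow_le_pow_right₀ hy (by norm_num)
    linarith
  linarith

theorem stCore_84 (hlib : StLib) (hs : StSmall) (h1 : StTwo) (h2 : StQ) : StCore := by
  intro S _ _ μ P hC n f κ t ht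
  have hL := hlib S μ P hC
  obtain ⟨-, -, -, -, -, -, hU, -, -, -⟩ := hs S μ P hC hL n f
  have hT1 : (1 : ℝ) ≤ (t : ℝ) := by exact_mod_cast ht
  have hT0 : (0 : ℝ) ≤ (t : ℝ) := by linarith
  obtain ⟨y, hy⟩ : ∃ y : ℝ, y = (t : ℝ) ^ (1 / 6 : ℝ) := ⟨_, rfl⟩
  have hy1 : 1 ≤ y := by
    rw [hy]
    exact Real.one_le_rpow hT1 (by norm_num)
  have hy0 : 0 < y := by linarith
  have hy6 : y ^ 6 = (t : ℝ) := by
    rw [hy, ← Real.rpow_natCast, ← Real.rpow_mul hT0]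
    norm_num
  have hy11 : (t : ℝ) ^ (11 / 6 : ℝ) = y ^ 11 := by
    rw [hy, ← Real.rpow_natCast, ← Real.rpow_mul hT0]
    norm_num
  -- the block length
  obtain ⟨τ, hτ⟩ : ∃ τ : ℕ, τ = Nat.ceil (y ^ 4) := ⟨_, rfl⟩
  have hy4 : 1 ≤ y ^ 4 := one_le_pow₀ hy1
  have hτ1 : y ^ 4 ≤ (τ : ℝ) := by rw [hτ]; exact Nat.le_ceil _
  have hτ2 : (τ : ℝ) ≤ 2 * y ^ 4 := by
    have : (τ : ℝ) < y ^ 4 + 1 := by rw [hτ]; exact Nat.ceil_lt_add_one (by linarith)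
    linarith
  have hτpos : 1 ≤ τ := by
    have : (1 : ℝ) ≤ (τ : ℝ) := le_trans hy4 hτ1
    exact_mod_cast this
  have hQ : ∀ t' : ℕ, t' ≤ t → Qsum μ P f t' ≤ 5 * y ^ 5 * U μ P f := by
    intro t' ht'
    have hq := h2 S μ P hC hL n f τ t' hτpos
    have hc : ((t' : ℕ) : ℝ) ≤ y ^ 6 := by rw [hy6]; exact_mod_cast ht'
    have hsc := core_scalar_84 y (t' : ℝ) (τ : ℝ) hy1 (Nat.cast_nonneg _) hc hτ1 hτ2
    exact le_trans hq (mul_le_mul_of_nonneg_right hsc hU)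
  have hTwo := h1 S μ P hC hL n f κ t
  have hsum : ∑ r ∈ Finset.range t, (Qsum μ P f (t - 1 - r) + Qsum μ P f r)
      ≤ ∑ r ∈ Finset.range t, (10 * y ^ 5 * U μ P f) := by
    refine Finset.sum_le_sum fun r hr => ?_
    have hr' := Finset.mem_range.mp hr
    have ha := hQ (t - 1 - r) (by omega)
    have hb := hQ r (by omega)
    linarith
  rw [Finset.sum_const, Finset.card_range, nsmul_eq_mul, ← hy6] at hsum
  rw [hy11]
  rw [← hy6] at hTwo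
  have h611 : y ^ 6 ≤ y ^ 11 := pow_le_pow_right₀ hy1 (by norm_num)
  have e : y ^ 6 * (10 * y ^ 5 * U μ P f) = 10 * y ^ 11 * U μ P f := by ring
  rw [e] at hsum
  have h3 : y ^ 6 * U μ P f ≤ y ^ 11 * U μ P f := mul_le_mul_of_nonneg_right h611 hU
  have h4 : 0 ≤ y ^ 11 * U μ P f := by positivity
  nlinarith

end Vale.Agent.P125.Poly
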