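import Vale.Agent.P125.BV.Top

set_option linter.unusedSectionVars false
set_option linter.unusedVariables false

/-!
# P125, polynomial rate for the summing operators: path-free form (board 579 + 624)

Definitions.  `F : ℕ → S → ℝ` is the profile (`F j x` = sum of the first `j` coordinates of `f x`),
`op R g` the action of a matrix on a function.
-/

namespace Vale.Agent.P125.Poly79

open scoped BigOperators
open Vale.Agent.P125.Dich Vale.Agent.P125.BV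

variable {S : Type} [Fintype S] [DecidableEq S]

/-- action of a matrix on a function -/
def op (R : Matrix S S ℝ) (g : S → ℝ) (x : S) : ℝ := ∑ y, R x y * g y

/-- increments of the profile -/
def dd (F : ℕ → S → ℝ) (k : ℕ) (x : S) : ℝ := F (k + 1) x - F k x

/-- the `ℓ_1` size of the pair `(a, b)` -/
def ll (n : ℕ) (F : ℕ → S → ℝ) (a b : S) : ℝ := ∑ k ∈ Finset.range n, |dd F k b - dd F k a|

/-- the one step energy -/
def WW (μ : S → ℝ) (P : Matrix S S ℝ) (n : ℕ) (F : ℕ → S → ℝ) : ℝ :=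
  ∑ a, ∑ b, μ a * P a b * ll n F a b ^ 2

/-- mean size of the `k`-th coordinate of an edge leaving `y` -/
def aa (P : Matrix S S ℝ) (F : ℕ → S → ℝ) (k : ℕ) (y : S) : ℝ :=
  ∑ b, P y b * |dd F k b - dd F k y|

/-- mean `ℓ_1` size of an edge leaving `y` -/
def lb (P : Matrix S S ℝ) (n : ℕ) (F : ℕ → S → ℝ) (y : S) : ℝ :=
  ∑ k ∈ Finset.range n, aa P F k y

/-- the selector quantity `Q(r)` -/
def QQ (μ : S → ℝ) (P : Matrix S S ℝ) (n : ℕ) (F : ℕ → S → ℝ) (r : ℕ) : ℝ :=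
  ∑ j ∈ Finset.range n, ∑ y, μ y * aa P F j y * ∑ z, (P ^ r) y z * |F (j + 1) z - F (j + 1) y|

/-- the drift of `F (j+1)` over a block of length `τ` -/
def hh (P : Matrix S S ℝ) (F : ℕ → S → ℝ) (τ j : ℕ) (z : S) : ℝ :=
  op (P ^ τ) (F (j + 1)) z - F (j + 1) z

/-- the drift quantity `R_s` -/
def RS (μ : S → ℝ) (P : Matrix S S ℝ) (n : ℕ) (F : ℕ → S → ℝ) (τ s : ℕ) : ℝ :=
  ∑ j ∈ Finset.range n, ∑ y, μ y * aa P F j y * op (P ^ s) (fun z => |hh P F τ j z|) y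

/-- sign with values `1`, `-1` -/
noncomputable def sg (x : ℝ) : ℝ := if 0 ≤ x then 1 else -1

/-- `φ'_j = sgn(h_j) P^s a_j` -/
noncomputable def ph (P : Matrix S S ℝ) (F : ℕ → S → ℝ) (τ s j : ℕ) (z : S) : ℝ :=
  sg (hh P F τ j z) * op (P ^ s) (aa P F j) z

/-- `Φ_k = ∑_{k ≤ j < n} φ'_j` -/
noncomputable def Ph (P : Matrix S S ℝ) (n : ℕ) (F : ℕ → S → ℝ) (τ s k : ℕ) (z : S) : ℝ :=
  ∑ j ∈ Finset.Ico k n, ph P F τ s j z

/-- `A g = ∑_{i<τ} P^i g` (not normalised) -/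
def Av (P : Matrix S S ℝ) (τ : ℕ) (g : S → ℝ) (z : S) : ℝ :=
  ∑ i ∈ Finset.range τ, op (P ^ i) g z

/-- `U_k = ∑_{i<τ} P^i Φ_k` -/
noncomputable def UU (P : Matrix S S ℝ) (n : ℕ) (F : ℕ → S → ℝ) (τ s k : ℕ) : S → ℝ :=
  Av P τ (Ph P n F τ s k)

/-- `N_k = ∑_{i<τ} P^i P^s a_k` -/
def NN (P : Matrix S S ℝ) (F : ℕ → S → ℝ) (τ s k : ℕ) : S → ℝ :=
  Av P τ (op (P ^ s) (aa P F k))

/-- `L = P^s lb` -/
def LL (P : Matrix S S ℝ) (n : ℕ) (F : ℕ → S → ℝ) (s : ℕ) : S → ℝ := op (P ^ s) (lb P n F)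

/-- own measure bound for the edge `(a, b)` -/
noncomputable def Xi (P : Matrix S S ℝ) (n : ℕ) (F : ℕ → S → ℝ) (τ s : ℕ) (a b : S) : ℝ :=
  2 * ∑ k ∈ Finset.range n, (NN P F τ s k a + NN P F τ s k b) *
    |UU P n F τ s k b - UU P n F τ s k a|

/-- `Y = E Ξ` -/
noncomputable def YY (μ : S → ℝ) (P : Matrix S S ℝ) (n : ℕ) (F : ℕ → S → ℝ) (τ s : ℕ) : ℝ :=
  ∑ a, ∑ b, μ a * P a b * Xi P n F τ s a b

/-- mean absolute gradient of `U` -/
def gr (P : Matrix S S ℝ) (U : S → ℝ) (a : S) : ℝ := ∑ b, P a b * |U b - U a|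

/-- mean square gradient of `U` -/
def Gam (P : Matrix S S ℝ) (U : S → ℝ) (a : S) : ℝ := ∑ b, P a b * (U b - U a) ^ 2

/-- `T = ∑_{i<τ} P^{s+i} gr U` -/
def TT (P : Matrix S S ℝ) (τ s : ℕ) (U : S → ℝ) (y : S) : ℝ :=
  ∑ i ∈ Finset.range τ, op (P ^ (s + i)) (gr P U) y

/-- the uniform energy bound -/
def EnS (P : Matrix S S ℝ) (τ s : ℕ) (L : S → ℝ) (y : S) : ℝ :=
  op (P ^ (s + τ)) (fun z => Av P τ L z ^ 2) y +
    2 * ∑ i ∈ Finset.range τ, op (P ^ (s + i)) (fun z => Av P τ L z * (op (P ^ τ) L z + L z)) y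

end Vale.Agent.P125.Poly79
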