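import Vale.Agent.P125.Poly.Defs58

set_option linter.unusedSectionVars false
set_option linter.unusedVariables false

namespace Vale.Agent.P125.Poly

open scoped BigOperators
open Vale.Agent.P125.Dich

theorem stDown_87 (h : StOwnT) (hs : StSmall) : StDown := by
  intro S _ _ μ P hP hL n f τ s a b j0
  obtain ⟨hom0, _, _, _, _, _, _, _, _, _⟩ := hs S μ P hP hL n f
  -- bound of zt
  have z1 : ∀ k z, |zt P f τ s k z| ≤ op P s (om P f k) z := by
    intro k z
    have p0 : 0 ≤ op P s (om P f k) z := by
      have := hL.op_mono s (fun _ => (0 : ℝ)) (om P f k) (fun y => hom0 k y) z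
      rwa [hL.op_const] at this
    unfold zt
    rw [abs_mul, abs_of_nonneg p0]
    have : |((SignType.sign (hh P f τ k z) : SignType) : ℝ)| ≤ 1 := by
      rcases SignType.trichotomy (SignType.sign (hh P f τ k z)) with h | h | h <;> rw [h] <;> simp
    calc |((SignType.sign (hh P f τ k z) : SignType) : ℝ)| * op P s (om P f k) z
        ≤ 1 * op P s (om P f k) z := mul_le_mul_of_nonneg_right this p0
      _ = _ := one_mul _
  have z2 : ∀ k y, |Mk P f τ s k y| ≤ NU P f τ s k y := by
    intro k y
    unfold Mk NU
    refine (Finset.abs_sum_le_sum_abs _ _).trans ?_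
    refine Finset.sum_le_sum fun i _ => ?_
    refine (hL.abs_op i (zt P f τ s k) y).trans ?_
    have := hL.op_mono i (fun z => |zt P f τ s k z|) (op P s (om P f k)) (fun z => z1 k z) y
    rwa [hL.op_op] at this
  have z3 : ∀ j, UU P f τ s j a - UU P f τ s j b =
      ∑ k, if j ≤ k then (Mk P f τ s k a - Mk P f τ s k b) else 0 := by
    intro j
    unfold UU
    rw [← Finset.sum_sub_distrib]
    refine Finset.sum_congr rfl fun k _ => ?_
    split_ifs <;> simp
  have z4 := h n (fun k => Mk P f τ s k a - Mk P f τ s k b)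
    (fun k => NU P f τ s k a + NU P f τ s k b)
    (fun k => by
      have e1 := z2 k a
      have e2 := z2 k b
      calc |Mk P f τ s k a - Mk P f τ s k b| ≤ |Mk P f τ s k a| + |Mk P f τ s k b| :=
            abs_sub _ _
        _ ≤ _ := add_le_add e1 e2) j0
  rw [z3 j0]
  refine z4.trans (le_of_eq ?_)
  congr 1
  refine Finset.sum_congr rfl fun k _ => ?_
  rw [z3 k]

end Vale.Agent.P125.Poly
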