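import Vale.Agent.P125.Poly.Defs_79
import Vale.Agent.P125.Poly.ApiA_79
import Vale.Agent.P125.Poly.ApiB_79

set_option linter.unusedSectionVars false
set_option linter.unusedVariables false

/-! # P125 polynomial rate, path-free form (board 624): step (C): RS as a pairing -/

namespace Vale.Agent.P125.Poly79

open scoped BigOperators
open Vale.Agent.P125.Dich Vale.Agent.P125.BV

variable {S : Type} [Fintype S] [DecidableEq S]

/-- ip_symm for `P^s` and `|x| = sg x * x` -/
theorem dualA {μ : S → ℝ} {P : Matrix S S ℝ} (hc : IsChain μ P) (n : ℕ) (F : ℕ → S → ℝ)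
    (τ s : ℕ) :
    RS μ P n F τ s = ∑ j ∈ Finset.range n, ∑ z, μ z * ph P F τ s j z * hh P F τ j z := by
  unfold RS
  refine Finset.sum_congr rfl fun j _ => ?_
  rw [ip_symm (isChain_pow hc s)]
  refine Finset.sum_congr rfl fun z _ => ?_
  unfold ph sg
  split_ifs with h
  · rw [abs_of_nonneg h]; ring
  · rw [abs_of_neg (not_le.mp h)]; ring

end Vale.Agent.P125.Poly79
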