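import Vale.Agent.P125.Poly.Defs_79
import Vale.Agent.P125.Poly.ApiA_79
import Vale.Agent.P125.Poly.ApiB_79

set_option linter.unusedSectionVars false
set_option linter.unusedVariables false

/-! # P125 polynomial rate, path-free form (board 624): step (C): Dirichlet form identity -/

namespace Vale.Agent.P125.Poly79

open scoped BigOperators
open Vale.Agent.P125.Dich Vale.Agent.P125.BV

variable {S : Type} [Fintype S] [DecidableEq S]

section aux93

variable {μ : S → ℝ} {P : Matrix S S ℝ}

/-- self-adjointness -/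
private theorem selfadj93 (h : IsChain μ P) (g k : S → ℝ) :
    ∑ x, μ x * g x * (P.mulVec k) x = ∑ x, μ x * (P.mulVec g) x * k x := by
  obtain ⟨h1, h2, h3, h4, h5⟩ := h
  simp only [Matrix.mulVec, dotProduct, Finset.mul_sum, Finset.sum_mul]
  rw [Finset.sum_comm]
  apply Finset.sum_congr rfl
  intro y _
  apply Finset.sum_congr rfl
  intro x _
  have := h5 x y
  calc μ x * g x * (P x y * k y) = (μ x * P x y) * (g x * k y) := by ring
    _ = (μ y * P y x) * (g x * k y) := by rw [this]
    _ = μ y * (P y x * g x) * k y := by ring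

/-- stationarity -/
private theorem stat93 (h : IsChain μ P) (g : S → ℝ) : ∑ a, ∑ b, μ a * P a b * g b = ∑ b, μ b * g b := by
  obtain ⟨h1, h2, h3, h4, h5⟩ := h
  rw [Finset.sum_comm]
  apply Finset.sum_congr rfl
  intro b _
  have : ∀ a, μ a * P a b * g b = μ b * g b * P b a := by
    intro a
    rw [h5 a b]
    ring
  simp only [this, ← Finset.mul_sum, h4 b, mul_one]

private theorem rowsum93 (h : IsChain μ P) (g : S → ℝ) : ∑ a, ∑ b, μ a * P a b * g a = ∑ a, μ a * g a := by
  obtain ⟨h1, h2, h3, h4, h5⟩ := h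
  apply Finset.sum_congr rfl
  intro a _
  have : ∀ b, μ a * P a b * g a = μ a * g a * P a b := by
    intro b
    ring
  simp only [this, ← Finset.mul_sum, h4 a, mul_one]

/-- symmetry of the edge measure -/
private theorem edge_symm93 (h : IsChain μ P) (H : S → S → ℝ) :
    ∑ a, ∑ b, μ a * P a b * H a b = ∑ a, ∑ b, μ a * P a b * H b a := by
  obtain ⟨h1, h2, h3, h4, h5⟩ := h
  rw [Finset.sum_comm]
  apply Finset.sum_congr rfl
  intro b _
  apply Finset.sum_congr rfl
  intro a _
  rw [h5 a b]

/-- the Dirichlet form -/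
private theorem dirichlet93 (h : IsChain μ P) (U F : S → ℝ) :
    ∑ x, μ x * U x * ((P.mulVec F) x - F x) =
      -(1 / 2) * ∑ a, ∑ b, μ a * P a b * ((U b - U a) * (F b - F a)) := by
  have e1 : ∀ a b, μ a * P a b * ((U b - U a) * (F b - F a)) =
      μ a * P a b * (U b * F b) - μ a * P a b * (U b * F a) - μ a * P a b * (U a * F b)
        + μ a * P a b * (U a * F a) := by
    intro a b
    ring
  simp only [e1, Finset.sum_add_distrib, Finset.sum_sub_distrib]
  rw [stat93 h (fun b => U b * F b), rowsum93 h (fun a => U a * F a),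
    edge_symm93 h (fun a b => U b * F a)]
  have e2 : ∑ a, ∑ b, μ a * P a b * (U a * F b) = ∑ x, μ x * U x * (P.mulVec F) x := by
    simp only [Matrix.mulVec, dotProduct, Finset.mul_sum]
    apply Finset.sum_congr rfl
    intro a _
    apply Finset.sum_congr rfl
    intro b _
    ring
  rw [e2]
  simp only [mul_sub, Finset.sum_sub_distrib]
  have e3 : ∑ x, μ x * (U x * F x) = ∑ x, μ x * U x * F x := by
    apply Finset.sum_congr rfl
    intro x _
    ring
  rw [e3]
  ring

/-- geometric sum -/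
private theorem geom93 (P : Matrix S S ℝ) (F : S → ℝ) (τ : ℕ) (x : S) :
    ((P ^ τ).mulVec F) x - F x =
      ∑ i ∈ Finset.range τ, ((P ^ i).mulVec (fun y => (P.mulVec F) y - F y)) x := by
  induction τ with
  | zero => simp
  | succ τ ih =>
    rw [Finset.sum_range_succ, ← ih]
    have e1 : (fun y => (P.mulVec F) y - F y) = P.mulVec F - F := rfl
    rw [e1, Matrix.mulVec_sub, Matrix.mulVec_mulVec, ← pow_succ]
    simp only [Pi.sub_apply]
    ring

/-- duality for one function -/
private theorem dual_one93 (h : IsChain μ P) (ψ F : S → ℝ) (τ : ℕ) :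
    ∑ x, μ x * ψ x * (((P ^ τ).mulVec F) x - F x) =
      -(1 / 2) * ∑ a, ∑ b, μ a * P a b *
        (((∑ i ∈ Finset.range τ, ((P ^ i).mulVec ψ) b) - (∑ i ∈ Finset.range τ, ((P ^ i).mulVec ψ) a))
          * (F b - F a)) := by
  rw [← dirichlet93 h (fun x => ∑ i ∈ Finset.range τ, ((P ^ i).mulVec ψ) x) F]
  simp only [geom93 P F τ, Finset.mul_sum, Finset.sum_mul]
  rw [Finset.sum_comm]
  conv_rhs => rw [Finset.sum_comm]
  apply Finset.sum_congr rfl
  intro i _
  exact selfadj93 (isChain_pow h i) ψ (fun y => (P.mulVec F) y - F y)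

end aux93

/-- `op (P^τ) G - G = ∑_{i<τ} op (P^i) (op P G - G)`, ip_symm for `P^i`, and
`∑ μ U (op P G - G) = -(1/2) ∑∑ μ a P a b (U b - U a)(G b - G a)` (reversibility). -/
theorem dualB {μ : S → ℝ} {P : Matrix S S ℝ} (hc : IsChain μ P) (φ G : S → ℝ) (τ : ℕ) :
    ∑ z, μ z * φ z * (op (P ^ τ) G z - G z) =
      -(1 / 2) * ∑ a, ∑ b, μ a * P a b * ((Av P τ φ b - Av P τ φ a) * (G b - G a)) := by
  exact dual_one93 hc φ G τ

end Vale.Agent.P125.Poly79
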