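import Vale.Agent.P125.Poly.Defs_79
import Vale.Agent.P125.Poly.ApiA_79

set_option linter.unusedSectionVars false
set_option linter.unusedVariables false

/-! # P125 polynomial rate, path-free form: step (C): Abel summation (race copy of DualC_79, helper3) -/

namespace Vale.Agent.P125.Poly79

open scoped BigOperators
open Vale.Agent.P125.Dich Vale.Agent.P125.BV

variable {S : Type} [Fintype S] [DecidableEq S]

private lemma UU_succ3 (P : Matrix S S ℝ) (n : ℕ) (F : ℕ → S → ℝ) (τ s k : ℕ) (hk : k < n)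
    (y : S) : UU P n F τ s k y = Av P τ (ph P F τ s k) y + UU P n F τ s (k + 1) y := by
  unfold UU Av
  rw [← Finset.sum_add_distrib]
  refine Finset.sum_congr rfl fun i _ => ?_
  rw [← op_add]
  congr 1
  funext z
  unfold Ph
  exact Finset.sum_eq_sum_Ico_succ_bot hk _

private lemma UU_top3 (P : Matrix S S ℝ) (n : ℕ) (F : ℕ → S → ℝ) (τ s : ℕ) (y : S) :
    UU P n F τ s n y = 0 := by
  unfold UU Av
  apply Finset.sum_eq_zero
  intro i _
  unfold op Ph
  simp

/-- same statement as `dualC` of `DualC_79` -/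
theorem dualC_3 (P : Matrix S S ℝ) (n : ℕ) (F : ℕ → S → ℝ) (hF0 : ∀ x, F 0 x = 0) (τ s : ℕ)
    (a b : S) :
    ∑ j ∈ Finset.range n, (Av P τ (ph P F τ s j) b - Av P τ (ph P F τ s j) a) *
        (F (j + 1) b - F (j + 1) a) =
      ∑ k ∈ Finset.range n, (dd F k b - dd F k a) * (UU P n F τ s k b - UU P n F τ s k a) := by
  have htel := Finset.sum_range_sub
    (fun k => (UU P n F τ s k b - UU P n F τ s k a) * (F k b - F k a)) n
  simp only [UU_top3, hF0, sub_self, zero_mul, mul_zero] at htel
  have hdiff : ∑ k ∈ Finset.range n, (dd F k b - dd F k a) *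
        (UU P n F τ s k b - UU P n F τ s k a) -
      ∑ j ∈ Finset.range n, (Av P τ (ph P F τ s j) b - Av P τ (ph P F τ s j) a) *
        (F (j + 1) b - F (j + 1) a) =
      ∑ k ∈ Finset.range n,
        ((UU P n F τ s (k + 1) b - UU P n F τ s (k + 1) a) * (F (k + 1) b - F (k + 1) a) -
          (UU P n F τ s k b - UU P n F τ s k a) * (F k b - F k a)) := by
    rw [← Finset.sum_sub_distrib]
    refine Finset.sum_congr rfl fun k hk => ?_
    have hk' := Finset.mem_range.mp hk
    rw [UU_succ3 P n F τ s k hk' b, UU_succ3 P n F τ s k hk' a]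
    unfold dd
    ring
  rw [htel] at hdiff
  linarith

end Vale.Agent.P125.Poly79
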