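import Vale.Agent.P125.Poly.Defs_79
import Vale.Agent.P125.Poly.ApiA_79

set_option linter.unusedSectionVars false
set_option linter.unusedVariables false

/-! # P125 polynomial rate, path-free form (board 624): step (C): Abel summation -/

namespace Vale.Agent.P125.Poly79

open scoped BigOperators
open Vale.Agent.P125.Dich Vale.Agent.P125.BV

variable {S : Type} [Fintype S] [DecidableEq S]

private lemma Av_sum {ι : Type} (P : Matrix S S ℝ) (τ : ℕ) (s : Finset ι) (g : ι → S → ℝ) (y : S) :
    Av P τ (fun z => ∑ j ∈ s, g j z) y = ∑ j ∈ s, Av P τ (g j) y := by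
  unfold Av
  rw [Finset.sum_comm]
  exact Finset.sum_congr rfl fun i _ => op_sum _ s g y

/-- `F (j+1) x = ∑_{k ≤ j} dd F k x`, exchange the sums, `Av` is linear (op_sum). -/
theorem dualC (P : Matrix S S ℝ) (n : ℕ) (F : ℕ → S → ℝ) (hF0 : ∀ x, F 0 x = 0) (τ s : ℕ)
    (a b : S) :
    ∑ j ∈ Finset.range n, (Av P τ (ph P F τ s j) b - Av P τ (ph P F τ s j) a) *
        (F (j + 1) b - F (j + 1) a) =
      ∑ k ∈ Finset.range n, (dd F k b - dd F k a) * (UU P n F τ s k b - UU P n F τ s k a) := by
  have eF : ∀ j, F (j + 1) b - F (j + 1) a = ∑ k ∈ Finset.range (j + 1), (dd F k b - dd F k a) := by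
    intro j
    have h := Finset.sum_range_sub (fun k => F k b - F k a) (j + 1)
    simp only [hF0, sub_zero] at h
    rw [← h]
    exact Finset.sum_congr rfl fun k _ => by unfold dd; ring
  have eU : ∀ k y, UU P n F τ s k y = ∑ j ∈ Finset.Ico k n, Av P τ (ph P F τ s j) y := by
    intro k y
    exact Av_sum P τ (Finset.Ico k n) (fun j => ph P F τ s j) y
  calc ∑ j ∈ Finset.range n, (Av P τ (ph P F τ s j) b - Av P τ (ph P F τ s j) a) *
        (F (j + 1) b - F (j + 1) a)
      = ∑ j ∈ Finset.range n, ∑ k ∈ Finset.range (j + 1),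
          (dd F k b - dd F k a) * (Av P τ (ph P F τ s j) b - Av P τ (ph P F τ s j) a) := by
        refine Finset.sum_congr rfl fun j _ => ?_
        rw [eF j, Finset.mul_sum]
        exact Finset.sum_congr rfl fun k _ => by ring
    _ = ∑ k ∈ Finset.range n, ∑ j ∈ Finset.Ico k n,
          (dd F k b - dd F k a) * (Av P τ (ph P F τ s j) b - Av P τ (ph P F τ s j) a) := by
        refine Finset.sum_comm' ?_
        intro j k
        simp only [Finset.mem_range, Finset.mem_Ico]
        omega
    _ = ∑ k ∈ Finset.range n, (dd F k b - dd F k a) *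
          (UU P n F τ s k b - UU P n F τ s k a) := by
        refine Finset.sum_congr rfl fun k _ => ?_
        rw [eU k b, eU k a, ← Finset.sum_sub_distrib, Finset.mul_sum]

end Vale.Agent.P125.Poly79
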