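import Vale.Agent.P125.Poly.Defs58

set_option linter.unusedSectionVars false
set_option linter.unusedVariables false

/-!
# P125 Poly: Step 4 (duality), statement `StDual` of `Defs58`
-/

namespace Vale.Agent.P125.Poly

open scoped BigOperators
open Vale.Agent.P125.Dich

variable {S : Type} [Fintype S] [DecidableEq S] {n : ℕ}

/-- telescoping: `P^τ G - G = ∑_{i<τ} P^i (P G - G)` -/
lemma tel_22 {μ : S → ℝ} {P : Matrix S S ℝ} (hL : Lib μ P) (G : S → ℝ) (τ : ℕ) (z : S) :
    op P τ G z - G z = ∑ i ∈ Finset.range τ, op P i (fun y => op P 1 G y - G y) z := by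
  induction τ with
  | zero => simp [hL.op_zero]
  | succ τ ih =>
    rw [Finset.sum_range_succ, ← ih, hL.op_sub, hL.op_op]
    ring

theorem stDual_22 (hs : StSmall) : StDual := by
  intro S _ _ μ P hC hL n f τ s
  set dd : Fin n → S → ℝ := fun k y => op P 1 (F f k) y - F f k y with hdd
  have h1 : ∀ k, av μ (fun b => om P f k b * op P s (fun z => |hh P f τ k z|) b)
      = av μ (fun a => Mk P f τ s k a * dd k a) := by
    intro k
    rw [hL.av_adj s (om P f k) (fun z => |hh P f τ k z|)]
    have e1 : ∀ x, op P s (om P f k) x * |hh P f τ k x| = zt P f τ s k x * hh P f τ k x := by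
      intro x
      unfold zt
      have : |hh P f τ k x| = (SignType.sign (hh P f τ k x) : ℝ) * hh P f τ k x := by
        rw [sign_mul_self]
      rw [this]; ring
    have e2 : ∀ x, hh P f τ k x = ∑ i ∈ Finset.range τ, op P i (dd k) x := by
      intro x; exact tel_22 hL (F f k) τ x
    calc av μ (fun x => op P s (om P f k) x * |hh P f τ k x|)
        = av μ (fun x => ∑ i ∈ Finset.range τ, zt P f τ s k x * op P i (dd k) x) := by
          unfold av; refine Finset.sum_congr rfl (fun x _ => ?_); beta_reduce; rw [e1, e2, Finset.mul_sum]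
      _ = ∑ i ∈ Finset.range τ, av μ (fun x => zt P f τ s k x * op P i (dd k) x) := by
          unfold av; simp only [Finset.mul_sum]; rw [Finset.sum_comm]
      _ = ∑ i ∈ Finset.range τ, av μ (fun x => op P i (zt P f τ s k) x * dd k x) := by
          refine Finset.sum_congr rfl (fun i _ => hL.av_adj i _ _)
      _ = av μ (fun a => Mk P f τ s k a * dd k a) := by
          unfold av Mk; simp only [Finset.sum_mul, Finset.mul_sum]; rw [Finset.sum_comm]
  have h2 : ∀ k a, dd k a = ∑ b, P a b * (F f k b - F f k a) := by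
    intro k a
    simp only [hdd, hL.op_one]
    have hrow : ∑ b, P a b = 1 := hC.2.2.2.1 a
    simp only [mul_sub, Finset.sum_sub_distrib, ← Finset.sum_mul, hrow, one_mul]
  have h3 : ∀ k a b, F f k b - F f k a = ∑ j, if j ≤ k then (f b j - f a j) else 0 := by
    intro k a b
    unfold F
    rw [← Finset.sum_sub_distrib]
    refine Finset.sum_congr rfl (fun j _ => ?_)
    split_ifs <;> simp
  have h3' : ∀ a b, ∑ k, Mk P f τ s k a * (F f k b - F f k a)
      = ∑ j, (f b j - f a j) * UU P f τ s j a := by
    intro a b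
    unfold UU
    simp only [h3, Finset.mul_sum]
    rw [Finset.sum_comm]
    refine Finset.sum_congr rfl (fun j _ => Finset.sum_congr rfl (fun k _ => ?_))
    split_ifs <;> ring
  have h4 : Rr μ P f τ s
      = ∑ a, ∑ b, μ a * P a b * ∑ j, (f b j - f a j) * UU P f τ s j a := by
    unfold Rr
    simp only [h1]
    unfold av
    rw [Finset.sum_comm]
    refine Finset.sum_congr rfl (fun a _ => ?_)
    simp only [← h3', h2, Finset.mul_sum]
    rw [Finset.sum_comm]
    refine Finset.sum_congr rfl (fun b _ => Finset.sum_congr rfl (fun k _ => ?_))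
    ring
  have h5 : ∑ a, ∑ b, μ a * P a b * ∑ j, (f b j - f a j) * UU P f τ s j a
      = - ∑ a, ∑ b, μ a * P a b * ∑ j, (f b j - f a j) * UU P f τ s j b := by
    rw [Finset.sum_comm, ← Finset.sum_neg_distrib]
    refine Finset.sum_congr rfl (fun b _ => ?_)
    rw [← Finset.sum_neg_distrib]
    refine Finset.sum_congr rfl (fun a _ => ?_)
    rw [hC.2.2.2.2 a b, ← mul_neg, ← Finset.sum_neg_distrib]
    congr 1
    refine Finset.sum_congr rfl (fun j _ => by ring)
  have h6 : Rr μ P f τ s = (1 / 2) * ∑ a, ∑ b, μ a * P a b *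
      ∑ j, (f b j - f a j) * (UU P f τ s j a - UU P f τ s j b) := by
    have h7 : ∑ a, ∑ b, μ a * P a b *
          ∑ j, (f b j - f a j) * (UU P f τ s j a - UU P f τ s j b)
        = (∑ a, ∑ b, μ a * P a b * ∑ j, (f b j - f a j) * UU P f τ s j a)
          - ∑ a, ∑ b, μ a * P a b * ∑ j, (f b j - f a j) * UU P f τ s j b := by
      simp only [mul_sub, Finset.sum_sub_distrib]
    rw [h7, h4]; linarith [h5]
  rw [h6]
  refine mul_le_mul_of_nonneg_left ?_ (by norm_num)
  refine Finset.sum_le_sum (fun a _ => Finset.sum_le_sum (fun b _ => ?_))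
  refine mul_le_mul_of_nonneg_left ?_ (mul_nonneg (hC.1 a) (hC.2.2.1 a b))
  refine Finset.sum_le_sum (fun j _ => ?_)
  unfold w
  calc (f b j - f a j) * (UU P f τ s j a - UU P f τ s j b)
      ≤ |(f b j - f a j) * (UU P f τ s j a - UU P f τ s j b)| := le_abs_self _
    _ = |f b j - f a j| * |UU P f τ s j a - UU P f τ s j b| := abs_mul _ _

end Vale.Agent.P125.Poly
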