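import Mathlib
import Vale.Agent.P125.Poly.Defs58

/-!
# P125 Poly: DUAL (Step 4, duality + Abel summation + flip), race copy of helper27
-/

namespace Vale.Agent.P125.Poly

open scoped BigOperators
open Vale.Agent.P125.Dich

set_option linter.unusedSectionVars false
set_option linter.unusedVariables false

variable {S : Type} [Fintype S] [DecidableEq S]

private lemma av_mul_sum_27 (μ : S → ℝ) (ζ : S → ℝ) (τ : ℕ) (h : ℕ → S → ℝ) :
    av μ (fun z => ζ z * ∑ i ∈ Finset.range τ, h i z) =
      ∑ i ∈ Finset.range τ, av μ (fun z => ζ z * h i z) := by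
  unfold av
  rw [Finset.sum_comm]
  refine Finset.sum_congr rfl fun z _ => ?_
  beta_reduce
  rw [Finset.mul_sum, Finset.mul_sum]

private lemma av_sum_mul_27 (μ : S → ℝ) (D : S → ℝ) (τ : ℕ) (h : ℕ → S → ℝ) :
    av μ (fun z => (∑ i ∈ Finset.range τ, h i z) * D z) =
      ∑ i ∈ Finset.range τ, av μ (fun z => h i z * D z) := by
  unfold av
  rw [Finset.sum_comm]
  refine Finset.sum_congr rfl fun z _ => ?_
  beta_reduce
  rw [Finset.sum_mul, Finset.mul_sum]

/-- (i) moving the block to the other side -/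
private lemma dual_i_27 {μ : S → ℝ} {P : Matrix S S ℝ} (hL : Lib μ P) (ζ G : S → ℝ) (τ : ℕ) :
    av μ (fun z => ζ z * (op P τ G z - G z)) =
      av μ (fun z => (∑ i ∈ Finset.range τ, op P i ζ z) * (op P 1 G z - G z)) := by
  have hD : ∀ i z, op P i (fun z => op P 1 G z - G z) z = op P (i + 1) G z - op P i G z := by
    intro i z
    rw [hL.op_sub]
    have := congrFun (hL.op_op i 1 G) z
    rw [← this]
  have htel : ∀ z, op P τ G z - G z =
      ∑ i ∈ Finset.range τ, op P i (fun z => op P 1 G z - G z) z := by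
    intro z
    simp only [hD]
    rw [Finset.sum_range_sub (fun i => op P i G z) τ, hL.op_zero]
  simp only [htel]
  rw [av_mul_sum_27, av_sum_mul_27]
  refine Finset.sum_congr rfl fun i _ => ?_
  exact hL.av_adj i ζ _

/-- (ii) the generator as a sum over edges -/
private lemma dual_ii_27 {μ : S → ℝ} {P : Matrix S S ℝ} (hL : Lib μ P) (M G : S → ℝ) :
    av μ (fun a => M a * (op P 1 G a - G a)) =
      ∑ a, ∑ b, μ a * P a b * (M a * (G b - G a)) := by
  have hrow : ∀ a, ∑ b, P a b = 1 := by
    intro a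
    have := hL.pw_sum 1 a
    simpa using this
  unfold av
  refine Finset.sum_congr rfl fun a _ => ?_
  beta_reduce
  rw [hL.op_one]
  have e : ∑ b, P a b * G b - G a = ∑ b, P a b * (G b - G a) := by
    simp only [mul_sub]
    rw [Finset.sum_sub_distrib, ← Finset.sum_mul, hrow, one_mul]
  rw [e, Finset.mul_sum, Finset.mul_sum]
  refine Finset.sum_congr rfl fun b _ => ?_
  ring

private lemma F_sub_27 {n : ℕ} (f : S → Fin n → ℝ) (k : Fin n) (a b : S) :
    F f k b - F f k a = ∑ j, if j ≤ k then f b j - f a j else 0 := by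
  unfold F
  rw [← Finset.sum_sub_distrib]
  refine Finset.sum_congr rfl fun j _ => ?_
  split_ifs <;> ring

/-- the duality identity -/
theorem dual_abs_27 {μ : S → ℝ} {P : Matrix S S ℝ} (hL : Lib μ P) {n : ℕ} (f : S → Fin n → ℝ)
    (ζ : Fin n → S → ℝ) (τ : ℕ) :
    ∑ k, av μ (fun z => ζ k z * (op P τ (F f k) z - F f k z)) =
      ∑ a, ∑ b, μ a * P a b * ∑ j, (f b j - f a j) *
        (∑ k, if j ≤ k then (∑ i ∈ Finset.range τ, op P i (ζ k) a) else 0) := by
  have h1 : ∀ k, av μ (fun z => ζ k z * (op P τ (F f k) z - F f k z)) =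
      ∑ a, ∑ b, μ a * P a b * ((∑ i ∈ Finset.range τ, op P i (ζ k) a) *
        (∑ j, if j ≤ k then f b j - f a j else 0)) := by
    intro k
    rw [dual_i_27 hL, dual_ii_27 hL]
    simp only [F_sub_27]
  simp only [h1]
  rw [Finset.sum_comm]
  refine Finset.sum_congr rfl fun a _ => ?_
  rw [Finset.sum_comm]
  refine Finset.sum_congr rfl fun b _ => ?_
  rw [← Finset.mul_sum]
  congr 1
  simp only [Finset.mul_sum]
  rw [Finset.sum_comm]
  refine Finset.sum_congr rfl fun j _ => ?_
  refine Finset.sum_congr rfl fun k _ => ?_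
  split_ifs <;> ring

theorem stDual_27 (hs : StSmall) : StDual := by
  intro S _ _ μ P hc hL n f τ s
  have hR : Rr μ P f τ s =
      ∑ k, av μ (fun z => zt P f τ s k z * (op P τ (F f k) z - F f k z)) := by
    unfold Rr
    refine Finset.sum_congr rfl fun k _ => ?_
    rw [hL.av_adj s (om P f k) (fun z => |hh P f τ k z|)]
    unfold av
    refine Finset.sum_congr rfl fun z _ => ?_
    congr 1
    unfold zt
    beta_reduce
    have : |hh P f τ k z| = (SignType.sign (hh P f τ k z) : ℝ) * hh P f τ k z :=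
      (sign_mul_self _).symm
    rw [this]
    unfold hh
    ring
  have hT := dual_abs_27 hL f (zt P f τ s) τ
  have hUU : ∀ j a, (∑ k, if j ≤ k then
      (∑ i ∈ Finset.range τ, op P i (zt P f τ s k) a) else 0) = UU P f τ s j a := by
    intro j a; rfl
  simp only [hUU] at hT
  rw [hR, hT]
  have hrev : ∀ a b, μ a * P a b = μ b * P b a := by
    intro a b
    have := hL.pw_rev 1 a b
    simpa using this
  have hP0 : ∀ a b, 0 ≤ P a b := by
    intro a b
    have := hL.pw_nonneg 1 a b
    simpa using this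
  have hflip : ∑ a, ∑ b, μ a * P a b * ∑ j, (f b j - f a j) * UU P f τ s j a =
      ∑ a, ∑ b, μ a * P a b * ∑ j, -((f b j - f a j) * UU P f τ s j b) := by
    rw [Finset.sum_comm]
    refine Finset.sum_congr rfl fun a _ => ?_
    refine Finset.sum_congr rfl fun b _ => ?_
    rw [hrev b a]
    congr 1
    refine Finset.sum_congr rfl fun j _ => ?_
    ring
  have hhalf : ∑ a, ∑ b, μ a * P a b * ∑ j, (f b j - f a j) * UU P f τ s j a =
      (1 / 2) * ∑ a, ∑ b, μ a * P a b *
        ∑ j, (f b j - f a j) * (UU P f τ s j a - UU P f τ s j b) := by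
    have e : ∑ a, ∑ b, μ a * P a b *
        ∑ j, (f b j - f a j) * (UU P f τ s j a - UU P f τ s j b) =
        ∑ a, ∑ b, μ a * P a b * ∑ j, (f b j - f a j) * UU P f τ s j a +
        ∑ a, ∑ b, μ a * P a b * ∑ j, -((f b j - f a j) * UU P f τ s j b) := by
      rw [← Finset.sum_add_distrib]
      refine Finset.sum_congr rfl fun a _ => ?_
      rw [← Finset.sum_add_distrib]
      refine Finset.sum_congr rfl fun b _ => ?_
      rw [← mul_add, ← Finset.sum_add_distrib]
      congr 1
      refine Finset.sum_congr rfl fun j _ => ?_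
      ring
    rw [e, ← hflip]
    ring
  rw [hhalf]
  refine mul_le_mul_of_nonneg_left ?_ (by norm_num)
  refine Finset.sum_le_sum fun a _ => Finset.sum_le_sum fun b _ => ?_
  refine mul_le_mul_of_nonneg_left ?_ (mul_nonneg (hL.mu_nonneg a) (hP0 a b))
  refine Finset.sum_le_sum fun j _ => ?_
  unfold w
  rw [← abs_mul]
  exact le_abs_self _

end Vale.Agent.P125.Poly
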