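import Vale.Agent.P125.Poly.Defs58

set_option linter.unusedSectionVars false
set_option linter.unusedVariables false

/-! # P125 Poly: DUAL (Step 4), helper37 -/

namespace Vale.Agent.P125.Poly

open scoped BigOperators
open Vale.Agent.P125.Dich

namespace Dual37

variable {S : Type} [Fintype S] [DecidableEq S] {n : ℕ}

/-- swap of the order of summation -/
lemma abel (M : Fin n → ℝ) (d : Fin n → ℝ) :
    ∑ k, M k * (∑ j, if j ≤ k then d j else 0) = ∑ j, d j * (∑ k, if j ≤ k then M k else 0) := by
  simp only [Finset.mul_sum]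
  rw [Finset.sum_comm]
  refine Finset.sum_congr rfl fun j _ => Finset.sum_congr rfl fun k _ => ?_
  split_ifs <;> ring

lemma F_sub (f : S → Fin n → ℝ) (k : Fin n) (a b : S) :
    F f k b - F f k a = ∑ j, if j ≤ k then (f b j - f a j) else 0 := by
  unfold F
  rw [← Finset.sum_sub_distrib]
  refine Finset.sum_congr rfl fun j _ => ?_
  split_ifs <;> ring

lemma core {μ : S → ℝ} {P : Matrix S S ℝ} (hc : IsChain μ P) (f : S → Fin n → ℝ)
    (M : Fin n → S → ℝ) :
    ∑ k, av μ (fun a => M k a * ∑ b, P a b * (F f k b - F f k a)) ≤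
      (1 / 2) * ∑ a, ∑ b, μ a * P a b *
        ∑ j, w f a b j *
          |(∑ k, if j ≤ k then M k a else 0) - (∑ k, if j ≤ k then M k b else 0)| := by
  obtain ⟨V, hV⟩ : ∃ V : Fin n → S → ℝ, ∀ j y, V j y = ∑ k, if j ≤ k then M k y else 0 :=
    ⟨_, fun _ _ => rfl⟩
  simp only [← hV]
  have e1 : ∑ k, av μ (fun a => M k a * ∑ b, P a b * (F f k b - F f k a)) =
      ∑ a, ∑ b, μ a * P a b * ∑ j, (f b j - f a j) * V j a := by
    unfold av
    rw [Finset.sum_comm]
    refine Finset.sum_congr rfl fun a _ => ?_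
    have h : ∀ b, ∑ j, (f b j - f a j) * V j a = ∑ k, M k a * (F f k b - F f k a) := by
      intro b
      simp only [F_sub, hV]
      exact (abel (fun k => M k a) (fun j => f b j - f a j)).symm
    simp only [h, Finset.mul_sum]
    rw [Finset.sum_comm]
    refine Finset.sum_congr rfl fun b _ => Finset.sum_congr rfl fun k _ => ?_
    ring
  have e2 : ∑ a, ∑ b, μ a * P a b * ∑ j, (f b j - f a j) * V j a =
      ∑ a, ∑ b, μ a * P a b * ∑ j, -((f b j - f a j) * V j b) := by
    rw [Finset.sum_comm]
    refine Finset.sum_congr rfl fun a _ => Finset.sum_congr rfl fun b _ => ?_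
    rw [hc.2.2.2.2 b a]
    congr 1
    refine Finset.sum_congr rfl fun j _ => ?_
    ring
  have e3 : ∑ a, ∑ b, μ a * P a b * ∑ j, (f b j - f a j) * V j a =
      (1 / 2) * ∑ a, ∑ b, μ a * P a b * ∑ j, (f b j - f a j) * (V j a - V j b) := by
    have h : ∑ a, ∑ b, μ a * P a b * ∑ j, (f b j - f a j) * (V j a - V j b) =
        ∑ a, ∑ b, μ a * P a b * ∑ j, (f b j - f a j) * V j a +
        ∑ a, ∑ b, μ a * P a b * ∑ j, -((f b j - f a j) * V j b) := by
      rw [← Finset.sum_add_distrib]
      refine Finset.sum_congr rfl fun a _ => ?_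
      rw [← Finset.sum_add_distrib]
      refine Finset.sum_congr rfl fun b _ => ?_
      rw [← mul_add, ← Finset.sum_add_distrib]
      congr 1
      refine Finset.sum_congr rfl fun j _ => ?_
      ring
    rw [h, ← e2]
    ring
  rw [e1, e3]
  refine mul_le_mul_of_nonneg_left ?_ (by norm_num)
  refine Finset.sum_le_sum fun a _ => Finset.sum_le_sum fun b _ => ?_
  refine mul_le_mul_of_nonneg_left ?_ (mul_nonneg (hc.1 a) (hc.2.2.1 a b))
  refine Finset.sum_le_sum fun j _ => ?_
  unfold w
  calc (f b j - f a j) * (V j a - V j b) ≤ |(f b j - f a j) * (V j a - V j b)| := le_abs_self _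
    _ = |f b j - f a j| * |V j a - V j b| := abs_mul _ _

lemma pre {μ : S → ℝ} {P : Matrix S S ℝ} (hc : IsChain μ P) (hL : Lib μ P)
    (f : S → Fin n → ℝ) (τ s : ℕ) (k : Fin n) :
    av μ (fun b => om P f k b * op P s (fun z => |hh P f τ k z|) b) =
      av μ (fun a => Mk P f τ s k a * ∑ b, P a b * (F f k b - F f k a)) := by
  obtain ⟨dd, hdd⟩ : ∃ dd : S → ℝ, ∀ a, dd a = ∑ b, P a b * (F f k b - F f k a) :=
    ⟨_, fun _ => rfl⟩
  simp only [← hdd]
  have hdd' : ∀ a, dd a = op P 1 (F f k) a - F f k a := by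
    intro a
    rw [hL.op_one, hdd]
    simp only [mul_sub, Finset.sum_sub_distrib]
    rw [← Finset.sum_mul, hc.2.2.2.1 a, one_mul]
  have htel : ∀ z, hh P f τ k z = ∑ i ∈ Finset.range τ, op P i dd z := by
    intro z
    have h1 : ∀ i, op P i dd z = op P (i + 1) (F f k) z - op P i (F f k) z := by
      intro i
      have h2 : dd = fun y => op P 1 (F f k) y - F f k y := funext hdd'
      rw [h2, hL.op_sub, hL.op_op]
    simp only [h1]
    rw [Finset.sum_range_sub (fun i => op P i (F f k) z), hL.op_zero]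
    rfl
  calc av μ (fun b => om P f k b * op P s (fun z => |hh P f τ k z|) b)
      = av μ (fun b => op P s (om P f k) b * |hh P f τ k b|) := hL.av_adj s _ _
    _ = av μ (fun b => zt P f τ s k b * hh P f τ k b) := by
        unfold av
        refine Finset.sum_congr rfl fun b _ => ?_
        beta_reduce
        unfold zt
        have h3 : |hh P f τ k b| = (SignType.sign (hh P f τ k b) : ℝ) * hh P f τ k b :=
          (sign_mul_self _).symm
        rw [h3]
        ring
    _ = ∑ i ∈ Finset.range τ, av μ (fun b => zt P f τ s k b * op P i dd b) := by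
        unfold av
        rw [Finset.sum_comm]
        refine Finset.sum_congr rfl fun b _ => ?_
        beta_reduce
        rw [htel b, Finset.mul_sum, Finset.mul_sum]
    _ = ∑ i ∈ Finset.range τ, av μ (fun b => op P i (zt P f τ s k) b * dd b) := by
        refine Finset.sum_congr rfl fun i _ => hL.av_adj i _ _
    _ = av μ (fun a => Mk P f τ s k a * dd a) := by
        unfold av Mk
        rw [Finset.sum_comm]
        refine Finset.sum_congr rfl fun b _ => ?_
        beta_reduce
        rw [Finset.sum_mul, Finset.mul_sum]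

end Dual37

theorem stDual_37 (hs : StSmall) : StDual := by
  intro S _ _ μ P hc hL n f τ s
  unfold Rr
  simp only [Dual37.pre hc hL f τ s]
  exact Dual37.core hc f (fun k => Mk P f τ s k)

end Vale.Agent.P125.Poly
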