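import Vale.Agent.P125.Poly.Defs58
import Vale.Agent.P125.Poly.Api_38

set_option linter.unusedSectionVars false
set_option linter.unusedVariables false

/-! # P125 Poly: the duality step (Step 4) -/

namespace Vale.Agent.P125.Poly

open scoped BigOperators
open Vale.Agent.P125.Dich

theorem stDual_38 (hs : StSmall) : StDual := by
  intro S _ _ μ P hP hL n f τ s
  have avsum : ∀ (t : Finset ℕ) (g : ℕ → S → ℝ),
      av μ (fun x => ∑ i ∈ t, g i x) = ∑ i ∈ t, av μ (g i) := by
    intro t g
    unfold av
    simp only [Finset.mul_sum]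
    rw [Finset.sum_comm]
  have key : ∀ k : Fin n, av μ (fun b => om P f k b * op P s (fun z => |hh P f τ k z|) b)
      = -(1 / 2) * ∑ a, ∑ b, μ a * P a b *
          ((Mk P f τ s k b - Mk P f τ s k a) * (F f k b - F f k a)) := by
    intro k
    set dd : S → ℝ := fun z => op P 1 (F f k) z - F f k z with hdd
    have e1 : av μ (fun b => om P f k b * op P s (fun z => |hh P f τ k z|) b)
        = av μ (fun z => zt P f τ s k z * hh P f τ k z) := by
      rw [hL.av_adj s (om P f k) (fun z => |hh P f τ k z|)]
      congr 1
      funext z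
      unfold zt
      rw [← sign_mul_self (hh P f τ k z)]
      ring
    have e2 : ∀ z, hh P f τ k z = ∑ i ∈ Finset.range τ, op P i dd z := by
      intro z
      have h1 : ∀ i, op P i dd z = op P (i + 1) (F f k) z - op P i (F f k) z := by
        intro i
        rw [hdd, hL.op_sub i (op P 1 (F f k)) (F f k) z, hL.op_op i 1 (F f k)]
      simp only [h1]
      rw [Finset.sum_range_sub (fun i => op P i (F f k) z), hL.op_zero]
      rfl
    have e3 : av μ (fun z => zt P f τ s k z * hh P f τ k z)
        = av μ (fun z => Mk P f τ s k z * dd z) := by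
      have a1 : (fun z => zt P f τ s k z * hh P f τ k z)
          = fun z => ∑ i ∈ Finset.range τ, zt P f τ s k z * op P i dd z := by
        funext z
        rw [e2 z, Finset.mul_sum]
      have a2 : (fun z => Mk P f τ s k z * dd z)
          = fun z => ∑ i ∈ Finset.range τ, op P i (zt P f τ s k) z * dd z := by
        funext z
        unfold Mk
        rw [Finset.sum_mul]
      rw [a1, a2, avsum, avsum]
      exact Finset.sum_congr rfl fun i _ => hL.av_adj i (zt P f τ s k) dd
    have e4 : av μ (fun z => Mk P f τ s k z * dd z)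
        = -(1 / 2) * ∑ a, ∑ b, μ a * P a b *
          ((Mk P f τ s k b - Mk P f τ s k a) * (F f k b - F f k a)) := by
      rw [← Poly38.dirichlet hP (Mk P f τ s k) (F f k)]
      unfold av
      refine Finset.sum_congr rfl fun x _ => ?_
      rw [hdd]
      simp only [hL.op_one (F f k) x, Poly38.mv_apply]
    rw [e1, e3, e4]
  -- Abel summation
  have abel : ∀ a b : S, ∑ k, (Mk P f τ s k b - Mk P f τ s k a) * (F f k b - F f k a)
      = ∑ j, (f b j - f a j) * (UU P f τ s j b - UU P f τ s j a) := by
    intro a b
    have h1 : ∀ k : Fin n, F f k b - F f k a = ∑ j, if j ≤ k then f b j - f a j else 0 := by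
      intro k
      unfold F
      rw [← Finset.sum_sub_distrib]
      refine Finset.sum_congr rfl fun j _ => ?_
      split_ifs <;> ring
    have h2 : ∀ j : Fin n, UU P f τ s j b - UU P f τ s j a
        = ∑ k, if j ≤ k then Mk P f τ s k b - Mk P f τ s k a else 0 := by
      intro j
      unfold UU
      rw [← Finset.sum_sub_distrib]
      refine Finset.sum_congr rfl fun k _ => ?_
      split_ifs <;> ring
    simp only [h1, h2, Finset.mul_sum]
    rw [Finset.sum_comm]
    refine Finset.sum_congr rfl fun j _ => Finset.sum_congr rfl fun k _ => ?_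
    split_ifs <;> ring
  have e5 : Rr μ P f τ s = -(1 / 2) * ∑ a, ∑ b, μ a * P a b *
      ∑ j, (f b j - f a j) * (UU P f τ s j b - UU P f τ s j a) := by
    unfold Rr
    rw [Finset.sum_congr rfl fun k _ => key k, ← Finset.mul_sum]
    congr 1
    rw [Finset.sum_comm]
    refine Finset.sum_congr rfl fun a _ => ?_
    rw [Finset.sum_comm]
    refine Finset.sum_congr rfl fun b _ => ?_
    rw [← Finset.mul_sum, abel a b]
  rw [e5, neg_mul, ← mul_neg, ← Finset.sum_neg_distrib]
  apply mul_le_mul_of_nonneg_left _ (by norm_num)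
  refine Finset.sum_le_sum fun a _ => ?_
  rw [← Finset.sum_neg_distrib]
  refine Finset.sum_le_sum fun b _ => ?_
  rw [← mul_neg]
  apply mul_le_mul_of_nonneg_left _ (mul_nonneg (hP.1 a) (hP.2.2.1 a b))
  rw [← Finset.sum_neg_distrib]
  refine Finset.sum_le_sum fun j _ => ?_
  unfold w
  have h1 : -((f b j - f a j) * (UU P f τ s j b - UU P f τ s j a))
      ≤ |(f b j - f a j) * (UU P f τ s j b - UU P f τ s j a)| := neg_le_abs _
  rw [abs_mul, abs_sub_comm (UU P f τ s j b)] at h1
  exact h1

end Vale.Agent.P125.Poly
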