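import Vale.Agent.P125.Poly.Defs58

set_option linter.unusedSectionVars false
set_option linter.unusedVariables false

namespace Vale.Agent.P125.Poly

open scoped BigOperators
open Vale.Agent.P125.Dich

theorem stDual_63 (hs : StSmall) : StDual := by
  intro S _ _ μ P hC hL n f τ s
  obtain ⟨hom0, hsum, hl0, hl20, havl2, havlb, hU0, hFle, hwsym, hellsym⟩ := hs S μ P hC hL n f
  obtain ⟨hμ0, hμ1, hP0, hP1, hrev⟩ := hC
  -- one step drift
  set dd : Fin n → S → ℝ := fun k z => op P 1 (F f k) z - F f k z with hdd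
  have hA : ∀ k z, hh P f τ k z = ∑ i ∈ Finset.range τ, op P i (dd k) z := by
    intro k z
    have h1 : ∀ i, op P i (dd k) z = op P (i + 1) (F f k) z - op P i (F f k) z := by
      intro i
      have := hL.op_sub i (op P 1 (F f k)) (F f k) z
      rw [hL.op_op] at this
      exact this
    simp_rw [h1]
    rw [Finset.sum_range_sub (fun i => op P i (F f k) z), hL.op_zero]
    rfl
  have hB : ∀ k, av μ (fun b => om P f k b * op P s (fun z => |hh P f τ k z|) b)
      = av μ (fun z => Mk P f τ s k z * dd k z) := by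
    intro k
    rw [hL.av_adj s (om P f k) (fun z => |hh P f τ k z|)]
    have h1 : ∀ z, op P s (om P f k) z * |hh P f τ k z| = zt P f τ s k z * hh P f τ k z := by
      intro z
      unfold zt
      rw [← sign_mul_self (hh P f τ k z)]
      ring
    simp_rw [h1, hA]
    have h2 : av μ (fun z => zt P f τ s k z * ∑ i ∈ Finset.range τ, op P i (dd k) z)
        = ∑ i ∈ Finset.range τ, av μ (fun z => zt P f τ s k z * op P i (dd k) z) := by
      unfold av
      simp_rw [Finset.mul_sum]
      rw [Finset.sum_comm]
    rw [h2]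
    simp_rw [hL.av_adj]
    unfold av Mk
    simp_rw [Finset.sum_mul, Finset.mul_sum]
    rw [Finset.sum_comm]
  have hdd2 : ∀ k a, dd k a = ∑ b, P a b * ∑ j, (if j ≤ k then f b j - f a j else 0) := by
    intro k a
    simp only [hdd]
    rw [hL.op_one]
    have h1 : F f k a = ∑ b, P a b * F f k a := by
      rw [← Finset.sum_mul, hP1, one_mul]
    rw [h1, ← Finset.sum_sub_distrib]
    refine Finset.sum_congr rfl fun b _ => ?_
    rw [← mul_sub]
    congr 1
    unfold F
    rw [← Finset.sum_sub_distrib]
    refine Finset.sum_congr rfl fun j _ => ?_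
    split_ifs <;> simp
  set T : ℝ := ∑ a, ∑ b, μ a * P a b * ∑ j, (f b j - f a j) * UU P f τ s j a with hT
  have hCk : Rr μ P f τ s = T := by
    unfold Rr
    simp_rw [hB]
    unfold av
    simp_rw [hdd2]
    rw [Finset.sum_comm]
    rw [hT]
    refine Finset.sum_congr rfl fun a _ => ?_
    simp_rw [Finset.mul_sum]
    rw [Finset.sum_comm]
    refine Finset.sum_congr rfl fun b _ => ?_
    rw [Finset.sum_comm]
    refine Finset.sum_congr rfl fun j _ => ?_
    unfold UU
    rw [Finset.mul_sum, Finset.mul_sum]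
    refine Finset.sum_congr rfl fun k _ => ?_
    split_ifs <;> ring
  have hflip : T = - ∑ a, ∑ b, μ a * P a b * ∑ j, (f b j - f a j) * UU P f τ s j b := by
    rw [hT, Finset.sum_comm, ← Finset.sum_neg_distrib]
    refine Finset.sum_congr rfl fun a _ => ?_
    rw [← Finset.sum_neg_distrib]
    refine Finset.sum_congr rfl fun b _ => ?_
    rw [← hrev a b, ← mul_neg, ← Finset.sum_neg_distrib]
    congr 1
    refine Finset.sum_congr rfl fun j _ => ?_
    ring
  have hhalf : T = (1 / 2) * ∑ a, ∑ b, μ a * P a b *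
      ∑ j, (f b j - f a j) * (UU P f τ s j a - UU P f τ s j b) := by
    have h1 : ∑ a, ∑ b, μ a * P a b * ∑ j, (f b j - f a j) * (UU P f τ s j a - UU P f τ s j b)
        = T - ∑ a, ∑ b, μ a * P a b * ∑ j, (f b j - f a j) * UU P f τ s j b := by
      rw [hT, ← Finset.sum_sub_distrib]
      refine Finset.sum_congr rfl fun a _ => ?_
      rw [← Finset.sum_sub_distrib]
      refine Finset.sum_congr rfl fun b _ => ?_
      rw [← mul_sub, ← Finset.sum_sub_distrib]
      congr 1
      refine Finset.sum_congr rfl fun j _ => ?_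
      ring
    rw [h1]
    linarith
  rw [hCk, hhalf]
  apply mul_le_mul_of_nonneg_left _ (by norm_num)
  refine Finset.sum_le_sum fun a _ => Finset.sum_le_sum fun b _ => ?_
  apply mul_le_mul_of_nonneg_left _ (mul_nonneg (hμ0 a) (hP0 a b))
  refine Finset.sum_le_sum fun j _ => ?_
  unfold w
  rw [← abs_mul]
  exact le_abs_self _

end Vale.Agent.P125.Poly
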