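import Vale.Agent.P125.Poly.Defs58

set_option linter.unusedSectionVars false
set_option linter.unusedVariables false

/-! # P125 Poly: Step 4 (duality), statement `StDual` of `Defs58` -/

namespace Vale.Agent.P125.Poly

open scoped BigOperators
open Vale.Agent.P125.Dich

section
variable {S : Type} [Fintype S] [DecidableEq S] {n : ℕ}

/-- one step drift of `F_k` -/
def dd80 (P : Matrix S S ℝ) (f : S → Fin n → ℝ) (k : Fin n) (z : S) : ℝ :=
  op P 1 (F f k) z - F f k z

lemma hh_eq_sum80 {μ : S → ℝ} {P : Matrix S S ℝ} (hL : Lib μ P) (f : S → Fin n → ℝ) (τ : ℕ)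
    (k : Fin n) (z : S) :
    hh P f τ k z = ∑ i ∈ Finset.range τ, op P i (dd80 P f k) z := by
  have e : ∀ i, op P i (dd80 P f k) z = op P (i + 1) (F f k) z - op P i (F f k) z := by
    intro i
    show op P i (fun y => op P 1 (F f k) y - F f k y) z = _
    rw [hL.op_sub, hL.op_op]
  rw [Finset.sum_congr rfl (fun i _ => e i),
    Finset.sum_range_sub (fun i => op P i (F f k) z) τ, hL.op_zero]
  rfl

lemma av_sum80 (μ : S → ℝ) (τ : ℕ) (g : ℕ → S → ℝ) :
    av μ (fun z => ∑ i ∈ Finset.range τ, g i z) = ∑ i ∈ Finset.range τ, av μ (g i) := by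
  unfold av
  rw [Finset.sum_comm]
  refine Finset.sum_congr rfl fun x _ => ?_
  rw [Finset.mul_sum]

lemma term80 {μ : S → ℝ} {P : Matrix S S ℝ} (hL : Lib μ P) (f : S → Fin n → ℝ) (τ s : ℕ)
    (k : Fin n) :
    av μ (fun b => om P f k b * op P s (fun z => |hh P f τ k z|) b)
      = av μ (fun a => Mk P f τ s k a * dd80 P f k a) := by
  rw [hL.av_adj s (om P f k) (fun z => |hh P f τ k z|)]
  have e1 : (fun x => op P s (om P f k) x * |hh P f τ k x|)
      = fun x => ∑ i ∈ Finset.range τ, zt P f τ s k x * op P i (dd80 P f k) x := by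
    funext x
    rw [← Finset.mul_sum, ← hh_eq_sum80 hL]
    unfold zt
    rw [← sign_mul_self (hh P f τ k x)]
    ring
  rw [e1, av_sum80]
  have e2 : (fun a => Mk P f τ s k a * dd80 P f k a)
      = fun a => ∑ i ∈ Finset.range τ, op P i (zt P f τ s k) a * dd80 P f k a := by
    funext a
    unfold Mk
    rw [Finset.sum_mul]
  rw [e2, av_sum80]
  refine Finset.sum_congr rfl fun i _ => ?_
  exact hL.av_adj i (zt P f τ s k) (dd80 P f k)

lemma dd_eq80 {μ : S → ℝ} {P : Matrix S S ℝ} (hc : IsChain μ P) (hL : Lib μ P)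
    (f : S → Fin n → ℝ) (k : Fin n) (a : S) :
    dd80 P f k a = ∑ b, P a b * ∑ j, (if j ≤ k then (f b j - f a j) else 0) := by
  unfold dd80
  rw [hL.op_one]
  have h4 := hc.2.2.2.1 a
  have e : F f k a = ∑ b, P a b * F f k a := by rw [← Finset.sum_mul, h4, one_mul]
  rw [e, ← Finset.sum_sub_distrib]
  refine Finset.sum_congr rfl fun b _ => ?_
  rw [← mul_sub]
  congr 1
  unfold F
  rw [← Finset.sum_sub_distrib]
  refine Finset.sum_congr rfl fun j _ => ?_
  split_ifs <;> simp

/-- the bilinear expression -/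
lemma Rr_eq80 {μ : S → ℝ} {P : Matrix S S ℝ} (hc : IsChain μ P) (hL : Lib μ P)
    (f : S → Fin n → ℝ) (τ s : ℕ) :
    Rr μ P f τ s = ∑ a, ∑ b, μ a * P a b * ∑ j, (f b j - f a j) * UU P f τ s j a := by
  unfold Rr
  rw [Finset.sum_congr rfl (fun k _ => term80 hL f τ s k)]
  unfold av
  rw [Finset.sum_comm]
  refine Finset.sum_congr rfl fun a _ => ?_
  calc ∑ k, μ a * (Mk P f τ s k a * dd80 P f k a)
      = ∑ k, ∑ b, μ a * P a b *
          ∑ j, (if j ≤ k then (f b j - f a j) * Mk P f τ s k a else 0) := by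
        refine Finset.sum_congr rfl fun k _ => ?_
        rw [dd_eq80 hc hL, Finset.mul_sum, Finset.mul_sum]
        refine Finset.sum_congr rfl fun b _ => ?_
        have : ∑ j, (if j ≤ k then (f b j - f a j) * Mk P f τ s k a else 0)
            = (∑ j, (if j ≤ k then (f b j - f a j) else 0)) * Mk P f τ s k a := by
          rw [Finset.sum_mul]
          refine Finset.sum_congr rfl fun j _ => ?_
          split_ifs <;> simp
        rw [this]
        ring
    _ = ∑ b, μ a * P a b * ∑ k, ∑ j, (if j ≤ k then (f b j - f a j) * Mk P f τ s k a else 0) := by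
        rw [Finset.sum_comm]
        refine Finset.sum_congr rfl fun b _ => ?_
        rw [Finset.mul_sum]
    _ = ∑ b, μ a * P a b * ∑ j, (f b j - f a j) * UU P f τ s j a := by
        refine Finset.sum_congr rfl fun b _ => ?_
        congr 1
        rw [Finset.sum_comm]
        refine Finset.sum_congr rfl fun j _ => ?_
        unfold UU
        rw [Finset.mul_sum]
        refine Finset.sum_congr rfl fun k _ => ?_
        split_ifs <;> simp

end

theorem stDual_80 (hs : StSmall) : StDual := by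
  intro S _ _ μ P hc hL n f τ s
  have hT := Rr_eq80 hc hL f τ s
  -- the flipped expression
  have hflip : ∑ a, ∑ b, μ a * P a b * ∑ j, (f b j - f a j) * UU P f τ s j a
      = ∑ a, ∑ b, μ a * P a b * ∑ j, (f a j - f b j) * UU P f τ s j b := by
    rw [Finset.sum_comm]
    refine Finset.sum_congr rfl fun a _ => Finset.sum_congr rfl fun b _ => ?_
    rw [hc.2.2.2.2 b a]
  have h2 : 2 * Rr μ P f τ s
      = ∑ a, ∑ b, μ a * P a b * ∑ j, (f b j - f a j) * (UU P f τ s j a - UU P f τ s j b) := by
    have : 2 * Rr μ P f τ s = Rr μ P f τ s + Rr μ P f τ s := by ring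
    rw [this]
    nth_rewrite 2 [hT]
    rw [hflip, hT, ← Finset.sum_add_distrib]
    refine Finset.sum_congr rfl fun a _ => ?_
    rw [← Finset.sum_add_distrib]
    refine Finset.sum_congr rfl fun b _ => ?_
    rw [← mul_add, ← Finset.sum_add_distrib]
    congr 1
    refine Finset.sum_congr rfl fun j _ => ?_
    ring
  have h3 : ∑ a, ∑ b, μ a * P a b * ∑ j, (f b j - f a j) * (UU P f τ s j a - UU P f τ s j b)
      ≤ ∑ a, ∑ b, μ a * P a b * ∑ j, w f a b j * |UU P f τ s j a - UU P f τ s j b| := by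
    refine Finset.sum_le_sum fun a _ => Finset.sum_le_sum fun b _ => ?_
    refine mul_le_mul_of_nonneg_left ?_ (mul_nonneg (hc.1 a) (hc.2.2.1 a b))
    refine Finset.sum_le_sum fun j _ => ?_
    unfold w
    rw [← abs_mul]
    exact le_abs_self _
  linarith

end Vale.Agent.P125.Poly
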