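import Vale.Agent.P125.Poly.Defs58

set_option linter.unusedSectionVars false
set_option linter.unusedVariables false

/-!
# P125 Poly, Step 4 (duality): `StDual`
-/

namespace Vale.Agent.P125.Poly

open scoped BigOperators
open Vale.Agent.P125.Dich

namespace D83

variable {S : Type} [Fintype S] [DecidableEq S] {n : ℕ}

/-- telescoping: `P^τ g - g = ∑_{i<τ} P^i (P g - g)` -/
lemma tele {μ : S → ℝ} {P : Matrix S S ℝ} (hl : Lib μ P) (g : S → ℝ) (τ : ℕ) (z : S) :
    op P τ g z - g z = ∑ i ∈ Finset.range τ, op P i (fun y => op P 1 g y - g y) z := by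
  induction τ with
  | zero => simp [hl.op_zero]
  | succ τ ih =>
    have e : op P τ (fun y => op P 1 g y - g y) z = op P (τ + 1) g z - op P τ g z := by
      rw [hl.op_sub τ (op P 1 g) g z, hl.op_op τ 1 g]
    rw [Finset.sum_range_succ, ← ih, e]
    ring

/-- the generator as a sum over edges -/
lemma gen {μ : S → ℝ} {P : Matrix S S ℝ} (hl : Lib μ P) (h3 : ∀ i, ∑ j, P i j = 1)
    (g : S → ℝ) (x : S) : op P 1 g x - g x = ∑ y, P x y * (g y - g x) := by
  rw [hl.op_one g x]
  have : ∑ y, P x y * (g y - g x) = ∑ y, P x y * g y - (∑ y, P x y) * g x := by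
    rw [Finset.sum_mul, ← Finset.sum_sub_distrib]
    exact Finset.sum_congr rfl fun y _ => by ring
  rw [this, h3 x, one_mul]

/-- adjointness summed over `i < τ` -/
lemma adj_sum {μ : S → ℝ} {P : Matrix S S ℝ} (hl : Lib μ P) (z D : S → ℝ) (τ : ℕ) :
    av μ (fun x => z x * ∑ i ∈ Finset.range τ, op P i D x)
      = av μ (fun x => (∑ i ∈ Finset.range τ, op P i z x) * D x) := by
  have e1 : av μ (fun x => z x * ∑ i ∈ Finset.range τ, op P i D x)
      = ∑ i ∈ Finset.range τ, av μ (fun x => z x * op P i D x) := by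
    unfold av
    rw [Finset.sum_comm]
    refine Finset.sum_congr rfl fun x _ => ?_
    beta_reduce
    rw [Finset.mul_sum, Finset.mul_sum]
  have e2 : av μ (fun x => (∑ i ∈ Finset.range τ, op P i z x) * D x)
      = ∑ i ∈ Finset.range τ, av μ (fun x => op P i z x * D x) := by
    unfold av
    rw [Finset.sum_comm]
    refine Finset.sum_congr rfl fun x _ => ?_
    beta_reduce
    rw [Finset.sum_mul, Finset.mul_sum]
  rw [e1, e2]
  exact Finset.sum_congr rfl fun i _ => hl.av_adj i z D

/-- symmetrisation of an edge sum -/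
lemma symm_edge {μ : S → ℝ} {P : Matrix S S ℝ} (h4 : ∀ i j, μ i * P i j = μ j * P j i)
    (M G : S → ℝ) :
    ∑ a, ∑ b, μ a * P a b * (M a * (G b - G a))
      = (1 / 2) * ∑ a, ∑ b, μ a * P a b * ((M a - M b) * (G b - G a)) := by
  have e : ∑ a, ∑ b, μ a * P a b * (M a * (G b - G a))
      = ∑ a, ∑ b, μ a * P a b * (M b * (G a - G b)) := by
    rw [Finset.sum_comm]
    refine Finset.sum_congr rfl fun a _ => Finset.sum_congr rfl fun b _ => ?_
    rw [h4 b a]
  have e2 : ∑ a, ∑ b, μ a * P a b * ((M a - M b) * (G b - G a))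
      = ∑ a, ∑ b, μ a * P a b * (M a * (G b - G a))
        + ∑ a, ∑ b, μ a * P a b * (M b * (G a - G b)) := by
    rw [← Finset.sum_add_distrib]
    refine Finset.sum_congr rfl fun a _ => ?_
    rw [← Finset.sum_add_distrib]
    exact Finset.sum_congr rfl fun b _ => by ring
  rw [e2, ← e]
  ring

/-- summation by parts in the coordinate index -/
lemma parts (m d : Fin n → ℝ) :
    ∑ k, m k * (∑ i, if i ≤ k then d i else 0) = ∑ j, d j * (∑ k, if j ≤ k then m k else 0) := by
  have e1 : ∀ k, m k * (∑ i, if i ≤ k then d i else 0) = ∑ i, if i ≤ k then d i * m k else 0 := by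
    intro k
    rw [Finset.mul_sum]
    refine Finset.sum_congr rfl fun i _ => ?_
    split_ifs <;> ring
  have e2 : ∀ j, d j * (∑ k, if j ≤ k then m k else 0) = ∑ k, if j ≤ k then d j * m k else 0 := by
    intro j
    rw [Finset.mul_sum]
    refine Finset.sum_congr rfl fun i _ => ?_
    split_ifs <;> ring
  simp only [e1, e2]
  exact Finset.sum_comm

lemma F_sub (f : S → Fin n → ℝ) (k : Fin n) (a b : S) :
    F f k b - F f k a = ∑ i, if i ≤ k then (f b i - f a i) else 0 := by
  unfold F
  rw [← Finset.sum_sub_distrib]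
  refine Finset.sum_congr rfl fun i _ => ?_
  split_ifs <;> ring

lemma UU_sub (P : Matrix S S ℝ) (f : S → Fin n → ℝ) (τ s : ℕ) (j : Fin n) (a b : S) :
    UU P f τ s j a - UU P f τ s j b
      = ∑ k, if j ≤ k then (Mk P f τ s k a - Mk P f τ s k b) else 0 := by
  unfold UU
  rw [← Finset.sum_sub_distrib]
  refine Finset.sum_congr rfl fun i _ => ?_
  split_ifs <;> ring

end D83

open D83 in
theorem stDual_83 : StDual := by
  intro S _ _ μ P hc hl n f τ s
  obtain ⟨h0, h1, h2, h3, h4⟩ := hc
  -- each coordinate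
  have hA : ∀ k : Fin n, av μ (fun b => om P f k b * op P s (fun z => |hh P f τ k z|) b)
      = (1 / 2) * ∑ a, ∑ b, μ a * P a b *
          ((Mk P f τ s k a - Mk P f τ s k b) * (F f k b - F f k a)) := by
    intro k
    rw [hl.av_adj s (om P f k) (fun z => |hh P f τ k z|)]
    have e1 : (fun x => op P s (om P f k) x * |hh P f τ k x|)
        = fun x => zt P f τ s k x *
            ∑ i ∈ Finset.range τ, op P i (fun y => op P 1 (F f k) y - F f k y) x := by
      funext x
      have t1 : hh P f τ k x
          = ∑ i ∈ Finset.range τ, op P i (fun y => op P 1 (F f k) y - F f k y) x :=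
        tele hl (F f k) τ x
      rw [← t1]
      unfold zt
      have t2 : |hh P f τ k x| = (SignType.sign (hh P f τ k x) : ℝ) * hh P f τ k x :=
        (sign_mul_self _).symm
      rw [t2]
      ring
    rw [e1, adj_sum hl]
    have e2 : av μ (fun x => (∑ i ∈ Finset.range τ, op P i (zt P f τ s k) x) *
          (op P 1 (F f k) x - F f k x))
        = ∑ a, ∑ b, μ a * P a b * (Mk P f τ s k a * (F f k b - F f k a)) := by
      unfold av
      refine Finset.sum_congr rfl fun a _ => ?_
      beta_reduce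
      rw [gen hl h3 (F f k) a, Finset.mul_sum, Finset.mul_sum]
      refine Finset.sum_congr rfl fun b _ => ?_
      unfold Mk
      ring
    rw [e2, symm_edge h4]
  unfold Rr
  simp only [hA]
  rw [← Finset.mul_sum]
  apply mul_le_mul_of_nonneg_left _ (by norm_num)
  rw [Finset.sum_comm]
  refine Finset.sum_le_sum fun a _ => ?_
  rw [Finset.sum_comm]
  refine Finset.sum_le_sum fun b _ => ?_
  rw [← Finset.mul_sum]
  apply mul_le_mul_of_nonneg_left _ (mul_nonneg (h0 a) (h2 a b))
  have e3 : ∑ k, (Mk P f τ s k a - Mk P f τ s k b) * (F f k b - F f k a)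
      = ∑ j, (f b j - f a j) * (UU P f τ s j a - UU P f τ s j b) := by
    simp only [F_sub, UU_sub]
    exact parts _ _
  rw [e3]
  refine Finset.sum_le_sum fun j _ => ?_
  unfold w
  calc (f b j - f a j) * (UU P f τ s j a - UU P f τ s j b)
      ≤ |(f b j - f a j) * (UU P f τ s j a - UU P f τ s j b)| := le_abs_self _
    _ = |f b j - f a j| * |UU P f τ s j a - UU P f τ s j b| := abs_mul _ _

end Vale.Agent.P125.Poly
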