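import Mathlib
import Vale.Agent.P125.Poly.Defs58

set_option linter.unusedSectionVars false
set_option linter.unusedVariables false

/-! # P125 Poly: Step 4 (duality), race copy of helper86 -/

namespace Vale.Agent.P125.Poly

open scoped BigOperators
open Vale.Agent.P125.Dich

variable {S : Type} [Fintype S] [DecidableEq S] {n : ℕ}

/-- one step drift of `F_k` -/
def dd86 (P : Matrix S S ℝ) (f : S → Fin n → ℝ) (k : Fin n) (z : S) : ℝ :=
  op P 1 (F f k) z - F f k z

lemma hh_eq_sum86 {μ : S → ℝ} {P : Matrix S S ℝ} (hL : Lib μ P) (f : S → Fin n → ℝ)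
    (τ : ℕ) (k : Fin n) (z : S) :
    hh P f τ k z = ∑ i ∈ Finset.range τ, op P i (dd86 P f k) z := by
  have h1 : ∀ i, op P i (dd86 P f k) z = op P (i + 1) (F f k) z - op P i (F f k) z := by
    intro i
    have := hL.op_sub i (op P 1 (F f k)) (F f k) z
    have h2 : op P i (dd86 P f k) z
        = op P i (fun y => op P 1 (F f k) y - F f k y) z := rfl
    rw [h2, this, hL.op_op]
  simp_rw [h1]
  rw [Finset.sum_range_sub (fun i => op P i (F f k) z) τ, hL.op_zero]
  rfl

lemma av_sum86 (μ : S → ℝ) {ι : Type} (s : Finset ι) (g : ι → S → ℝ) :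
    av μ (fun x => ∑ i ∈ s, g i x) = ∑ i ∈ s, av μ (g i) := by
  unfold av
  simp_rw [Finset.mul_sum]
  rw [Finset.sum_comm]

lemma term86 {μ : S → ℝ} {P : Matrix S S ℝ} (hL : Lib μ P) (f : S → Fin n → ℝ)
    (τ s : ℕ) (k : Fin n) :
    av μ (fun b => om P f k b * op P s (fun z => |hh P f τ k z|) b)
      = av μ (fun a => Mk P f τ s k a * dd86 P f k a) := by
  rw [hL.av_adj s (om P f k) (fun z => |hh P f τ k z|)]
  have h1 : (fun x => op P s (om P f k) x * |hh P f τ k x|)
      = fun x => ∑ i ∈ Finset.range τ, zt P f τ s k x * op P i (dd86 P f k) x := by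
    funext x
    rw [← Finset.mul_sum, ← hh_eq_sum86 hL]
    unfold zt
    have : (SignType.sign (hh P f τ k x) : ℝ) * hh P f τ k x = |hh P f τ k x| :=
      sign_mul_self _
    rw [← this]
    ring
  rw [h1, av_sum86]
  have h2 : (fun a => Mk P f τ s k a * dd86 P f k a)
      = fun a => ∑ i ∈ Finset.range τ, op P i (zt P f τ s k) a * dd86 P f k a := by
    funext a
    unfold Mk
    rw [Finset.sum_mul]
  rw [h2, av_sum86]
  refine Finset.sum_congr rfl fun i _ => ?_
  exact hL.av_adj i (zt P f τ s k) (dd86 P f k)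

lemma dd_eq86 {μ : S → ℝ} {P : Matrix S S ℝ} (hc : IsChain μ P) (hL : Lib μ P)
    (f : S → Fin n → ℝ) (k : Fin n) (a : S) :
    dd86 P f k a = ∑ b, P a b * (F f k b - F f k a) := by
  unfold dd86
  rw [hL.op_one]
  simp_rw [mul_sub]
  rw [Finset.sum_sub_distrib, ← Finset.sum_mul, hc.2.2.2.1 a, one_mul]

lemma F_sub86 (f : S → Fin n → ℝ) (k : Fin n) (a b : S) :
    F f k b - F f k a = ∑ j, if j ≤ k then (f b j - f a j) else 0 := by
  unfold F
  rw [← Finset.sum_sub_distrib]
  refine Finset.sum_congr rfl fun j _ => ?_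
  split_ifs <;> simp

lemma swap86 (P : Matrix S S ℝ) (f : S → Fin n → ℝ) (τ s : ℕ) (a b : S) :
    ∑ k, Mk P f τ s k a * (F f k b - F f k a)
      = ∑ j, (f b j - f a j) * UU P f τ s j a := by
  simp_rw [F_sub86, Finset.mul_sum]
  rw [Finset.sum_comm]
  refine Finset.sum_congr rfl fun j _ => ?_
  unfold UU
  rw [Finset.mul_sum]
  refine Finset.sum_congr rfl fun k _ => ?_
  split_ifs <;> ring

lemma Rr_eq86 {μ : S → ℝ} {P : Matrix S S ℝ} (hc : IsChain μ P) (hL : Lib μ P)
    (f : S → Fin n → ℝ) (τ s : ℕ) :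
    Rr μ P f τ s = ∑ a, ∑ b, μ a * P a b * ∑ j, (f b j - f a j) * UU P f τ s j a := by
  unfold Rr
  simp_rw [term86 hL]
  unfold av
  rw [Finset.sum_comm]
  refine Finset.sum_congr rfl fun a _ => ?_
  simp_rw [← swap86, dd_eq86 hc hL, Finset.mul_sum]
  rw [Finset.sum_comm]
  refine Finset.sum_congr rfl fun b _ => ?_
  refine Finset.sum_congr rfl fun k _ => ?_
  ring

theorem stDual_86 (hs : StSmall) : StDual := by
  intro S _ _ μ P hc hL n f τ s
  have h1 := Rr_eq86 hc hL f τ s
  have h2 : Rr μ P f τ s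
      = ∑ a, ∑ b, μ a * P a b * ∑ j, (f a j - f b j) * UU P f τ s j b := by
    rw [h1, Finset.sum_comm]
    refine Finset.sum_congr rfl fun a _ => ?_
    refine Finset.sum_congr rfl fun b _ => ?_
    rw [hc.2.2.2.2 b a]
  have h3 : Rr μ P f τ s = (1 / 2) * ∑ a, ∑ b, μ a * P a b *
      ∑ j, (f b j - f a j) * (UU P f τ s j a - UU P f τ s j b) := by
    have : ∑ a, ∑ b, μ a * P a b * ∑ j, (f b j - f a j) * (UU P f τ s j a - UU P f τ s j b)
        = Rr μ P f τ s + Rr μ P f τ s := by
      nth_rewrite 1 [h1]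
      rw [h2, ← Finset.sum_add_distrib]
      refine Finset.sum_congr rfl fun a _ => ?_
      rw [← Finset.sum_add_distrib]
      refine Finset.sum_congr rfl fun b _ => ?_
      rw [← mul_add, ← Finset.sum_add_distrib]
      congr 1
      refine Finset.sum_congr rfl fun j _ => ?_
      ring
    rw [this]
    ring
  rw [h3]
  refine mul_le_mul_of_nonneg_left ?_ (by norm_num)
  refine Finset.sum_le_sum fun a _ => ?_
  refine Finset.sum_le_sum fun b _ => ?_
  refine mul_le_mul_of_nonneg_left ?_ (mul_nonneg (hc.1 a) (hc.2.2.1 a b))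
  refine Finset.sum_le_sum fun j _ => ?_
  unfold w
  calc (f b j - f a j) * (UU P f τ s j a - UU P f τ s j b)
      ≤ |(f b j - f a j) * (UU P f τ s j a - UU P f τ s j b)| := le_abs_self _
    _ = |f b j - f a j| * |UU P f τ s j a - UU P f τ s j b| := abs_mul _ _

end Vale.Agent.P125.Poly
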