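import Vale.Agent.P125.Poly.Defs_79
import Vale.Agent.P125.Poly.ApiA_79
import Vale.Agent.P125.Poly.ApiB_79
import Vale.Agent.P125.Poly.Api75

set_option linter.unusedSectionVars false
set_option linter.unusedVariables false

/-! # P125 polynomial rate, path-free form (board 624): step (F) = S7: pointwise energy bound -/

namespace Vale.Agent.P125.Poly79

open scoped BigOperators
open Vale.Agent.P125.Dich Vale.Agent.P125.BV

variable {S : Type} [Fintype S] [DecidableEq S]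

private lemma op_eq75 (R : Matrix S S ℝ) (g : S → ℝ) : op R g = Poly75.op R g := rfl

private lemma abs_Av_le {μ : S → ℝ} {P : Matrix S S ℝ} (hc : IsChain μ P) (τ : ℕ) (Φ L : S → ℝ)
    (hΦ : ∀ z, |Φ z| ≤ L z) (z : S) : |Av P τ Φ z| ≤ Av P τ L z := by
  unfold Av
  refine (Finset.abs_sum_le_sum_abs _ _).trans (Finset.sum_le_sum fun i _ => ?_)
  rw [op_eq75, op_eq75]
  exact (Poly75.abs_op_le (isChain_pow hc i) Φ z).trans (Poly75.op_mono (isChain_pow hc i) hΦ z)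

private lemma op_Av_sub (P : Matrix S S ℝ) (τ : ℕ) (Φ : S → ℝ) (z : S) :
    op P (Av P τ Φ) z - Av P τ Φ z = op (P ^ τ) Φ z - Φ z := by
  have e1 : op P (Av P τ Φ) z = ∑ i ∈ Finset.range τ, op (P ^ (i + 1)) Φ z := by
    have : Av P τ Φ = fun w => ∑ i ∈ Finset.range τ, Poly75.op (P ^ i) Φ w := rfl
    rw [this, op_eq75, Poly75.op_sum]
    refine Finset.sum_congr rfl fun i _ => ?_
    rw [op_eq75, Poly75.op_pow_succ']
  have e2 : Av P τ Φ z = ∑ i ∈ Finset.range τ, op (P ^ i) Φ z := rfl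
  rw [e1, e2, ← Finset.sum_sub_distrib, Finset.sum_range_sub (fun i => op (P ^ i) Φ z) τ]
  rw [pow_zero, op_eq75 1, Poly75.op_one]

private lemma abs_drift_le {μ : S → ℝ} {P : Matrix S S ℝ} (hc : IsChain μ P) (τ : ℕ) (Φ L : S → ℝ)
    (hΦ : ∀ z, |Φ z| ≤ L z) (z : S) : |op (P ^ τ) Φ z - Φ z| ≤ op (P ^ τ) L z + L z := by
  have h1 : |op (P ^ τ) Φ z| ≤ op (P ^ τ) L z := by
    rw [op_eq75, op_eq75]
    exact (Poly75.abs_op_le (isChain_pow hc τ) Φ z).trans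
      (Poly75.op_mono (isChain_pow hc τ) hΦ z)
  have h1' := abs_le.mp h1
  have h2' := abs_le.mp (hΦ z)
  rw [abs_le]
  constructor <;> linarith [h1'.1, h1'.2, h2'.1, h2'.2]

private lemma Gam_le {μ : S → ℝ} {P : Matrix S S ℝ} (hc : IsChain μ P) (τ : ℕ) (Φ L : S → ℝ)
    (hΦ : ∀ z, |Φ z| ≤ L z) (z : S) :
    Gam P (Av P τ Φ) z ≤ (op P (fun w => Av P τ Φ w ^ 2) z - Av P τ Φ z ^ 2) +
      2 * (Av P τ L z * (op (P ^ τ) L z + L z)) := by
  have e : Gam P (Av P τ Φ) z = op P (fun w => Av P τ Φ w ^ 2) z - Av P τ Φ z ^ 2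
      - 2 * Av P τ Φ z * (op P (Av P τ Φ) z - Av P τ Φ z) := Poly75.gamma_eq hc (Av P τ Φ) z
  rw [e, op_Av_sub]
  have hU := abs_Av_le hc τ Φ L hΦ z
  have hd := abs_drift_le hc τ Φ L hΦ z
  have h1 : -(Av P τ Φ z * (op (P ^ τ) Φ z - Φ z)) ≤ |Av P τ Φ z| * |op (P ^ τ) Φ z - Φ z| := by
    rw [← abs_mul]
    exact neg_le_abs _
  have h2 : |Av P τ Φ z| * |op (P ^ τ) Φ z - Φ z| ≤ Av P τ L z * (op (P ^ τ) L z + L z) :=
    mul_le_mul hU hd (abs_nonneg _) ((abs_nonneg _).trans hU)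
  linarith

/-- `U = Av P τ Φ`. `Gam P U = op P (U^2) - U^2 - 2 U (op P U - U)`, `op P U - U = op (P^τ) Φ - Φ`,
`|U| ≤ Av P τ L`, `|op (P^τ) Φ - Φ| ≤ op (P^τ) L + L`; the first part telescopes:
`∑_{i<τ} op (P^(s+i)) (op P (U^2) - U^2) = op (P^(s+τ)) (U^2) - op (P^s) (U^2) ≤ op (P^(s+τ)) ((Av L)^2)`. -/
theorem en_le {μ : S → ℝ} {P : Matrix S S ℝ} (hc : IsChain μ P) (τ s : ℕ) (Φ L : S → ℝ)
    (hΦ : ∀ z, |Φ z| ≤ L z) (y : S) :
    ∑ i ∈ Finset.range τ, op (P ^ (s + i)) (Gam P (Av P τ Φ)) y ≤ EnS P τ s L y := by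
  have hk : ∀ k, IsChain μ (P ^ k) := fun k => isChain_pow hc k
  have step : ∀ i ∈ Finset.range τ, op (P ^ (s + i)) (Gam P (Av P τ Φ)) y ≤
      (op (P ^ (s + (i + 1))) (fun w => Av P τ Φ w ^ 2) y
        - op (P ^ (s + i)) (fun w => Av P τ Φ w ^ 2) y) +
      2 * op (P ^ (s + i)) (fun z => Av P τ L z * (op (P ^ τ) L z + L z)) y := by
    intro i _
    have h1 := Poly75.op_mono (hk (s + i)) (Gam_le hc τ Φ L hΦ) y
    have h2 : Poly75.op (P ^ (s + i)) (fun z =>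
        (op P (fun w => Av P τ Φ w ^ 2) z - Av P τ Φ z ^ 2) +
          2 * (Av P τ L z * (op (P ^ τ) L z + L z))) y
        = (Poly75.op (P ^ (s + i)) (Poly75.op P (fun w => Av P τ Φ w ^ 2)) y
            - Poly75.op (P ^ (s + i)) (fun w => Av P τ Φ w ^ 2) y) +
          2 * Poly75.op (P ^ (s + i)) (fun z => Av P τ L z * (op (P ^ τ) L z + L z)) y := by
      rw [Poly75.op_add, Poly75.op_sub, Poly75.op_smul]
      rfl
    rw [h2, ← Poly75.op_pow_succ] at h1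
    exact h1
  refine (Finset.sum_le_sum step).trans ?_
  rw [Finset.sum_add_distrib,
    Finset.sum_range_sub (fun i => op (P ^ (s + i)) (fun w => Av P τ Φ w ^ 2) y) τ,
    ← Finset.mul_sum]
  unfold EnS
  have a1 : op (P ^ (s + τ)) (fun w => Av P τ Φ w ^ 2) y
      ≤ op (P ^ (s + τ)) (fun z => Av P τ L z ^ 2) y := by
    refine Poly75.op_mono (hk (s + τ)) (fun z => ?_) y
    have := abs_le.mp (abs_Av_le hc τ Φ L hΦ z)
    exact sq_le_sq' this.1 this.2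
  have a2 : 0 ≤ op (P ^ (s + 0)) (fun w => Av P τ Φ w ^ 2) y :=
    Poly75.op_nonneg (hk (s + 0)) (fun z => sq_nonneg _) y
  linarith

end Vale.Agent.P125.Poly79
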