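import Vale.Agent.P125.Poly.Defs_79
import Vale.Agent.P125.Poly.ApiA_79
import Vale.Agent.P125.Poly.ApiB_79

set_option linter.unusedSectionVars false
set_option linter.unusedVariables false

namespace Vale.Agent.P125.Poly79

open scoped BigOperators
open Vale.Agent.P125.Dich Vale.Agent.P125.BV

variable {S : Type} [Fintype S] [DecidableEq S]

theorem en_total61 {μ : S → ℝ} {P : Matrix S S ℝ} (hc : IsChain μ P) (τ s : ℕ) (L : S → ℝ) :
    ∑ y, μ y * EnS P τ s L y ≤ 5 * (τ : ℝ) ^ 2 * ∑ y, μ y * L y ^ 2 := by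
  have hμ : ∀ x, 0 ≤ μ x := hc.1
  set E := ∑ y, μ y * L y ^ 2 with hE
  have hE0 : 0 ≤ E := Finset.sum_nonneg fun y _ => mul_nonneg (hμ y) (sq_nonneg _)
  have hτ0 : (0 : ℝ) ≤ (τ : ℝ) := Nat.cast_nonneg τ
  set A : S → ℝ := Av P τ L with hA
  have hA2 : ∑ y, μ y * A y ^ 2 ≤ (τ : ℝ) ^ 2 * E := by
    have h1 : ∀ y, A y ^ 2 ≤ (τ : ℝ) * ∑ i ∈ Finset.range τ, (op (P ^ i) L y) ^ 2 := by
      intro y
      have := sq_sum_le_card_mul_sum_sq (s := Finset.range τ) (f := fun i => op (P ^ i) L y)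
      rw [Finset.card_range] at this
      exact this
    calc ∑ y, μ y * A y ^ 2
        ≤ ∑ y, μ y * ((τ : ℝ) * ∑ i ∈ Finset.range τ, (op (P ^ i) L y) ^ 2) :=
          Finset.sum_le_sum fun y _ => mul_le_mul_of_nonneg_left (h1 y) (hμ y)
      _ = (τ : ℝ) * ∑ i ∈ Finset.range τ, ∑ y, μ y * (op (P ^ i) L y) ^ 2 := by
          rw [Finset.sum_comm, Finset.mul_sum]
          refine Finset.sum_congr rfl fun y _ => ?_
          rw [← Finset.mul_sum]
          ring
      _ ≤ (τ : ℝ) * ∑ i ∈ Finset.range τ, E :=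
          mul_le_mul_of_nonneg_left
            (Finset.sum_le_sum fun i _ => contr (isChain_pow hc i) L) hτ0
      _ = (τ : ℝ) ^ 2 * E := by
          rw [Finset.sum_const, Finset.card_range, nsmul_eq_mul]
          ring
  have cross : ∀ M : S → ℝ, ∑ y, μ y * M y ^ 2 ≤ E → ∑ y, μ y * A y * M y ≤ (τ : ℝ) * E := by
    intro M hM
    have h := cs hμ A M
    have hM0 : 0 ≤ ∑ y, μ y * M y ^ 2 :=
      Finset.sum_nonneg fun y _ => mul_nonneg (hμ y) (sq_nonneg _)
    have h2 : (∑ y, μ y * A y ^ 2) * (∑ y, μ y * M y ^ 2) ≤ ((τ : ℝ) ^ 2 * E) * E :=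
      mul_le_mul hA2 hM hM0 (by positivity)
    have h3 : (∑ y, μ y * A y * M y) ^ 2 ≤ ((τ : ℝ) * E) ^ 2 := by
      calc (∑ y, μ y * A y * M y) ^ 2 ≤ ((τ : ℝ) ^ 2 * E) * E := le_trans h h2
        _ = ((τ : ℝ) * E) ^ 2 := by ring
    exact le_trans (le_abs_self _) (abs_le_of_sq_le_sq h3 (by positivity))
  have c1 := cross (op (P ^ τ) L) (contr (isChain_pow hc τ) L)
  have c2 := cross L le_rfl
  have key : ∑ y, μ y * EnS P τ s L y = ∑ y, μ y * A y ^ 2
      + 2 * ((τ : ℝ) * (∑ y, μ y * A y * op (P ^ τ) L y + ∑ y, μ y * A y * L y)) := by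
    unfold EnS
    simp_rw [mul_add]
    rw [Finset.sum_add_distrib, stat (isChain_pow hc (s + τ)) (fun z => Av P τ L z ^ 2)]
    congr 1
    have e1 : ∀ y, μ y * (2 * ∑ i ∈ Finset.range τ,
        op (P ^ (s + i)) (fun z => Av P τ L z * op (P ^ τ) L z + Av P τ L z * L z) y)
        = 2 * ∑ i ∈ Finset.range τ, μ y *
          op (P ^ (s + i)) (fun z => Av P τ L z * op (P ^ τ) L z + Av P τ L z * L z) y := by
      intro y
      rw [Finset.mul_sum, Finset.mul_sum, Finset.mul_sum]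
      exact Finset.sum_congr rfl fun i _ => by ring
    simp_rw [e1]
    rw [← Finset.mul_sum, Finset.sum_comm]
    have e2 : ∀ i ∈ Finset.range τ, ∑ y, μ y *
        op (P ^ (s + i)) (fun z => Av P τ L z * op (P ^ τ) L z + Av P τ L z * L z) y
        = ∑ y, μ y * A y * op (P ^ τ) L y + ∑ y, μ y * A y * L y := by
      intro i _
      rw [stat (isChain_pow hc (s + i)), ← Finset.sum_add_distrib]
      exact Finset.sum_congr rfl fun y _ => by ring
    rw [Finset.sum_congr rfl e2, Finset.sum_const, Finset.card_range, nsmul_eq_mul]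
    ring
  rw [key]
  nlinarith [mul_le_mul_of_nonneg_left c1 hτ0, mul_le_mul_of_nonneg_left c2 hτ0]

end Vale.Agent.P125.Poly79
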