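import Vale.Agent.P125.Poly.Defs_79
import Vale.Agent.P125.Poly.ApiA_79
import Vale.Agent.P125.Poly.ApiB_79

set_option linter.unusedSectionVars false
set_option linter.unusedVariables false

/-! # P125 polynomial rate, path-free form: total energy (race copy of En2_79, helper3) -/

namespace Vale.Agent.P125.Poly79

open scoped BigOperators
open Vale.Agent.P125.Dich Vale.Agent.P125.BV

variable {S : Type} [Fintype S] [DecidableEq S]

/-- same statement as `en_total` of `En2_79` -/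
theorem en_total_3 {μ : S → ℝ} {P : Matrix S S ℝ} (hc : IsChain μ P) (τ s : ℕ) (L : S → ℝ) :
    ∑ y, μ y * EnS P τ s L y ≤ 5 * (τ : ℝ) ^ 2 * ∑ y, μ y * L y ^ 2 := by
  set E := ∑ y, μ y * L y ^ 2 with hE
  have hE0 : 0 ≤ E := Finset.sum_nonneg fun y _ => mul_nonneg (hc.1 y) (sq_nonneg _)
  have hA : ∑ y, μ y * Av P τ L y ^ 2 ≤ (τ : ℝ) ^ 2 * E := by
    have h1 : ∀ y, Av P τ L y ^ 2 ≤ (τ : ℝ) * ∑ i ∈ Finset.range τ, op (P ^ i) L y ^ 2 := by
      intro y
      unfold Av
      have := sq_sum_le_card_mul_sum_sq (s := Finset.range τ) (f := fun i => op (P ^ i) L y)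
      simpa using this
    calc ∑ y, μ y * Av P τ L y ^ 2
        ≤ ∑ y, μ y * ((τ : ℝ) * ∑ i ∈ Finset.range τ, op (P ^ i) L y ^ 2) :=
          Finset.sum_le_sum fun y _ => mul_le_mul_of_nonneg_left (h1 y) (hc.1 y)
      _ = (τ : ℝ) * ∑ i ∈ Finset.range τ, ∑ y, μ y * op (P ^ i) L y ^ 2 := by
          simp only [Finset.mul_sum]
          rw [Finset.sum_comm]
          refine Finset.sum_congr rfl fun i _ => Finset.sum_congr rfl fun y _ => ?_
          ring
      _ ≤ (τ : ℝ) * ∑ i ∈ Finset.range τ, E :=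
          mul_le_mul_of_nonneg_left
            (Finset.sum_le_sum fun i _ => contr (isChain_pow hc i) L) (Nat.cast_nonneg τ)
      _ = (τ : ℝ) ^ 2 * E := by
          rw [Finset.sum_const, Finset.card_range, nsmul_eq_mul]
          ring
  have hcross : ∀ h : S → ℝ, ∑ y, μ y * h y ^ 2 ≤ E →
      ∑ y, μ y * Av P τ L y * h y ≤ (τ : ℝ) * E := by
    intro h hh
    have h2 := cs hc.1 (Av P τ L) h
    have hn : 0 ≤ ∑ y, μ y * h y ^ 2 :=
      Finset.sum_nonneg fun y _ => mul_nonneg (hc.1 y) (sq_nonneg _)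
    have h3 : (∑ y, μ y * Av P τ L y * h y) ^ 2 ≤ ((τ : ℝ) * E) ^ 2 := by
      calc (∑ y, μ y * Av P τ L y * h y) ^ 2
          ≤ (∑ y, μ y * Av P τ L y ^ 2) * (∑ y, μ y * h y ^ 2) := h2
        _ ≤ ((τ : ℝ) ^ 2 * E) * E := mul_le_mul hA hh hn (by positivity)
        _ = _ := by ring
    have hb : 0 ≤ (τ : ℝ) * E := by positivity
    by_contra hlt
    push Not at hlt
    nlinarith [mul_pos (sub_pos.mpr hlt) (lt_of_le_of_lt hb hlt), h3, hb, hlt]
  have c1 := hcross (op (P ^ τ) L) (contr (isChain_pow hc τ) L)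
  have c2 := hcross L le_rfl
  have eA : ∑ y, μ y * op (P ^ (s + τ)) (fun z => Av P τ L z ^ 2) y =
      ∑ y, μ y * Av P τ L y ^ 2 := stat (isChain_pow hc _) _
  have eB : ∀ i, ∑ y, μ y * op (P ^ (s + i))
      (fun z => Av P τ L z * (op (P ^ τ) L z + L z)) y =
      ∑ y, μ y * Av P τ L y * op (P ^ τ) L y + ∑ y, μ y * Av P τ L y * L y := by
    intro i
    rw [stat (isChain_pow hc _), ← Finset.sum_add_distrib]
    refine Finset.sum_congr rfl fun y _ => ?_
    ring
  have e : ∑ y, μ y * EnS P τ s L y = ∑ y, μ y * Av P τ L y ^ 2 +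
      2 * ((τ : ℝ) * (∑ y, μ y * Av P τ L y * op (P ^ τ) L y + ∑ y, μ y * Av P τ L y * L y)) := by
    have e0 : ∀ y, μ y * EnS P τ s L y =
        μ y * op (P ^ (s + τ)) (fun z => Av P τ L z ^ 2) y +
          2 * ∑ i ∈ Finset.range τ, μ y * op (P ^ (s + i))
            (fun z => Av P τ L z * (op (P ^ τ) L z + L z)) y := by
      intro y
      unfold EnS
      rw [mul_add, Finset.mul_sum, Finset.mul_sum, Finset.mul_sum]
      congr 1
      refine Finset.sum_congr rfl fun i _ => ?_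
      ring
    simp only [e0]
    rw [Finset.sum_add_distrib, eA, ← Finset.mul_sum, Finset.sum_comm,
      Finset.sum_congr rfl (fun i _ => eB i), Finset.sum_const, Finset.card_range, nsmul_eq_mul]
  rw [e]
  have hτ : (0 : ℝ) ≤ (τ : ℝ) := Nat.cast_nonneg τ
  nlinarith [mul_le_mul_of_nonneg_left (add_le_add c1 c2) hτ, hA]

end Vale.Agent.P125.Poly79
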