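import Vale.Agent.P125.Poly.Defs58
import Vale.Agent.P125.Poly.Energy_4

set_option linter.unusedSectionVars false
set_option linter.unusedVariables false

/-!
# P125 Poly: `StEn` of `Defs58` (energy bound, pointwise)
-/

namespace Vale.Agent.P125.Poly4

open scoped BigOperators
open Finset

variable {S : Type} [Fintype S] [DecidableEq S]

/-- the energy bound without normalisation -/
theorem energy' (P : Matrix S S ℝ) (h0 : ∀ i j, 0 ≤ P i j) (h1 : ∀ i, ∑ j, P i j = 1)
    (φ Lb : S → ℝ) (hφ : ∀ z, |φ z| ≤ Lb z) (τ : ℕ) (s : ℕ) (v AL : S → ℝ)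
    (hv : ∀ z, v z = ∑ i ∈ range τ, kp P i φ z)
    (hAL : ∀ z, AL z = ∑ i ∈ range τ, kp P i Lb z) (y : S) :
    ∑ i ∈ range τ, kp P (s + i) (fun a => ∑ b, P a b * (v b - v a) ^ 2) y ≤
      kp P (s + τ) (fun a => AL a ^ 2) y
        + 2 * ∑ i ∈ range τ, kp P (s + i) (fun a => AL a * (kp P τ Lb a + Lb a)) y := by
  have hvAL : ∀ z, |v z| ≤ AL z := by
    intro z
    rw [hv, hAL]
    refine le_trans (Finset.abs_sum_le_sum_abs _ _) ?_
    exact Finset.sum_le_sum fun i _ => kp_abs_le P h0 i φ Lb hφ z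
  have hPv : ∀ a, (∑ b, P a b * v b) - v a = kp P τ φ a - φ a := by
    intro a
    have e1 : ∑ b, P a b * v b = ∑ i ∈ range τ, kp P (i + 1) φ a := by
      simp_rw [hv, kp_succ, Finset.mul_sum]
      rw [Finset.sum_comm]
    rw [e1, hv, ← Finset.sum_sub_distrib,
      Finset.sum_range_sub (fun i => kp P i φ a), kp_zero]
  have hdrift : ∀ a, -(2 * v a * ((∑ b, P a b * v b) - v a)) ≤
      2 * (AL a * (kp P τ Lb a + Lb a)) := by
    intro a
    rw [hPv]
    have b1 := hvAL a
    have b2 := kp_abs_le P h0 τ φ Lb hφ a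
    have b3 := hφ a
    have b4 : |kp P τ φ a - φ a| ≤ kp P τ Lb a + Lb a := by
      refine le_trans (abs_sub _ _) ?_
      linarith
    have b5 : |v a * (kp P τ φ a - φ a)| ≤ AL a * (kp P τ Lb a + Lb a) := by
      rw [abs_mul]
      exact mul_le_mul b1 b4 (abs_nonneg _) (le_trans (abs_nonneg _) b1)
    have b6 := neg_abs_le (v a * (kp P τ φ a - φ a))
    linarith
  have hterm : ∀ i, kp P (s + i) (fun a => ∑ b, P a b * (v b - v a) ^ 2) y ≤
      (kp P (s + (i + 1)) (fun a => v a ^ 2) y - kp P (s + i) (fun a => v a ^ 2) y)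
        + 2 * kp P (s + i) (fun a => AL a * (kp P τ Lb a + Lb a)) y := by
    intro i
    have c1 : kp P (s + (i + 1)) (fun a => v a ^ 2) y
        = kp P (s + i) (fun a => ∑ b, P a b * v b ^ 2) y := by
      rw [← add_assoc, kp_succ']
    rw [c1, ← kp_sub_fun, ← kp_const_mul, ← kp_add_fun]
    apply kp_mono P h0
    intro a
    rw [gam_eq P h1]
    have := hdrift a
    linarith
  refine le_trans (Finset.sum_le_sum fun i _ => hterm i) ?_
  rw [Finset.sum_add_distrib, ← Finset.mul_sum,
    Finset.sum_range_sub (fun i => kp P (s + i) (fun a => v a ^ 2) y)]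
  have d1 : kp P (s + τ) (fun a => v a ^ 2) y ≤ kp P (s + τ) (fun a => AL a ^ 2) y := by
    apply kp_mono P h0
    intro a
    have := hvAL a
    exact sq_le_sq' (by linarith [neg_abs_le (v a)]) (le_trans (le_abs_self _) this)
  have d2 : 0 ≤ kp P (s + 0) (fun a => v a ^ 2) y := kp_nonneg P h0 _ _ (fun a => sq_nonneg _) y
  linarith

lemma kp_sum_fun {ι : Type} (t : Finset ι) (R : Matrix S S ℝ) (i : ℕ) (g : ι → S → ℝ) (y : S) :
    kp R i (fun w => ∑ j ∈ t, g j w) y = ∑ j ∈ t, kp R i (g j) y := by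
  unfold kp
  simp_rw [Finset.mul_sum]
  rw [Finset.sum_comm]

end Vale.Agent.P125.Poly4

namespace Vale.Agent.P125.Poly

open scoped BigOperators
open Vale.Agent.P125.Dich
open Vale.Agent.P125.Poly4

theorem stEn_4 (hs : StSmall) : StEn := by
  intro S _ _ μ P hc hL n f τ s k y
  obtain ⟨hom0, homsum, -⟩ := hs S μ P hc hL n f
  obtain ⟨-, -, h0, h1, -⟩ := hc
  -- the function phi
  set φ : S → ℝ := fun z => ∑ k', if k ≤ k' then zt P f τ s k' z else 0 with hφdef
  have hφ : ∀ z, |φ z| ≤ LL P f s z := by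
    intro z
    have e1 : LL P f s z = ∑ k', kp P s (om P f k') z := by
      rw [← kp_sum_fun]
      show kp P s (lbar P f) z = _
      congr 1
      funext w
      exact (homsum w).symm
    rw [e1]
    refine le_trans (Finset.abs_sum_le_sum_abs _ _) ?_
    refine Finset.sum_le_sum fun k' _ => ?_
    have hnn : 0 ≤ kp P s (om P f k') z := kp_nonneg P h0 s _ (hom0 k') z
    split_ifs with hk
    · show |(SignType.sign (hh P f τ k' z) : ℝ) * kp P s (om P f k') z| ≤ _
      rw [abs_mul, abs_of_nonneg hnn]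
      have : |((SignType.sign (hh P f τ k' z) : SignType) : ℝ)| ≤ 1 := by
        rcases SignType.trichotomy (SignType.sign (hh P f τ k' z)) with h | h | h <;> rw [h] <;> simp
      nlinarith
    · simpa using hnn
  have hv : ∀ z, UU P f τ s k z = ∑ i ∈ Finset.range τ, kp P i φ z := by
    intro z
    have e2 : ∀ i, kp P i φ z = ∑ k', if k ≤ k' then kp P i (zt P f τ s k') z else 0 := by
      intro i
      rw [hφdef, kp_sum_fun]
      refine Finset.sum_congr rfl fun k' _ => ?_
      split_ifs with hk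
      · rfl
      · unfold kp
        simp
    simp_rw [e2]
    rw [Finset.sum_comm]
    unfold UU
    refine Finset.sum_congr rfl fun k' _ => ?_
    split_ifs with hk
    · rfl
    · simp
  have key := energy' P h0 h1 φ (LL P f s) hφ τ s (UU P f τ s k) (AA P f τ s) hv (fun z => rfl) y
  have e3 : ∑ i ∈ Finset.range τ, op P (i + s) (epsk P f τ s k) y
      = ∑ i ∈ Finset.range τ, kp P (s + i)
          (fun a => ∑ b, P a b * (UU P f τ s k b - UU P f τ s k a) ^ 2) y := by
    refine Finset.sum_congr rfl fun i _ => ?_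
    rw [add_comm i s]
    rfl
  have e4 : BB P f τ s y = kp P (s + τ) (fun a => AA P f τ s a ^ 2) y
        + 2 * ∑ i ∈ Finset.range τ, kp P (s + i)
          (fun a => AA P f τ s a * (kp P τ (LL P f s) a + LL P f s a)) y := by
    unfold BB
    congr 2
    refine Finset.sum_congr rfl fun i _ => ?_
    rw [add_comm i s]
    rfl
  rw [e3, e4]
  exact key

end Vale.Agent.P125.Poly
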