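import Mathlib
import Vale.Agent.P125.Poly.Defs58

set_option linter.unusedSectionVars false
set_option linter.unusedVariables false

/-!
# P125 Poly: Step 7 pointwise (EN), helper45
-/

namespace Vale.Agent.P125.Poly

open scoped BigOperators
open Vale.Agent.P125.Dich

theorem abs_sign_le_one_45 (x : ℝ) : |((SignType.sign x : SignType) : ℝ)| ≤ 1 := by
  rcases lt_trichotomy x 0 with h | h | h
  · simp [sign_neg h]
  · simp [h]
  · simp [sign_pos h]

theorem stEn_45 (hs : StSmall) : StEn := by
  intro S _ _ μ P hC hL n f τ s k y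
  obtain ⟨hom0, homsum, hlb0, hl20, havl2, havlb, hU0, hFell, hwsym, hellsym⟩ :=
    hs S μ P hC hL n f
  -- nonnegativity of op on nonnegative functions
  have hop0 : ∀ (j : ℕ) (h : S → ℝ), (∀ z, 0 ≤ h z) → ∀ z, 0 ≤ op P j h z := by
    intro j h hh0 z
    have h1 := hL.op_mono j (fun _ => (0 : ℝ)) h hh0 z
    rw [hL.op_const] at h1
    exact h1
  set g : S → ℝ := UU P f τ s k with hg
  set φ : S → ℝ := fun z => ∑ k', if k ≤ k' then zt P f τ s k' z else 0 with hφ
  set L : S → ℝ := LL P f s with hLdef
  set A : S → ℝ := AA P f τ s with hAdef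
  -- (a0)
  have hLsum : ∀ z, L z = ∑ k', op P s (om P f k') z := by
    intro z
    have h1 := hL.op_sum (Fin n) Finset.univ s (fun k' => om P f k') z
    rw [← h1]
    have : (fun y => ∑ i, om P f i y) = lbar P f := by
      funext y
      exact homsum y
    rw [this]
    rfl
  have hφL : ∀ z, |φ z| ≤ L z := by
    intro z
    rw [hLsum z]
    refine (Finset.abs_sum_le_sum_abs _ _).trans ?_
    refine Finset.sum_le_sum ?_
    intro k' _
    have h0 : 0 ≤ op P s (om P f k') z := hop0 s _ (hom0 k') z
    split_ifs with hk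
    · unfold zt
      rw [abs_mul, abs_of_nonneg h0]
      have := abs_sign_le_one_45 (hh P f τ k' z)
      nlinarith
    · simpa using h0
  have hL0 : ∀ z, 0 ≤ L z := fun z => (abs_nonneg _).trans (hφL z)
  -- g as a sum
  have hopite : ∀ (i : ℕ) (k' : Fin n) (z : S),
      op P i (fun y => if k ≤ k' then zt P f τ s k' y else 0) z =
        if k ≤ k' then op P i (zt P f τ s k') z else 0 := by
    intro i k' z
    split_ifs with hk
    · rfl
    · exact hL.op_const i 0 z
  have hgφ : ∀ z, g z = ∑ i ∈ Finset.range τ, op P i φ z := by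
    intro z
    have h1 : ∀ i, op P i φ z = ∑ k', if k ≤ k' then op P i (zt P f τ s k') z else 0 := by
      intro i
      have h2 := hL.op_sum (Fin n) Finset.univ i
        (fun k' y => if k ≤ k' then zt P f τ s k' y else 0) z
      rw [hφ, h2]
      exact Finset.sum_congr rfl (fun k' _ => hopite i k' z)
    simp only [h1]
    rw [Finset.sum_comm]
    rw [hg]
    unfold UU Mk
    refine Finset.sum_congr rfl ?_
    intro k' _
    split_ifs with hk
    · rfl
    · simp
  have hgA : ∀ z, |g z| ≤ A z := by
    intro z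
    rw [hgφ z, hAdef]
    unfold AA
    refine (Finset.abs_sum_le_sum_abs _ _).trans ?_
    refine Finset.sum_le_sum ?_
    intro i _
    refine (hL.abs_op i φ z).trans ?_
    exact hL.op_mono i _ _ hφL z
  have hA0 : ∀ z, 0 ≤ A z := fun z => (abs_nonneg _).trans (hgA z)
  -- (b)
  have hb : ∀ z, op P 1 g z - g z = op P τ φ z - φ z := by
    intro z
    have h1 : op P 1 g z = ∑ i ∈ Finset.range τ, op P (i + 1) φ z := by
      have h2 : g = fun y => ∑ i ∈ Finset.range τ, op P i φ y := funext hgφ
      rw [h2, hL.op_sum ℕ (Finset.range τ) 1 (fun i => op P i φ) z]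
      refine Finset.sum_congr rfl ?_
      intro i _
      rw [hL.op_op, add_comm]
    rw [h1, hgφ z, ← Finset.sum_sub_distrib,
      Finset.sum_range_sub (fun i => op P i φ z) τ, hL.op_zero]
  have hD : ∀ z, |op P 1 g z - g z| ≤ op P τ L z + L z := by
    intro z
    rw [hb z]
    have h1 : |op P τ φ z| ≤ op P τ L z :=
      (hL.abs_op τ φ z).trans (hL.op_mono τ _ _ hφL z)
    have h2 := hφL z
    have h3 := abs_sub (op P τ φ z) (φ z)
    linarith
  -- (c)
  have hrow : ∀ a, ∑ b, P a b = 1 := by
    intro a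
    have := hL.pw_sum 1 a
    simpa using this
  have hc : ∀ a, epsk P f τ s k a =
      (op P 1 (fun z => g z ^ 2) a - g a ^ 2) - 2 * g a * (op P 1 g a - g a) := by
    intro a
    rw [hL.op_one, hL.op_one]
    unfold epsk
    have h1 : ∀ b, P a b * (UU P f τ s k b - UU P f τ s k a) ^ 2 =
        P a b * g b ^ 2 - 2 * g a * (P a b * g b) + g a ^ 2 * P a b := by
      intro b
      rw [hg]
      ring
    simp only [h1]
    rw [Finset.sum_add_distrib, Finset.sum_sub_distrib, ← Finset.mul_sum, ← Finset.mul_sum,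
      hrow a]
    ring
  have hc' : ∀ a, epsk P f τ s k a ≤
      (op P 1 (fun z => g z ^ 2) a - g a ^ 2) + 2 * (A a * (op P τ L a + L a)) := by
    intro a
    rw [hc a]
    have h1 := hgA a
    have h2 := hD a
    have h3 : |g a * (op P 1 g a - g a)| ≤ A a * (op P τ L a + L a) := by
      rw [abs_mul]
      exact mul_le_mul h1 h2 (abs_nonneg _) (hA0 a)
    have h4 := neg_abs_le (g a * (op P 1 g a - g a))
    nlinarith
  -- (d), (e)
  have hstep : ∀ i, op P (i + s) (epsk P f τ s k) y ≤
      (op P ((i + 1) + s) (fun z => g z ^ 2) y - op P (i + s) (fun z => g z ^ 2) y) +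
        2 * op P (i + s) (fun z => A z * (op P τ L z + L z)) y := by
    intro i
    refine (hL.op_mono (i + s) _ _ hc' y).trans ?_
    rw [hL.op_add (i + s) (fun a => op P 1 (fun z => g z ^ 2) a - g a ^ 2)
      (fun a => 2 * (A a * (op P τ L a + L a))) y]
    rw [hL.op_sub (i + s) (fun a => op P 1 (fun z => g z ^ 2) a) (fun a => g a ^ 2) y]
    rw [hL.op_smul (i + s) 2 (fun a => A a * (op P τ L a + L a)) y]
    have h1 : op P (i + s) (fun a => op P 1 (fun z => g z ^ 2) a) y =
        op P ((i + 1) + s) (fun z => g z ^ 2) y := by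
      have h2 := hL.op_op (i + s) 1 (fun z => g z ^ 2)
      have h3 : i + s + 1 = i + 1 + s := by ring
      rw [h3] at h2
      exact congrFun h2 y
    rw [h1]
  refine (Finset.sum_le_sum (fun i _ => hstep i)).trans ?_
  rw [Finset.sum_add_distrib,
    Finset.sum_range_sub (fun i => op P (i + s) (fun z => g z ^ 2) y) τ, ← Finset.mul_sum]
  unfold BB
  have h1 : 0 ≤ op P (0 + s) (fun z => g z ^ 2) y := hop0 _ _ (fun z => sq_nonneg _) y
  have h2 : op P (τ + s) (fun z => g z ^ 2) y ≤ op P (s + τ) (fun z => AA P f τ s z ^ 2) y := by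
    rw [add_comm τ s]
    refine hL.op_mono (s + τ) _ _ ?_ y
    intro z
    have := hgA z
    exact sq_le_sq' (by linarith [neg_abs_le (g z)]) ((le_abs_self _).trans this)
  linarith

end Vale.Agent.P125.Poly
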