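import Vale.Agent.P125.Poly.Defs58

set_option linter.unusedSectionVars false
set_option linter.unusedVariables false

/-! # P125 Poly: Step 7, pointwise (`StEn`) -/

namespace Vale.Agent.P125.Poly

open scoped BigOperators
open Vale.Agent.P125.Dich

lemma abs_sign_le_one_67 (x : ℝ) : |((SignType.sign x : SignType) : ℝ)| ≤ 1 := by
  rcases lt_trichotomy x 0 with h | h | h
  · rw [sign_neg h]; simp
  · rw [h, sign_zero]; simp
  · rw [sign_pos h]; simp

theorem stEn_67 (hs : StSmall) : StEn := by
  intro S _ _ μ P hc L n f τ s j y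
  obtain ⟨hom0, homsum, hlb0, _, _, _, _, _, _, _⟩ := hs S μ P hc L n f
  set phi : S → ℝ := fun z => ∑ k, if j ≤ k then zt P f τ s k z else 0 with hphi
  set g : S → ℝ := UU P f τ s j with hg
  have op_nonneg : ∀ k (h : S → ℝ), (∀ z, 0 ≤ h z) → ∀ x, 0 ≤ op P k h x := by
    intro k h hh x
    have := L.op_mono k (fun _ => 0) h hh x
    rwa [L.op_const] at this
  have hLL : ∀ z, LL P f s z = ∑ k, op P s (om P f k) z := by
    intro z
    unfold LL
    rw [← L.op_sum (Fin n) Finset.univ s (fun k => om P f k) z]
    congr 1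
    funext y
    exact (homsum y).symm
  have hphiL : ∀ z, |phi z| ≤ LL P f s z := by
    intro z
    rw [hLL]
    refine (Finset.abs_sum_le_sum_abs _ _).trans (Finset.sum_le_sum fun k _ => ?_)
    have h0 := op_nonneg s (om P f k) (hom0 k) z
    split_ifs
    · unfold zt
      rw [abs_mul, abs_of_nonneg h0]
      have h1 := abs_sign_le_one_67 (hh P f τ k z)
      nlinarith
    · simpa using h0
  have hgsum : ∀ y, g y = ∑ i ∈ Finset.range τ, op P i phi y := by
    intro y
    have h1 : ∀ i, op P i phi y = ∑ k, if j ≤ k then op P i (zt P f τ s k) y else 0 := by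
      intro i
      rw [hphi, L.op_sum (Fin n) Finset.univ i (fun k z => if j ≤ k then zt P f τ s k z else 0) y]
      refine Finset.sum_congr rfl fun k _ => ?_
      by_cases h : j ≤ k
      · simp only [if_pos h]
      · simp only [if_neg h]
        exact L.op_const i 0 y
    simp only [h1]
    rw [Finset.sum_comm]
    simp only [hg, UU, Mk]
    refine Finset.sum_congr rfl fun k _ => ?_
    by_cases h : j ≤ k
    · simp only [if_pos h]
    · simp only [if_neg h]
      simp
  have hgA : ∀ y, |g y| ≤ AA P f τ s y := by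
    intro y
    rw [hgsum]
    unfold AA
    refine (Finset.abs_sum_le_sum_abs _ _).trans (Finset.sum_le_sum fun i _ => ?_)
    exact (L.abs_op i phi y).trans (L.op_mono i _ _ hphiL y)
  have hPg : ∀ y, op P 1 g y - g y = op P τ phi y - phi y := by
    intro y
    have e1 : op P 1 g y = ∑ i ∈ Finset.range τ, op P (i + 1) phi y := by
      have h2 : g = fun z => ∑ i ∈ Finset.range τ, op P i phi z := funext hgsum
      rw [h2, L.op_sum ℕ (Finset.range τ) 1 (fun i => op P i phi) y]
      refine Finset.sum_congr rfl fun i _ => ?_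
      rw [L.op_op 1 i phi, add_comm]
    have e2 := Finset.sum_range_sub (fun i => op P i phi y) τ
    simp only [L.op_zero] at e2
    rw [e1, hgsum y, ← Finset.sum_sub_distrib]
    exact e2
  have hPgabs : ∀ y, |op P 1 g y - g y| ≤ op P τ (LL P f s) y + LL P f s y := by
    intro y
    rw [hPg]
    have h1 := (L.abs_op τ phi y).trans (L.op_mono τ _ _ hphiL y)
    have h2 := hphiL y
    have h3 : |op P τ phi y - phi y| ≤ |op P τ phi y| + |phi y| := by
      have := abs_add_le (op P τ phi y) (- phi y)
      rwa [abs_neg, ← sub_eq_add_neg] at this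
    linarith
  have heps : ∀ a, epsk P f τ s j a =
      (op P 1 (fun z => g z ^ 2) a - g a ^ 2) + (-2 * (g a * (op P 1 g a - g a))) := by
    intro a
    unfold epsk
    rw [L.op_one, L.op_one]
    have hrow := hc.2.2.2.1 a
    have h1 : ∑ b, P a b * (g b - g a) ^ 2 =
        ∑ b, P a b * g b ^ 2 - 2 * g a * ∑ b, P a b * g b + g a ^ 2 * ∑ b, P a b := by
      rw [Finset.mul_sum, Finset.mul_sum, ← Finset.sum_sub_distrib, ← Finset.sum_add_distrib]
      refine Finset.sum_congr rfl fun b _ => ?_
      ring
    rw [h1, hrow]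
    ring
  have hterm : ∀ i, op P (i + s) (epsk P f τ s j) y ≤
      (op P (i + 1 + s) (fun z => g z ^ 2) y - op P (i + s) (fun z => g z ^ 2) y) +
        2 * op P (i + s)
          (fun z => AA P f τ s z * (op P τ (LL P f s) z + LL P f s z)) y := by
    intro i
    have e : epsk P f τ s j = fun a =>
        (op P 1 (fun z => g z ^ 2) a - g a ^ 2) + (-2 * (g a * (op P 1 g a - g a))) :=
      funext heps
    rw [e, L.op_add (i + s) (fun a => op P 1 (fun z => g z ^ 2) a - g a ^ 2)
        (fun a => -2 * (g a * (op P 1 g a - g a))) y,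
      L.op_sub (i + s) (op P 1 (fun z => g z ^ 2)) (fun a => g a ^ 2) y, L.op_op (i + s) 1]
    have e2 : i + s + 1 = i + 1 + s := by ring
    rw [e2]
    have h3 : op P (i + s) (fun a => -2 * (g a * (op P 1 g a - g a))) y ≤
        op P (i + s)
          (fun z => 2 * (AA P f τ s z * (op P τ (LL P f s) z + LL P f s z))) y := by
      apply L.op_mono
      intro z
      have h1 := hgA z
      have h2 := hPgabs z
      have h4 : |g z * (op P 1 g z - g z)| ≤
          AA P f τ s z * (op P τ (LL P f s) z + LL P f s z) := by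
        rw [abs_mul]
        exact mul_le_mul h1 h2 (abs_nonneg _) (le_trans (abs_nonneg _) h1)
      have h5 := neg_abs_le (g z * (op P 1 g z - g z))
      linarith
    rw [L.op_smul (i + s) 2
      (fun z => AA P f τ s z * (op P τ (LL P f s) z + LL P f s z)) y] at h3
    linarith
  have hsum := Finset.sum_le_sum (s := Finset.range τ) (fun i _ => hterm i)
  rw [Finset.sum_add_distrib, ← Finset.mul_sum] at hsum
  have htel := Finset.sum_range_sub (fun i => op P (i + s) (fun z => g z ^ 2) y) τ
  rw [htel] at hsum
  have h6 : op P (τ + s) (fun z => g z ^ 2) y ≤ op P (s + τ) (fun z => AA P f τ s z ^ 2) y := by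
    rw [add_comm τ s]
    apply L.op_mono
    intro z
    have h1 := hgA z
    have : g z ^ 2 = |g z| ^ 2 := (sq_abs _).symm
    rw [this]
    exact pow_le_pow_left₀ (abs_nonneg _) h1 2
  have h7 : 0 ≤ op P (0 + s) (fun z => g z ^ 2) y := op_nonneg _ _ (fun z => sq_nonneg _) y
  unfold BB
  linarith

end Vale.Agent.P125.Poly
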