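import Mathlib
import Vale.Agent.P125.Poly.Defs58

set_option linter.unusedSectionVars false
set_option linter.unusedVariables false

/-! # P125 Poly: Step 7, pointwise energy estimate (subtask En), helper8 -/

namespace Vale.Agent.P125.Poly

open scoped BigOperators
open Vale.Agent.P125.Dich

variable {S : Type} [Fintype S] [DecidableEq S]

/-- abstract energy estimate -/
theorem en_abs_8 {μ : S → ℝ} {P : Matrix S S ℝ} (hL : Lib μ P) (φ L : S → ℝ)
    (hφ : ∀ z, |φ z| ≤ L z) (τ s : ℕ) (y : S)
    (g A : S → ℝ) (hg : ∀ z, g z = ∑ i ∈ Finset.range τ, op P i φ z)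
    (hA : ∀ z, A z = ∑ i ∈ Finset.range τ, op P i L z) :
    ∑ i ∈ Finset.range τ, op P (i + s) (fun a => ∑ b, P a b * (g b - g a) ^ 2) y ≤
      op P (s + τ) (fun z => A z ^ 2) y +
        2 * ∑ i ∈ Finset.range τ, op P (i + s) (fun z => A z * (op P τ L z + L z)) y := by
  have hrow : ∀ a, ∑ b, P a b = 1 := by
    intro a
    have := hL.pw_sum 1 a
    simpa using this
  have hgA : ∀ z, |g z| ≤ A z := by
    intro z
    rw [hg, hA]
    refine (Finset.abs_sum_le_sum_abs _ _).trans (Finset.sum_le_sum fun i _ => ?_)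
    exact (hL.abs_op i φ z).trans (hL.op_mono i _ _ hφ z)
  have hPg : ∀ z, op P 1 g z - g z = op P τ φ z - φ z := by
    intro z
    have e1 : op P 1 g z = ∑ i ∈ Finset.range τ, op P (i + 1) φ z := by
      have : g = fun z => ∑ i ∈ Finset.range τ, op P i φ z := funext hg
      rw [this, hL.op_sum]
      refine Finset.sum_congr rfl fun i _ => ?_
      rw [hL.op_op, add_comm]
    rw [e1, hg, ← Finset.sum_sub_distrib, Finset.sum_range_sub (fun i => op P i φ z), hL.op_zero]
  have hd : ∀ z, |op P 1 g z - g z| ≤ op P τ L z + L z := by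
    intro z
    rw [hPg]
    calc |op P τ φ z - φ z| ≤ |op P τ φ z| + |φ z| := abs_sub _ _
      _ ≤ op P τ L z + L z :=
        add_le_add ((hL.abs_op τ φ z).trans (hL.op_mono τ _ _ hφ z)) (hφ z)
  have heps : ∀ a, ∑ b, P a b * (g b - g a) ^ 2 =
      (op P 1 (fun z => g z ^ 2) a - g a ^ 2) - 2 * (g a * (op P 1 g a - g a)) := by
    intro a
    rw [hL.op_one, hL.op_one]
    have : ∀ b, P a b * (g b - g a) ^ 2 =
        P a b * g b ^ 2 - 2 * g a * (P a b * g b) + g a ^ 2 * P a b := by
      intro b; ring
    simp only [this]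
    rw [Finset.sum_add_distrib, Finset.sum_sub_distrib, ← Finset.mul_sum, ← Finset.mul_sum, hrow]
    ring
  have hle : ∀ a, ∑ b, P a b * (g b - g a) ^ 2 ≤
      (op P 1 (fun z => g z ^ 2) a - g a ^ 2) + 2 * (A a * (op P τ L a + L a)) := by
    intro a
    rw [heps]
    have h1 : -(g a * (op P 1 g a - g a)) ≤ A a * (op P τ L a + L a) := by
      calc -(g a * (op P 1 g a - g a)) ≤ |g a * (op P 1 g a - g a)| := neg_le_abs _
        _ = |g a| * |op P 1 g a - g a| := abs_mul _ _
        _ ≤ A a * (op P τ L a + L a) :=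
          mul_le_mul (hgA a) (hd a) (abs_nonneg _) ((abs_nonneg _).trans (hgA a))
    linarith
  have hstep : ∀ i, op P (i + s) (fun a => ∑ b, P a b * (g b - g a) ^ 2) y ≤
      (op P (i + 1 + s) (fun z => g z ^ 2) y - op P (i + s) (fun z => g z ^ 2) y) +
        2 * op P (i + s) (fun z => A z * (op P τ L z + L z)) y := by
    intro i
    refine (hL.op_mono (i + s) _ _ hle y).trans (le_of_eq ?_)
    have e1 := hL.op_add (i + s) (fun a => op P 1 (fun z => g z ^ 2) a - g a ^ 2)
      (fun a => 2 * (A a * (op P τ L a + L a))) y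
    have e2 := hL.op_sub (i + s) (op P 1 (fun z => g z ^ 2)) (fun a => g a ^ 2) y
    have e3 := hL.op_smul (i + s) 2 (fun a => A a * (op P τ L a + L a)) y
    have e4 := hL.op_op (i + s) 1 (fun z => g z ^ 2)
    have e5 : i + s + 1 = i + 1 + s := by omega
    rw [e1, e2, e3, e4, e5]
  calc ∑ i ∈ Finset.range τ, op P (i + s) (fun a => ∑ b, P a b * (g b - g a) ^ 2) y
      ≤ ∑ i ∈ Finset.range τ, ((op P (i + 1 + s) (fun z => g z ^ 2) y
          - op P (i + s) (fun z => g z ^ 2) y) +
        2 * op P (i + s) (fun z => A z * (op P τ L z + L z)) y) :=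
        Finset.sum_le_sum fun i _ => hstep i
    _ = (op P (τ + s) (fun z => g z ^ 2) y - op P (0 + s) (fun z => g z ^ 2) y) +
        2 * ∑ i ∈ Finset.range τ, op P (i + s) (fun z => A z * (op P τ L z + L z)) y := by
        rw [Finset.sum_add_distrib,
          Finset.sum_range_sub (fun i => op P (i + s) (fun z => g z ^ 2) y), Finset.mul_sum]
    _ ≤ _ := by
        have h1 : op P (τ + s) (fun z => g z ^ 2) y ≤ op P (s + τ) (fun z => A z ^ 2) y := by
          rw [add_comm]
          exact hL.op_mono _ _ _ (fun z => by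
            have := hgA z
            exact sq_le_sq' (by linarith [neg_abs_le (g z)]) (le_trans (le_abs_self _) this)) y
        have h2 : 0 ≤ op P (0 + s) (fun z => g z ^ 2) y := by
          have := hL.op_mono (0 + s) (fun _ => 0) (fun z => g z ^ 2) (fun z => sq_nonneg _) y
          rw [hL.op_const] at this
          exact this
        linarith

theorem stEn_8 (hs : StSmall) : StEn := by
  intro S _ _ μ P hc hL n f τ s k y
  obtain ⟨hom, hsum, hlb, -, -, -, -, -, -, -⟩ := hs S μ P hc hL n f
  set φ : S → ℝ := fun z => ∑ k', if k ≤ k' then zt P f τ s k' z else 0 with hφdef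
  have hφ : ∀ z, |φ z| ≤ LL P f s z := by
    intro z
    have e : LL P f s z = ∑ k', op P s (om P f k') z := by
      unfold LL
      have : lbar P f = fun y => ∑ k' ∈ Finset.univ, om P f k' y := by
        funext y; exact (hsum y).symm
      rw [this, hL.op_sum]
    rw [e]
    refine (Finset.abs_sum_le_sum_abs _ _).trans (Finset.sum_le_sum fun k' _ => ?_)
    have hnn : 0 ≤ op P s (om P f k') z := by
      have := hL.op_mono s (fun _ => 0) (om P f k') (fun z => hom k' z) z
      rw [hL.op_const] at this
      exact this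
    split_ifs
    · unfold zt
      rw [abs_mul, abs_of_nonneg hnn]
      have h1 : |((SignType.sign (hh P f τ k' z) : SignType) : ℝ)| ≤ 1 := by
        generalize SignType.sign (hh P f τ k' z) = σ
        cases σ <;> simp
      nlinarith
    · simpa using hnn
  have hg : ∀ z, UU P f τ s k z = ∑ i ∈ Finset.range τ, op P i φ z := by
    intro z
    unfold UU Mk
    have : ∀ i, op P i φ z = ∑ k', if k ≤ k' then op P i (zt P f τ s k') z else 0 := by
      intro i
      rw [hφdef, hL.op_sum]
      refine Finset.sum_congr rfl fun k' _ => ?_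
      split_ifs
      · rfl
      · exact hL.op_const i 0 z
    simp only [this]
    rw [Finset.sum_comm]
    refine Finset.sum_congr rfl fun k' _ => ?_
    split_ifs
    · rfl
    · simp
  exact en_abs_8 hL φ (LL P f s) hφ τ s y (UU P f τ s k) (AA P f τ s) hg (fun z => rfl)

end Vale.Agent.P125.Poly
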