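import Mathlib
import Vale.Agent.P125.Poly.Defs58

set_option linter.unusedSectionVars false
set_option linter.unusedVariables false

/-! # P125 Poly: step EN (pointwise energy bound), helper94 -/

namespace Vale.Agent.P125.Poly

open scoped BigOperators
open Vale.Agent.P125.Dich

lemma abs_sign_le_one_94 (x : ℝ) : |((SignType.sign x : SignType) : ℝ)| ≤ 1 := by
  rcases lt_trichotomy x 0 with h | h | h
  · rw [sign_neg h]; simp
  · rw [h, sign_zero]; simp
  · rw [sign_pos h]; simp

theorem stEn_94 (hs : StSmall) : StEn := by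
  intro S _ _ μ P hc hL n f τ s k y
  obtain ⟨hom0, homsum, hlb0, hl20, hl2U, hlbU, hU0, hFell, hwsym, hellsym⟩ :=
    hs S μ P hc hL n f
  -- nonnegativity of op on nonnegative functions
  have hop0 : ∀ (j : ℕ) (h : S → ℝ), (∀ z, 0 ≤ h z) → ∀ z, 0 ≤ op P j h z := by
    intro j h hh0 z
    have h1 := hL.op_mono j (fun _ => (0 : ℝ)) h hh0 z
    rw [hL.op_const j 0 z] at h1
    exact h1
  obtain ⟨φ, hφ⟩ : ∃ φ : S → ℝ, φ = fun z => ∑ k', if k ≤ k' then zt P f τ s k' z else 0 :=
    ⟨_, rfl⟩
  obtain ⟨g, hg⟩ : ∃ g : S → ℝ, g = fun z => UU P f τ s k z := ⟨_, rfl⟩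
  obtain ⟨L, hLd⟩ : ∃ L : S → ℝ, L = LL P f s := ⟨_, rfl⟩
  obtain ⟨A, hA⟩ : ∃ A : S → ℝ, A = fun z => AA P f τ s z := ⟨_, rfl⟩
  -- (a1) g = sum of op P i phi
  have hopφ : ∀ i z, op P i φ z = ∑ k', if k ≤ k' then op P i (zt P f τ s k') z else 0 := by
    intro i z
    have h1 := hL.op_sum (Fin n) Finset.univ i
      (fun k' y => if k ≤ k' then zt P f τ s k' y else 0) z
    rw [hφ, h1]
    refine Finset.sum_congr rfl fun k' _ => ?_
    by_cases h : k ≤ k'
    · simp only [if_pos h]
    · simp only [if_neg h]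
      exact hL.op_const i 0 z
  have hgφ : ∀ z, g z = ∑ i ∈ Finset.range τ, op P i φ z := by
    intro z
    rw [hg]
    simp only [UU, Mk, hopφ]
    rw [Finset.sum_comm]
    refine Finset.sum_congr rfl fun k' _ => ?_
    by_cases h : k ≤ k'
    · simp only [if_pos h]
    · simp only [if_neg h]
      simp
  -- (b) |phi| <= L
  have hL0 : ∀ z, 0 ≤ L z := by
    intro z
    rw [hLd]
    exact hop0 s _ hlb0 z
  have hLsum : ∀ z, L z = ∑ k', op P s (om P f k') z := by
    intro z
    rw [hLd]
    have h1 := hL.op_sum (Fin n) Finset.univ s (fun k' y => om P f k' y) z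
    rw [← h1]
    unfold LL
    congr 1
    funext y
    exact (homsum y).symm
  have hφL : ∀ z, |φ z| ≤ L z := by
    intro z
    rw [hφ, hLsum z]
    refine (Finset.abs_sum_le_sum_abs _ _).trans (Finset.sum_le_sum fun k' _ => ?_)
    have h0 := hop0 s (om P f k') (hom0 k') z
    by_cases h : k ≤ k'
    · simp only [if_pos h]
      unfold zt
      rw [abs_mul, abs_of_nonneg h0]
      calc |((SignType.sign (hh P f τ k' z) : SignType) : ℝ)| * op P s (om P f k') z
          ≤ 1 * op P s (om P f k') z :=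
            mul_le_mul_of_nonneg_right (abs_sign_le_one_94 _) h0
        _ = op P s (om P f k') z := one_mul _
    · simp only [if_neg h, abs_zero]
      exact h0
  -- |op P j phi| <= op P j L
  have hopφL : ∀ j z, |op P j φ z| ≤ op P j L z := by
    intro j z
    exact (hL.abs_op j φ z).trans (hL.op_mono j _ _ hφL z)
  -- (c) |g| <= A
  have hgA : ∀ z, |g z| ≤ A z := by
    intro z
    rw [hgφ z, hA]
    unfold AA
    rw [← hLd]
    exact (Finset.abs_sum_le_sum_abs _ _).trans (Finset.sum_le_sum fun i _ => hopφL i z)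
  have hA0 : ∀ z, 0 ≤ A z := fun z => (abs_nonneg _).trans (hgA z)
  -- (d) P g - g = P^tau phi - phi
  have hPg : ∀ z, op P 1 g z - g z = op P τ φ z - φ z := by
    intro z
    have e1 : op P 1 g z = ∑ i ∈ Finset.range τ, op P (i + 1) φ z := by
      have h1 := hL.op_sum ℕ (Finset.range τ) 1 (fun i y => op P i φ y) z
      have h2 : g = fun y => ∑ i ∈ Finset.range τ, op P i φ y := funext hgφ
      rw [h2, h1]
      refine Finset.sum_congr rfl fun i _ => ?_
      have h3 := hL.op_op 1 i φ
      have h4 : (fun y => op P i φ y) = op P i φ := rfl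
      rw [h4, h3, add_comm]
    rw [e1, hgφ z, ← Finset.sum_sub_distrib]
    rw [Finset.sum_range_sub (fun i => op P i φ z) τ, hL.op_zero φ]
  have hPgabs : ∀ z, |op P 1 g z - g z| ≤ op P τ L z + L z := by
    intro z
    rw [hPg z]
    calc |op P τ φ z - φ z| ≤ |op P τ φ z| + |φ z| := abs_sub _ _
      _ ≤ op P τ L z + L z := add_le_add (hopφL τ z) (hφL z)
  -- (e) Gamma identity
  have hrow : ∀ a, ∑ b, P a b = 1 := by
    intro a
    have := hL.pw_sum 1 a
    simpa [pow_one] using this
  have heps : ∀ a, epsk P f τ s k a =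
      (op P 1 (fun z => g z ^ 2) a - g a ^ 2) + (-(2 * (g a * (op P 1 g a - g a)))) := by
    intro a
    rw [hL.op_one, hL.op_one]
    unfold epsk
    have h1 : ∀ b, P a b * (UU P f τ s k b - UU P f τ s k a) ^ 2 =
        P a b * g b ^ 2 - 2 * g a * (P a b * g b) + g a ^ 2 * P a b := by
      intro b
      rw [hg]
      ring
    simp only [h1]
    rw [Finset.sum_add_distrib, Finset.sum_sub_distrib, ← Finset.mul_sum, ← Finset.mul_sum,
      hrow a]
    ring
  have hepsle : ∀ a, epsk P f τ s k a ≤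
      (op P 1 (fun z => g z ^ 2) a - g a ^ 2) + 2 * (A a * (op P τ L a + L a)) := by
    intro a
    rw [heps a]
    have h1 : -(g a * (op P 1 g a - g a)) ≤ A a * (op P τ L a + L a) := by
      calc -(g a * (op P 1 g a - g a)) ≤ |g a * (op P 1 g a - g a)| := neg_le_abs _
        _ = |g a| * |op P 1 g a - g a| := abs_mul _ _
        _ ≤ A a * (op P τ L a + L a) :=
          mul_le_mul (hgA a) (hPgabs a) (abs_nonneg _) (hA0 a)
    linarith
  -- (f) apply op P (i+s) and sum
  have hstep : ∀ i, op P (i + s) (epsk P f τ s k) y ≤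
      (op P (i + 1 + s) (fun z => g z ^ 2) y - op P (i + s) (fun z => g z ^ 2) y) +
        2 * op P (i + s) (fun z => A z * (op P τ L z + L z)) y := by
    intro i
    have h1 := hL.op_mono (i + s) _ _ hepsle y
    refine h1.trans (le_of_eq ?_)
    rw [hL.op_add (i + s) (fun a => op P 1 (fun z => g z ^ 2) a - g a ^ 2)
      (fun a => 2 * (A a * (op P τ L a + L a))) y]
    rw [hL.op_sub (i + s) (fun a => op P 1 (fun z => g z ^ 2) a) (fun a => g a ^ 2) y]
    rw [hL.op_smul (i + s) 2 (fun a => A a * (op P τ L a + L a)) y]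
    have h3 := hL.op_op (i + s) 1 (fun z => g z ^ 2)
    have h4 : (fun a => op P 1 (fun z => g z ^ 2) a) = op P 1 (fun z => g z ^ 2) := rfl
    rw [h4, h3]
    have h5 : i + s + 1 = i + 1 + s := by omega
    rw [h5]
  have hsum : ∑ i ∈ Finset.range τ, op P (i + s) (epsk P f τ s k) y ≤
      (op P (τ + s) (fun z => g z ^ 2) y - op P (0 + s) (fun z => g z ^ 2) y) +
        2 * ∑ i ∈ Finset.range τ, op P (i + s) (fun z => A z * (op P τ L z + L z)) y := by
    refine (Finset.sum_le_sum fun i _ => hstep i).trans (le_of_eq ?_)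
    rw [Finset.sum_add_distrib, ← Finset.mul_sum]
    rw [Finset.sum_range_sub (fun i => op P (i + s) (fun z => g z ^ 2) y) τ]
  have hg2 : op P (τ + s) (fun z => g z ^ 2) y ≤ op P (s + τ) (fun z => A z ^ 2) y := by
    rw [add_comm τ s]
    refine hL.op_mono (s + τ) _ _ (fun z => ?_) y
    exact sq_le_sq' (by linarith [(abs_le.mp (hgA z)).1]) (abs_le.mp (hgA z)).2
  have hg0 : 0 ≤ op P (0 + s) (fun z => g z ^ 2) y := hop0 _ _ (fun z => sq_nonneg _) y
  have hBB : BB P f τ s y = op P (s + τ) (fun z => A z ^ 2) y +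
      2 * ∑ i ∈ Finset.range τ, op P (i + s) (fun z => A z * (op P τ L z + L z)) y := by
    unfold BB
    rw [hA, hLd]
  rw [hBB]
  linarith

end Vale.Agent.P125.Poly
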