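import Mathlib

/-!
Scalar end-game of the polynomial-rate argument: from the bound at the times `q ^ 6`,
approximate subadditivity and the trivial quadratic bound to `E t ≤ C * t ^ (11/6) * W`
for all `t ≥ 1`.
-/

namespace Vale.Agent.P125.Poly88

theorem exists_sixth_root (t : ℕ) (ht : 1 ≤ t) :
    ∃ q : ℕ, 1 ≤ q ∧ q ^ 6 ≤ t ∧ t < (q + 1) ^ 6 := by
  classical
  have h1 : (Nat.findGreatest (fun q => q ^ 6 ≤ t) t) ^ 6 ≤ t :=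
    Nat.findGreatest_spec (P := fun q => q ^ 6 ≤ t) (m := 1) ht (by simpa using ht)
  have hq1 : 1 ≤ Nat.findGreatest (fun q => q ^ 6 ≤ t) t :=
    Nat.le_findGreatest (P := fun q => q ^ 6 ≤ t) ht (by simpa using ht)
  refine ⟨Nat.findGreatest (fun q => q ^ 6 ≤ t) t, hq1, h1, ?_⟩
  by_contra h
  have h' : (Nat.findGreatest (fun q => q ^ 6 ≤ t) t + 1) ^ 6 ≤ t := not_lt.mp h
  have hle : Nat.findGreatest (fun q => q ^ 6 ≤ t) t + 1 ≤ t :=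
    le_trans (Nat.le_self_pow (by norm_num) _) h'
  have := Nat.le_findGreatest (P := fun q => q ^ 6 ≤ t) hle h'
  omega

theorem endgame (E : ℕ → ℝ) (W c : ℝ) (hW : 0 ≤ W) (hc : 0 ≤ c)
    (h6 : ∀ q : ℕ, 1 ≤ q → E (q ^ 6) ≤ c * (q : ℝ) ^ 11 * W)
    (hadd : ∀ a b : ℕ, E (a + b) ≤ 2 * E a + 2 * E b)
    (htriv : ∀ r : ℕ, E r ≤ (r : ℝ) ^ 2 * W) :
    ∀ t : ℕ, 1 ≤ t → E t ≤ (2 * c + 7938) * (t : ℝ) ^ ((11 : ℝ) / 6) * W := by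
  intro t ht
  obtain ⟨q, hq1, hq6, hlt⟩ := exists_sixth_root t ht
  obtain ⟨r, hr⟩ : ∃ r, t = q ^ 6 + r := ⟨t - q ^ 6, by omega⟩
  have hr63 : r ≤ 63 * q ^ 5 := by
    have e : (q + 1) ^ 6
        = q ^ 6 + 6 * q ^ 5 + 15 * q ^ 4 + 20 * q ^ 3 + 15 * q ^ 2 + 6 * q + 1 := by ring
    have p4 : q ^ 4 ≤ q ^ 5 := Nat.pow_le_pow_right hq1 (by norm_num)
    have p3 : q ^ 3 ≤ q ^ 5 := Nat.pow_le_pow_right hq1 (by norm_num)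
    have p2 : q ^ 2 ≤ q ^ 5 := Nat.pow_le_pow_right hq1 (by norm_num)
    have p1 : q ≤ q ^ 5 := Nat.le_self_pow (by norm_num) q
    have p0 : 1 ≤ q ^ 5 := Nat.one_le_pow _ _ hq1
    omega
  have hqR : (1 : ℝ) ≤ (q : ℝ) := by exact_mod_cast hq1
  have hq0 : (0 : ℝ) ≤ (q : ℝ) := by linarith
  have hrR : (r : ℝ) ≤ 63 * (q : ℝ) ^ 5 := by exact_mod_cast hr63
  have h1 : E t ≤ 2 * (c * (q : ℝ) ^ 11 * W) + 2 * ((r : ℝ) ^ 2 * W) := by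
    rw [hr]
    have a1 := hadd (q ^ 6) r
    have a2 := h6 q hq1
    have a3 := htriv r
    linarith
  have h2 : (r : ℝ) ^ 2 ≤ 3969 * (q : ℝ) ^ 11 := by
    have hr0 : (0 : ℝ) ≤ r := Nat.cast_nonneg r
    have b1 : (r : ℝ) ^ 2 ≤ (63 * (q : ℝ) ^ 5) ^ 2 := pow_le_pow_left₀ hr0 hrR 2
    have h10 : (q : ℝ) ^ 10 ≤ (q : ℝ) ^ 11 := pow_le_pow_right₀ hqR (by norm_num)
    have b2 : (63 * (q : ℝ) ^ 5) ^ 2 = 3969 * (q : ℝ) ^ 10 := by ring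
    linarith
  have h3 : (q : ℝ) ^ 11 ≤ (t : ℝ) ^ ((11 : ℝ) / 6) := by
    have hq6R : (q : ℝ) ^ 6 ≤ (t : ℝ) := by exact_mod_cast hq6
    have e : ((q : ℝ) ^ 6) ^ ((11 : ℝ) / 6) = (q : ℝ) ^ 11 := by
      rw [← Real.rpow_natCast (q : ℝ) 6, ← Real.rpow_mul hq0, ← Real.rpow_natCast (q : ℝ) 11]
      congr 1
      norm_num
    rw [← e]
    exact Real.rpow_le_rpow (by positivity) hq6R (by norm_num)
  have h4 : 0 ≤ 2 * c + 7938 := by linarith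
  calc E t ≤ 2 * (c * (q : ℝ) ^ 11 * W) + 2 * ((r : ℝ) ^ 2 * W) := h1
    _ ≤ 2 * (c * (q : ℝ) ^ 11 * W) + 2 * (3969 * (q : ℝ) ^ 11 * W) := by
        have := mul_le_mul_of_nonneg_right h2 hW
        linarith
    _ = (2 * c + 7938) * (q : ℝ) ^ 11 * W := by ring
    _ ≤ (2 * c + 7938) * (t : ℝ) ^ ((11 : ℝ) / 6) * W :=
        mul_le_mul_of_nonneg_right (mul_le_mul_of_nonneg_left h3 h4) hW

end Vale.Agent.P125.Poly88
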