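import Vale.Agent.P125.BV.Top

set_option linter.unusedSectionVars false
set_option linter.unusedVariables false

/-!
# P125, polynomial rate: the scalar end and the passage to all times

* `scalar_end` : an energy `E : ℕ → ℝ` with `E (s + r) ≤ 2 E s + 2 E r`, `E r ≤ r ^ 2 W` and
  `E (q ^ 6) ≤ C0 q ^ 11 W` satisfies `E t ≤ (2 C0 + 7938) t ^ (11 / 6) W` for all `t`.
* `En_sub`, `En_triv` : the two structural hypotheses for the energy of the summing operators.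
* `poly_of_sixth` : the wrapper to the final explicit shape.
-/

namespace Vale.Agent.P125.Poly90

open scoped BigOperators
open Vale.Agent.P125.Dich Vale.Agent.P125.BV

/-- the integer sixth root -/
lemma exists_sixth_root (t : ℕ) : ∃ q : ℕ, q ^ 6 ≤ t ∧ t < (q + 1) ^ 6 := by
  induction t with
  | zero => exact ⟨0, by norm_num, by norm_num⟩
  | succ t ih =>
    obtain ⟨q, h1, h2⟩ := ih
    by_cases h : t + 1 < (q + 1) ^ 6
    · exact ⟨q, by omega, h⟩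
    · refine ⟨q + 1, by omega, ?_⟩
      have h3 : t + 1 = (q + 1) ^ 6 := by omega
      rw [h3]
      exact Nat.pow_lt_pow_left (by omega) (by norm_num)

lemma pow_eleven_le_rpow (q t : ℕ) (h : q ^ 6 ≤ t) :
    (q : ℝ) ^ 11 ≤ (t : ℝ) ^ ((11 : ℝ) / 6) := by
  have hq : (0 : ℝ) ≤ (q : ℝ) := Nat.cast_nonneg q
  have h1 : ((q : ℝ) ^ 6) ^ ((11 : ℝ) / 6) = (q : ℝ) ^ 11 := by
    rw [← Real.rpow_natCast (q : ℝ) 6, ← Real.rpow_mul hq, ← Real.rpow_natCast (q : ℝ) 11]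
    norm_num
  have h2 : (q : ℝ) ^ 6 ≤ (t : ℝ) := by exact_mod_cast h
  rw [← h1]
  exact Real.rpow_le_rpow (by positivity) h2 (by norm_num)

/-- **the scalar end** -/
theorem scalar_end (E : ℕ → ℝ) (W C0 : ℝ) (hW : 0 ≤ W) (hC0 : 0 ≤ C0)
    (hsub : ∀ s r : ℕ, E (s + r) ≤ 2 * E s + 2 * E r)
    (htriv : ∀ r : ℕ, E r ≤ (r : ℝ) ^ 2 * W)
    (hq : ∀ q : ℕ, E (q ^ 6) ≤ C0 * (q : ℝ) ^ 11 * W) (t : ℕ) :
    E t ≤ (2 * C0 + 7938) * (t : ℝ) ^ ((11 : ℝ) / 6) * W := by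
  obtain ⟨q, h1, h2⟩ := exists_sixth_root t
  by_cases hq0 : q = 0
  · subst hq0
    have ht : t = 0 := by
      norm_num at h2
      exact h2
    subst ht
    have := htriv 0
    have e : ((0 : ℕ) : ℝ) ^ ((11 : ℝ) / 6) = 0 := by
      rw [Nat.cast_zero]
      exact Real.zero_rpow (by norm_num)
    rw [e]
    simpa using this
  have hq1 : 1 ≤ q := Nat.one_le_iff_ne_zero.2 hq0
  obtain ⟨r, hr⟩ : ∃ r, t = q ^ 6 + r := ⟨t - q ^ 6, by omega⟩
  have hqR : (1 : ℝ) ≤ (q : ℝ) := by exact_mod_cast hq1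
  have hrR : (r : ℝ) ≤ 63 * (q : ℝ) ^ 5 := by
    have h3 : q ^ 6 + r < (q + 1) ^ 6 := by omega
    have h4 : ((q : ℝ) ^ 6 + (r : ℝ)) < ((q : ℝ) + 1) ^ 6 := by exact_mod_cast h3
    have p1 : (q : ℝ) ≤ (q : ℝ) ^ 5 := by
      calc (q : ℝ) = (q : ℝ) ^ 1 := (pow_one _).symm
        _ ≤ (q : ℝ) ^ 5 := pow_le_pow_right₀ hqR (by norm_num)
    have p0 : (1 : ℝ) ≤ (q : ℝ) ^ 5 := one_le_pow₀ hqR
    have p2 : (q : ℝ) ^ 2 ≤ (q : ℝ) ^ 5 := pow_le_pow_right₀ hqR (by norm_num)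
    have p3 : (q : ℝ) ^ 3 ≤ (q : ℝ) ^ 5 := pow_le_pow_right₀ hqR (by norm_num)
    have p4 : (q : ℝ) ^ 4 ≤ (q : ℝ) ^ 5 := pow_le_pow_right₀ hqR (by norm_num)
    have e : ((q : ℝ) + 1) ^ 6 = (q : ℝ) ^ 6 + 6 * (q : ℝ) ^ 5 + 15 * (q : ℝ) ^ 4
        + 20 * (q : ℝ) ^ 3 + 15 * (q : ℝ) ^ 2 + 6 * (q : ℝ) + 1 := by ring
    linarith
  have hr0 : (0 : ℝ) ≤ (r : ℝ) := Nat.cast_nonneg r
  have hr2 : (r : ℝ) ^ 2 ≤ 3969 * (q : ℝ) ^ 11 := by
    have a1 : (r : ℝ) ^ 2 ≤ (63 * (q : ℝ) ^ 5) ^ 2 := pow_le_pow_left₀ hr0 hrR 2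
    have a2 : (63 * (q : ℝ) ^ 5) ^ 2 = 3969 * (q : ℝ) ^ 10 := by ring
    have a3 : (q : ℝ) ^ 10 ≤ (q : ℝ) ^ 11 := pow_le_pow_right₀ hqR (by norm_num)
    linarith
  have hpow := pow_eleven_le_rpow q t h1
  have b1 := hsub (q ^ 6) r
  have b2 := hq q
  have b3 := htriv r
  have b4 : (r : ℝ) ^ 2 * W ≤ 3969 * (q : ℝ) ^ 11 * W := mul_le_mul_of_nonneg_right hr2 hW
  have b5 : E t ≤ (2 * C0 + 7938) * (q : ℝ) ^ 11 * W := by
    rw [hr]
    nlinarith
  refine b5.trans ?_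
  refine mul_le_mul_of_nonneg_right ?_ hW
  exact mul_le_mul_of_nonneg_left hpow (by linarith)

/-- the energy of the summing operators at time `t` -/
noncomputable def En {S : Type} [Fintype S] [DecidableEq S] (μ : S → ℝ) (P : Matrix S S ℝ)
    {n : ℕ} (f : S → Fin n → ℝ) (t : ℕ) : ℝ :=
  ∑ i, ∑ j, μ i * (P ^ t) i j * supJ n (pre (f j - f i)) ^ 2

/-- the one step `ℓ_1` energy -/
noncomputable def W1 {S : Type} [Fintype S] (μ : S → ℝ) (P : Matrix S S ℝ)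
    {n : ℕ} (f : S → Fin n → ℝ) : ℝ :=
  ∑ i, ∑ j, μ i * P i j * n1 (f j - f i) ^ 2

lemma supJ_add (n : ℕ) (g h : ℕ → ℝ) : supJ n (g + h) ≤ supJ n g + supJ n h := by
  unfold supJ
  refine Finset.sup'_le _ _ fun k hk => ?_
  have h1 : |g k| ≤ (Finset.range (n + 1)).sup' ⟨0, by simp⟩ (fun k => |g k|) :=
    Finset.le_sup' (fun k => |g k|) hk
  have h2 : |h k| ≤ (Finset.range (n + 1)).sup' ⟨0, by simp⟩ (fun k => |h k|) :=
    Finset.le_sup' (fun k => |h k|) hk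
  calc |(g + h) k| = |g k + h k| := rfl
    _ ≤ |g k| + |h k| := abs_add_le _ _
    _ ≤ _ := add_le_add h1 h2

/-- a general quasi-subadditivity lemma for two point energies -/
lemma energy_sub {S : Type} [Fintype S] [DecidableEq S] (μ : S → ℝ) (P : Matrix S S ℝ)
    (hc : IsChain μ P) (A : S → S → ℝ) (hA : ∀ i k j, A i j ≤ 2 * A i k + 2 * A k j)
    (s r : ℕ) :
    ∑ i, ∑ j, μ i * (P ^ (s + r)) i j * A i j ≤
      2 * (∑ i, ∑ j, μ i * (P ^ s) i j * A i j) + 2 * ∑ i, ∑ j, μ i * (P ^ r) i j * A i j := by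
  have hs := isChain_pow hc s
  have hr := isChain_pow hc r
  have e1 : ∑ i, ∑ j, μ i * (P ^ (s + r)) i j * A i j
      = ∑ i, ∑ j, ∑ k, μ i * (P ^ s) i k * (P ^ r) k j * A i j := by
    refine Finset.sum_congr rfl fun i _ => Finset.sum_congr rfl fun j _ => ?_
    rw [pow_add, Matrix.mul_apply, Finset.mul_sum, Finset.sum_mul]
    refine Finset.sum_congr rfl fun k _ => ?_
    ring
  have e2 : ∑ i, ∑ j, ∑ k, μ i * (P ^ s) i k * (P ^ r) k j * A i k
      = ∑ i, ∑ k, μ i * (P ^ s) i k * A i k := by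
    refine Finset.sum_congr rfl fun i _ => ?_
    rw [Finset.sum_comm]
    refine Finset.sum_congr rfl fun k _ => ?_
    have : ∀ j, μ i * (P ^ s) i k * (P ^ r) k j * A i k
        = (μ i * (P ^ s) i k * A i k) * (P ^ r) k j := fun j => by ring
    simp only [this]
    rw [← Finset.mul_sum, hr.2.2.2.1 k, mul_one]
  have e3 : ∑ i, ∑ j, ∑ k, μ i * (P ^ s) i k * (P ^ r) k j * A k j
      = ∑ k, ∑ j, μ k * (P ^ r) k j * A k j := by
    have : ∀ i, ∑ j, ∑ k, μ i * (P ^ s) i k * (P ^ r) k j * A k j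
        = ∑ k, ∑ j, μ i * (P ^ s) i k * (P ^ r) k j * A k j := fun i => Finset.sum_comm
    simp only [this]
    rw [Finset.sum_comm]
    refine Finset.sum_congr rfl fun k _ => ?_
    rw [Finset.sum_comm]
    refine Finset.sum_congr rfl fun j _ => ?_
    have h1 : ∀ i, μ i * (P ^ s) i k * (P ^ r) k j * A k j
        = (μ k * (P ^ r) k j * A k j) * (P ^ s) k i := fun i => by
      rw [hs.2.2.2.2 i k]
      ring
    simp only [h1]
    rw [← Finset.mul_sum, hs.2.2.2.1 k, mul_one]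
  rw [e1, ← e2, ← e3, Finset.mul_sum, Finset.mul_sum, ← Finset.sum_add_distrib]
  refine Finset.sum_le_sum fun i _ => ?_
  rw [Finset.mul_sum, Finset.mul_sum, ← Finset.sum_add_distrib]
  refine Finset.sum_le_sum fun j _ => ?_
  rw [Finset.mul_sum, Finset.mul_sum, ← Finset.sum_add_distrib]
  refine Finset.sum_le_sum fun k _ => ?_
  have hw : 0 ≤ μ i * (P ^ s) i k * (P ^ r) k j :=
    mul_nonneg (mul_nonneg (hc.1 i) (hs.2.2.1 i k)) (hr.2.2.1 k j)
  have := mul_le_mul_of_nonneg_left (hA i k j) hw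
  linarith

lemma En_sub {S : Type} [Fintype S] [DecidableEq S] (μ : S → ℝ) (P : Matrix S S ℝ)
    (hc : IsChain μ P) {n : ℕ} (f : S → Fin n → ℝ) (s r : ℕ) :
    En μ P f (s + r) ≤ 2 * En μ P f s + 2 * En μ P f r := by
  unfold En
  refine energy_sub μ P hc (fun i j => supJ n (pre (f j - f i)) ^ 2) ?_ s r
  intro i k j
  have e : pre (f j - f i) = pre (f k - f i) + pre (f j - f k) := by
    rw [← pre_add]
    congr 1
    abel
  have h1 : supJ n (pre (f j - f i)) ≤ supJ n (pre (f k - f i)) + supJ n (pre (f j - f k)) := by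
    rw [e]
    exact supJ_add n _ _
  have h0 := supJ_nonneg n (pre (f j - f i))
  have h2 : supJ n (pre (f j - f i)) ^ 2
      ≤ (supJ n (pre (f k - f i)) + supJ n (pre (f j - f k))) ^ 2 := pow_le_pow_left₀ h0 h1 2
  show supJ n (pre (f j - f i)) ^ 2
    ≤ 2 * supJ n (pre (f k - f i)) ^ 2 + 2 * supJ n (pre (f j - f k)) ^ 2
  nlinarith [sq_nonneg (supJ n (pre (f k - f i)) - supJ n (pre (f j - f k)))]

lemma En_triv {S : Type} [Fintype S] [DecidableEq S] (μ : S → ℝ) (P : Matrix S S ℝ)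
    (hc : IsChain μ P) {n : ℕ} (f : S → Fin n → ℝ) (r : ℕ) :
    En μ P f r ≤ (r : ℝ) ^ 2 * W1 μ P f := by
  refine le_trans ?_ (n1_triv r μ P hc f)
  unfold En
  have hr := isChain_pow hc r
  refine Finset.sum_le_sum fun i _ => Finset.sum_le_sum fun j _ => ?_
  refine mul_le_mul_of_nonneg_left ?_ (mul_nonneg (hc.1 i) (hr.2.2.1 i j))
  exact pow_le_pow_left₀ (supJ_nonneg _ _) (supJ_pre_le _) 2

/-- all times from the times `q ^ 6`, for one chain and one function -/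
theorem En_all {S : Type} [Fintype S] [DecidableEq S] (μ : S → ℝ) (P : Matrix S S ℝ)
    (hc : IsChain μ P) {n : ℕ} (f : S → Fin n → ℝ) (C0 : ℝ) (hC0 : 0 ≤ C0)
    (hq : ∀ q : ℕ, En μ P f (q ^ 6) ≤ C0 * (q : ℝ) ^ 11 * W1 μ P f) (t : ℕ) :
    En μ P f t ≤ (2 * C0 + 7938) * (t : ℝ) ^ ((11 : ℝ) / 6) * W1 μ P f :=
  scalar_end (En μ P f) (W1 μ P f) C0 (U_nonneg μ P hc f) hC0 (En_sub μ P hc f)
    (En_triv μ P hc f) hq t

lemma raw_le_supJ {n : ℕ} (v : Fin n → ℝ) :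
    (Finset.univ.sup' Finset.univ_nonempty (fun k : Fin (n + 1) =>
      |∑ l : Fin n, if l.val < k.val then v l else 0|)) ≤ supJ n (pre v) := by
  refine Finset.sup'_le _ _ fun k _ => ?_
  unfold supJ
  exact Finset.le_sup' (fun k => |pre v k|) (Finset.mem_range.2 k.isLt)

lemma raw_nonneg {n : ℕ} (v : Fin n → ℝ) :
    0 ≤ (Finset.univ.sup' Finset.univ_nonempty (fun k : Fin (n + 1) =>
      |∑ l : Fin n, if l.val < k.val then v l else 0|)) :=
  le_trans (abs_nonneg _) (Finset.le_sup' (fun k : Fin (n + 1) =>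
      |∑ l : Fin n, if l.val < k.val then v l else 0|) (Finset.mem_univ 0))

/-- **the wrapper**: the bound at the times `q ^ 6` gives the explicit final statement -/
theorem poly_of_sixth (C0 : ℝ) (hC0 : 0 ≤ C0)
    (hq : ∀ (n : ℕ) (S : Type) [Fintype S] [DecidableEq S] (μ : S → ℝ) (P : Matrix S S ℝ),
      IsChain μ P → ∀ (f : S → Fin n → ℝ) (q : ℕ),
        ∑ i, ∑ j, μ i * (P ^ (q ^ 6)) i j * supJ n (pre (f j - f i)) ^ 2 ≤
          C0 * (q : ℝ) ^ 11 * ∑ i, ∑ j, μ i * P i j * n1 (f j - f i) ^ 2) :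
    ∀ (t n : ℕ) (S : Type) [Fintype S] [DecidableEq S] (μ : S → ℝ) (P : Matrix S S ℝ),
      (∀ i, 0 ≤ μ i) → ∑ i, μ i = 1 → (∀ i j, 0 ≤ P i j) → (∀ i, ∑ j, P i j = 1) →
      (∀ i j, μ i * P i j = μ j * P j i) → ∀ f : S → Fin n → ℝ,
        ∑ i, ∑ j, μ i * (P ^ t) i j *
            (Finset.univ.sup' Finset.univ_nonempty (fun k : Fin (n + 1) =>
              |∑ l : Fin n, if l.val < k.val then f j l - f i l else 0|)) ^ 2 ≤
          (2 * C0 + 7938) * (t : ℝ) ^ ((11 : ℝ) / 6) *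
            ∑ i, ∑ j, μ i * P i j * (∑ l : Fin n, |f j l - f i l|) ^ 2 := by
  intro t n S _ _ μ P h0 h1 h2 h3 h4 f
  have hc : IsChain μ P := ⟨h0, h1, h2, h3, h4⟩
  have key := En_all μ P hc f C0 hC0 (fun q => hq n S μ P hc f q) t
  refine le_trans ?_ key
  unfold En
  have ht := isChain_pow hc t
  refine Finset.sum_le_sum fun i _ => Finset.sum_le_sum fun j _ => ?_
  refine mul_le_mul_of_nonneg_left ?_ (mul_nonneg (h0 i) (ht.2.2.1 i j))
  exact pow_le_pow_left₀ (raw_nonneg (f j - f i)) (raw_le_supJ (f j - f i)) 2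

end Vale.Agent.P125.Poly90
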