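import Vale.Agent.P125.Poly.Defs_79

set_option linter.unusedSectionVars false
set_option linter.unusedVariables false

/-! # P125 polynomial rate, path-free form (board 624): own measure inequalities (S1, S5) -/

namespace Vale.Agent.P125.Poly79

open scoped BigOperators
open Vale.Agent.P125.Dich Vale.Agent.P125.BV

variable {S : Type} [Fintype S] [DecidableEq S]

private theorem sq_diff_le (a b : ℝ) : a ^ 2 - b ^ 2 ≤ 2 * (|a - b| * |a|) := by
  have h1 : (a - b) * a ≤ |a - b| * |a| := by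
    rw [← abs_mul]; exact le_abs_self _
  nlinarith [sq_nonneg (a - b)]

private theorem own_up_aux (G : ℕ → ℝ) (h0 : G 0 = 0) (j : ℕ) :
    (G j) ^ 2 ≤ 2 * ∑ k ∈ Finset.range j, |G (k + 1) - G k| * |G (k + 1)| := by
  induction j with
  | zero => simp [h0]
  | succ j ih =>
    rw [Finset.sum_range_succ]
    have := sq_diff_le (G (j + 1)) (G j)
    linarith

/-- `G_j^2 = ∑ (G_{k+1}^2 - G_k^2) ≤ 2 ∑ |G_{k+1} - G_k| |G_{k+1}|` -/
theorem own_up (n : ℕ) (G : ℕ → ℝ) (h0 : G 0 = 0) (j : ℕ) (hj : j ≤ n) :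
    (G j) ^ 2 ≤ 2 * ∑ k ∈ Finset.range n, |G (k + 1) - G k| * |G (k + 1)| := by
  have h1 := own_up_aux G h0 j
  have h2 : ∑ k ∈ Finset.range j, |G (k + 1) - G k| * |G (k + 1)|
      ≤ ∑ k ∈ Finset.range n, |G (k + 1) - G k| * |G (k + 1)| := by
    apply Finset.sum_le_sum_of_subset_of_nonneg
    · intro x hx
      rw [Finset.mem_range] at hx ⊢
      omega
    · intro i _ _
      positivity
  linarith

theorem own_down (n : ℕ) (D : ℕ → ℝ) (hn : D n = 0) (j : ℕ) (hj : j ≤ n) :
    (D j) ^ 2 ≤ 2 * ∑ k ∈ Finset.range n, |D k - D (k + 1)| * |D k| := by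
  have h1 := own_up n (fun k => D (n - k)) (by simpa using hn) (n - j) (Nat.sub_le _ _)
  have h3 : n - (n - j) = j := by omega
  simp only [h3] at h1
  have h2 : ∑ k ∈ Finset.range n, |D (n - (k + 1)) - D (n - k)| * |D (n - (k + 1))|
      = ∑ k ∈ Finset.range n, |D k - D (k + 1)| * |D k| := by
    rw [← Finset.sum_range_reflect]
    apply Finset.sum_congr rfl
    intro k hk
    rw [Finset.mem_range] at hk
    have e1 : n - (n - 1 - k + 1) = k := by omega
    have e2 : n - (n - 1 - k) = k + 1 := by omega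
    rw [e1, e2]
  rw [h2] at h1
  exact h1

end Vale.Agent.P125.Poly79
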