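import Vale.Agent.P125.Poly.Defs_79

set_option linter.unusedSectionVars false
set_option linter.unusedVariables false

/-! # P125 polynomial rate, path-free form (board 624): first term of (A) -/

namespace Vale.Agent.P125.Poly79

open scoped BigOperators
open Vale.Agent.P125.Dich Vale.Agent.P125.BV

variable {S : Type} [Fintype S] [DecidableEq S]

/-- sum out `a` (stationarity of `P^k`), then `μ b * P b c = μ c * P c b` -/
theorem term1 {μ : S → ℝ} {P : Matrix S S ℝ} (hc : IsChain μ P) (g G : S → ℝ) (k r : ℕ) :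
    ∑ a, ∑ b, ∑ c, ∑ d, μ a * (P ^ k) a b * P b c * (P ^ r) c d * (|g c - g b| * |G d - G c|) =
      ∑ y, μ y * (∑ b, P y b * |g b - g y|) * ∑ z, (P ^ r) y z * |G z - G y| := by
  have hk := isChain_pow hc k
  have hrev := hc.2.2.2.2
  have hstat : ∀ b, ∑ a, μ a * (P ^ k) a b = μ b := by
    intro b
    calc ∑ a, μ a * (P ^ k) a b = ∑ a, μ b * (P ^ k) b a :=
          Finset.sum_congr rfl fun a _ => hk.2.2.2.2 a b
      _ = μ b := by rw [← Finset.mul_sum, hk.2.2.2.1 b, mul_one]
  have h1 : ∑ a, ∑ b, ∑ c, ∑ d,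
        μ a * (P ^ k) a b * P b c * (P ^ r) c d * (|g c - g b| * |G d - G c|) =
      ∑ b, ∑ c, ∑ d, μ b * P b c * (P ^ r) c d * (|g c - g b| * |G d - G c|) := by
    rw [Finset.sum_comm]
    refine Finset.sum_congr rfl fun b _ => ?_
    have h2 : ∀ a, ∑ c, ∑ d,
        μ a * (P ^ k) a b * P b c * (P ^ r) c d * (|g c - g b| * |G d - G c|) =
        (μ a * (P ^ k) a b) *
          ∑ c, ∑ d, P b c * (P ^ r) c d * (|g c - g b| * |G d - G c|) := by
      intro a
      rw [Finset.mul_sum]
      refine Finset.sum_congr rfl fun c _ => ?_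
      rw [Finset.mul_sum]
      refine Finset.sum_congr rfl fun d _ => ?_
      ring
    simp only [h2]
    rw [← Finset.sum_mul, hstat b, Finset.mul_sum]
    refine Finset.sum_congr rfl fun c _ => ?_
    rw [Finset.mul_sum]
    refine Finset.sum_congr rfl fun d _ => ?_
    ring
  rw [h1, Finset.sum_comm]
  refine Finset.sum_congr rfl fun c _ => ?_
  calc ∑ b, ∑ d, μ b * P b c * (P ^ r) c d * (|g c - g b| * |G d - G c|)
      = ∑ b, (μ c * (P c b * |g b - g c|)) * ∑ d, (P ^ r) c d * |G d - G c| := by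
        refine Finset.sum_congr rfl fun b _ => ?_
        rw [Finset.mul_sum]
        refine Finset.sum_congr rfl fun d _ => ?_
        rw [hrev b c, abs_sub_comm (g c) (g b)]
        ring
    _ = (∑ b, μ c * (P c b * |g b - g c|)) * ∑ d, (P ^ r) c d * |G d - G c| := by
        rw [Finset.sum_mul]
    _ = μ c * (∑ b, P c b * |g b - g c|) * ∑ d, (P ^ r) c d * |G d - G c| := by
        rw [← Finset.mul_sum]

end Vale.Agent.P125.Poly79
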