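import Vale.Agent.P125.Poly.Defs_79

set_option linter.unusedSectionVars false
set_option linter.unusedVariables false

/-! # P125 polynomial rate, path-free form (board 624): second term of (A) -/

namespace Vale.Agent.P125.Poly79

open scoped BigOperators
open Vale.Agent.P125.Dich Vale.Agent.P125.BV

variable {S : Type} [Fintype S] [DecidableEq S]

/-- sum out `d` (rows of `P^r`), then `a` (stationarity of `P^k`) -/
theorem term2 {μ : S → ℝ} {P : Matrix S S ℝ} (hc : IsChain μ P) (g G : S → ℝ) (k r : ℕ) :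
    ∑ a, ∑ b, ∑ c, ∑ d, μ a * (P ^ k) a b * P b c * (P ^ r) c d * (|g c - g b| * |G c - G b|) =
      ∑ b, ∑ c, μ b * P b c * (|g c - g b| * |G c - G b|) := by
  have hk := isChain_pow hc k
  have hr := isChain_pow hc r
  have hstat : ∀ b, ∑ a, μ a * (P ^ k) a b = μ b := by
    intro b
    calc ∑ a, μ a * (P ^ k) a b = ∑ a, μ b * (P ^ k) b a :=
          Finset.sum_congr rfl fun a _ => hk.2.2.2.2 a b
      _ = μ b := by rw [← Finset.mul_sum, hk.2.2.2.1 b, mul_one]
  calc ∑ a, ∑ b, ∑ c, ∑ d, μ a * (P ^ k) a b * P b c * (P ^ r) c d * (|g c - g b| * |G c - G b|)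
      = ∑ a, ∑ b, ∑ c, μ a * (P ^ k) a b * (P b c * (|g c - g b| * |G c - G b|)) := by
        refine Finset.sum_congr rfl fun a _ => Finset.sum_congr rfl fun b _ =>
          Finset.sum_congr rfl fun c _ => ?_
        calc ∑ d, μ a * (P ^ k) a b * P b c * (P ^ r) c d * (|g c - g b| * |G c - G b|)
            = ∑ d, (μ a * (P ^ k) a b * (P b c * (|g c - g b| * |G c - G b|))) * (P ^ r) c d :=
              Finset.sum_congr rfl fun d _ => by ring
          _ = μ a * (P ^ k) a b * (P b c * (|g c - g b| * |G c - G b|)) := by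
              rw [← Finset.mul_sum, hr.2.2.2.1 c, mul_one]
    _ = ∑ b, ∑ a, ∑ c, μ a * (P ^ k) a b * (P b c * (|g c - g b| * |G c - G b|)) :=
        Finset.sum_comm
    _ = ∑ b, (∑ a, μ a * (P ^ k) a b) * ∑ c, (P b c * (|g c - g b| * |G c - G b|)) := by
        refine Finset.sum_congr rfl fun b _ => ?_
        rw [Finset.sum_mul]
        exact Finset.sum_congr rfl fun a _ => by rw [Finset.mul_sum]
    _ = ∑ b, ∑ c, μ b * P b c * (|g c - g b| * |G c - G b|) := by
        refine Finset.sum_congr rfl fun b _ => ?_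
        rw [hstat b, Finset.mul_sum]
        exact Finset.sum_congr rfl fun c _ => by ring

end Vale.Agent.P125.Poly79
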