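import Vale.Agent.P125.Poly.Defs_79

set_option linter.unusedSectionVars false
set_option linter.unusedVariables false

/-! # P125 polynomial rate, path-free form (board 624): third term of (A) -/

namespace Vale.Agent.P125.Poly79

open scoped BigOperators
open Vale.Agent.P125.Dich Vale.Agent.P125.BV

variable {S : Type} [Fintype S] [DecidableEq S]

/-- sum out `d` (rows of `P^r`), then `μ a * (P^k) a b = μ b * (P^k) b a` -/
theorem term3 {μ : S → ℝ} {P : Matrix S S ℝ} (hc : IsChain μ P) (g G : S → ℝ) (k r : ℕ) :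
    ∑ a, ∑ b, ∑ c, ∑ d, μ a * (P ^ k) a b * P b c * (P ^ r) c d * (|g c - g b| * |G b - G a|) =
      ∑ y, μ y * (∑ b, P y b * |g b - g y|) * ∑ z, (P ^ k) y z * |G z - G y| := by
  have hr := (isChain_pow hc r).2.2.2.1
  have hk := (isChain_pow hc k).2.2.2.2
  have e1 : ∀ a b c, ∑ d, μ a * (P ^ k) a b * P b c * (P ^ r) c d * (|g c - g b| * |G b - G a|)
      = μ a * (P ^ k) a b * P b c * (|g c - g b| * |G b - G a|) := by
    intro a b c
    have : ∀ d, μ a * (P ^ k) a b * P b c * (P ^ r) c d * (|g c - g b| * |G b - G a|)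
        = (P ^ r) c d * (μ a * (P ^ k) a b * P b c * (|g c - g b| * |G b - G a|)) := by
      intro d
      ring
    simp_rw [this]
    rw [← Finset.sum_mul, hr c, one_mul]
  simp_rw [e1]
  rw [Finset.sum_comm]
  refine Finset.sum_congr rfl fun y _ => ?_
  rw [Finset.mul_sum]
  refine Finset.sum_congr rfl fun a _ => ?_
  rw [Finset.mul_sum, Finset.sum_mul]
  refine Finset.sum_congr rfl fun c _ => ?_
  rw [hk a y, abs_sub_comm (G y) (G a)]
  ring

end Vale.Agent.P125.Poly79
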