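import Vale.Agent.P125.Poly.Defs_79
import Vale.Agent.P125.Poly.ApiC_79
import Vale.Agent.P125.Poly.Own_79
import Vale.Agent.P125.Poly.Tel_79
import Vale.Agent.P125.Poly.Term1_79
import Vale.Agent.P125.Poly.Term2_79
import Vale.Agent.P125.Poly.Term3_79

set_option linter.unusedSectionVars false
set_option linter.unusedVariables false

/-! # P125 polynomial rate, path-free form (board 624): step (A) = S1 + S2 -/

namespace Vale.Agent.P125.Poly79

open scoped BigOperators
open Vale.Agent.P125.Dich Vale.Agent.P125.BV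

variable {S : Type} [Fintype S] [DecidableEq S]

/-- one coordinate `j`, one time `k`: triangle inequality and the three terms -/
private lemma stepA_jk {μ : S → ℝ} {P : Matrix S S ℝ} (hc : IsChain μ P) (g G : S → ℝ) (k r : ℕ) :
    ∑ a, ∑ b, ∑ c, ∑ d, μ a * (P ^ k) a b * P b c * (P ^ r) c d * (|g c - g b| * |G d - G a|) ≤
      (∑ y, μ y * (∑ b, P y b * |g b - g y|) * ∑ z, (P ^ r) y z * |G z - G y|) +
      (∑ b, ∑ c, μ b * P b c * (|g c - g b| * |G c - G b|)) +
      (∑ y, μ y * (∑ b, P y b * |g b - g y|) * ∑ z, (P ^ k) y z * |G z - G y|) := by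
  rw [← term1 hc g G k r, ← term2 hc g G k r, ← term3 hc g G k r]
  simp only [← Finset.sum_add_distrib]
  have hk := (isChain_pow hc k).2.2.1
  have hr := (isChain_pow hc r).2.2.1
  refine Finset.sum_le_sum fun a _ => Finset.sum_le_sum fun b _ => Finset.sum_le_sum fun c _ =>
    Finset.sum_le_sum fun d _ => ?_
  have hw : 0 ≤ μ a * (P ^ k) a b * P b c * (P ^ r) c d :=
    mul_nonneg (mul_nonneg (mul_nonneg (hc.1 a) (hk a b)) (hc.2.2.1 b c)) (hr c d)
  have htri : |G d - G a| ≤ |G d - G c| + |G c - G b| + |G b - G a| := by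
    have e : G d - G a = (G d - G c) + (G c - G b) + (G b - G a) := by ring
    rw [e]
    exact (abs_add_le _ _).trans (add_le_add (abs_add_le _ _) le_rfl)
  have h2 : |g c - g b| * |G d - G a| ≤
      |g c - g b| * |G d - G c| + |g c - g b| * |G c - G b| + |g c - g b| * |G b - G a| := by
    have := mul_le_mul_of_nonneg_left htri (abs_nonneg (g c - g b))
    linarith
  have := mul_le_mul_of_nonneg_left h2 hw
  linarith

/-- one coordinate `j` -/
private lemma stepA_j {μ : S → ℝ} {P : Matrix S S ℝ} (hc : IsChain μ P) (g G : S → ℝ) (t : ℕ) :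
    ∑ a, ∑ d, μ a * (P ^ t) a d * (|g d - g a| * |G d - G a|) ≤
      ∑ k ∈ Finset.range t,
      ((∑ y, μ y * (∑ b, P y b * |g b - g y|) * ∑ z, (P ^ (t - 1 - k)) y z * |G z - G y|) +
      (∑ b, ∑ c, μ b * P b c * (|g c - g b| * |G c - G b|)) +
      (∑ y, μ y * (∑ b, P y b * |g b - g y|) * ∑ z, (P ^ k) y z * |G z - G y|)) :=
  (telescope hc g t (fun a d => |G d - G a|) (fun _ _ => abs_nonneg _)).trans
    (Finset.sum_le_sum fun k _ => stepA_jk hc g G k (t - 1 - k))

/-- the diagonal term -/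
private lemma stepA_diag {μ : S → ℝ} {P : Matrix S S ℝ} (hc : IsChain μ P) (n : ℕ) (F : ℕ → S → ℝ)
    (hF0 : ∀ x, F 0 x = 0) :
    ∑ j ∈ Finset.range n, ∑ b, ∑ c, μ b * P b c *
      (|dd F j c - dd F j b| * |F (j + 1) c - F (j + 1) b|) ≤ WW μ P n F := by
  rw [Finset.sum_comm]
  unfold WW
  refine Finset.sum_le_sum fun b _ => ?_
  rw [Finset.sum_comm]
  refine Finset.sum_le_sum fun c _ => ?_
  rw [← Finset.mul_sum]
  have hw : 0 ≤ μ b * P b c := mul_nonneg (hc.1 b) (hc.2.2.1 b c)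
  refine mul_le_mul_of_nonneg_left ?_ hw
  have h1 : ∑ j ∈ Finset.range n, |dd F j c - dd F j b| * |F (j + 1) c - F (j + 1) b| ≤
      ∑ j ∈ Finset.range n, |dd F j c - dd F j b| * ll n F b c := by
    refine Finset.sum_le_sum fun j hj => ?_
    exact mul_le_mul_of_nonneg_left
      (abs_F_le n F hF0 (j + 1) (Nat.succ_le_of_lt (Finset.mem_range.1 hj)) b c) (abs_nonneg _)
  refine h1.trans (le_of_eq ?_)
  rw [← Finset.sum_mul, sq]
  rfl

/-- own_up pointwise with `G j = F j d - F j a`; telescope with `g = dd F j`,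
`H a d = |F (j+1) d - F (j+1) a|`; triangle inequality through `c`, `b`; term1, term2, term3;
`∑_j |dd F j c - dd F j b| * |F (j+1) c - F (j+1) b| ≤ ll^2` by abs_F_le. -/
theorem stepA {μ : S → ℝ} {P : Matrix S S ℝ} (hc : IsChain μ P) (n : ℕ) (F : ℕ → S → ℝ)
    (hF0 : ∀ x, F 0 x = 0) (t : ℕ) (κ : S → S → ℕ) (hκ : ∀ a d, κ a d ≤ n) :
    ∑ a, ∑ d, μ a * (P ^ t) a d * (F (κ a d) d - F (κ a d) a) ^ 2 ≤
      2 * (t : ℝ) * WW μ P n F +
        2 * ∑ k ∈ Finset.range t, (QQ μ P n F (t - 1 - k) + QQ μ P n F k) := by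
  have ht := (isChain_pow hc t).2.2.1
  -- step 1: own measure
  have s1 : ∑ a, ∑ d, μ a * (P ^ t) a d * (F (κ a d) d - F (κ a d) a) ^ 2 ≤
      2 * ∑ j ∈ Finset.range n, ∑ a, ∑ d, μ a * (P ^ t) a d *
        (|dd F j d - dd F j a| * |F (j + 1) d - F (j + 1) a|) := by
    have e : ∑ j ∈ Finset.range n, ∑ a, ∑ d, μ a * (P ^ t) a d *
        (|dd F j d - dd F j a| * |F (j + 1) d - F (j + 1) a|) =
        ∑ a, ∑ d, μ a * (P ^ t) a d * ∑ j ∈ Finset.range n,
        (|dd F j d - dd F j a| * |F (j + 1) d - F (j + 1) a|) := by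
      rw [Finset.sum_comm]
      refine Finset.sum_congr rfl fun a _ => ?_
      rw [Finset.sum_comm]
      refine Finset.sum_congr rfl fun d _ => ?_
      rw [Finset.mul_sum]
    rw [e, Finset.mul_sum]
    refine Finset.sum_le_sum fun a _ => ?_
    rw [Finset.mul_sum]
    refine Finset.sum_le_sum fun d _ => ?_
    have hw : 0 ≤ μ a * (P ^ t) a d := mul_nonneg (hc.1 a) (ht a d)
    have ho := own_up n (fun j => F j d - F j a) (by simp [hF0]) (κ a d) (hκ a d)
    have e2 : ∑ k ∈ Finset.range n, |(fun j => F j d - F j a) (k + 1) - (fun j => F j d - F j a) k| *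
        |(fun j => F j d - F j a) (k + 1)| =
        ∑ j ∈ Finset.range n, (|dd F j d - dd F j a| * |F (j + 1) d - F (j + 1) a|) := by
      refine Finset.sum_congr rfl fun j _ => ?_
      have : (F (j + 1) d - F (j + 1) a) - (F j d - F j a) = dd F j d - dd F j a := by
        unfold dd; ring
      show |(F (j + 1) d - F (j + 1) a) - (F j d - F j a)| * |F (j + 1) d - F (j + 1) a| = _
      rw [this]
    rw [e2] at ho
    have ho' : (F (κ a d) d - F (κ a d) a) ^ 2 ≤ 2 * ∑ j ∈ Finset.range n,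
        (|dd F j d - dd F j a| * |F (j + 1) d - F (j + 1) a|) := ho
    refine (mul_le_mul_of_nonneg_left ho' hw).trans (le_of_eq ?_)
    ring
  -- step 2: every coordinate
  have s2 : ∑ j ∈ Finset.range n, ∑ a, ∑ d, μ a * (P ^ t) a d *
        (|dd F j d - dd F j a| * |F (j + 1) d - F (j + 1) a|) ≤
      ∑ j ∈ Finset.range n, ∑ k ∈ Finset.range t,
      ((∑ y, μ y * aa P F j y * ∑ z, (P ^ (t - 1 - k)) y z * |F (j + 1) z - F (j + 1) y|) +
      (∑ b, ∑ c, μ b * P b c * (|dd F j c - dd F j b| * |F (j + 1) c - F (j + 1) b|)) +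
      (∑ y, μ y * aa P F j y * ∑ z, (P ^ k) y z * |F (j + 1) z - F (j + 1) y|)) :=
    Finset.sum_le_sum fun j _ => stepA_j hc (dd F j) (F (j + 1)) t
  -- step 3: reorganise
  have s3 : ∑ j ∈ Finset.range n, ∑ k ∈ Finset.range t,
      ((∑ y, μ y * aa P F j y * ∑ z, (P ^ (t - 1 - k)) y z * |F (j + 1) z - F (j + 1) y|) +
      (∑ b, ∑ c, μ b * P b c * (|dd F j c - dd F j b| * |F (j + 1) c - F (j + 1) b|)) +
      (∑ y, μ y * aa P F j y * ∑ z, (P ^ k) y z * |F (j + 1) z - F (j + 1) y|)) =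
      ∑ k ∈ Finset.range t, (QQ μ P n F (t - 1 - k) + QQ μ P n F k) +
      (t : ℝ) * ∑ j ∈ Finset.range n, ∑ b, ∑ c, μ b * P b c *
      (|dd F j c - dd F j b| * |F (j + 1) c - F (j + 1) b|) := by
    rw [Finset.sum_comm]
    unfold QQ
    simp only [Finset.sum_add_distrib, Finset.sum_const, Finset.card_range, nsmul_eq_mul]
    ring
  have s4 := stepA_diag hc n F hF0
  have ht0 : (0 : ℝ) ≤ (t : ℝ) := Nat.cast_nonneg t
  have s5 := mul_le_mul_of_nonneg_left s4 ht0
  rw [s3] at s2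
  linarith

end Vale.Agent.P125.Poly79
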