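import Vale.Agent.P125.Poly.Defs_79
import Vale.Agent.P125.Poly.ApiA_79
import Vale.Agent.P125.Poly.ApiB_79
import Vale.Agent.P125.Poly.ApiM_79
import Vale.Agent.P125.Poly.ApiC_79
import Vale.Agent.P125.Poly.ApiT_79

set_option linter.unusedSectionVars false
set_option linter.unusedVariables false

/-! # P125 polynomial rate, path-free form (board 624): step (B): the square function part -/

namespace Vale.Agent.P125.Poly79

open scoped BigOperators
open Vale.Agent.P125.Dich Vale.Agent.P125.BV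

variable {S : Type} [Fintype S] [DecidableEq S]

/-- mixed_cs with `a = aa P F`, `T j y = sqrt (...)`,
`B y = ∑ i<m, op ((P^τ)^i) (fun z => ∑ w, (P^τ) z w * ll n F z w ^ 2) y` (abs_F_le, op_mono);
`∑ μ B = m * ∑∑ μ (P^τ) ll^2 ≤ m τ^2 W` (stat for `(P^τ)^i`, ll_triv); lb_sq_le. -/
theorem mart {μ : S → ℝ} {P : Matrix S S ℝ} (hc : IsChain μ P) (n : ℕ) (F : ℕ → S → ℝ)
    (hF0 : ∀ x, F 0 x = 0) (τ m : ℕ) :
    (∑ j ∈ Finset.range n, ∑ y, μ y * aa P F j y *
      Real.sqrt (∑ i ∈ Finset.range m, op ((P ^ τ) ^ i) (Gam (P ^ τ) (F (j + 1))) y)) ^ 2 ≤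
      WW μ P n F * ((m : ℝ) * (τ : ℝ) ^ 2 * WW μ P n F) := by
  have hτ : IsChain μ (P ^ τ) := isChain_pow hc τ
  have hi : ∀ i, IsChain μ ((P ^ τ) ^ i) := fun i => isChain_pow hτ i
  set G : S → ℝ := fun z => ∑ w, (P ^ τ) z w * ll n F z w ^ 2 with hG
  have hG0 : ∀ z, 0 ≤ G z := fun z =>
    Finset.sum_nonneg fun w _ => mul_nonneg (hτ.2.2.1 z w) (sq_nonneg _)
  set B : S → ℝ := fun y => ∑ i ∈ Finset.range m, op ((P ^ τ) ^ i) G y with hB
  have hB0 : ∀ y, 0 ≤ B y := fun y =>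
    Finset.sum_nonneg fun i _ => op_nonneg _ (hi i).2.2.1 G hG0 y
  set T : ℕ → S → ℝ := fun j y => if j < n then
    Real.sqrt (∑ i ∈ Finset.range m, op ((P ^ τ) ^ i) (Gam (P ^ τ) (F (j + 1))) y) else 0 with hT
  have hGam0 : ∀ j z, 0 ≤ Gam (P ^ τ) (F (j + 1)) z := fun j z =>
    Finset.sum_nonneg fun w _ => mul_nonneg (hτ.2.2.1 z w) (sq_nonneg _)
  have hTB : ∀ k y, T k y ^ 2 ≤ B y := by
    intro k y
    by_cases hk : k < n
    · simp only [hT, if_pos hk]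
      rw [Real.sq_sqrt (Finset.sum_nonneg fun i _ => op_nonneg _ (hi i).2.2.1 _ (hGam0 k) y)]
      refine Finset.sum_le_sum fun i _ => op_mono _ (hi i).2.2.1 _ _ (fun z => ?_) y
      refine Finset.sum_le_sum fun w _ => mul_le_mul_of_nonneg_left ?_ (hτ.2.2.1 z w)
      have := abs_F_le n F hF0 (k + 1) hk z w
      rw [← sq_abs]
      exact pow_le_pow_left₀ (abs_nonneg _) this 2
    · simp only [hT, if_neg hk]
      simpa using hB0 y
  have h1 := mixed_cs hc.1 n (aa P F) T B (fun k y => aa_nonneg hc F k y) hTB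
  have e1 : ∑ j ∈ Finset.range n, ∑ y, μ y * aa P F j y *
      Real.sqrt (∑ i ∈ Finset.range m, op ((P ^ τ) ^ i) (Gam (P ^ τ) (F (j + 1))) y) =
      ∑ k ∈ Finset.range n, ∑ y, μ y * aa P F k y * T k y := by
    refine Finset.sum_congr rfl fun j hj => ?_
    have hj' : j < n := Finset.mem_range.mp hj
    simp only [hT, if_pos hj']
  rw [e1]
  refine h1.trans ?_
  have h2 : ∑ y, μ y * (∑ k ∈ Finset.range n, aa P F k y) ^ 2 ≤ WW μ P n F := lb_sq_le hc n F
  have h3 : ∑ y, μ y * B y ≤ (m : ℝ) * (τ : ℝ) ^ 2 * WW μ P n F := by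
    have e2 : ∑ y, μ y * B y = ∑ i ∈ Finset.range m, ∑ y, μ y * op ((P ^ τ) ^ i) G y := by
      simp only [hB, Finset.mul_sum]
      rw [Finset.sum_comm]
    rw [e2, Finset.sum_congr rfl fun i _ => stat (hi i) G]
    have e3 : ∑ y, μ y * G y = ∑ a, ∑ b, μ a * (P ^ τ) a b * ll n F a b ^ 2 := by
      simp only [hG, Finset.mul_sum]
      exact Finset.sum_congr rfl fun a _ => Finset.sum_congr rfl fun b _ => by ring
    rw [e3]
    have := ll_triv hc n F τ
    simp only [Finset.sum_const, Finset.card_range, nsmul_eq_mul]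
    have hm : (0 : ℝ) ≤ m := Nat.cast_nonneg m
    calc (m : ℝ) * ∑ a, ∑ b, μ a * (P ^ τ) a b * ll n F a b ^ 2
        ≤ (m : ℝ) * ((τ : ℝ) ^ 2 * WW μ P n F) := mul_le_mul_of_nonneg_left this hm
      _ = (m : ℝ) * (τ : ℝ) ^ 2 * WW μ P n F := by ring
  exact mul_le_mul h2 h3 (Finset.sum_nonneg fun y _ => mul_nonneg (hc.1 y) (hB0 y))
    (WW_nonneg hc n F)

end Vale.Agent.P125.Poly79
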