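import Vale.Agent.P125.Poly.Defs_79
import Vale.Agent.P125.Poly.ApiA_79
import Vale.Agent.P125.Poly.StepB_33

set_option linter.unusedSectionVars false
set_option linter.unusedVariables false

/-! # P125 polynomial rate, path-free form (board 624): step (B): the square root induction (S3 without martingales) -/

namespace Vale.Agent.P125.Poly79

open scoped BigOperators
open Vale.Agent.P125.Dich Vale.Agent.P125.BV

variable {S : Type} [Fintype S] [DecidableEq S]

/-- induction on `m` for all `y` (first step: `R^(m+1) = R * R^m`): Jensen for sqrt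
(`∑ p_w sqrt x_w ≤ sqrt (∑ p_w x_w)`), `∑_w R y w (G w - c)^2 ≤ (op R G y - c)^2 + Gam R G y`,
`sqrt ((x+b)^2 + s) ≤ sqrt (x^2 + s) + |b|`. -/
theorem sqrt_ind (R : Matrix S S ℝ) (hR0 : ∀ i j, 0 ≤ R i j) (hR1 : ∀ i, ∑ j, R i j = 1)
    (G : S → ℝ) (c : ℝ) (m : ℕ) (y : S) :
    ∑ z, (R ^ m) y z * |G z - c| ≤
      Real.sqrt ((G y - c) ^ 2 + ∑ i ∈ Finset.range m, op (R ^ i) (Gam R G) y) +
        ∑ i ∈ Finset.range m, op (R ^ i) (fun z => |op R G z - G z|) y := by
  have h := Vale.Agent.P125.Poly33.stepB R hR0 hR1 G m y c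
  exact h

end Vale.Agent.P125.Poly79
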