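import Vale.Agent.P125.Poly.Defs_79
import Vale.Agent.P125.Poly.ApiA_79
import Vale.Agent.P125.Poly.ApiB_79
import Vale.Agent.P125.Poly.ApiC_79
import Vale.Agent.P125.Poly.SqrtInd_79
import Vale.Agent.P125.Poly.Mart_79
import Vale.Agent.P125.Poly.Rem_79

set_option linter.unusedSectionVars false
set_option linter.unusedVariables false

/-! # P125 polynomial rate, path-free form (board 624): step (B) = S3 -/

namespace Vale.Agent.P125.Poly79

open scoped BigOperators
open Vale.Agent.P125.Dich Vale.Agent.P125.BV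

variable {S : Type} [Fintype S] [DecidableEq S]

/-- `P^(τ*m+r) = (P^τ)^m * P^r`; `|F z - F y| ≤ |F w - F y| + |F z - F w|`; sqrt_ind with `R = P^τ`,
`c = F (j+1) y`; mart (`sqrt m ≤ q`), rem (`r ≤ τ`); `(P^τ)^i = P^(τ*i)`. -/
theorem stepB {μ : S → ℝ} {P : Matrix S S ℝ} (hc : IsChain μ P) (n : ℕ) (F : ℕ → S → ℝ)
    (hF0 : ∀ x, F 0 x = 0) (τ m r q : ℕ) (hr : r ≤ τ) (hm : m ≤ q ^ 2) :
    QQ μ P n F (τ * m + r) ≤
      (q : ℝ) * (τ : ℝ) * WW μ P n F + (τ : ℝ) * WW μ P n F +
        ∑ i ∈ Finset.range m, RS μ P n F τ (τ * i) := by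
  have hW := WW_nonneg hc n F
  have hR : IsChain μ (P ^ τ) := isChain_pow hc τ
  have hRr : IsChain μ (P ^ r) := isChain_pow hc r
  have hRM : IsChain μ (P ^ (τ * m)) := isChain_pow hc _
  -- pointwise bound
  have key : ∀ j y, ∑ z, (P ^ (τ * m + r)) y z * |F (j + 1) z - F (j + 1) y| ≤
      Real.sqrt (∑ i ∈ Finset.range m, op ((P ^ τ) ^ i) (Gam (P ^ τ) (F (j + 1))) y) +
      ∑ i ∈ Finset.range m, op (P ^ (τ * i)) (fun z => |hh P F τ j z|) y +
      op (P ^ (τ * m)) (fun w => ∑ z, (P ^ r) w z * |F (j + 1) z - F (j + 1) w|) y := by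
    intro j y
    have e1 : ∀ z, (P ^ (τ * m + r)) y z = ∑ w, (P ^ (τ * m)) y w * (P ^ r) w z := by
      intro z
      rw [pow_add, Matrix.mul_apply]
    have s1 : ∑ z, (P ^ (τ * m + r)) y z * |F (j + 1) z - F (j + 1) y| ≤
        ∑ w, (P ^ (τ * m)) y w * |F (j + 1) w - F (j + 1) y| +
          op (P ^ (τ * m)) (fun w => ∑ z, (P ^ r) w z * |F (j + 1) z - F (j + 1) w|) y := by
      calc ∑ z, (P ^ (τ * m + r)) y z * |F (j + 1) z - F (j + 1) y|
          = ∑ z, ∑ w, (P ^ (τ * m)) y w * (P ^ r) w z * |F (j + 1) z - F (j + 1) y| := by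
            refine Finset.sum_congr rfl fun z _ => ?_
            rw [e1, Finset.sum_mul]
        _ = ∑ w, ∑ z, (P ^ (τ * m)) y w * (P ^ r) w z * |F (j + 1) z - F (j + 1) y| :=
            Finset.sum_comm
        _ ≤ ∑ w, ((P ^ (τ * m)) y w * |F (j + 1) w - F (j + 1) y| +
              (P ^ (τ * m)) y w * ∑ z, (P ^ r) w z * |F (j + 1) z - F (j + 1) w|) := by
            refine Finset.sum_le_sum fun w _ => ?_
            have h1 : ∑ z, (P ^ r) w z = 1 := hRr.2.2.2.1 w
            have h2 : ∑ z, (P ^ (τ * m)) y w * (P ^ r) w z * |F (j + 1) z - F (j + 1) y| ≤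
                ∑ z, (P ^ (τ * m)) y w * ((P ^ r) w z * |F (j + 1) w - F (j + 1) y| +
                  (P ^ r) w z * |F (j + 1) z - F (j + 1) w|) := by
              refine Finset.sum_le_sum fun z _ => ?_
              have t : |F (j + 1) z - F (j + 1) y| ≤
                  |F (j + 1) w - F (j + 1) y| + |F (j + 1) z - F (j + 1) w| := by
                have := abs_sub_le (F (j + 1) z) (F (j + 1) w) (F (j + 1) y)
                linarith
              have a0 := hRM.2.2.1 y w
              have b0 := hRr.2.2.1 w z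
              have t2 : (P ^ r) w z * |F (j + 1) z - F (j + 1) y| ≤
                  (P ^ r) w z * (|F (j + 1) w - F (j + 1) y| + |F (j + 1) z - F (j + 1) w|) :=
                mul_le_mul_of_nonneg_left t b0
              calc (P ^ (τ * m)) y w * (P ^ r) w z * |F (j + 1) z - F (j + 1) y|
                  = (P ^ (τ * m)) y w * ((P ^ r) w z * |F (j + 1) z - F (j + 1) y|) := by ring
                _ ≤ (P ^ (τ * m)) y w * ((P ^ r) w z *
                      (|F (j + 1) w - F (j + 1) y| + |F (j + 1) z - F (j + 1) w|)) :=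
                    mul_le_mul_of_nonneg_left t2 a0
                _ = _ := by ring
            refine h2.trans (le_of_eq ?_)
            rw [← Finset.mul_sum, Finset.sum_add_distrib, ← Finset.sum_mul, h1]
            ring
        _ = _ := by
            rw [Finset.sum_add_distrib]
            rfl
    have s2 := sqrt_ind (P ^ τ) hR.2.2.1 hR.2.2.2.1 (F (j + 1)) (F (j + 1) y) m y
    have e2 : (P ^ τ) ^ m = P ^ (τ * m) := (pow_mul P τ m).symm
    rw [e2] at s2
    have e3 : ∀ i, op ((P ^ τ) ^ i) (fun z => |op (P ^ τ) (F (j + 1)) z - F (j + 1) z|) y =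
        op (P ^ (τ * i)) (fun z => |hh P F τ j z|) y := by
      intro i
      rw [← pow_mul]
      rfl
    have e4 : (F (j + 1) y - F (j + 1) y) ^ 2 +
        ∑ i ∈ Finset.range m, op ((P ^ τ) ^ i) (Gam (P ^ τ) (F (j + 1))) y =
        ∑ i ∈ Finset.range m, op ((P ^ τ) ^ i) (Gam (P ^ τ) (F (j + 1))) y := by
      rw [sub_self]
      ring
    rw [e4, Finset.sum_congr rfl (fun i _ => e3 i)] at s2
    linarith
  -- the three sums
  set A : ℕ → S → ℝ := fun j y =>
    Real.sqrt (∑ i ∈ Finset.range m, op ((P ^ τ) ^ i) (Gam (P ^ τ) (F (j + 1))) y) with hA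
  set B : ℕ → S → ℝ := fun j y =>
    ∑ i ∈ Finset.range m, op (P ^ (τ * i)) (fun z => |hh P F τ j z|) y with hB
  set C : ℕ → S → ℝ := fun j y =>
    op (P ^ (τ * m)) (fun w => ∑ z, (P ^ r) w z * |F (j + 1) z - F (j + 1) w|) y with hC
  have h1 : QQ μ P n F (τ * m + r) ≤
      ∑ j ∈ Finset.range n, ∑ y, μ y * aa P F j y * A j y +
      ∑ j ∈ Finset.range n, ∑ y, μ y * aa P F j y * B j y +
      ∑ j ∈ Finset.range n, ∑ y, μ y * aa P F j y * C j y := by
    unfold QQ
    rw [← Finset.sum_add_distrib, ← Finset.sum_add_distrib]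
    refine Finset.sum_le_sum fun j _ => ?_
    rw [← Finset.sum_add_distrib, ← Finset.sum_add_distrib]
    refine Finset.sum_le_sum fun y _ => ?_
    have c0 : 0 ≤ μ y * aa P F j y := mul_nonneg (hc.1 y) (aa_nonneg hc F j y)
    have := mul_le_mul_of_nonneg_left (key j y) c0
    calc _ ≤ μ y * aa P F j y * (A j y + B j y + C j y) := this
      _ = _ := by ring
  have hXsq := mart hc n F hF0 τ m
  have hX : ∑ j ∈ Finset.range n, ∑ y, μ y * aa P F j y * A j y ≤
      (q : ℝ) * (τ : ℝ) * WW μ P n F := by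
    have hm' : (m : ℝ) ≤ (q : ℝ) ^ 2 := by exact_mod_cast hm
    have hb : 0 ≤ (q : ℝ) * (τ : ℝ) * WW μ P n F := by positivity
    have hsq : (∑ j ∈ Finset.range n, ∑ y, μ y * aa P F j y * A j y) ^ 2 ≤
        ((q : ℝ) * (τ : ℝ) * WW μ P n F) ^ 2 := by
      refine hXsq.trans ?_
      have : (m : ℝ) * ((τ : ℝ) ^ 2 * WW μ P n F ^ 2) ≤
          (q : ℝ) ^ 2 * ((τ : ℝ) ^ 2 * WW μ P n F ^ 2) :=
        mul_le_mul_of_nonneg_right hm' (by positivity)
      nlinarith [this]
    by_contra hlt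
    push Not at hlt
    nlinarith [mul_pos (sub_pos.mpr hlt) (lt_of_le_of_lt hb hlt), hsq, hb, hlt]
  have hBsum : ∑ j ∈ Finset.range n, ∑ y, μ y * aa P F j y * B j y =
      ∑ i ∈ Finset.range m, RS μ P n F τ (τ * i) := by
    unfold RS
    conv_rhs => rw [Finset.sum_comm]
    refine Finset.sum_congr rfl fun j _ => ?_
    conv_rhs => rw [Finset.sum_comm]
    refine Finset.sum_congr rfl fun y _ => ?_
    simp only [hB, Finset.mul_sum]
  have hCsum : ∑ j ∈ Finset.range n, ∑ y, μ y * aa P F j y * C j y ≤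
      (τ : ℝ) * WW μ P n F := by
    have h := rem hc n F hF0 (τ * m) r
    have hr' : (r : ℝ) ≤ (τ : ℝ) := by exact_mod_cast hr
    exact h.trans (mul_le_mul_of_nonneg_right hr' hW)
  rw [hBsum] at h1
  linarith

end Vale.Agent.P125.Poly79
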