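import Vale.Agent.P125.Poly.Rs_62
import Vale.Agent.P125.Poly.Defs_79

set_option linter.unusedSectionVars false
set_option linter.unusedVariables false

/-!
# P125, polynomial rate: `stepC` of the skeleton `Poly79` from `Poly62.Rs_bound`
-/

namespace Vale.Agent.P125.Poly62

open scoped BigOperators
open Vale.Agent.P125.Dich Vale.Agent.P125.Poly38
open Matrix

variable {S : Type} [Fintype S] [DecidableEq S] {μ : S → ℝ} {P : Matrix S S ℝ}

/-- the coordinate functions of a profile -/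
def cf (n : ℕ) (F : ℕ → S → ℝ) : Fin n → S → ℝ := fun k x => Poly79.dd F k x

lemma FF_cf (n : ℕ) (F : ℕ → S → ℝ) (hF0 : ∀ x, F 0 x = 0) (j : Fin n) (x : S) :
    FF (cf n F) j x = F (j + 1) x := by
  unfold FF cf
  have e1 : ∑ k : Fin n, (if k ≤ j then Poly79.dd F k x else 0)
      = ∑ k ∈ Finset.range n, (if k ≤ (j : ℕ) then Poly79.dd F k x else 0) := by
    rw [Finset.sum_range]
    rfl
  rw [e1, ← Finset.sum_filter]
  have e2 : (Finset.range n).filter (fun k => k ≤ (j : ℕ)) = Finset.range ((j : ℕ) + 1) := by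
    ext k
    have := j.2
    simp only [Finset.mem_filter, Finset.mem_range]
    omega
  rw [e2]
  unfold Poly79.dd
  rw [Finset.sum_range_sub (fun k => F k x), hF0]
  ring

lemma aa_cf (n : ℕ) (F : ℕ → S → ℝ) (j : Fin n) (y : S) :
    aa P (cf n F) j y = Poly79.aa P F j y := rfl

lemma WW_cf (n : ℕ) (F : ℕ → S → ℝ) : WW μ P (cf n F) = Poly79.WW μ P n F := by
  unfold WW Poly79.WW ell Poly79.ll cf
  refine Finset.sum_congr rfl fun a _ => Finset.sum_congr rfl fun b _ => ?_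
  rw [Finset.sum_range]

lemma RS_cf (n : ℕ) (F : ℕ → S → ℝ) (hF0 : ∀ x, F 0 x = 0) (τ s : ℕ) :
    Poly79.RS μ P n F τ s = ∑ j, ∑ y, μ y * (aa P (cf n F) j y *
        ((P ^ s) *ᵥ (fun z => |((P ^ τ) *ᵥ FF (cf n F) j) z - FF (cf n F) j z|)) y) := by
  unfold Poly79.RS
  rw [Finset.sum_range]
  refine Finset.sum_congr rfl fun j _ => Finset.sum_congr rfl fun y _ => ?_
  have e : FF (cf n F) j = F (j + 1) := funext fun x => FF_cf n F hF0 j x
  rw [e, aa_cf, mul_assoc]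
  rfl

/-- `R_s ^ 2 ≤ τ^2 W^2 sqrt (5 / τ)` in the vocabulary of `Poly79` -/
theorem RS_sq_le (hc : IsChain μ P) (n : ℕ) (F : ℕ → S → ℝ) (hF0 : ∀ x, F 0 x = 0)
    (τ s : ℕ) (hτ : 1 ≤ τ) :
    Poly79.RS μ P n F τ s ^ 2
      ≤ (τ : ℝ) ^ 2 * Poly79.WW μ P n F ^ 2 * Real.sqrt (5 / (τ : ℝ)) := by
  rw [RS_cf n F hF0, ← WW_cf]
  exact Rs_bound hc τ s hτ (cf n F)

/-- the statement `stepC` of the skeleton `Poly79` -/
theorem stepC_62 (hc : IsChain μ P) (n : ℕ) (F : ℕ → S → ℝ)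
    (hF0 : ∀ x, F 0 x = 0) (q s : ℕ) :
    Poly79.RS μ P n F (q ^ 4) s ≤ (3 / 2) * (q : ℝ) ^ 3 * Poly79.WW μ P n F := by
  have hW : 0 ≤ Poly79.WW μ P n F := by
    rw [← WW_cf]
    exact WW_nonneg hc _
  rcases Nat.eq_zero_or_pos q with rfl | hq
  · -- `τ = 0`
    have : Poly79.RS μ P n F (0 ^ 4) s = 0 := by
      unfold Poly79.RS
      refine Finset.sum_eq_zero fun j _ => Finset.sum_eq_zero fun y _ => ?_
      have e : (fun z => |Poly79.hh P F (0 ^ 4) j z|) = fun _ => (0 : ℝ) := by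
        funext z
        unfold Poly79.hh Poly79.op
        simp [Matrix.one_apply]
      rw [e]
      unfold Poly79.op
      simp
    rw [this]
    simp
  · have hq0 : (0 : ℝ) < q := by exact_mod_cast hq
    have h := RS_sq_le hc n F hF0 (q ^ 4) s (Nat.one_le_pow _ _ hq)
    push_cast at h
    have h1 : Real.sqrt (5 / (q : ℝ) ^ 4) ≤ (9 / 4) / (q : ℝ) ^ 2 := by
      rw [show (9 / 4 : ℝ) / (q : ℝ) ^ 2 = Real.sqrt (((9 / 4) / (q : ℝ) ^ 2) ^ 2) from
        (Real.sqrt_sq (by positivity)).symm]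
      refine Real.sqrt_le_sqrt ?_
      rw [div_pow, ← pow_mul]
      refine div_le_div_of_nonneg_right ?_ (by positivity)
      norm_num
    have h2 : Poly79.RS μ P n F (q ^ 4) s ^ 2
        ≤ ((3 / 2) * (q : ℝ) ^ 3 * Poly79.WW μ P n F) ^ 2 := by
      calc _ ≤ ((q : ℝ) ^ 4) ^ 2 * Poly79.WW μ P n F ^ 2 * Real.sqrt (5 / (q : ℝ) ^ 4) := h
        _ ≤ ((q : ℝ) ^ 4) ^ 2 * Poly79.WW μ P n F ^ 2 * ((9 / 4) / (q : ℝ) ^ 2) :=
            mul_le_mul_of_nonneg_left h1 (by positivity)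
        _ = _ := by
            field_simp
            ring
    exact (le_abs_self _).trans (abs_le_of_sq_le_sq h2 (by positivity))

end Vale.Agent.P125.Poly62
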