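import Vale.Agent.P125.Poly.Defs_79
import Vale.Agent.P125.Poly.StepC_62

set_option linter.unusedSectionVars false
set_option linter.unusedVariables false

/-! # P125 polynomial rate, path-free form (board 624): step (C)-(F): the drift bound

Proved by helper62 (`Poly/StepC_62.lean`, from his own chain `Rs_62`). -/

namespace Vale.Agent.P125.Poly79

open scoped BigOperators
open Vale.Agent.P125.Dich Vale.Agent.P125.BV

variable {S : Type} [Fintype S] [DecidableEq S]

theorem stepC {μ : S → ℝ} {P : Matrix S S ℝ} (hc : IsChain μ P) (n : ℕ) (F : ℕ → S → ℝ)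
    (hF0 : ∀ x, F 0 x = 0) (q s : ℕ) :
    RS μ P n F (q ^ 4) s ≤ (3 / 2) * (q : ℝ) ^ 3 * WW μ P n F :=
  Vale.Agent.P125.Poly62.stepC_62 hc n F hF0 q s

end Vale.Agent.P125.Poly79
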