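import Vale.Agent.P125.Poly.Defs_79
import Vale.Agent.P125.Poly.ApiC_79
import Vale.Agent.P125.Poly.StepA_79
import Vale.Agent.P125.Poly.StepB_79
import Vale.Agent.P125.Poly.StepC_79

set_option linter.unusedSectionVars false
set_option linter.unusedVariables false

/-! # P125 polynomial rate, path-free form (board 624): the main inequality -/

namespace Vale.Agent.P125.Poly79

open scoped BigOperators
open Vale.Agent.P125.Dich Vale.Agent.P125.BV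

variable {S : Type} [Fintype S] [DecidableEq S]

/-- every `r < t ≤ q^6` is `q^4 * m + r'` with `m ≤ q^2`, `r' < q^4`; stepB + stepC give
`QQ r ≤ (q^5 + q^4 + (3/2) q^5) W ≤ (7/2) q^5 W`; stepA. -/
theorem QQ_le {μ : S → ℝ} {P : Matrix S S ℝ} (hc : IsChain μ P) (n : ℕ) (F : ℕ → S → ℝ)
    (hF0 : ∀ x, F 0 x = 0) (q r : ℕ) (hq : 1 ≤ q) (hr : r ≤ q ^ 6) :
    QQ μ P n F r ≤ (7 / 2) * (q : ℝ) ^ 5 * WW μ P n F := by
  have hW := WW_nonneg hc n F
  have hτ : 0 < q ^ 4 := by positivity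
  have hdecomp : q ^ 4 * (r / q ^ 4) + r % q ^ 4 = r := Nat.div_add_mod r (q ^ 4)
  have hm : r / q ^ 4 ≤ q ^ 2 := by
    apply Nat.div_le_of_le_mul
    calc r ≤ q ^ 6 := hr
      _ = q ^ 4 * q ^ 2 := by ring
  have hr' : r % q ^ 4 ≤ q ^ 4 := (Nat.mod_lt r hτ).le
  have hB := stepB hc n F hF0 (q ^ 4) (r / q ^ 4) (r % q ^ 4) q hr' hm
  rw [hdecomp] at hB
  have hsum : ∑ i ∈ Finset.range (r / q ^ 4), RS μ P n F (q ^ 4) (q ^ 4 * i)
      ≤ (q : ℝ) ^ 2 * ((3 / 2) * (q : ℝ) ^ 3 * WW μ P n F) := by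
    calc ∑ i ∈ Finset.range (r / q ^ 4), RS μ P n F (q ^ 4) (q ^ 4 * i)
        ≤ ∑ i ∈ Finset.range (r / q ^ 4), (3 / 2) * (q : ℝ) ^ 3 * WW μ P n F :=
          Finset.sum_le_sum (fun i _ => stepC hc n F hF0 q (q ^ 4 * i))
      _ = ((r / q ^ 4 : ℕ) : ℝ) * ((3 / 2) * (q : ℝ) ^ 3 * WW μ P n F) := by
          rw [Finset.sum_const, Finset.card_range, nsmul_eq_mul]
      _ ≤ (q : ℝ) ^ 2 * ((3 / 2) * (q : ℝ) ^ 3 * WW μ P n F) := by
          refine mul_le_mul_of_nonneg_right ?_ (by positivity)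
          exact_mod_cast hm
  have hq1 : (1 : ℝ) ≤ q := by exact_mod_cast hq
  have h45 : (q : ℝ) ^ 4 ≤ (q : ℝ) ^ 5 := pow_le_pow_right₀ hq1 (by norm_num)
  have h45W := mul_le_mul_of_nonneg_right h45 hW
  push_cast at hB
  nlinarith [hB, hsum, h45W]

theorem poly_profile {μ : S → ℝ} {P : Matrix S S ℝ} (hc : IsChain μ P) (n : ℕ) (F : ℕ → S → ℝ)
    (hF0 : ∀ x, F 0 x = 0) (t q : ℕ) (hq : 1 ≤ q) (ht : t ≤ q ^ 6) (κ : S → S → ℕ)
    (hκ : ∀ a d, κ a d ≤ n) :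
    ∑ a, ∑ d, μ a * (P ^ t) a d * (F (κ a d) d - F (κ a d) a) ^ 2 ≤
      (2 * (t : ℝ) + 14 * (t : ℝ) * (q : ℝ) ^ 5) * WW μ P n F := by
  have hW := WW_nonneg hc n F
  have hA := stepA hc n F hF0 t κ hκ
  have hsum : ∑ k ∈ Finset.range t, (QQ μ P n F (t - 1 - k) + QQ μ P n F k)
      ≤ (t : ℝ) * (7 * (q : ℝ) ^ 5 * WW μ P n F) := by
    calc ∑ k ∈ Finset.range t, (QQ μ P n F (t - 1 - k) + QQ μ P n F k)
        ≤ ∑ k ∈ Finset.range t, (7 * (q : ℝ) ^ 5 * WW μ P n F) := by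
          refine Finset.sum_le_sum (fun k hk => ?_)
          have hk' : k < t := Finset.mem_range.mp hk
          have h1 := QQ_le hc n F hF0 q (t - 1 - k) hq (by omega)
          have h2 := QQ_le hc n F hF0 q k hq (by omega)
          linarith
      _ = (t : ℝ) * (7 * (q : ℝ) ^ 5 * WW μ P n F) := by
          rw [Finset.sum_const, Finset.card_range, nsmul_eq_mul]
  nlinarith [hA, hsum]

end Vale.Agent.P125.Poly79
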