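import Vale.Agent.P125.Poly.Defs_79
import Vale.Agent.P125.Poly.Main_79

set_option linter.unusedSectionVars false
set_option linter.unusedVariables false

/-! # P125 polynomial rate, path-free form (board 624): function form -/

namespace Vale.Agent.P125.Poly79

open scoped BigOperators
open Vale.Agent.P125.Dich Vale.Agent.P125.BV

variable {S : Type} [Fintype S] [DecidableEq S]

private lemma pre_sub64 {n : ℕ} (u v : Fin n → ℝ) (k : ℕ) : pre (u - v) k = pre u k - pre v k := by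
  rw [sub_eq_add_neg, pre_add, pre_neg]
  simp [sub_eq_add_neg]

private lemma exists_supJ64 (n : ℕ) (h : ℕ → ℝ) : ∃ k, k ≤ n ∧ supJ n h = |h k| := by
  unfold supJ
  obtain ⟨k, hk, hk'⟩ := Finset.exists_mem_eq_sup' (s := Finset.range (n + 1)) ⟨0, by simp⟩
    (fun k => |h k|)
  exact ⟨k, Nat.lt_succ_iff.1 (Finset.mem_range.1 hk), hk'⟩

/-- `F j x := pre (f x) j`, `κ a d` = a maximiser in `supJ`, `ll n F a b = n1 (f b - f a)` (tv_pre). -/
theorem poly_fun {μ : S → ℝ} {P : Matrix S S ℝ} (hc : IsChain μ P) (n : ℕ) (f : S → Fin n → ℝ)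
    (t q : ℕ) (hq : 1 ≤ q) (ht : t ≤ q ^ 6) :
    ∑ i, ∑ j, μ i * (P ^ t) i j * supJ n (pre (f j - f i)) ^ 2 ≤
      (2 * (t : ℝ) + 14 * (t : ℝ) * (q : ℝ) ^ 5) * ∑ i, ∑ j, μ i * P i j * n1 (f j - f i) ^ 2 := by
  classical
  set F : ℕ → S → ℝ := fun j x => pre (f x) j with hF
  have hF0 : ∀ x, F 0 x = 0 := by
    intro x
    simp [hF, pre]
  choose κ hκ1 hκ2 using fun a d : S => exists_supJ64 n (pre (f d - f a))
  have key := poly_profile hc n F hF0 t q hq ht κ hκ1
  have e1 : ∀ a d : S, (F (κ a d) d - F (κ a d) a) ^ 2 = supJ n (pre (f d - f a)) ^ 2 := by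
    intro a d
    rw [hκ2 a d, sq_abs, pre_sub64]
  have e2 : ∀ a b : S, ll n F a b = n1 (f b - f a) := by
    intro a b
    rw [← tv_pre]
    unfold ll tv dd
    refine Finset.sum_congr rfl fun k _ => ?_
    rw [pre_sub64, pre_sub64]
    congr 1
    simp only [hF]
    ring
  have e3 : WW μ P n F = ∑ i, ∑ j, μ i * P i j * n1 (f j - f i) ^ 2 := by
    unfold WW
    refine Finset.sum_congr rfl fun a _ => Finset.sum_congr rfl fun b _ => ?_
    rw [e2]
  rw [e3] at key
  simp only [e1] at key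
  exact key

end Vale.Agent.P125.Poly79
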