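import Mathlib

set_option linter.unusedSectionVars false
set_option linter.unusedVariables false

/-!
# P125 Poly: the own measure integral dominates the quadratic variation (James norm)

For a sequence `G` with `G 0 = 0` and increments `v i = G (i+1) - G i`, the sum of the squares of
the increments of `G` along ANY increasing sequence of cut points is at most
`8 * sum_i |v i| * |G (i+1)|`.
-/

namespace Vale.Agent.P125.Poly7

open scoped BigOperators

/-- primitive of `|x|` -/
noncomputable def psi (x : ℝ) : ℝ := x * |x| / 2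

lemma sq_le_psi (a b : ℝ) : (b - a) ^ 2 ≤ 4 * |psi b - psi a| := by
  unfold psi
  have h1 := le_abs_self (b * |b| / 2 - a * |a| / 2)
  have h2 := neg_le_abs (b * |b| / 2 - a * |a| / 2)
  rcases le_total 0 a with ha | ha <;> rcases le_total 0 b with hb | hb
  · rw [abs_of_nonneg ha, abs_of_nonneg hb] at h1 h2 ⊢
    rcases le_total a b with h | h
    · nlinarith [mul_nonneg (sub_nonneg.2 h) ha]
    · nlinarith [mul_nonneg (sub_nonneg.2 h) hb]
  · rw [abs_of_nonneg ha, abs_of_nonpos hb] at h1 h2 ⊢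
    nlinarith [sq_nonneg (a + b)]
  · rw [abs_of_nonpos ha, abs_of_nonneg hb] at h1 h2 ⊢
    nlinarith [sq_nonneg (a + b)]
  · rw [abs_of_nonpos ha, abs_of_nonpos hb] at h1 h2 ⊢
    rcases le_total a b with h | h
    · nlinarith [mul_nonneg (sub_nonneg.2 h) (neg_nonneg.2 hb)]
    · nlinarith [mul_nonneg (sub_nonneg.2 h) (neg_nonneg.2 ha)]

lemma psi_lip (a b : ℝ) : |psi b - psi a| ≤ |b - a| * (|a| + |b|) / 2 := by
  unfold psi
  rw [abs_le]
  rcases le_total 0 a with ha | ha <;> rcases le_total 0 b with hb | hb <;>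
    rcases le_total a b with h | h
  all_goals
    first
    | (rw [abs_of_nonneg ha, abs_of_nonneg hb, abs_of_nonneg (sub_nonneg.2 h)]
       constructor <;> nlinarith)
    | (rw [abs_of_nonneg ha, abs_of_nonneg hb, abs_of_nonpos (sub_nonpos.2 h)]
       constructor <;> nlinarith)
    | (rw [abs_of_nonneg ha, abs_of_nonpos hb, abs_of_nonneg (sub_nonneg.2 h)]
       constructor <;> nlinarith)
    | (rw [abs_of_nonneg ha, abs_of_nonpos hb, abs_of_nonpos (sub_nonpos.2 h)]
       constructor <;> nlinarith)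
    | (rw [abs_of_nonpos ha, abs_of_nonneg hb, abs_of_nonneg (sub_nonneg.2 h)]
       constructor <;> nlinarith)
    | (rw [abs_of_nonpos ha, abs_of_nonneg hb, abs_of_nonpos (sub_nonpos.2 h)]
       constructor <;> nlinarith)
    | (rw [abs_of_nonpos ha, abs_of_nonpos hb, abs_of_nonneg (sub_nonneg.2 h)]
       constructor <;> nlinarith)
    | (rw [abs_of_nonpos ha, abs_of_nonpos hb, abs_of_nonpos (sub_nonpos.2 h)]
       constructor <;> nlinarith)

lemma abs_sub_le_Ico (g : ℕ → ℝ) {x y : ℕ} (h : x ≤ y) :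
    |g y - g x| ≤ ∑ j ∈ Finset.Ico x y, |g (j + 1) - g j| := by
  induction y, h using Nat.le_induction with
  | base => simp
  | succ y hxy ih =>
    rw [Finset.sum_Ico_succ_top hxy]
    calc |g (y + 1) - g x| = |(g y - g x) + (g (y + 1) - g y)| := by ring_nf
      _ ≤ |g y - g x| + |g (y + 1) - g y| := abs_add_le _ _
      _ ≤ _ := by linarith

lemma sum_blocks (c : ℕ → ℝ) (κ : ℕ → ℕ) (hκ : Monotone κ) (m : ℕ) :
    ∑ a ∈ Finset.range m, ∑ i ∈ Finset.Ico (κ a) (κ (a + 1)), c i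
      = ∑ i ∈ Finset.Ico (κ 0) (κ m), c i := by
  induction m with
  | zero => simp
  | succ m ih =>
    rw [Finset.sum_range_succ, ih,
      Finset.sum_Ico_consecutive c (hκ (Nat.zero_le m)) (hκ (Nat.le_succ m))]

lemma sum_sq_le_own (G : ℕ → ℝ) (h0 : G 0 = 0) (N : ℕ) :
    ∑ i ∈ Finset.range N, (G (i + 1) - G i) ^ 2
      ≤ 2 * ∑ i ∈ Finset.range N, |G (i + 1) - G i| * |G (i + 1)| := by
  have h1 : ∑ i ∈ Finset.range N, (G (i + 1) ^ 2 - G i ^ 2) = G N ^ 2 - G 0 ^ 2 :=
    Finset.sum_range_sub (fun i => G i ^ 2) N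
  have h2 : ∀ i ∈ Finset.range N, (G (i + 1) - G i) ^ 2 + (G (i + 1) ^ 2 - G i ^ 2)
      ≤ 2 * (|G (i + 1) - G i| * |G (i + 1)|) := by
    intro i _
    have := le_abs_self ((G (i + 1) - G i) * G (i + 1))
    rw [abs_mul] at this
    nlinarith
  have h3 := Finset.sum_le_sum h2
  rw [Finset.sum_add_distrib, h1, h0, ← Finset.mul_sum] at h3
  nlinarith [sq_nonneg (G N)]

/-- the quadratic variation along any increasing sequence of cut points -/
theorem qv_nat (G : ℕ → ℝ) (h0 : G 0 = 0) (κ : ℕ → ℕ) (hκ : Monotone κ) (m N : ℕ)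
    (hN : κ m ≤ N) :
    ∑ a ∈ Finset.range m, (G (κ (a + 1)) - G (κ a)) ^ 2
      ≤ 8 * ∑ i ∈ Finset.range N, |G (i + 1) - G i| * |G (i + 1)| := by
  set c : ℕ → ℝ := fun i => |psi (G (i + 1)) - psi (G i)| with hc
  have s1 : ∀ a ∈ Finset.range m, (G (κ (a + 1)) - G (κ a)) ^ 2
      ≤ 4 * ∑ i ∈ Finset.Ico (κ a) (κ (a + 1)), c i := by
    intro a _
    have e1 := sq_le_psi (G (κ a)) (G (κ (a + 1)))
    have e2 := abs_sub_le_Ico (fun i => psi (G i)) (hκ (Nat.le_succ a))
    linarith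
  have s2 := Finset.sum_le_sum s1
  rw [← Finset.mul_sum, sum_blocks c κ hκ m] at s2
  have s3 : ∑ i ∈ Finset.Ico (κ 0) (κ m), c i ≤ ∑ i ∈ Finset.range N, c i := by
    apply Finset.sum_le_sum_of_subset_of_nonneg
    · intro j hj
      exact Finset.mem_range.2 (lt_of_lt_of_le (Finset.mem_Ico.1 hj).2 hN)
    · intro _ _ _
      exact abs_nonneg _
  have s4 : ∀ i ∈ Finset.range N, c i
      ≤ |G (i + 1) - G i| * |G (i + 1)| + (G (i + 1) - G i) ^ 2 / 2 := by
    intro i _
    have e1 := psi_lip (G i) (G (i + 1))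
    have e2 : |G i| ≤ |G (i + 1)| + |G (i + 1) - G i| := by
      have : G i = G (i + 1) - (G (i + 1) - G i) := by ring
      calc |G i| = |G (i + 1) - (G (i + 1) - G i)| := by rw [← this]
        _ ≤ |G (i + 1)| + |G (i + 1) - G i| := abs_sub _ _
    have e3 : |G (i + 1) - G i| ^ 2 = (G (i + 1) - G i) ^ 2 := sq_abs _
    have e4 := abs_nonneg (G (i + 1) - G i)
    show |psi (G (i + 1)) - psi (G i)| ≤ _
    nlinarith
  have s5 := Finset.sum_le_sum s4
  rw [Finset.sum_add_distrib, ← Finset.sum_div] at s5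
  have s6 := sum_sq_le_own G h0 N
  linarith

end Vale.Agent.P125.Poly7
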