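import Vale.Agent.P125.Poly.All_10
import Vale.Agent.P125.Poly.JDet_10

set_option linter.unusedSectionVars false
set_option linter.unusedVariables false

/-!
# P125 Poly: the polynomial rate for the James (quadratic variation) norm of the running sums
-/

namespace Vale.Agent.P125.Poly

open scoped BigOperators
open Vale.Agent.P125.Dich

theorem stQ_10 : StQ :=
  have hs : StSmall := stSmall_93
  have hlib : StLib := stLib_75
  have hown : StOwn := stOwn_33
  have hownT : StOwnT := stOwnT_27 hown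
  have hblk : StBlk := stBlk_10 hlib hs (stTriv2_85 hs) stSqrt_33
  have hrem : StRem := stRem_10 hs (stTriv1_69 hs)
  have hxi : StXi := stXi_87 hs (stEn_56 hs) (stBB_38 hs)
  have hR : StR := stR_14 hs stDual_68 (stDown_73 hownT hs) (stBack_88 hs) hxi
  stQ_64 hs hrem hblk hR

/-- the own measure quantity is bounded by the `Q` sums -/
theorem own_le_10 {S : Type} [Fintype S] [DecidableEq S] {μ : S → ℝ} {P : Matrix S S ℝ}
    (hc : IsChain μ P) {n : ℕ} (f : S → Fin n → ℝ) (t : ℕ) :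
    ∑ k, ∑ x, ∑ y, μ x * (P ^ t) x y * (|f y k - f x k| * |F f k y - F f k x|) ≤
      (t : ℝ) * U μ P f + 2 * ∑ r ∈ Finset.range t, Qsum μ P f r := by
  have hA : ∀ k, ∑ x, ∑ y, μ x * (P ^ t) x y * (|f y k - f x k| * |F f k y - F f k x|) ≤
      (t : ℝ) * (∑ a, ∑ b, μ a * P a b * (|f b k - f a k| * |F f k b - F f k a|))
        + 2 * ∑ r ∈ Finset.range t, Qk μ P f r k := by
    intro k
    have h := Poly10.stepA hc (fun x => f x k) (F f k) t
    simp only [Qk_eq_10 hc] at h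
    exact h
  have hD : ∑ k, ∑ a, ∑ b, μ a * P a b * (|f b k - f a k| * |F f k b - F f k a|) ≤ U μ P f := by
    unfold U
    rw [Finset.sum_comm]
    refine Finset.sum_le_sum fun a _ => ?_
    rw [Finset.sum_comm]
    refine Finset.sum_le_sum fun b _ => ?_
    rw [← Finset.mul_sum]
    refine mul_le_mul_of_nonneg_left ?_ (mul_nonneg (hc.1 a) (hc.2.2.1 a b))
    have h2 : ∑ k, |f b k - f a k| * |F f k b - F f k a| ≤ ∑ k, |f b k - f a k| * ell f a b :=
      Finset.sum_le_sum fun k _ =>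
        mul_le_mul_of_nonneg_left (F_sub_le_10 f k a b) (abs_nonneg _)
    refine h2.trans (le_of_eq ?_)
    rw [← Finset.sum_mul, sq]
    rfl
  refine (Finset.sum_le_sum fun k _ => hA k).trans ?_
  rw [Finset.sum_add_distrib, ← Finset.mul_sum, ← Finset.mul_sum]
  have e : ∑ k, ∑ r ∈ Finset.range t, Qk μ P f r k = ∑ r ∈ Finset.range t, Qsum μ P f r := by
    rw [Finset.sum_comm]
    rfl
  rw [e]
  have := mul_le_mul_of_nonneg_left hD (Nat.cast_nonneg t : (0 : ℝ) ≤ t)
  linarith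

/-- the scalar end -/
theorem rhs_le_10 {S : Type} [Fintype S] [DecidableEq S] {μ : S → ℝ} {P : Matrix S S ℝ}
    (hc : IsChain μ P) {n : ℕ} (f : S → Fin n → ℝ) (t : ℕ) (ht : 1 ≤ t) :
    2 * (t : ℝ) * U μ P f + 4 * ∑ r ∈ Finset.range t, Qsum μ P f r ≤
      24 * (t : ℝ) ^ (11 / 6 : ℝ) * U μ P f := by
  have L := stLib_75 S μ P hc
  obtain ⟨-, -, -, -, -, -, hU, -⟩ := stSmall_93 S μ P hc L n f
  obtain ⟨τ, hτ, hsc⟩ := scalar_g10 t ht
  have hq := stQ_10 S μ P hc L n f τ
  obtain ⟨K, hK⟩ : ∃ K : ℝ, K = Real.sqrt (t * τ) + τ + (3 / 2) * t * (τ : ℝ) ^ (-(1 / 4) : ℝ) :=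
    ⟨_, rfl⟩
  have hτ0 : (0 : ℝ) ≤ (τ : ℝ) ^ (-(1 / 4) : ℝ) := Real.rpow_nonneg (by positivity) _
  have hb : ∀ r : ℕ, r ≤ t → Qsum μ P f r ≤ K * U μ P f := by
    intro r hr
    refine (hq r hτ).trans ?_
    refine mul_le_mul_of_nonneg_right ?_ hU
    rw [hK]
    have hr' : (r : ℝ) ≤ t := by exact_mod_cast hr
    have h1 : Real.sqrt (r * τ) ≤ Real.sqrt (t * τ) :=
      Real.sqrt_le_sqrt (mul_le_mul_of_nonneg_right hr' (by positivity))
    have h3 : (3 / 2) * (r : ℝ) * (τ : ℝ) ^ (-(1 / 4) : ℝ) ≤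
        (3 / 2) * (t : ℝ) * (τ : ℝ) ^ (-(1 / 4) : ℝ) :=
      mul_le_mul_of_nonneg_right (by linarith) hτ0
    linarith
  have hsum : ∑ r ∈ Finset.range t, Qsum μ P f r ≤ ∑ r ∈ Finset.range t, (K * U μ P f) := by
    refine Finset.sum_le_sum fun r hr => ?_
    have hr' := Finset.mem_range.mp hr
    exact hb r (by omega)
  rw [Finset.sum_const, Finset.card_range, nsmul_eq_mul] at hsum
  rw [← hK] at hsc
  have := mul_le_mul_of_nonneg_right hsc hU
  nlinarith [hsum, this]

/-- running sums of a vector, indexed by natural numbers -/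
def run {n : ℕ} (v : Fin n → ℝ) (k : ℕ) : ℝ := ∑ l : Fin n, if l.val < k then v l else 0

theorem run_zero {n : ℕ} (v : Fin n → ℝ) : run v 0 = 0 := by
  unfold run
  simp

theorem run_succ_sub {n : ℕ} (v : Fin n → ℝ) (k : Fin n) :
    run v (k.val + 1) - run v k.val = v k := by
  unfold run
  rw [← Finset.sum_sub_distrib]
  have : ∀ l : Fin n, ((if l.val < k.val + 1 then v l else 0) - (if l.val < k.val then v l else 0))
      = if l = k then v l else 0 := by
    intro l
    by_cases h1 : l = k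
    · subst h1
      simp
    · have h2 : l.val ≠ k.val := fun h => h1 (Fin.ext h)
      by_cases h3 : l.val < k.val
      · rw [if_pos h3, if_pos (by omega), if_neg h1]
        ring
      · rw [if_neg h3, if_neg (by omega), if_neg h1]
        ring
  rw [Finset.sum_congr rfl fun l _ => this l, Finset.sum_ite_eq']
  simp

theorem run_succ_eq {S : Type} {n : ℕ} (f : S → Fin n → ℝ) (k : Fin n) (x y : S) :
    run (fun l => f y l - f x l) (k.val + 1) = F f k y - F f k x := by
  rw [F_sub_10]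
  unfold run
  refine Finset.sum_congr rfl fun l _ => ?_
  have : l.val < k.val + 1 ↔ l ≤ k := by
    rw [Fin.le_def]
    omega
  by_cases h : l ≤ k
  · rw [if_pos h, if_pos (this.2 h)]
  · rw [if_neg h, if_neg (fun h' => h (this.1 h'))]

theorem james_core_10 {S : Type} [Fintype S] [DecidableEq S] {μ : S → ℝ} {P : Matrix S S ℝ}
    (hc : IsChain μ P) {n : ℕ} (f : S → Fin n → ℝ) (t : ℕ) (ht : 1 ≤ t)
    (m : S → S → ℕ) (p : S → S → ℕ → ℕ) (hp : ∀ i j, Monotone (p i j))
    (hpn : ∀ i j, p i j (m i j) ≤ n) :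
    ∑ i, ∑ j, μ i * (P ^ t) i j * ∑ r ∈ Finset.range (m i j),
        (run (fun l => f j l - f i l) (p i j (r + 1)) - run (fun l => f j l - f i l) (p i j r)) ^ 2
      ≤ 96 * (t : ℝ) ^ (11 / 6 : ℝ) * U μ P f := by
  have hct : IsChain μ (P ^ t) := isChain_pow hc t
  have hpt : ∀ i j, ∑ r ∈ Finset.range (m i j),
      (run (fun l => f j l - f i l) (p i j (r + 1)) - run (fun l => f j l - f i l) (p i j r)) ^ 2
      ≤ 8 * ∑ k, (|f j k - f i k| * |F f k j - F f k i|) := by
    intro i j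
    have h := james_det_10 (run (fun l => f j l - f i l)) (run_zero _) n (m i j) (p i j) (hp i j)
      (hpn i j)
    rw [Finset.sum_range (n := n) (fun k => |run (fun l => f j l - f i l) (k + 1) -
      run (fun l => f j l - f i l) k| * |run (fun l => f j l - f i l) (k + 1)|)] at h
    refine h.trans (le_of_eq ?_)
    congr 1
    refine Finset.sum_congr rfl fun k _ => ?_
    rw [run_succ_sub, run_succ_eq]
  have h1 : ∑ i, ∑ j, μ i * (P ^ t) i j * ∑ r ∈ Finset.range (m i j),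
      (run (fun l => f j l - f i l) (p i j (r + 1)) - run (fun l => f j l - f i l) (p i j r)) ^ 2
      ≤ 8 * ∑ k, ∑ x, ∑ y, μ x * (P ^ t) x y * (|f y k - f x k| * |F f k y - F f k x|) := by
    have e : 8 * ∑ k, ∑ x, ∑ y, μ x * (P ^ t) x y * (|f y k - f x k| * |F f k y - F f k x|)
        = ∑ x, ∑ y, μ x * (P ^ t) x y * (8 * ∑ k, (|f y k - f x k| * |F f k y - F f k x|)) := by
      rw [Finset.sum_comm, Finset.mul_sum]
      refine Finset.sum_congr rfl fun x _ => ?_
      rw [Finset.sum_comm, Finset.mul_sum]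
      refine Finset.sum_congr rfl fun y _ => ?_
      rw [← Finset.mul_sum]
      ring
    rw [e]
    refine Finset.sum_le_sum fun x _ => Finset.sum_le_sum fun y _ => ?_
    exact mul_le_mul_of_nonneg_left (hpt x y) (mul_nonneg (hc.1 x) (hct.2.2.1 x y))
  have h2 := own_le_10 hc f t
  have h3 := rhs_le_10 hc f t ht
  linarith

/-- plain statement -/
theorem james_plain_10 : ∀ t : ℕ, 1 ≤ t →
    ∀ (n : ℕ) (S : Type) [Fintype S] [DecidableEq S] (μ : S → ℝ) (P : Matrix S S ℝ),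
      (∀ i, 0 ≤ μ i) → ∑ i, μ i = 1 → (∀ i j, 0 ≤ P i j) → (∀ i, ∑ j, P i j = 1) →
      (∀ i j, μ i * P i j = μ j * P j i) → ∀ f : S → Fin n → ℝ,
      ∀ (m : S → S → ℕ) (p : S → S → ℕ → ℕ), (∀ i j, Monotone (p i j)) →
        (∀ i j, p i j (m i j) ≤ n) →
        ∑ i, ∑ j, μ i * (P ^ t) i j * ∑ r ∈ Finset.range (m i j),
            ((∑ l : Fin n, if l.val < p i j (r + 1) then f j l - f i l else 0) -
              (∑ l : Fin n, if l.val < p i j r then f j l - f i l else 0)) ^ 2 ≤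
          96 * (t : ℝ) ^ (11 / 6 : ℝ) *
            ∑ i, ∑ j, μ i * P i j * (∑ l : Fin n, |f j l - f i l|) ^ 2 := by
  intro t ht n S _ _ μ P h0 h1 h2 h3 h4 f m p hp hpn
  exact james_core_10 (⟨h0, h1, h2, h3, h4⟩ : IsChain μ P) f t ht m p hp hpn

end Vale.Agent.P125.Poly
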