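import Mathlib
import Vale.Agent.P125.Poly.All_27

/-!
# P125 Poly: the polynomial rate for the JAMES (quadratic variation) norm instead of the sup norm

Idea of helper91 (board 799): with `psi h = h |h|` one has `(b - a)^2 <= 2 |psi b - psi a|` and
`|psi b - psi a| <= 4 |b - a| |b| + a^2 - b^2`, so the quadratic variation of the sequence of
initial sums is at most 8 times the own-measure quantity which the proof of the rate bounds.
Race copy of helper27, on top of the closure of `Poly/All_27`.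
-/

namespace Vale.Agent.P125.Poly

open scoped BigOperators
open Vale.Agent.P125.Dich

set_option linter.unusedSectionVars false
set_option linter.unusedVariables false

private lemma psiA_27 (a b : ℝ) : (b - a) ^ 2 ≤ 2 * abs (b * |b| - a * |a|) := by
  have h1 := le_abs_self (b * |b| - a * |a|)
  have h2 := neg_abs_le (b * |b| - a * |a|)
  rcases le_total 0 a with ha | ha <;> rcases le_total 0 b with hb | hb
  · rw [abs_of_nonneg ha, abs_of_nonneg hb] at h1 h2 ⊢
    rcases le_total a b with hab | hab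
    · nlinarith [mul_nonneg (sub_nonneg.2 hab) (by linarith : (0 : ℝ) ≤ b + 3 * a)]
    · nlinarith [mul_nonneg (sub_nonneg.2 hab) (by linarith : (0 : ℝ) ≤ a + 3 * b)]
  · rw [abs_of_nonneg ha, abs_of_nonpos hb] at h1 h2 ⊢
    nlinarith [sq_nonneg (a + b)]
  · rw [abs_of_nonpos ha, abs_of_nonneg hb] at h1 h2 ⊢
    nlinarith [sq_nonneg (a + b)]
  · rw [abs_of_nonpos ha, abs_of_nonpos hb] at h1 h2 ⊢
    rcases le_total a b with hab | hab
    · nlinarith [mul_nonneg (sub_nonneg.2 hab) (by linarith : (0 : ℝ) ≤ -a - 3 * b)]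
    · nlinarith [mul_nonneg (sub_nonneg.2 hab) (by linarith : (0 : ℝ) ≤ -3 * a - b)]

private lemma psiB_27 (a b : ℝ) :
    abs (b * |b| - a * |a|) ≤ 4 * (|b - a| * |b|) + (a ^ 2 - b ^ 2) := by
  have hY0 : 0 ≤ |b - a| * |b| := mul_nonneg (abs_nonneg _) (abs_nonneg _)
  have hY1 : (b - a) * b ≤ |b - a| * |b| := by
    rw [← abs_mul]; exact le_abs_self _
  rw [abs_le]
  rcases le_total 0 a with ha | ha <;> rcases le_total 0 b with hb | hb
  · rw [abs_of_nonneg ha, abs_of_nonneg hb] at *
    constructor <;> nlinarith [sq_nonneg (a - b)]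
  · have e1 : a * |a| = a * a := by rw [abs_of_nonneg ha]
    have e2 : b * |b| = -(b * b) := by rw [abs_of_nonpos hb]; ring
    rw [e1, e2]
    constructor <;> nlinarith [sq_nonneg (a - b), mul_nonneg ha (neg_nonneg.2 hb)]
  · have e1 : a * |a| = -(a * a) := by rw [abs_of_nonpos ha]; ring
    have e2 : b * |b| = b * b := by rw [abs_of_nonneg hb]
    rw [e1, e2]
    constructor <;> nlinarith [sq_nonneg (a - b), mul_nonneg hb (neg_nonneg.2 ha)]
  · have e1 : a * |a| = -(a * a) := by rw [abs_of_nonpos ha]; ring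
    have e2 : b * |b| = -(b * b) := by rw [abs_of_nonpos hb]; ring
    rw [e1, e2]
    constructor <;> nlinarith [sq_nonneg (a - b)]

/-- pointwise: quadratic variation along any monotone sequence of indices is at most
8 times the own-measure quantity -/
theorem james_pt_27 (G : ℕ → ℝ) (hG0 : G 0 = 0) (m : ℕ) (p : ℕ → ℕ) (hp : Monotone p) :
    ∑ r ∈ Finset.range m, (G (p (r + 1)) - G (p r)) ^ 2 ≤
      8 * ∑ k ∈ Finset.range (p m), |G (k + 1) - G k| * |G (k + 1)| := by
  set ψ : ℕ → ℝ := fun k => G k * |G k| with hψ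
  set T : ℕ → ℝ := fun j => ∑ k ∈ Finset.range j, |ψ (k + 1) - ψ k| with hT
  have hT0 : ∀ j, 0 ≤ T j := fun j => Finset.sum_nonneg fun k _ => abs_nonneg _
  have hC : ∀ a b, a ≤ b → |ψ b - ψ a| ≤ T b - T a := by
    intro a b hab
    induction b, hab using Nat.le_induction with
    | base => simp
    | succ b hab ih =>
      have e : T (b + 1) = T b + |ψ (b + 1) - ψ b| := by
        simp only [hT]; rw [Finset.sum_range_succ]
      have h3 := abs_add_le (ψ (b + 1) - ψ b) (ψ b - ψ a)
      have e2 : ψ (b + 1) - ψ b + (ψ b - ψ a) = ψ (b + 1) - ψ a := by ring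
      rw [e2] at h3
      linarith
  have h1 : ∑ r ∈ Finset.range m, (G (p (r + 1)) - G (p r)) ^ 2 ≤
      ∑ r ∈ Finset.range m, 2 * (T (p (r + 1)) - T (p r)) := by
    refine Finset.sum_le_sum fun r _ => ?_
    have := psiA_27 (G (p r)) (G (p (r + 1)))
    have h4 := hC (p r) (p (r + 1)) (hp (Nat.le_succ r))
    simp only [hψ] at h4
    linarith
  have h2 : ∑ r ∈ Finset.range m, 2 * (T (p (r + 1)) - T (p r)) = 2 * (T (p m) - T (p 0)) := by
    rw [← Finset.mul_sum, Finset.sum_range_sub (fun r => T (p r)) m]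
  have h3 : T (p m) ≤ 4 * ∑ k ∈ Finset.range (p m), |G (k + 1) - G k| * |G (k + 1)| := by
    have h5 : T (p m) ≤ ∑ k ∈ Finset.range (p m),
        (4 * (|G (k + 1) - G k| * |G (k + 1)|) + (G k ^ 2 - G (k + 1) ^ 2)) := by
      simp only [hT]
      exact Finset.sum_le_sum fun k _ => psiB_27 (G k) (G (k + 1))
    rw [Finset.sum_add_distrib, ← Finset.mul_sum,
      Finset.sum_range_sub' (fun k => G k ^ 2) (p m), hG0] at h5
    nlinarith [sq_nonneg (G (p m))]
  have := hT0 (p 0)
  linarith

/-- the energy of the own-measure quantity -/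
theorem ownE_27 (h2 : StTel) (h3 : StCol) (S : Type) [Fintype S] [DecidableEq S] (μ : S → ℝ)
    (P : Matrix S S ℝ) (hc : IsChain μ P) (L : Lib μ P) (n : ℕ) (f : S → Fin n → ℝ) (t : ℕ) :
    ∑ x, ∑ y, μ x * (P ^ t) x y * (∑ k, w f x y k * |F f k y - F f k x|) ≤
      t * U μ P f + ∑ r ∈ Finset.range t, (Qsum μ P f (t - 1 - r) + Qsum μ P f r) := by
  have e : ∑ k, ∑ x, ∑ y, μ x * (P ^ t) x y * (|f y k - f x k| * |F f k y - F f k x|) =
      ∑ x, ∑ y, μ x * (P ^ t) x y * (∑ k, w f x y k * |F f k y - F f k x|) := by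
    rw [Finset.sum_comm]
    refine Finset.sum_congr rfl fun x _ => ?_
    rw [Finset.sum_comm]
    refine Finset.sum_congr rfl fun y _ => ?_
    rw [← Finset.mul_sum]
    rfl
  have s2 : ∀ k : Fin n,
      ∑ x, ∑ y, μ x * (P ^ t) x y * (|f y k - f x k| * |F f k y - F f k x|) ≤
      ∑ r ∈ Finset.range t, (Qk μ P f (t - 1 - r) k +
        (∑ a, ∑ b, μ a * P a b * (w f a b k * ell f a b)) + Qk μ P f r k) := by
    intro k
    refine (h2 S μ P hc L (fun x => f x k) (fun x y => |F f k y - F f k x|)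
      (fun x y => abs_nonneg _) t).trans ?_
    exact Finset.sum_le_sum fun r _ => h3 S μ P hc L n f k r (t - 1 - r)
  have hUe : ∑ k, (∑ a, ∑ b, μ a * P a b * (w f a b k * ell f a b)) = U μ P f := by
    unfold U
    rw [Finset.sum_comm]
    refine Finset.sum_congr rfl fun a _ => ?_
    rw [Finset.sum_comm]
    refine Finset.sum_congr rfl fun b _ => ?_
    rw [← Finset.mul_sum, ← Finset.sum_mul]
    have : ∑ k, w f a b k = ell f a b := rfl
    rw [this]; ring
  have s3 : ∑ k, ∑ r ∈ Finset.range t, (Qk μ P f (t - 1 - r) k +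
        (∑ a, ∑ b, μ a * P a b * (w f a b k * ell f a b)) + Qk μ P f r k) =
      t * U μ P f + ∑ r ∈ Finset.range t, (Qsum μ P f (t - 1 - r) + Qsum μ P f r) := by
    rw [Finset.sum_comm]
    have : ∀ r ∈ Finset.range t, ∑ k, (Qk μ P f (t - 1 - r) k +
        (∑ a, ∑ b, μ a * P a b * (w f a b k * ell f a b)) + Qk μ P f r k) =
        U μ P f + (Qsum μ P f (t - 1 - r) + Qsum μ P f r) := by
      intro r _
      rw [Finset.sum_add_distrib, Finset.sum_add_distrib, hUe]
      unfold Qsum
      ring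
    rw [Finset.sum_congr rfl this, Finset.sum_add_distrib, Finset.sum_const, Finset.card_range,
      nsmul_eq_mul]
  have s4 := Finset.sum_le_sum (s := Finset.univ) fun k _ => s2 k
  rw [s3, e] at s4
  exact s4

/-- the scalar end of the proof of `StCore`, isolated -/
theorem rhs_27 (hQ : StQ) (hSm : StSmall) (S : Type) [Fintype S] [DecidableEq S] (μ : S → ℝ)
    (P : Matrix S S ℝ) (hc : IsChain μ P) (L : Lib μ P) (n : ℕ) (f : S → Fin n → ℝ) (t : ℕ)
    (ht : 1 ≤ t) :
    2 * (t * U μ P f + ∑ r ∈ Finset.range t, (Qsum μ P f (t - 1 - r) + Qsum μ P f r)) ≤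
      24 * (t : ℝ) ^ (11 / 6 : ℝ) * U μ P f := by
  obtain ⟨-, -, -, -, -, -, hU, -⟩ := hSm S μ P hc L n f
  obtain ⟨τ, hτ, hsc⟩ := scalar_27 t ht
  have hq := hQ S μ P hc L n f τ
  obtain ⟨K, hK⟩ : ∃ K : ℝ, K = Real.sqrt (t * τ) + τ + (3 / 2) * t * (τ : ℝ) ^ (-(1 / 4) : ℝ) :=
    ⟨_, rfl⟩
  have hτ0 : (0 : ℝ) ≤ (τ : ℝ) ^ (-(1 / 4) : ℝ) := Real.rpow_nonneg (by positivity) _
  have hb : ∀ r : ℕ, r ≤ t → Qsum μ P f r ≤ K * U μ P f := by
    intro r hr
    refine (hq r hτ).trans ?_
    refine mul_le_mul_of_nonneg_right ?_ hU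
    rw [hK]
    have hr' : (r : ℝ) ≤ t := by exact_mod_cast hr
    have h1 : Real.sqrt (r * τ) ≤ Real.sqrt (t * τ) :=
      Real.sqrt_le_sqrt (mul_le_mul_of_nonneg_right hr' (by positivity))
    have h3 : (3 / 2) * (r : ℝ) * (τ : ℝ) ^ (-(1 / 4) : ℝ) ≤
        (3 / 2) * (t : ℝ) * (τ : ℝ) ^ (-(1 / 4) : ℝ) :=
      mul_le_mul_of_nonneg_right (by linarith) hτ0
    linarith
  have hsum : ∑ r ∈ Finset.range t, (Qsum μ P f (t - 1 - r) + Qsum μ P f r) ≤
      ∑ r ∈ Finset.range t, (2 * (K * U μ P f)) := by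
    refine Finset.sum_le_sum fun r hr => ?_
    have hr' := Finset.mem_range.mp hr
    have := hb (t - 1 - r) (by omega)
    have := hb r (by omega)
    linarith
  rw [Finset.sum_const, Finset.card_range, nsmul_eq_mul] at hsum
  rw [← hK] at hsc
  have := mul_le_mul_of_nonneg_right hsc hU
  nlinarith [hsum, this]

private lemma split_27 {n : ℕ} (φ : Fin n → ℝ) (k : Fin n) :
    ∑ i : Fin n, (if i.val < k.val + 1 then φ i else 0)
      = ∑ i : Fin n, (if i.val < k.val then φ i else 0) + φ k := by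
  have h : ∀ i : Fin n, (if i.val < k.val + 1 then φ i else 0)
      = (if i.val < k.val then φ i else 0) + (if i = k then φ i else 0) := by
    intro i
    by_cases h1 : i.val < k.val
    · have h2 : i ≠ k := by
        intro h; subst h; exact lt_irrefl _ h1
      have h3 : i.val < k.val + 1 := Nat.lt_succ_of_lt h1
      simp [h1, h2, h3]
    · by_cases h2 : i = k
      · subst h2; simp
      · have h3 : ¬ i.val < k.val + 1 := by
          intro h; apply h2; ext; omega
        simp [h1, h2, h3]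
  simp_rw [h]
  rw [Finset.sum_add_distrib]
  simp

/-- THE JAMES NORM VERSION (plain statement, Mathlib vocabulary only): for every choice
`p i j 0 ≤ p i j 1 ≤ ... ≤ p i j m ≤ n` of cut points (depending on the two end states) the
expected quadratic variation of the initial sums of `f(Z_t) - f(Z_0)` along the cut points is at
most `96 t^(11/6) E |f(Z_1) - f(Z_0)|_1^2`. -/
theorem james_27 : ∀ t : ℕ, 1 ≤ t →
    ∀ (n : ℕ) (S : Type) [Fintype S] [DecidableEq S] (μ : S → ℝ) (P : Matrix S S ℝ),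
      (∀ i, 0 ≤ μ i) → ∑ i, μ i = 1 → (∀ i j, 0 ≤ P i j) → (∀ i, ∑ j, P i j = 1) →
      (∀ i j, μ i * P i j = μ j * P j i) → ∀ f : S → Fin n → ℝ,
      ∀ (m : ℕ) (p : S → S → ℕ → ℕ), (∀ i j, Monotone (p i j)) → (∀ i j r, p i j r ≤ n) →
        ∑ i, ∑ j, μ i * (P ^ t) i j *
            ∑ r ∈ Finset.range m,
              ((∑ l : Fin n, if l.val < p i j (r + 1) then f j l - f i l else 0) -
               (∑ l : Fin n, if l.val < p i j r then f j l - f i l else 0)) ^ 2 ≤
          96 * (t : ℝ) ^ (11 / 6 : ℝ) *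
            ∑ i, ∑ j, μ i * P i j * (∑ l : Fin n, |f j l - f i l|) ^ 2 := by
  intro t ht n S _ _ μ P h0 h1 h2 h3 h4 f m p hp hpn
  have hc : IsChain μ P := ⟨h0, h1, h2, h3, h4⟩
  have hs : StSmall := stSmall_93
  have hlib : StLib := stLib_66
  have L : Lib μ P := hlib S μ P hc
  have hown : StOwn := stOwn_33
  have hblk : StBlk := stBlk_89 hlib hs (stTriv2_85 hs) stSqrt_33
  have hrem : StRem := stRem_27 hs (stTriv1_69 hs)
  have hxi : StXi := stXi_87 hs (stEn_27 hs) (stBB_38 hs)
  have hr : StR := stR_14 hs (stDual_27 hs) (stDown_73 (stOwnT_27 hown) hs) (stBack_88 hs) hxi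
  have hq : StQ := stQ_64 hs hrem hblk hr
  have hE := ownE_27 stTel_68 (stCol_85 hs) S μ P hc L n f t
  have hR := rhs_27 hq hs S μ P hc L n f t ht
  have hpt : ∀ i j, ∑ r ∈ Finset.range m,
      ((∑ l : Fin n, if l.val < p i j (r + 1) then f j l - f i l else 0) -
        (∑ l : Fin n, if l.val < p i j r then f j l - f i l else 0)) ^ 2 ≤
      8 * ∑ k, w f i j k * |F f k j - F f k i| := by
    intro i j
    set G : ℕ → ℝ := fun q => ∑ l : Fin n, if l.val < q then f j l - f i l else 0 with hG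
    have hG0 : G 0 = 0 := by simp [hG]
    have hj := james_pt_27 G hG0 m (p i j) (hp i j)
    refine hj.trans ?_
    refine mul_le_mul_of_nonneg_left ?_ (by norm_num)
    calc ∑ k ∈ Finset.range (p i j m), |G (k + 1) - G k| * |G (k + 1)|
        ≤ ∑ k ∈ Finset.range n, |G (k + 1) - G k| * |G (k + 1)| :=
          Finset.sum_le_sum_of_subset_of_nonneg
            (Finset.range_subset_range.2 (hpn i j m))
            (fun k _ _ => mul_nonneg (abs_nonneg _) (abs_nonneg _))
      _ = ∑ k : Fin n, |G (k.val + 1) - G k.val| * |G (k.val + 1)| :=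
          (Fin.sum_univ_eq_sum_range (fun k => |G (k + 1) - G k| * |G (k + 1)|) n).symm
      _ = ∑ k, w f i j k * |F f k j - F f k i| := by
          refine Finset.sum_congr rfl fun k _ => ?_
          have e1 : G (k.val + 1) = G k.val + (f j k - f i k) :=
            split_27 (fun l => f j l - f i l) k
          have e2 : G (k.val + 1) = F f k j - F f k i := by
            rw [F_sub_w27]
            refine Finset.sum_congr rfl fun l _ => ?_
            have : l.val < k.val + 1 ↔ l ≤ k := by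
              rw [Nat.lt_succ_iff, Fin.le_def]
            simp only [this]
          have e3 : G (k.val + 1) - G k.val = f j k - f i k := by rw [e1]; ring
          rw [e3, e2]
          rfl
  have hw : ∀ x y, 0 ≤ μ x * (P ^ t) x y := fun x y =>
    mul_nonneg (L.mu_nonneg x) (L.pw_nonneg t x y)
  have hfin : ∑ i, ∑ j, μ i * (P ^ t) i j *
      ∑ r ∈ Finset.range m,
        ((∑ l : Fin n, if l.val < p i j (r + 1) then f j l - f i l else 0) -
          (∑ l : Fin n, if l.val < p i j r then f j l - f i l else 0)) ^ 2 ≤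
      8 * ∑ x, ∑ y, μ x * (P ^ t) x y * (∑ k, w f x y k * |F f k y - F f k x|) := by
    rw [Finset.mul_sum]
    refine Finset.sum_le_sum fun i _ => ?_
    rw [Finset.mul_sum]
    refine Finset.sum_le_sum fun j _ => ?_
    have := mul_le_mul_of_nonneg_left (hpt i j) (hw i j)
    linarith
  have hU : U μ P f = ∑ i, ∑ j, μ i * P i j * (∑ l : Fin n, |f j l - f i l|) ^ 2 := rfl
  rw [← hU]
  linarith

end Vale.Agent.P125.Poly
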