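import Vale.Agent.P125.P32.Asm_32

set_option linter.unusedSectionVars false
set_option linter.unusedVariables false

/-!
# P125: the polynomial rate with the James (quadratic variation) norm on the target side

The own measure integral `∑_k |x_k| |x_1 + ... + x_k|` dominates not only the square of the largest
running sum but (up to the factor 8) the whole quadratic variation of the running sums.
-/

namespace Vale.Agent.P125.J53

open scoped BigOperators
open Vale.Agent.P125.Dich Vale.Agent.P125.P32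

/-! ## real numbers -/

/-- the signed square -/
def ss (x : ℝ) : ℝ := x * |x|

lemma sq_sub_le_aux (a b : ℝ) (h : b ≤ a) : (a - b) ^ 2 ≤ 2 * (a * |a| - b * |b|) := by
  rcases le_total 0 b with hb | hb
  · have ha : 0 ≤ a := hb.trans h
    rw [abs_of_nonneg ha, abs_of_nonneg hb]
    nlinarith [mul_nonneg (sub_nonneg.mpr h) hb, mul_nonneg (sub_nonneg.mpr h) ha]
  · rcases le_total 0 a with ha | ha
    · rw [abs_of_nonneg ha, abs_of_nonpos hb]
      nlinarith [sq_nonneg (a + b)]
    · rw [abs_of_nonpos ha, abs_of_nonpos hb]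
      nlinarith [mul_nonneg (sub_nonneg.mpr h) (neg_nonneg.mpr hb),
        mul_nonneg (sub_nonneg.mpr h) (neg_nonneg.mpr ha)]

lemma sq_sub_le (a b : ℝ) : (a - b) ^ 2 ≤ 2 * |ss a - ss b| := by
  rcases le_total b a with h | h
  · exact (sq_sub_le_aux a b h).trans (mul_le_mul_of_nonneg_left (le_abs_self _) (by norm_num))
  · have h1 := sq_sub_le_aux b a h
    have h2 : ss b - ss a ≤ |ss a - ss b| := by
      rw [abs_sub_comm]
      exact le_abs_self _
    unfold ss at h2 ⊢
    nlinarith [h1, h2]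

lemma abs_signed_sq_sub_le (a b : ℝ) : |ss a - ss b| ≤ |a - b| * (|a| + |b|) := by
  obtain ⟨A, hA⟩ : ∃ A : ℝ, A = |a| := ⟨_, rfl⟩
  obtain ⟨B, hB⟩ : ∃ B : ℝ, B = |b| := ⟨_, rfl⟩
  have hAB : |A - B| ≤ |a - b| := by
    rw [hA, hB]
    exact abs_abs_sub_abs_le_abs_sub a b
  have hA0 : 0 ≤ A := by
    rw [hA]
    exact abs_nonneg a
  have e : ss a - ss b = (a - b) * A + b * (A - B) := by
    unfold ss
    rw [hA, hB]
    ring
  have h1 : |(a - b) * A + b * (A - B)| ≤ |(a - b) * A| + |b * (A - B)| := abs_add_le _ _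
  have h2 : |(a - b) * A| = |a - b| * A := by rw [abs_mul, abs_of_nonneg hA0]
  have h3 : |b * (A - B)| ≤ B * |a - b| := by
    rw [abs_mul, ← hB]
    exact mul_le_mul_of_nonneg_left hAB (by rw [hB]; exact abs_nonneg b)
  rw [e, ← hA, ← hB]
  nlinarith [h1, h2, h3]

/-! ## sequences -/

/-- the own measure integral of a sequence up to time `k` -/
def Phi (g : ℕ → ℝ) (k : ℕ) : ℝ :=
  ∑ l ∈ Finset.range k, |g (l + 1) - g l| * (|g (l + 1)| + |g l|)

lemma Phi_succ (g : ℕ → ℝ) (k : ℕ) :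
    Phi g (k + 1) = Phi g k + |g (k + 1) - g k| * (|g (k + 1)| + |g k|) := by
  unfold Phi
  rw [Finset.sum_range_succ]

lemma Phi_nonneg (g : ℕ → ℝ) (k : ℕ) : 0 ≤ Phi g k :=
  Finset.sum_nonneg fun l _ => mul_nonneg (abs_nonneg _) (add_nonneg (abs_nonneg _) (abs_nonneg _))

lemma signed_le_Phi (g : ℕ → ℝ) (a b : ℕ) (hab : a ≤ b) :
    |ss (g b) - ss (g a)| ≤ Phi g b - Phi g a := by
  induction b, hab using Nat.le_induction with
  | base => simp
  | succ b hb ih =>
    have h1 := abs_signed_sq_sub_le (g (b + 1)) (g b)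
    have h2 : |ss (g (b + 1)) - ss (g a)|
        ≤ |ss (g (b + 1)) - ss (g b)| + |ss (g b) - ss (g a)| :=
      abs_sub_le _ _ _
    rw [Phi_succ]
    linarith

lemma sq_le_Phi (g : ℕ → ℝ) (a b : ℕ) (hab : a ≤ b) :
    (g b - g a) ^ 2 ≤ 2 * (Phi g b - Phi g a) :=
  (sq_sub_le _ _).trans (mul_le_mul_of_nonneg_left (signed_le_Phi g a b hab) (by norm_num))

lemma qv_le_Phi (g : ℕ → ℝ) (p : ℕ → ℕ) (hp : Monotone p) (m : ℕ) :
    ∑ j ∈ Finset.range m, (g (p (j + 1)) - g (p j)) ^ 2 ≤ 2 * Phi g (p m) := by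
  have h1 : ∑ j ∈ Finset.range m, (g (p (j + 1)) - g (p j)) ^ 2
      ≤ ∑ j ∈ Finset.range m, 2 * (Phi g (p (j + 1)) - Phi g (p j)) :=
    Finset.sum_le_sum fun j _ => sq_le_Phi g _ _ (hp (Nat.le_succ j))
  have h2 : ∑ j ∈ Finset.range m, (Phi g (p (j + 1)) - Phi g (p j))
      = Phi g (p m) - Phi g (p 0) := Finset.sum_range_sub (fun j => Phi g (p j)) m
  rw [← Finset.mul_sum, h2] at h1
  have := Phi_nonneg g (p 0)
  linarith

lemma sum_sq_incr (g : ℕ → ℝ) (N : ℕ) :
    ∑ l ∈ Finset.range N, (g (l + 1) - g l) ^ 2 + g N ^ 2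
      = 2 * ∑ l ∈ Finset.range N, (g (l + 1) - g l) * g (l + 1) + g 0 ^ 2 := by
  induction N with
  | zero => simp
  | succ N ih =>
    rw [Finset.sum_range_succ, Finset.sum_range_succ]
    nlinarith [ih]

lemma Phi_le (g : ℕ → ℝ) (h0 : g 0 = 0) (N : ℕ) :
    Phi g N ≤ 4 * ∑ l ∈ Finset.range N, |g (l + 1) - g l| * |g (l + 1)| := by
  have h1 : Phi g N ≤ ∑ l ∈ Finset.range N,
      (2 * (|g (l + 1) - g l| * |g (l + 1)|) + (g (l + 1) - g l) ^ 2) := by
    unfold Phi
    refine Finset.sum_le_sum fun l _ => ?_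
    have a1 : |g l| ≤ |g (l + 1)| + |g (l + 1) - g l| := by
      have : g l = g (l + 1) - (g (l + 1) - g l) := by ring
      calc |g l| = |g (l + 1) - (g (l + 1) - g l)| := by rw [← this]
        _ ≤ |g (l + 1)| + |g (l + 1) - g l| := abs_sub _ _
    have a2 : (g (l + 1) - g l) ^ 2 = |g (l + 1) - g l| * |g (l + 1) - g l| := by
      rw [← sq, sq_abs]
    have a3 := mul_le_mul_of_nonneg_left a1 (abs_nonneg (g (l + 1) - g l))
    rw [a2]
    linarith
  have h2 : ∑ l ∈ Finset.range N, (g (l + 1) - g l) ^ 2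
      ≤ 2 * ∑ l ∈ Finset.range N, |g (l + 1) - g l| * |g (l + 1)| := by
    have e := sum_sq_incr g N
    rw [h0] at e
    have h3 : ∑ l ∈ Finset.range N, (g (l + 1) - g l) * g (l + 1)
        ≤ ∑ l ∈ Finset.range N, |g (l + 1) - g l| * |g (l + 1)| :=
      Finset.sum_le_sum fun l _ => by
        rw [← abs_mul]
        exact le_abs_self _
    nlinarith [sq_nonneg (g N)]
  rw [Finset.sum_add_distrib, ← Finset.mul_sum] at h1
  linarith

/-! ## vectors -/

/-- the sum of the coordinates with index `< k` -/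
def pre {n : ℕ} (v : Fin n → ℝ) (k : ℕ) : ℝ := ∑ l : Fin n, if l.val < k then v l else 0

lemma pre_zero {n : ℕ} (v : Fin n → ℝ) : pre v 0 = 0 := by
  unfold pre
  simp

lemma pre_succ_fin {n : ℕ} (v : Fin n → ℝ) (k : Fin n) :
    pre v (k.val + 1) - pre v k.val = v k := by
  unfold pre
  rw [← Finset.sum_sub_distrib]
  rw [Finset.sum_eq_single k]
  · simp
  · intro l _ hl
    have hl' : l.val ≠ k.val := fun h => hl (Fin.ext h)
    by_cases h1 : l.val < k.val
    · rw [if_pos h1, if_pos (by omega)]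
      ring
    · rw [if_neg h1, if_neg (by omega)]
      ring
  · intro h
    exact absurd (Finset.mem_univ k) h

lemma pre_succ_big {n : ℕ} (v : Fin n → ℝ) (l : ℕ) (hl : n ≤ l) :
    pre v (l + 1) - pre v l = 0 := by
  unfold pre
  rw [← Finset.sum_sub_distrib]
  refine Finset.sum_eq_zero fun i _ => ?_
  have := i.isLt
  rw [if_pos (by omega), if_pos (by omega)]
  ring

lemma pre_succ_eq {n : ℕ} (v : Fin n → ℝ) (k : Fin n) :
    pre v (k.val + 1) = ∑ i : Fin n, if i ≤ k then v i else 0 := by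
  unfold pre
  refine Finset.sum_congr rfl fun i _ => ?_
  have : i.val < k.val + 1 ↔ i ≤ k := by
    rw [Fin.le_def]
    omega
  simp only [this]

/-- the quadratic variation of the running sums is at most 8 times the own measure integral -/
theorem qv_le_own {n : ℕ} (v : Fin n → ℝ) (p : ℕ → ℕ) (hp : Monotone p) (m : ℕ) :
    ∑ j ∈ Finset.range m, (pre v (p (j + 1)) - pre v (p j)) ^ 2
      ≤ 8 * ∑ k : Fin n, |v k| * |∑ i : Fin n, if i ≤ k then v i else 0| := by
  have h1 := qv_le_Phi (pre v) p hp m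
  have h2 := Phi_le (pre v) (pre_zero v) (p m)
  have h3 : ∑ l ∈ Finset.range (p m), |pre v (l + 1) - pre v l| * |pre v (l + 1)|
      ≤ ∑ k : Fin n, |v k| * |∑ i : Fin n, if i ≤ k then v i else 0| := by
    calc ∑ l ∈ Finset.range (p m), |pre v (l + 1) - pre v l| * |pre v (l + 1)|
        = ∑ l ∈ (Finset.range (p m)).filter (fun l => l < n),
            |pre v (l + 1) - pre v l| * |pre v (l + 1)| := by
          refine (Finset.sum_filter_of_ne ?_).symm
          intro l _ hne
          by_contra hl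
          apply hne
          rw [pre_succ_big v l (by omega)]
          simp
      _ ≤ ∑ l ∈ Finset.range n, |pre v (l + 1) - pre v l| * |pre v (l + 1)| := by
          refine Finset.sum_le_sum_of_subset_of_nonneg ?_ ?_
          · intro l hl
            rw [Finset.mem_filter] at hl
            exact Finset.mem_range.mpr hl.2
          · intro l _ _
            exact mul_nonneg (abs_nonneg _) (abs_nonneg _)
      _ = ∑ k : Fin n, |pre v (k.val + 1) - pre v k.val| * |pre v (k.val + 1)| :=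
          (Fin.sum_univ_eq_sum_range
            (fun l => |pre v (l + 1) - pre v l| * |pre v (l + 1)|) n).symm
      _ = ∑ k : Fin n, |v k| * |∑ i : Fin n, if i ≤ k then v i else 0| := by
          refine Finset.sum_congr rfl fun k _ => ?_
          rw [pre_succ_fin, pre_succ_eq]
  linarith

/-! ## chains -/

theorem stQ_53 : StQ := by
  have hLib : StLib := stLib_66
  have hSm : StSmall := stSmall_93
  have hOwn : StOwn := stOwn_33
  have hT1 : StTriv1 := stTriv1_69 hSm
  have hT2 : StTriv2 := stTriv2_85 hSm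
  have hRem : StRem := stRem_32 hSm hT1
  have hSqrt : StSqrt := stSqrt_33
  have hBlk : StBlk := stBlk_1 hLib hSm hT2 hSqrt
  have hDual : StDual := stDual_51
  have hOwnT : StOwnT := stOwnT_27 hOwn
  have hDown : StDown := stDown_73 hOwnT hSm
  have hBack : StBack := stBack_88 hSm
  have hEn : StEn := stEn_30
  have hBB : StBB := stBB_38 hSm
  have hXi : StXi := stXi_87 hSm hEn hBB
  have hR : StR := stR_14 hSm hDual hDown hBack hXi
  exact stQ_64 hSm hRem hBlk hR

/-- the mean of the own measure integral at time `t` -/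
theorem own_int_53 {S : Type} [Fintype S] [DecidableEq S] {μ : S → ℝ} {P : Matrix S S ℝ}
    (hc : IsChain μ P) {n : ℕ} (f : S → Fin n → ℝ) (t : ℕ) (ht : 1 ≤ t) :
    ∑ k, ∑ x, ∑ y, μ x * (P ^ t) x y * (|f y k - f x k| * |F f k y - F f k x|) ≤
      12 * (t : ℝ) ^ (11 / 6 : ℝ) * U μ P f := by
  have L := stLib_66 S μ P hc
  obtain ⟨-, -, -, -, -, -, hU, -⟩ := stSmall_93 S μ P hc L n f
  have hA : ∀ k, ∑ x, ∑ y, μ x * (P ^ t) x y * (|f y k - f x k| * |F f k y - F f k x|) ≤
      (t : ℝ) * (∑ a, ∑ b, μ a * P a b * (|f b k - f a k| * |F f k b - F f k a|))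
        + 2 * ∑ r ∈ Finset.range t, Qk μ P f r k := by
    intro k
    have h := P3241.stepA hc (fun x => f x k) (F f k) t
    simp only [Qk_eq_10 hc] at h
    exact h
  have hD : ∑ k, ∑ a, ∑ b, μ a * P a b * (|f b k - f a k| * |F f k b - F f k a|) ≤ U μ P f := by
    unfold U
    rw [Finset.sum_comm]
    refine Finset.sum_le_sum fun a _ => ?_
    rw [Finset.sum_comm]
    refine Finset.sum_le_sum fun b _ => ?_
    rw [← Finset.mul_sum]
    refine mul_le_mul_of_nonneg_left ?_ (mul_nonneg (hc.1 a) (hc.2.2.1 a b))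
    have h2 : ∑ k, |f b k - f a k| * |F f k b - F f k a| ≤ ∑ k, |f b k - f a k| * ell f a b :=
      Finset.sum_le_sum fun k _ =>
        mul_le_mul_of_nonneg_left (F_sub_le_10 f k a b) (abs_nonneg _)
    refine h2.trans (le_of_eq ?_)
    rw [← Finset.sum_mul, sq]
    rfl
  have hstep2 : ∑ k, ∑ x, ∑ y, μ x * (P ^ t) x y * (|f y k - f x k| * |F f k y - F f k x|) ≤
      (t : ℝ) * U μ P f + 2 * ∑ r ∈ Finset.range t, Qsum μ P f r := by
    refine (Finset.sum_le_sum fun k _ => hA k).trans ?_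
    rw [Finset.sum_add_distrib, ← Finset.mul_sum, ← Finset.mul_sum]
    have e : ∑ k, ∑ r ∈ Finset.range t, Qk μ P f r k = ∑ r ∈ Finset.range t, Qsum μ P f r := by
      rw [Finset.sum_comm]
      rfl
    rw [e]
    have := mul_le_mul_of_nonneg_left hD (Nat.cast_nonneg t : (0 : ℝ) ≤ t)
    linarith
  obtain ⟨τ, hτ, hsc⟩ := scalar_77 t ht
  have hq := stQ_53 S μ P hc L n f τ
  obtain ⟨K, hK⟩ : ∃ K : ℝ, K = Real.sqrt (t * τ) + τ + (3 / 2) * t * (τ : ℝ) ^ (-(1 / 4) : ℝ) :=
    ⟨_, rfl⟩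
  have hτ0 : (0 : ℝ) ≤ (τ : ℝ) ^ (-(1 / 4) : ℝ) := Real.rpow_nonneg (by positivity) _
  have hb : ∀ r : ℕ, r ≤ t → Qsum μ P f r ≤ K * U μ P f := by
    intro r hr
    refine (hq r hτ).trans ?_
    refine mul_le_mul_of_nonneg_right ?_ hU
    rw [hK]
    have hr' : (r : ℝ) ≤ t := by exact_mod_cast hr
    have h1 : Real.sqrt (r * τ) ≤ Real.sqrt (t * τ) :=
      Real.sqrt_le_sqrt (mul_le_mul_of_nonneg_right hr' (by positivity))
    have h3 : (3 / 2) * (r : ℝ) * (τ : ℝ) ^ (-(1 / 4) : ℝ) ≤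
        (3 / 2) * (t : ℝ) * (τ : ℝ) ^ (-(1 / 4) : ℝ) :=
      mul_le_mul_of_nonneg_right (by linarith) hτ0
    linarith
  have hsum : ∑ r ∈ Finset.range t, Qsum μ P f r ≤ ∑ r ∈ Finset.range t, (K * U μ P f) := by
    refine Finset.sum_le_sum fun r hr => ?_
    have hr' := Finset.mem_range.mp hr
    exact hb r (by omega)
  rw [Finset.sum_const, Finset.card_range, nsmul_eq_mul] at hsum
  rw [← hK] at hsc
  have := mul_le_mul_of_nonneg_right hsc hU
  nlinarith [hstep2, hsum, this]

/-- for every pair of vectors the set of all quadratic variation sums of the running sums -/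
theorem james_rate_53 : ∀ t : ℕ, 1 ≤ t →
    ∀ (n : ℕ) (S : Type) [Fintype S] [DecidableEq S] (μ : S → ℝ) (P : Matrix S S ℝ),
      (∀ i, 0 ≤ μ i) → ∑ i, μ i = 1 → (∀ i j, 0 ≤ P i j) → (∀ i, ∑ j, P i j = 1) →
      (∀ i j, μ i * P i j = μ j * P j i) → ∀ f : S → Fin n → ℝ,
        (∀ i j, BddAbove {s : ℝ | ∃ (m : ℕ) (p : ℕ → ℕ), Monotone p ∧
            s = ∑ a ∈ Finset.range m,
              ((∑ l : Fin n, if l.val < p (a + 1) then f j l - f i l else 0) -
                (∑ l : Fin n, if l.val < p a then f j l - f i l else 0)) ^ 2}) ∧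
        ∑ i, ∑ j, μ i * (P ^ t) i j *
            sSup {s : ℝ | ∃ (m : ℕ) (p : ℕ → ℕ), Monotone p ∧
              s = ∑ a ∈ Finset.range m,
                ((∑ l : Fin n, if l.val < p (a + 1) then f j l - f i l else 0) -
                  (∑ l : Fin n, if l.val < p a then f j l - f i l else 0)) ^ 2} ≤
          96 * (t : ℝ) ^ (11 / 6 : ℝ) *
            ∑ i, ∑ j, μ i * P i j * (∑ l : Fin n, |f j l - f i l|) ^ 2 := by
  intro t ht n S _ _ μ P h1 h2 h3 h4 h5 f
  have hc : IsChain μ P := ⟨h1, h2, h3, h4, h5⟩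
  have L := stLib_66 S μ P hc
  have hub : ∀ i j, ∀ s ∈ {s : ℝ | ∃ (m : ℕ) (p : ℕ → ℕ), Monotone p ∧
            s = ∑ a ∈ Finset.range m,
              ((∑ l : Fin n, if l.val < p (a + 1) then f j l - f i l else 0) -
                (∑ l : Fin n, if l.val < p a then f j l - f i l else 0)) ^ 2},
      s ≤ 8 * ∑ k : Fin n, |f j k - f i k| * |F f k j - F f k i| := by
    rintro i j s ⟨m, p, hp, rfl⟩
    have h := qv_le_own (fun l => f j l - f i l) p hp m
    simp only [F_sub_10]
    exact h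
  refine ⟨fun i j => ⟨_, hub i j⟩, ?_⟩
  have hne : ∀ i j, ({s : ℝ | ∃ (m : ℕ) (p : ℕ → ℕ), Monotone p ∧
            s = ∑ a ∈ Finset.range m,
              ((∑ l : Fin n, if l.val < p (a + 1) then f j l - f i l else 0) -
                (∑ l : Fin n, if l.val < p a then f j l - f i l else 0)) ^ 2}).Nonempty :=
    fun i j => ⟨0, 0, id, monotone_id, by simp⟩
  have hown := own_int_53 hc f t ht
  calc ∑ i, ∑ j, μ i * (P ^ t) i j *
            sSup {s : ℝ | ∃ (m : ℕ) (p : ℕ → ℕ), Monotone p ∧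
              s = ∑ a ∈ Finset.range m,
                ((∑ l : Fin n, if l.val < p (a + 1) then f j l - f i l else 0) -
                  (∑ l : Fin n, if l.val < p a then f j l - f i l else 0)) ^ 2}
      ≤ ∑ i, ∑ j, μ i * (P ^ t) i j *
          (8 * ∑ k : Fin n, |f j k - f i k| * |F f k j - F f k i|) :=
        Finset.sum_le_sum fun i _ => Finset.sum_le_sum fun j _ =>
          mul_le_mul_of_nonneg_left (csSup_le (hne i j) (hub i j))
            (mul_nonneg (h1 i) (L.pw_nonneg t i j))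
    _ = 8 * ∑ k, ∑ x, ∑ y, μ x * (P ^ t) x y * (|f y k - f x k| * |F f k y - F f k x|) := by
        symm
        rw [Finset.sum_comm, Finset.mul_sum]
        refine Finset.sum_congr rfl fun x _ => ?_
        rw [Finset.sum_comm, Finset.mul_sum]
        refine Finset.sum_congr rfl fun y _ => ?_
        rw [← Finset.mul_sum]
        ring
    _ ≤ 8 * (12 * (t : ℝ) ^ (11 / 6 : ℝ) * U μ P f) :=
        mul_le_mul_of_nonneg_left hown (by norm_num)
    _ = 96 * (t : ℝ) ^ (11 / 6 : ℝ) *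
            ∑ i, ∑ j, μ i * P i j * (∑ l : Fin n, |f j l - f i l|) ^ 2 := by
        unfold U ell w
        ring

end Vale.Agent.P125.J53
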