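import Mathlib
import Vale.Agent.P125.Poly.All_77
import Vale.Agent.P125.Poly.JamesPt_7

set_option linter.unusedSectionVars false
set_option linter.unusedVariables false

/-!
# P125 Poly: polynomial rate for the quadratic variation (James) norm

The proof of the polynomial rate bounds the mean of the own measure integral
`sum_k |v k| * |sum_{i <= k} v i|`, `v = f (Z_t) - f (Z_0)`.  This integral dominates not only the
square of the largest partial sum, but the whole quadratic variation of the partial sums.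
-/

namespace Vale.Agent.P125.Poly7

open scoped BigOperators
open Vale.Agent.P125.Dich Vale.Agent.P125.Poly

variable {n : ℕ}

/-- prefix sums of a vector -/
def pre (v : Fin n → ℝ) (k : ℕ) : ℝ := ∑ l : Fin n, if l.val < k then v l else 0

lemma pre_zero (v : Fin n → ℝ) : pre v 0 = 0 := by simp [pre]

lemma pre_succ_sub (v : Fin n → ℝ) (i : ℕ) :
    pre v (i + 1) - pre v i = ∑ l : Fin n, if l.val = i then v l else 0 := by
  unfold pre
  rw [← Finset.sum_sub_distrib]
  refine Finset.sum_congr rfl fun l _ => ?_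
  by_cases h1 : l.val < i
  · have h2 : l.val < i + 1 := by omega
    have h3 : ¬ l.val = i := by omega
    rw [if_pos h1, if_pos h2, if_neg h3]
    ring
  · by_cases h3 : l.val = i
    · have h2 : l.val < i + 1 := by omega
      rw [if_neg h1, if_pos h2, if_pos h3]
      ring
    · have h2 : ¬ l.val < i + 1 := by omega
      rw [if_neg h1, if_neg h2, if_neg h3]
      ring

lemma pre_succ_fin (v : Fin n → ℝ) (k : Fin n) : pre v (k.val + 1) - pre v k.val = v k := by
  rw [pre_succ_sub]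
  have : ∀ l : Fin n, (if l.val = k.val then v l else 0) = if l = k then v l else 0 := by
    intro l
    simp only [Fin.ext_iff]
  simp only [this]
  simp

lemma pre_succ_ge (v : Fin n → ℝ) (i : ℕ) (hi : n ≤ i) : pre v (i + 1) - pre v i = 0 := by
  rw [pre_succ_sub]
  apply Finset.sum_eq_zero
  intro l _
  rw [if_neg]
  have := l.isLt
  omega

lemma pre_succ_eq (v : Fin n → ℝ) (k : Fin n) :
    pre v (k.val + 1) = ∑ i, if i ≤ k then v i else 0 := by
  unfold pre
  refine Finset.sum_congr rfl fun l _ => ?_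
  have : (l.val < k.val + 1) ↔ l ≤ k := by
    rw [Fin.le_def]
    omega
  simp only [this]

lemma block_eq (v : Fin n → ℝ) (a b : ℕ) (h : a ≤ b) :
    (∑ l : Fin n, if a ≤ l.val ∧ l.val < b then v l else 0) = pre v b - pre v a := by
  unfold pre
  rw [← Finset.sum_sub_distrib]
  refine Finset.sum_congr rfl fun l _ => ?_
  by_cases h1 : l.val < a
  · have h2 : l.val < b := by omega
    have h3 : ¬ (a ≤ l.val ∧ l.val < b) := by omega
    rw [if_pos h1, if_pos h2, if_neg h3]
    ring
  · by_cases h2 : l.val < b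
    · have h3 : a ≤ l.val ∧ l.val < b := by omega
      rw [if_neg h1, if_pos h2, if_pos h3]
      ring
    · have h3 : ¬ (a ≤ l.val ∧ l.val < b) := by omega
      rw [if_neg h1, if_neg h2, if_neg h3]
      ring

/-- quadratic variation of the partial sums of a vector against the own measure integral -/
theorem qv_fin (v : Fin n → ℝ) (κ : ℕ → ℕ) (hκ : Monotone κ) (m : ℕ) :
    ∑ a ∈ Finset.range m, (∑ l : Fin n, if κ a ≤ l.val ∧ l.val < κ (a + 1) then v l else 0) ^ 2
      ≤ 8 * ∑ k : Fin n, |v k| * |∑ i, if i ≤ k then v i else 0| := by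
  have h := qv_nat (pre v) (pre_zero v) κ hκ m (n + κ m) (by omega)
  rw [Finset.sum_range_add] at h
  have hz : ∑ x ∈ Finset.range (κ m),
      |pre v (n + x + 1) - pre v (n + x)| * |pre v (n + x + 1)| = 0 := by
    apply Finset.sum_eq_zero
    intro x _
    rw [pre_succ_ge v (n + x) (by omega)]
    simp
  rw [hz, add_zero,
    Finset.sum_range (fun i => |pre v (i + 1) - pre v i| * |pre v (i + 1)|)] at h
  have e1 : ∀ k : Fin n, |pre v (k.val + 1) - pre v k.val| * |pre v (k.val + 1)|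
      = |v k| * |∑ i, if i ≤ k then v i else 0| := by
    intro k
    rw [pre_succ_fin, pre_succ_eq]
  simp only [e1] at h
  have e2 : ∀ a, (∑ l : Fin n, if κ a ≤ l.val ∧ l.val < κ (a + 1) then v l else 0)
      = pre v (κ (a + 1)) - pre v (κ a) := fun a => block_eq v _ _ (hκ (Nat.le_succ a))
  simp only [e2]
  exact h

/-- mean of the own measure integral (Steps 1+2 without the first inequality) -/
theorem own_int (h2 : StTel) (h3 : StCol) {S : Type} [Fintype S] [DecidableEq S] {μ : S → ℝ}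
    {P : Matrix S S ℝ} (hc : IsChain μ P) (L : Lib μ P) (f : S → Fin n → ℝ) (t : ℕ) :
    ∑ k, ∑ x, ∑ y, μ x * (P ^ t) x y * (|f y k - f x k| * |F f k y - F f k x|) ≤
      t * U μ P f + ∑ r ∈ Finset.range t, (Qsum μ P f (t - 1 - r) + Qsum μ P f r) := by
  have s2 : ∀ k : Fin n,
      ∑ x, ∑ y, μ x * (P ^ t) x y * (|f y k - f x k| * |F f k y - F f k x|) ≤
      ∑ r ∈ Finset.range t, (Qk μ P f (t - 1 - r) k +
        (∑ a, ∑ b, μ a * P a b * (w f a b k * ell f a b)) + Qk μ P f r k) := by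
    intro k
    refine (h2 S μ P hc L (fun x => f x k) (fun x y => |F f k y - F f k x|)
      (fun x y => abs_nonneg _) t).trans ?_
    exact Finset.sum_le_sum fun r _ => h3 S μ P hc L n f k r (t - 1 - r)
  have hUe : ∑ k, (∑ a, ∑ b, μ a * P a b * (w f a b k * ell f a b)) = U μ P f := by
    unfold U
    rw [Finset.sum_comm]
    refine Finset.sum_congr rfl fun a _ => ?_
    rw [Finset.sum_comm]
    refine Finset.sum_congr rfl fun b _ => ?_
    rw [← Finset.mul_sum, ← Finset.sum_mul]
    have : ∑ k, w f a b k = ell f a b := rfl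
    rw [this]; ring
  have s3 : ∑ k, ∑ r ∈ Finset.range t, (Qk μ P f (t - 1 - r) k +
        (∑ a, ∑ b, μ a * P a b * (w f a b k * ell f a b)) + Qk μ P f r k) =
      t * U μ P f + ∑ r ∈ Finset.range t, (Qsum μ P f (t - 1 - r) + Qsum μ P f r) := by
    rw [Finset.sum_comm]
    have : ∀ r ∈ Finset.range t, ∑ k, (Qk μ P f (t - 1 - r) k +
        (∑ a, ∑ b, μ a * P a b * (w f a b k * ell f a b)) + Qk μ P f r k) =
        U μ P f + (Qsum μ P f (t - 1 - r) + Qsum μ P f r) := by
      intro r _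
      rw [Finset.sum_add_distrib, Finset.sum_add_distrib, hUe]
      unfold Qsum
      ring
    rw [Finset.sum_congr rfl this, Finset.sum_add_distrib, Finset.sum_const, Finset.card_range,
      nsmul_eq_mul]
  have s4 := Finset.sum_le_sum (s := Finset.univ) fun k _ => s2 k
  rw [s3] at s4
  exact s4

/-- the scalar end of the proof -/
theorem rhs_bound (hQ : StQ) (hSm : StSmall) {S : Type} [Fintype S] [DecidableEq S] {μ : S → ℝ}
    {P : Matrix S S ℝ} (hc : IsChain μ P) (L : Lib μ P) (f : S → Fin n → ℝ) (t : ℕ)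
    (ht : 1 ≤ t) :
    2 * t * U μ P f + 2 * ∑ r ∈ Finset.range t, (Qsum μ P f (t - 1 - r) + Qsum μ P f r) ≤
      24 * (t : ℝ) ^ (11 / 6 : ℝ) * U μ P f := by
  obtain ⟨-, -, -, -, -, -, hU, -⟩ := hSm S μ P hc L n f
  obtain ⟨τ, hτ, hsc⟩ := scalar_77 t ht
  have hq := hQ S μ P hc L n f τ
  obtain ⟨K, hK⟩ : ∃ K : ℝ, K = Real.sqrt (t * τ) + τ + (3 / 2) * t * (τ : ℝ) ^ (-(1 / 4) : ℝ) :=
    ⟨_, rfl⟩
  have hτ0 : (0 : ℝ) ≤ (τ : ℝ) ^ (-(1 / 4) : ℝ) := Real.rpow_nonneg (by positivity) _
  have hb : ∀ r : ℕ, r ≤ t → Qsum μ P f r ≤ K * U μ P f := by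
    intro r hr
    refine (hq r hτ).trans ?_
    refine mul_le_mul_of_nonneg_right ?_ hU
    rw [hK]
    have hr' : (r : ℝ) ≤ t := by exact_mod_cast hr
    have h1 : Real.sqrt (r * τ) ≤ Real.sqrt (t * τ) :=
      Real.sqrt_le_sqrt (mul_le_mul_of_nonneg_right hr' (by positivity))
    have h3 : (3 / 2) * (r : ℝ) * (τ : ℝ) ^ (-(1 / 4) : ℝ) ≤
        (3 / 2) * (t : ℝ) * (τ : ℝ) ^ (-(1 / 4) : ℝ) :=
      mul_le_mul_of_nonneg_right (by linarith) hτ0
    linarith
  have hsum : ∑ r ∈ Finset.range t, (Qsum μ P f (t - 1 - r) + Qsum μ P f r) ≤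
      ∑ r ∈ Finset.range t, (2 * (K * U μ P f)) := by
    refine Finset.sum_le_sum fun r hr => ?_
    have hr' := Finset.mem_range.mp hr
    have := hb (t - 1 - r) (by omega)
    have := hb r (by omega)
    linarith
  rw [Finset.sum_const, Finset.card_range, nsmul_eq_mul] at hsum
  rw [← hK] at hsc
  have := mul_le_mul_of_nonneg_right hsc hU
  nlinarith [hsum, this]

/-- **Polynomial rate for the quadratic variation norm.** -/
theorem james_poly : ∀ t : ℕ, 1 ≤ t →
    ∀ (n : ℕ) (S : Type) [Fintype S] [DecidableEq S] (μ : S → ℝ) (P : Matrix S S ℝ),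
      (∀ i, 0 ≤ μ i) → ∑ i, μ i = 1 → (∀ i j, 0 ≤ P i j) → (∀ i, ∑ j, P i j = 1) →
      (∀ i j, μ i * P i j = μ j * P j i) → ∀ (f : S → Fin n → ℝ) (m : ℕ)
      (κ : S → S → ℕ → ℕ), (∀ i j, Monotone (κ i j)) →
        ∑ i, ∑ j, μ i * (P ^ t) i j *
            (∑ a ∈ Finset.range m, (∑ l : Fin n,
              if κ i j a ≤ l.val ∧ l.val < κ i j (a + 1) then f j l - f i l else 0) ^ 2) ≤
          96 * (t : ℝ) ^ (11 / 6 : ℝ) *
            ∑ i, ∑ j, μ i * P i j * (∑ l : Fin n, |f j l - f i l|) ^ 2 := by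
  intro t ht n S _ _ μ P c1 c2 c3 c4 c5 f m κ hκ
  have hc : IsChain μ P := ⟨c1, c2, c3, c4, c5⟩
  have hLib : StLib := stLib_66
  have hOwn : StOwn := stOwn_33
  have hOwnT : StOwnT := stOwnT_27 hOwn
  have hTel : StTel := stTel_47
  have hSm : StSmall := stSmall_93
  have hCol : StCol := stCol_85 hSm
  have hT1 : StTriv1 := stTriv1_69 hSm
  have hT2 : StTriv2 := stTriv2_85 hSm
  have hSq : StSqrt := stSqrt_33
  have hRem : StRem := stRem_77 hSm hT1
  have hBlk : StBlk := stBlk_77 hLib hSm hT2 hSq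
  have hDual : StDual := stDual_67
  have hDown : StDown := stDown_73 hOwnT hSm
  have hBack : StBack := stBack_88 hSm
  have hEn : StEn := stEn_56 hSm
  have hBB : StBB := stBB_38 hSm
  have hXi : StXi := stXi_87 hSm hEn hBB
  have hR : StR := stR_14 hSm hDual hDown hBack hXi
  have hQ : StQ := stQ_77 hSm hRem hBlk hR
  have L := hLib S μ P hc
  have hF : ∀ (k : Fin n) (x y : S),
      (∑ i, if i ≤ k then (f y i - f x i) else 0) = F f k y - F f k x := by
    intro k x y
    unfold F
    rw [← Finset.sum_sub_distrib]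
    refine Finset.sum_congr rfl fun i _ => ?_
    split_ifs <;> simp
  have hpt : ∀ x y : S, (∑ a ∈ Finset.range m, (∑ l : Fin n,
      if κ x y a ≤ l.val ∧ l.val < κ x y (a + 1) then f y l - f x l else 0) ^ 2) ≤
      8 * ∑ k, |f y k - f x k| * |F f k y - F f k x| := by
    intro x y
    have := qv_fin (fun l => f y l - f x l) (κ x y) (hκ x y) m
    simp only [hF] at this
    exact this
  have hw : ∀ x y, 0 ≤ μ x * (P ^ t) x y := fun x y =>
    mul_nonneg (L.mu_nonneg x) (L.pw_nonneg t x y)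
  have s1 : ∑ x, ∑ y, μ x * (P ^ t) x y * (∑ a ∈ Finset.range m, (∑ l : Fin n,
      if κ x y a ≤ l.val ∧ l.val < κ x y (a + 1) then f y l - f x l else 0) ^ 2) ≤
      8 * ∑ k, ∑ x, ∑ y, μ x * (P ^ t) x y * (|f y k - f x k| * |F f k y - F f k x|) := by
    have e : 8 * ∑ k, ∑ x, ∑ y, μ x * (P ^ t) x y * (|f y k - f x k| * |F f k y - F f k x|) =
        ∑ x, ∑ y, μ x * (P ^ t) x y * (8 * ∑ k, |f y k - f x k| * |F f k y - F f k x|) := by
      rw [Finset.sum_comm, Finset.mul_sum]
      refine Finset.sum_congr rfl fun x _ => ?_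
      rw [Finset.sum_comm, Finset.mul_sum]
      refine Finset.sum_congr rfl fun y _ => ?_
      rw [← Finset.mul_sum]
      ring
    rw [e]
    exact Finset.sum_le_sum fun x _ => Finset.sum_le_sum fun y _ =>
      mul_le_mul_of_nonneg_left (hpt x y) (hw x y)
  have s2 := own_int hTel hCol hc L f t
  have s3 := rhs_bound hQ hSm hc L f t ht
  have hU : U μ P f = ∑ i, ∑ j, μ i * P i j * (∑ l : Fin n, |f j l - f i l|) ^ 2 := rfl
  rw [← hU]
  linarith

end Vale.Agent.P125.Poly7
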