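import Mathlib
import Vale.Agent.P125.Poly.All_77

set_option linter.unusedSectionVars false
set_option linter.unusedVariables false

/-!
# P125 Poly: the polynomial rate for the quadratic variation (James) norm (helper77)

Idea of helper91 (board 799): with `ψ h = h |h|` one has `(b - a)^2 ≤ 2 |ψ b - ψ a|` and
`|ψ b - ψ a| ≤ 4 |b - a| |b| + a^2 - b^2`, so the squared quadratic variation of the running sums
is at most `8` times the own-measure quantity.
-/

namespace Vale.Agent.P125.Poly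

open scoped BigOperators
open Vale.Agent.P125.Dich

def psi77 (h : ℝ) : ℝ := h * |h|

theorem psi_low_77 (a b : ℝ) : (b - a) ^ 2 ≤ 2 * |psi77 b - psi77 a| := by
  have h1 := le_abs_self (psi77 b - psi77 a)
  have h2 := neg_abs_le (psi77 b - psi77 a)
  unfold psi77 at h1 h2 ⊢
  rcases abs_cases a with ⟨ha, ha'⟩ | ⟨ha, ha'⟩ <;> rcases abs_cases b with ⟨hb, hb'⟩ | ⟨hb, hb'⟩ <;>
    rw [ha, hb] at h1 h2 ⊢ <;> rcases le_total a b with h | h <;> nlinarith [sq_nonneg (a + b)]

theorem psi_up_77 (a b : ℝ) : |psi77 b - psi77 a| ≤ 4 * (|b - a| * |b|) + (a ^ 2 - b ^ 2) := by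
  rw [abs_le]
  unfold psi77
  constructor <;>
  rcases abs_cases a with ⟨ha, ha'⟩ | ⟨ha, ha'⟩ <;> rcases abs_cases b with ⟨hb, hb'⟩ | ⟨hb, hb'⟩ <;>
    rcases abs_cases (b - a) with ⟨hc, hc'⟩ | ⟨hc, hc'⟩ <;> rw [ha, hb, hc] <;> nlinarith

theorem james_own_77 (G : ℕ → ℝ) (hG0 : G 0 = 0) (n : ℕ) (p : ℕ → ℕ) (hp : Monotone p)
    (hpn : ∀ r, p r ≤ n) (m : ℕ) :
    ∑ r ∈ Finset.range m, (G (p (r + 1)) - G (p r)) ^ 2 ≤
      8 * ∑ k ∈ Finset.range n, |G (k + 1) - G k| * |G (k + 1)| := by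
  obtain ⟨T, hT⟩ : ∃ T : ℕ → ℝ, T = fun k =>
      ∑ j ∈ Finset.range k, |psi77 (G (j + 1)) - psi77 (G j)| := ⟨_, rfl⟩
  have hTs : ∀ k, T (k + 1) = T k + |psi77 (G (k + 1)) - psi77 (G k)| := by
    intro k; rw [hT]; exact Finset.sum_range_succ _ _
  have hTm : ∀ a b, a ≤ b → |psi77 (G b) - psi77 (G a)| ≤ T b - T a := by
    intro a b hab
    induction b, hab using Nat.le_induction with
    | base => simp
    | succ b hab ih =>
      rw [hTs]
      have := abs_add_le (psi77 (G (b + 1)) - psi77 (G b)) (psi77 (G b) - psi77 (G a))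
      have e : psi77 (G (b + 1)) - psi77 (G b) + (psi77 (G b) - psi77 (G a)) =
          psi77 (G (b + 1)) - psi77 (G a) := by ring
      rw [e] at this
      linarith
  have hT0 : ∀ k, 0 ≤ T k := by
    intro k; rw [hT]; exact Finset.sum_nonneg fun j _ => abs_nonneg _
  have hTmono : ∀ a b, a ≤ b → T a ≤ T b := by
    intro a b hab
    have := hTm a b hab
    have := abs_nonneg (psi77 (G b) - psi77 (G a))
    linarith
  have s1 : ∑ r ∈ Finset.range m, (G (p (r + 1)) - G (p r)) ^ 2 ≤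
      ∑ r ∈ Finset.range m, 2 * (T (p (r + 1)) - T (p r)) := by
    refine Finset.sum_le_sum fun r _ => ?_
    have h1 := psi_low_77 (G (p r)) (G (p (r + 1)))
    have h2 := hTm (p r) (p (r + 1)) (hp (Nat.le_succ r))
    linarith
  have s2 : ∑ r ∈ Finset.range m, 2 * (T (p (r + 1)) - T (p r)) = 2 * (T (p m) - T (p 0)) := by
    rw [← Finset.mul_sum, Finset.sum_range_sub (fun r => T (p r))]
  have s3 : T n ≤ 4 * ∑ k ∈ Finset.range n, |G (k + 1) - G k| * |G (k + 1)| := by
    have : T n ≤ ∑ k ∈ Finset.range n,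
        (4 * (|G (k + 1) - G k| * |G (k + 1)|) + (G k ^ 2 - G (k + 1) ^ 2)) := by
      rw [hT]; exact Finset.sum_le_sum fun k _ => psi_up_77 _ _
    rw [Finset.sum_add_distrib, Finset.sum_range_sub' (fun k => G k ^ 2), ← Finset.mul_sum,
      hG0] at this
    nlinarith [sq_nonneg (G n)]
  have := hTmono (p m) n (hpn m)
  have := hT0 (p 0)
  linarith

/-- expectation of the own-measure quantity (the steps s2 - s4 of `stTwo_77`) -/
theorem ownExp_77 {S : Type} [Fintype S] [DecidableEq S] (μ : S → ℝ) (P : Matrix S S ℝ)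
    (hc : IsChain μ P) (n : ℕ) (f : S → Fin n → ℝ) (t : ℕ) :
    ∑ k, ∑ x, ∑ y, μ x * (P ^ t) x y * (|f y k - f x k| * |F f k y - F f k x|) ≤
      t * U μ P f + ∑ r ∈ Finset.range t, (Qsum μ P f (t - 1 - r) + Qsum μ P f r) := by
  have L : Lib μ P := stLib_66 S μ P hc
  have h2 : StTel := stTel_68
  have h3 : StCol := stCol_85 stSmall_93
  have s2 : ∀ k : Fin n,
      ∑ x, ∑ y, μ x * (P ^ t) x y * (|f y k - f x k| * |F f k y - F f k x|) ≤
      ∑ r ∈ Finset.range t, (Qk μ P f (t - 1 - r) k +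
        (∑ a, ∑ b, μ a * P a b * (w f a b k * ell f a b)) + Qk μ P f r k) := by
    intro k
    refine (h2 S μ P hc L (fun x => f x k) (fun x y => |F f k y - F f k x|)
      (fun x y => abs_nonneg _) t).trans ?_
    exact Finset.sum_le_sum fun r _ => h3 S μ P hc L n f k r (t - 1 - r)
  have hUe : ∑ k, (∑ a, ∑ b, μ a * P a b * (w f a b k * ell f a b)) = U μ P f := by
    unfold U
    rw [Finset.sum_comm]
    refine Finset.sum_congr rfl fun a _ => ?_
    rw [Finset.sum_comm]
    refine Finset.sum_congr rfl fun b _ => ?_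
    rw [← Finset.mul_sum, ← Finset.sum_mul]
    have : ∑ k, w f a b k = ell f a b := rfl
    rw [this]; ring
  have s3 : ∑ k, ∑ r ∈ Finset.range t, (Qk μ P f (t - 1 - r) k +
        (∑ a, ∑ b, μ a * P a b * (w f a b k * ell f a b)) + Qk μ P f r k) =
      t * U μ P f + ∑ r ∈ Finset.range t, (Qsum μ P f (t - 1 - r) + Qsum μ P f r) := by
    rw [Finset.sum_comm]
    have : ∀ r ∈ Finset.range t, ∑ k, (Qk μ P f (t - 1 - r) k +
        (∑ a, ∑ b, μ a * P a b * (w f a b k * ell f a b)) + Qk μ P f r k) =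
        U μ P f + (Qsum μ P f (t - 1 - r) + Qsum μ P f r) := by
      intro r _
      rw [Finset.sum_add_distrib, Finset.sum_add_distrib, hUe]
      unfold Qsum
      ring
    rw [Finset.sum_congr rfl this, Finset.sum_add_distrib, Finset.sum_const, Finset.card_range,
      nsmul_eq_mul]
  have s4 := Finset.sum_le_sum (s := Finset.univ) fun k _ => s2 k
  rw [s3] at s4
  exact s4

/-- `StQ` without hypotheses -/
theorem q_77 : StQ := by
  have hLib : StLib := stLib_66
  have hOwn : StOwn := stOwn_33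
  have hOwnT : StOwnT := stOwnT_27 hOwn
  have hSm : StSmall := stSmall_93
  have hT1 : StTriv1 := stTriv1_69 hSm
  have hT2 : StTriv2 := stTriv2_85 hSm
  have hSq : StSqrt := stSqrt_33
  have hRem : StRem := stRem_77 hSm hT1
  have hBlk : StBlk := stBlk_77 hLib hSm hT2 hSq
  have hDual : StDual := stDual_67
  have hDown : StDown := stDown_73 hOwnT hSm
  have hBack : StBack := stBack_88 hSm
  have hEn : StEn := stEn_56 hSm
  have hBB : StBB := stBB_38 hSm
  have hXi : StXi := stXi_87 hSm hEn hBB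
  have hR : StR := stR_14 hSm hDual hDown hBack hXi
  exact stQ_77 hSm hRem hBlk hR

/-- the own-measure quantity is at most `12 t^(11/6) U` -/
theorem ownRate_77 {S : Type} [Fintype S] [DecidableEq S] (μ : S → ℝ) (P : Matrix S S ℝ)
    (hc : IsChain μ P) (n : ℕ) (f : S → Fin n → ℝ) (t : ℕ) (ht : 1 ≤ t) :
    ∑ k, ∑ x, ∑ y, μ x * (P ^ t) x y * (|f y k - f x k| * |F f k y - F f k x|) ≤
      12 * (t : ℝ) ^ (11 / 6 : ℝ) * U μ P f := by
  have L : Lib μ P := stLib_66 S μ P hc
  have h2 := ownExp_77 μ P hc n f t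
  obtain ⟨-, -, -, -, -, -, hU, -⟩ := stSmall_93 S μ P hc L n f
  obtain ⟨τ, hτ, hsc⟩ := scalar_77 t ht
  have hq := q_77 S μ P hc L n f τ
  obtain ⟨K, hK⟩ : ∃ K : ℝ, K = Real.sqrt (t * τ) + τ + (3 / 2) * t * (τ : ℝ) ^ (-(1 / 4) : ℝ) :=
    ⟨_, rfl⟩
  have hτ0 : (0 : ℝ) ≤ (τ : ℝ) ^ (-(1 / 4) : ℝ) := Real.rpow_nonneg (by positivity) _
  have hb : ∀ r : ℕ, r ≤ t → Qsum μ P f r ≤ K * U μ P f := by
    intro r hr
    refine (hq r hτ).trans ?_
    refine mul_le_mul_of_nonneg_right ?_ hU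
    rw [hK]
    have hr' : (r : ℝ) ≤ t := by exact_mod_cast hr
    have h1 : Real.sqrt (r * τ) ≤ Real.sqrt (t * τ) :=
      Real.sqrt_le_sqrt (mul_le_mul_of_nonneg_right hr' (by positivity))
    have h3 : (3 / 2) * (r : ℝ) * (τ : ℝ) ^ (-(1 / 4) : ℝ) ≤
        (3 / 2) * (t : ℝ) * (τ : ℝ) ^ (-(1 / 4) : ℝ) :=
      mul_le_mul_of_nonneg_right (by linarith) hτ0
    linarith
  have hsum : ∑ r ∈ Finset.range t, (Qsum μ P f (t - 1 - r) + Qsum μ P f r) ≤
      ∑ r ∈ Finset.range t, (2 * (K * U μ P f)) := by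
    refine Finset.sum_le_sum fun r hr => ?_
    have hr' := Finset.mem_range.mp hr
    have := hb (t - 1 - r) (by omega)
    have := hb r (by omega)
    linarith
  rw [Finset.sum_const, Finset.card_range, nsmul_eq_mul] at hsum
  rw [← hK] at hsc
  have := mul_le_mul_of_nonneg_right hsc hU
  nlinarith [h2, hsum, this]

/-- **Polynomial rate for the quadratic variation (James) norm**, selector form: the increasing
sequence of cut points `p i j 0 ≤ p i j 1 ≤ ... ≤ n` may depend on the pair of states. -/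
theorem james_77 : ∀ t : ℕ, 1 ≤ t →
    ∀ (n : ℕ) (S : Type) [Fintype S] [DecidableEq S] (μ : S → ℝ) (P : Matrix S S ℝ),
      (∀ i, 0 ≤ μ i) → ∑ i, μ i = 1 → (∀ i j, 0 ≤ P i j) → (∀ i, ∑ j, P i j = 1) →
      (∀ i j, μ i * P i j = μ j * P j i) → ∀ (f : S → Fin n → ℝ) (m : ℕ) (p : S → S → ℕ → ℕ),
        (∀ i j, Monotone (p i j)) → (∀ i j r, p i j r ≤ n) →
        ∑ i, ∑ j, μ i * (P ^ t) i j *
            ∑ r ∈ Finset.range m,
              ((∑ l : Fin n, if l.val < p i j (r + 1) then f j l - f i l else 0) -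
                (∑ l : Fin n, if l.val < p i j r then f j l - f i l else 0)) ^ 2 ≤
          96 * (t : ℝ) ^ (11 / 6 : ℝ) *
            ∑ i, ∑ j, μ i * P i j * (∑ l : Fin n, |f j l - f i l|) ^ 2 := by
  intro t ht n S _ _ μ P h0 h1 h2 h3 h4 f m p hp hpn
  have hc : IsChain μ P := ⟨h0, h1, h2, h3, h4⟩
  have L : Lib μ P := stLib_66 S μ P hc
  have hrate := ownRate_77 μ P hc n f t ht
  have hpt : ∀ i j, ∑ r ∈ Finset.range m,
      ((∑ l : Fin n, if l.val < p i j (r + 1) then f j l - f i l else 0) -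
        (∑ l : Fin n, if l.val < p i j r then f j l - f i l else 0)) ^ 2 ≤
      8 * ∑ k : Fin n, |f j k - f i k| * |F f k j - F f k i| := by
    intro i j
    have := james_own_77 (fun k => ∑ l : Fin n, if l.val < k then f j l - f i l else 0)
      (by simp) n (p i j) (hp i j) (hpn i j) m
    refine this.trans ?_
    refine mul_le_mul_of_nonneg_left (le_of_eq ?_) (by norm_num)
    rw [← Fin.sum_univ_eq_sum_range (fun k =>
      |(∑ l : Fin n, if l.val < k + 1 then f j l - f i l else 0) -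
        (∑ l : Fin n, if l.val < k then f j l - f i l else 0)| *
      |∑ l : Fin n, if l.val < k + 1 then f j l - f i l else 0|) n]
    refine Finset.sum_congr rfl fun k _ => ?_
    have e1 : (∑ l : Fin n, if l.val < k.val + 1 then f j l - f i l else 0) =
        F f k j - F f k i := by
      unfold F
      rw [← Finset.sum_sub_distrib]
      refine Finset.sum_congr rfl fun l _ => ?_
      by_cases hl : l ≤ k
      · rw [if_pos hl, if_pos hl, if_pos (Nat.lt_succ_of_le hl)]
      · rw [if_neg hl, if_neg hl, if_neg (fun hh => hl (Nat.le_of_lt_succ hh))]; simp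
    have e2 : (∑ l : Fin n, if l.val < k.val + 1 then f j l - f i l else 0) -
        (∑ l : Fin n, if l.val < k.val then f j l - f i l else 0) = f j k - f i k := by
      rw [← Finset.sum_sub_distrib, Finset.sum_eq_single k]
      · simp
      · intro l _ hlk
        have hlk' : l.val ≠ k.val := fun hh => hlk (Fin.ext hh)
        by_cases hl : l.val < k.val
        · rw [if_pos hl, if_pos (by omega)]; simp
        · rw [if_neg hl, if_neg (by omega)]; simp
      · intro hk; exact absurd (Finset.mem_univ k) hk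
    rw [e2, e1]
  have hw : ∀ x y, 0 ≤ μ x * (P ^ t) x y := fun x y =>
    mul_nonneg (L.mu_nonneg x) (L.pw_nonneg t x y)
  have e : 8 * ∑ k, ∑ x, ∑ y, μ x * (P ^ t) x y * (|f y k - f x k| * |F f k y - F f k x|) =
      ∑ x, ∑ y, μ x * (P ^ t) x y * (8 * ∑ k, |f y k - f x k| * |F f k y - F f k x|) := by
    rw [Finset.sum_comm, Finset.mul_sum]
    refine Finset.sum_congr rfl fun x _ => ?_
    rw [Finset.sum_comm, Finset.mul_sum]
    refine Finset.sum_congr rfl fun y _ => ?_
    rw [← Finset.mul_sum]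
    ring
  have s1 : ∑ i, ∑ j, μ i * (P ^ t) i j *
      ∑ r ∈ Finset.range m,
        ((∑ l : Fin n, if l.val < p i j (r + 1) then f j l - f i l else 0) -
          (∑ l : Fin n, if l.val < p i j r then f j l - f i l else 0)) ^ 2 ≤
      8 * ∑ k, ∑ x, ∑ y, μ x * (P ^ t) x y * (|f y k - f x k| * |F f k y - F f k x|) := by
    rw [e]
    exact Finset.sum_le_sum fun x _ => Finset.sum_le_sum fun y _ =>
      mul_le_mul_of_nonneg_left (hpt x y) (hw x y)
  have hUdef : U μ P f = ∑ i, ∑ j, μ i * P i j * (∑ l : Fin n, |f j l - f i l|) ^ 2 := rfl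
  rw [← hUdef]
  linarith

end Vale.Agent.P125.Poly
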