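import Vale.Agent.P125.P58.Top

set_option linter.unusedSectionVars false
set_option linter.unusedVariables false

/-!
# P125 Poly: the polynomial rate for the James (quadratic variation) norm, helper91
-/

namespace Vale.Agent.P125.Poly

open scoped BigOperators
open Vale.Agent.P125.Dich

theorem scalA_91 (a b : ℝ) : (b - a) ^ 2 ≤ 2 * abs (b * abs b - a * abs a) := by
  obtain ⟨Y, hY⟩ : ∃ Y : ℝ, Y = b * abs b - a * abs a := ⟨_, rfl⟩
  rw [← hY]
  have h1 := le_abs_self Y
  have h2 := neg_abs_le Y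
  rcases le_total 0 a with ha | ha <;> rcases le_total 0 b with hb | hb <;>
    rcases le_total a b with h | h
  all_goals (first | rw [abs_of_nonneg ha] at hY | rw [abs_of_nonpos ha] at hY)
  all_goals (first | rw [abs_of_nonneg hb] at hY | rw [abs_of_nonpos hb] at hY)
  all_goals nlinarith [mul_nonneg (sub_nonneg.2 h) (sub_nonneg.2 h), mul_self_nonneg (a + b),
    mul_self_nonneg (a - b), mul_self_nonneg a, mul_self_nonneg b]

theorem scalB_91 (a b : ℝ) :
    abs (b * abs b - a * abs a) ≤ 4 * (abs (b - a) * abs b) + (a ^ 2 - b ^ 2) := by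
  rw [abs_le]
  rcases le_total 0 a with ha | ha <;> rcases le_total 0 b with hb | hb <;>
    rcases le_total a b with h | h
  all_goals (first | rw [abs_of_nonneg ha] | rw [abs_of_nonpos ha])
  all_goals (first | rw [abs_of_nonneg hb] | rw [abs_of_nonpos hb])
  all_goals (first | rw [abs_of_nonneg (sub_nonneg.2 h)] | rw [abs_of_nonpos (sub_nonpos.2 h)])
  all_goals constructor
  all_goals nlinarith [mul_self_nonneg (a + b),
    mul_self_nonneg (a - b), mul_self_nonneg a, mul_self_nonneg b]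

/-- variation along an interval -/
theorem tv_Ico_91 (h : ℕ → ℝ) (a b : ℕ) (hab : a ≤ b) :
    abs (h b - h a) ≤ ∑ k ∈ Finset.Ico a b, abs (h (k + 1) - h k) := by
  induction b, hab using Nat.le_induction with
  | base => simp
  | succ b hb ih =>
    rw [Finset.sum_Ico_succ_top hb]
    have e : h (b + 1) - h a = (h b - h a) + (h (b + 1) - h b) := by ring
    rw [e]
    exact (abs_add_le _ _).trans (by linarith)

/-- consecutive blocks of a monotone sequence of cut points -/
theorem blocks_91 (c : ℕ → ℝ) (p : ℕ → ℕ) (hp : Monotone p) (m : ℕ) :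
    ∑ r ∈ Finset.range m, ∑ k ∈ Finset.Ico (p r) (p (r + 1)), c k
      = ∑ k ∈ Finset.Ico (p 0) (p m), c k := by
  induction m with
  | zero => simp
  | succ m ih =>
    rw [Finset.sum_range_succ, ih,
      Finset.sum_Ico_consecutive c (hp (Nat.zero_le m)) (hp (Nat.le_succ m))]

/-- running sums with a natural number as upper end -/
def Gp {n : ℕ} (v : Fin n → ℝ) (k : ℕ) : ℝ := ∑ l : Fin n, if l.val < k then v l else 0

theorem Gp_zero_91 {n : ℕ} (v : Fin n → ℝ) : Gp v 0 = 0 := by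
  unfold Gp; simp

theorem Gp_succ_91 {n : ℕ} (v : Fin n → ℝ) (k : Fin n) :
    Gp v (k.val + 1) - Gp v k.val = v k := by
  unfold Gp
  rw [← Finset.sum_sub_distrib, Finset.sum_eq_single k]
  · simp
  · intro l _ hl
    have hl' : l.val ≠ k.val := fun h => hl (Fin.ext h)
    by_cases h1 : l.val < k.val
    · rw [if_pos h1, if_pos (by omega)]; ring
    · rw [if_neg h1, if_neg (by omega)]; ring
  · intro h; exact absurd (Finset.mem_univ k) h

theorem Gp_le_91 {n : ℕ} (v : Fin n → ℝ) (k : Fin n) :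
    Gp v (k.val + 1) = ∑ l : Fin n, if l ≤ k then v l else 0 := by
  unfold Gp
  refine Finset.sum_congr rfl (fun l _ => ?_)
  have : (l.val < k.val + 1) ↔ l ≤ k := by rw [Fin.le_def]; omega
  by_cases h1 : l ≤ k
  · rw [if_pos h1, if_pos (this.mpr h1)]
  · rw [if_neg h1, if_neg (fun hh => h1 (this.mp hh))]

/-- own measure lemma for the quadratic variation -/
theorem james_own_91 {n : ℕ} (v : Fin n → ℝ) (m : ℕ) (p : ℕ → ℕ) (hp : Monotone p)
    (hpn : ∀ r, p r ≤ n) :
    ∑ r ∈ Finset.range m, (Gp v (p (r + 1)) - Gp v (p r)) ^ 2 ≤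
      8 * ∑ k : Fin n, |v k| * |∑ l : Fin n, if l ≤ k then v l else 0| := by
  obtain ⟨h, hh⟩ : ∃ h : ℕ → ℝ, h = fun k => Gp v k * abs (Gp v k) := ⟨_, rfl⟩
  obtain ⟨c, hc⟩ : ∃ c : ℕ → ℝ, c = fun k => abs (h (k + 1) - h k) := ⟨_, rfl⟩
  have hc0 : ∀ k, 0 ≤ c k := fun k => by rw [hc]; exact abs_nonneg _
  have s1 : ∑ r ∈ Finset.range m, (Gp v (p (r + 1)) - Gp v (p r)) ^ 2
      ≤ ∑ r ∈ Finset.range m, 2 * ∑ k ∈ Finset.Ico (p r) (p (r + 1)), c k := by
    refine Finset.sum_le_sum (fun r _ => ?_)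
    have a1 := scalA_91 (Gp v (p r)) (Gp v (p (r + 1)))
    have a2 := tv_Ico_91 h (p r) (p (r + 1)) (hp (Nat.le_succ r))
    rw [hh] at a2
    rw [hc, hh]
    simp only at a2 ⊢
    linarith
  have s2 : ∑ r ∈ Finset.range m, 2 * ∑ k ∈ Finset.Ico (p r) (p (r + 1)), c k
      = 2 * ∑ k ∈ Finset.Ico (p 0) (p m), c k := by
    rw [← Finset.mul_sum, blocks_91 c p hp m]
  have s3 : ∑ k ∈ Finset.Ico (p 0) (p m), c k ≤ ∑ k ∈ Finset.range n, c k := by
    refine Finset.sum_le_sum_of_subset_of_nonneg ?_ (fun k _ _ => hc0 k)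
    intro k hk
    rw [Finset.mem_Ico] at hk
    rw [Finset.mem_range]
    exact lt_of_lt_of_le hk.2 (hpn m)
  have s4 : ∑ k ∈ Finset.range n, c k ≤ ∑ k ∈ Finset.range n,
      (4 * (abs (Gp v (k + 1) - Gp v k) * abs (Gp v (k + 1)))
        + (Gp v k ^ 2 - Gp v (k + 1) ^ 2)) := by
    refine Finset.sum_le_sum (fun k _ => ?_)
    rw [hc, hh]
    exact scalB_91 (Gp v k) (Gp v (k + 1))
  have s5 : ∑ k ∈ Finset.range n, (Gp v k ^ 2 - Gp v (k + 1) ^ 2) = Gp v 0 ^ 2 - Gp v n ^ 2 := by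
    have := Finset.sum_range_sub (fun k => Gp v k ^ 2) n
    have e : ∑ k ∈ Finset.range n, (Gp v k ^ 2 - Gp v (k + 1) ^ 2)
        = - ∑ k ∈ Finset.range n, (Gp v (k + 1) ^ 2 - Gp v k ^ 2) := by
      rw [← Finset.sum_neg_distrib]
      refine Finset.sum_congr rfl (fun k _ => ?_)
      ring
    rw [e, this]; ring
  have s6 : ∑ k ∈ Finset.range n, (abs (Gp v (k + 1) - Gp v k) * abs (Gp v (k + 1)))
      = ∑ k : Fin n, |v k| * |∑ l : Fin n, if l ≤ k then v l else 0| := by
    rw [← Fin.sum_univ_eq_sum_range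
      (fun k => abs (Gp v (k + 1) - Gp v k) * abs (Gp v (k + 1))) n]
    refine Finset.sum_congr rfl (fun k _ => ?_)
    rw [Gp_succ_91, Gp_le_91]
  rw [Finset.sum_add_distrib, ← Finset.mul_sum, s5, s6, Gp_zero_91] at s4
  have s7 := sq_nonneg (Gp v n)
  rw [s2] at s1
  nlinarith [s1, s3, s4, s7]

/-- the own measure quantity has the polynomial rate -/
theorem ownq_91 (S : Type) [Fintype S] [DecidableEq S] (μ : S → ℝ) (P : Matrix S S ℝ)
    (hc : IsChain μ P) (n : ℕ) (f : S → Fin n → ℝ) (t : ℕ) (ht : 1 ≤ t) :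
    ∑ k, ∑ x, ∑ y, μ x * (P ^ t) x y * (|f y k - f x k| * |F f k y - F f k x|) ≤
      12 * (t : ℝ) ^ (11 / 6 : ℝ) * U μ P f := by
  have lib : StLib := stLib_75
  have own : StOwn := stOwn_33
  have ownT : StOwnT := stOwnT_27 own
  have h2 : StTel := stTel_59
  have small : StSmall := stSmall_93
  have h3 : StCol := stCol_59 small
  have triv1 : StTriv1 := stTriv1_69 small
  have rem : StRem := stRem_92 small triv1
  have triv2 : StTriv2 := stTriv2_85 small
  have sq : StSqrt := stSqrt_89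
  have blk : StBlk := stBlk_89 lib small triv2 sq
  have dual : StDual := stDual_67
  have down : StDown := stDown_73 ownT small
  have back : StBack := stBack_88 small
  have en : StEn := stEn_27 small
  have bb : StBB := stBB_38 small
  have xi : StXi := stXi_87 small en bb
  have r : StR := stR_14 small dual down back xi
  have hQ : StQ := stQ_64 small rem blk r
  have L := lib S μ P hc
  -- steps s2, s3, s4 of stTwo_77
  have s2 : ∀ k : Fin n,
      ∑ x, ∑ y, μ x * (P ^ t) x y * (|f y k - f x k| * |F f k y - F f k x|) ≤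
      ∑ r ∈ Finset.range t, (Qk μ P f (t - 1 - r) k +
        (∑ a, ∑ b, μ a * P a b * (w f a b k * ell f a b)) + Qk μ P f r k) := by
    intro k
    refine (h2 S μ P hc L (fun x => f x k) (fun x y => |F f k y - F f k x|)
      (fun x y => abs_nonneg _) t).trans ?_
    exact Finset.sum_le_sum fun r _ => h3 S μ P hc L n f k r (t - 1 - r)
  have hUe : ∑ k, (∑ a, ∑ b, μ a * P a b * (w f a b k * ell f a b)) = U μ P f := by
    unfold U
    rw [Finset.sum_comm]
    refine Finset.sum_congr rfl fun a _ => ?_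
    rw [Finset.sum_comm]
    refine Finset.sum_congr rfl fun b _ => ?_
    rw [← Finset.mul_sum, ← Finset.sum_mul]
    have : ∑ k, w f a b k = ell f a b := rfl
    rw [this]; ring
  have s3 : ∑ k, ∑ r ∈ Finset.range t, (Qk μ P f (t - 1 - r) k +
        (∑ a, ∑ b, μ a * P a b * (w f a b k * ell f a b)) + Qk μ P f r k) =
      t * U μ P f + ∑ r ∈ Finset.range t, (Qsum μ P f (t - 1 - r) + Qsum μ P f r) := by
    rw [Finset.sum_comm]
    have : ∀ r ∈ Finset.range t, ∑ k, (Qk μ P f (t - 1 - r) k +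
        (∑ a, ∑ b, μ a * P a b * (w f a b k * ell f a b)) + Qk μ P f r k) =
        U μ P f + (Qsum μ P f (t - 1 - r) + Qsum μ P f r) := by
      intro r _
      rw [Finset.sum_add_distrib, Finset.sum_add_distrib, hUe]
      unfold Qsum
      ring
    rw [Finset.sum_congr rfl this, Finset.sum_add_distrib, Finset.sum_const, Finset.card_range,
      nsmul_eq_mul]
  have s4 := Finset.sum_le_sum (s := Finset.univ) fun k _ => s2 k
  rw [s3] at s4
  -- scalar end of stCore_77
  obtain ⟨-, -, -, -, -, -, hU, -⟩ := small S μ P hc L n f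
  obtain ⟨τ, hτ, hsc⟩ := scalar_77 t ht
  have hq := hQ S μ P hc L n f τ
  obtain ⟨K, hK⟩ : ∃ K : ℝ, K = Real.sqrt (t * τ) + τ + (3 / 2) * t * (τ : ℝ) ^ (-(1 / 4) : ℝ) :=
    ⟨_, rfl⟩
  have hτ0 : (0 : ℝ) ≤ (τ : ℝ) ^ (-(1 / 4) : ℝ) := Real.rpow_nonneg (by positivity) _
  have hb : ∀ r : ℕ, r ≤ t → Qsum μ P f r ≤ K * U μ P f := by
    intro r hr
    refine (hq r hτ).trans ?_
    refine mul_le_mul_of_nonneg_right ?_ hU
    rw [hK]
    have hr' : (r : ℝ) ≤ t := by exact_mod_cast hr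
    have h1 : Real.sqrt (r * τ) ≤ Real.sqrt (t * τ) :=
      Real.sqrt_le_sqrt (mul_le_mul_of_nonneg_right hr' (by positivity))
    have h3 : (3 / 2) * (r : ℝ) * (τ : ℝ) ^ (-(1 / 4) : ℝ) ≤
        (3 / 2) * (t : ℝ) * (τ : ℝ) ^ (-(1 / 4) : ℝ) :=
      mul_le_mul_of_nonneg_right (by linarith) hτ0
    linarith
  have hsum : ∑ r ∈ Finset.range t, (Qsum μ P f (t - 1 - r) + Qsum μ P f r) ≤
      ∑ r ∈ Finset.range t, (2 * (K * U μ P f)) := by
    refine Finset.sum_le_sum fun r hr => ?_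
    have hr' := Finset.mem_range.mp hr
    have := hb (t - 1 - r) (by omega)
    have := hb r (by omega)
    linarith
  rw [Finset.sum_const, Finset.card_range, nsmul_eq_mul] at hsum
  rw [← hK] at hsc
  have := mul_le_mul_of_nonneg_right hsc hU
  nlinarith [s4, hsum, this]

/-- THE POLYNOMIAL RATE FOR THE JAMES NORM: the cut points `p i j` (any number `m i j` of them) may
depend on the pair of states, so the inner sum is the square of the quadratic variation norm of the
running sums of `f j - f i`. -/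
theorem james_poly_91 : ∀ t : ℕ, 1 ≤ t →
    ∀ (n : ℕ) (S : Type) [Fintype S] [DecidableEq S] (μ : S → ℝ) (P : Matrix S S ℝ),
      (∀ i, 0 ≤ μ i) → ∑ i, μ i = 1 → (∀ i j, 0 ≤ P i j) → (∀ i, ∑ j, P i j = 1) →
      (∀ i j, μ i * P i j = μ j * P j i) → ∀ (f : S → Fin n → ℝ)
      (m : S → S → ℕ) (p : S → S → ℕ → ℕ), (∀ i j, Monotone (p i j)) → (∀ i j r, p i j r ≤ n) →
        ∑ i, ∑ j, μ i * (P ^ t) i j * ∑ r ∈ Finset.range (m i j),
            ((∑ l : Fin n, if l.val < p i j (r + 1) then f j l - f i l else 0) -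
              (∑ l : Fin n, if l.val < p i j r then f j l - f i l else 0)) ^ 2 ≤
          96 * (t : ℝ) ^ (11 / 6 : ℝ) *
            ∑ i, ∑ j, μ i * P i j * (∑ l : Fin n, |f j l - f i l|) ^ 2 := by
  intro t ht n S _ _ μ P h0 h1 h2 h3 h4 f m p hp hpn
  have hc : IsChain μ P := ⟨h0, h1, h2, h3, h4⟩
  have hct : IsChain μ (P ^ t) := isChain_pow hc t
  have hq := ownq_91 S μ P hc n f t ht
  have hU : U μ P f = ∑ i, ∑ j, μ i * P i j * (∑ l : Fin n, |f j l - f i l|) ^ 2 := rfl
  rw [← hU]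
  have hpt : ∀ i j, ∑ r ∈ Finset.range (m i j),
      ((∑ l : Fin n, if l.val < p i j (r + 1) then f j l - f i l else 0) -
        (∑ l : Fin n, if l.val < p i j r then f j l - f i l else 0)) ^ 2 ≤
      8 * ∑ k, |f j k - f i k| * |F f k j - F f k i| := by
    intro i j
    have := james_own_91 (fun l => f j l - f i l) (m i j) (p i j) (hp i j) (hpn i j)
    simp only [F_sub_75]
    exact this
  have e : ∑ i, ∑ j, μ i * (P ^ t) i j * (8 * ∑ k, |f j k - f i k| * |F f k j - F f k i|)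
      = 8 * ∑ k, ∑ x, ∑ y, μ x * (P ^ t) x y * (|f y k - f x k| * |F f k y - F f k x|) := by
    symm
    rw [Finset.sum_comm, Finset.mul_sum]
    refine Finset.sum_congr rfl fun x _ => ?_
    rw [Finset.sum_comm, Finset.mul_sum]
    refine Finset.sum_congr rfl fun y _ => ?_
    rw [← Finset.mul_sum]
    ring
  have hle : ∑ i, ∑ j, μ i * (P ^ t) i j * ∑ r ∈ Finset.range (m i j),
            ((∑ l : Fin n, if l.val < p i j (r + 1) then f j l - f i l else 0) -
              (∑ l : Fin n, if l.val < p i j r then f j l - f i l else 0)) ^ 2 ≤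
      ∑ i, ∑ j, μ i * (P ^ t) i j * (8 * ∑ k, |f j k - f i k| * |F f k j - F f k i|) :=
    Finset.sum_le_sum fun i _ => Finset.sum_le_sum fun j _ =>
      mul_le_mul_of_nonneg_left (hpt i j) (mul_nonneg (h0 i) (hct.2.2.1 i j))
  rw [e] at hle
  linarith

end Vale.Agent.P125.Poly
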