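import Vale.Agent.P125.Poly.Defs58

set_option linter.unusedSectionVars false
set_option linter.unusedVariables false

namespace Vale.Agent.P125.Poly

open scoped BigOperators
open Vale.Agent.P125.Dich

theorem quad88 (a b c : ℝ) (h : ∀ s : ℝ, 0 ≤ a * (s * s) + (2 * b) * s + c) :
    b ^ 2 ≤ a * c := by
  have h1 := discrim_le_zero h
  unfold discrim at h1
  nlinarith

theorem stLib_88 : StLib := by
  intro S _ _ μ P hC
  have hk : ∀ k, IsChain μ (P ^ k) := fun k => isChain_pow hC k
  have hn : ∀ k x y, 0 ≤ (P ^ k) x y := fun k x y => (hk k).2.2.1 x y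
  have hsum : ∀ k x, ∑ y, (P ^ k) x y = 1 := fun k x => (hk k).2.2.2.1 x
  have hrev : ∀ k x y, μ x * (P ^ k) x y = μ y * (P ^ k) y x := fun k x y => (hk k).2.2.2.2 x y
  have hadd : ∀ a b x y, (P ^ (a + b)) x y = ∑ z, (P ^ a) x z * (P ^ b) z y := by
    intro a b x y
    rw [pow_add, Matrix.mul_apply]
  refine
    { mu_nonneg := hC.1
      mu_sum := hC.2.1
      pw_nonneg := hn
      pw_sum := hsum
      pw_rev := hrev
      pw_add := hadd
      op_zero := ?_
      op_one := ?_
      op_op := ?_
      op_mono := ?_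
      op_add := ?_
      op_sub := ?_
      op_smul := ?_
      op_sum := ?_
      op_const := ?_
      abs_op := ?_
      sq_op := ?_
      av_op := ?_
      av_adj := ?_
      av_mono := ?_
      av_cs := ?_ }
  · intro g
    funext x
    simp [op, Matrix.one_apply]
  · intro g x
    simp [op]
  · intro a b g
    funext x
    unfold op
    simp only [hadd, Finset.sum_mul, Finset.mul_sum]
    rw [Finset.sum_comm]
    refine Finset.sum_congr rfl (fun y _ => Finset.sum_congr rfl (fun z _ => by ring))
  · intro k g h hgh x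
    exact Finset.sum_le_sum (fun y _ => mul_le_mul_of_nonneg_left (hgh y) (hn k x y))
  · intro k g h x
    simp [op, mul_add, Finset.sum_add_distrib]
  · intro k g h x
    simp [op, mul_sub, Finset.sum_sub_distrib]
  · intro k c g x
    unfold op
    rw [Finset.mul_sum]
    refine Finset.sum_congr rfl (fun y _ => by ring)
  · intro ι s k g x
    unfold op
    simp only [Finset.mul_sum]
    rw [Finset.sum_comm]
  · intro k c x
    unfold op
    rw [← Finset.sum_mul, hsum, one_mul]
  · intro k g x
    unfold op
    refine (Finset.abs_sum_le_sum_abs _ _).trans (le_of_eq ?_)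
    refine Finset.sum_congr rfl (fun y _ => ?_)
    rw [abs_mul, abs_of_nonneg (hn k x y)]
  · intro k g x
    unfold op
    have h0 : ∀ m : ℝ, 0 ≤ ∑ y, (P ^ k) x y * (g y - m) ^ 2 := fun m =>
      Finset.sum_nonneg (fun y _ => mul_nonneg (hn k x y) (sq_nonneg _))
    have h1 : ∀ m : ℝ, ∑ y, (P ^ k) x y * (g y - m) ^ 2
        = ∑ y, (P ^ k) x y * g y ^ 2 - 2 * m * (∑ y, (P ^ k) x y * g y)
          + m ^ 2 * ∑ y, (P ^ k) x y := by
      intro m
      rw [Finset.mul_sum, Finset.mul_sum, ← Finset.sum_sub_distrib, ← Finset.sum_add_distrib]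
      refine Finset.sum_congr rfl (fun y _ => by ring)
    have h2 := h0 (∑ y, (P ^ k) x y * g y)
    rw [h1, hsum] at h2
    nlinarith
  · intro k g
    unfold av op
    simp only [Finset.mul_sum]
    rw [Finset.sum_comm]
    refine Finset.sum_congr rfl (fun y _ => ?_)
    have : ∀ x, μ x * ((P ^ k) x y * g y) = μ y * g y * (P ^ k) y x := by
      intro x
      rw [← mul_assoc, hrev k x y]
      ring
    simp only [this]
    rw [← Finset.mul_sum, hsum, mul_one]
  · intro k g h
    unfold av op
    simp only [Finset.mul_sum, Finset.sum_mul]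
    rw [Finset.sum_comm]
    refine Finset.sum_congr rfl (fun y _ => Finset.sum_congr rfl (fun x _ => ?_))
    have := hrev k x y
    calc μ x * (g x * ((P ^ k) x y * h y)) = (μ x * (P ^ k) x y) * (g x * h y) := by ring
      _ = (μ y * (P ^ k) y x) * (g x * h y) := by rw [this]
      _ = _ := by ring
  · intro g h hgh
    exact Finset.sum_le_sum (fun x _ => mul_le_mul_of_nonneg_left (hgh x) (hC.1 x))
  · intro g h
    have hA : 0 ≤ av μ (fun x => g x ^ 2) :=
      Finset.sum_nonneg (fun x _ => mul_nonneg (hC.1 x) (sq_nonneg _))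
    rw [← Real.sqrt_mul hA]
    apply Real.le_sqrt_of_sq_le
    apply quad88
    intro s
    have h0 : 0 ≤ ∑ x, μ x * (s * g x + h x) ^ 2 :=
      Finset.sum_nonneg (fun x _ => mul_nonneg (hC.1 x) (sq_nonneg _))
    have h1 : ∑ x, μ x * (s * g x + h x) ^ 2
        = av μ (fun x => g x ^ 2) * (s * s) + 2 * av μ (fun x => g x * h x) * s
          + av μ (fun x => h x ^ 2) := by
      unfold av
      rw [Finset.sum_mul, Finset.mul_sum, Finset.sum_mul, ← Finset.sum_add_distrib,
        ← Finset.sum_add_distrib]
      refine Finset.sum_congr rfl (fun x _ => by ring)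
    linarith

end Vale.Agent.P125.Poly
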