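import Vale.Agent.P125.Poly.Defs58

set_option linter.unusedSectionVars false
set_option linter.unusedVariables false

namespace Vale.Agent.P125.Poly

open scoped BigOperators
open Vale.Agent.P125.Dich

variable {S : Type} [Fintype S] [DecidableEq S]

theorem pow_succ_sum_87 (P : Matrix S S ℝ) (r : ℕ) (c : S) (K : S → ℝ) :
    ∑ d, (P ^ (r + 1)) c d * K d = ∑ d', (P ^ r) c d' * ∑ d, P d' d * K d := by
  have : ∀ d, (P ^ (r + 1)) c d * K d = ∑ d', (P ^ r) c d' * (P d' d * K d) := by
    intro d
    rw [pow_succ, Matrix.mul_apply, Finset.sum_mul]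
    exact Finset.sum_congr rfl fun d' _ => by ring
  simp_rw [this]
  rw [Finset.sum_comm]
  exact Finset.sum_congr rfl fun d' _ => by rw [Finset.mul_sum]

/-- telescoping along the chain -/
theorem telescope_87 {μ : S → ℝ} {P : Matrix S S ℝ} (h : IsChain μ P) (g : S → ℝ) :
    ∀ (t : ℕ) (H : S → S → ℝ), (∀ a d, 0 ≤ H a d) →
    ∑ a, ∑ d, μ a * (P ^ t) a d * (|g d - g a| * H a d) ≤
      ∑ k ∈ Finset.range t, ∑ a, ∑ b, ∑ c, μ a * (P ^ k) a b * P b c *
        (|g c - g b| * ∑ d, (P ^ (t - 1 - k)) c d * H a d) := by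
  intro t
  induction t with
  | zero =>
    intro H hH
    apply le_of_eq
    rw [Finset.range_zero, Finset.sum_empty]
    refine Finset.sum_eq_zero fun a _ => Finset.sum_eq_zero fun d _ => ?_
    rw [pow_zero, Matrix.one_apply]
    by_cases had : a = d
    · subst had
      simp
    · simp [had]
  | succ t ih =>
    intro H hH
    obtain ⟨q1, q2, q3, q4, q5⟩ := isChain_pow h t
    obtain ⟨h1, h2, h3, h4, h5⟩ := h
    set H' : S → S → ℝ := fun a c => ∑ d, P c d * H a d with hH'
    have hH'0 : ∀ a c, 0 ≤ H' a c := fun a c =>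
      Finset.sum_nonneg fun d _ => mul_nonneg (h3 c d) (hH a d)
    have e1 : ∑ a, ∑ d, μ a * (P ^ (t + 1)) a d * (|g d - g a| * H a d)
        = ∑ a, ∑ c, ∑ d, μ a * (P ^ t) a c * P c d * (|g d - g a| * H a d) := by
      refine Finset.sum_congr rfl fun a _ => ?_
      rw [Finset.sum_comm]
      refine Finset.sum_congr rfl fun d _ => ?_
      rw [pow_succ, Matrix.mul_apply, Finset.mul_sum, Finset.sum_mul]
      exact Finset.sum_congr rfl fun c _ => by ring
    have e2 : ∑ a, ∑ c, ∑ d, μ a * (P ^ t) a c * P c d * (|g d - g a| * H a d) ≤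
        ∑ a, ∑ c, ∑ d, (μ a * (P ^ t) a c * P c d * (|g c - g a| * H a d)
          + μ a * (P ^ t) a c * P c d * (|g d - g c| * H a d)) := by
      refine Finset.sum_le_sum fun a _ => Finset.sum_le_sum fun c _ =>
        Finset.sum_le_sum fun d _ => ?_
      rw [← mul_add]
      apply mul_le_mul_of_nonneg_left _ (mul_nonneg (mul_nonneg (h1 a) (q3 a c)) (h3 c d))
      rw [← add_mul]
      apply mul_le_mul_of_nonneg_right _ (hH a d)
      have : g d - g a = (g c - g a) + (g d - g c) := by ring
      rw [this]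
      exact abs_add_le _ _
    have e3 : ∑ a, ∑ c, ∑ d, (μ a * (P ^ t) a c * P c d * (|g c - g a| * H a d)
          + μ a * (P ^ t) a c * P c d * (|g d - g c| * H a d))
        = ∑ a, ∑ c, μ a * (P ^ t) a c * (|g c - g a| * H' a c)
          + ∑ a, ∑ b, ∑ c, μ a * (P ^ t) a b * P b c * (|g c - g b| * H a c) := by
      rw [← Finset.sum_add_distrib]
      refine Finset.sum_congr rfl fun a _ => ?_
      rw [← Finset.sum_add_distrib]
      refine Finset.sum_congr rfl fun c _ => ?_
      rw [Finset.sum_add_distrib]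
      congr 1
      rw [hH']
      simp only
      rw [Finset.mul_sum, Finset.mul_sum]
      exact Finset.sum_congr rfl fun d _ => by ring
    have e4 := ih H' hH'0
    rw [e1]
    refine e2.trans ?_
    rw [e3, Finset.sum_range_succ]
    apply add_le_add
    · refine e4.trans (le_of_eq ?_)
      refine Finset.sum_congr rfl fun k hk => ?_
      have hk' : k < t := Finset.mem_range.1 hk
      have hidx : t + 1 - 1 - k = (t - 1 - k) + 1 := by omega
      refine Finset.sum_congr rfl fun a _ => Finset.sum_congr rfl fun b _ =>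
        Finset.sum_congr rfl fun c _ => ?_
      rw [hidx, pow_succ_sum_87]
    · apply le_of_eq
      refine Finset.sum_congr rfl fun a _ => Finset.sum_congr rfl fun b _ =>
        Finset.sum_congr rfl fun c _ => ?_
      have hidx : t + 1 - 1 - t = 0 := by omega
      rw [hidx, pow_zero]
      simp [Matrix.one_apply]

theorem stTel_87 : StTel := by
  intro S _ _ μ P hP hL g Φ hΦ t
  refine (telescope_87 hP g t Φ hΦ).trans (le_of_eq ?_)
  refine Finset.sum_congr rfl fun r _ => Finset.sum_congr rfl fun x _ =>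
    Finset.sum_congr rfl fun a _ => Finset.sum_congr rfl fun b _ => ?_
  rw [Finset.mul_sum, Finset.mul_sum]
  exact Finset.sum_congr rfl fun y _ => by ring

end Vale.Agent.P125.Poly
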