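import Vale.Agent.P125.BV.Top

set_option linter.unusedSectionVars false
set_option linter.unusedVariables false

/-!
# P125, polynomial rate: small operator API (matrices acting on functions)
-/

namespace Vale.Agent.P125.Poly6

open scoped BigOperators
open Vale.Agent.P125.Dich Vale.Agent.P125.BV

variable {S : Type} [Fintype S] [DecidableEq S]

/-- the matrix `R` acting on the function `g` (this is `R.mulVec g`) -/
def op (R : Matrix S S ℝ) (g : S → ℝ) (x : S) : ℝ := ∑ y, R x y * g y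

lemma op_eq_mulVec (R : Matrix S S ℝ) (g : S → ℝ) : op R g = R.mulVec g := rfl

lemma op_mul (R R' : Matrix S S ℝ) (g : S → ℝ) : op (R * R') g = op R (op R' g) := by
  rw [op_eq_mulVec, op_eq_mulVec, op_eq_mulVec, Matrix.mulVec_mulVec]

lemma op_pow_add (P : Matrix S S ℝ) (a b : ℕ) (g : S → ℝ) :
    op (P ^ (a + b)) g = op (P ^ a) (op (P ^ b) g) := by
  rw [pow_add, op_mul]

lemma op_one (g : S → ℝ) : op (1 : Matrix S S ℝ) g = g := by
  rw [op_eq_mulVec, Matrix.one_mulVec]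

lemma op_add (R : Matrix S S ℝ) (g h : S → ℝ) (x : S) :
    op R (fun y => g y + h y) x = op R g x + op R h x := by
  simp only [op, mul_add, Finset.sum_add_distrib]

lemma op_sub (R : Matrix S S ℝ) (g h : S → ℝ) (x : S) :
    op R (fun y => g y - h y) x = op R g x - op R h x := by
  simp only [op, mul_sub, Finset.sum_sub_distrib]

lemma op_smul (R : Matrix S S ℝ) (c : ℝ) (g : S → ℝ) (x : S) :
    op R (fun y => c * g y) x = c * op R g x := by
  simp only [op, Finset.mul_sum]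
  refine Finset.sum_congr rfl fun y _ => by ring

lemma op_sum {ι : Type} (R : Matrix S S ℝ) (s : Finset ι) (g : ι → S → ℝ) (x : S) :
    op R (fun y => ∑ i ∈ s, g i y) x = ∑ i ∈ s, op R (g i) x := by
  simp only [op, Finset.mul_sum]
  rw [Finset.sum_comm]

lemma op_mono {R : Matrix S S ℝ} (h0 : ∀ i j, 0 ≤ R i j) {g h : S → ℝ} (hgh : ∀ y, g y ≤ h y)
    (x : S) : op R g x ≤ op R h x :=
  Finset.sum_le_sum fun y _ => mul_le_mul_of_nonneg_left (hgh y) (h0 x y)

lemma op_nonneg {R : Matrix S S ℝ} (h0 : ∀ i j, 0 ≤ R i j) {g : S → ℝ} (hg : ∀ y, 0 ≤ g y)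
    (x : S) : 0 ≤ op R g x :=
  Finset.sum_nonneg fun y _ => mul_nonneg (h0 x y) (hg y)

lemma abs_op_le {R : Matrix S S ℝ} (h0 : ∀ i j, 0 ≤ R i j) (g : S → ℝ) (x : S) :
    |op R g x| ≤ op R (fun y => |g y|) x := by
  unfold op
  refine (Finset.abs_sum_le_sum_abs _ _).trans (Finset.sum_le_sum fun y _ => ?_)
  rw [abs_mul, abs_of_nonneg (h0 x y)]

lemma abs_op_le_of {R : Matrix S S ℝ} (h0 : ∀ i j, 0 ≤ R i j) {g L : S → ℝ}
    (h : ∀ y, |g y| ≤ L y) (x : S) : |op R g x| ≤ op R L x :=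
  (abs_op_le h0 g x).trans (op_mono h0 h x)

/-- self-adjointness -/
lemma selfadj {μ : S → ℝ} {R : Matrix S S ℝ} (hc : IsChain μ R) (g h : S → ℝ) :
    ∑ x, μ x * (g x * op R h x) = ∑ x, μ x * (op R g x * h x) := by
  have h1 : ∑ x, μ x * (g x * op R h x) = ∑ x, ∑ y, μ x * R x y * (g x * h y) := by
    refine Finset.sum_congr rfl fun x _ => ?_
    simp only [op, Finset.mul_sum]
    refine Finset.sum_congr rfl fun y _ => by ring
  have h2 : ∑ x, μ x * (op R g x * h x) = ∑ x, ∑ y, μ y * R y x * (g y * h x) := by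
    refine Finset.sum_congr rfl fun x _ => ?_
    simp only [op, Finset.mul_sum, Finset.sum_mul]
    refine Finset.sum_congr rfl fun y _ => ?_
    rw [← hc.2.2.2.2 x y]; ring
  rw [h1, h2, Finset.sum_comm]

/-- stationarity -/
lemma stat {μ : S → ℝ} {R : Matrix S S ℝ} (hc : IsChain μ R) (g : S → ℝ) :
    ∑ x, μ x * op R g x = ∑ x, μ x * g x := by
  have h := selfadj hc (fun _ => 1) g
  have h1 : ∀ x, op R (fun _ => (1 : ℝ)) x = 1 := by
    intro x; simp [op, hc.2.2.2.1 x]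
  simpa [h1] using h

/-- weighted Cauchy-Schwarz -/
lemma wcs {ι : Type} (s : Finset ι) (w a b : ι → ℝ) (hw : ∀ i ∈ s, 0 ≤ w i) :
    (∑ i ∈ s, w i * (a i * b i)) ^ 2 ≤ (∑ i ∈ s, w i * a i ^ 2) * (∑ i ∈ s, w i * b i ^ 2) := by
  have h := Finset.sum_mul_sq_le_sq_mul_sq s (fun i => Real.sqrt (w i) * a i)
    (fun i => Real.sqrt (w i) * b i)
  have e1 : ∑ i ∈ s, (Real.sqrt (w i) * a i) * (Real.sqrt (w i) * b i)
      = ∑ i ∈ s, w i * (a i * b i) := by
    refine Finset.sum_congr rfl fun i hi => ?_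
    have := Real.mul_self_sqrt (hw i hi)
    calc (Real.sqrt (w i) * a i) * (Real.sqrt (w i) * b i)
        = (Real.sqrt (w i) * Real.sqrt (w i)) * (a i * b i) := by ring
      _ = _ := by rw [this]
  have e2 : ∀ c : ι → ℝ, ∑ i ∈ s, (Real.sqrt (w i) * c i) ^ 2 = ∑ i ∈ s, w i * c i ^ 2 := by
    intro c
    refine Finset.sum_congr rfl fun i hi => ?_
    rw [mul_pow, Real.sq_sqrt (hw i hi)]
  rw [e1, e2, e2] at h
  exact h

/-- Jensen -/
lemma jensen {R : Matrix S S ℝ} (h0 : ∀ i j, 0 ≤ R i j) (h1 : ∀ i, ∑ j, R i j = 1)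
    (g : S → ℝ) (x : S) : (op R g x) ^ 2 ≤ op R (fun y => g y ^ 2) x := by
  have h := wcs Finset.univ (fun y => R x y) (fun _ => 1) g (fun y _ => h0 x y)
  simp only [one_mul, one_pow, mul_one, h1 x] at h
  exact h

/-- `L_2` contraction -/
lemma l2contr {μ : S → ℝ} {R : Matrix S S ℝ} (hc : IsChain μ R) (g : S → ℝ) :
    ∑ x, μ x * (op R g x) ^ 2 ≤ ∑ x, μ x * g x ^ 2 := by
  rw [← stat hc (fun y => g y ^ 2)]
  exact Finset.sum_le_sum fun x _ =>
    mul_le_mul_of_nonneg_left (jensen hc.2.2.1 hc.2.2.2.1 g x) (hc.1 x)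

/-- geometric sum -/
lemma geom (P : Matrix S S ℝ) (F : S → ℝ) (τ : ℕ) (x : S) :
    op (P ^ τ) F x - F x = ∑ i ∈ Finset.range τ, op (P ^ i) (fun y => op P F y - F y) x := by
  induction τ with
  | zero => simp [op_one]
  | succ τ ih =>
    rw [Finset.sum_range_succ, ← ih, op_sub, pow_succ, op_mul]
    ring

/-- Dirichlet form identity -/
lemma dirichlet {μ : S → ℝ} {P : Matrix S S ℝ} (hc : IsChain μ P) (U F : S → ℝ) :
    ∑ x, μ x * (U x * (op P F x - F x)) =
      (1 / 2) * ∑ a, ∑ b, μ a * P a b * ((U a - U b) * (F b - F a)) := by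
  have h1 : ∑ x, μ x * (U x * (op P F x - F x)) = ∑ a, ∑ b, μ a * P a b * (U a * (F b - F a)) := by
    refine Finset.sum_congr rfl fun a _ => ?_
    have : op P F a - F a = ∑ b, P a b * (F b - F a) := by
      simp only [op, mul_sub, Finset.sum_sub_distrib, ← Finset.sum_mul, hc.2.2.2.1 a, one_mul]
    rw [this, Finset.mul_sum, Finset.mul_sum]
    refine Finset.sum_congr rfl fun b _ => by ring
  have h2 : ∑ a, ∑ b, μ a * P a b * (U a * (F b - F a))
      = ∑ a, ∑ b, μ a * P a b * (U b * (F a - F b)) := by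
    rw [Finset.sum_comm]
    refine Finset.sum_congr rfl fun a _ => Finset.sum_congr rfl fun b _ => ?_
    rw [hc.2.2.2.2 b a]
  have h3 : ∑ a, ∑ b, μ a * P a b * ((U a - U b) * (F b - F a))
      = ∑ a, ∑ b, μ a * P a b * (U a * (F b - F a)) + ∑ a, ∑ b, μ a * P a b * (U b * (F a - F b)) := by
    rw [← Finset.sum_add_distrib]
    refine Finset.sum_congr rfl fun a _ => ?_
    rw [← Finset.sum_add_distrib]
    refine Finset.sum_congr rfl fun b _ => by ring
  rw [h3, ← h2, h1]; ring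

end Vale.Agent.P125.Poly6
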