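import Vale.Agent.P125.Dich.Iter

set_option linter.unusedSectionVars false
set_option linter.unusedVariables false

/-!
# P125, polynomial rate: operator calculus for a stationary reversible chain
-/

namespace Vale.Agent.P125.Poly34

open Vale.Agent.P125.Dich
open scoped BigOperators Matrix

variable {S : Type} [Fintype S] [DecidableEq S] {μ : S → ℝ} {P : Matrix S S ℝ}

lemma mv_apply (P : Matrix S S ℝ) (g : S → ℝ) (y : S) : (P *ᵥ g) y = ∑ z, P y z * g z := rfl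

lemma mv_mono (hc : IsChain μ P) {g h : S → ℝ} (hgh : ∀ y, g y ≤ h y) (y : S) :
    (P *ᵥ g) y ≤ (P *ᵥ h) y := by
  rw [mv_apply, mv_apply]
  exact Finset.sum_le_sum fun z _ => mul_le_mul_of_nonneg_left (hgh z) (hc.2.2.1 y z)

lemma mv_nonneg (hc : IsChain μ P) {g : S → ℝ} (hg : ∀ y, 0 ≤ g y) (y : S) : 0 ≤ (P *ᵥ g) y := by
  rw [mv_apply]
  exact Finset.sum_nonneg fun z _ => mul_nonneg (hc.2.2.1 y z) (hg z)

lemma abs_mv_le (hc : IsChain μ P) (g : S → ℝ) (y : S) :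
    |(P *ᵥ g) y| ≤ (P *ᵥ (fun z => |g z|)) y := by
  rw [mv_apply, mv_apply]
  refine (Finset.abs_sum_le_sum_abs _ _).trans (le_of_eq ?_)
  refine Finset.sum_congr rfl fun z _ => ?_
  rw [abs_mul, abs_of_nonneg (hc.2.2.1 y z)]

lemma abs_mv_le_of (hc : IsChain μ P) {g L : S → ℝ} (h : ∀ y, |g y| ≤ L y) (y : S) :
    |(P *ᵥ g) y| ≤ (P *ᵥ L) y :=
  (abs_mv_le hc g y).trans (mv_mono hc h y)

lemma mv_const (hc : IsChain μ P) (c : ℝ) (y : S) : (P *ᵥ (fun _ => c)) y = c := by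
  rw [mv_apply, ← Finset.sum_mul, hc.2.2.2.1 y, one_mul]

lemma mv_add (P : Matrix S S ℝ) (g h : S → ℝ) (y : S) :
    (P *ᵥ (fun z => g z + h z)) y = (P *ᵥ g) y + (P *ᵥ h) y := by
  rw [mv_apply, mv_apply, mv_apply, ← Finset.sum_add_distrib]
  exact Finset.sum_congr rfl fun z _ => by ring

lemma mv_sub (P : Matrix S S ℝ) (g h : S → ℝ) (y : S) :
    (P *ᵥ (fun z => g z - h z)) y = (P *ᵥ g) y - (P *ᵥ h) y := by
  rw [mv_apply, mv_apply, mv_apply, ← Finset.sum_sub_distrib]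
  exact Finset.sum_congr rfl fun z _ => by ring

lemma mv_smul (P : Matrix S S ℝ) (c : ℝ) (g : S → ℝ) (y : S) :
    (P *ᵥ (fun z => c * g z)) y = c * (P *ᵥ g) y := by
  rw [mv_apply, mv_apply, Finset.mul_sum]
  exact Finset.sum_congr rfl fun z _ => by ring

lemma mv_sum {ι : Type*} (P : Matrix S S ℝ) (s : Finset ι) (g : ι → S → ℝ) (y : S) :
    (P *ᵥ (fun z => ∑ i ∈ s, g i z)) y = ∑ i ∈ s, (P *ᵥ g i) y := by
  simp only [mv_apply, Finset.mul_sum]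
  rw [Finset.sum_comm]

lemma selfadj (hc : IsChain μ P) (g h : S → ℝ) :
    ∑ y, μ y * (g y * (P *ᵥ h) y) = ∑ y, μ y * ((P *ᵥ g) y * h y) := by
  simp only [mv_apply, Finset.mul_sum, Finset.sum_mul]
  rw [Finset.sum_comm]
  refine Finset.sum_congr rfl fun z _ => Finset.sum_congr rfl fun y _ => ?_
  have := hc.2.2.2.2 y z
  calc μ y * (g y * (P y z * h z)) = (μ y * P y z) * (g y * h z) := by ring
    _ = (μ z * P z y) * (g y * h z) := by rw [this]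
    _ = μ z * (P z y * g y * h z) := by ring

lemma stat (hc : IsChain μ P) (g : S → ℝ) : ∑ y, μ y * (P *ᵥ g) y = ∑ y, μ y * g y := by
  have h := selfadj hc (fun _ => 1) g
  simp only [one_mul] at h
  rw [h]
  refine Finset.sum_congr rfl fun y _ => ?_
  rw [mv_const hc 1 y, one_mul]

lemma jensen (hc : IsChain μ P) (g : S → ℝ) (y : S) :
    ((P *ᵥ g) y) ^ 2 ≤ (P *ᵥ (fun z => g z ^ 2)) y := by
  set m := (P *ᵥ g) y with hm
  have h1 : 0 ≤ (P *ᵥ (fun z => (g z - m) ^ 2)) y := mv_nonneg hc (fun z => sq_nonneg _) y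
  have h2 : (P *ᵥ (fun z => (g z - m) ^ 2)) y = (P *ᵥ (fun z => g z ^ 2)) y - m ^ 2 := by
    have e : (fun z => (g z - m) ^ 2) = fun z => (g z ^ 2 + (-(2 * m)) * g z) + m ^ 2 := by
      funext z; ring
    rw [e, mv_add P (fun z => g z ^ 2 + (-(2 * m)) * g z) (fun _ => m ^ 2),
      mv_add P (fun z => g z ^ 2) (fun z => (-(2 * m)) * g z), mv_smul, mv_const hc]
    rw [← hm]
    ring
  linarith

lemma contr (hc : IsChain μ P) (g : S → ℝ) :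
    ∑ y, μ y * ((P *ᵥ g) y) ^ 2 ≤ ∑ y, μ y * g y ^ 2 := by
  rw [← stat hc (fun z => g z ^ 2)]
  exact Finset.sum_le_sum fun y _ => mul_le_mul_of_nonneg_left (jensen hc g y) (hc.1 y)

lemma pow_succ_mv (P : Matrix S S ℝ) (i : ℕ) (g : S → ℝ) :
    (P ^ (i + 1)) *ᵥ g = (P ^ i) *ᵥ (P *ᵥ g) := by
  rw [pow_succ, Matrix.mulVec_mulVec]

lemma pow_succ_mv' (P : Matrix S S ℝ) (i : ℕ) (g : S → ℝ) :
    (P ^ (i + 1)) *ᵥ g = P *ᵥ ((P ^ i) *ᵥ g) := by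
  rw [pow_succ', Matrix.mulVec_mulVec]

lemma pow_add_mv (P : Matrix S S ℝ) (i j : ℕ) (g : S → ℝ) :
    (P ^ (i + j)) *ᵥ g = (P ^ i) *ᵥ ((P ^ j) *ᵥ g) := by
  rw [pow_add, Matrix.mulVec_mulVec]

/-- weighted inner product inequality `2 <g,h> ≤ |g|^2 + |h|^2` -/
lemma inner_le (hc : IsChain μ P) (g h : S → ℝ) :
    ∑ y, μ y * (g y * h y) ≤ (∑ y, μ y * g y ^ 2 + ∑ y, μ y * h y ^ 2) / 2 := by
  rw [← Finset.sum_add_distrib, Finset.sum_div]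
  refine Finset.sum_le_sum fun y _ => ?_
  have := hc.1 y
  nlinarith [mul_nonneg this (sq_nonneg (g y - h y))]

/-- the time average `(1/τ) ∑_{i<τ} P^i g` -/
noncomputable def avg (τ : ℕ) (P : Matrix S S ℝ) (g : S → ℝ) : S → ℝ :=
  fun y => (1 / (τ : ℝ)) * ∑ i ∈ Finset.range τ, ((P ^ i) *ᵥ g) y

lemma abs_avg_le (hc : IsChain μ P) (τ : ℕ) {g L : S → ℝ} (h : ∀ y, |g y| ≤ L y) (y : S) :
    |avg τ P g y| ≤ avg τ P L y := by
  unfold avg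
  rw [abs_mul, abs_of_nonneg (by positivity : (0 : ℝ) ≤ 1 / (τ : ℝ))]
  apply mul_le_mul_of_nonneg_left _ (by positivity)
  refine (Finset.abs_sum_le_sum_abs _ _).trans ?_
  exact Finset.sum_le_sum fun i _ => abs_mv_le_of (isChain_pow hc i) h y

lemma avg_sq_le (τ : ℕ) (hτ : 1 ≤ τ) (P : Matrix S S ℝ) (g : S → ℝ) (y : S) :
    (avg τ P g y) ^ 2 ≤ (1 / (τ : ℝ)) * ∑ i ∈ Finset.range τ, (((P ^ i) *ᵥ g) y) ^ 2 := by
  unfold avg
  have hτ0 : (0 : ℝ) < τ := by exact_mod_cast hτ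
  have h := sq_sum_le_card_mul_sum_sq (s := Finset.range τ) (f := fun i => ((P ^ i) *ᵥ g) y)
  rw [Finset.card_range] at h
  rw [mul_pow]
  have h2 : (1 / (τ : ℝ)) ^ 2 * (∑ i ∈ Finset.range τ, ((P ^ i) *ᵥ g) y) ^ 2
      ≤ (1 / (τ : ℝ)) ^ 2 * ((τ : ℝ) * ∑ i ∈ Finset.range τ, (((P ^ i) *ᵥ g) y) ^ 2) :=
    mul_le_mul_of_nonneg_left h (by positivity)
  refine h2.trans (le_of_eq ?_)
  field_simp

lemma avg_contr (hc : IsChain μ P) (τ : ℕ) (hτ : 1 ≤ τ) (g : S → ℝ) :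
    ∑ y, μ y * (avg τ P g y) ^ 2 ≤ ∑ y, μ y * g y ^ 2 := by
  have hτ0 : (0 : ℝ) < τ := by exact_mod_cast hτ
  have h1 : ∑ y, μ y * (avg τ P g y) ^ 2
      ≤ ∑ y, μ y * ((1 / (τ : ℝ)) * ∑ i ∈ Finset.range τ, (((P ^ i) *ᵥ g) y) ^ 2) :=
    Finset.sum_le_sum fun y _ => mul_le_mul_of_nonneg_left (avg_sq_le τ hτ P g y) (hc.1 y)
  have h2 : ∑ y, μ y * ((1 / (τ : ℝ)) * ∑ i ∈ Finset.range τ, (((P ^ i) *ᵥ g) y) ^ 2)
      = (1 / (τ : ℝ)) * ∑ i ∈ Finset.range τ, ∑ y, μ y * (((P ^ i) *ᵥ g) y) ^ 2 := by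
    simp only [Finset.mul_sum]
    rw [Finset.sum_comm]
    refine Finset.sum_congr rfl fun i _ => Finset.sum_congr rfl fun y _ => by ring
  have h3 : ∑ i ∈ Finset.range τ, ∑ y, μ y * (((P ^ i) *ᵥ g) y) ^ 2
      ≤ ∑ i ∈ Finset.range τ, ∑ y, μ y * g y ^ 2 :=
    Finset.sum_le_sum fun i _ => contr (isChain_pow hc i) g
  rw [Finset.sum_const, Finset.card_range, nsmul_eq_mul] at h3
  calc ∑ y, μ y * (avg τ P g y) ^ 2 ≤ _ := h1
    _ = _ := h2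
    _ ≤ (1 / (τ : ℝ)) * ((τ : ℝ) * ∑ y, μ y * g y ^ 2) :=
        mul_le_mul_of_nonneg_left h3 (by positivity)
    _ = ∑ y, μ y * g y ^ 2 := by field_simp

/-- `P (A g) - A g = (P^τ g - g) / τ` -/
lemma mv_avg_sub (τ : ℕ) (P : Matrix S S ℝ) (g : S → ℝ) (y : S) :
    (P *ᵥ (avg τ P g)) y - avg τ P g y = (1 / (τ : ℝ)) * (((P ^ τ) *ᵥ g) y - g y) := by
  have h1 : (P *ᵥ (avg τ P g)) y
      = (1 / (τ : ℝ)) * ∑ i ∈ Finset.range τ, ((P ^ (i + 1)) *ᵥ g) y := by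
    unfold avg
    rw [mv_smul, mv_sum]
    congr 1
    refine Finset.sum_congr rfl fun i _ => ?_
    rw [pow_succ_mv']
  rw [h1]
  unfold avg
  rw [← mul_sub, ← Finset.sum_sub_distrib]
  congr 1
  rw [Finset.sum_range_sub (fun i => ((P ^ i) *ᵥ g) y) τ]
  simp

end Vale.Agent.P125.Poly34
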