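import Vale.Agent.P125.BV.Conc27

set_option linter.unusedSectionVars false
set_option linter.unusedVariables false

/-!
# P125, polynomial rate: Steps 1 and 2 (reduction to the own measure)

`ownF w (m :: r)` is the sum over the coordinates `a` of `|w m a|` times the absolute value of the
initial sum up to `a` of the displacement along `r`: the threshold is supplied by the mark `m`
which precedes the path `r`.
-/

namespace Vale.Agent.P125.Poly27

open scoped BigOperators
open Vale.Agent.P125.Dich Vale.Agent.P125.Alpha Vale.Agent.P125.BV27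

variable {n : ℕ} {S M : Type} [Fintype S] [Fintype M]

/-- Step 1, scalar form -/
lemma sq_le_own (G : ℕ → ℝ) (h0 : G 0 = 0) (N : ℕ) :
    ∀ k, k ≤ N → G k ^ 2 ≤ 2 * ∑ a ∈ Finset.range N, |G (a + 1)| * |G (a + 1) - G a| := by
  have hstep : ∀ k, G k ^ 2 ≤ 2 * ∑ a ∈ Finset.range k, |G (a + 1)| * |G (a + 1) - G a| := by
    intro k
    induction k with
    | zero => simp [h0]
    | succ k ih =>
      rw [Finset.sum_range_succ]
      have h1 : G (k + 1) * (G (k + 1) - G k) ≤ |G (k + 1)| * |G (k + 1) - G k| := by
        rw [← abs_mul]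
        exact le_abs_self _
      nlinarith [sq_nonneg (G (k + 1) - G k)]
  intro k hk
  refine (hstep k).trans ?_
  have : ∑ a ∈ Finset.range k, |G (a + 1)| * |G (a + 1) - G a| ≤
      ∑ a ∈ Finset.range N, |G (a + 1)| * |G (a + 1) - G a| := by
    apply Finset.sum_le_sum_of_subset_of_nonneg
    · intro a ha
      exact Finset.mem_range.2 (lt_of_lt_of_le (Finset.mem_range.1 ha) hk)
    · intro a _ _
      positivity
  linarith

/-- Step 1 for a vector -/
lemma nJ_sq_le (v : Fin n → ℝ) :
    nJ v ^ 2 ≤ 2 * ∑ a : Fin n, |pre v (a.val + 1)| * |v a| := by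
  obtain ⟨k, hk, h⟩ := exists_pre_eq_nJ v
  have h1 := sq_le_own (fun k => pre v k) (by simp [pre]) n k hk
  rw [Finset.sum_range (fun a => |pre v (a + 1)| * |pre v (a + 1) - pre v a|)] at h1
  have h2 : ∀ a : Fin n, |pre v (a.val + 1)| * |pre v (a.val + 1) - pre v a.val|
      = |pre v (a.val + 1)| * |v a| := by
    intro a
    rw [pre_succ_sub]
  simp only [h2] at h1
  rw [← h, sq_abs]
  exact h1

/-- the value of `φ` at the first entry of a list -/
def hdv (φ : M → ℝ) : List M → ℝ
  | [] => 0
  | m :: _ => φ m

lemma sum_map_eq_hdv (φ : M → ℝ) (l : List M) :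
    (l.map φ).sum = ∑ k ∈ Finset.range l.length, hdv φ (l.drop k) := by
  induction l with
  | nil => simp
  | cons m l ih =>
    rw [List.length_cons, Finset.sum_range_succ']
    simp only [List.drop_succ_cons, List.drop_zero, List.map_cons, List.sum_cons]
    rw [ih]
    simp only [hdv]
    ring

/-- the own functional: the first mark supplies the thresholds for the rest of the path -/
noncomputable def ownF (w : M → Fin n → ℝ) : List M → ℝ
  | [] => 0
  | m :: r => ∑ a : Fin n, |w m a| * |pre (sm w r) (a.val + 1)|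

lemma abs_sm_le (w : M → Fin n → ℝ) (l : List M) (a : Fin n) :
    |sm w l a| ≤ (l.map (fun m => |w m a|)).sum := by
  induction l with
  | nil => simp [sm]
  | cons m l ih =>
    rw [sm_cons]
    simp only [Pi.add_apply, List.map_cons, List.sum_cons]
    exact (abs_add_le _ _).trans (add_le_add le_rfl ih)

lemma abs_pre_le_n1' (v : Fin n → ℝ) (k : ℕ) : |pre v k| ≤ n1 v := abs_pre_le_n1 v k

/-- one position of the path: past, own and future contribution -/
lemma position_le (inv : M → M) (w : M → Fin n → ℝ) (hw : ∀ m, w (inv m) = - w m)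
    (p : List M) (m : M) (r : List M) :
    ∑ a : Fin n, |pre (sm w (p ++ m :: r)) (a.val + 1)| * |w m a| ≤
      n1 (w m) ^ 2 + ownF w (m :: r) + ownF w (((p ++ [m]).map inv).reverse) := by
  have hrev : ((p ++ [m]).map inv).reverse = inv m :: (p.map inv).reverse := by
    simp
  rw [hrev]
  simp only [ownF]
  have hsq : n1 (w m) ^ 2 = ∑ a : Fin n, |w m a| * n1 (w m) := by
    rw [← Finset.sum_mul, sq]
    rfl
  rw [hsq, ← Finset.sum_add_distrib, ← Finset.sum_add_distrib]
  refine Finset.sum_le_sum fun a _ => ?_
  have e1 : pre (sm w (p ++ m :: r)) (a.val + 1)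
      = pre (sm w p) (a.val + 1) + pre (w m) (a.val + 1) + pre (sm w r) (a.val + 1) := by
    rw [sm_append, sm_cons, pre_add', pre_add']
    ring
  have e2 : sm w ((p.map inv).reverse) = - sm w p := sm_rev w inv hw p
  have e3 : |w (inv m) a| = |w m a| := by
    rw [hw]
    simp
  rw [e1, e2, pre_neg', abs_neg, e3]
  have h1 : |pre (sm w p) (a.val + 1) + pre (w m) (a.val + 1) + pre (sm w r) (a.val + 1)| ≤
      |pre (sm w p) (a.val + 1)| + n1 (w m) + |pre (sm w r) (a.val + 1)| := by
    refine (abs_add_le _ _).trans (add_le_add ((abs_add_le _ _).trans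
      (add_le_add le_rfl (abs_pre_le_n1' _ _))) le_rfl)
  have h0 : 0 ≤ |w m a| := abs_nonneg _
  nlinarith [mul_le_mul_of_nonneg_right h1 h0]

/-- the pointwise form of Steps 1 and 2 -/
lemma pointwise_own (inv : M → M) (w : M → Fin n → ℝ) (hw : ∀ m, w (inv m) = - w m)
    (l : List M) :
    nJ (sm w l) ^ 2 ≤ 2 * ∑ k ∈ Finset.range l.length,
      (hdv (fun m => n1 (w m) ^ 2) (l.drop k) + ownF w (l.drop k)
        + ownF w (((l.take (k + 1)).map inv).reverse)) := by
  have h1 := nJ_sq_le (sm w l)
  have h2 : ∑ a : Fin n, |pre (sm w l) (a.val + 1)| * |sm w l a| ≤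
      ∑ k ∈ Finset.range l.length,
        hdv (fun m => ∑ a : Fin n, |pre (sm w l) (a.val + 1)| * |w m a|) (l.drop k) := by
    rw [← sum_map_eq_hdv]
    have h3 : (l.map (fun m => ∑ a : Fin n, |pre (sm w l) (a.val + 1)| * |w m a|)).sum
        = ∑ a : Fin n, |pre (sm w l) (a.val + 1)| * (l.map (fun m => |w m a|)).sum := by
      generalize hg : (fun a : Fin n => |pre (sm w l) (a.val + 1)|) = g
      have hg' : ∀ a : Fin n, |pre (sm w l) (a.val + 1)| = g a := fun a => by rw [← hg]
      simp only [hg']
      clear hg hg' h1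
      induction l with
      | nil => simp
      | cons m l ih =>
        simp only [List.map_cons, List.sum_cons, ih, mul_add, Finset.sum_add_distrib]
    rw [h3]
    refine Finset.sum_le_sum fun a _ => ?_
    exact mul_le_mul_of_nonneg_left (abs_sm_le w l a) (abs_nonneg _)
  have h4 : ∑ k ∈ Finset.range l.length,
        hdv (fun m => ∑ a : Fin n, |pre (sm w l) (a.val + 1)| * |w m a|) (l.drop k) ≤
      ∑ k ∈ Finset.range l.length,
      (hdv (fun m => n1 (w m) ^ 2) (l.drop k) + ownF w (l.drop k)
        + ownF w (((l.take (k + 1)).map inv).reverse)) := by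
    refine Finset.sum_le_sum fun k hk => ?_
    have hk' : k < l.length := Finset.mem_range.1 hk
    obtain ⟨m, r, hmr⟩ : ∃ m r, l.drop k = m :: r := by
      cases hd : l.drop k with
      | nil =>
        have := List.drop_eq_nil_iff.1 hd
        omega
      | cons m r => exact ⟨m, r, rfl⟩
    have hl : l = l.take k ++ m :: r := by
      rw [← hmr, List.take_append_drop]
    have htk : l.take (k + 1) = l.take k ++ [m] := by
      rw [List.take_add, hmr]
      rfl
    rw [hmr, htk]
    simp only [hdv]
    have := position_le inv w hw (l.take k) m r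
    rw [← hl] at this
    exact this
  linarith

/-- STEPS 1 AND 2: reduction of the summing norm to the own functional -/
theorem own_reduction (C : MChain S M) (w : M → Fin n → ℝ) (hw : ∀ m, w (C.inv m) = - w m)
    (t : ℕ) :
    C.E t (fun l => nJ (sm w l) ^ 2) ≤
      2 * (t : ℝ) * C.E 1 (fun l => n1 (sm w l) ^ 2)
        + 4 * ∑ s ∈ Finset.range t, C.E (1 + s) (ownF w) := by
  have h1 : C.E t (fun l => nJ (sm w l) ^ 2) ≤
      C.E t (fun l => 2 * ∑ k ∈ Finset.range t,
      (hdv (fun m => n1 (w m) ^ 2) (l.drop k) + ownF w (l.drop k)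
        + ownF w (((l.take (k + 1)).map C.inv).reverse))) := by
    apply E_mono
    intro l hl
    have := pointwise_own C.inv w hw l
    rw [hl] at this
    exact this
  rw [E_const_mul, E_finset_sum] at h1
  have h2 : ∀ k ∈ Finset.range t, C.E t (fun l =>
      (hdv (fun m => n1 (w m) ^ 2) (l.drop k) + ownF w (l.drop k)
        + ownF w (((l.take (k + 1)).map C.inv).reverse))) =
      C.E 1 (fun l => n1 (sm w l) ^ 2) + C.E (1 + (t - 1 - k)) (ownF w) + C.E (1 + k) (ownF w) := by
    intro k hk
    have hk' : k < t := Finset.mem_range.1 hk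
    rw [E_add, E_add]
    have e1 : t = k + (1 + (t - 1 - k)) := by omega
    have e2 : t = (1 + k) + (t - 1 - k) := by omega
    have a1 : C.E t (fun l => hdv (fun m => n1 (w m) ^ 2) (l.drop k))
        = C.E 1 (fun l => n1 (sm w l) ^ 2) := by
      conv_lhs => rw [e1]
      rw [E_drop C k (1 + (t - 1 - k)) (fun l => hdv (fun m => n1 (w m) ^ 2) l)]
      have : C.E (1 + (t - 1 - k)) (fun l => hdv (fun m => n1 (w m) ^ 2) l)
          = C.E (1 + (t - 1 - k)) (fun l => (fun l' => n1 (sm w l') ^ 2) (l.take 1)) := by
        apply E_congr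
        intro l hl
        cases l with
        | nil => simp at hl; omega
        | cons m r =>
          simp only [hdv, List.take_succ_cons, List.take_zero]
          rw [sm_single]
      rw [this, E_take C 1 (t - 1 - k) (fun l' => n1 (sm w l') ^ 2)]
    have a2 : C.E t (fun l => ownF w (l.drop k)) = C.E (1 + (t - 1 - k)) (ownF w) := by
      conv_lhs => rw [e1]
      exact E_drop C k (1 + (t - 1 - k)) (ownF w)
    have a3 : C.E t (fun l => ownF w (((l.take (k + 1)).map C.inv).reverse))
        = C.E (1 + k) (ownF w) := by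
      conv_lhs => rw [e2]
      have : (fun l : List M => ownF w (((l.take (k + 1)).map C.inv).reverse))
          = fun l => (fun l' : List M => ownF w ((l'.map C.inv).reverse)) (l.take (1 + k)) := by
        funext l
        rw [Nat.add_comm k 1]
      rw [this, E_take C (1 + k) (t - 1 - k) (fun l' => ownF w ((l'.map C.inv).reverse)),
        E_rev C (1 + k) (ownF w)]
    rw [a1, a2, a3]
  rw [Finset.sum_congr rfl h2, Finset.sum_add_distrib, Finset.sum_add_distrib] at h1
  have h3 : ∑ k ∈ Finset.range t, C.E (1 + (t - 1 - k)) (ownF w)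
      = ∑ s ∈ Finset.range t, C.E (1 + s) (ownF w) :=
    Finset.sum_range_reflect (fun s => C.E (1 + s) (ownF w)) t
  rw [h3] at h1
  simp only [Finset.sum_const, Finset.card_range, nsmul_eq_mul] at h1
  linarith

end Vale.Agent.P125.Poly27
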