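import Vale.Agent.P125.Poly.Defs_79
import Vale.Agent.P125.Poly.ApiA_79
import Vale.Agent.P125.Poly.ApiC_79
import Vale.Agent.P125.Poly.Own_79

set_option linter.unusedSectionVars false
set_option linter.unusedVariables false

/-! # P125 polynomial rate, path-free form (board 624): step (D) = S5 -/

namespace Vale.Agent.P125.Poly79

open scoped BigOperators
open Vale.Agent.P125.Dich Vale.Agent.P125.BV

variable {S : Type} [Fintype S] [DecidableEq S]

private lemma Av_add88 (P : Matrix S S ℝ) (τ : ℕ) (g h : S → ℝ) (y : S) :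
    Av P τ (fun z => g z + h z) y = Av P τ g y + Av P τ h y := by
  unfold Av
  rw [← Finset.sum_add_distrib]
  exact Finset.sum_congr rfl (fun i _ => op_add _ g h y)

private lemma abs_sg88 (x : ℝ) : |sg x| = 1 := by
  unfold sg
  split_ifs <;> simp

private lemma abs_Av_ph88 {μ : S → ℝ} {P : Matrix S S ℝ} (hc : IsChain μ P) (F : ℕ → S → ℝ)
    (τ s k : ℕ) (y : S) : |Av P τ (ph P F τ s k) y| ≤ NN P F τ s k y := by
  unfold NN Av
  refine (Finset.abs_sum_le_sum_abs _ _).trans (Finset.sum_le_sum (fun i _ => ?_))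
  have hi : ∀ a b, 0 ≤ (P ^ i) a b := (isChain_pow hc i).2.2.1
  have hs : ∀ a b, 0 ≤ (P ^ s) a b := (isChain_pow hc s).2.2.1
  refine (op_abs_le _ hi _ y).trans (op_mono _ hi _ _ (fun z => ?_) y)
  unfold ph
  rw [abs_mul, abs_sg88, one_mul,
    abs_of_nonneg (op_nonneg _ hs _ (fun x => aa_nonneg hc F k x) z)]

private lemma UU_succ88 (P : Matrix S S ℝ) (n : ℕ) (F : ℕ → S → ℝ) (τ s k : ℕ) (hk : k < n)
    (y : S) : UU P n F τ s k y = Av P τ (ph P F τ s k) y + UU P n F τ s (k + 1) y := by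
  unfold UU
  rw [← Av_add88]
  congr 1
  funext z
  unfold Ph
  exact Finset.sum_eq_sum_Ico_succ_bot hk _

private lemma UU_top88 (P : Matrix S S ℝ) (n : ℕ) (F : ℕ → S → ℝ) (τ s : ℕ) (y : S) :
    UU P n F τ s n y = 0 := by
  unfold UU Av
  apply Finset.sum_eq_zero
  intro i _
  unfold op Ph
  simp

/-- own_down with `D k = UU k b - UU k a` (`UU n = 0`);
`UU k - UU (k+1) = Av P τ (ph k)`, `|Av P τ (ph k) y| ≤ NN k y` (op_abs_le, op_mono, `|sg| = 1`). -/
theorem ownU {μ : S → ℝ} {P : Matrix S S ℝ} (hc : IsChain μ P) (n : ℕ) (F : ℕ → S → ℝ)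
    (τ s k : ℕ) (hk : k ≤ n) (a b : S) :
    (UU P n F τ s k b - UU P n F τ s k a) ^ 2 ≤ Xi P n F τ s a b := by
  have h := own_down n (fun k => UU P n F τ s k b - UU P n F τ s k a)
    (by simp [UU_top88]) k hk
  refine h.trans ?_
  unfold Xi
  refine mul_le_mul_of_nonneg_left (Finset.sum_le_sum (fun j hj => ?_)) (by norm_num)
  have hj' : j < n := Finset.mem_range.mp hj
  refine mul_le_mul_of_nonneg_right ?_ (abs_nonneg _)
  have e : (UU P n F τ s j b - UU P n F τ s j a)
      - (UU P n F τ s (j + 1) b - UU P n F τ s (j + 1) a)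
      = Av P τ (ph P F τ s j) b - Av P τ (ph P F τ s j) a := by
    rw [UU_succ88 P n F τ s j hj' b, UU_succ88 P n F τ s j hj' a]
    ring
  rw [e]
  have h1 := abs_le.mp (abs_Av_ph88 hc F τ s j a)
  have h2 := abs_le.mp (abs_Av_ph88 hc F τ s j b)
  rw [abs_le]
  constructor <;> linarith [h1.1, h1.2, h2.1, h2.2]

end Vale.Agent.P125.Poly79
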