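import Mathlib

/-!
# P125, polynomial rate (board 579): the deterministic own-measure inequalities (Steps 1 and 5)

`sq_le_own`      : `g 0 = 0`, `|g (i+1) - g i| ≤ w i`  ⟹ `g m ^ 2 ≤ 2 ∑_{i<m} w i |g (i+1)|`.
`sq_le_own_tail` : `g n = 0`, `|g (i+1) - g i| ≤ w i`  ⟹ `g m ^ 2 ≤ 2 ∑_{m ≤ i<n} w i |g i|`.
`sq_pre_le_own`  : for a finite family of vectors `v r : Fin n → ℝ`, with
  `G k = ∑ r, ∑ i with i.val < k, v r i`:  `G k ^ 2 ≤ 2 ∑ r, ∑ i, |v r i| * |G (i+1)|`.
-/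

namespace Vale.Agent.P125.Poly97

open Finset

theorem sq_le_own (g w : ℕ → ℝ) (h0 : g 0 = 0) (hw : ∀ i, |g (i + 1) - g i| ≤ w i) (m : ℕ) :
    g m ^ 2 ≤ 2 * ∑ i ∈ range m, w i * |g (i + 1)| := by
  induction m with
  | zero => simp [h0]
  | succ m ih =>
    rw [sum_range_succ]
    have h1 : g (m + 1) ^ 2 - g m ^ 2 ≤ 2 * (g (m + 1) * (g (m + 1) - g m)) := by
      nlinarith [sq_nonneg (g (m + 1) - g m)]
    have h2 : g (m + 1) * (g (m + 1) - g m) ≤ w m * |g (m + 1)| := by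
      calc g (m + 1) * (g (m + 1) - g m) ≤ |g (m + 1) * (g (m + 1) - g m)| := le_abs_self _
        _ = |g (m + 1) - g m| * |g (m + 1)| := by rw [abs_mul, mul_comm]
        _ ≤ w m * |g (m + 1)| := mul_le_mul_of_nonneg_right (hw m) (abs_nonneg _)
    linarith

theorem sq_le_own_tail_aux (g w : ℕ → ℝ) (hw : ∀ i, |g (i + 1) - g i| ≤ w i) (d : ℕ) :
    ∀ m : ℕ, g (m + d) = 0 → g m ^ 2 ≤ 2 * ∑ i ∈ Ico m (m + d), w i * |g i| := by
  induction d with
  | zero => intro m hm; simp at hm; simp [hm]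
  | succ d ih =>
    intro m hm
    have h := ih (m + 1) (by rw [← hm]; congr 1; ring)
    have e : m + 1 + d = m + (d + 1) := by ring
    rw [e] at h
    rw [sum_eq_sum_Ico_succ_bot (by omega)]
    have h1 : g m ^ 2 - g (m + 1) ^ 2 ≤ 2 * (g m * (g m - g (m + 1))) := by
      nlinarith [sq_nonneg (g (m + 1) - g m)]
    have h2 : g m * (g m - g (m + 1)) ≤ w m * |g m| := by
      calc g m * (g m - g (m + 1)) ≤ |g m * (g m - g (m + 1))| := le_abs_self _
        _ = |g (m + 1) - g m| * |g m| := by rw [abs_mul, mul_comm, abs_sub_comm]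
        _ ≤ w m * |g m| := mul_le_mul_of_nonneg_right (hw m) (abs_nonneg _)
    linarith

theorem sq_le_own_tail (g w : ℕ → ℝ) (n : ℕ) (hn : g n = 0)
    (hw : ∀ i, |g (i + 1) - g i| ≤ w i) (m : ℕ) (hm : m ≤ n) :
    g m ^ 2 ≤ 2 * ∑ i ∈ Ico m n, w i * |g i| := by
  obtain ⟨d, rfl⟩ := Nat.exists_eq_add_of_le hm
  exact sq_le_own_tail_aux g w hw d m hn

/-- prefix sums -/
noncomputable def pre {n : ℕ} (v : Fin n → ℝ) (k : ℕ) : ℝ := ∑ i : Fin n, if i.val < k then v i else 0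

theorem pre_zero {n : ℕ} (v : Fin n → ℝ) : pre v 0 = 0 := by simp [pre]

theorem pre_succ {n : ℕ} (v : Fin n → ℝ) (k : ℕ) :
    pre v (k + 1) - pre v k = ∑ i : Fin n, if i.val = k then v i else 0 := by
  unfold pre
  rw [← sum_sub_distrib]
  apply sum_congr rfl
  intro i _
  by_cases h1 : i.val < k
  · have h2 : i.val < k + 1 := by omega
    have h3 : i.val ≠ k := by omega
    simp [h1, h2, h3]
  · by_cases h3 : i.val = k
    · have h2 : i.val < k + 1 := by omega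
      simp [h1, h2, h3]
    · have h2 : ¬ i.val < k + 1 := by omega
      simp [h1, h2, h3]

/-- **Step 1 (own measure), vector form.** -/
theorem sq_pre_le_own {ι : Type*} (s : Finset ι) {n : ℕ} (v : ι → Fin n → ℝ) (k : ℕ) :
    (∑ r ∈ s, pre (v r) k) ^ 2
      ≤ 2 * ∑ r ∈ s, ∑ i : Fin n, |v r i| * |∑ r' ∈ s, pre (v r') (i.val + 1)| := by
  set g : ℕ → ℝ := fun k => ∑ r ∈ s, pre (v r) k with hg
  set w : ℕ → ℝ := fun k => ∑ r ∈ s, ∑ i : Fin n, if i.val = k then |v r i| else 0 with hwd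
  have h0 : g 0 = 0 := by simp [hg, pre_zero]
  have hw : ∀ i, |g (i + 1) - g i| ≤ w i := by
    intro k
    simp only [hg, hwd]
    rw [← sum_sub_distrib]
    refine (abs_sum_le_sum_abs _ _).trans (sum_le_sum fun r _ => ?_)
    rw [pre_succ]
    refine (abs_sum_le_sum_abs _ _).trans (sum_le_sum fun i _ => ?_)
    split_ifs <;> simp
  have h := sq_le_own g w h0 hw k
  refine h.trans ?_
  apply mul_le_mul_of_nonneg_left _ (by norm_num)
  -- ∑_{j<k} w j |g (j+1)| ≤ ∑ r ∑ i |v r i| |g (i+1)|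
  have e : ∀ j, w j * |g (j + 1)|
      = ∑ r ∈ s, ∑ i : Fin n, if i.val = j then |v r i| * |g (i.val + 1)| else 0 := by
    intro j
    simp only [hwd]
    rw [sum_mul]
    apply sum_congr rfl
    intro r _
    rw [sum_mul]
    apply sum_congr rfl
    intro i _
    split_ifs with h
    · rw [h]
    · simp
  simp only [e]
  rw [sum_comm]
  apply sum_le_sum
  intro r _
  rw [sum_comm]
  apply sum_le_sum
  intro i _
  rw [sum_ite_eq]
  split_ifs
  · exact le_rfl
  · positivity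

end Vale.Agent.P125.Poly97
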