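import Vale.Agent.P125.Poly.Defs_79
import Vale.Agent.P125.Poly.ApiA_79
import Vale.Agent.P125.Poly.ApiB_79
import Vale.Agent.P125.Poly.ApiC_79

set_option linter.unusedSectionVars false
set_option linter.unusedVariables false

/-! # P125 polynomial rate, path-free form (board 624): bounds for Ph and LL -/

namespace Vale.Agent.P125.Poly79

open scoped BigOperators
open Vale.Agent.P125.Dich Vale.Agent.P125.BV

variable {S : Type} [Fintype S] [DecidableEq S]

/-- `|ph j z| ≤ op (P^s) (aa j) z`, sum over `j ∈ Ico k n ⊆ range n`, op_sum -/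
theorem abs_Ph_le {μ : S → ℝ} {P : Matrix S S ℝ} (hc : IsChain μ P) (n : ℕ) (F : ℕ → S → ℝ)
    (τ s k : ℕ) (z : S) : |Ph P n F τ s k z| ≤ LL P n F s z := by
  have hcs : IsChain μ (P ^ s) := isChain_pow hc s
  have hR : ∀ i j, 0 ≤ (P ^ s) i j := hcs.2.2.1
  have h0 : ∀ j, 0 ≤ op (P ^ s) (aa P F j) z := fun j =>
    op_nonneg (P ^ s) hR (aa P F j) (fun x => aa_nonneg hc F j x) z
  have hLL : LL P n F s z = ∑ j ∈ Finset.range n, op (P ^ s) (aa P F j) z := by
    unfold LL
    have h1 : lb P n F = fun y => ∑ j ∈ Finset.range n, aa P F j y := by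
      funext y
      rfl
    rw [h1, op_sum]
  rw [hLL]
  unfold Ph
  refine (Finset.abs_sum_le_sum_abs _ _).trans ?_
  have h2 : ∀ j ∈ Finset.Ico k n, |ph P F τ s j z| ≤ op (P ^ s) (aa P F j) z := by
    intro j _
    unfold ph sg
    rw [abs_mul, abs_of_nonneg (h0 j)]
    split_ifs <;> simp
  refine (Finset.sum_le_sum h2).trans ?_
  refine Finset.sum_le_sum_of_subset_of_nonneg ?_ (fun j _ _ => h0 j)
  intro j hj
  rw [Finset.mem_Ico] at hj
  exact Finset.mem_range.mpr hj.2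

/-- contr for `P^s` and lb_sq_le -/
theorem LL_sq_le {μ : S → ℝ} {P : Matrix S S ℝ} (hc : IsChain μ P) (n : ℕ) (F : ℕ → S → ℝ)
    (s : ℕ) : ∑ y, μ y * LL P n F s y ^ 2 ≤ WW μ P n F := by
  have hcs : IsChain μ (P ^ s) := isChain_pow hc s
  exact (contr hcs (lb P n F)).trans (lb_sq_le hc n F)

end Vale.Agent.P125.Poly79
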