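import Vale.Agent.P125.Poly.Rate_79

set_option linter.unusedSectionVars false
set_option linter.unusedVariables false

/-! # P125 polynomial rate, path-free form: the statement in plain Mathlib terms -/

namespace Vale.Agent.P125.Poly79

open scoped BigOperators
open Vale.Agent.P125.Dich Vale.Agent.P125.BV

lemma sup_le_supJ {n : ℕ} (v : Fin n → ℝ) :
    Finset.univ.sup' Finset.univ_nonempty (fun k : Fin (n + 1) =>
      |∑ l : Fin n, if l.val < k.val then v l else 0|) ≤ supJ n (pre v) := by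
  refine Finset.sup'_le _ _ fun k _ => ?_
  have hk : k.val ∈ Finset.range (n + 1) := Finset.mem_range.mpr k.isLt
  exact Finset.le_sup' (fun k => |pre v k|) hk

theorem poly_plain : ∀ t : ℕ, 1 ≤ t →
    ∀ (n : ℕ) (S : Type) [Fintype S] [DecidableEq S] (μ : S → ℝ) (P : Matrix S S ℝ),
      (∀ i, 0 ≤ μ i) → ∑ i, μ i = 1 → (∀ i j, 0 ≤ P i j) → (∀ i, ∑ j, P i j = 1) →
      (∀ i j, μ i * P i j = μ j * P j i) → ∀ f : S → Fin n → ℝ,
        ∑ i, ∑ j, μ i * (P ^ t) i j *
            (Finset.univ.sup' Finset.univ_nonempty (fun k : Fin (n + 1) =>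
              |∑ l : Fin n, if l.val < k.val then f j l - f i l else 0|)) ^ 2 ≤
          450 * (t : ℝ) ^ ((11 : ℝ) / 6) *
            ∑ i, ∑ j, μ i * P i j * (∑ l : Fin n, |f j l - f i l|) ^ 2 := by
  intro t ht n S _ _ μ P h0 h1 h2 h3 h4 f
  have hc : IsChain μ P := ⟨h0, h1, h2, h3, h4⟩
  have hct := isChain_pow hc t
  refine le_trans ?_ (poly_rate hc n f t ht)
  refine Finset.sum_le_sum fun i _ => Finset.sum_le_sum fun j _ => ?_
  refine mul_le_mul_of_nonneg_left ?_ (mul_nonneg (h0 i) (hct.2.2.1 i j))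
  refine pow_le_pow_left₀ ?_ (sup_le_supJ (f j - f i)) 2
  exact le_trans (abs_nonneg _) (Finset.le_sup' (fun k : Fin (n + 1) =>
      |∑ l : Fin n, if l.val < k.val then (f j - f i) l else 0|) (Finset.mem_univ 0))

end Vale.Agent.P125.Poly79
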