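import Vale.Agent.P125.Poly.Api75
import Vale.Agent.P125.Poly.NoMart_93

/-!
# P125, polynomial rate: the glue between step (B) and the bound of `R_s` (board 624)

`Q (m tau + rho) <= (sqrt m + 1) tau W + sum_{i<m} R_{i tau}`, in a form which does not depend on
the shape of the definitions.
-/

namespace Vale.Agent.P125.Poly15

open scoped BigOperators
open Vale.Agent.P125.Dich Vale.Agent.P125.Poly75 Vale.Agent.P125.Poly93

variable {S : Type} [Fintype S] [DecidableEq S]

/-- the bound for one function and one starting point -/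
lemma point_bound {μ : S → ℝ} {P : Matrix S S ℝ} (hc : IsChain μ P) (F : S → ℝ) (l : S → S → ℝ)
    (hl : ∀ x y, |F y - F x| ≤ l x y) (tau m rho : ℕ) (y : S) :
    ∑ z, (P ^ (m * tau + rho)) y z * |F z - F y| ≤
      Real.sqrt (∑ i ∈ Finset.range m,
          op ((P ^ tau) ^ i) (fun z => op (P ^ tau) (fun w => l z w ^ 2) z) y)
      + ∑ i ∈ Finset.range m, ∑ z, ((P ^ tau) ^ i) y z * |∑ w, (P ^ tau) z w * F w - F z|
      + op ((P ^ tau) ^ m) (fun w => op (P ^ rho) (fun z => l w z) w) y := by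
  have hR := isChain_pow hc tau
  have hRm := isChain_pow hR m
  have hrho := isChain_pow hc rho
  have e1 : ∑ z, (P ^ (m * tau + rho)) y z * |F z - F y|
      = op ((P ^ tau) ^ m) (op (P ^ rho) (fun z => |F z - F y|)) y := by
    rw [pow_add, pow_mul', ← op_mul]
    rfl
  rw [e1]
  have h2 : ∀ w, op (P ^ rho) (fun z => |F z - F y|) w
      ≤ |F w - F y| + op (P ^ rho) (fun z => l w z) w := by
    intro w
    have h3 : op (P ^ rho) (fun z => |F z - F y|) w
        ≤ op (P ^ rho) (fun z => |F w - F y| + l w z) w := by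
      apply op_mono hrho
      intro z
      have h4 := hl w z
      have h5 : |F z - F y| ≤ |F z - F w| + |F w - F y| := abs_sub_le _ _ _
      linarith
    refine h3.trans (le_of_eq ?_)
    rw [op_add, op_const hrho]
  have h6 : op ((P ^ tau) ^ m) (op (P ^ rho) (fun z => |F z - F y|)) y
      ≤ op ((P ^ tau) ^ m) (fun w => |F w - F y|) y
        + op ((P ^ tau) ^ m) (fun w => op (P ^ rho) (fun z => l w z) w) y := by
    rw [← op_add]
    exact op_mono hRm h2 y
  refine h6.trans ?_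
  have h7 := no_mart (P ^ tau) hR.2.2.1 hR.2.2.2.1 F (F y) m y
  have h8 : Real.sqrt ((F y - F y) ^ 2 + ∑ i ∈ Finset.range m,
          ∑ z, ((P ^ tau) ^ i) y z * (∑ w, (P ^ tau) z w * (F w - F z) ^ 2))
      ≤ Real.sqrt (∑ i ∈ Finset.range m,
          op ((P ^ tau) ^ i) (fun z => op (P ^ tau) (fun w => l z w ^ 2) z) y) := by
    apply Real.sqrt_le_sqrt
    rw [sub_self, zero_pow (by norm_num), zero_add]
    refine Finset.sum_le_sum fun i _ => ?_
    refine op_mono (isChain_pow hR i) (fun z => ?_) y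
    refine op_mono hR (fun w => ?_) z
    rw [← sq_abs (F w - F z)]
    exact pow_le_pow_left₀ (abs_nonneg _) (hl z w) 2
  have h9 : op ((P ^ tau) ^ m) (fun w => |F w - F y|) y = ∑ z, ((P ^ tau) ^ m) y z * |F z - F y| :=
    rfl
  rw [h9]
  linarith

/-- **The glue.** -/
theorem stepG {μ : S → ℝ} {P : Matrix S S ℝ} (hc : IsChain μ P) (n : ℕ) (G a : ℕ → S → ℝ)
    (l : S → S → ℝ) (W : ℝ) (ha : ∀ j y, 0 ≤ a j y)
    (hl : ∀ j, j < n → ∀ x y, |G j y - G j x| ≤ l x y)
    (hlb : ∑ y, μ y * (∑ j ∈ Finset.range n, a j y) ^ 2 ≤ W)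
    (htriv : ∀ t : ℕ, ∑ x, ∑ y, μ x * (P ^ t) x y * l x y ^ 2 ≤ (t : ℝ) ^ 2 * W)
    (tau m rho : ℕ) (hrho : rho ≤ tau) :
    ∑ j ∈ Finset.range n, ∑ y, μ y * a j y * ∑ z, (P ^ (m * tau + rho)) y z * |G j z - G j y| ≤
      (Real.sqrt m + 1) * tau * W
      + ∑ i ∈ Finset.range m, ∑ j ∈ Finset.range n, ∑ y, μ y * a j y *
          ∑ z, (P ^ (i * tau)) y z * |∑ w, (P ^ tau) z w * G j w - G j z| := by
  have hR := isChain_pow hc tau
  have hRm := isChain_pow hR m
  have hPr := isChain_pow hc rho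
  set lb : S → ℝ := fun y => ∑ j ∈ Finset.range n, a j y with hlbdef
  have hlb0 : ∀ y, 0 ≤ lb y := fun y => Finset.sum_nonneg fun j _ => ha j y
  set Vs : S → ℝ := fun z => op (P ^ tau) (fun w => l z w ^ 2) z with hVs
  have hVs0 : ∀ z, 0 ≤ Vs z := fun z => op_nonneg hR (fun w => sq_nonneg _) z
  set SS : S → ℝ := fun y => ∑ i ∈ Finset.range m, op ((P ^ tau) ^ i) Vs y with hSS
  have hSS0 : ∀ y, 0 ≤ SS y := fun y =>
    Finset.sum_nonneg fun i _ => op_nonneg (isChain_pow hR i) hVs0 y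
  set SQ : S → ℝ := fun y => Real.sqrt (SS y) with hSQ
  set B : S → ℝ := fun w => op (P ^ rho) (fun z => l w z) w with hB
  set BB : S → ℝ := fun y => op ((P ^ tau) ^ m) B y with hBB
  have hW0 : 0 ≤ W := le_trans
    (Finset.sum_nonneg fun y _ => mul_nonneg (hc.1 y) (sq_nonneg _)) hlb
  have hiplb : ip μ lb lb ≤ W := by
    refine le_trans (le_of_eq ?_) hlb
    unfold ip
    exact Finset.sum_congr rfl fun y _ => by ring
  -- the square function
  have hsumVs : ∑ y, μ y * Vs y ≤ (tau : ℝ) ^ 2 * W := by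
    refine le_trans (le_of_eq ?_) (htriv tau)
    refine Finset.sum_congr rfl fun y _ => ?_
    rw [hVs]
    unfold op
    rw [Finset.mul_sum]
    exact Finset.sum_congr rfl fun z _ => by ring
  have hipSQ : ip μ SQ SQ ≤ (m : ℝ) * ((tau : ℝ) ^ 2 * W) := by
    have e : ip μ SQ SQ = ∑ i ∈ Finset.range m, ∑ y, μ y * op ((P ^ tau) ^ i) Vs y := by
      unfold ip
      rw [Finset.sum_comm]
      refine Finset.sum_congr rfl fun y _ => ?_
      rw [mul_assoc, hSQ]
      simp only
      rw [Real.mul_self_sqrt (hSS0 y), hSS, Finset.mul_sum]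
    rw [e]
    have e2 : ∀ i ∈ Finset.range m, ∑ y, μ y * op ((P ^ tau) ^ i) Vs y ≤ (tau : ℝ) ^ 2 * W := by
      intro i _
      rw [sum_op (isChain_pow hR i)]
      exact hsumVs
    refine (Finset.sum_le_sum e2).trans (le_of_eq ?_)
    rw [Finset.sum_const, Finset.card_range, nsmul_eq_mul]
  have hpart1 : ip μ lb SQ ≤ Real.sqrt m * tau * W := by
    refine (ip_le_sqrt hc lb SQ).trans ?_
    have h1 : Real.sqrt (ip μ lb lb) ≤ Real.sqrt W := Real.sqrt_le_sqrt hiplb
    have h2 : Real.sqrt (ip μ SQ SQ) ≤ Real.sqrt m * (tau * Real.sqrt W) := by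
      refine (Real.sqrt_le_sqrt hipSQ).trans (le_of_eq ?_)
      rw [Real.sqrt_mul (Nat.cast_nonneg m), Real.sqrt_mul (sq_nonneg _),
        Real.sqrt_sq (Nat.cast_nonneg tau)]
    calc Real.sqrt (ip μ lb lb) * Real.sqrt (ip μ SQ SQ)
        ≤ Real.sqrt W * (Real.sqrt m * (tau * Real.sqrt W)) :=
          mul_le_mul h1 h2 (Real.sqrt_nonneg _) (Real.sqrt_nonneg _)
      _ = Real.sqrt m * tau * (Real.sqrt W * Real.sqrt W) := by ring
      _ = Real.sqrt m * tau * W := by rw [Real.mul_self_sqrt hW0]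
  -- the incomplete block
  have hipB : ip μ B B ≤ (rho : ℝ) ^ 2 * W := by
    refine le_trans ?_ (htriv rho)
    unfold ip
    refine Finset.sum_le_sum fun y _ => ?_
    have h1 := op_sq_le hPr (fun z => l y z) y
    have h2 := mul_le_mul_of_nonneg_left h1 (hc.1 y)
    calc μ y * B y * B y = μ y * op (P ^ rho) (fun z => l y z) y ^ 2 := by
          rw [hB]; ring
      _ ≤ μ y * op (P ^ rho) (fun z => l y z ^ 2) y := h2
      _ = ∑ z, μ y * (P ^ rho) y z * l y z ^ 2 := by
          unfold op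
          rw [Finset.mul_sum]
          exact Finset.sum_congr rfl fun z _ => by ring
  have hpart3 : ip μ lb BB ≤ tau * W := by
    refine (ip_le_sqrt hc lb BB).trans ?_
    have h1 : Real.sqrt (ip μ lb lb) ≤ Real.sqrt W := Real.sqrt_le_sqrt hiplb
    have h2 : Real.sqrt (ip μ BB BB) ≤ tau * Real.sqrt W := by
      have h3 : ip μ BB BB ≤ (tau : ℝ) ^ 2 * W := by
        refine (ip_op_op_le hRm B).trans (hipB.trans ?_)
        have h4 : (rho : ℝ) ≤ tau := by exact_mod_cast hrho
        have h5 : (rho : ℝ) ^ 2 ≤ (tau : ℝ) ^ 2 := pow_le_pow_left₀ (Nat.cast_nonneg _) h4 2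
        exact mul_le_mul_of_nonneg_right h5 hW0
      refine (Real.sqrt_le_sqrt h3).trans (le_of_eq ?_)
      rw [Real.sqrt_mul (sq_nonneg _), Real.sqrt_sq (Nat.cast_nonneg tau)]
    calc Real.sqrt (ip μ lb lb) * Real.sqrt (ip μ BB BB)
        ≤ Real.sqrt W * (tau * Real.sqrt W) :=
          mul_le_mul h1 h2 (Real.sqrt_nonneg _) (Real.sqrt_nonneg _)
      _ = tau * (Real.sqrt W * Real.sqrt W) := by ring
      _ = tau * W := by rw [Real.mul_self_sqrt hW0]
  -- summation
  have hsplit : ∀ (X : S → ℝ), ∑ j ∈ Finset.range n, ∑ y, μ y * a j y * X y = ip μ lb X := by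
    intro X
    unfold ip
    rw [Finset.sum_comm]
    refine Finset.sum_congr rfl fun y _ => ?_
    rw [hlbdef]
    simp only
    rw [Finset.mul_sum, Finset.sum_mul]
  have hmain : ∑ j ∈ Finset.range n, ∑ y, μ y * a j y *
        ∑ z, (P ^ (m * tau + rho)) y z * |G j z - G j y| ≤
      ∑ j ∈ Finset.range n, ∑ y, (μ y * a j y * SQ y
        + μ y * a j y * (∑ i ∈ Finset.range m,
            ∑ z, ((P ^ tau) ^ i) y z * |∑ w, (P ^ tau) z w * G j w - G j z|)
        + μ y * a j y * BB y) := by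
    refine Finset.sum_le_sum fun j hj => Finset.sum_le_sum fun y _ => ?_
    have h1 := point_bound hc (G j) l (hl j (Finset.mem_range.mp hj)) tau m rho y
    have h2 := mul_le_mul_of_nonneg_left h1 (mul_nonneg (hc.1 y) (ha j y))
    refine h2.trans (le_of_eq ?_)
    rw [mul_add, mul_add]
  refine hmain.trans ?_
  simp only [Finset.sum_add_distrib]
  rw [hsplit SQ, hsplit BB]
  have hmid : ∑ j ∈ Finset.range n, ∑ y, μ y * a j y * (∑ i ∈ Finset.range m,
            ∑ z, ((P ^ tau) ^ i) y z * |∑ w, (P ^ tau) z w * G j w - G j z|)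
      = ∑ i ∈ Finset.range m, ∑ j ∈ Finset.range n, ∑ y, μ y * a j y *
          ∑ z, (P ^ (i * tau)) y z * |∑ w, (P ^ tau) z w * G j w - G j z| := by
    rw [Finset.sum_comm (s := Finset.range m) (t := Finset.range n)]
    refine Finset.sum_congr rfl fun j _ => ?_
    rw [Finset.sum_comm (s := Finset.range m) (t := Finset.univ)]
    refine Finset.sum_congr rfl fun y _ => ?_
    rw [Finset.mul_sum]
    refine Finset.sum_congr rfl fun i _ => ?_
    rw [pow_mul']
  rw [hmid]
  nlinarith [hpart1, hpart3]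

end Vale.Agent.P125.Poly15
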