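import Vale.Agent.P125.Poly.Defs58
import Vale.Agent.P125.Poly.StepG_15
import Vale.Agent.P125.TS.Triv

set_option linter.unusedSectionVars false
set_option linter.unusedVariables false

/-!
# P125 Poly: the bound of `Q` directly from `StSmall` and `StR`

This route does not use `StRem`, `StTriv1`, `StBlk`, `StTriv2`, `StSqrt`: it uses `stepG`.
-/

namespace Vale.Agent.P125.Poly

open scoped BigOperators
open Vale.Agent.P125.Dich

/-- the trivial bound for `ell` at time `t` -/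
theorem ell_triv_15 {S : Type} [Fintype S] [DecidableEq S] (μ : S → ℝ) (P : Matrix S S ℝ)
    (hc : IsChain μ P) {n : ℕ} (f : S → Fin n → ℝ) (t : ℕ) :
    ∑ x, ∑ y, μ x * (P ^ t) x y * ell f x y ^ 2 ≤ (t : ℝ) ^ 2 * U μ P f := by
  have key := Vale.Agent.P125.TS.hFun_triv (PiLp 1 (fun _ : Fin n => ℝ)) t S μ P hc
    (fun s => WithLp.toLp 1 (f s))
  have e : ∀ i j : S, ‖(WithLp.toLp 1 (f j) : PiLp 1 (fun _ : Fin n => ℝ)) - WithLp.toLp 1 (f i)‖
      = ell f i j := by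
    intro i j
    rw [PiLp.norm_eq_of_L1]
    simp [ell, w]
  simp only [e] at key
  exact key

/-- scalar part -/
theorem scal_15 (τ m ρ : ℕ) (hτ : 1 ≤ τ) :
    (Real.sqrt m + 1) * τ + m * ((3 / 2) * (τ : ℝ) ^ (3 / 4 : ℝ)) ≤
      Real.sqrt (((m * τ + ρ : ℕ) : ℝ) * τ) + τ
        + (3 / 2) * ((m * τ + ρ : ℕ) : ℝ) * (τ : ℝ) ^ (-(1 / 4) : ℝ) := by
  have hτ0 : (0 : ℝ) < τ := by exact_mod_cast hτ
  have hm0 : (0 : ℝ) ≤ m := Nat.cast_nonneg m
  have hle : (m : ℝ) * τ ≤ ((m * τ + ρ : ℕ) : ℝ) := by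
    push_cast
    have : (0 : ℝ) ≤ ρ := Nat.cast_nonneg ρ
    linarith
  have a1 : Real.sqrt m * τ ≤ Real.sqrt (((m * τ + ρ : ℕ) : ℝ) * τ) := by
    have e : Real.sqrt m * τ = Real.sqrt ((m * τ) * τ) := by
      rw [mul_assoc, Real.sqrt_mul hm0, Real.sqrt_mul_self hτ0.le]
    rw [e]
    exact Real.sqrt_le_sqrt (mul_le_mul_of_nonneg_right hle hτ0.le)
  have e2 : (τ : ℝ) ^ (3 / 4 : ℝ) = τ * (τ : ℝ) ^ (-(1 / 4) : ℝ) := by
    have : (τ : ℝ) * (τ : ℝ) ^ (-(1 / 4) : ℝ) = (τ : ℝ) ^ ((1 : ℝ) + (-(1 / 4) : ℝ)) := by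
      rw [Real.rpow_add hτ0, Real.rpow_one]
    rw [this]
    norm_num
  have hp : (0 : ℝ) ≤ (τ : ℝ) ^ (-(1 / 4) : ℝ) := Real.rpow_nonneg hτ0.le _
  have a3 : (m : ℝ) * ((3 / 2) * (τ : ℝ) ^ (3 / 4 : ℝ))
      ≤ (3 / 2) * ((m * τ + ρ : ℕ) : ℝ) * (τ : ℝ) ^ (-(1 / 4) : ℝ) := by
    rw [e2]
    have := mul_le_mul_of_nonneg_right hle hp
    nlinarith
  nlinarith

/-- **QB** from `StSmall` and `StR` only -/
theorem stQ_15 (hs : StSmall) (hR : StR) : StQ := by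
  intro S _ _ μ P hC hL n f τ t' hτ
  obtain ⟨hom, hsum, -, -, -, hlb, hU, hF, -, -⟩ := hs S μ P hC hL n f
  set G : ℕ → S → ℝ := fun j => if h : j < n then F f ⟨j, h⟩ else 0 with hG
  set a : ℕ → S → ℝ := fun j => if h : j < n then om P f ⟨j, h⟩ else 0 with ha
  have hGk : ∀ k : Fin n, G k = F f k := by
    intro k
    simp [hG]
  have hak : ∀ k : Fin n, a k = om P f k := by
    intro k
    simp [ha]
  have ha0 : ∀ j y, 0 ≤ a j y := by
    intro j y
    by_cases h : j < n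
    · simp only [ha, h, dif_pos]
      exact hom _ _
    · simp [ha, h]
  have hl : ∀ j, j < n → ∀ x y, |G j y - G j x| ≤ ell f x y := by
    intro j hj x y
    have := hGk ⟨j, hj⟩
    simp only at this
    rw [this]
    exact hF _ _ _
  have hlb' : ∑ y, μ y * (∑ j ∈ Finset.range n, a j y) ^ 2 ≤ U μ P f := by
    refine le_trans (le_of_eq ?_) hlb
    unfold av
    refine Finset.sum_congr rfl fun y _ => ?_
    show μ y * (∑ j ∈ Finset.range n, a j y) ^ 2 = μ y * lbar P f y ^ 2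
    rw [Finset.sum_range, ← hsum y]
    simp only [hak]
  have key := Vale.Agent.P125.Poly15.stepG hC n G a (ell f) (U μ P f) ha0 hl hlb'
    (ell_triv_15 μ P hC f) τ (t' / τ) (t' % τ) (Nat.mod_lt _ hτ).le
  have ht' : t' / τ * τ + t' % τ = t' := Nat.div_add_mod' t' τ
  have eL : ∑ j ∈ Finset.range n, ∑ y, μ y * a j y *
      ∑ z, (P ^ (t' / τ * τ + t' % τ)) y z * |G j z - G j y| = Qsum μ P f t' := by
    rw [ht', Finset.sum_range]
    unfold Qsum Qk av Ak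
    refine Finset.sum_congr rfl fun k _ => Finset.sum_congr rfl fun y _ => ?_
    rw [hak, hGk, mul_assoc]
  have eR : ∀ i, ∑ j ∈ Finset.range n, ∑ y, μ y * a j y *
      ∑ z, (P ^ (i * τ)) y z * |∑ w, (P ^ τ) z w * G j w - G j z| = Rr μ P f τ (i * τ) := by
    intro i
    rw [Finset.sum_range]
    unfold Rr av hh op
    refine Finset.sum_congr rfl fun k _ => Finset.sum_congr rfl fun y _ => ?_
    rw [hak, hGk, mul_assoc]
  rw [eL] at key
  simp only [eR] at key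
  have hRs : ∑ i ∈ Finset.range (t' / τ), Rr μ P f τ (i * τ)
      ≤ ((t' / τ : ℕ) : ℝ) * ((3 / 2) * (τ : ℝ) ^ (3 / 4 : ℝ) * U μ P f) := by
    have := Finset.sum_le_card_nsmul (Finset.range (t' / τ)) (fun i => Rr μ P f τ (i * τ))
      ((3 / 2) * (τ : ℝ) ^ (3 / 4 : ℝ) * U μ P f) (fun i _ => hR S μ P hC hL n f τ (i * τ))
    simpa using this
  have hsc := scal_15 τ (t' / τ) (t' % τ) hτ
  rw [ht'] at hsc
  have := mul_le_mul_of_nonneg_right hsc hU
  nlinarith [key, hRs, this]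

end Vale.Agent.P125.Poly
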