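import Vale.Agent.P125.Poly.Defs58

set_option linter.unusedSectionVars false
set_option linter.unusedVariables false

/-! # P125 Poly: statement QB (bound of `Q`) -/

namespace Vale.Agent.P125.Poly

open scoped BigOperators
open Vale.Agent.P125.Dich

theorem stQ_30 (hs : StSmall) (h1 : StRem) (h2 : StBlk) (h3 : StR) : StQ := by
  intro S _ _ μ P hc L n f τ t' hτ
  obtain ⟨_, _, _, _, _, _, hU0, _, _, _⟩ := hs S μ P hc L n f
  have ht : τ * (t' / τ) + t' % τ = t' := Nat.div_add_mod t' τ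
  have hρ : t' % τ < τ := Nat.mod_lt _ (by omega)
  set J := t' / τ with hJ
  set ρ := t' % τ with hρdef
  have a1 := h1 S μ P hc L n f (τ * J) ρ
  rw [ht] at a1
  have a2 := h2 S μ P hc L n f τ J
  have a3 : ∑ j ∈ Finset.range J, Rr μ P f τ (τ * j)
      ≤ (J : ℝ) * ((3 / 2) * (τ : ℝ) ^ (3 / 4 : ℝ) * U μ P f) := by
    have := Finset.sum_le_sum fun j (_ : j ∈ Finset.range J) => h3 S μ P hc L n f τ (τ * j)
    rw [Finset.sum_const, Finset.card_range, nsmul_eq_mul] at this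
    exact this
  have hτ0 : (0 : ℝ) < τ := by exact_mod_cast hτ
  have hJτ : (τ : ℝ) * J ≤ t' := by
    have : τ * J ≤ t' := by omega
    exact_mod_cast this
  have hρτ : (ρ : ℝ) ≤ τ := by exact_mod_cast hρ.le
  have b1 : Real.sqrt J * τ ≤ Real.sqrt ((t' : ℝ) * τ) := by
    have e : Real.sqrt J * τ = Real.sqrt ((τ : ℝ) * J * τ) := by
      rw [show (τ : ℝ) * J * τ = (J : ℝ) * (τ : ℝ) ^ 2 by ring,
        Real.sqrt_mul (Nat.cast_nonneg J), Real.sqrt_sq hτ0.le]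
    rw [e]
    exact Real.sqrt_le_sqrt (mul_le_mul_of_nonneg_right hJτ hτ0.le)
  have b2 : (J : ℝ) * (τ : ℝ) ^ (3 / 4 : ℝ) ≤ (t' : ℝ) * (τ : ℝ) ^ (-(1 / 4) : ℝ) := by
    have e : (τ : ℝ) ^ (3 / 4 : ℝ) = (τ : ℝ) * (τ : ℝ) ^ (-(1 / 4) : ℝ) := by
      have := Real.rpow_add hτ0 1 (-(1 / 4) : ℝ)
      rw [Real.rpow_one] at this
      rw [← this]
      norm_num
    rw [e]
    have hp : 0 ≤ (τ : ℝ) ^ (-(1 / 4) : ℝ) := Real.rpow_nonneg hτ0.le _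
    calc (J : ℝ) * ((τ : ℝ) * (τ : ℝ) ^ (-(1 / 4) : ℝ))
        = ((τ : ℝ) * J) * (τ : ℝ) ^ (-(1 / 4) : ℝ) := by ring
      _ ≤ (t' : ℝ) * (τ : ℝ) ^ (-(1 / 4) : ℝ) := mul_le_mul_of_nonneg_right hJτ hp
  have c1 := mul_le_mul_of_nonneg_right b1 hU0
  have c2 := mul_le_mul_of_nonneg_right b2 hU0
  have c3 := mul_le_mul_of_nonneg_right hρτ hU0
  calc Qsum μ P f t' ≤ Qsum μ P f (τ * J) + ρ * U μ P f := a1
    _ ≤ Real.sqrt J * τ * U μ P f + (J : ℝ) * ((3 / 2) * (τ : ℝ) ^ (3 / 4 : ℝ) * U μ P f)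
        + ρ * U μ P f := by linarith
    _ = Real.sqrt J * τ * U μ P f + (3 / 2) * ((J : ℝ) * (τ : ℝ) ^ (3 / 4 : ℝ) * U μ P f)
        + ρ * U μ P f := by ring
    _ ≤ Real.sqrt ((t' : ℝ) * τ) * U μ P f
        + (3 / 2) * ((t' : ℝ) * (τ : ℝ) ^ (-(1 / 4) : ℝ) * U μ P f) + τ * U μ P f := by linarith
    _ = (Real.sqrt (t' * τ) + τ + (3 / 2) * t' * (τ : ℝ) ^ (-(1 / 4) : ℝ)) * U μ P f := by ring

end Vale.Agent.P125.Poly
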