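import Vale.Agent.P125.Poly.Defs_79
import Vale.Agent.P125.Poly.ApiA_79
import Vale.Agent.P125.Poly.ApiB_79
import Vale.Agent.P125.Poly.ApiC_79
import Vale.Agent.P125.Poly.DualA_79
import Vale.Agent.P125.Poly.DualB_79
import Vale.Agent.P125.Poly.DualC_79
import Vale.Agent.P125.Poly.OwnU_79

set_option linter.unusedSectionVars false
set_option linter.unusedVariables false

namespace Vale.Agent.P125.Poly79

open scoped BigOperators
open Vale.Agent.P125.Dich Vale.Agent.P125.BV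

variable {S : Type} [Fintype S] [DecidableEq S]

theorem rs_sq_le61 {μ : S → ℝ} {P : Matrix S S ℝ} (hc : IsChain μ P) (n : ℕ) (F : ℕ → S → ℝ)
    (hF0 : ∀ x, F 0 x = 0) (τ s : ℕ) :
    (RS μ P n F τ s) ^ 2 ≤ (1 / 4) * WW μ P n F * YY μ P n F τ s := by
  set T : S → S → ℝ := fun a b =>
    ∑ k ∈ Finset.range n, (dd F k b - dd F k a) * (UU P n F τ s k b - UU P n F τ s k a) with hT
  have hm : ∀ a b, 0 ≤ μ a * P a b := fun a b => mul_nonneg (hc.1 a) (hc.2.2.1 a b)
  have hXi : ∀ a b, 0 ≤ Xi P n F τ s a b := fun a b =>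
    le_trans (sq_nonneg _) (ownU hc n F τ s 0 (Nat.zero_le n) a b)
  -- the representation of RS
  have hRS : RS μ P n F τ s = -(1 / 2) * ∑ a, ∑ b, μ a * P a b * T a b := by
    rw [dualA hc n F τ s]
    have h1 : ∀ j ∈ Finset.range n, ∑ z, μ z * ph P F τ s j z * hh P F τ j z
        = -(1 / 2) * ∑ a, ∑ b, μ a * P a b *
          ((Av P τ (ph P F τ s j) b - Av P τ (ph P F τ s j) a) * (F (j + 1) b - F (j + 1) a)) := by
      intro j _
      exact dualB hc (ph P F τ s j) (F (j + 1)) τ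
    rw [Finset.sum_congr rfl h1, ← Finset.mul_sum]
    congr 1
    rw [Finset.sum_comm]
    refine Finset.sum_congr rfl fun a _ => ?_
    rw [Finset.sum_comm]
    refine Finset.sum_congr rfl fun b _ => ?_
    rw [← Finset.mul_sum, dualC P n F hF0 τ s a b]
  -- pointwise bound
  have hTb : ∀ a b, |T a b| ≤ ll n F a b * Real.sqrt (Xi P n F τ s a b) := by
    intro a b
    rw [hT]
    refine (Finset.abs_sum_le_sum_abs _ _).trans ?_
    unfold ll
    rw [Finset.sum_mul]
    refine Finset.sum_le_sum fun k hk => ?_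
    rw [abs_mul]
    refine mul_le_mul_of_nonneg_left ?_ (abs_nonneg _)
    exact Real.abs_le_sqrt (ownU hc n F τ s k (Finset.mem_range.mp hk).le a b)
  have hpair : ∀ H : S → S → ℝ, ∑ a, ∑ b, H a b = ∑ x : S × S, H x.1 x.2 :=
    fun H => (Fintype.sum_prod_type' H).symm
  set B := ∑ x : S × S, (μ x.1 * P x.1 x.2) * ll n F x.1 x.2 * Real.sqrt (Xi P n F τ s x.1 x.2)
    with hB
  have h2 : |∑ a, ∑ b, μ a * P a b * T a b| ≤ B := by
    rw [hpair (fun a b => μ a * P a b * T a b)]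
    refine (Finset.abs_sum_le_sum_abs _ _).trans (Finset.sum_le_sum fun x _ => ?_)
    rw [abs_mul, abs_of_nonneg (hm x.1 x.2)]
    have h := mul_le_mul_of_nonneg_left (hTb x.1 x.2) (hm x.1 x.2)
    linarith
  have h3 : B ^ 2 ≤ WW μ P n F * YY μ P n F τ s := by
    have h := cs (μ := fun x : S × S => μ x.1 * P x.1 x.2) (fun x => hm x.1 x.2)
      (fun x => ll n F x.1 x.2) (fun x => Real.sqrt (Xi P n F τ s x.1 x.2))
    have e1 : ∑ x : S × S, (μ x.1 * P x.1 x.2) * ll n F x.1 x.2 ^ 2 = WW μ P n F := by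
      unfold WW
      rw [hpair (fun a b => μ a * P a b * ll n F a b ^ 2)]
    have e2 : ∑ x : S × S, (μ x.1 * P x.1 x.2) * Real.sqrt (Xi P n F τ s x.1 x.2) ^ 2
        = YY μ P n F τ s := by
      unfold YY
      rw [hpair (fun a b => μ a * P a b * Xi P n F τ s a b)]
      refine Finset.sum_congr rfl fun x _ => ?_
      rw [Real.sq_sqrt (hXi x.1 x.2)]
    rw [e1, e2] at h
    exact h
  have h4 : (∑ a, ∑ b, μ a * P a b * T a b) ^ 2 ≤ B ^ 2 := by
    rw [← sq_abs]
    exact pow_le_pow_left₀ (abs_nonneg _) h2 2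
  rw [hRS]
  nlinarith

end Vale.Agent.P125.Poly79
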