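import Vale.Agent.P125.Poly.Defs_79
import Vale.Agent.P125.Poly.ApiA_79
import Vale.Agent.P125.Poly.ApiB_79
import Vale.Agent.P125.Poly.ApiC_79
import Vale.Agent.P125.Poly.DualA_79
import Vale.Agent.P125.Poly.DualB_79
import Vale.Agent.P125.Poly.DualC_79
import Vale.Agent.P125.Poly.OwnU_79

set_option linter.unusedSectionVars false
set_option linter.unusedVariables false

/-! # P125 polynomial rate, path-free form: step (C): RS^2 ≤ W Y / 4 (race copy of RSY_79, helper3) -/

namespace Vale.Agent.P125.Poly79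

open scoped BigOperators
open Vale.Agent.P125.Dich Vale.Agent.P125.BV

variable {S : Type} [Fintype S] [DecidableEq S]

/-- same statement as `rs_sq_le` of `RSY_79` -/
theorem rs_sq_le_3 {μ : S → ℝ} {P : Matrix S S ℝ} (hc : IsChain μ P) (n : ℕ) (F : ℕ → S → ℝ)
    (hF0 : ∀ x, F 0 x = 0) (τ s : ℕ) :
    (RS μ P n F τ s) ^ 2 ≤ (1 / 4) * WW μ P n F * YY μ P n F τ s := by
  have hw : ∀ p : S × S, 0 ≤ μ p.1 * P p.1 p.2 :=
    fun p => mul_nonneg (hc.1 p.1) (hc.2.2.1 p.1 p.2)
  have hXi : ∀ a b, 0 ≤ Xi P n F τ s a b :=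
    fun a b => le_trans (sq_nonneg _) (ownU hc n F τ s 0 (Nat.zero_le n) a b)
  set T : S → S → ℝ := fun a b => ∑ k ∈ Finset.range n,
    (dd F k b - dd F k a) * (UU P n F τ s k b - UU P n F τ s k a) with hT
  have e1 : RS μ P n F τ s = -(1 / 2) * ∑ a, ∑ b, μ a * P a b * T a b := by
    rw [dualA hc n F τ s]
    have h0 : ∀ j, ∑ z, μ z * ph P F τ s j z * hh P F τ j z =
        -(1 / 2) * ∑ a, ∑ b, μ a * P a b *
          ((Av P τ (ph P F τ s j) b - Av P τ (ph P F τ s j) a) * (F (j + 1) b - F (j + 1) a)) :=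
      fun j => dualB hc (ph P F τ s j) (F (j + 1)) τ
    rw [Finset.sum_congr rfl (fun j _ => h0 j), ← Finset.mul_sum]
    congr 1
    rw [Finset.sum_comm]
    refine Finset.sum_congr rfl fun a _ => ?_
    rw [Finset.sum_comm]
    refine Finset.sum_congr rfl fun b _ => ?_
    rw [← Finset.mul_sum, dualC P n F hF0 τ s a b]
  have hTle : ∀ a b, |T a b| ≤ ll n F a b * Real.sqrt (Xi P n F τ s a b) := by
    intro a b
    calc |T a b| ≤ ∑ k ∈ Finset.range n,
          |(dd F k b - dd F k a) * (UU P n F τ s k b - UU P n F τ s k a)| :=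
          Finset.abs_sum_le_sum_abs _ _
      _ ≤ ∑ k ∈ Finset.range n, |dd F k b - dd F k a| * Real.sqrt (Xi P n F τ s a b) := by
          refine Finset.sum_le_sum fun k hk => ?_
          rw [abs_mul]
          exact mul_le_mul_of_nonneg_left
            (Real.abs_le_sqrt (ownU hc n F τ s k (Finset.mem_range.mp hk).le a b)) (abs_nonneg _)
      _ = _ := by
          unfold ll
          rw [Finset.sum_mul]
  have hcs := cs (S := S × S) (μ := fun p => μ p.1 * P p.1 p.2) hw
    (fun p => ll n F p.1 p.2) (fun p => Real.sqrt (Xi P n F τ s p.1 p.2))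
  simp only [Fintype.sum_prod_type] at hcs
  have e2 : ∑ a, ∑ b, μ a * P a b * Real.sqrt (Xi P n F τ s a b) ^ 2 = YY μ P n F τ s := by
    unfold YY
    refine Finset.sum_congr rfl fun a _ => Finset.sum_congr rfl fun b _ => ?_
    rw [Real.sq_sqrt (hXi a b)]
  have hab : |∑ a, ∑ b, μ a * P a b * T a b| ≤
      ∑ a, ∑ b, μ a * P a b * ll n F a b * Real.sqrt (Xi P n F τ s a b) := by
    refine (Finset.abs_sum_le_sum_abs _ _).trans (Finset.sum_le_sum fun a _ => ?_)
    refine (Finset.abs_sum_le_sum_abs _ _).trans (Finset.sum_le_sum fun b _ => ?_)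
    rw [abs_mul, abs_of_nonneg (hw (a, b))]
    calc μ a * P a b * |T a b|
        ≤ μ a * P a b * (ll n F a b * Real.sqrt (Xi P n F τ s a b)) :=
          mul_le_mul_of_nonneg_left (hTle a b) (hw (a, b))
      _ = _ := by ring
  have hsq : (∑ a, ∑ b, μ a * P a b * T a b) ^ 2 ≤
      (∑ a, ∑ b, μ a * P a b * ll n F a b * Real.sqrt (Xi P n F τ s a b)) ^ 2 := by
    rw [← sq_abs]
    exact pow_le_pow_left₀ (abs_nonneg _) hab 2
  rw [e2] at hcs
  have hfin := hsq.trans hcs
  rw [e1, mul_pow]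
  have hWW : ∑ a, ∑ b, μ a * P a b * ll n F a b ^ 2 = WW μ P n F := rfl
  rw [hWW] at hfin
  nlinarith [hfin]

end Vale.Agent.P125.Poly79
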