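import Mathlib

set_option linter.unusedSectionVars false
set_option linter.unusedVariables false

/-!
# P125 polynomial rate: the final scalar optimisation (`τ ≈ t^(2/3)`)

From the master inequality
`E t ≤ (2 t + 4 t (sqrt (t τ) + τ + c t / τ^(1/4))) W` (all block lengths `τ ≥ 1`)
to `E t ≤ (18 + 4 c) t^(11/6) W`.
-/

namespace Vale.Agent.P125.Poly51

/-- `q τ` is any fourth root of `τ` (for instance `sqrt (sqrt τ)` or `τ ^ (1/4)`). -/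
theorem rate_of_master (E : ℕ → ℝ) (W c : ℝ) (hW : 0 ≤ W) (hc : 0 ≤ c) (q : ℕ → ℝ)
    (hq0 : ∀ τ, 0 ≤ q τ) (hq4 : ∀ τ : ℕ, q τ ^ 4 = (τ : ℝ))
    (hM : ∀ t τ : ℕ, 1 ≤ t → 1 ≤ τ →
      E t ≤ (2 * (t : ℝ) + 4 * (t : ℝ) * (Real.sqrt ((t : ℝ) * τ) + τ + c * (t : ℝ) / q τ)) * W) :
    ∀ t : ℕ, 1 ≤ t → E t ≤ (18 + 4 * c) * (t : ℝ) ^ ((11 : ℝ) / 6) * W := by
  intro t ht
  have ht1 : (1 : ℝ) ≤ t := by exact_mod_cast ht
  have ht0 : (0 : ℝ) ≤ t := by linarith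
  set x : ℝ := (t : ℝ) ^ ((1 : ℝ) / 6) with hx
  have hx1 : 1 ≤ x := Real.one_le_rpow ht1 (by norm_num)
  have hx0 : 0 < x := by linarith
  have hx6 : x ^ 6 = t := by
    rw [hx, ← Real.rpow_natCast, ← Real.rpow_mul ht0]
    norm_num
  have hx11 : x ^ 11 = (t : ℝ) ^ ((11 : ℝ) / 6) := by
    rw [hx, ← Real.rpow_natCast, ← Real.rpow_mul ht0]
    norm_num
  set τ : ℕ := ⌈x ^ 4⌉₊ with hτ
  have hτlo : x ^ 4 ≤ (τ : ℝ) := Nat.le_ceil _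
  have hx4 : 1 ≤ x ^ 4 := one_le_pow₀ hx1
  have hτhi : (τ : ℝ) ≤ 2 * x ^ 4 := by
    have := (Nat.ceil_lt_add_one (by positivity : 0 ≤ x ^ 4)).le
    linarith
  have hτ1 : 1 ≤ τ := by
    have : (1 : ℝ) ≤ τ := hx4.trans hτlo
    exact_mod_cast this
  have hqx : x ≤ q τ := by
    by_contra hlt
    rw [not_le] at hlt
    have : q τ ^ 4 < x ^ 4 := pow_lt_pow_left₀ hlt (hq0 τ) (by norm_num)
    rw [hq4] at this
    linarith
  have hq : 0 < q τ := by linarith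
  have h1 : Real.sqrt ((t : ℝ) * τ) ≤ 2 * x ^ 5 := by
    rw [Real.sqrt_le_left (by positivity)]
    calc (t : ℝ) * τ ≤ x ^ 6 * (2 * x ^ 4) := by
          rw [hx6]
          exact mul_le_mul_of_nonneg_left hτhi ht0
      _ ≤ (2 * x ^ 5) ^ 2 := by
          have : 0 ≤ x ^ 10 := by positivity
          nlinarith
  have h2 : (τ : ℝ) ≤ 2 * x ^ 5 := by
    have : x ^ 4 ≤ x ^ 5 := pow_le_pow_right₀ hx1 (by norm_num)
    linarith
  have h3 : c * (t : ℝ) / q τ ≤ c * x ^ 5 := by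
    rw [div_le_iff₀ hq, ← hx6]
    have : c * x ^ 5 * x ≤ c * x ^ 5 * q τ :=
      mul_le_mul_of_nonneg_left hqx (by positivity)
    calc c * x ^ 6 = c * x ^ 5 * x := by ring
      _ ≤ c * x ^ 5 * q τ := this
  have h4 := hM t τ ht hτ1
  refine h4.trans ?_
  apply mul_le_mul_of_nonneg_right _ hW
  rw [← hx11]
  have h5 : Real.sqrt ((t : ℝ) * τ) + τ + c * (t : ℝ) / q τ ≤ (4 + c) * x ^ 5 := by linarith
  have h6 : 4 * (t : ℝ) * (Real.sqrt ((t : ℝ) * τ) + τ + c * (t : ℝ) / q τ)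
      ≤ 4 * (t : ℝ) * ((4 + c) * x ^ 5) := mul_le_mul_of_nonneg_left h5 (by positivity)
  have h7 : x ^ 6 ≤ x ^ 11 := pow_le_pow_right₀ hx1 (by norm_num)
  rw [← hx6] at h6 ⊢
  have e : 4 * x ^ 6 * ((4 + c) * x ^ 5) = (16 + 4 * c) * x ^ 11 := by ring
  rw [e] at h6
  nlinarith

end Vale.Agent.P125.Poly51
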