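import Vale.Agent.P125.Poly.Defs_79
import Vale.Agent.P125.Poly.Fun_79

set_option linter.unusedSectionVars false
set_option linter.unusedVariables false

/-! # P125 polynomial rate, path-free form (board 624): the rate t^(11/6) -/

namespace Vale.Agent.P125.Poly79

open scoped BigOperators
open Vale.Agent.P125.Dich Vale.Agent.P125.BV

variable {S : Type} [Fintype S] [DecidableEq S]

/-- `q = ⌈t^(1/6)⌉₊ ≤ 2 t^(1/6)`, `t ≤ q^6`, `q^5 ≤ 32 t^(5/6)`, `t ≤ t^(11/6)`. -/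
theorem poly_rate {μ : S → ℝ} {P : Matrix S S ℝ} (hc : IsChain μ P) (n : ℕ) (f : S → Fin n → ℝ)
    (t : ℕ) (ht : 1 ≤ t) :
    ∑ i, ∑ j, μ i * (P ^ t) i j * supJ n (pre (f j - f i)) ^ 2 ≤
      450 * (t : ℝ) ^ ((11 : ℝ) / 6) * ∑ i, ∑ j, μ i * P i j * n1 (f j - f i) ^ 2 := by
  have hW : 0 ≤ ∑ i, ∑ j, μ i * P i j * n1 (f j - f i) ^ 2 := by
    refine Finset.sum_nonneg fun i _ => Finset.sum_nonneg fun j _ => ?_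
    exact mul_nonneg (mul_nonneg (hc.1 i) (hc.2.2.1 i j)) (sq_nonneg _)
  have ht1 : (1 : ℝ) ≤ (t : ℝ) := by exact_mod_cast ht
  have ht0 : (0 : ℝ) ≤ (t : ℝ) := by linarith
  obtain ⟨x, hxdef⟩ : ∃ x : ℝ, x = (t : ℝ) ^ ((1 : ℝ) / 6) := ⟨_, rfl⟩
  have hx1 : 1 ≤ x := by
    rw [hxdef]
    exact Real.one_le_rpow ht1 (by norm_num)
  have hx0 : 0 ≤ x := by linarith
  have hx6 : x ^ 6 = (t : ℝ) := by
    rw [hxdef, ← Real.rpow_natCast, ← Real.rpow_mul ht0]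
    norm_num
  have hx11 : x ^ 11 = (t : ℝ) ^ ((11 : ℝ) / 6) := by
    rw [hxdef, ← Real.rpow_natCast, ← Real.rpow_mul ht0]
    norm_num
  have hq_ge : x ≤ ((⌈x⌉₊ : ℕ) : ℝ) := Nat.le_ceil x
  have hq_lt : ((⌈x⌉₊ : ℕ) : ℝ) < x + 1 := Nat.ceil_lt_add_one hx0
  have hq1 : 1 ≤ ⌈x⌉₊ := by
    have : (1 : ℝ) ≤ ((⌈x⌉₊ : ℕ) : ℝ) := le_trans hx1 hq_ge
    exact_mod_cast this
  have htq : t ≤ ⌈x⌉₊ ^ 6 := by
    have h1 : (t : ℝ) ≤ ((⌈x⌉₊ : ℕ) : ℝ) ^ 6 := by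
      rw [← hx6]
      exact pow_le_pow_left₀ hx0 hq_ge 6
    exact_mod_cast h1
  have hmain := poly_fun hc n f t ⌈x⌉₊ hq1 htq
  refine le_trans hmain ?_
  refine mul_le_mul_of_nonneg_right ?_ hW
  rw [← hx11, ← hx6]
  have hq2 : ((⌈x⌉₊ : ℕ) : ℝ) ≤ 2 * x := by linarith
  have hq0 : (0 : ℝ) ≤ ((⌈x⌉₊ : ℕ) : ℝ) := Nat.cast_nonneg _
  have hq5 : ((⌈x⌉₊ : ℕ) : ℝ) ^ 5 ≤ (2 * x) ^ 5 := pow_le_pow_left₀ hq0 hq2 5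
  have hx6n : 0 ≤ x ^ 6 := pow_nonneg hx0 6
  have h611 : x ^ 6 ≤ x ^ 11 := pow_le_pow_right₀ hx1 (by norm_num)
  have h2 : 14 * x ^ 6 * ((⌈x⌉₊ : ℕ) : ℝ) ^ 5 ≤ 14 * x ^ 6 * (2 * x) ^ 5 :=
    mul_le_mul_of_nonneg_left hq5 (by positivity)
  have h3 : 14 * x ^ 6 * (2 * x) ^ 5 = 448 * x ^ 11 := by ring
  linarith

end Vale.Agent.P125.Poly79
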