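import Vale.Agent.P125.Poly.Defs58

set_option linter.unusedSectionVars false
set_option linter.unusedVariables false

namespace Vale.Agent.P125.Poly

open scoped BigOperators
open Vale.Agent.P125.Dich

theorem stRem_23 (hs : StSmall) (h1 : StTriv1) : StRem := by
  intro S _ _ μ P hc L n f m ρ
  obtain ⟨om0, omsum, lb0, l20, avl2, avlb, U0, Fle, wsym, ellsym⟩ := hs S μ P hc L n f
  have T1 := h1 S μ P hc L n f
  set G : S → ℝ := fun z => ∑ i ∈ Finset.range ρ, op P i (lbar P f) z with hG
  have ha : ∀ k b, Ak P f (m + ρ) k b ≤ Ak P f m k b + op P m G b := by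
    intro k b
    have e1 : Ak P f (m + ρ) k b
        = ∑ z, (P ^ m) b z * ∑ y, (P ^ ρ) z y * |F f k y - F f k b| := by
      unfold Ak
      simp only [L.pw_add m ρ, Finset.sum_mul, Finset.mul_sum]
      rw [Finset.sum_comm]
      exact Finset.sum_congr rfl fun z _ => Finset.sum_congr rfl fun y _ => by ring
    have e2 : ∀ z, ∑ y, (P ^ ρ) z y * |F f k y - F f k b| ≤ |F f k z - F f k b| + G z := by
      intro z
      have h : ∑ y, (P ^ ρ) z y * |F f k y - F f k b| ≤
          ∑ y, ((P ^ ρ) z y * |F f k y - F f k z| + (P ^ ρ) z y * |F f k z - F f k b|) := by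
        refine Finset.sum_le_sum fun y _ => ?_
        rw [← mul_add]
        refine mul_le_mul_of_nonneg_left ?_ (L.pw_nonneg ρ z y)
        have : F f k y - F f k b = (F f k y - F f k z) + (F f k z - F f k b) := by ring
        rw [this]
        exact abs_add_le _ _
      rw [Finset.sum_add_distrib, ← Finset.sum_mul, L.pw_sum, one_mul] at h
      have t := T1 k ρ z
      unfold Ak at t
      linarith
    rw [e1]
    calc ∑ z, (P ^ m) b z * ∑ y, (P ^ ρ) z y * |F f k y - F f k b|
        ≤ ∑ z, (P ^ m) b z * (|F f k z - F f k b| + G z) :=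
          Finset.sum_le_sum fun z _ => mul_le_mul_of_nonneg_left (e2 z) (L.pw_nonneg m b z)
      _ = Ak P f m k b + op P m G b := by
          simp only [mul_add, Finset.sum_add_distrib]
          rfl
  have hb : Qsum μ P f (m + ρ) ≤ Qsum μ P f m + ∑ k, av μ (fun b => om P f k b * op P m G b) := by
    unfold Qsum Qk
    rw [← Finset.sum_add_distrib]
    refine Finset.sum_le_sum fun k _ => ?_
    unfold av
    rw [← Finset.sum_add_distrib]
    refine Finset.sum_le_sum fun b _ => ?_
    have := mul_le_mul_of_nonneg_left (ha k b) (om0 k b)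
    have h2 := mul_le_mul_of_nonneg_left this (L.mu_nonneg b)
    calc _ ≤ _ := h2
      _ = _ := by ring
  have hcsum : ∑ k, av μ (fun b => om P f k b * op P m G b)
      = ∑ b, μ b * (lbar P f b * op P m G b) := by
    unfold av
    rw [Finset.sum_comm]
    refine Finset.sum_congr rfl fun b _ => ?_
    rw [← omsum b, Finset.sum_mul, Finset.mul_sum]
  have hG2 : ∀ b, op P m G b = ∑ i ∈ Finset.range ρ, op P (m + i) (lbar P f) b := by
    intro b
    rw [hG, L.op_sum]
    refine Finset.sum_congr rfl fun i _ => ?_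
    have := L.op_op m i (lbar P f)
    rw [← this]
  have hone : ∀ j, ∑ b, μ b * (lbar P f b * op P j (lbar P f) b) ≤ U μ P f := by
    intro j
    have p1 : ∀ b, μ b * (lbar P f b * op P j (lbar P f) b) ≤
        (1 / 2) * (μ b * lbar P f b ^ 2) + (1 / 2) * (μ b * op P j (fun y => lbar P f y ^ 2) b) := by
      intro b
      have q1 := L.sq_op j (lbar P f) b
      have q2 : lbar P f b * op P j (lbar P f) b ≤
          (1 / 2) * lbar P f b ^ 2 + (1 / 2) * op P j (fun y => lbar P f y ^ 2) b := by
        nlinarith [sq_nonneg (lbar P f b - op P j (lbar P f) b)]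
      have := mul_le_mul_of_nonneg_left q2 (L.mu_nonneg b)
      calc _ ≤ _ := this
        _ = _ := by ring
    have p2 := Finset.sum_le_sum (fun b (_ : b ∈ Finset.univ) => p1 b)
    rw [Finset.sum_add_distrib, ← Finset.mul_sum, ← Finset.mul_sum] at p2
    have p3 : ∑ b, μ b * op P j (fun y => lbar P f y ^ 2) b = ∑ b, μ b * lbar P f b ^ 2 :=
      L.av_op j (fun y => lbar P f y ^ 2)
    have p4 : ∑ b, μ b * lbar P f b ^ 2 ≤ U μ P f := avlb
    rw [p3] at p2
    linarith
  have hd : ∑ b, μ b * (lbar P f b * op P m G b) ≤ ρ * U μ P f := by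
    have e : ∑ b, μ b * (lbar P f b * op P m G b)
        = ∑ i ∈ Finset.range ρ, ∑ b, μ b * (lbar P f b * op P (m + i) (lbar P f) b) := by
      rw [Finset.sum_comm]
      refine Finset.sum_congr rfl fun b _ => ?_
      rw [hG2 b, Finset.mul_sum, Finset.mul_sum]
    rw [e]
    calc ∑ i ∈ Finset.range ρ, ∑ b, μ b * (lbar P f b * op P (m + i) (lbar P f) b)
        ≤ ∑ i ∈ Finset.range ρ, U μ P f := Finset.sum_le_sum fun i _ => hone (m + i)
      _ = ρ * U μ P f := by rw [Finset.sum_const, Finset.card_range, nsmul_eq_mul]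
  rw [hcsum] at hb
  linarith

end Vale.Agent.P125.Poly
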