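import Vale.Agent.P125.Poly.Defs_79
import Vale.Agent.P125.Poly.ApiA_79
import Vale.Agent.P125.Poly.ApiB_79
import Vale.Agent.P125.Poly.ApiC_79
import Vale.Agent.P125.Poly.ApiT_79

set_option linter.unusedSectionVars false
set_option linter.unusedVariables false

/-! # P125 polynomial rate, path-free form: step (B): the remainder (race copy of Rem_79, helper3) -/

namespace Vale.Agent.P125.Poly79

open scoped BigOperators
open Vale.Agent.P125.Dich Vale.Agent.P125.BV

variable {S : Type} [Fintype S] [DecidableEq S]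

/-- same statement as `rem` of `Rem_79` -/
theorem rem_3 {μ : S → ℝ} {P : Matrix S S ℝ} (hc : IsChain μ P) (n : ℕ) (F : ℕ → S → ℝ)
    (hF0 : ∀ x, F 0 x = 0) (M r : ℕ) :
    ∑ j ∈ Finset.range n, ∑ y, μ y * aa P F j y *
      op (P ^ M) (fun w => ∑ z, (P ^ r) w z * |F (j + 1) z - F (j + 1) w|) y ≤
      (r : ℝ) * WW μ P n F := by
  have hW := WW_nonneg hc n F
  have hM := isChain_pow hc M
  have hr := isChain_pow hc r
  set B : S → ℝ := fun w => ∑ z, (P ^ r) w z * ll n F w z with hB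
  have h1 : ∑ j ∈ Finset.range n, ∑ y, μ y * aa P F j y *
      op (P ^ M) (fun w => ∑ z, (P ^ r) w z * |F (j + 1) z - F (j + 1) w|) y ≤
      ∑ y, μ y * lb P n F y * op (P ^ M) B y := by
    have e : ∑ y, μ y * lb P n F y * op (P ^ M) B y =
        ∑ j ∈ Finset.range n, ∑ y, μ y * aa P F j y * op (P ^ M) B y := by
      rw [Finset.sum_comm]
      refine Finset.sum_congr rfl fun y _ => ?_
      unfold lb
      rw [Finset.mul_sum, Finset.sum_mul]
    rw [e]
    refine Finset.sum_le_sum fun j hj => Finset.sum_le_sum fun y _ => ?_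
    refine mul_le_mul_of_nonneg_left ?_ (mul_nonneg (hc.1 y) (aa_nonneg hc F j y))
    refine op_mono _ hM.2.2.1 _ _ (fun w => ?_) y
    refine Finset.sum_le_sum fun z _ => ?_
    exact mul_le_mul_of_nonneg_left
      (abs_F_le n F hF0 (j + 1) (Nat.succ_le_of_lt (Finset.mem_range.mp hj)) w z) (hr.2.2.1 w z)
  have h2 := cs hc.1 (lb P n F) (op (P ^ M) B)
  have h3 := contr hM B
  have h4 : ∑ w, μ w * B w ^ 2 ≤ (r : ℝ) ^ 2 * WW μ P n F := by
    refine le_trans ?_ (ll_triv hc n F r)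
    refine Finset.sum_le_sum fun w _ => ?_
    have hj := jensen hr (fun z => ll n F w z) w
    calc μ w * B w ^ 2 ≤ μ w * op (P ^ r) (fun z => ll n F w z ^ 2) w :=
          mul_le_mul_of_nonneg_left hj (hc.1 w)
      _ = ∑ b, μ w * (P ^ r) w b * ll n F w b ^ 2 := by
          unfold op
          rw [Finset.mul_sum]
          refine Finset.sum_congr rfl fun b _ => ?_
          ring
  have h5 := lb_sq_le hc n F
  have hn : 0 ≤ ∑ x, μ x * op (P ^ M) B x ^ 2 :=
    Finset.sum_nonneg fun x _ => mul_nonneg (hc.1 x) (sq_nonneg _)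
  have hX2 : (∑ y, μ y * lb P n F y * op (P ^ M) B y) ^ 2 ≤ ((r : ℝ) * WW μ P n F) ^ 2 := by
    calc (∑ y, μ y * lb P n F y * op (P ^ M) B y) ^ 2
        ≤ (∑ x, μ x * lb P n F x ^ 2) * (∑ x, μ x * op (P ^ M) B x ^ 2) := h2
      _ ≤ WW μ P n F * ((r : ℝ) ^ 2 * WW μ P n F) := mul_le_mul h5 (h3.trans h4) hn hW
      _ = _ := by ring
  have hb : 0 ≤ (r : ℝ) * WW μ P n F := by positivity
  have hX : ∑ y, μ y * lb P n F y * op (P ^ M) B y ≤ (r : ℝ) * WW μ P n F := by
    by_contra hlt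
    push Not at hlt
    nlinarith [mul_pos (sub_pos.mpr hlt) (lt_of_le_of_lt hb hlt), hX2, hb, hlt]
  exact h1.trans hX

end Vale.Agent.P125.Poly79
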