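import Vale.Agent.P125.Poly.Defs58

set_option linter.unusedSectionVars false
set_option linter.unusedVariables false

/-! # P125 Poly: statement REM (remainder of the block decomposition) -/

namespace Vale.Agent.P125.Poly

open scoped BigOperators
open Vale.Agent.P125.Dich

theorem stRem_30 (hs : StSmall) (h1 : StTriv1) : StRem := by
  intro S _ _ μ P hc L n f m ρ
  obtain ⟨hom0, homsum, hlb0, hl20, havl2, havlb, hU0, hFell, hwsymm, hellsymm⟩ :=
    hs S μ P hc L n f
  -- pointwise splitting
  have hAk : ∀ k b, Ak P f (m + ρ) k b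
      ≤ Ak P f m k b + ∑ i ∈ Finset.range ρ, op P (m + i) (lbar P f) b := by
    intro k b
    have e1 : Ak P f (m + ρ) k b
        = ∑ z, (P ^ m) b z * ∑ y, (P ^ ρ) z y * |F f k y - F f k b| := by
      unfold Ak
      simp_rw [L.pw_add m ρ b, Finset.sum_mul, Finset.mul_sum]
      rw [Finset.sum_comm]
      exact Finset.sum_congr rfl fun z _ => Finset.sum_congr rfl fun y _ => by ring
    have e2 : ∀ z, ∑ y, (P ^ ρ) z y * |F f k y - F f k b|
        ≤ Ak P f ρ k z + |F f k z - F f k b| := by
      intro z
      have : ∀ y, (P ^ ρ) z y * |F f k y - F f k b|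
          ≤ (P ^ ρ) z y * |F f k y - F f k z| + (P ^ ρ) z y * |F f k z - F f k b| := by
        intro y
        rw [← mul_add]
        apply mul_le_mul_of_nonneg_left _ (L.pw_nonneg ρ z y)
        have := abs_add_le (F f k y - F f k z) (F f k z - F f k b)
        simpa using this
      have h3 := Finset.sum_le_sum fun y (_ : y ∈ Finset.univ) => this y
      rw [Finset.sum_add_distrib, ← Finset.sum_mul, L.pw_sum ρ z, one_mul] at h3
      exact h3
    have e3 : ∀ z, ∑ y, (P ^ ρ) z y * |F f k y - F f k b|
        ≤ (∑ i ∈ Finset.range ρ, op P i (lbar P f) z) + |F f k z - F f k b| := fun z =>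
      (e2 z).trans (add_le_add_left (h1 S μ P hc L n f k ρ z) _)
    rw [e1]
    calc ∑ z, (P ^ m) b z * ∑ y, (P ^ ρ) z y * |F f k y - F f k b|
        ≤ ∑ z, (P ^ m) b z * ((∑ i ∈ Finset.range ρ, op P i (lbar P f) z)
            + |F f k z - F f k b|) :=
          Finset.sum_le_sum fun z _ => mul_le_mul_of_nonneg_left (e3 z) (L.pw_nonneg m b z)
      _ = op P m (fun z => ∑ i ∈ Finset.range ρ, op P i (lbar P f) z) b + Ak P f m k b := by
          unfold Ak op
          rw [← Finset.sum_add_distrib]
          exact Finset.sum_congr rfl fun z _ => by ring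
      _ = Ak P f m k b + ∑ i ∈ Finset.range ρ, op P (m + i) (lbar P f) b := by
          rw [L.op_sum, add_comm]
          congr 1
          exact Finset.sum_congr rfl fun i _ => by rw [L.op_op]
  have step1 : Qsum μ P f (m + ρ) ≤ ∑ k, av μ (fun b => om P f k b * (Ak P f m k b
      + ∑ i ∈ Finset.range ρ, op P (m + i) (lbar P f) b)) := by
    unfold Qsum Qk
    refine Finset.sum_le_sum fun k _ => ?_
    exact L.av_mono _ _ fun b => mul_le_mul_of_nonneg_left (hAk k b) (hom0 k b)
  have step2 : ∑ k, av μ (fun b => om P f k b * (Ak P f m k b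
      + ∑ i ∈ Finset.range ρ, op P (m + i) (lbar P f) b))
      = Qsum μ P f m + ∑ i ∈ Finset.range ρ,
        av μ (fun b => lbar P f b * op P (m + i) (lbar P f) b) := by
    unfold Qsum Qk av
    have e4 : ∀ k, ∑ x, μ x * (om P f k x * (Ak P f m k x
        + ∑ i ∈ Finset.range ρ, op P (m + i) (lbar P f) x))
        = ∑ x, μ x * (om P f k x * Ak P f m k x)
          + ∑ x, μ x * (om P f k x * ∑ i ∈ Finset.range ρ, op P (m + i) (lbar P f) x) := by
      intro k
      rw [← Finset.sum_add_distrib]
      exact Finset.sum_congr rfl fun x _ => by ring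
    simp_rw [e4]
    rw [Finset.sum_add_distrib]
    congr 1
    rw [Finset.sum_comm]
    rw [Finset.sum_comm (s := Finset.range ρ)]
    refine Finset.sum_congr rfl fun x _ => ?_
    rw [← Finset.mul_sum, ← Finset.sum_mul, homsum x, ← Finset.mul_sum, ← Finset.mul_sum]
  have step3 : ∀ i, av μ (fun b => lbar P f b * op P (m + i) (lbar P f) b) ≤ U μ P f := by
    intro i
    have p1 : av μ (fun b => lbar P f b * op P (m + i) (lbar P f) b)
        ≤ av μ (fun b => (1 / 2) * lbar P f b ^ 2
          + (1 / 2) * op P (m + i) (fun y => lbar P f y ^ 2) b) := by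
      apply L.av_mono
      intro b
      have := L.sq_op (m + i) (lbar P f) b
      nlinarith [sq_nonneg (lbar P f b - op P (m + i) (lbar P f) b)]
    have p2 : av μ (fun b => (1 / 2) * lbar P f b ^ 2
          + (1 / 2) * op P (m + i) (fun y => lbar P f y ^ 2) b)
        = (1 / 2) * av μ (fun b => lbar P f b ^ 2)
          + (1 / 2) * av μ (op P (m + i) (fun y => lbar P f y ^ 2)) := by
      unfold av
      rw [Finset.mul_sum, Finset.mul_sum, ← Finset.sum_add_distrib]
      exact Finset.sum_congr rfl fun x _ => by ring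
    rw [p2, L.av_op] at p1
    linarith
  have step4 : ∑ i ∈ Finset.range ρ, av μ (fun b => lbar P f b * op P (m + i) (lbar P f) b)
      ≤ ρ * U μ P f := by
    have := Finset.sum_le_sum fun i (_ : i ∈ Finset.range ρ) => step3 i
    rw [Finset.sum_const, Finset.card_range, nsmul_eq_mul] at this
    exact this
  rw [step2] at step1
  linarith

end Vale.Agent.P125.Poly
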