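import Vale.Agent.P125.Poly.Defs58

namespace Vale.Agent.P125.Poly

open scoped BigOperators
open Vale.Agent.P125.Dich

theorem stRem_33 (hs : StSmall) (h1 : StTriv1) : StRem := by
  intro S _ _ μ P hc hL n f m ρ
  obtain ⟨hom0, homs, hlb0, _, _, hlbU, hU, _, _, _⟩ := hs S μ P hc hL n f
  have s1 : ∀ k b, Ak P f (m + ρ) k b ≤ Ak P f m k b + op P m (Ak P f ρ k) b := by
    intro k b
    unfold Ak op
    have e : ∀ y, (P ^ (m + ρ)) b y * |F f k y - F f k b|
        = ∑ z, (P ^ m) b z * (P ^ ρ) z y * |F f k y - F f k b| := by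
      intro y; rw [hL.pw_add, Finset.sum_mul]
    simp_rw [e]
    rw [Finset.sum_comm]
    have e2 : ∀ z, ∑ y, (P ^ m) b z * (P ^ ρ) z y * |F f k y - F f k b|
        ≤ (P ^ m) b z * |F f k z - F f k b|
          + (P ^ m) b z * ∑ y, (P ^ ρ) z y * |F f k y - F f k z| := by
      intro z
      have h3 : ∀ y, (P ^ m) b z * (P ^ ρ) z y * |F f k y - F f k b|
          ≤ (P ^ m) b z * ((P ^ ρ) z y * |F f k z - F f k b|)
            + (P ^ m) b z * ((P ^ ρ) z y * |F f k y - F f k z|) := by
        intro y
        have t : |F f k y - F f k b| ≤ |F f k z - F f k b| + |F f k y - F f k z| := by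
          have := abs_sub_le (F f k y) (F f k z) (F f k b)
          linarith
        have p1 := hL.pw_nonneg m b z
        have p2 := hL.pw_nonneg ρ z y
        calc (P ^ m) b z * (P ^ ρ) z y * |F f k y - F f k b|
            ≤ (P ^ m) b z * (P ^ ρ) z y * (|F f k z - F f k b| + |F f k y - F f k z|) :=
              mul_le_mul_of_nonneg_left t (mul_nonneg p1 p2)
          _ = _ := by ring
      refine le_trans (Finset.sum_le_sum fun y _ => h3 y) ?_
      rw [Finset.sum_add_distrib, ← Finset.mul_sum, ← Finset.mul_sum, ← Finset.sum_mul,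
        hL.pw_sum, one_mul]
    refine le_trans (Finset.sum_le_sum fun z _ => e2 z) ?_
    rw [Finset.sum_add_distrib]
  set T : S → ℝ := fun z => ∑ i ∈ Finset.range ρ, op P i (lbar P f) z with hT
  have s2 : ∀ k b, op P m (Ak P f ρ k) b ≤ op P m T b := fun k b =>
    hL.op_mono m _ _ (fun z => h1 S μ P hc hL n f k ρ z) b
  have s3 : ∀ k, Qk μ P f (m + ρ) k
      ≤ Qk μ P f m k + av μ (fun b => om P f k b * op P m T b) := by
    intro k
    unfold Qk
    have h4 : av μ (fun b => om P f k b * Ak P f m k b) + av μ (fun b => om P f k b * op P m T b)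
        = av μ (fun b => om P f k b * Ak P f m k b + om P f k b * op P m T b) := by
      unfold av
      rw [← Finset.sum_add_distrib]
      exact Finset.sum_congr rfl fun x _ => by ring
    rw [h4]
    refine hL.av_mono _ _ fun b => ?_
    have a1 := s1 k b
    have a2 := s2 k b
    nlinarith [hom0 k b]
  have s4 : ∑ k, av μ (fun b => om P f k b * op P m T b)
      = av μ (fun b => lbar P f b * op P m T b) := by
    unfold av
    rw [Finset.sum_comm]
    refine Finset.sum_congr rfl fun b _ => ?_
    beta_reduce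
    rw [← homs b, Finset.sum_mul, Finset.mul_sum]
  have s5 : op P m T = fun b => ∑ i ∈ Finset.range ρ, op P (m + i) (lbar P f) b := by
    funext b
    rw [hT, hL.op_sum ℕ (Finset.range ρ) m (fun i => op P i (lbar P f)) b]
    refine Finset.sum_congr rfl fun i _ => ?_
    rw [hL.op_op]
  have s6 : ∀ j, av μ (fun b => lbar P f b * op P j (lbar P f) b) ≤ U μ P f := by
    intro j
    set A := av μ (fun x => lbar P f x ^ 2) with hA
    have hA0 : 0 ≤ A := Finset.sum_nonneg fun x _ => mul_nonneg (hL.mu_nonneg x) (sq_nonneg _)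
    have c1 := hL.av_cs (lbar P f) (op P j (lbar P f))
    have c2 : av μ (fun x => op P j (lbar P f) x ^ 2) ≤ A := by
      calc av μ (fun x => op P j (lbar P f) x ^ 2)
          ≤ av μ (op P j (fun y => lbar P f y ^ 2)) := hL.av_mono _ _ (fun x => hL.sq_op j _ x)
        _ = A := hL.av_op j _
    have c3 := Real.sqrt_le_sqrt c2
    have c4 : Real.sqrt A * Real.sqrt A = A := Real.mul_self_sqrt hA0
    calc av μ (fun b => lbar P f b * op P j (lbar P f) b)
        ≤ Real.sqrt A * Real.sqrt (av μ (fun x => op P j (lbar P f) x ^ 2)) := c1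
      _ ≤ Real.sqrt A * Real.sqrt A := mul_le_mul_of_nonneg_left c3 (Real.sqrt_nonneg _)
      _ = A := c4
      _ ≤ U μ P f := hlbU
  have s7 : av μ (fun b => lbar P f b * op P m T b) ≤ ρ * U μ P f := by
    rw [s5]
    have h5 : av μ (fun b => lbar P f b * ∑ i ∈ Finset.range ρ, op P (m + i) (lbar P f) b)
        = ∑ i ∈ Finset.range ρ, av μ (fun b => lbar P f b * op P (m + i) (lbar P f) b) := by
      unfold av
      rw [Finset.sum_comm]
      refine Finset.sum_congr rfl fun b _ => ?_
      beta_reduce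
      rw [Finset.mul_sum, Finset.mul_sum]
    rw [h5]
    calc ∑ i ∈ Finset.range ρ, av μ (fun b => lbar P f b * op P (m + i) (lbar P f) b)
        ≤ ∑ _i ∈ Finset.range ρ, U μ P f := Finset.sum_le_sum fun i _ => s6 (m + i)
      _ = ρ * U μ P f := by rw [Finset.sum_const, Finset.card_range, nsmul_eq_mul]
  unfold Qsum
  calc ∑ k, Qk μ P f (m + ρ) k
      ≤ ∑ k, (Qk μ P f m k + av μ (fun b => om P f k b * op P m T b)) :=
        Finset.sum_le_sum fun k _ => s3 k
    _ = ∑ k, Qk μ P f m k + ∑ k, av μ (fun b => om P f k b * op P m T b) :=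
        Finset.sum_add_distrib
    _ ≤ ∑ k, Qk μ P f m k + ρ * U μ P f := by rw [s4]; linarith

end Vale.Agent.P125.Poly
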