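import Vale.Agent.P125.Poly.Defs58

set_option linter.unusedSectionVars false
set_option linter.unusedVariables false

/-! # P125 Poly: REM (remainder of the block decomposition), helper37 -/

namespace Vale.Agent.P125.Poly

open scoped BigOperators
open Vale.Agent.P125.Dich

theorem stRem_37 (hs : StSmall) (h1 : StTriv1) : StRem := by
  intro S _ _ μ P hc hL n f m ρ
  obtain ⟨om0, omsum, lb0, l20, avl2, avlb, U0, Fle, wsymm, ellsymm⟩ := hs S μ P hc hL n f
  obtain ⟨T, hT⟩ : ∃ T : S → ℝ, ∀ z, T z = ∑ i ∈ Finset.range ρ, op P i (lbar P f) z :=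
    ⟨_, fun _ => rfl⟩
  have hA : ∀ k b, Ak P f (m + ρ) k b ≤ Ak P f m k b + op P m T b := by
    intro k b
    have e1 : Ak P f (m + ρ) k b =
        ∑ z, (P ^ m) b z * ∑ y, (P ^ ρ) z y * |F f k y - F f k b| := by
      unfold Ak
      simp only [hL.pw_add m ρ, Finset.sum_mul, Finset.mul_sum]
      rw [Finset.sum_comm]
      refine Finset.sum_congr rfl fun z _ => Finset.sum_congr rfl fun y _ => ?_
      ring
    have e2 : Ak P f m k b + op P m T b =
        ∑ z, (P ^ m) b z * (|F f k z - F f k b| + T z) := by
      simp only [mul_add, Finset.sum_add_distrib]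
      rfl
    rw [e1, e2]
    refine Finset.sum_le_sum fun z _ => mul_le_mul_of_nonneg_left ?_ (hL.pw_nonneg m b z)
    calc ∑ y, (P ^ ρ) z y * |F f k y - F f k b|
        ≤ ∑ y, (P ^ ρ) z y * (|F f k y - F f k z| + |F f k z - F f k b|) := by
          refine Finset.sum_le_sum fun y _ => mul_le_mul_of_nonneg_left ?_ (hL.pw_nonneg ρ z y)
          have h : F f k y - F f k b = (F f k y - F f k z) + (F f k z - F f k b) := by ring
          rw [h]
          exact abs_add_le _ _
      _ = Ak P f ρ k z + |F f k z - F f k b| := by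
          simp only [mul_add, Finset.sum_add_distrib]
          rw [← Finset.sum_mul, hL.pw_sum ρ z, one_mul]
          rfl
      _ ≤ |F f k z - F f k b| + T z := by
          have h := h1 S μ P hc hL n f k ρ z
          rw [hT z]
          linarith
  have hQ : Qsum μ P f (m + ρ) ≤ Qsum μ P f m + av μ (fun b => lbar P f b * op P m T b) := by
    unfold Qsum Qk
    have e3 : av μ (fun b => lbar P f b * op P m T b) =
        ∑ k, av μ (fun b => om P f k b * op P m T b) := by
      unfold av
      rw [Finset.sum_comm]
      refine Finset.sum_congr rfl fun b _ => ?_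
      beta_reduce
      rw [← omsum b, Finset.sum_mul, Finset.mul_sum]
    rw [e3, ← Finset.sum_add_distrib]
    refine Finset.sum_le_sum fun k _ => ?_
    have e4 : av μ (fun b => om P f k b * Ak P f m k b) +
        av μ (fun b => om P f k b * op P m T b) =
        av μ (fun b => om P f k b * (Ak P f m k b + op P m T b)) := by
      unfold av
      rw [← Finset.sum_add_distrib]
      refine Finset.sum_congr rfl fun b _ => ?_
      ring
    rw [e4]
    exact hL.av_mono _ _ fun b => mul_le_mul_of_nonneg_left (hA k b) (om0 k b)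
  have hT' : ∀ b, op P m T b = ∑ i ∈ Finset.range ρ, op P (m + i) (lbar P f) b := by
    intro b
    have h : T = fun z => ∑ i ∈ Finset.range ρ, op P i (lbar P f) z := funext hT
    rw [h, hL.op_sum ℕ (Finset.range ρ) m (fun i => op P i (lbar P f)) b]
    refine Finset.sum_congr rfl fun i _ => ?_
    rw [hL.op_op]
  have hone : ∀ j, av μ (fun b => lbar P f b * op P j (lbar P f) b) ≤ U μ P f := by
    intro j
    have c1 := hL.av_cs (lbar P f) (op P j (lbar P f))
    have c2 : av μ (fun x => op P j (lbar P f) x ^ 2) ≤ U μ P f := by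
      calc av μ (fun x => op P j (lbar P f) x ^ 2)
          ≤ av μ (op P j (fun y => lbar P f y ^ 2)) :=
            hL.av_mono _ _ (fun x => hL.sq_op j _ x)
        _ = av μ (fun y => lbar P f y ^ 2) := hL.av_op j _
        _ ≤ U μ P f := avlb
    calc av μ (fun b => lbar P f b * op P j (lbar P f) b)
        ≤ Real.sqrt (av μ (fun x => lbar P f x ^ 2)) *
          Real.sqrt (av μ (fun x => op P j (lbar P f) x ^ 2)) := c1
      _ ≤ Real.sqrt (U μ P f) * Real.sqrt (U μ P f) :=
          mul_le_mul (Real.sqrt_le_sqrt avlb) (Real.sqrt_le_sqrt c2) (Real.sqrt_nonneg _)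
            (Real.sqrt_nonneg _)
      _ = U μ P f := Real.mul_self_sqrt U0
  have hfin : av μ (fun b => lbar P f b * op P m T b) ≤ ρ * U μ P f := by
    have e5 : av μ (fun b => lbar P f b * op P m T b) =
        ∑ i ∈ Finset.range ρ, av μ (fun b => lbar P f b * op P (m + i) (lbar P f) b) := by
      unfold av
      rw [Finset.sum_comm]
      refine Finset.sum_congr rfl fun b _ => ?_
      beta_reduce
      rw [hT' b, Finset.mul_sum, Finset.mul_sum]
    rw [e5]
    calc ∑ i ∈ Finset.range ρ, av μ (fun b => lbar P f b * op P (m + i) (lbar P f) b)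
        ≤ ∑ i ∈ Finset.range ρ, U μ P f := Finset.sum_le_sum fun i _ => hone (m + i)
      _ = ρ * U μ P f := by simp
  linarith

end Vale.Agent.P125.Poly
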