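import Vale.Agent.P125.Poly.Defs58

set_option linter.unusedSectionVars false
set_option linter.unusedVariables false

/-! # P125 Poly: the remainder of the block decomposition -/

namespace Vale.Agent.P125.Poly

open scoped BigOperators
open Vale.Agent.P125.Dich

theorem stRem_38 (hs : StSmall) (h1 : StTriv1) : StRem := by
  intro S _ _ μ P hP hL n f m ρ
  obtain ⟨hom0, homs, hlb0, _, _, hlbU, hU0, _, _, _⟩ := hs S μ P hP hL n f
  have avadd : ∀ g h : S → ℝ, av μ (fun x => g x + h x) = av μ g + av μ h := by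
    intro g h
    unfold av
    rw [← Finset.sum_add_distrib]
    refine Finset.sum_congr rfl fun x _ => ?_
    ring
  have avsmul : ∀ (c : ℝ) (g : S → ℝ), av μ (fun x => c * g x) = c * av μ g := by
    intro c g
    unfold av
    rw [Finset.mul_sum]
    refine Finset.sum_congr rfl fun x _ => ?_
    ring
  have avsum : ∀ {ι : Type} (t : Finset ι) (g : ι → S → ℝ),
      av μ (fun x => ∑ i ∈ t, g i x) = ∑ i ∈ t, av μ (g i) := by
    intro ι t g
    unfold av
    simp only [Finset.mul_sum]
    rw [Finset.sum_comm]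
  have contr : ∀ (k : ℕ) (g : S → ℝ),
      av μ (fun x => op P k g x ^ 2) ≤ av μ (fun x => g x ^ 2) := by
    intro k g
    rw [← hL.av_op k (fun x => g x ^ 2)]
    exact hL.av_mono _ _ (fun x => hL.sq_op k g x)
  -- pointwise splitting
  have split : ∀ (k : Fin n) (b : S),
      Ak P f (m + ρ) k b ≤ Ak P f m k b + ∑ i ∈ Finset.range ρ, op P (m + i) (lbar P f) b := by
    intro k b
    have a1 : Ak P f (m + ρ) k b
        = ∑ z, ∑ y, (P ^ m) b z * (P ^ ρ) z y * |F f k y - F f k b| := by
      unfold Ak
      rw [Finset.sum_comm]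
      refine Finset.sum_congr rfl fun y _ => ?_
      rw [hL.pw_add m ρ b y, Finset.sum_mul]
    have a2 : ∑ z, ∑ y, (P ^ m) b z * (P ^ ρ) z y * |F f k y - F f k b|
        ≤ ∑ z, ∑ y, (P ^ m) b z * (P ^ ρ) z y * (|F f k z - F f k b| + |F f k y - F f k z|) := by
      refine Finset.sum_le_sum fun z _ => Finset.sum_le_sum fun y _ => ?_
      apply mul_le_mul_of_nonneg_left _ (mul_nonneg (hL.pw_nonneg m b z) (hL.pw_nonneg ρ z y))
      have : F f k y - F f k b = (F f k z - F f k b) + (F f k y - F f k z) := by ring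
      rw [this]
      exact abs_add_le _ _
    have a3 : ∑ z, ∑ y, (P ^ m) b z * (P ^ ρ) z y * (|F f k z - F f k b| + |F f k y - F f k z|)
        = Ak P f m k b + op P m (Ak P f ρ k) b := by
      unfold Ak op
      rw [← Finset.sum_add_distrib]
      refine Finset.sum_congr rfl fun z _ => ?_
      have b1 : ∑ y, (P ^ m) b z * (P ^ ρ) z y * (|F f k z - F f k b| + |F f k y - F f k z|)
          = (P ^ m) b z * |F f k z - F f k b| * ∑ y, (P ^ ρ) z y
            + (P ^ m) b z * ∑ y, (P ^ ρ) z y * |F f k y - F f k z| := by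
        rw [Finset.mul_sum, Finset.mul_sum, ← Finset.sum_add_distrib]
        refine Finset.sum_congr rfl fun y _ => ?_
        ring
      rw [b1, hL.pw_sum ρ z, mul_one]
    have a4 : op P m (Ak P f ρ k) b ≤ ∑ i ∈ Finset.range ρ, op P (m + i) (lbar P f) b := by
      have c1 := hL.op_mono m (Ak P f ρ k) (fun z => ∑ i ∈ Finset.range ρ, op P i (lbar P f) z)
        (fun z => h1 S μ P hP hL n f k ρ z) b
      rw [hL.op_sum ℕ (Finset.range ρ) m (fun i => op P i (lbar P f)) b] at c1
      refine le_trans c1 (le_of_eq ?_)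
      refine Finset.sum_congr rfl fun i _ => ?_
      rw [hL.op_op m i (lbar P f)]
    linarith
  -- each cross term is at most U
  have cross : ∀ j : ℕ, av μ (fun b => lbar P f b * op P j (lbar P f) b) ≤ U μ P f := by
    intro j
    have c1 : av μ (fun b => lbar P f b * op P j (lbar P f) b)
        ≤ av μ (fun b => (1 / 2) * lbar P f b ^ 2 + (1 / 2) * op P j (lbar P f) b ^ 2) := by
      apply hL.av_mono
      intro b
      nlinarith [sq_nonneg (lbar P f b - op P j (lbar P f) b)]
    rw [avadd, avsmul, avsmul] at c1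
    have c2 := contr j (lbar P f)
    linarith
  -- sum up
  have s1 : Qsum μ P f (m + ρ) ≤ ∑ k, av μ (fun b => om P f k b * Ak P f m k b
      + om P f k b * ∑ i ∈ Finset.range ρ, op P (m + i) (lbar P f) b) := by
    unfold Qsum Qk
    refine Finset.sum_le_sum fun k _ => ?_
    apply hL.av_mono
    intro b
    rw [← mul_add]
    exact mul_le_mul_of_nonneg_left (split k b) (hom0 k b)
  have s2 : ∑ k, av μ (fun b => om P f k b * Ak P f m k b
      + om P f k b * ∑ i ∈ Finset.range ρ, op P (m + i) (lbar P f) b)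
      = Qsum μ P f m + av μ (fun b => lbar P f b * ∑ i ∈ Finset.range ρ, op P (m + i) (lbar P f) b) := by
    unfold Qsum Qk
    simp only [avadd]
    rw [Finset.sum_add_distrib]
    have e : ∑ k, av μ (fun b => om P f k b * ∑ i ∈ Finset.range ρ, op P (m + i) (lbar P f) b)
        = av μ (fun b => lbar P f b * ∑ i ∈ Finset.range ρ, op P (m + i) (lbar P f) b) := by
      rw [← avsum Finset.univ
        (fun k b => om P f k b * ∑ i ∈ Finset.range ρ, op P (m + i) (lbar P f) b)]
      have e2 : (fun x => ∑ k, om P f k x * ∑ i ∈ Finset.range ρ, op P (m + i) (lbar P f) x)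
          = fun b => lbar P f b * ∑ i ∈ Finset.range ρ, op P (m + i) (lbar P f) b := by
        funext b
        rw [← Finset.sum_mul, homs b]
      rw [e2]
    rw [e]
  have s3 : av μ (fun b => lbar P f b * ∑ i ∈ Finset.range ρ, op P (m + i) (lbar P f) b)
      ≤ ρ * U μ P f := by
    have : (fun b => lbar P f b * ∑ i ∈ Finset.range ρ, op P (m + i) (lbar P f) b)
        = fun b => ∑ i ∈ Finset.range ρ, lbar P f b * op P (m + i) (lbar P f) b := by
      funext b
      rw [Finset.mul_sum]
    rw [this, avsum]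
    calc ∑ i ∈ Finset.range ρ, av μ (fun b => lbar P f b * op P (m + i) (lbar P f) b)
        ≤ ∑ i ∈ Finset.range ρ, U μ P f := Finset.sum_le_sum fun i _ => cross (m + i)
      _ = ρ * U μ P f := by rw [Finset.sum_const, Finset.card_range, nsmul_eq_mul]
  linarith

end Vale.Agent.P125.Poly
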