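import Mathlib
import Vale.Agent.P125.Poly.Defs58

/-!
# P125 Poly: remainder of the block decomposition, shape `StRem` of `Defs58`
-/

namespace Vale.Agent.P125.Poly

open scoped BigOperators
open Vale.Agent.P125.Dich

theorem stRem_68 (hs : StSmall) (h1 : StTriv1) : StRem := by
  intro S _ _ μ P hc L n f m ρ
  obtain ⟨hom, hsum, hlb, -, -, hA, hU, -, -, -⟩ := hs S μ P hc L n f
  have tri : ∀ k b, Ak P f (m + ρ) k b ≤ Ak P f m k b + op P m (Ak P f ρ k) b := by
    intro k b
    have e1 : Ak P f (m + ρ) k b =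
        ∑ z, ∑ y, (P ^ m) b z * (P ^ ρ) z y * |F f k y - F f k b| := by
      simp only [Ak]
      rw [Finset.sum_comm]
      refine Finset.sum_congr rfl fun y _ => ?_
      rw [L.pw_add m ρ b y, Finset.sum_mul]
    have e2 : Ak P f m k b + op P m (Ak P f ρ k) b =
        ∑ z, ∑ y, (P ^ m) b z * (P ^ ρ) z y *
          (|F f k z - F f k b| + |F f k y - F f k z|) := by
      simp only [Ak, op]
      rw [← Finset.sum_add_distrib]
      refine Finset.sum_congr rfl fun z _ => ?_
      have h0 : (P ^ m) b z * |F f k z - F f k b| =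
          ∑ y, (P ^ m) b z * (P ^ ρ) z y * |F f k z - F f k b| := by
        rw [← Finset.sum_mul, ← Finset.mul_sum, L.pw_sum ρ z, mul_one]
      rw [h0, Finset.mul_sum, ← Finset.sum_add_distrib]
      refine Finset.sum_congr rfl fun y _ => ?_
      ring
    rw [e1, e2]
    refine Finset.sum_le_sum fun z _ => Finset.sum_le_sum fun y _ => ?_
    refine mul_le_mul_of_nonneg_left ?_ (mul_nonneg (L.pw_nonneg m b z) (L.pw_nonneg ρ z y))
    have h0 : F f k y - F f k b = (F f k z - F f k b) + (F f k y - F f k z) := by ring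
    rw [h0]; exact abs_add_le _ _
  obtain ⟨W, hW⟩ : ∃ W : S → ℝ, ∀ b, W b = ∑ i ∈ Finset.range ρ, op P (m + i) (lbar P f) b :=
    ⟨_, fun _ => rfl⟩
  have hop : ∀ k b, op P m (Ak P f ρ k) b ≤ W b := by
    intro k b
    have h0 := L.op_mono m (Ak P f ρ k) (fun z => ∑ i ∈ Finset.range ρ, op P i (lbar P f) z)
      (fun z => h1 S μ P hc L n f k ρ z) b
    refine h0.trans (le_of_eq ?_)
    rw [L.op_sum ℕ (Finset.range ρ) m (fun i => op P i (lbar P f)) b, hW b]
    refine Finset.sum_congr rfl fun i _ => ?_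
    exact congrFun (L.op_op m i (lbar P f)) b
  have hk : ∀ k, Qk μ P f (m + ρ) k ≤ Qk μ P f m k + av μ (fun b => om P f k b * W b) := by
    intro k
    simp only [Qk, av]
    rw [← Finset.sum_add_distrib]
    refine Finset.sum_le_sum fun b _ => ?_
    have h2 : om P f k b * Ak P f (m + ρ) k b ≤ om P f k b * (Ak P f m k b + W b) :=
      mul_le_mul_of_nonneg_left ((tri k b).trans (by linarith [hop k b])) (hom k b)
    calc μ b * (om P f k b * Ak P f (m + ρ) k b)
        ≤ μ b * (om P f k b * (Ak P f m k b + W b)) :=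
          mul_le_mul_of_nonneg_left h2 (L.mu_nonneg b)
      _ = _ := by ring
  have hsumW : ∑ k, av μ (fun b => om P f k b * W b) = av μ (fun b => lbar P f b * W b) := by
    simp only [av]
    rw [Finset.sum_comm]
    refine Finset.sum_congr rfl fun b _ => ?_
    rw [← hsum b, Finset.sum_mul, Finset.mul_sum]
  have hj : ∀ j, av μ (fun b => lbar P f b * op P j (lbar P f) b) ≤ U μ P f := by
    intro j
    have c1 := L.av_cs (lbar P f) (op P j (lbar P f))
    have c2 : av μ (fun x => op P j (lbar P f) x ^ 2) ≤ av μ (fun x => lbar P f x ^ 2) := by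
      calc av μ (fun x => op P j (lbar P f) x ^ 2)
          ≤ av μ (op P j (fun y => lbar P f y ^ 2)) :=
            L.av_mono _ _ (fun x => L.sq_op j (lbar P f) x)
        _ = _ := L.av_op j _
    have c3 : Real.sqrt (av μ (fun x => op P j (lbar P f) x ^ 2)) ≤
        Real.sqrt (av μ (fun x => lbar P f x ^ 2)) := Real.sqrt_le_sqrt c2
    have c0 : 0 ≤ av μ (fun x => lbar P f x ^ 2) := by
      simp only [av]
      exact Finset.sum_nonneg fun x _ => mul_nonneg (L.mu_nonneg x) (sq_nonneg _)
    calc av μ (fun b => lbar P f b * op P j (lbar P f) b)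
        ≤ Real.sqrt (av μ (fun x => lbar P f x ^ 2)) *
          Real.sqrt (av μ (fun x => op P j (lbar P f) x ^ 2)) := c1
      _ ≤ Real.sqrt (av μ (fun x => lbar P f x ^ 2)) *
          Real.sqrt (av μ (fun x => lbar P f x ^ 2)) :=
          mul_le_mul_of_nonneg_left c3 (Real.sqrt_nonneg _)
      _ = av μ (fun x => lbar P f x ^ 2) := Real.mul_self_sqrt c0
      _ ≤ U μ P f := hA
  have hW2 : av μ (fun b => lbar P f b * W b) ≤ ρ * U μ P f := by
    have h0 : av μ (fun b => lbar P f b * W b) =
        ∑ i ∈ Finset.range ρ, av μ (fun b => lbar P f b * op P (m + i) (lbar P f) b) := by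
      simp only [av]
      rw [Finset.sum_comm]
      refine Finset.sum_congr rfl fun b _ => ?_
      rw [hW b, Finset.mul_sum, Finset.mul_sum]
    rw [h0]
    calc ∑ i ∈ Finset.range ρ, av μ (fun b => lbar P f b * op P (m + i) (lbar P f) b)
        ≤ ∑ i ∈ Finset.range ρ, U μ P f := Finset.sum_le_sum fun i _ => hj (m + i)
      _ = ρ * U μ P f := by simp
  calc Qsum μ P f (m + ρ) = ∑ k, Qk μ P f (m + ρ) k := rfl
    _ ≤ ∑ k, (Qk μ P f m k + av μ (fun b => om P f k b * W b)) :=
        Finset.sum_le_sum fun k _ => hk k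
    _ = Qsum μ P f m + av μ (fun b => lbar P f b * W b) := by
        rw [Finset.sum_add_distrib, hsumW]; rfl
    _ ≤ Qsum μ P f m + ρ * U μ P f := by linarith

end Vale.Agent.P125.Poly
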