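import Vale.Agent.P125.Poly.Defs58

set_option linter.unusedSectionVars false
set_option linter.unusedVariables false

namespace Vale.Agent.P125.Poly

open scoped BigOperators
open Vale.Agent.P125.Dich

theorem stRem_74 (hs : StSmall) (h1 : StTriv1) : StRem := by
  intro S _ _ μ P hC hL n f m ρ
  obtain ⟨hom0, homs, hlb0, hl20, hl2U, hlbU, hU0, hFl, hws, hes⟩ := hs S μ P hC hL n f
  have hAk : ∀ k b, Ak P f (m + ρ) k b ≤ Ak P f m k b + op P m (Ak P f ρ k) b := by
    intro k b
    unfold Ak op
    calc ∑ y, (P ^ (m + ρ)) b y * |F f k y - F f k b|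
        = ∑ y, ∑ z, (P ^ m) b z * (P ^ ρ) z y * |F f k y - F f k b| := by
          refine Finset.sum_congr rfl fun y _ => ?_
          rw [hL.pw_add, Finset.sum_mul]
      _ = ∑ z, ∑ y, (P ^ m) b z * (P ^ ρ) z y * |F f k y - F f k b| := Finset.sum_comm
      _ ≤ ∑ z, ((P ^ m) b z * |F f k z - F f k b|
            + (P ^ m) b z * ∑ y, (P ^ ρ) z y * |F f k y - F f k z|) := by
          refine Finset.sum_le_sum fun z _ => ?_
          have h2 : ∑ y, (P ^ m) b z * (P ^ ρ) z y * |F f k y - F f k b|
              ≤ ∑ y, (P ^ m) b z * ((P ^ ρ) z y *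
                (|F f k z - F f k b| + |F f k y - F f k z|)) := by
            refine Finset.sum_le_sum fun y _ => ?_
            rw [mul_assoc]
            apply mul_le_mul_of_nonneg_left _ (hL.pw_nonneg m b z)
            apply mul_le_mul_of_nonneg_left _ (hL.pw_nonneg ρ z y)
            have := abs_sub_le (F f k y) (F f k z) (F f k b)
            linarith
          refine h2.trans (le_of_eq ?_)
          rw [← Finset.mul_sum]
          simp only [mul_add, Finset.sum_add_distrib]
          rw [← Finset.sum_mul, hL.pw_sum, one_mul]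
      _ = _ := by rw [Finset.sum_add_distrib]
  have hT : ∀ k b, op P m (Ak P f ρ k) b
      ≤ ∑ i ∈ Finset.range ρ, op P (m + i) (lbar P f) b := by
    intro k b
    have := hL.op_mono m (Ak P f ρ k) (fun z => ∑ i ∈ Finset.range ρ, op P i (lbar P f) z)
      (fun z => h1 S μ P hC hL n f k ρ z) b
    refine this.trans (le_of_eq ?_)
    rw [hL.op_sum]
    refine Finset.sum_congr rfl fun i _ => ?_
    rw [hL.op_op]
  have hQk : ∀ k, Qk μ P f (m + ρ) k ≤ Qk μ P f m k
      + av μ (fun b => om P f k b * ∑ i ∈ Finset.range ρ, op P (m + i) (lbar P f) b) := by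
    intro k
    unfold Qk
    have := hL.av_mono (fun b => om P f k b * Ak P f (m + ρ) k b)
      (fun b => om P f k b * Ak P f m k b
        + om P f k b * ∑ i ∈ Finset.range ρ, op P (m + i) (lbar P f) b)
      (fun b => by
        rw [← mul_add]
        apply mul_le_mul_of_nonneg_left _ (hom0 k b)
        exact (hAk k b).trans (by linarith [hT k b]))
    refine this.trans (le_of_eq ?_)
    unfold av
    simp only [mul_add, Finset.sum_add_distrib]
  have hone : ∀ j, av μ (fun b => lbar P f b * op P j (lbar P f) b) ≤ U μ P f := by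
    intro j
    have c1 := hL.av_cs (lbar P f) (op P j (lbar P f))
    have c2 : av μ (fun x => op P j (lbar P f) x ^ 2) ≤ U μ P f := by
      have := hL.av_mono (fun x => op P j (lbar P f) x ^ 2)
        (op P j (fun y => lbar P f y ^ 2)) (fun x => hL.sq_op j (lbar P f) x)
      rw [hL.av_op] at this
      exact this.trans hlbU
    calc av μ (fun b => lbar P f b * op P j (lbar P f) b)
        ≤ Real.sqrt (av μ (fun x => lbar P f x ^ 2))
          * Real.sqrt (av μ (fun x => op P j (lbar P f) x ^ 2)) := c1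
      _ ≤ Real.sqrt (U μ P f) * Real.sqrt (U μ P f) :=
          mul_le_mul (Real.sqrt_le_sqrt hlbU) (Real.sqrt_le_sqrt c2) (Real.sqrt_nonneg _)
            (Real.sqrt_nonneg _)
      _ = U μ P f := Real.mul_self_sqrt hU0
  have hsum : ∑ k, av μ (fun b => om P f k b * ∑ i ∈ Finset.range ρ, op P (m + i) (lbar P f) b)
      = ∑ i ∈ Finset.range ρ, av μ (fun b => lbar P f b * op P (m + i) (lbar P f) b) := by
    unfold av
    rw [Finset.sum_comm]
    have e1 : ∀ b, ∑ k, μ b * (om P f k b * ∑ i ∈ Finset.range ρ, op P (m + i) (lbar P f) b)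
        = ∑ i ∈ Finset.range ρ, μ b * (lbar P f b * op P (m + i) (lbar P f) b) := by
      intro b
      rw [← Finset.mul_sum, ← Finset.sum_mul, homs b, Finset.mul_sum, Finset.mul_sum]
    rw [Finset.sum_congr rfl fun b _ => e1 b, Finset.sum_comm]
  unfold Qsum
  calc ∑ k, Qk μ P f (m + ρ) k
      ≤ ∑ k, (Qk μ P f m k
        + av μ (fun b => om P f k b * ∑ i ∈ Finset.range ρ, op P (m + i) (lbar P f) b)) :=
        Finset.sum_le_sum fun k _ => hQk k
    _ = ∑ k, Qk μ P f m k
        + ∑ i ∈ Finset.range ρ, av μ (fun b => lbar P f b * op P (m + i) (lbar P f) b) := by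
        rw [Finset.sum_add_distrib, hsum]
    _ ≤ ∑ k, Qk μ P f m k + ∑ i ∈ Finset.range ρ, U μ P f := by
        have := Finset.sum_le_sum (s := Finset.range ρ) fun i _ => hone (m + i)
        linarith
    _ = ∑ k, Qk μ P f m k + ρ * U μ P f := by
        rw [Finset.sum_const, Finset.card_range, nsmul_eq_mul]

end Vale.Agent.P125.Poly
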