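import Mathlib
import Vale.Agent.P125.Poly.Defs58

set_option linter.unusedSectionVars false
set_option linter.unusedVariables false

/-! # P125 Poly: REM, race copy of helper86 -/

namespace Vale.Agent.P125.Poly

open scoped BigOperators
open Vale.Agent.P125.Dich

theorem stRem_86 (hs : StSmall) (h1 : StTriv1) : StRem := by
  intro S _ _ μ P hc hL n f m ρ
  obtain ⟨s1, s2, s3, s4, s5, s6, s7, s8, s9, s10⟩ := hs S μ P hc hL n f
  set T : S → ℝ := fun z => ∑ i ∈ Finset.range ρ, op P i (lbar P f) z with hT
  -- pointwise bound of Ak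
  have hA : ∀ (k : Fin n) (b : S), Ak P f (m + ρ) k b ≤ Ak P f m k b + op P m T b := by
    intro k b
    have e1 : Ak P f (m + ρ) k b = op P m (op P ρ (fun y => |F f k y - F f k b|)) b := by
      rw [hL.op_op]
      rfl
    have e2 : ∀ z, op P ρ (fun y => |F f k y - F f k b|) z ≤ |F f k z - F f k b| + T z := by
      intro z
      have t1 : ∀ y, |F f k y - F f k b| ≤ |F f k y - F f k z| + |F f k z - F f k b| := by
        intro y
        calc |F f k y - F f k b|
            = |(F f k y - F f k z) + (F f k z - F f k b)| := by congr 1; ring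
          _ ≤ _ := abs_add_le _ _
      have t2 := hL.op_mono ρ _ _ t1 z
      rw [hL.op_add, hL.op_const] at t2
      have t3 : op P ρ (fun y => |F f k y - F f k z|) z ≤ T z := h1 S μ P hc hL n f k ρ z
      linarith
    have e3 := hL.op_mono m _ _ e2 b
    rw [hL.op_add] at e3
    rw [e1]
    exact e3
  -- the cross term
  have hX : ∀ j : ℕ, av μ (fun b => lbar P f b * op P j (lbar P f) b) ≤ U μ P f := by
    intro j
    have c1 := hL.av_cs (lbar P f) (op P j (lbar P f))
    have c2 : av μ (fun x => op P j (lbar P f) x ^ 2) ≤ av μ (fun x => lbar P f x ^ 2) := by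
      calc av μ (fun x => op P j (lbar P f) x ^ 2)
          ≤ av μ (op P j (fun y => lbar P f y ^ 2)) :=
            hL.av_mono _ _ (fun x => hL.sq_op j (lbar P f) x)
        _ = av μ (fun x => lbar P f x ^ 2) := hL.av_op j _
    have c3 : 0 ≤ av μ (fun x => lbar P f x ^ 2) := by
      unfold av
      exact Finset.sum_nonneg fun x _ => mul_nonneg (hL.mu_nonneg x) (sq_nonneg _)
    calc av μ (fun b => lbar P f b * op P j (lbar P f) b)
        ≤ Real.sqrt (av μ (fun x => lbar P f x ^ 2))
            * Real.sqrt (av μ (fun x => op P j (lbar P f) x ^ 2)) := c1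
      _ ≤ Real.sqrt (av μ (fun x => lbar P f x ^ 2))
            * Real.sqrt (av μ (fun x => lbar P f x ^ 2)) :=
          mul_le_mul_of_nonneg_left (Real.sqrt_le_sqrt c2) (Real.sqrt_nonneg _)
      _ = av μ (fun x => lbar P f x ^ 2) := Real.mul_self_sqrt c3
      _ ≤ U μ P f := s6
  have hT2 : av μ (fun b => lbar P f b * op P m T b) ≤ ρ * U μ P f := by
    have d1 : ∀ b, op P m T b = ∑ i ∈ Finset.range ρ, op P (m + i) (lbar P f) b := by
      intro b
      rw [hT, hL.op_sum]
      refine Finset.sum_congr rfl fun i _ => ?_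
      rw [hL.op_op]
    have d2 : av μ (fun b => lbar P f b * op P m T b)
        = ∑ i ∈ Finset.range ρ, av μ (fun b => lbar P f b * op P (m + i) (lbar P f) b) := by
      unfold av
      simp_rw [d1, Finset.mul_sum]
      rw [Finset.sum_comm]
    rw [d2]
    calc ∑ i ∈ Finset.range ρ, av μ (fun b => lbar P f b * op P (m + i) (lbar P f) b)
        ≤ ∑ i ∈ Finset.range ρ, U μ P f := Finset.sum_le_sum fun i _ => hX (m + i)
      _ = ρ * U μ P f := by simp
  -- assemble
  have hQ : Qsum μ P f (m + ρ) ≤ Qsum μ P f m + av μ (fun b => lbar P f b * op P m T b) := by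
    have g1 : av μ (fun b => lbar P f b * op P m T b)
        = ∑ k, av μ (fun b => om P f k b * op P m T b) := by
      unfold av
      rw [Finset.sum_comm]
      refine Finset.sum_congr rfl fun b _ => ?_
      show μ b * (lbar P f b * op P m T b) = ∑ x, μ b * (om P f x b * op P m T b)
      rw [← s2 b, Finset.sum_mul, Finset.mul_sum]
    rw [g1]
    unfold Qsum
    rw [← Finset.sum_add_distrib]
    refine Finset.sum_le_sum fun k _ => ?_
    unfold Qk av
    rw [← Finset.sum_add_distrib]
    refine Finset.sum_le_sum fun b _ => ?_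
    rw [← mul_add, ← mul_add]
    exact mul_le_mul_of_nonneg_left
      (mul_le_mul_of_nonneg_left (hA k b) (s1 k b)) (hL.mu_nonneg b)
  linarith

end Vale.Agent.P125.Poly
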