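import Mathlib
import Vale.Agent.P125.Poly.Defs58

set_option linter.unusedSectionVars false
set_option linter.unusedVariables false

/-!
# P125 Poly: remainder of the block decomposition (StRem), helper91
-/

namespace Vale.Agent.P125.Poly

open scoped BigOperators
open Vale.Agent.P125.Dich

theorem stRem_91 (hs : StSmall) (h1 : StTriv1) : StRem := by
  intro S _ _ μ P hC hL n f m ρ
  obtain ⟨hom, homsum, hlb, hl2, hav2, hlb2, hU, hFell, hwsym, hellsym⟩ := hs S μ P hC hL n f
  set D : S → ℝ := fun z => ∑ i ∈ Finset.range ρ, op P i (lbar P f) z with hD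
  have hAk : ∀ k b, Ak P f (m + ρ) k b ≤ Ak P f m k b + op P m D b := by
    intro k b
    have e1 : Ak P f (m + ρ) k b
        = ∑ z, ∑ y, (P ^ m) b z * (P ^ ρ) z y * |F f k y - F f k b| := by
      unfold Ak
      rw [Finset.sum_comm]
      refine Finset.sum_congr rfl (fun y _ => ?_)
      rw [hL.pw_add, Finset.sum_mul]
    have e2 : Ak P f m k b + op P m D b
        = ∑ z, (P ^ m) b z * (|F f k z - F f k b| + D z) := by
      unfold Ak op
      rw [← Finset.sum_add_distrib]
      refine Finset.sum_congr rfl (fun z _ => ?_)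
      ring
    rw [e1, e2]
    refine Finset.sum_le_sum (fun z _ => ?_)
    have hz : Ak P f ρ k z ≤ D z := h1 S μ P hC hL n f k ρ z
    have h3 : ∑ y, (P ^ m) b z * (P ^ ρ) z y * |F f k y - F f k b|
        ≤ (P ^ m) b z * (|F f k z - F f k b| + Ak P f ρ k z) := by
      have h4 : (P ^ m) b z * (|F f k z - F f k b| + Ak P f ρ k z)
          = ∑ y, (P ^ m) b z * (P ^ ρ) z y *
            (|F f k z - F f k b| + |F f k y - F f k z|) := by
        unfold Ak
        have hsum := hL.pw_sum ρ z
        calc (P ^ m) b z * (|F f k z - F f k b| + ∑ y, (P ^ ρ) z y * |F f k y - F f k z|)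
            = (P ^ m) b z * ((∑ y, (P ^ ρ) z y) * |F f k z - F f k b|
              + ∑ y, (P ^ ρ) z y * |F f k y - F f k z|) := by rw [hsum, one_mul]
          _ = _ := by
            rw [Finset.sum_mul, ← Finset.sum_add_distrib, Finset.mul_sum]
            refine Finset.sum_congr rfl (fun y _ => ?_)
            ring
      rw [h4]
      refine Finset.sum_le_sum (fun y _ => ?_)
      refine mul_le_mul_of_nonneg_left ?_
        (mul_nonneg (hL.pw_nonneg m b z) (hL.pw_nonneg ρ z y))
      have h5 : F f k y - F f k b = (F f k z - F f k b) + (F f k y - F f k z) := by ring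
      rw [h5]; exact abs_add_le _ _
    refine h3.trans (mul_le_mul_of_nonneg_left ?_ (hL.pw_nonneg m b z))
    linarith
  have hQk : ∀ k, Qk μ P f (m + ρ) k
      ≤ Qk μ P f m k + av μ (fun b => om P f k b * op P m D b) := by
    intro k
    unfold Qk
    have h6 : av μ (fun b => om P f k b * Ak P f m k b)
        + av μ (fun b => om P f k b * op P m D b)
        = av μ (fun b => om P f k b * (Ak P f m k b + op P m D b)) := by
      unfold av
      rw [← Finset.sum_add_distrib]
      refine Finset.sum_congr rfl (fun b _ => ?_)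
      ring
    rw [h6]
    exact hL.av_mono _ _ (fun b => mul_le_mul_of_nonneg_left (hAk k b) (hom k b))
  have hsumk : ∑ k, av μ (fun b => om P f k b * op P m D b)
      = av μ (fun b => lbar P f b * op P m D b) := by
    unfold av
    rw [Finset.sum_comm]
    refine Finset.sum_congr rfl (fun b _ => ?_)
    beta_reduce
    rw [← homsum b, Finset.sum_mul, Finset.mul_sum]
  have hone : ∀ j, av μ (fun b => lbar P f b * op P j (lbar P f) b) ≤ U μ P f := by
    intro j
    have c1 := hL.av_cs (lbar P f) (op P j (lbar P f))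
    have c2 : av μ (fun x => op P j (lbar P f) x ^ 2) ≤ av μ (fun x => lbar P f x ^ 2) := by
      calc av μ (fun x => op P j (lbar P f) x ^ 2)
          ≤ av μ (op P j (fun y => lbar P f y ^ 2)) :=
            hL.av_mono _ _ (fun x => hL.sq_op j _ x)
        _ = _ := hL.av_op j _
    have c3 : Real.sqrt (av μ (fun x => op P j (lbar P f) x ^ 2))
        ≤ Real.sqrt (av μ (fun x => lbar P f x ^ 2)) := Real.sqrt_le_sqrt c2
    have c4 : 0 ≤ av μ (fun x => lbar P f x ^ 2) := by
      unfold av
      exact Finset.sum_nonneg (fun x _ => mul_nonneg (hL.mu_nonneg x) (sq_nonneg _))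
    calc av μ (fun b => lbar P f b * op P j (lbar P f) b)
        ≤ Real.sqrt (av μ (fun x => lbar P f x ^ 2))
          * Real.sqrt (av μ (fun x => op P j (lbar P f) x ^ 2)) := c1
      _ ≤ Real.sqrt (av μ (fun x => lbar P f x ^ 2))
          * Real.sqrt (av μ (fun x => lbar P f x ^ 2)) :=
          mul_le_mul_of_nonneg_left c3 (Real.sqrt_nonneg _)
      _ = av μ (fun x => lbar P f x ^ 2) := Real.mul_self_sqrt c4
      _ ≤ _ := hlb2
  have hD2 : av μ (fun b => lbar P f b * op P m D b)
      = ∑ i ∈ Finset.range ρ, av μ (fun b => lbar P f b * op P (m + i) (lbar P f) b) := by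
    have h7 : ∀ b, op P m D b = ∑ i ∈ Finset.range ρ, op P (m + i) (lbar P f) b := by
      intro b
      rw [hD, hL.op_sum]
      refine Finset.sum_congr rfl (fun i _ => ?_)
      rw [hL.op_op]
    unfold av
    rw [Finset.sum_comm]
    refine Finset.sum_congr rfl (fun b _ => ?_)
    beta_reduce
    rw [h7 b, Finset.mul_sum, Finset.mul_sum]
  unfold Qsum
  calc ∑ k, Qk μ P f (m + ρ) k
      ≤ ∑ k, (Qk μ P f m k + av μ (fun b => om P f k b * op P m D b)) :=
        Finset.sum_le_sum (fun k _ => hQk k)
    _ = ∑ k, Qk μ P f m k + av μ (fun b => lbar P f b * op P m D b) := by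
        rw [Finset.sum_add_distrib, hsumk]
    _ ≤ ∑ k, Qk μ P f m k + ρ * U μ P f := by
        rw [hD2]
        have h8 : ∑ i ∈ Finset.range ρ, av μ (fun b => lbar P f b * op P (m + i) (lbar P f) b)
            ≤ ∑ i ∈ Finset.range ρ, U μ P f := Finset.sum_le_sum (fun i _ => hone _)
        rw [Finset.sum_const, Finset.card_range, nsmul_eq_mul] at h8
        linarith

end Vale.Agent.P125.Poly
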