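import Vale.Agent.P125.Poly.Defs58

set_option linter.unusedSectionVars false
set_option linter.unusedVariables false

namespace Vale.Agent.P125.Poly

open scoped BigOperators
open Vale.Agent.P125.Dich

theorem stRem_99 (hs : StSmall) (h1 : StTriv1) : StRem := by
  intro S _ _ μ P hC hL n f m ρ
  obtain ⟨hom0, homs, hlb0, _, _, hlbU, hU0, hF, _, _⟩ := hs S μ P hC hL n f
  have hT := h1 S μ P hC hL n f
  -- step 1 and 2
  have hA : ∀ k b, Ak P f (m + ρ) k b
      ≤ Ak P f m k b + ∑ i ∈ Finset.range ρ, op P (m + i) (lbar P f) b := by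
    intro k b
    have e1 : Ak P f (m + ρ) k b = op P m (op P ρ (fun y => |F f k y - F f k b|)) b := by
      rw [hL.op_op]; rfl
    have h2 : ∀ u, op P ρ (fun y => |F f k y - F f k b|) u
        ≤ |F f k u - F f k b| + ∑ i ∈ Finset.range ρ, op P i (lbar P f) u := by
      intro u
      have h3 : ∀ y ∈ Finset.univ, (P ^ ρ) u y * |F f k y - F f k b|
          ≤ (P ^ ρ) u y * |F f k u - F f k b| + (P ^ ρ) u y * |F f k y - F f k u| := by
        intro y _
        have h4 : |F f k y - F f k b| ≤ |F f k u - F f k b| + |F f k y - F f k u| := by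
          have h5 : F f k y - F f k b = (F f k u - F f k b) + (F f k y - F f k u) := by ring
          rw [h5]
          exact abs_add_le _ _
        have := mul_le_mul_of_nonneg_left h4 (hL.pw_nonneg ρ u y)
        linarith
      have h6 : op P ρ (fun y => |F f k y - F f k b|) u
          ≤ |F f k u - F f k b| + Ak P f ρ k u := by
        calc op P ρ (fun y => |F f k y - F f k b|) u
            = ∑ y, (P ^ ρ) u y * |F f k y - F f k b| := rfl
          _ ≤ ∑ y, ((P ^ ρ) u y * |F f k u - F f k b| + (P ^ ρ) u y * |F f k y - F f k u|) :=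
              Finset.sum_le_sum h3
          _ = |F f k u - F f k b| + Ak P f ρ k u := by
              rw [Finset.sum_add_distrib, ← Finset.sum_mul, hL.pw_sum ρ u, one_mul]
              rfl
      have := hT k ρ u
      linarith
    have h7 := hL.op_mono m _ _ h2 b
    rw [hL.op_add, hL.op_sum] at h7
    rw [e1]
    have e2 : op P m (fun y => |F f k y - F f k b|) b = Ak P f m k b := rfl
    rw [e2] at h7
    have e3 : ∑ i ∈ Finset.range ρ, op P m (op P i (lbar P f)) b
        = ∑ i ∈ Finset.range ρ, op P (m + i) (lbar P f) b := by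
      refine Finset.sum_congr rfl fun i _ => ?_
      rw [hL.op_op]
    rw [e3] at h7
    exact h7
  -- step 4 : each term is at most U
  have hc : ∀ i, av μ (fun b => lbar P f b * op P (m + i) (lbar P f) b) ≤ U μ P f := by
    intro i
    have c1 := hL.av_cs (lbar P f) (op P (m + i) (lbar P f))
    have c2 : av μ (fun x => op P (m + i) (lbar P f) x ^ 2) ≤ av μ (fun x => lbar P f x ^ 2) := by
      have c3 := hL.av_mono _ _ (hL.sq_op (m + i) (lbar P f))
      rw [hL.av_op] at c3
      exact c3
    have c4 : Real.sqrt (av μ (fun x => op P (m + i) (lbar P f) x ^ 2))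
        ≤ Real.sqrt (av μ (fun x => lbar P f x ^ 2)) := Real.sqrt_le_sqrt c2
    have c5 : 0 ≤ av μ (fun x => lbar P f x ^ 2) := by
      unfold av
      exact Finset.sum_nonneg fun x _ => mul_nonneg (hL.mu_nonneg x) (sq_nonneg _)
    have c6 : Real.sqrt (av μ (fun x => lbar P f x ^ 2)) * Real.sqrt (av μ (fun x => lbar P f x ^ 2))
        = av μ (fun x => lbar P f x ^ 2) := Real.mul_self_sqrt c5
    have c7 := mul_le_mul_of_nonneg_left c4 (Real.sqrt_nonneg (av μ (fun x => lbar P f x ^ 2)))
    linarith
  -- step 3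
  have hQ : ∀ k, Qk μ P f (m + ρ) k ≤ Qk μ P f m k
      + av μ (fun b => om P f k b * ∑ i ∈ Finset.range ρ, op P (m + i) (lbar P f) b) := by
    intro k
    have q1 : ∀ b, om P f k b * Ak P f (m + ρ) k b ≤ om P f k b * Ak P f m k b
        + om P f k b * ∑ i ∈ Finset.range ρ, op P (m + i) (lbar P f) b := by
      intro b
      have := mul_le_mul_of_nonneg_left (hA k b) (hom0 k b)
      linarith
    have q2 := hL.av_mono _ _ q1
    have q3 : av μ (fun b => om P f k b * Ak P f m k b
        + om P f k b * ∑ i ∈ Finset.range ρ, op P (m + i) (lbar P f) b)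
        = Qk μ P f m k
          + av μ (fun b => om P f k b * ∑ i ∈ Finset.range ρ, op P (m + i) (lbar P f) b) := by
      unfold Qk av
      rw [← Finset.sum_add_distrib]
      refine Finset.sum_congr rfl fun x _ => ?_
      ring
    rw [q3] at q2
    exact q2
  have hsum : ∑ k, av μ (fun b => om P f k b * ∑ i ∈ Finset.range ρ, op P (m + i) (lbar P f) b)
      = ∑ i ∈ Finset.range ρ, av μ (fun b => lbar P f b * op P (m + i) (lbar P f) b) := by
    unfold av
    rw [Finset.sum_comm]
    have s1 : ∀ x, ∑ k, μ x * (om P f k x * ∑ i ∈ Finset.range ρ, op P (m + i) (lbar P f) x)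
        = ∑ i ∈ Finset.range ρ, μ x * (lbar P f x * op P (m + i) (lbar P f) x) := by
      intro x
      rw [← Finset.mul_sum, ← Finset.sum_mul, homs x, Finset.mul_sum, Finset.mul_sum]
    rw [Finset.sum_congr rfl fun x _ => s1 x, Finset.sum_comm]
  unfold Qsum
  calc ∑ k, Qk μ P f (m + ρ) k
      ≤ ∑ k, (Qk μ P f m k
        + av μ (fun b => om P f k b * ∑ i ∈ Finset.range ρ, op P (m + i) (lbar P f) b)) :=
        Finset.sum_le_sum fun k _ => hQ k
    _ = ∑ k, Qk μ P f m k
        + ∑ i ∈ Finset.range ρ, av μ (fun b => lbar P f b * op P (m + i) (lbar P f) b) := by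
        rw [Finset.sum_add_distrib, hsum]
    _ ≤ ∑ k, Qk μ P f m k + ∑ i ∈ Finset.range ρ, U μ P f := by
        have := Finset.sum_le_sum (s := Finset.range ρ) fun i _ => hc i
        linarith
    _ = ∑ k, Qk μ P f m k + ρ * U μ P f := by
        rw [Finset.sum_const, Finset.card_range, nsmul_eq_mul]

end Vale.Agent.P125.Poly
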