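import Vale.Agent.P125.Dich.Iter

set_option linter.unusedSectionVars false
set_option linter.unusedVariables false

/-!
P125, polynomial rate, step (F): an averaged function is almost harmonic, so its energy along the
chain is bounded, uniformly in the function.
-/

namespace Vale.Agent.P125.Poly43

open scoped BigOperators
open Vale.Agent.P125.Dich

variable {S : Type} [Fintype S] [DecidableEq S]

lemma mv_apply (R : Matrix S S ℝ) (g : S → ℝ) (a : S) : R.mulVec g a = ∑ b, R a b * g b := rfl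

section api

variable {μ : S → ℝ} {R : Matrix S S ℝ} (h : IsChain μ R)
include h

lemma mv_mono {g g' : S → ℝ} (hg : ∀ b, g b ≤ g' b) (a : S) : R.mulVec g a ≤ R.mulVec g' a := by
  rw [mv_apply, mv_apply]
  exact Finset.sum_le_sum fun b _ => mul_le_mul_of_nonneg_left (hg b) (h.2.2.1 a b)

lemma mv_nonneg {g : S → ℝ} (hg : ∀ b, 0 ≤ g b) (a : S) : 0 ≤ R.mulVec g a := by
  rw [mv_apply]
  exact Finset.sum_nonneg fun b _ => mul_nonneg (h.2.2.1 a b) (hg b)

lemma mv_abs_le {g L : S → ℝ} (hg : ∀ b, |g b| ≤ L b) (a : S) :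
    |R.mulVec g a| ≤ R.mulVec L a := by
  rw [mv_apply, mv_apply]
  refine (Finset.abs_sum_le_sum_abs _ _).trans (Finset.sum_le_sum fun b _ => ?_)
  rw [abs_mul, abs_of_nonneg (h.2.2.1 a b)]
  exact mul_le_mul_of_nonneg_left (hg b) (h.2.2.1 a b)

lemma mv_jensen (g : S → ℝ) (a : S) : (R.mulVec g a) ^ 2 ≤ R.mulVec (fun b => g b ^ 2) a := by
  have h0 : 0 ≤ ∑ b, R a b * (g b - R.mulVec g a) ^ 2 :=
    Finset.sum_nonneg fun b _ => mul_nonneg (h.2.2.1 a b) (sq_nonneg _)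
  have h1 : ∑ b, R a b * (g b - R.mulVec g a) ^ 2 =
      ∑ b, R a b * g b ^ 2 - 2 * R.mulVec g a * ∑ b, R a b * g b
        + (R.mulVec g a) ^ 2 * ∑ b, R a b := by
    rw [Finset.mul_sum, Finset.mul_sum, ← Finset.sum_sub_distrib, ← Finset.sum_add_distrib]
    refine Finset.sum_congr rfl fun b _ => ?_
    ring
  rw [h1, h.2.2.2.1 a, ← mv_apply R g a] at h0
  rw [mv_apply R (fun b => g b ^ 2) a]
  nlinarith

lemma stat (g : S → ℝ) : ∑ a, μ a * R.mulVec g a = ∑ b, μ b * g b := by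
  simp only [mv_apply, Finset.mul_sum]
  rw [Finset.sum_comm]
  refine Finset.sum_congr rfl fun b _ => ?_
  have : ∀ a, μ a * (R a b * g b) = μ b * g b * R b a := by
    intro a
    have := h.2.2.2.2 a b
    calc μ a * (R a b * g b) = (μ a * R a b) * g b := by ring
      _ = (μ b * R b a) * g b := by rw [this]
      _ = μ b * g b * R b a := by ring
  simp only [this]
  rw [← Finset.mul_sum, h.2.2.2.1 b, mul_one]

lemma contr (g : S → ℝ) : ∑ a, μ a * (R.mulVec g a) ^ 2 ≤ ∑ b, μ b * g b ^ 2 := by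
  rw [← stat h (fun b => g b ^ 2)]
  exact Finset.sum_le_sum fun a _ => mul_le_mul_of_nonneg_left (mv_jensen h g a) (h.1 a)

end api

/-- the Cesaro average of the powers -/
noncomputable def Av (P : Matrix S S ℝ) (τ : ℕ) : Matrix S S ℝ :=
  (1 / (τ : ℝ)) • ∑ i ∈ Finset.range τ, P ^ i

lemma Av_apply (P : Matrix S S ℝ) (τ : ℕ) (a b : S) :
    Av P τ a b = (1 / (τ : ℝ)) * ∑ i ∈ Finset.range τ, (P ^ i) a b := by
  unfold Av
  rw [Matrix.smul_apply, Matrix.sum_apply, smul_eq_mul]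

lemma isChain_Av {μ : S → ℝ} {P : Matrix S S ℝ} (h : IsChain μ P) (τ : ℕ) (hτ : 1 ≤ τ) :
    IsChain μ (Av P τ) := by
  have hτ0 : (0 : ℝ) < τ := by exact_mod_cast hτ
  refine ⟨h.1, h.2.1, ?_, ?_, ?_⟩
  · intro i j
    rw [Av_apply]
    exact mul_nonneg (by positivity) (Finset.sum_nonneg fun q _ => (isChain_pow h q).2.2.1 i j)
  · intro i
    simp only [Av_apply]
    rw [← Finset.mul_sum, Finset.sum_comm]
    have : ∀ q ∈ Finset.range τ, ∑ j, (P ^ q) i j = 1 := fun q _ => (isChain_pow h q).2.2.2.1 i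
    rw [Finset.sum_congr rfl this]
    simp
    field_simp
  · intro i j
    rw [Av_apply, Av_apply]
    have : ∀ q, μ i * (P ^ q) i j = μ j * (P ^ q) j i := fun q => (isChain_pow h q).2.2.2.2 i j
    calc μ i * (1 / (τ : ℝ) * ∑ q ∈ Finset.range τ, (P ^ q) i j)
        = 1 / (τ : ℝ) * ∑ q ∈ Finset.range τ, μ i * (P ^ q) i j := by
          rw [Finset.mul_sum, Finset.mul_sum, Finset.mul_sum]
          refine Finset.sum_congr rfl fun q _ => ?_
          ring
      _ = 1 / (τ : ℝ) * ∑ q ∈ Finset.range τ, μ j * (P ^ q) j i := by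
          simp only [this]
      _ = μ j * (1 / (τ : ℝ) * ∑ q ∈ Finset.range τ, (P ^ q) j i) := by
          rw [Finset.mul_sum, Finset.mul_sum, Finset.mul_sum]
          refine Finset.sum_congr rfl fun q _ => ?_
          ring

/-- `P (A φ) - A φ = (P ^ τ φ - φ) / τ` -/
lemma P_Av_sub (P : Matrix S S ℝ) (τ : ℕ) (φ : S → ℝ) (a : S) :
    P.mulVec ((Av P τ).mulVec φ) a - (Av P τ).mulVec φ a =
      (1 / (τ : ℝ)) * ((P ^ τ).mulVec φ a - φ a) := by
  have h1 : (P - 1) * Av P τ = (1 / (τ : ℝ)) • (P ^ τ - 1) := by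
    unfold Av
    rw [Matrix.mul_smul, mul_geom_sum]
  have h2 : ((P - 1) * Av P τ).mulVec φ = P.mulVec ((Av P τ).mulVec φ) - (Av P τ).mulVec φ := by
    rw [← Matrix.mulVec_mulVec, Matrix.sub_mulVec, Matrix.one_mulVec]
  have h3 : ((1 / (τ : ℝ)) • (P ^ τ - 1)).mulVec φ = (1 / (τ : ℝ)) • ((P ^ τ).mulVec φ - φ) := by
    rw [Matrix.smul_mulVec, Matrix.sub_mulVec, Matrix.one_mulVec]
  have h4 := congrFun (h2.symm.trans ((congrArg (fun X => Matrix.mulVec X φ) h1).trans h3)) a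
  simpa using h4

/-- the energy density -/
def Gam (P : Matrix S S ℝ) (v : S → ℝ) (a : S) : ℝ := ∑ b, P a b * (v b - v a) ^ 2

lemma Gam_eq {μ : S → ℝ} {P : Matrix S S ℝ} (h : IsChain μ P) (v : S → ℝ) (a : S) :
    Gam P v a = (P.mulVec (fun b => v b ^ 2) a - v a ^ 2) - 2 * v a * (P.mulVec v a - v a) := by
  have h1 : Gam P v a = ∑ b, P a b * v b ^ 2 - 2 * v a * ∑ b, P a b * v b
      + v a ^ 2 * ∑ b, P a b := by
    unfold Gam
    rw [Finset.mul_sum, Finset.mul_sum, ← Finset.sum_sub_distrib, ← Finset.sum_add_distrib]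
    refine Finset.sum_congr rfl fun b _ => ?_
    ring
  rw [h1, h.2.2.2.1 a, mv_apply, mv_apply]
  ring

/-- the uniform bound of the energy along the chain -/
noncomputable def EnS (P : Matrix S S ℝ) (τ s : ℕ) (L : S → ℝ) (y : S) : ℝ :=
  (P ^ (s + τ)).mulVec (fun b => ((Av P τ).mulVec L b) ^ 2) y +
    (2 / (τ : ℝ)) * ∑ i ∈ Finset.range τ,
      (P ^ (s + i)).mulVec (fun b => (Av P τ).mulVec L b * ((P ^ τ).mulVec L b + L b)) y

theorem F1 {μ : S → ℝ} {P : Matrix S S ℝ} (h : IsChain μ P) (τ s : ℕ) (hτ : 1 ≤ τ)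
    (φ L : S → ℝ) (hφ : ∀ y, |φ y| ≤ L y) (y : S) :
    ∑ i ∈ Finset.range τ, (P ^ (s + i)).mulVec (Gam P ((Av P τ).mulVec φ)) y ≤ EnS P τ s L y := by
  have hτ0 : (0 : ℝ) < τ := by exact_mod_cast hτ
  set v := (Av P τ).mulVec φ with hv
  set AL := (Av P τ).mulVec L with hAL
  have hA := isChain_Av h τ hτ
  have hvL : ∀ b, |v b| ≤ AL b := fun b => mv_abs_le hA hφ b
  have hAL0 : ∀ b, 0 ≤ AL b := fun b => le_trans (abs_nonneg _) (hvL b)
  have hv2 : ∀ b, v b ^ 2 ≤ AL b ^ 2 := by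
    intro b
    rw [← sq_abs (v b)]
    exact pow_le_pow_left₀ (abs_nonneg _) (hvL b) 2
  -- pointwise bound of the energy density
  have hG : ∀ a, Gam P v a ≤ (P.mulVec (fun b => v b ^ 2) a - v a ^ 2) +
      (2 / (τ : ℝ)) * (AL a * ((P ^ τ).mulVec L a + L a)) := by
    intro a
    rw [Gam_eq h v a, hv, P_Av_sub P τ φ a, ← hv]
    have e1 : |(P ^ τ).mulVec φ a - φ a| ≤ (P ^ τ).mulVec L a + L a := by
      have := mv_abs_le (isChain_pow h τ) hφ a
      have h2 := hφ a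
      calc |(P ^ τ).mulVec φ a - φ a| ≤ |(P ^ τ).mulVec φ a| + |φ a| := abs_sub _ _
        _ ≤ _ := add_le_add this h2
    have e2 : -(v a * ((P ^ τ).mulVec φ a - φ a)) ≤ AL a * ((P ^ τ).mulVec L a + L a) := by
      calc -(v a * ((P ^ τ).mulVec φ a - φ a)) ≤ |v a * ((P ^ τ).mulVec φ a - φ a)| :=
            neg_le_abs _
        _ = |v a| * |(P ^ τ).mulVec φ a - φ a| := abs_mul _ _
        _ ≤ AL a * ((P ^ τ).mulVec L a + L a) :=
            mul_le_mul (hvL a) e1 (abs_nonneg _) (hAL0 a)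
    have e3 : -(2 * v a * (1 / (τ : ℝ) * ((P ^ τ).mulVec φ a - φ a))) =
        (2 / (τ : ℝ)) * (-(v a * ((P ^ τ).mulVec φ a - φ a))) := by
      field_simp
    have e4 := mul_le_mul_of_nonneg_left e2 (by positivity : (0 : ℝ) ≤ 2 / (τ : ℝ))
    linarith
  -- apply the powers
  have hstep : ∀ i, (P ^ (s + i)).mulVec (Gam P v) y ≤
      ((P ^ (s + (i + 1))).mulVec (fun b => v b ^ 2) y - (P ^ (s + i)).mulVec (fun b => v b ^ 2) y)
      + (2 / (τ : ℝ)) *
        (P ^ (s + i)).mulVec (fun b => AL b * ((P ^ τ).mulVec L b + L b)) y := by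
    intro i
    have h1 := mv_mono (isChain_pow h (s + i)) hG y
    refine h1.trans (le_of_eq ?_)
    have e1 : (P ^ (s + (i + 1))).mulVec (fun b => v b ^ 2) =
        (P ^ (s + i)).mulVec (P.mulVec (fun b => v b ^ 2)) := by
      rw [Matrix.mulVec_mulVec, ← pow_succ, add_assoc]
    rw [e1]
    simp only [mv_apply]
    rw [Finset.mul_sum, ← Finset.sum_sub_distrib, ← Finset.sum_add_distrib]
    refine Finset.sum_congr rfl fun b _ => ?_
    ring
  have hsum := Finset.sum_le_sum (fun i (_ : i ∈ Finset.range τ) => hstep i)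
  rw [Finset.sum_add_distrib,
    Finset.sum_range_sub (fun i => (P ^ (s + i)).mulVec (fun b => v b ^ 2) y) τ,
    ← Finset.mul_sum] at hsum
  have h5 : (P ^ (s + τ)).mulVec (fun b => v b ^ 2) y ≤
      (P ^ (s + τ)).mulVec (fun b => AL b ^ 2) y := mv_mono (isChain_pow h (s + τ)) hv2 y
  have h6 : 0 ≤ (P ^ (s + 0)).mulVec (fun b => v b ^ 2) y :=
    mv_nonneg (isChain_pow h (s + 0)) (fun b => sq_nonneg _) y
  unfold EnS
  linarith

theorem F2 {μ : S → ℝ} {P : Matrix S S ℝ} (h : IsChain μ P) (τ s : ℕ) (hτ : 1 ≤ τ)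
    (L : S → ℝ) :
    ∑ y, μ y * EnS P τ s L y ≤ 5 * ∑ y, μ y * L y ^ 2 := by
  have hτ0 : (0 : ℝ) < τ := by exact_mod_cast hτ
  set AL := (Av P τ).mulVec L with hAL
  have hA := isChain_Av h τ hτ
  have c1 : ∑ y, μ y * AL y ^ 2 ≤ ∑ y, μ y * L y ^ 2 := contr hA L
  have c2 : ∑ y, μ y * ((P ^ τ).mulVec L y) ^ 2 ≤ ∑ y, μ y * L y ^ 2 := contr (isChain_pow h τ) L
  have c3 : ∑ y, μ y * (AL y * ((P ^ τ).mulVec L y + L y)) ≤ 2 * ∑ y, μ y * L y ^ 2 := by
    have : ∀ y, μ y * (AL y * ((P ^ τ).mulVec L y + L y)) ≤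
        μ y * AL y ^ 2 + (1 / 2) * (μ y * ((P ^ τ).mulVec L y) ^ 2) + (1 / 2) * (μ y * L y ^ 2) := by
      intro y
      have h0 := h.1 y
      have e : AL y * ((P ^ τ).mulVec L y + L y) ≤
          AL y ^ 2 + (1 / 2) * ((P ^ τ).mulVec L y) ^ 2 + (1 / 2) * L y ^ 2 := by
        nlinarith [sq_nonneg (AL y - (P ^ τ).mulVec L y), sq_nonneg (AL y - L y)]
      have := mul_le_mul_of_nonneg_left e h0
      linarith
    have hs := Finset.sum_le_sum (fun y (_ : y ∈ Finset.univ) => this y)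
    rw [Finset.sum_add_distrib, Finset.sum_add_distrib, ← Finset.mul_sum, ← Finset.mul_sum] at hs
    linarith
  have e0 : ∑ y, μ y * EnS P τ s L y =
      ∑ y, μ y * (P ^ (s + τ)).mulVec (fun b => AL b ^ 2) y +
        (2 / (τ : ℝ)) * ∑ i ∈ Finset.range τ, ∑ y, μ y *
          (P ^ (s + i)).mulVec (fun b => AL b * ((P ^ τ).mulVec L b + L b)) y := by
    unfold EnS
    rw [Finset.sum_comm, Finset.mul_sum, ← Finset.sum_add_distrib]
    refine Finset.sum_congr rfl fun y _ => ?_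
    rw [← Finset.mul_sum]
    ring
  rw [e0, stat (isChain_pow h (s + τ))]
  have e1 : ∀ i ∈ Finset.range τ, ∑ y, μ y *
      (P ^ (s + i)).mulVec (fun b => AL b * ((P ^ τ).mulVec L b + L b)) y =
      ∑ y, μ y * (AL y * ((P ^ τ).mulVec L y + L y)) := fun i _ => stat (isChain_pow h (s + i)) _
  rw [Finset.sum_congr rfl e1, Finset.sum_const, Finset.card_range, nsmul_eq_mul]
  have e2 : (2 / (τ : ℝ)) * ((τ : ℝ) * ∑ y, μ y * (AL y * ((P ^ τ).mulVec L y + L y))) =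
      2 * ∑ y, μ y * (AL y * ((P ^ τ).mulVec L y + L y)) := by
    field_simp
  rw [e2]
  linarith

end Vale.Agent.P125.Poly43
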