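import Vale.Agent.P125.Poly.CDE_62
import Vale.Agent.P125.Poly.StepF_43

set_option linter.unusedSectionVars false
set_option linter.unusedVariables false

/-!
# P125, polynomial rate: the bound of the drift term `R_s` (steps (C)-(F) together)
-/

namespace Vale.Agent.P125.Poly62

open scoped BigOperators
open Vale.Agent.P125.Dich Vale.Agent.P125.Poly38
open Matrix

variable {S : Type} [Fintype S] [DecidableEq S] {μ : S → ℝ} {P : Matrix S S ℝ}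

lemma Av_mv (P : Matrix S S ℝ) (τ : ℕ) (g : S → ℝ) (z : S) :
    (Poly43.Av P τ *ᵥ g) z = (1 / (τ : ℝ)) * ∑ i ∈ Finset.range τ, ((P ^ i) *ᵥ g) z := by
  simp only [mv_apply, Poly43.Av_apply]
  have e : ∀ x, (1 / (τ : ℝ) * ∑ i ∈ Finset.range τ, (P ^ i) z x) * g x
      = ∑ i ∈ Finset.range τ, 1 / (τ : ℝ) * ((P ^ i) z x * g x) := by
    intro x
    rw [mul_assoc, Finset.sum_mul, Finset.mul_sum]
  simp only [e]
  rw [Finset.sum_comm, Finset.mul_sum]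
  refine Finset.sum_congr rfl fun i _ => ?_
  rw [Finset.mul_sum]

lemma T_Av_mv (P : Matrix S S ℝ) (τ s : ℕ) (hτ : 1 ≤ τ) (g : S → ℝ) (y : S) :
    (τ : ℝ) * ((P ^ s) *ᵥ (Poly43.Av P τ *ᵥ g)) y
      = ∑ i ∈ Finset.range τ, ((P ^ (s + i)) *ᵥ g) y := by
  have hτ0 : (τ : ℝ) ≠ 0 := by
    have : (0 : ℝ) < τ := by exact_mod_cast hτ
    exact this.ne'
  have e : (Poly43.Av P τ *ᵥ g)
      = fun z => (1 / (τ : ℝ)) * ∑ i ∈ Finset.range τ, ((P ^ i) *ᵥ g) z := by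
    funext z
    exact Av_mv P τ g z
  rw [e, mv_smul, mv_sum]
  simp only [pow_add_mv]
  field_simp

lemma hh_eq (P : Matrix S S ℝ) (τ : ℕ) (hτ : 1 ≤ τ) (F : S → ℝ) (z : S) :
    hh P (Poly43.Av P τ) (τ : ℝ) F z = ((P ^ τ) *ᵥ F) z - F z := by
  have hτ0 : (τ : ℝ) ≠ 0 := by
    have : (0 : ℝ) < τ := by exact_mod_cast hτ
    exact this.ne'
  unfold hh
  rw [Av_mv, geom]
  field_simp

/-- **The drift term.**  `R_s ^ 2 ≤ τ^2 W^2 sqrt (5 / τ)`. -/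
theorem Rs_bound (hP : IsChain μ P) (τ s : ℕ) (hτ : 1 ≤ τ) {n : ℕ} (f : Fin n → S → ℝ) :
    (∑ j, ∑ y, μ y * (aa P f j y *
        ((P ^ s) *ᵥ (fun z => |((P ^ τ) *ᵥ FF f j) z - FF f j z|)) y)) ^ 2
      ≤ (τ : ℝ) ^ 2 * WW μ P f ^ 2 * Real.sqrt (5 / (τ : ℝ)) := by
  have hτ0 : (0 : ℝ) < τ := by exact_mod_cast hτ
  have h := cde (P := P) (A := Poly43.Av P τ) (T := P ^ s) f (τ : ℝ) hP
    (Poly43.isChain_Av hP τ hτ) (isChain_pow hP s) hτ0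
    (Poly43.EnS P τ s ((P ^ s) *ᵥ lb P f))
    (by
      intro φ hφ y
      rw [T_Av_mv P τ s hτ]
      exact Poly43.F1 hP τ s hτ φ _ hφ y)
    (Poly43.F2 hP τ s hτ _)
  unfold RR at h
  simp only [hh_eq P τ hτ] at h
  exact h

end Vale.Agent.P125.Poly62
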