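import Vale.Agent.P125.Poly.Defs58
import Vale.Agent.P125.Poly.SqrtStep_51

set_option linter.unusedSectionVars false
set_option linter.unusedVariables false

/-!
# P125 Poly: statement `StSqrt` (Step 3, martingale + drift induction)

Adaptor from `Poly51.sqrt_step` (helper51) to the shape of `Defs58` (helper17).
-/

namespace Vale.Agent.P125.Poly

open scoped BigOperators
open Vale.Agent.P125.Dich

theorem stSqrt_17 : StSqrt := by
  intro S _ _ μ R hC L G J c b
  have hR0 : ∀ i j, 0 ≤ R i j := fun i j => by simpa using L.pw_nonneg 1 i j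
  have hR1 : ∀ i, ∑ j, R i j = 1 := fun i => by simpa using L.pw_sum 1 i
  have h := Poly51.sqrt_step R hR0 hR1 G (G b - c) J b
  have e1 : ∀ z, |G z - (G b - c)| = |c + G z - G b| := fun z => by congr 1; ring
  have e2 : (G b - (G b - c)) ^ 2 = c ^ 2 := by ring
  have e3 : ∀ z, Poly51.drift R G z = ∑ y, R z y * (G y - G z) := by
    intro z
    unfold Poly51.drift
    simp only [mul_sub, Finset.sum_sub_distrib, ← Finset.sum_mul, hR1 z, one_mul]
  simp only [e1, e2, e3] at h
  exact h

end Vale.Agent.P125.Poly
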