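import Vale.Agent.P125.Dich.Iter

set_option linter.unusedSectionVars false
set_option linter.unusedVariables false

/-!
# P125, polynomial rate, step (A): own measure, telescoping along the chain, collapse

Everything is written with matrix powers; no path space.
-/

namespace Vale.Agent.P125.Poly11

open scoped BigOperators
open Vale.Agent.P125.Dich

/-- (A1) the own measure inequality -/
lemma own (G : ℕ → ℝ) (h0 : G 0 = 0) (n k : ℕ) (hk : k ≤ n) :
    (G k) ^ 2 ≤ 2 * ∑ j ∈ Finset.range n, |G (j + 1) - G j| * |G (j + 1)| := by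
  have h1 : ∀ k, (G k) ^ 2 ≤ 2 * ∑ j ∈ Finset.range k, |G (j + 1) - G j| * |G (j + 1)| := by
    intro k
    induction k with
    | zero => simp [h0]
    | succ k ih =>
      rw [Finset.sum_range_succ]
      have h2 : (G (k + 1) - G k) * G (k + 1) ≤ |G (k + 1) - G k| * |G (k + 1)| := by
        rw [← abs_mul]
        exact le_abs_self _
      nlinarith [sq_nonneg (G (k + 1) - G k)]
  refine (h1 k).trans ?_
  apply mul_le_mul_of_nonneg_left _ (by norm_num)
  apply Finset.sum_le_sum_of_subset_of_nonneg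
  · intro x hx
    rw [Finset.mem_range] at hx ⊢
    omega
  · intro i _ _
    positivity

variable {S : Type} [Fintype S] [DecidableEq S] {μ : S → ℝ} {P : Matrix S S ℝ}

lemma mul_sum_apply (A B : Matrix S S ℝ) (a : S) (φ : S → ℝ) :
    ∑ d, (A * B) a d * φ d = ∑ c, A a c * ∑ d, B c d * φ d := by
  simp only [Matrix.mul_apply, Finset.sum_mul, Finset.mul_sum]
  rw [Finset.sum_comm]
  exact Finset.sum_congr rfl fun c _ => Finset.sum_congr rfl fun d _ => by ring

lemma stat {R : Matrix S S ℝ} (h : IsChain μ R) (β : S → ℝ) :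
    ∑ a, ∑ c, μ a * R a c * β c = ∑ c, μ c * β c := by
  obtain ⟨_, _, _, h4, h5⟩ := h
  rw [Finset.sum_comm]
  refine Finset.sum_congr rfl fun c _ => ?_
  have e : ∀ a, μ a * R a c * β c = μ c * β c * R c a := by
    intro a
    rw [h5 a c]
    ring
  simp only [e]
  rw [← Finset.mul_sum, h4 c, mul_one]

lemma revsum {R : Matrix S S ℝ} (h : IsChain μ R) (K : S → S → ℝ) :
    ∑ a, ∑ c, μ a * R a c * K a c = ∑ a, ∑ c, μ a * R a c * K c a := by
  obtain ⟨_, _, _, _, h5⟩ := h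
  rw [Finset.sum_comm]
  refine Finset.sum_congr rfl fun c _ => Finset.sum_congr rfl fun a _ => ?_
  rw [h5 a c]

/-- mean size of the increment of `g` over one step from `y` -/
noncomputable def al (P : Matrix S S ℝ) (g : S → ℝ) (y : S) : ℝ := ∑ b, P y b * |g b - g y|

/-- mean displacement of `Ψ` after `r` steps from `y` -/
noncomputable def Dr (P : Matrix S S ℝ) (Ψ : S → ℝ) (r : ℕ) (y : S) : ℝ :=
  ∑ z, (P ^ r) y z * |Ψ z - Ψ y|

noncomputable def qq (μ : S → ℝ) (P : Matrix S S ℝ) (g Ψ : S → ℝ) (r : ℕ) : ℝ :=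
  ∑ y, μ y * (al P g y * Dr P Ψ r y)

noncomputable def ee (μ : S → ℝ) (P : Matrix S S ℝ) (g Ψ : S → ℝ) : ℝ :=
  ∑ b, ∑ c, μ b * P b c * (|g c - g b| * |Ψ c - Ψ b|)

noncomputable def HH (P : Matrix S S ℝ) (Ψ : S → ℝ) (r : ℕ) (a d : S) : ℝ :=
  ∑ z, (P ^ r) d z * |Ψ z - Ψ a|

noncomputable def BB (μ : S → ℝ) (P : Matrix S S ℝ) (g Ψ : S → ℝ) (t r : ℕ) : ℝ :=
  ∑ a, ∑ d, μ a * (P ^ t) a d * (|g d - g a| * HH P Ψ r a d)

lemma HH_nonneg (hc : IsChain μ P) (Ψ : S → ℝ) (r : ℕ) (a d : S) : 0 ≤ HH P Ψ r a d := by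
  obtain ⟨_, _, h3, _, _⟩ := isChain_pow hc r
  exact Finset.sum_nonneg fun z _ => mul_nonneg (h3 d z) (abs_nonneg _)

lemma HH_le (hc : IsChain μ P) (Ψ : S → ℝ) (r : ℕ) (a c d : S) :
    HH P Ψ r a d ≤ Dr P Ψ r d + (|Ψ d - Ψ c| + |Ψ c - Ψ a|) := by
  obtain ⟨_, _, h3, h4, _⟩ := isChain_pow hc r
  have h : ∀ z, (P ^ r) d z * |Ψ z - Ψ a| ≤
      (P ^ r) d z * |Ψ z - Ψ d| + (P ^ r) d z * (|Ψ d - Ψ c| + |Ψ c - Ψ a|) := by
    intro z
    rw [← mul_add]
    apply mul_le_mul_of_nonneg_left _ (h3 d z)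
    have e : Ψ z - Ψ a = (Ψ z - Ψ d) + ((Ψ d - Ψ c) + (Ψ c - Ψ a)) := by ring
    rw [e]
    exact (abs_add_le _ _).trans (add_le_add le_rfl (abs_add_le _ _))
  unfold HH Dr
  refine (Finset.sum_le_sum fun z _ => h z).trans ?_
  rw [Finset.sum_add_distrib, ← Finset.sum_mul, h4 d, one_mul]

lemma HH_succ (Ψ : S → ℝ) (r : ℕ) (a c : S) :
    HH P Ψ (r + 1) a c = ∑ d, P c d * HH P Ψ r a d := by
  unfold HH
  rw [pow_succ', mul_sum_apply]

lemma point (hc : IsChain μ P) (g Ψ : S → ℝ) (r : ℕ) (a c : S) :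
    ∑ d, P c d * (|g d - g a| * HH P Ψ r a d) ≤
      (∑ d, P c d * (|g d - g c| * Dr P Ψ r d)) + (∑ d, P c d * (|g d - g c| * |Ψ d - Ψ c|))
        + al P g c * |Ψ c - Ψ a| + |g c - g a| * HH P Ψ (r + 1) a c := by
  have h3 := hc.2.2.1
  rw [HH_succ]
  unfold al
  rw [Finset.sum_mul, Finset.mul_sum, ← Finset.sum_add_distrib, ← Finset.sum_add_distrib,
    ← Finset.sum_add_distrib]
  refine Finset.sum_le_sum fun d _ => ?_
  have hH := HH_nonneg hc Ψ r a d
  have hle := HH_le hc Ψ r a c d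
  have hg : |g d - g a| ≤ |g d - g c| + |g c - g a| := by
    have e : g d - g a = (g d - g c) + (g c - g a) := by ring
    rw [e]
    exact abs_add_le _ _
  have h1 : |g d - g a| * HH P Ψ r a d ≤
      |g d - g c| * (Dr P Ψ r d + (|Ψ d - Ψ c| + |Ψ c - Ψ a|)) + |g c - g a| * HH P Ψ r a d := by
    have h2 := mul_le_mul_of_nonneg_right hg hH
    have h4 := mul_le_mul_of_nonneg_left hle (abs_nonneg (g d - g c))
    nlinarith
  have h5 := mul_le_mul_of_nonneg_left h1 (h3 c d)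
  nlinarith

lemma Bstep (hc : IsChain μ P) (g Ψ : S → ℝ) (t r : ℕ) :
    BB μ P g Ψ (t + 1) r ≤ qq μ P g Ψ r + ee μ P g Ψ + qq μ P g Ψ t + BB μ P g Ψ t (r + 1) := by
  have hct := isChain_pow hc t
  have h1 := hc.1
  have h3t := hct.2.2.1
  have e1 : BB μ P g Ψ (t + 1) r =
      ∑ a, ∑ c, μ a * (P ^ t) a c * ∑ d, P c d * (|g d - g a| * HH P Ψ r a d) := by
    unfold BB
    refine Finset.sum_congr rfl fun a _ => ?_
    have e2 : ∀ d, μ a * (P ^ (t + 1)) a d * (|g d - g a| * HH P Ψ r a d) =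
        μ a * ((P ^ t * P) a d * (|g d - g a| * HH P Ψ r a d)) := by
      intro d
      rw [pow_succ]
      ring
    simp only [e2]
    rw [← Finset.mul_sum, mul_sum_apply, Finset.mul_sum]
    exact Finset.sum_congr rfl fun c _ => by ring
  rw [e1]
  have h2 : ∑ a, ∑ c, μ a * (P ^ t) a c * ∑ d, P c d * (|g d - g a| * HH P Ψ r a d) ≤
      ∑ a, ∑ c, (μ a * (P ^ t) a c * (∑ d, P c d * (|g d - g c| * Dr P Ψ r d))
        + μ a * (P ^ t) a c * (∑ d, P c d * (|g d - g c| * |Ψ d - Ψ c|))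
        + μ a * (P ^ t) a c * (al P g c * |Ψ c - Ψ a|)
        + μ a * (P ^ t) a c * (|g c - g a| * HH P Ψ (r + 1) a c)) := by
    refine Finset.sum_le_sum fun a _ => Finset.sum_le_sum fun c _ => ?_
    have hp := mul_le_mul_of_nonneg_left (point hc g Ψ r a c) (mul_nonneg (h1 a) (h3t a c))
    nlinarith
  refine h2.trans ?_
  simp only [Finset.sum_add_distrib]
  have t1 : ∑ a, ∑ c, μ a * (P ^ t) a c * (∑ d, P c d * (|g d - g c| * Dr P Ψ r d)) =
      qq μ P g Ψ r := by
    rw [stat hct]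
    have e3 : ∑ c, μ c * ∑ d, P c d * (|g d - g c| * Dr P Ψ r d) =
        ∑ c, ∑ d, μ c * P c d * (|g d - g c| * Dr P Ψ r d) := by
      refine Finset.sum_congr rfl fun c _ => ?_
      rw [Finset.mul_sum]
      exact Finset.sum_congr rfl fun d _ => by ring
    rw [e3, revsum hc (fun c d => |g d - g c| * Dr P Ψ r d)]
    unfold qq al
    refine Finset.sum_congr rfl fun c _ => ?_
    rw [Finset.sum_mul, Finset.mul_sum]
    refine Finset.sum_congr rfl fun d _ => ?_
    rw [abs_sub_comm (g c) (g d)]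
    ring
  have t2 : ∑ a, ∑ c, μ a * (P ^ t) a c * (∑ d, P c d * (|g d - g c| * |Ψ d - Ψ c|)) =
      ee μ P g Ψ := by
    rw [stat hct]
    unfold ee
    refine Finset.sum_congr rfl fun c _ => ?_
    rw [Finset.mul_sum]
    exact Finset.sum_congr rfl fun d _ => by ring
  have t3 : ∑ a, ∑ c, μ a * (P ^ t) a c * (al P g c * |Ψ c - Ψ a|) = qq μ P g Ψ t := by
    rw [revsum hct (fun a c => al P g c * |Ψ c - Ψ a|)]
    unfold qq Dr
    refine Finset.sum_congr rfl fun a _ => ?_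
    rw [Finset.mul_sum, Finset.mul_sum]
    refine Finset.sum_congr rfl fun c _ => ?_
    rw [abs_sub_comm (Ψ a) (Ψ c)]
    ring
  rw [t1, t2, t3]
  exact le_rfl

lemma B_zero (g Ψ : S → ℝ) (r : ℕ) : BB μ P g Ψ 0 r = 0 := by
  unfold BB
  refine Finset.sum_eq_zero fun a _ => Finset.sum_eq_zero fun d _ => ?_
  rw [pow_zero, Matrix.one_apply]
  by_cases h : a = d
  · subst h
    simp
  · simp [h]

lemma B_le (hc : IsChain μ P) (g Ψ : S → ℝ) (t : ℕ) : ∀ r : ℕ,
    BB μ P g Ψ t r ≤ ∑ k ∈ Finset.range t,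
      (qq μ P g Ψ (r + (t - 1 - k)) + ee μ P g Ψ + qq μ P g Ψ k) := by
  induction t with
  | zero =>
    intro r
    rw [B_zero]
    simp
  | succ t ih =>
    intro r
    refine (Bstep hc g Ψ t r).trans ?_
    rw [Finset.sum_range_succ]
    have h1 := ih (r + 1)
    have e : ∑ k ∈ Finset.range t, (qq μ P g Ψ (r + 1 + (t - 1 - k)) + ee μ P g Ψ + qq μ P g Ψ k) =
        ∑ k ∈ Finset.range t, (qq μ P g Ψ (r + (t + 1 - 1 - k)) + ee μ P g Ψ + qq μ P g Ψ k) := by
      refine Finset.sum_congr rfl fun k hk => ?_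
      rw [Finset.mem_range] at hk
      have : r + 1 + (t - 1 - k) = r + (t + 1 - 1 - k) := by omega
      rw [this]
    rw [e] at h1
    have e2 : r + (t + 1 - 1 - t) = r := by omega
    rw [e2]
    linarith

lemma HH_zero (Ψ : S → ℝ) (a d : S) : HH P Ψ 0 a d = |Ψ d - Ψ a| := by
  unfold HH
  rw [pow_zero]
  simp [Matrix.one_apply]

section main

variable (μ P) (n : ℕ) (F : ℕ → S → ℝ)

/-- the `j`-th coordinate function -/
def co (j : ℕ) (x : S) : ℝ := F (j + 1) x - F j x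

/-- the `l_1` size of the step from `a` to `b` -/
noncomputable def ell (a b : S) : ℝ := ∑ j ∈ Finset.range n, |co F j b - co F j a|

noncomputable def WW : ℝ := ∑ a, ∑ b, μ a * P a b * ell n F a b ^ 2

noncomputable def QQ (r : ℕ) : ℝ := ∑ j ∈ Finset.range n, qq μ P (co F j) (F (j + 1)) r

variable {μ P n F}

lemma abs_F_le (hF0 : ∀ x, F 0 x = 0) (a b : S) (j : ℕ) (hj : j ≤ n) :
    |F j b - F j a| ≤ ell n F a b := by
  have h1 : ∀ j, |F j b - F j a| ≤ ∑ i ∈ Finset.range j, |co F i b - co F i a| := by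
    intro j
    induction j with
    | zero => simp [hF0]
    | succ j ih =>
      rw [Finset.sum_range_succ]
      have e : F (j + 1) b - F (j + 1) a = (F j b - F j a) + (co F j b - co F j a) := by
        unfold co
        ring
      rw [e]
      exact (abs_add_le _ _).trans (add_le_add ih le_rfl)
  refine (h1 j).trans ?_
  unfold ell
  apply Finset.sum_le_sum_of_subset_of_nonneg
  · intro x hx
    rw [Finset.mem_range] at hx ⊢
    omega
  · intro i _ _
    positivity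

lemma sum_ee_le (hc : IsChain μ P) (hF0 : ∀ x, F 0 x = 0) :
    ∑ j ∈ Finset.range n, ee μ P (co F j) (F (j + 1)) ≤ WW μ P n F := by
  unfold ee WW
  rw [Finset.sum_comm]
  refine Finset.sum_le_sum fun b _ => ?_
  rw [Finset.sum_comm]
  refine Finset.sum_le_sum fun c _ => ?_
  rw [← Finset.mul_sum]
  apply mul_le_mul_of_nonneg_left _ (mul_nonneg (hc.1 b) (hc.2.2.1 b c))
  have h : ∀ j ∈ Finset.range n, |co F j c - co F j b| * |F (j + 1) c - F (j + 1) b| ≤
      |co F j c - co F j b| * ell n F b c := by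
    intro j hj
    rw [Finset.mem_range] at hj
    exact mul_le_mul_of_nonneg_left (abs_F_le hF0 b c (j + 1) hj) (abs_nonneg _)
  refine (Finset.sum_le_sum h).trans ?_
  rw [← Finset.sum_mul, sq]
  exact le_rfl

/-- STEP (A) -/
theorem stepA (hc : IsChain μ P) (hF0 : ∀ x, F 0 x = 0) (t : ℕ) (X : S → S → ℝ)
    (hX : ∀ a d, ∃ k, k ≤ n ∧ X a d ^ 2 ≤ (F k d - F k a) ^ 2) :
    ∑ a, ∑ d, μ a * (P ^ t) a d * X a d ^ 2 ≤
      2 * (t : ℝ) * WW μ P n F +
        2 * ∑ k ∈ Finset.range t, (QQ μ P n F (t - 1 - k) + QQ μ P n F k) := by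
  have hct := isChain_pow hc t
  have h1 : ∑ a, ∑ d, μ a * (P ^ t) a d * X a d ^ 2 ≤
      2 * ∑ j ∈ Finset.range n, BB μ P (co F j) (F (j + 1)) t 0 := by
    have e0 : ∑ j ∈ Finset.range n, BB μ P (co F j) (F (j + 1)) t 0 =
        ∑ a, ∑ d, μ a * (P ^ t) a d *
          ∑ j ∈ Finset.range n, |co F j d - co F j a| * HH P (F (j + 1)) 0 a d := by
      unfold BB
      refine Finset.sum_comm.trans ?_
      refine Finset.sum_congr rfl fun a _ => ?_
      refine Finset.sum_comm.trans ?_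
      refine Finset.sum_congr rfl fun d _ => ?_
      rw [Finset.mul_sum]
    rw [e0, Finset.mul_sum]
    refine Finset.sum_le_sum fun a _ => ?_
    rw [Finset.mul_sum]
    refine Finset.sum_le_sum fun d _ => ?_
    have hnn := mul_nonneg (hc.1 a) (hct.2.2.1 a d)
    obtain ⟨k, hk, hXk⟩ := hX a d
    have ho := own (fun k => F k d - F k a) (by simp [hF0]) n k hk
    have e : ∑ j ∈ Finset.range n, |co F j d - co F j a| * HH P (F (j + 1)) 0 a d =
        ∑ j ∈ Finset.range n, |(F (j + 1) d - F (j + 1) a) - (F j d - F j a)| *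
          |F (j + 1) d - F (j + 1) a| := by
      refine Finset.sum_congr rfl fun j _ => ?_
      rw [HH_zero]
      have : co F j d - co F j a = (F (j + 1) d - F (j + 1) a) - (F j d - F j a) := by
        unfold co
        ring
      rw [this]
    rw [e]
    have h2 := mul_le_mul_of_nonneg_left (hXk.trans ho) hnn
    linarith
  refine h1.trans ?_
  have h2 : ∑ j ∈ Finset.range n, BB μ P (co F j) (F (j + 1)) t 0 ≤
      ∑ j ∈ Finset.range n, ∑ k ∈ Finset.range t,
        (qq μ P (co F j) (F (j + 1)) (0 + (t - 1 - k)) + ee μ P (co F j) (F (j + 1))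
          + qq μ P (co F j) (F (j + 1)) k) := by
    refine Finset.sum_le_sum fun j _ => ?_
    exact B_le hc _ _ t 0
  have e3 : ∑ j ∈ Finset.range n, ∑ k ∈ Finset.range t,
        (qq μ P (co F j) (F (j + 1)) (0 + (t - 1 - k)) + ee μ P (co F j) (F (j + 1))
          + qq μ P (co F j) (F (j + 1)) k) =
      (t : ℝ) * ∑ j ∈ Finset.range n, ee μ P (co F j) (F (j + 1)) +
        ∑ k ∈ Finset.range t, (QQ μ P n F (t - 1 - k) + QQ μ P n F k) := by
    rw [Finset.sum_comm]
    unfold QQ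
    simp only [Finset.sum_add_distrib, zero_add, Finset.sum_const, Finset.card_range,
      nsmul_eq_mul]
    ring
  rw [e3] at h2
  have h4 := sum_ee_le (n := n) hc hF0
  have h5 : (t : ℝ) * ∑ j ∈ Finset.range n, ee μ P (co F j) (F (j + 1)) ≤
      (t : ℝ) * WW μ P n F := mul_le_mul_of_nonneg_left h4 (Nat.cast_nonneg t)
  linarith

end main

end Vale.Agent.P125.Poly11
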