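import Vale.Agent.P125.Dich.Iter

set_option linter.unusedSectionVars false
set_option linter.unusedVariables false

/-!
# P125, polynomial rate, step (A) = S1 + S2 in matrix form (board 624)

`E_t <= 2 t W + 2 sum_k (Q (t-1-k) + Q k)`, stated as `E_t <= 2 t (W + 2 B)` if `Q r <= B` for
all `r < t`.
-/

namespace Vale.Agent.P125.Poly31

open Vale.Agent.P125.Dich
open scoped BigOperators

variable {S : Type} [Fintype S] [DecidableEq S]

/-- the operator of a matrix on functions -/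
def op (M : Matrix S S ℝ) (H : S → ℝ) (x : S) : ℝ := ∑ y, M x y * H y

/-- edge functional -/
def Eg (P : Matrix S S ℝ) (g H : S → ℝ) (b : S) : ℝ := ∑ c, P b c * (|g c - g b| * H c)

lemma op_one (H : S → ℝ) : op (1 : Matrix S S ℝ) H = H := by
  funext x
  simp [op, Matrix.one_apply]

lemma op_mul (M N : Matrix S S ℝ) (H : S → ℝ) : op (M * N) H = op M (op N H) := by
  funext x
  simp only [op, Matrix.mul_apply, Finset.sum_mul, Finset.mul_sum]
  rw [Finset.sum_comm]
  refine Finset.sum_congr rfl fun y _ => Finset.sum_congr rfl fun z _ => ?_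
  ring

lemma op_nonneg {M : Matrix S S ℝ} (hM : ∀ i j, 0 ≤ M i j) {H : S → ℝ} (hH : ∀ x, 0 ≤ H x)
    (x : S) : 0 ≤ op M H x :=
  Finset.sum_nonneg fun j _ => mul_nonneg (hM x j) (hH j)

lemma stat {μ : S → ℝ} {P : Matrix S S ℝ} (h : IsChain μ P) (b : S) :
    ∑ a, μ a * P a b = μ b := by
  obtain ⟨_, _, _, h4, h5⟩ := h
  calc ∑ a, μ a * P a b = ∑ a, μ b * P b a := Finset.sum_congr rfl fun a _ => h5 a b
    _ = μ b := by rw [← Finset.mul_sum, h4 b, mul_one]

/-- TELESCOPE LEMMA (the starting point `a` is fixed) -/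
lemma telescope {μ : S → ℝ} {P : Matrix S S ℝ} (h : IsChain μ P) (g : S → ℝ) (a : S) (n : ℕ) :
    ∀ H : S → ℝ, (∀ x, 0 ≤ H x) →
    ∑ d, (P ^ (n + 1)) a d * (|g d - g a| * H d) ≤
      ∑ p ∈ Finset.HasAntidiagonal.antidiagonal n, op (P ^ p.1) (Eg P g (op (P ^ p.2) H)) a := by
  have hP : ∀ i j, 0 ≤ P i j := h.2.2.1
  induction n with
  | zero =>
    intro H hH
    simp only [Finset.Nat.antidiagonal_zero, Finset.sum_singleton, pow_zero, op_one, zero_add,
      pow_one]
    exact le_of_eq rfl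
  | succ n ih =>
    intro H hH
    have hPn : ∀ i j, 0 ≤ (P ^ (n + 1)) i j := (isChain_pow h (n + 1)).2.2.1
    have e1 : ∀ d, (P ^ (n + 1 + 1)) a d = ∑ c, (P ^ (n + 1)) a c * P c d := by
      intro d
      rw [pow_succ, Matrix.mul_apply]
    have s1 : ∑ d, (P ^ (n + 1 + 1)) a d * (|g d - g a| * H d)
        ≤ ∑ d, ∑ c, ((P ^ (n + 1)) a c * (P c d * (|g d - g c| * H d))
            + (P ^ (n + 1)) a c * (|g c - g a| * (P c d * H d))) := by
      refine Finset.sum_le_sum fun d _ => ?_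
      rw [e1 d, Finset.sum_mul]
      refine Finset.sum_le_sum fun c _ => ?_
      have tri : |g d - g a| ≤ |g d - g c| + |g c - g a| := abs_sub_le _ _ _
      have h1 : 0 ≤ (P ^ (n + 1)) a c * P c d * H d :=
        mul_nonneg (mul_nonneg (hPn a c) (hP c d)) (hH d)
      calc (P ^ (n + 1)) a c * P c d * (|g d - g a| * H d)
          = ((P ^ (n + 1)) a c * P c d * H d) * |g d - g a| := by ring
        _ ≤ ((P ^ (n + 1)) a c * P c d * H d) * (|g d - g c| + |g c - g a|) :=
            mul_le_mul_of_nonneg_left tri h1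
        _ = _ := by ring
    have s2 : ∑ d, ∑ c, ((P ^ (n + 1)) a c * (P c d * (|g d - g c| * H d))
            + (P ^ (n + 1)) a c * (|g c - g a| * (P c d * H d)))
        = op (P ^ (n + 1)) (Eg P g H) a
          + ∑ c, (P ^ (n + 1)) a c * (|g c - g a| * op P H c) := by
      rw [Finset.sum_comm]
      simp only [Finset.sum_add_distrib, op, Eg, Finset.mul_sum]
    have s3 := ih (op P H) (op_nonneg hP hH)
    have s4 : ∀ r : ℕ, op (P ^ r) (op P H) = op (P ^ (r + 1)) H := by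
      intro r
      rw [pow_succ, op_mul]
    simp only [s4] at s3
    rw [Finset.Nat.sum_antidiagonal_succ']
    simp only [pow_zero, op_one]
    linarith

/-- S1: the own measure inequality for a finite sequence -/
lemma own (G : ℕ → ℝ) (h0 : G 0 = 0) (n J : ℕ) (hJ : J ≤ n) :
    G J ^ 2 ≤ 2 * ∑ j ∈ Finset.range n, |G (j + 1) - G j| * |G (j + 1)| := by
  have key : ∀ J : ℕ, G J ^ 2 ≤ 2 * ∑ j ∈ Finset.range J, |G (j + 1) - G j| * |G (j + 1)| := by
    intro J
    induction J with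
    | zero => simp [h0]
    | succ J ih =>
      rw [Finset.sum_range_succ]
      have h1 : (G (J + 1) - G J) * G (J + 1) ≤ |G (J + 1) - G J| * |G (J + 1)| := by
        rw [← abs_mul]
        exact le_abs_self _
      nlinarith [sq_nonneg (G (J + 1) - G J)]
  refine (key J).trans ?_
  have : ∑ j ∈ Finset.range J, |G (j + 1) - G j| * |G (j + 1)|
      ≤ ∑ j ∈ Finset.range n, |G (j + 1) - G j| * |G (j + 1)| :=
    Finset.sum_le_sum_of_subset_of_nonneg (Finset.range_subset_range.2 hJ)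
      (fun j _ _ => mul_nonneg (abs_nonneg _) (abs_nonneg _))
  linarith


/-- mean absolute increment of `g` in one step -/
def ag (P : Matrix S S ℝ) (g : S → ℝ) (y : S) : ℝ := ∑ b, P y b * |g b - g y|

/-- mean absolute increment of `Φ` under the kernel `M` -/
def Dg (M : Matrix S S ℝ) (Φ : S → ℝ) (y : S) : ℝ := ∑ z, M y z * |Φ z - Φ y|

lemma op_tri {μ : S → ℝ} {M : Matrix S S ℝ} (h : IsChain μ M) (Φ : S → ℝ) (a b c : S) :
    op M (fun d => |Φ d - Φ a|) c ≤ Dg M Φ c + |Φ c - Φ b| + |Φ b - Φ a| := by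
  have h3 : ∀ i j, 0 ≤ M i j := h.2.2.1
  have h4 : ∑ d, M c d = 1 := h.2.2.2.1 c
  have s1 : op M (fun d => |Φ d - Φ a|) c
      ≤ ∑ d, (M c d * |Φ d - Φ c| + M c d * (|Φ c - Φ b| + |Φ b - Φ a|)) := by
    refine Finset.sum_le_sum fun d _ => ?_
    have t1 : |Φ d - Φ a| ≤ |Φ d - Φ c| + |Φ c - Φ a| := abs_sub_le _ _ _
    have t2 : |Φ c - Φ a| ≤ |Φ c - Φ b| + |Φ b - Φ a| := abs_sub_le _ _ _
    have : M c d * |Φ d - Φ a| ≤ M c d * (|Φ d - Φ c| + (|Φ c - Φ b| + |Φ b - Φ a|)) :=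
      mul_le_mul_of_nonneg_left (by linarith) (h3 c d)
    linarith
  rw [Finset.sum_add_distrib, ← Finset.sum_mul, h4, one_mul] at s1
  unfold Dg
  linarith

lemma term_bound {μ : S → ℝ} {P : Matrix S S ℝ} (h : IsChain μ P) (g Φ : S → ℝ) (k r : ℕ) :
    ∑ a, μ a * op (P ^ k) (Eg P g (op (P ^ r) (fun d => |Φ d - Φ a|))) a
      ≤ (∑ y, μ y * ag P g y * Dg (P ^ r) Φ y)
        + (∑ b, ∑ c, μ b * P b c * (|g c - g b| * |Φ c - Φ b|))
        + (∑ y, μ y * ag P g y * Dg (P ^ k) Φ y) := by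
  have h0 : ∀ i, 0 ≤ μ i := h.1
  have hP : ∀ i j, 0 ≤ P i j := h.2.2.1
  have hrev : ∀ i j, μ i * P i j = μ j * P j i := h.2.2.2.2
  have hk := isChain_pow h k
  have hr := isChain_pow h r
  have hPk : ∀ i j, 0 ≤ (P ^ k) i j := hk.2.2.1
  have hkrev : ∀ i j, μ i * (P ^ k) i j = μ j * (P ^ k) j i := hk.2.2.2.2
  -- (ii)
  have s2 : ∀ a b, Eg P g (op (P ^ r) (fun d => |Φ d - Φ a|)) b
      ≤ (∑ c, P b c * (|g c - g b| * Dg (P ^ r) Φ c))
        + (∑ c, P b c * (|g c - g b| * |Φ c - Φ b|)) + ag P g b * |Φ b - Φ a| := by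
    intro a b
    have : Eg P g (op (P ^ r) (fun d => |Φ d - Φ a|)) b
        ≤ ∑ c, (P b c * (|g c - g b| * Dg (P ^ r) Φ c)
            + P b c * (|g c - g b| * |Φ c - Φ b|) + P b c * |g c - g b| * |Φ b - Φ a|) := by
      refine Finset.sum_le_sum fun c _ => ?_
      have t := op_tri hr Φ a b c
      have : P b c * (|g c - g b| * op (P ^ r) (fun d => |Φ d - Φ a|) c)
          ≤ P b c * (|g c - g b| * (Dg (P ^ r) Φ c + |Φ c - Φ b| + |Φ b - Φ a|)) :=
        mul_le_mul_of_nonneg_left (mul_le_mul_of_nonneg_left t (abs_nonneg _)) (hP b c)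
      linarith
    rw [Finset.sum_add_distrib, Finset.sum_add_distrib, ← Finset.sum_mul] at this
    exact this
  -- (iii)
  have s3 : ∑ a, μ a * op (P ^ k) (Eg P g (op (P ^ r) (fun d => |Φ d - Φ a|))) a
      ≤ ∑ a, ∑ b, (μ a * (P ^ k) a b * ((∑ c, P b c * (|g c - g b| * Dg (P ^ r) Φ c))
        + (∑ c, P b c * (|g c - g b| * |Φ c - Φ b|)))
        + μ a * (P ^ k) a b * (ag P g b * |Φ b - Φ a|)) := by
    refine Finset.sum_le_sum fun a _ => ?_
    have e : op (P ^ k) (Eg P g (op (P ^ r) (fun d => |Φ d - Φ a|))) a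
        = ∑ b, (P ^ k) a b * Eg P g (op (P ^ r) (fun d => |Φ d - Φ a|)) b := rfl
    rw [e, Finset.mul_sum]
    refine Finset.sum_le_sum fun b _ => ?_
    have := mul_le_mul_of_nonneg_left (s2 a b) (mul_nonneg (h0 a) (hPk a b))
    linarith
  -- (iv)
  have s4 : ∑ a, ∑ b, (μ a * (P ^ k) a b * ((∑ c, P b c * (|g c - g b| * Dg (P ^ r) Φ c))
        + (∑ c, P b c * (|g c - g b| * |Φ c - Φ b|)))
        + μ a * (P ^ k) a b * (ag P g b * |Φ b - Φ a|))
      = (∑ b, μ b * ((∑ c, P b c * (|g c - g b| * Dg (P ^ r) Φ c))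
        + (∑ c, P b c * (|g c - g b| * |Φ c - Φ b|))))
        + ∑ a, ∑ b, μ a * (P ^ k) a b * (ag P g b * |Φ b - Φ a|) := by
    simp only [Finset.sum_add_distrib]
    congr 1
    rw [Finset.sum_comm]
    refine Finset.sum_congr rfl fun b _ => ?_
    rw [← Finset.sum_mul, stat hk b]
  -- (v)
  have s5 : ∑ b, μ b * (∑ c, P b c * (|g c - g b| * Dg (P ^ r) Φ c))
      = ∑ y, μ y * ag P g y * Dg (P ^ r) Φ y := by
    simp only [Finset.mul_sum]
    rw [Finset.sum_comm]
    refine Finset.sum_congr rfl fun c _ => ?_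
    unfold ag
    rw [Finset.mul_sum, Finset.sum_mul]
    refine Finset.sum_congr rfl fun b _ => ?_
    rw [abs_sub_comm (g b) (g c)]
    calc μ b * (P b c * (|g c - g b| * Dg (P ^ r) Φ c))
        = (μ b * P b c) * (|g c - g b| * Dg (P ^ r) Φ c) := by ring
      _ = (μ c * P c b) * (|g c - g b| * Dg (P ^ r) Φ c) := by rw [hrev b c]
      _ = _ := by ring
  have s6 : ∑ b, μ b * (∑ c, P b c * (|g c - g b| * |Φ c - Φ b|))
      = ∑ b, ∑ c, μ b * P b c * (|g c - g b| * |Φ c - Φ b|) := by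
    refine Finset.sum_congr rfl fun b _ => ?_
    rw [Finset.mul_sum]
    refine Finset.sum_congr rfl fun c _ => ?_
    ring
  have s7 : ∑ a, ∑ b, μ a * (P ^ k) a b * (ag P g b * |Φ b - Φ a|)
      = ∑ y, μ y * ag P g y * Dg (P ^ k) Φ y := by
    rw [Finset.sum_comm]
    refine Finset.sum_congr rfl fun b _ => ?_
    unfold Dg
    rw [Finset.mul_sum]
    refine Finset.sum_congr rfl fun a _ => ?_
    rw [hkrev a b, abs_sub_comm (Φ b) (Φ a)]
    ring
  have s8 : ∑ b, μ b * ((∑ c, P b c * (|g c - g b| * Dg (P ^ r) Φ c))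
        + (∑ c, P b c * (|g c - g b| * |Φ c - Φ b|)))
      = (∑ b, μ b * (∑ c, P b c * (|g c - g b| * Dg (P ^ r) Φ c)))
        + ∑ b, μ b * (∑ c, P b c * (|g c - g b| * |Φ c - Φ b|)) := by
    rw [← Finset.sum_add_distrib]
    refine Finset.sum_congr rfl fun b _ => ?_
    ring
  rw [s4, s8, s5, s6, s7] at s3
  exact s3


section Main

variable (μ : S → ℝ) (P : Matrix S S ℝ) (F : ℕ → S → ℝ) (n : ℕ)

/-- the coordinates: increments of the initial sums -/
def gg (j : ℕ) (x : S) : ℝ := F (j + 1) x - F j x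

/-- the `l_1` length of an edge -/
def ll (a b : S) : ℝ := ∑ j ∈ Finset.range n, |gg F j b - gg F j a|

def WW : ℝ := ∑ a, ∑ b, μ a * P a b * ll F n a b ^ 2

def QQ (r : ℕ) : ℝ :=
  ∑ j ∈ Finset.range n, ∑ y, μ y * ag P (gg F j) y * Dg (P ^ r) (F (j + 1)) y

variable {μ P F n}

lemma F_eq_sum (hF0 : ∀ x, F 0 x = 0) (j : ℕ) (x : S) :
    F j x = ∑ i ∈ Finset.range j, gg F i x := by
  induction j with
  | zero => simp [hF0]
  | succ j ih =>
    rw [Finset.sum_range_succ, ← ih]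
    unfold gg
    ring

lemma abs_F_le_ll (hF0 : ∀ x, F 0 x = 0) {j : ℕ} (hj : j ≤ n) (b c : S) :
    |F j c - F j b| ≤ ll F n b c := by
  rw [F_eq_sum hF0 j c, F_eq_sum hF0 j b, ← Finset.sum_sub_distrib]
  refine (Finset.abs_sum_le_sum_abs _ _).trans ?_
  exact Finset.sum_le_sum_of_subset_of_nonneg (Finset.range_subset_range.2 hj)
    (fun i _ _ => abs_nonneg _)

lemma W2_le (h : IsChain μ P) (hF0 : ∀ x, F 0 x = 0) :
    ∑ j ∈ Finset.range n, ∑ b, ∑ c, μ b * P b c *
        (|gg F j c - gg F j b| * |F (j + 1) c - F (j + 1) b|) ≤ WW μ P F n := by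
  rw [Finset.sum_comm]
  refine Finset.sum_le_sum fun b _ => ?_
  rw [Finset.sum_comm]
  refine Finset.sum_le_sum fun c _ => ?_
  rw [← Finset.mul_sum]
  have hw : 0 ≤ μ b * P b c := mul_nonneg (h.1 b) (h.2.2.1 b c)
  refine mul_le_mul_of_nonneg_left ?_ hw
  have : ∑ j ∈ Finset.range n, |gg F j c - gg F j b| * |F (j + 1) c - F (j + 1) b|
      ≤ ∑ j ∈ Finset.range n, |gg F j c - gg F j b| * ll F n b c := by
    refine Finset.sum_le_sum fun j hj => ?_
    exact mul_le_mul_of_nonneg_left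
      (abs_F_le_ll hF0 (Nat.succ_le_of_lt (Finset.mem_range.1 hj)) b c) (abs_nonneg _)
  rw [← Finset.sum_mul] at this
  calc _ ≤ _ := this
    _ = ll F n b c ^ 2 := by
      unfold ll
      ring

/-- STEP (A) -/
theorem stepA (h : IsChain μ P) (hF0 : ∀ x, F 0 x = 0) (t : ℕ) (B : ℝ)
    (hB : ∀ r, r < t → QQ μ P F n r ≤ B) (J : S → S → ℕ) (hJ : ∀ a d, J a d ≤ n) :
    ∑ a, ∑ d, μ a * (P ^ t) a d * (F (J a d) d - F (J a d) a) ^ 2
      ≤ 2 * t * (WW μ P F n + 2 * B) := by
  cases t with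
  | zero =>
    have : ∑ a, ∑ d, μ a * (P ^ 0) a d * (F (J a d) d - F (J a d) a) ^ 2 = 0 := by
      refine Finset.sum_eq_zero fun a _ => Finset.sum_eq_zero fun d _ => ?_
      rw [pow_zero, Matrix.one_apply]
      by_cases had : a = d
      · subst had
        simp
      · simp [had]
    rw [this]
    simp
  | succ m =>
    have h0 : ∀ i, 0 ≤ μ i := h.1
    have hPt : ∀ i j, 0 ≤ (P ^ (m + 1)) i j := (isChain_pow h (m + 1)).2.2.1
    -- step 1
    have s1 : ∑ a, ∑ d, μ a * (P ^ (m + 1)) a d * (F (J a d) d - F (J a d) a) ^ 2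
        ≤ ∑ a, ∑ d, μ a * (P ^ (m + 1)) a d *
          (2 * ∑ j ∈ Finset.range n, |gg F j d - gg F j a| * |F (j + 1) d - F (j + 1) a|) := by
      refine Finset.sum_le_sum fun a _ => Finset.sum_le_sum fun d _ => ?_
      refine mul_le_mul_of_nonneg_left ?_ (mul_nonneg (h0 a) (hPt a d))
      have := own (fun j => F j d - F j a) (by simp [hF0]) n (J a d) (hJ a d)
      refine this.trans (le_of_eq ?_)
      congr 1
      refine Finset.sum_congr rfl fun j _ => ?_
      congr 2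
      unfold gg
      ring
    have s2 : ∑ a, ∑ d, μ a * (P ^ (m + 1)) a d *
          (2 * ∑ j ∈ Finset.range n, |gg F j d - gg F j a| * |F (j + 1) d - F (j + 1) a|)
        = 2 * ∑ j ∈ Finset.range n, ∑ a, μ a * ∑ d, (P ^ (m + 1)) a d *
            (|gg F j d - gg F j a| * |F (j + 1) d - F (j + 1) a|) := by
      simp only [Finset.mul_sum]
      conv_rhs => rw [Finset.sum_comm]
      refine Finset.sum_congr rfl fun a _ => ?_
      rw [Finset.sum_comm]
      refine Finset.sum_congr rfl fun j _ => ?_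
      refine Finset.sum_congr rfl fun d _ => ?_
      ring
    -- steps 2, 3
    have s3 : ∀ j, ∑ a, μ a * ∑ d, (P ^ (m + 1)) a d *
            (|gg F j d - gg F j a| * |F (j + 1) d - F (j + 1) a|)
        ≤ ∑ p ∈ Finset.HasAntidiagonal.antidiagonal m,
          ((∑ y, μ y * ag P (gg F j) y * Dg (P ^ p.2) (F (j + 1)) y)
            + (∑ b, ∑ c, μ b * P b c *
                (|gg F j c - gg F j b| * |F (j + 1) c - F (j + 1) b|))
            + (∑ y, μ y * ag P (gg F j) y * Dg (P ^ p.1) (F (j + 1)) y)) := by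
      intro j
      have a1 : ∑ a, μ a * ∑ d, (P ^ (m + 1)) a d *
            (|gg F j d - gg F j a| * |F (j + 1) d - F (j + 1) a|)
          ≤ ∑ a, μ a * ∑ p ∈ Finset.HasAntidiagonal.antidiagonal m,
            op (P ^ p.1) (Eg P (gg F j) (op (P ^ p.2)
              (fun d => |F (j + 1) d - F (j + 1) a|))) a := by
        refine Finset.sum_le_sum fun a _ => ?_
        exact mul_le_mul_of_nonneg_left
          (telescope h (gg F j) a m (fun d => |F (j + 1) d - F (j + 1) a|)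
            (fun _ => abs_nonneg _)) (h0 a)
      refine a1.trans ?_
      simp only [Finset.mul_sum]
      rw [Finset.sum_comm]
      refine Finset.sum_le_sum fun p _ => ?_
      exact term_bound h (gg F j) (F (j + 1)) p.1 p.2
    -- step 4
    have s4 : ∑ j ∈ Finset.range n, ∑ p ∈ Finset.HasAntidiagonal.antidiagonal m,
          ((∑ y, μ y * ag P (gg F j) y * Dg (P ^ p.2) (F (j + 1)) y)
            + (∑ b, ∑ c, μ b * P b c *
                (|gg F j c - gg F j b| * |F (j + 1) c - F (j + 1) b|))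
            + (∑ y, μ y * ag P (gg F j) y * Dg (P ^ p.1) (F (j + 1)) y))
        ≤ ∑ p ∈ Finset.HasAntidiagonal.antidiagonal m, (WW μ P F n + 2 * B) := by
      rw [Finset.sum_comm]
      refine Finset.sum_le_sum fun p hp => ?_
      have hp' : p.1 + p.2 = m := Finset.HasAntidiagonal.mem_antidiagonal.1 hp
      rw [Finset.sum_add_distrib, Finset.sum_add_distrib]
      have q1 : QQ μ P F n p.2 ≤ B := hB p.2 (by omega)
      have q2 : QQ μ P F n p.1 ≤ B := hB p.1 (by omega)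
      have q3 := W2_le (n := n) h hF0
      unfold QQ at q1 q2
      linarith
    rw [Finset.sum_const, Finset.Nat.card_antidiagonal, nsmul_eq_mul] at s4
    have s5 := Finset.sum_le_sum (s := Finset.range n) (fun j _ => s3 j)
    rw [s2] at s1
    push_cast at s4 ⊢
    nlinarith

end Main

end Vale.Agent.P125.Poly31
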