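import Vale.Agent.P125.BV.Top

set_option linter.unusedSectionVars false
set_option linter.unusedVariables false

/-!
# P125, polynomial rate, step (A): reduction of the maximal function to the quantities `Q`

Matrix form only.  `Tq t r = E |g(Z_t) - g(Z_0)| |F(Z_{t+r}) - F(Z_0)|` satisfies `Tq 0 r = 0` and
`Tq (t+1) r ≤ Tq t (r+1) + Qs r + Mid + Qs t`.
-/

namespace Vale.Agent.P125.Poly49

open scoped BigOperators
open Vale.Agent.P125.Dich Vale.Agent.P125.BV

variable {S : Type} [Fintype S] [DecidableEq S]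

section scalar

variable (μ : S → ℝ) (P : Matrix S S ℝ) (g F : S → ℝ)

/-- `E |g(Z_t) - g(Z_0)| |F(Z_{t+r}) - F(Z_0)|` -/
def Tq (t r : ℕ) : ℝ :=
  ∑ a, ∑ c, ∑ d, μ a * (P ^ t) a c * (P ^ r) c d * (|g c - g a| * |F d - F a|)

/-- `E |g(Z_0) - g(Z_{-1})| |F(Z_r) - F(Z_0)|` -/
def Qs (r : ℕ) : ℝ :=
  ∑ c, μ c * (∑ b, P c b * |g b - g c|) * (∑ d, (P ^ r) c d * |F d - F c|)

/-- `E |g(Z_1) - g(Z_0)| |F(Z_1) - F(Z_0)|` -/
def Mid : ℝ := ∑ b, ∑ c, μ b * P b c * (|g c - g b| * |F c - F b|)

lemma stat (K : Matrix S S ℝ) (hK : IsChain μ K) (b : S) : ∑ a, μ a * K a b = μ b := by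
  have h : ∀ a, μ a * K a b = μ b * K b a := fun a => hK.2.2.2.2 a b
  simp only [h]
  rw [← Finset.mul_sum, hK.2.2.2.1 b, mul_one]

lemma Tq_zero (r : ℕ) : Tq μ P g F 0 r = 0 := by
  unfold Tq
  refine Finset.sum_eq_zero fun a _ => Finset.sum_eq_zero fun c _ =>
    Finset.sum_eq_zero fun d _ => ?_
  rw [pow_zero, Matrix.one_apply]
  split_ifs with h
  · subst h
    simp
  · simp

lemma Tq_right_zero (t : ℕ) :
    Tq μ P g F t 0 = ∑ a, ∑ c, μ a * (P ^ t) a c * (|g c - g a| * |F c - F a|) := by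
  unfold Tq
  refine Finset.sum_congr rfl fun a _ => Finset.sum_congr rfl fun c _ => ?_
  rw [Finset.sum_eq_single c]
  · rw [pow_zero, Matrix.one_apply_eq]
    ring
  · intro d _ hd
    rw [pow_zero, Matrix.one_apply_ne (Ne.symm hd)]
    ring
  · intro h
    exact absurd (Finset.mem_univ _) h

/-- the four point sum -/
def S4 (K R : Matrix S S ℝ) (w : S → S → S → S → ℝ) : ℝ :=
  ∑ a, ∑ b, ∑ c, ∑ d, μ a * K a b * P b c * R c d * w a b c d

lemma S4_mono (K R : Matrix S S ℝ) (hP : IsChain μ P) (hK : IsChain μ K) (hR : IsChain μ R)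
    (w w' : S → S → S → S → ℝ) (h : ∀ a b c d, w a b c d ≤ w' a b c d) :
    S4 μ P K R w ≤ S4 μ P K R w' := by
  unfold S4
  refine Finset.sum_le_sum fun a _ => Finset.sum_le_sum fun b _ => Finset.sum_le_sum fun c _ =>
    Finset.sum_le_sum fun d _ => ?_
  refine mul_le_mul_of_nonneg_left (h a b c d) ?_
  exact mul_nonneg (mul_nonneg (mul_nonneg (hP.1 a) (hK.2.2.1 a b)) (hP.2.2.1 b c))
    (hR.2.2.1 c d)

lemma S4_add (K R : Matrix S S ℝ) (w w' : S → S → S → S → ℝ) :
    S4 μ P K R (fun a b c d => w a b c d + w' a b c d) = S4 μ P K R w + S4 μ P K R w' := by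
  unfold S4
  simp only [mul_add, Finset.sum_add_distrib]

lemma Tq_succ_eq (t r : ℕ) :
    Tq μ P g F (t + 1) r
      = S4 μ P (P ^ t) (P ^ r) (fun a b c d => |g c - g a| * |F d - F a|) := by
  unfold Tq S4
  refine Finset.sum_congr rfl fun a _ => ?_
  conv_rhs => rw [Finset.sum_comm]
  refine Finset.sum_congr rfl fun c _ => ?_
  conv_rhs => rw [Finset.sum_comm]
  refine Finset.sum_congr rfl fun d _ => ?_
  rw [pow_succ, Matrix.mul_apply, Finset.mul_sum, Finset.sum_mul, Finset.sum_mul]
  refine Finset.sum_congr rfl fun b _ => ?_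
  ring

lemma S4_w1 (t r : ℕ) :
    S4 μ P (P ^ t) (P ^ r) (fun a b c d => |g b - g a| * |F d - F a|) = Tq μ P g F t (r + 1) := by
  unfold Tq S4
  refine Finset.sum_congr rfl fun a _ => Finset.sum_congr rfl fun b _ => ?_
  rw [Finset.sum_comm]
  refine Finset.sum_congr rfl fun d _ => ?_
  rw [pow_succ', Matrix.mul_apply, Finset.mul_sum, Finset.sum_mul]
  refine Finset.sum_congr rfl fun c _ => ?_
  ring

lemma S4_drop_a (K R : Matrix S S ℝ) (hK : IsChain μ K) (w : S → S → S → ℝ) :
    S4 μ P K R (fun _ b c d => w b c d) = ∑ b, ∑ c, ∑ d, μ b * P b c * R c d * w b c d := by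
  unfold S4
  rw [Finset.sum_comm]
  refine Finset.sum_congr rfl fun b _ => ?_
  have h : ∀ a, ∑ c, ∑ d, μ a * K a b * P b c * R c d * w b c d
      = (μ a * K a b) * ∑ c, ∑ d, P b c * R c d * w b c d := by
    intro a
    rw [Finset.mul_sum]
    refine Finset.sum_congr rfl fun c _ => ?_
    rw [Finset.mul_sum]
    refine Finset.sum_congr rfl fun d _ => ?_
    ring
  simp only [h]
  rw [← Finset.sum_mul, stat μ K hK b, Finset.mul_sum]
  refine Finset.sum_congr rfl fun c _ => ?_
  rw [Finset.mul_sum]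
  refine Finset.sum_congr rfl fun d _ => ?_
  ring

lemma S4_w2 (hP : IsChain μ P) (K : Matrix S S ℝ) (hK : IsChain μ K) (r : ℕ) :
    S4 μ P K (P ^ r) (fun a b c d => |g c - g b| * |F d - F c|) = Qs μ P g F r := by
  rw [S4_drop_a μ P K (P ^ r) hK (fun b c d => |g c - g b| * |F d - F c|)]
  unfold Qs
  rw [Finset.sum_comm]
  refine Finset.sum_congr rfl fun c _ => ?_
  rw [mul_assoc, Finset.sum_mul_sum, Finset.mul_sum]
  refine Finset.sum_congr rfl fun b _ => ?_
  rw [Finset.mul_sum]
  refine Finset.sum_congr rfl fun d _ => ?_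
  have h1 := hP.2.2.2.2 b c
  rw [abs_sub_comm (g b) (g c)]
  calc μ b * P b c * (P ^ r) c d * (|g c - g b| * |F d - F c|)
      = (μ b * P b c) * ((P ^ r) c d * (|g c - g b| * |F d - F c|)) := by ring
    _ = (μ c * P c b) * ((P ^ r) c d * (|g c - g b| * |F d - F c|)) := by rw [h1]
    _ = μ c * ((P c b * |g c - g b|) * ((P ^ r) c d * |F d - F c|)) := by ring

lemma S4_w3 (K R : Matrix S S ℝ) (hK : IsChain μ K) (hR : IsChain μ R) :
    S4 μ P K R (fun a b c d => |g c - g b| * |F c - F b|) = Mid μ P g F := by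
  rw [S4_drop_a μ P K R hK (fun b c d => |g c - g b| * |F c - F b|)]
  unfold Mid
  refine Finset.sum_congr rfl fun b _ => Finset.sum_congr rfl fun c _ => ?_
  have h : ∀ d, μ b * P b c * R c d * (|g c - g b| * |F c - F b|)
      = (μ b * P b c * (|g c - g b| * |F c - F b|)) * R c d := by
    intro d
    ring
  simp only [h]
  rw [← Finset.mul_sum, hR.2.2.2.1 c, mul_one]

lemma S4_w4 (R : Matrix S S ℝ) (hR : IsChain μ R) (t : ℕ) (hK : IsChain μ (P ^ t)) :
    S4 μ P (P ^ t) R (fun a b c d => |g c - g b| * |F b - F a|) = Qs μ P g F t := by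
  unfold S4 Qs
  rw [Finset.sum_comm]
  refine Finset.sum_congr rfl fun b _ => ?_
  rw [Finset.mul_sum]
  refine Finset.sum_congr rfl fun a _ => ?_
  rw [Finset.mul_sum, Finset.sum_mul]
  refine Finset.sum_congr rfl fun c _ => ?_
  have h : ∀ d, μ a * (P ^ t) a b * P b c * R c d * (|g c - g b| * |F b - F a|)
      = (μ a * (P ^ t) a b * P b c * (|g c - g b| * |F b - F a|)) * R c d := by
    intro d
    ring
  simp only [h]
  rw [← Finset.mul_sum, hR.2.2.2.1 c, mul_one]
  have h1 := hK.2.2.2.2 a b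
  rw [abs_sub_comm (F a) (F b)]
  calc μ a * (P ^ t) a b * P b c * (|g c - g b| * |F b - F a|)
      = (μ a * (P ^ t) a b) * (P b c * (|g c - g b| * |F b - F a|)) := by ring
    _ = (μ b * (P ^ t) b a) * (P b c * (|g c - g b| * |F b - F a|)) := by rw [h1]
    _ = μ b * (P b c * |g c - g b|) * ((P ^ t) b a * |F b - F a|) := by ring

lemma Tq_succ (hP : IsChain μ P) (t r : ℕ) :
    Tq μ P g F (t + 1) r
      ≤ Tq μ P g F t (r + 1) + Qs μ P g F r + Mid μ P g F + Qs μ P g F t := by
  have hK := isChain_pow hP t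
  have hR := isChain_pow hP r
  rw [Tq_succ_eq]
  have hpt : ∀ a b c d : S, |g c - g a| * |F d - F a| ≤
      ((|g b - g a| * |F d - F a| + |g c - g b| * |F d - F c|) + |g c - g b| * |F c - F b|)
        + |g c - g b| * |F b - F a| := by
    intro a b c d
    have h1 : |g c - g a| ≤ |g b - g a| + |g c - g b| := by
      have := abs_add_le (g b - g a) (g c - g b)
      have e : g b - g a + (g c - g b) = g c - g a := by ring
      rwa [e] at this
    have h2 : |F d - F a| ≤ |F d - F c| + |F c - F b| + |F b - F a| := by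
      have h3 := abs_add_le (F d - F c) (F c - F b)
      have h4 := abs_add_le (F d - F c + (F c - F b)) (F b - F a)
      have e : F d - F c + (F c - F b) + (F b - F a) = F d - F a := by ring
      rw [e] at h4
      linarith
    have p1 := abs_nonneg (F d - F a)
    have p2 := abs_nonneg (g c - g b)
    calc |g c - g a| * |F d - F a| ≤ (|g b - g a| + |g c - g b|) * |F d - F a| :=
          mul_le_mul_of_nonneg_right h1 p1
      _ = |g b - g a| * |F d - F a| + |g c - g b| * |F d - F a| := by ring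
      _ ≤ |g b - g a| * |F d - F a| + |g c - g b| * (|F d - F c| + |F c - F b| + |F b - F a|) := by
          have := mul_le_mul_of_nonneg_left h2 p2
          linarith
      _ = _ := by ring
  refine (S4_mono μ P (P ^ t) (P ^ r) hP hK hR _ _ hpt).trans ?_
  rw [S4_add, S4_add, S4_add, S4_w1, S4_w2 μ P g F hP (P ^ t) hK r,
    S4_w3 μ P g F (P ^ t) (P ^ r) hK hR, S4_w4 μ P g F (P ^ r) hR t hK]

lemma Tq_bound (hP : IsChain μ P) (t : ℕ) : ∀ r, Tq μ P g F t r ≤
    ∑ k ∈ Finset.range t, (Qs μ P g F (r + (t - 1 - k)) + Mid μ P g F + Qs μ P g F k) := by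
  induction t with
  | zero =>
    intro r
    rw [Tq_zero]
    simp
  | succ t ih =>
    intro r
    refine (Tq_succ μ P g F hP t r).trans ?_
    rw [Finset.sum_range_succ]
    have h1 := ih (r + 1)
    have h2 : ∑ k ∈ Finset.range t,
        (Qs μ P g F (r + 1 + (t - 1 - k)) + Mid μ P g F + Qs μ P g F k)
        = ∑ k ∈ Finset.range t,
        (Qs μ P g F (r + (t + 1 - 1 - k)) + Mid μ P g F + Qs μ P g F k) := by
      refine Finset.sum_congr rfl fun k hk => ?_
      have hk' := Finset.mem_range.1 hk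
      have e : r + 1 + (t - 1 - k) = r + (t + 1 - 1 - k) := by omega
      rw [e]
    rw [h2] at h1
    have e : r + (t + 1 - 1 - t) = r := by omega
    rw [e]
    linarith

end scalar

section vector

variable {n : ℕ}

lemma pre_succ (v : Fin n → ℝ) (i : Fin n) : pre v (i.val + 1) = pre v i.val + v i := by
  unfold pre
  have h : ∀ j : Fin n, (if j.val < i.val + 1 then v j else 0)
      = (if j.val < i.val then v j else 0) + (if j = i then v j else 0) := by
    intro j
    by_cases h1 : j.val < i.val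
    · have h2 : j.val < i.val + 1 := by omega
      have h3 : j ≠ i := by
        intro h
        rw [h] at h1
        omega
      simp [h1, h2, h3]
    · by_cases h3 : j = i
      · subst h3
        simp
      · have h4 : j.val ≠ i.val := fun h => h3 (Fin.ext h)
        have h2 : ¬ j.val < i.val + 1 := by omega
        simp [h1, h2, h3]
  simp only [h]
  rw [Finset.sum_add_distrib, Finset.sum_ite_eq' Finset.univ i]
  simp

lemma pre_sq_le (v : Fin n → ℝ) : ∀ k, k ≤ n → pre v k ^ 2 ≤
    2 * ∑ i : Fin n, (if i.val < k then |v i| * |pre v (i.val + 1)| else 0) := by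
  intro k
  induction k with
  | zero =>
    intro _
    simp [pre]
  | succ k ih =>
    intro hk
    have hk' : k < n := hk
    have h1 := ih (by omega)
    have h2 := pre_succ v ⟨k, hk'⟩
    simp only at h2
    have h : ∀ j : Fin n, (if j.val < k + 1 then |v j| * |pre v (j.val + 1)| else 0)
        = (if j.val < k then |v j| * |pre v (j.val + 1)| else 0)
          + (if j = ⟨k, hk'⟩ then |v j| * |pre v (j.val + 1)| else 0) := by
      intro j
      by_cases h1 : j.val < k
      · have h2 : j.val < k + 1 := by omega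
        have h3 : j ≠ ⟨k, hk'⟩ := by
          intro h
          rw [h] at h1
          simp at h1
        simp [h1, h2, h3]
      · by_cases h3 : j = ⟨k, hk'⟩
        · subst h3
          simp
        · have h4 : j.val ≠ k := fun h => h3 (Fin.ext h)
          have h2 : ¬ j.val < k + 1 := by omega
          simp [h1, h2, h3]
    simp only [h]
    rw [Finset.sum_add_distrib, Finset.sum_ite_eq' Finset.univ (⟨k, hk'⟩ : Fin n)]
    simp only [Finset.mem_univ, if_true]
    set x := pre v k with hx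
    set y := v ⟨k, hk'⟩ with hy
    rw [h2]
    have h3 : y * (x + y) ≤ |y| * |x + y| := by
      rw [← abs_mul]
      exact le_abs_self _
    nlinarith [sq_nonneg y]

lemma own (v : Fin n → ℝ) :
    supJ n (pre v) ^ 2 ≤ 2 * ∑ i : Fin n, |v i| * |pre v (i.val + 1)| := by
  obtain ⟨k, hk, he⟩ := Finset.exists_mem_eq_sup' (s := Finset.range (n + 1)) ⟨0, by simp⟩
    (fun k => |pre v k|)
  have hk' : k ≤ n := by
    have := Finset.mem_range.1 hk
    omega
  have e : supJ n (pre v) = |pre v k| := he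
  rw [e, sq_abs]
  refine (pre_sq_le v k hk').trans ?_
  refine mul_le_mul_of_nonneg_left ?_ (by norm_num)
  refine Finset.sum_le_sum fun i _ => ?_
  split_ifs
  · exact le_rfl
  · positivity

lemma pre_sub (u v : Fin n → ℝ) (k : ℕ) : pre (u - v) k = pre u k - pre v k := by
  have h : u - v = u + (-v) := sub_eq_add_neg u v
  rw [h, pre_add, pre_neg]
  simp [sub_eq_add_neg]

variable (μ : S → ℝ) (P : Matrix S S ℝ) (f : S → Fin n → ℝ)

/-- the quantity `Q(r)` -/
def QA (r : ℕ) : ℝ :=
  ∑ i : Fin n, Qs μ P (fun x => f x i) (fun x => pre (f x) (i.val + 1)) r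

/-- the energy of one step -/
def WA : ℝ := ∑ x, ∑ y, μ x * P x y * n1 (f y - f x) ^ 2

lemma sum_Mid_le (hP : IsChain μ P) :
    ∑ i : Fin n, Mid μ P (fun x => f x i) (fun x => pre (f x) (i.val + 1)) ≤ WA μ P f := by
  unfold Mid WA
  rw [Finset.sum_comm]
  refine Finset.sum_le_sum fun b _ => ?_
  rw [Finset.sum_comm]
  refine Finset.sum_le_sum fun c _ => ?_
  rw [← Finset.mul_sum]
  refine mul_le_mul_of_nonneg_left ?_ (mul_nonneg (hP.1 b) (hP.2.2.1 b c))
  have h1 : ∀ i : Fin n, |f c i - f b i| * |pre (f c) (i.val + 1) - pre (f b) (i.val + 1)|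
      ≤ |(f c - f b) i| * n1 (f c - f b) := by
    intro i
    rw [← pre_sub]
    exact mul_le_mul_of_nonneg_left (abs_pre_le _ _) (abs_nonneg _)
  refine (Finset.sum_le_sum fun i _ => h1 i).trans ?_
  rw [← Finset.sum_mul]
  have : ∑ i : Fin n, |(f c - f b) i| = n1 (f c - f b) := rfl
  rw [this, sq]

/-- step (A) -/
theorem stepA (hP : IsChain μ P) (t : ℕ) :
    ∑ x, ∑ y, μ x * (P ^ t) x y * supJ n (pre (f y - f x)) ^ 2 ≤
      2 * (t : ℝ) * WA μ P f
        + 2 * ∑ k ∈ Finset.range t, (QA μ P f (t - 1 - k) + QA μ P f k) := by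
  have hK := isChain_pow hP t
  have h1 : ∑ x, ∑ y, μ x * (P ^ t) x y * supJ n (pre (f y - f x)) ^ 2 ≤
      2 * ∑ i : Fin n, Tq μ P (fun x => f x i) (fun x => pre (f x) (i.val + 1)) t 0 := by
    simp only [Tq_right_zero]
    have e : ∑ i : Fin n, ∑ a, ∑ c, μ a * (P ^ t) a c *
        (|f c i - f a i| * |pre (f c) (i.val + 1) - pre (f a) (i.val + 1)|)
        = ∑ a, ∑ c, μ a * (P ^ t) a c * ∑ i : Fin n,
        (|f c i - f a i| * |pre (f c) (i.val + 1) - pre (f a) (i.val + 1)|) := by
      rw [Finset.sum_comm]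
      refine Finset.sum_congr rfl fun a _ => ?_
      rw [Finset.sum_comm]
      refine Finset.sum_congr rfl fun c _ => ?_
      rw [Finset.mul_sum]
    rw [e, Finset.mul_sum]
    refine Finset.sum_le_sum fun x _ => ?_
    rw [Finset.mul_sum]
    refine Finset.sum_le_sum fun y _ => ?_
    have h2 := own (f y - f x)
    have h3 : ∑ i : Fin n, |(f y - f x) i| * |pre (f y - f x) (i.val + 1)|
        = ∑ i : Fin n, |f y i - f x i| * |pre (f y) (i.val + 1) - pre (f x) (i.val + 1)| := by
      refine Finset.sum_congr rfl fun i _ => ?_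
      rw [pre_sub]
      rfl
    rw [h3] at h2
    have h4 := mul_le_mul_of_nonneg_left h2 (mul_nonneg (hP.1 x) (hK.2.2.1 x y))
    linarith
  refine h1.trans ?_
  have h2 : ∀ i : Fin n, Tq μ P (fun x => f x i) (fun x => pre (f x) (i.val + 1)) t 0 ≤
      ∑ k ∈ Finset.range t, (Qs μ P (fun x => f x i) (fun x => pre (f x) (i.val + 1)) (t - 1 - k)
        + Mid μ P (fun x => f x i) (fun x => pre (f x) (i.val + 1))
        + Qs μ P (fun x => f x i) (fun x => pre (f x) (i.val + 1)) k) := by
    intro i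
    have := Tq_bound μ P (fun x => f x i) (fun x => pre (f x) (i.val + 1)) hP t 0
    simpa using this
  have h3 : ∑ i : Fin n, Tq μ P (fun x => f x i) (fun x => pre (f x) (i.val + 1)) t 0 ≤
      ∑ i : Fin n, ∑ k ∈ Finset.range t,
        (Qs μ P (fun x => f x i) (fun x => pre (f x) (i.val + 1)) (t - 1 - k)
        + Mid μ P (fun x => f x i) (fun x => pre (f x) (i.val + 1))
        + Qs μ P (fun x => f x i) (fun x => pre (f x) (i.val + 1)) k) :=
    Finset.sum_le_sum fun i _ => h2 i
  rw [Finset.sum_comm] at h3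
  have h4 : ∑ k ∈ Finset.range t, ∑ i : Fin n,
      (Qs μ P (fun x => f x i) (fun x => pre (f x) (i.val + 1)) (t - 1 - k)
        + Mid μ P (fun x => f x i) (fun x => pre (f x) (i.val + 1))
        + Qs μ P (fun x => f x i) (fun x => pre (f x) (i.val + 1)) k)
      = ∑ k ∈ Finset.range t, (QA μ P f (t - 1 - k) + QA μ P f k)
        + (t : ℝ) * ∑ i : Fin n, Mid μ P (fun x => f x i) (fun x => pre (f x) (i.val + 1)) := by
    simp only [Finset.sum_add_distrib, QA, Finset.sum_const, Finset.card_range, nsmul_eq_mul]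
    ring
  rw [h4] at h3
  have h5 := sum_Mid_le μ P f hP
  have h6 : (t : ℝ) * ∑ i : Fin n, Mid μ P (fun x => f x i) (fun x => pre (f x) (i.val + 1))
      ≤ (t : ℝ) * WA μ P f := mul_le_mul_of_nonneg_left h5 (Nat.cast_nonneg t)
  linarith

end vector

end Vale.Agent.P125.Poly49
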