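import Vale.Agent.P125.BV.Top

set_option linter.unusedSectionVars false
set_option linter.unusedVariables false

/-!
# P125, polynomial rate, step (A) = S1 + S2 (path-free form)

`E max_j |F_j(Z_t) - F_j(Z_0)|^2 ≤ 2 t W + 4 ∑_{r<t} Q r`, where
`Q r = ∑_k ∑_y μ y a_k(y) ∑_z P^r y z |F_{k+1}(z) - F_{k+1}(y)|`.
-/

namespace Vale.Agent.P125.Poly82

open scoped BigOperators
open Vale.Agent.P125.Dich Vale.Agent.P125.BV

/-- own measure inequality for a profile starting at zero -/
lemma sq_le_own (G : ℕ → ℝ) (h0 : G 0 = 0) (j : ℕ) :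
    G j ^ 2 ≤ 2 * ∑ k ∈ Finset.range j, |G (k + 1) - G k| * |G (k + 1)| := by
  induction j with
  | zero => simp [h0]
  | succ j ih =>
    rw [Finset.sum_range_succ]
    have h2 : (G (j + 1) - G j) * G (j + 1) ≤ |G (j + 1) - G j| * |G (j + 1)| := by
      rw [← abs_mul]
      exact le_abs_self _
    nlinarith [sq_nonneg (G (j + 1) - G j)]

lemma pre_succ_sub {n : ℕ} (v : Fin n → ℝ) (i : Fin n) :
    pre v (i.val + 1) - pre v i.val = v i := by
  unfold pre
  rw [← Finset.sum_sub_distrib, Finset.sum_eq_single i]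
  · simp
  · intro j _ hj
    have hj' : j.val ≠ i.val := fun h => hj (Fin.ext h)
    by_cases h1 : j.val < i.val
    · have h2 : j.val < i.val + 1 := by omega
      simp [h1, h2]
    · have h2 : ¬ j.val < i.val + 1 := by omega
      simp [h1, h2]
  · intro h
    exact absurd (Finset.mem_univ _) h

lemma pre_sub {n : ℕ} (v w : Fin n → ℝ) (k : ℕ) : pre (v - w) k = pre v k - pre w k := by
  unfold pre
  rw [← Finset.sum_sub_distrib]
  refine Finset.sum_congr rfl fun i _ => ?_
  split_ifs <;> simp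

/-- the pointwise inequality of step 1 -/
lemma supJ_sq_le {n : ℕ} (v : Fin n → ℝ) :
    supJ n (pre v) ^ 2 ≤ 2 * ∑ k : Fin n, |v k| * |pre v (k.val + 1)| := by
  obtain ⟨j, hj, hs⟩ := Finset.exists_mem_eq_sup' (s := Finset.range (n + 1)) ⟨0, by simp⟩
    (fun k => |pre v k|)
  have hs' : supJ n (pre v) = |pre v j| := hs
  rw [hs', sq_abs]
  have h0 : pre v 0 = 0 := by simp [pre]
  refine (sq_le_own (pre v) h0 j).trans ?_
  have hjn : j ≤ n := by
    have := Finset.mem_range.1 hj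
    omega
  have hsub : ∑ k ∈ Finset.range j, |pre v (k + 1) - pre v k| * |pre v (k + 1)| ≤
      ∑ k ∈ Finset.range n, |pre v (k + 1) - pre v k| * |pre v (k + 1)| :=
    Finset.sum_le_sum_of_subset_of_nonneg (Finset.range_subset_range.2 hjn)
      (fun _ _ _ => mul_nonneg (abs_nonneg _) (abs_nonneg _))
  have he : ∑ k ∈ Finset.range n, |pre v (k + 1) - pre v k| * |pre v (k + 1)| =
      ∑ k : Fin n, |v k| * |pre v (k.val + 1)| := by
    rw [Finset.sum_range]
    refine Finset.sum_congr rfl fun i _ => ?_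
    rw [pre_succ_sub]
  linarith

section Scalar

variable {S : Type} [Fintype S] [DecidableEq S]

/-- stationarity from reversibility -/
lemma stat {μ : S → ℝ} {R : Matrix S S ℝ} (hc : IsChain μ R) (c : S) :
    ∑ a, μ a * R a c = μ c := by
  obtain ⟨h1, h2, h3, h4, h5⟩ := hc
  calc ∑ a, μ a * R a c = ∑ a, μ c * R c a := Finset.sum_congr rfl fun a _ => h5 a c
    _ = μ c := by rw [← Finset.mul_sum, h4 c, mul_one]

/-- mean displacement of `F` after `r` steps -/
def Dd (P : Matrix S S ℝ) (F : S → ℝ) (r : ℕ) (y : S) : ℝ := ∑ z, (P ^ r) y z * |F z - F y|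

/-- mean one step displacement of `g` -/
def ag (P : Matrix S S ℝ) (g : S → ℝ) (y : S) : ℝ := ∑ b, P y b * |g b - g y|

def qq (μ : S → ℝ) (P : Matrix S S ℝ) (g F : S → ℝ) (r : ℕ) : ℝ :=
  ∑ y, μ y * ag P g y * Dd P F r y

def ww (μ : S → ℝ) (P : Matrix S S ℝ) (g F : S → ℝ) : ℝ :=
  ∑ a, ∑ b, μ a * P a b * (|g b - g a| * |F b - F a|)

def HF (P : Matrix S S ℝ) (F : S → ℝ) (j : ℕ) (a c : S) : ℝ := ∑ d, (P ^ j) c d * |F d - F a|

def LL (μ : S → ℝ) (P : Matrix S S ℝ) (g : S → ℝ) (t : ℕ) (H : S → S → ℝ) : ℝ :=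
  ∑ a, ∑ d, μ a * (P ^ t) a d * (|g d - g a| * H a d)

def MM (μ : S → ℝ) (P : Matrix S S ℝ) (g : S → ℝ) (t : ℕ) (H : S → S → ℝ) : ℝ :=
  ∑ a, ∑ c, ∑ d, μ a * (P ^ t) a c * P c d * (|g d - g c| * H a d)

lemma peel {μ : S → ℝ} {P : Matrix S S ℝ} (hc : IsChain μ P) (g : S → ℝ) (t : ℕ)
    (H : S → S → ℝ) (hH : ∀ a d, 0 ≤ H a d) :
    LL μ P g (t + 1) H ≤ MM μ P g t H + LL μ P g t (fun a c => ∑ d, P c d * H a d) := by
  have hct := isChain_pow hc t
  calc LL μ P g (t + 1) H
      = ∑ a, ∑ c, ∑ d, μ a * (P ^ t) a c * P c d * (|g d - g a| * H a d) := by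
        unfold LL
        refine Finset.sum_congr rfl fun a _ => ?_
        rw [Finset.sum_comm]
        refine Finset.sum_congr rfl fun d _ => ?_
        rw [pow_succ, Matrix.mul_apply, Finset.mul_sum, Finset.sum_mul]
        refine Finset.sum_congr rfl fun c _ => ?_
        ring
    _ ≤ ∑ a, ∑ c, ∑ d, (μ a * (P ^ t) a c * P c d * (|g d - g c| * H a d) +
          μ a * (P ^ t) a c * (|g c - g a| * (P c d * H a d))) := by
        refine Finset.sum_le_sum fun a _ => Finset.sum_le_sum fun c _ =>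
          Finset.sum_le_sum fun d _ => ?_
        have h1 : |g d - g a| ≤ |g d - g c| + |g c - g a| := abs_sub_le _ _ _
        have h2 : 0 ≤ μ a * (P ^ t) a c * P c d * H a d :=
          mul_nonneg (mul_nonneg (mul_nonneg (hc.1 a) (hct.2.2.1 a c)) (hc.2.2.1 c d)) (hH a d)
        nlinarith
    _ = MM μ P g t H + LL μ P g t (fun a c => ∑ d, P c d * H a d) := by
        unfold MM LL
        simp only [Finset.sum_add_distrib, Finset.mul_sum]

lemma HF_nonneg {μ : S → ℝ} {P : Matrix S S ℝ} (hc : IsChain μ P) (F : S → ℝ) (j : ℕ) (a c : S) :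
    0 ≤ HF P F j a c :=
  Finset.sum_nonneg fun d _ => mul_nonneg ((isChain_pow hc j).2.2.1 c d) (abs_nonneg _)

lemma HF_succ (P : Matrix S S ℝ) (F : S → ℝ) (j : ℕ) :
    (fun a c => ∑ d, P c d * HF P F j a d) = HF P F (j + 1) := by
  funext a c
  unfold HF
  simp only [Finset.mul_sum]
  rw [Finset.sum_comm]
  refine Finset.sum_congr rfl fun e _ => ?_
  rw [pow_succ', Matrix.mul_apply, Finset.sum_mul]
  refine Finset.sum_congr rfl fun d _ => ?_
  ring

lemma HF_le {μ : S → ℝ} {P : Matrix S S ℝ} (hc : IsChain μ P) (F : S → ℝ) (j : ℕ) (a c d : S) :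
    HF P F j a d ≤ Dd P F j d + |F d - F c| + |F c - F a| := by
  have hcj := isChain_pow hc j
  have h1 : ∑ e, (P ^ j) d e * (|F e - F d| + (|F d - F c| + |F c - F a|)) =
      Dd P F j d + |F d - F c| + |F c - F a| := by
    simp only [mul_add, Finset.sum_add_distrib, ← Finset.sum_mul, hcj.2.2.2.1 d, one_mul]
    unfold Dd
    ring
  rw [← h1]
  unfold HF
  refine Finset.sum_le_sum fun e _ => mul_le_mul_of_nonneg_left ?_ (hcj.2.2.1 d e)
  have h2 : |F e - F a| ≤ |F e - F d| + |F d - F a| := abs_sub_le _ _ _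
  have h3 : |F d - F a| ≤ |F d - F c| + |F c - F a| := abs_sub_le _ _ _
  linarith

lemma MM_le {μ : S → ℝ} {P : Matrix S S ℝ} (hc : IsChain μ P) (g F : S → ℝ) (t j : ℕ) :
    MM μ P g t (HF P F j) ≤ qq μ P g F j + ww μ P g F + qq μ P g F t := by
  have hct := isChain_pow hc t
  have T1 : ∑ a, ∑ c, ∑ d, μ a * (P ^ t) a c * P c d * (|g d - g c| * Dd P F j d) =
      qq μ P g F j := by
    calc ∑ a, ∑ c, ∑ d, μ a * (P ^ t) a c * P c d * (|g d - g c| * Dd P F j d)
        = ∑ c, ∑ d, (∑ a, μ a * (P ^ t) a c) * (P c d * (|g d - g c| * Dd P F j d)) := by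
          rw [Finset.sum_comm]
          refine Finset.sum_congr rfl fun c _ => ?_
          rw [Finset.sum_comm]
          refine Finset.sum_congr rfl fun d _ => ?_
          rw [Finset.sum_mul]
          refine Finset.sum_congr rfl fun a _ => ?_
          ring
      _ = ∑ c, ∑ d, (μ d * P d c) * (|g c - g d| * Dd P F j d) := by
          refine Finset.sum_congr rfl fun c _ => Finset.sum_congr rfl fun d _ => ?_
          rw [stat hct c, ← hc.2.2.2.2 c d, abs_sub_comm (g c) (g d)]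
          ring
      _ = qq μ P g F j := by
          rw [Finset.sum_comm]
          unfold qq ag
          refine Finset.sum_congr rfl fun d _ => ?_
          rw [Finset.mul_sum, Finset.sum_mul]
          refine Finset.sum_congr rfl fun c _ => ?_
          ring
  have T2 : ∑ a, ∑ c, ∑ d, μ a * (P ^ t) a c * P c d * (|g d - g c| * |F d - F c|) =
      ww μ P g F := by
    calc ∑ a, ∑ c, ∑ d, μ a * (P ^ t) a c * P c d * (|g d - g c| * |F d - F c|)
        = ∑ c, ∑ d, (∑ a, μ a * (P ^ t) a c) * (P c d * (|g d - g c| * |F d - F c|)) := by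
          rw [Finset.sum_comm]
          refine Finset.sum_congr rfl fun c _ => ?_
          rw [Finset.sum_comm]
          refine Finset.sum_congr rfl fun d _ => ?_
          rw [Finset.sum_mul]
          refine Finset.sum_congr rfl fun a _ => ?_
          ring
      _ = ww μ P g F := by
          unfold ww
          refine Finset.sum_congr rfl fun c _ => Finset.sum_congr rfl fun d _ => ?_
          rw [stat hct c]
          ring
  have T3 : ∑ a, ∑ c, ∑ d, μ a * (P ^ t) a c * P c d * (|g d - g c| * |F c - F a|) =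
      qq μ P g F t := by
    calc ∑ a, ∑ c, ∑ d, μ a * (P ^ t) a c * P c d * (|g d - g c| * |F c - F a|)
        = ∑ a, ∑ c, (μ c * (P ^ t) c a) * (ag P g c * |F a - F c|) := by
          refine Finset.sum_congr rfl fun a _ => Finset.sum_congr rfl fun c _ => ?_
          rw [← hct.2.2.2.2 a c, abs_sub_comm (F a) (F c)]
          unfold ag
          rw [Finset.sum_mul, Finset.mul_sum]
          refine Finset.sum_congr rfl fun d _ => ?_
          ring
      _ = qq μ P g F t := by
          rw [Finset.sum_comm]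
          unfold qq Dd
          refine Finset.sum_congr rfl fun c _ => ?_
          rw [Finset.mul_sum]
          refine Finset.sum_congr rfl fun a _ => ?_
          ring
  rw [← T1, ← T2, ← T3]
  unfold MM
  simp only [← Finset.sum_add_distrib]
  refine Finset.sum_le_sum fun a _ => Finset.sum_le_sum fun c _ =>
    Finset.sum_le_sum fun d _ => ?_
  have h1 := HF_le hc F j a c d
  have h2 : 0 ≤ μ a * (P ^ t) a c * P c d * |g d - g c| :=
    mul_nonneg (mul_nonneg (mul_nonneg (hc.1 a) (hct.2.2.1 a c)) (hc.2.2.1 c d)) (abs_nonneg _)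
  nlinarith

lemma LL_le {μ : S → ℝ} {P : Matrix S S ℝ} (hc : IsChain μ P) (g F : S → ℝ) (t : ℕ) :
    ∀ j, LL μ P g t (HF P F j) ≤
      ∑ k ∈ Finset.range t, qq μ P g F (j + k) + t * ww μ P g F +
        ∑ k ∈ Finset.range t, qq μ P g F k := by
  induction t with
  | zero =>
    intro j
    unfold LL
    simp [Matrix.one_apply]
  | succ t ih =>
    intro j
    have h1 := peel hc g t (HF P F j) (HF_nonneg hc F j)
    rw [HF_succ] at h1
    have h2 := MM_le hc g F t j
    have h3 := ih (j + 1)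
    rw [Finset.sum_range_succ' (fun k => qq μ P g F (j + k)), Finset.sum_range_succ]
    have e : ∀ k, j + 1 + k = j + (k + 1) := fun k => by omega
    simp only [e] at h3
    push_cast
    simp only [add_zero]
    linarith

lemma HF_zero (P : Matrix S S ℝ) (F : S → ℝ) (a c : S) : HF P F 0 a c = |F c - F a| := by
  unfold HF
  simp [Matrix.one_apply]

/-- the scalar form of step (A) -/
lemma scalarA {μ : S → ℝ} {P : Matrix S S ℝ} (hc : IsChain μ P) (g F : S → ℝ) (t : ℕ) :
    ∑ a, ∑ d, μ a * (P ^ t) a d * (|g d - g a| * |F d - F a|) ≤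
      t * ww μ P g F + 2 * ∑ k ∈ Finset.range t, qq μ P g F k := by
  have h := LL_le hc g F t 0
  unfold LL at h
  simp only [HF_zero, zero_add] at h
  linarith

end Scalar

section Main

variable {S : Type} [Fintype S] [DecidableEq S]

/-- the one step `ℓ_1` energy -/
def W {n : ℕ} (μ : S → ℝ) (P : Matrix S S ℝ) (f : S → Fin n → ℝ) : ℝ :=
  ∑ a, ∑ b, μ a * P a b * n1 (f b - f a) ^ 2

/-- mean one step displacement of the coordinate `k` -/
def aK {n : ℕ} (P : Matrix S S ℝ) (f : S → Fin n → ℝ) (k : Fin n) (y : S) : ℝ :=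
  ∑ b, P y b * |f b k - f y k|

/-- the selector quantity `Q r` -/
def Q {n : ℕ} (μ : S → ℝ) (P : Matrix S S ℝ) (f : S → Fin n → ℝ) (r : ℕ) : ℝ :=
  ∑ k : Fin n, ∑ y, μ y * aK P f k y * ∑ z, (P ^ r) y z * |pre (f z - f y) (k.val + 1)|

lemma Q_eq {n : ℕ} (μ : S → ℝ) (P : Matrix S S ℝ) (f : S → Fin n → ℝ) (r : ℕ) :
    Q μ P f r = ∑ k : Fin n, qq μ P (fun x => f x k) (fun x => pre (f x) (k.val + 1)) r := by
  unfold Q qq aK ag Dd
  simp only [pre_sub]

lemma sum_ww_le {n : ℕ} {μ : S → ℝ} {P : Matrix S S ℝ} (hc : IsChain μ P) (f : S → Fin n → ℝ) :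
    ∑ k : Fin n, ww μ P (fun x => f x k) (fun x => pre (f x) (k.val + 1)) ≤ W μ P f := by
  unfold ww W
  rw [Finset.sum_comm]
  refine Finset.sum_le_sum fun a _ => ?_
  rw [Finset.sum_comm]
  refine Finset.sum_le_sum fun b _ => ?_
  rw [← Finset.mul_sum]
  refine mul_le_mul_of_nonneg_left ?_ (mul_nonneg (hc.1 a) (hc.2.2.1 a b))
  rw [sq]
  conv_rhs => rw [n1, Finset.sum_mul]
  refine Finset.sum_le_sum fun k _ => ?_
  rw [← pre_sub]
  exact mul_le_mul_of_nonneg_left (abs_pre_le _ _) (abs_nonneg _)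

/-- **Step (A)**. -/
theorem stepA {n : ℕ} {μ : S → ℝ} {P : Matrix S S ℝ} (hc : IsChain μ P) (f : S → Fin n → ℝ)
    (t : ℕ) :
    ∑ a, ∑ d, μ a * (P ^ t) a d * supJ n (pre (f d - f a)) ^ 2 ≤
      2 * t * W μ P f + 4 * ∑ r ∈ Finset.range t, Q μ P f r := by
  have hct := isChain_pow hc t
  have h1 : ∑ a, ∑ d, μ a * (P ^ t) a d * supJ n (pre (f d - f a)) ^ 2 ≤
      2 * ∑ k : Fin n, ∑ a, ∑ d, μ a * (P ^ t) a d *
        (|f d k - f a k| * |pre (f d) (k.val + 1) - pre (f a) (k.val + 1)|) := by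
    have e : ∑ k : Fin n, ∑ a, ∑ d, μ a * (P ^ t) a d *
        (|f d k - f a k| * |pre (f d) (k.val + 1) - pre (f a) (k.val + 1)|) =
        ∑ a, ∑ d, μ a * (P ^ t) a d *
          ∑ k : Fin n, |(f d - f a) k| * |pre (f d - f a) (k.val + 1)| := by
      rw [Finset.sum_comm]
      refine Finset.sum_congr rfl fun a _ => ?_
      rw [Finset.sum_comm]
      refine Finset.sum_congr rfl fun d _ => ?_
      rw [Finset.mul_sum]
      refine Finset.sum_congr rfl fun k _ => ?_
      rw [pre_sub]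
      rfl
    rw [e, Finset.mul_sum]
    refine Finset.sum_le_sum fun a _ => ?_
    rw [Finset.mul_sum]
    refine Finset.sum_le_sum fun d _ => ?_
    have h2 := supJ_sq_le (f d - f a)
    have h3 : 0 ≤ μ a * (P ^ t) a d := mul_nonneg (hc.1 a) (hct.2.2.1 a d)
    nlinarith
  have h2 : ∑ k : Fin n, ∑ a, ∑ d, μ a * (P ^ t) a d *
        (|f d k - f a k| * |pre (f d) (k.val + 1) - pre (f a) (k.val + 1)|) ≤
      ∑ k : Fin n, (t * ww μ P (fun x => f x k) (fun x => pre (f x) (k.val + 1)) +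
        2 * ∑ r ∈ Finset.range t, qq μ P (fun x => f x k) (fun x => pre (f x) (k.val + 1)) r) :=
    Finset.sum_le_sum fun k _ => scalarA hc (fun x => f x k) (fun x => pre (f x) (k.val + 1)) t
  have h3 : ∑ k : Fin n, (t * ww μ P (fun x => f x k) (fun x => pre (f x) (k.val + 1)) +
        2 * ∑ r ∈ Finset.range t, qq μ P (fun x => f x k) (fun x => pre (f x) (k.val + 1)) r) =
      t * ∑ k : Fin n, ww μ P (fun x => f x k) (fun x => pre (f x) (k.val + 1)) +
        2 * ∑ r ∈ Finset.range t, Q μ P f r := by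
    rw [Finset.sum_add_distrib, ← Finset.mul_sum, ← Finset.mul_sum, Finset.sum_comm]
    simp only [Q_eq]
  have h4 := sum_ww_le hc f
  have h5 : (t : ℝ) * ∑ k : Fin n, ww μ P (fun x => f x k) (fun x => pre (f x) (k.val + 1)) ≤
      t * W μ P f := mul_le_mul_of_nonneg_left h4 (Nat.cast_nonneg t)
  linarith

end Main

end Vale.Agent.P125.Poly82
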