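import Vale.Agent.P125.Dich.Iter
import Vale.Agent.P125.Poly.Own_97

/-!
# P125, polynomial rate: step (A) = Steps 1+2 of board 579 in the path-free form (boards 624, 635)
-/

namespace Vale.Agent.P125.Poly97

open Finset Vale.Agent.P125.Dich

variable {S : Type} [Fintype S] [DecidableEq S]

theorem pow_entry_nonneg (P : Matrix S S ℝ) (hP0 : ∀ i j, 0 ≤ P i j) (t : ℕ) :
    ∀ i j, 0 ≤ (P ^ t) i j := by
  induction t with
  | zero =>
    intro i j
    rw [pow_zero, Matrix.one_apply]
    split_ifs <;> norm_num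
  | succ t ih =>
    intro i j
    rw [pow_succ, Matrix.mul_apply]
    exact sum_nonneg fun k _ => mul_nonneg (ih i k) (hP0 k j)

/-- (A2) path triangle inequality in matrix form -/
theorem path_triangle (P : Matrix S S ℝ) (hP0 : ∀ i j, 0 ≤ P i j)
    (g Φ : S → ℝ) (hΦ : ∀ y, 0 ≤ Φ y) (c : ℝ) (t : ℕ) : ∀ x : S,
    ∑ y, (P ^ t) x y * (Φ y * |g y - c|)
      ≤ |g x - c| * ∑ y, (P ^ t) x y * Φ y
        + ∑ k ∈ range t, ∑ a, ∑ b, (P ^ k) x a * P a b * |g b - g a|
            * ∑ d, (P ^ (t - 1 - k)) b d * Φ d := by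
  induction t with
  | zero =>
    intro x
    simp [Matrix.one_apply]
    linarith [mul_comm (Φ x) |g x - c|]
  | succ t ih =>
    intro x
    -- peel the first step
    have e1 : ∀ (h : S → ℝ), ∑ y, (P ^ (t + 1)) x y * h y = ∑ a, P x a * ∑ y, (P ^ t) a y * h y := by
      intro h
      simp only [pow_succ', Matrix.mul_apply, sum_mul, mul_sum]
      rw [sum_comm]
      apply sum_congr rfl; intro a _
      apply sum_congr rfl; intro y _
      ring
    rw [e1, e1]
    have h1 : ∑ a, P x a * ∑ y, (P ^ t) a y * (Φ y * |g y - c|)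
        ≤ ∑ a, P x a * (|g a - c| * ∑ y, (P ^ t) a y * Φ y
        + ∑ k ∈ range t, ∑ a', ∑ b, (P ^ k) a a' * P a' b * |g b - g a'|
            * ∑ d, (P ^ (t - 1 - k)) b d * Φ d) :=
      sum_le_sum fun a _ => mul_le_mul_of_nonneg_left (ih a) (hP0 x a)
    refine h1.trans ?_
    have hW : ∀ a, 0 ≤ ∑ y, (P ^ t) a y * Φ y := fun a =>
      sum_nonneg fun y _ => mul_nonneg (pow_entry_nonneg P hP0 t a y) (hΦ y)
    rw [sum_range_succ']
    -- the k = 0 term
    have e0 : ∑ a, ∑ b, (P ^ 0) x a * P a b * |g b - g a| * ∑ d, (P ^ (t + 1 - 1 - 0)) b d * Φ d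
        = ∑ b, P x b * (|g b - g x| * ∑ d, (P ^ t) b d * Φ d) := by
      rw [sum_eq_single x]
      · apply sum_congr rfl; intro b _
        simp [Matrix.one_apply]
        ring
      · intro a _ hax
        apply sum_eq_zero; intro b _
        simp [Matrix.one_apply, Ne.symm hax]
      · intro h; exact absurd (mem_univ x) h
    -- the terms k + 1
    have e2 : ∑ k ∈ range t, ∑ a', ∑ b, (P ^ (k + 1)) x a' * P a' b * |g b - g a'|
            * ∑ d, (P ^ (t + 1 - 1 - (k + 1))) b d * Φ d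
        = ∑ a, P x a * ∑ k ∈ range t, ∑ a', ∑ b, (P ^ k) a a' * P a' b * |g b - g a'|
            * ∑ d, (P ^ (t - 1 - k)) b d * Φ d := by
      have hk : ∀ k, ∑ a', ∑ b, (P ^ (k + 1)) x a' * P a' b * |g b - g a'|
            * ∑ d, (P ^ (t + 1 - 1 - (k + 1))) b d * Φ d
          = ∑ a, P x a * ∑ a', ∑ b, (P ^ k) a a' * P a' b * |g b - g a'|
            * ∑ d, (P ^ (t - 1 - k)) b d * Φ d := by
        intro k
        have ek : t + 1 - 1 - (k + 1) = t - 1 - k := by omega
        rw [ek]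
        simp only [pow_succ', Matrix.mul_apply, sum_mul, mul_sum]
        conv_rhs => rw [sum_comm]
        apply sum_congr rfl; intro a' _
        conv_rhs => rw [sum_comm]
        apply sum_congr rfl; intro b _
        conv_rhs => rw [sum_comm]
        apply sum_congr rfl; intro d _
        apply sum_congr rfl; intro a _
        ring
      rw [sum_congr rfl (fun k _ => hk k), sum_comm]
      simp only [mul_sum]
    rw [e0, e2]
    have h3 : ∀ a, P x a * (|g a - c| * ∑ y, (P ^ t) a y * Φ y)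
        ≤ |g x - c| * (P x a * ∑ y, (P ^ t) a y * Φ y)
          + P x a * (|g a - g x| * ∑ d, (P ^ t) a d * Φ d) := by
      intro a
      have h4 : |g a - c| ≤ |g a - g x| + |g x - c| := abs_sub_le _ _ _
      have h5 := mul_le_mul_of_nonneg_left
        (mul_le_mul_of_nonneg_right h4 (hW a)) (hP0 x a)
      linarith
    simp only [mul_add, sum_add_distrib]
    have h6 := sum_le_sum fun a (_ : a ∈ univ) => h3 a
    rw [sum_add_distrib, ← mul_sum] at h6
    simp only [mul_sum] at h6 ⊢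
    linarith

/-- the selector quantity: edge `(x,y)` chooses the pair `(g,F)`, then `s` steps from `y` -/
noncomputable def Qs (μ : S → ℝ) (P : Matrix S S ℝ) (F g : S → ℝ) (s : ℕ) : ℝ :=
  ∑ x, ∑ y, ∑ z, μ x * P x y * (P ^ s) y z * (|g y - g x| * |F z - F y|)

noncomputable def Ds (μ : S → ℝ) (P : Matrix S S ℝ) (F g : S → ℝ) : ℝ :=
  ∑ x, ∑ y, μ x * P x y * (|g y - g x| * |F y - F x|)

theorem stat {μ : S → ℝ} {P : Matrix S S ℝ} (hP : IsChain μ P) (a : S) :
    ∑ x, μ x * P x a = μ a := by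
  obtain ⟨h1, h2, h3, h4, h5⟩ := hP
  calc ∑ x, μ x * P x a = ∑ x, μ a * P a x := sum_congr rfl fun x _ => h5 x a
    _ = μ a := by rw [← mul_sum, h4, mul_one]

theorem stepA_key {μ : S → ℝ} {P : Matrix S S ℝ} (hP : IsChain μ P) (F g : S → ℝ) (t : ℕ)
    (x : S) :
    ∑ y, (P ^ t) x y * (|g y - g x| * |F y - F x|)
      ≤ ∑ k ∈ range t, ∑ a, ∑ b, (P ^ k) x a * P a b * |g b - g a|
          * ((∑ d, (P ^ (t - 1 - k)) b d * |F d - F b|) + |F b - F a| + |F a - F x|) := by
  have h := path_triangle P hP.2.2.1 g (fun y => |F y - F x|) (fun y => abs_nonneg _) (g x) t x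
  simp only [sub_self, abs_zero, zero_mul, zero_add] at h
  calc ∑ y, (P ^ t) x y * (|g y - g x| * |F y - F x|)
      = ∑ y, (P ^ t) x y * (|F y - F x| * |g y - g x|) := by
        apply sum_congr rfl; intro y _; ring
    _ ≤ _ := h
    _ ≤ _ := by
        apply sum_le_sum; intro k _
        apply sum_le_sum; intro a _
        apply sum_le_sum; intro b _
        apply mul_le_mul_of_nonneg_left
        · have hc := isChain_pow hP (t - 1 - k)
          have e : (∑ d, (P ^ (t - 1 - k)) b d * |F d - F b|) + |F b - F a| + |F a - F x|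
              = ∑ d, (P ^ (t - 1 - k)) b d * (|F d - F b| + |F b - F a| + |F a - F x|) := by
            simp only [mul_add, sum_add_distrib, ← sum_mul, hc.2.2.2.1 b, one_mul]
          rw [e]
          apply sum_le_sum; intro d _
          apply mul_le_mul_of_nonneg_left _ (hc.2.2.1 b d)
          have h1 : |F d - F x| ≤ |F d - F b| + |F b - F x| := abs_sub_le _ _ _
          have h2 : |F b - F x| ≤ |F b - F a| + |F a - F x| := abs_sub_le _ _ _
          linarith
        · exact mul_nonneg (mul_nonneg ((isChain_pow hP k).2.2.1 x a) (hP.2.2.1 a b))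
            (abs_nonneg _)

theorem stepA_single {μ : S → ℝ} {P : Matrix S S ℝ} (hP : IsChain μ P) (F g : S → ℝ) (t : ℕ) :
    ∑ x, ∑ y, μ x * (P ^ t) x y * (|g y - g x| * |F y - F x|)
      ≤ ∑ k ∈ range t, (Qs μ P F g (t - 1 - k) + Ds μ P F g + Qs μ P F g k) := by
  have h1 : ∑ x, ∑ y, μ x * (P ^ t) x y * (|g y - g x| * |F y - F x|)
      ≤ ∑ x, μ x * ∑ k ∈ range t, ∑ a, ∑ b, (P ^ k) x a * P a b * |g b - g a|
          * ((∑ d, (P ^ (t - 1 - k)) b d * |F d - F b|) + |F b - F a| + |F a - F x|) := by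
    apply sum_le_sum; intro x _
    have := mul_le_mul_of_nonneg_left (stepA_key hP F g t x) (hP.1 x)
    rw [mul_sum] at this
    simpa [mul_assoc] using this
  refine h1.trans (le_of_eq ?_)
  simp only [mul_sum]
  rw [sum_comm]
  apply sum_congr rfl; intro k _
  have hk := isChain_pow hP k
  -- three terms
  have st : ∀ h : S → ℝ, ∑ x, ∑ a, μ x * (P ^ k) x a * h a = ∑ a, μ a * h a := by
    intro h
    rw [sum_comm]
    apply sum_congr rfl; intro a _
    rw [← sum_mul, stat hk a]
  have T1 : ∑ x, ∑ a, ∑ b, μ x * ((P ^ k) x a * P a b * |g b - g a|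
      * (∑ d, (P ^ (t - 1 - k)) b d * |F d - F b|)) = Qs μ P F g (t - 1 - k) := by
    calc _ = ∑ x, ∑ a, μ x * (P ^ k) x a * (∑ b, P a b * |g b - g a|
            * (∑ d, (P ^ (t - 1 - k)) b d * |F d - F b|)) := by
          apply sum_congr rfl; intro x _
          apply sum_congr rfl; intro a _
          rw [mul_sum]
          apply sum_congr rfl; intro b _
          ring
      _ = _ := st _
      _ = _ := by
          unfold Qs
          apply sum_congr rfl; intro a _
          rw [mul_sum]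
          apply sum_congr rfl; intro b _
          rw [mul_sum, mul_sum]
          apply sum_congr rfl; intro d _
          ring
  have T2 : ∑ x, ∑ a, ∑ b, μ x * ((P ^ k) x a * P a b * |g b - g a| * |F b - F a|)
      = Ds μ P F g := by
    calc _ = ∑ x, ∑ a, μ x * (P ^ k) x a * (∑ b, P a b * |g b - g a| * |F b - F a|) := by
          apply sum_congr rfl; intro x _
          apply sum_congr rfl; intro a _
          rw [mul_sum]
          apply sum_congr rfl; intro b _
          ring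
      _ = _ := st _
      _ = _ := by
          unfold Ds
          apply sum_congr rfl; intro a _
          rw [mul_sum]
          apply sum_congr rfl; intro b _
          ring
  have T3 : ∑ x, ∑ a, ∑ b, μ x * ((P ^ k) x a * P a b * |g b - g a| * |F a - F x|)
      = Qs μ P F g k := by
    unfold Qs
    rw [sum_comm]
    conv_rhs => rw [sum_comm]
    apply sum_congr rfl; intro a _
    rw [sum_comm]
    apply sum_congr rfl; intro b _
    apply sum_congr rfl; intro x _
    have r1 := hk.2.2.2.2 x a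
    have r2 := hP.2.2.2.2 a b
    rw [abs_sub_comm (g b) (g a), abs_sub_comm (F a) (F x)]
    calc μ x * ((P ^ k) x a * P a b * |g a - g b| * |F x - F a|)
        = (μ x * (P ^ k) x a) * P a b * |g a - g b| * |F x - F a| := by ring
      _ = (μ a * P a b) * (P ^ k) a x * |g a - g b| * |F x - F a| := by rw [r1]; ring
      _ = μ b * P b a * (P ^ k) a x * (|g a - g b| * |F x - F a|) := by rw [r2]; ring
  rw [← T1, ← T2, ← T3]
  simp only [← sum_add_distrib]
  apply sum_congr rfl; intro x _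
  apply sum_congr rfl; intro a _
  apply sum_congr rfl; intro b _
  ring

/-- increments of the prefix functions -/
def gj (F : ℕ → S → ℝ) (j : ℕ) : S → ℝ := fun x => F (j + 1) x - F j x

/-- `ℓ_1` length of the edge `(x,y)` -/
def ll (F : ℕ → S → ℝ) (n : ℕ) (x y : S) : ℝ := ∑ j ∈ range n, |gj F j y - gj F j x|

noncomputable def Lam (μ : S → ℝ) (P : Matrix S S ℝ) (F : ℕ → S → ℝ) (n : ℕ) : ℝ :=
  ∑ x, ∑ y, μ x * P x y * ll F n x y ^ 2

noncomputable def QQ (μ : S → ℝ) (P : Matrix S S ℝ) (F : ℕ → S → ℝ) (n s : ℕ) : ℝ :=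
  ∑ j ∈ range n, Qs μ P (F (j + 1)) (gj F j) s

omit [Fintype S] [DecidableEq S] in
theorem ll_nonneg (F : ℕ → S → ℝ) (n : ℕ) (x y : S) : 0 ≤ ll F n x y :=
  sum_nonneg fun _ _ => abs_nonneg _

omit [Fintype S] [DecidableEq S] in
theorem abs_F_le_ll (F : ℕ → S → ℝ) (hF0 : ∀ x, F 0 x = 0) (n : ℕ) (x y : S) (m : ℕ)
    (hm : m ≤ n) : |F m y - F m x| ≤ ll F n x y := by
  have h1 : ∀ m, |F m y - F m x| ≤ ∑ j ∈ range m, |gj F j y - gj F j x| := by
    intro m
    induction m with
    | zero => simp [hF0]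
    | succ m ih =>
      rw [sum_range_succ]
      have e : F (m + 1) y - F (m + 1) x = (F m y - F m x) + (gj F m y - gj F m x) := by
        unfold gj; ring
      rw [e]
      exact (abs_add_le _ _).trans (by linarith)
  refine (h1 m).trans ?_
  unfold ll
  exact sum_le_sum_of_subset_of_nonneg (range_subset_range.2 hm) fun _ _ _ => abs_nonneg _

omit [Fintype S] [DecidableEq S] in
theorem own_pointwise (F : ℕ → S → ℝ) (hF0 : ∀ x, F 0 x = 0) (n : ℕ) (x y : S) (m : ℕ)
    (hm : m ≤ n) :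
    (F m y - F m x) ^ 2
      ≤ 2 * ∑ j ∈ range n, |gj F j y - gj F j x| * |F (j + 1) y - F (j + 1) x| := by
  have h := sq_le_own (fun j => F j y - F j x) (fun j => |gj F j y - gj F j x|)
    (by simp [hF0]) (by intro i; apply le_of_eq; congr 1; unfold gj; ring) m
  refine h.trans ?_
  apply mul_le_mul_of_nonneg_left _ (by norm_num)
  exact sum_le_sum_of_subset_of_nonneg (range_subset_range.2 hm)
    fun _ _ _ => mul_nonneg (abs_nonneg _) (abs_nonneg _)

theorem sum_Ds_le {μ : S → ℝ} {P : Matrix S S ℝ} (hP : IsChain μ P) (F : ℕ → S → ℝ)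
    (hF0 : ∀ x, F 0 x = 0) (n : ℕ) :
    ∑ j ∈ range n, Ds μ P (F (j + 1)) (gj F j) ≤ Lam μ P F n := by
  unfold Ds Lam
  rw [sum_comm]
  apply sum_le_sum; intro x _
  rw [sum_comm]
  apply sum_le_sum; intro y _
  rw [← mul_sum]
  apply mul_le_mul_of_nonneg_left _ (mul_nonneg (hP.1 x) (hP.2.2.1 x y))
  calc ∑ j ∈ range n, |gj F j y - gj F j x| * |F (j + 1) y - F (j + 1) x|
      ≤ ∑ j ∈ range n, |gj F j y - gj F j x| * ll F n x y := by
        apply sum_le_sum; intro j hj
        apply mul_le_mul_of_nonneg_left _ (abs_nonneg _)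
        exact abs_F_le_ll F hF0 n x y (j + 1) (by have := mem_range.1 hj; omega)
    _ = ll F n x y ^ 2 := by rw [← sum_mul]; unfold ll; ring

/-- **Step (A)** -/
theorem stepA {μ : S → ℝ} {P : Matrix S S ℝ} (hP : IsChain μ P) (F : ℕ → S → ℝ)
    (hF0 : ∀ x, F 0 x = 0) (n t : ℕ) (K : S → S → ℕ) (hK : ∀ x y, K x y ≤ n) :
    ∑ x, ∑ y, μ x * (P ^ t) x y * (F (K x y) y - F (K x y) x) ^ 2
      ≤ 2 * t * Lam μ P F n
        + 2 * ∑ k ∈ range t, (QQ μ P F n (t - 1 - k) + QQ μ P F n k) := by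
  have ht := isChain_pow hP t
  have h1 : ∑ x, ∑ y, μ x * (P ^ t) x y * (F (K x y) y - F (K x y) x) ^ 2
      ≤ ∑ x, ∑ y, μ x * (P ^ t) x y *
          (2 * ∑ j ∈ range n, |gj F j y - gj F j x| * |F (j + 1) y - F (j + 1) x|) := by
    apply sum_le_sum; intro x _
    apply sum_le_sum; intro y _
    exact mul_le_mul_of_nonneg_left (own_pointwise F hF0 n x y _ (hK x y))
      (mul_nonneg (hP.1 x) (ht.2.2.1 x y))
  have h2 : ∑ x, ∑ y, μ x * (P ^ t) x y *
          (2 * ∑ j ∈ range n, |gj F j y - gj F j x| * |F (j + 1) y - F (j + 1) x|)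
      = 2 * ∑ j ∈ range n, ∑ x, ∑ y, μ x * (P ^ t) x y *
          (|gj F j y - gj F j x| * |F (j + 1) y - F (j + 1) x|) := by
    conv_rhs => rw [sum_comm, mul_sum]
    apply sum_congr rfl; intro x _
    conv_rhs => rw [sum_comm, mul_sum]
    apply sum_congr rfl; intro y _
    rw [← mul_sum]
    ring
  have h3 : ∑ j ∈ range n, ∑ x, ∑ y, μ x * (P ^ t) x y *
          (|gj F j y - gj F j x| * |F (j + 1) y - F (j + 1) x|)
      ≤ ∑ j ∈ range n, ∑ k ∈ range t, (Qs μ P (F (j + 1)) (gj F j) (t - 1 - k)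
          + Ds μ P (F (j + 1)) (gj F j) + Qs μ P (F (j + 1)) (gj F j) k) :=
    sum_le_sum fun j _ => stepA_single hP (F (j + 1)) (gj F j) t
  have h4 : ∑ j ∈ range n, ∑ k ∈ range t, (Qs μ P (F (j + 1)) (gj F j) (t - 1 - k)
          + Ds μ P (F (j + 1)) (gj F j) + Qs μ P (F (j + 1)) (gj F j) k)
      = t * ∑ j ∈ range n, Ds μ P (F (j + 1)) (gj F j)
        + ∑ k ∈ range t, (QQ μ P F n (t - 1 - k) + QQ μ P F n k) := by
    rw [sum_comm]
    unfold QQ
    simp only [sum_add_distrib, sum_const, card_range, nsmul_eq_mul]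
    ring
  have h5 := sum_Ds_le hP F hF0 n
  have h6 : (t : ℝ) * ∑ j ∈ range n, Ds μ P (F (j + 1)) (gj F j) ≤ t * Lam μ P F n :=
    mul_le_mul_of_nonneg_left h5 (Nat.cast_nonneg t)
  rw [h2] at h1
  rw [h4] at h3
  linarith

end Vale.Agent.P125.Poly97
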