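import Vale.Agent.P125.Poly.OpApi_6

set_option linter.unusedSectionVars false
set_option linter.unusedVariables false

/-!
# P125, polynomial rate: step (C) = duality
-/

namespace Vale.Agent.P125.Poly6

open scoped BigOperators
open Vale.Agent.P125.Dich Vale.Agent.P125.BV

variable {S : Type} [Fintype S] [DecidableEq S] {n : ℕ}

/-- mean size of the `k`-th coordinate of the next step -/
def aK (P : Matrix S S ℝ) (f : S → Fin n → ℝ) (k : Fin n) (y : S) : ℝ :=
  ∑ b, P y b * |f b k - f y k|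

/-- the sum of the coordinates `0, ..., k` -/
def Fp (f : S → Fin n → ℝ) (k : ℕ) (x : S) : ℝ := pre (f x) (k + 1)

/-- the drift of that sum over a block of length `τ` -/
def hK (P : Matrix S S ℝ) (f : S → Fin n → ℝ) (τ k : ℕ) (z : S) : ℝ :=
  op (P ^ τ) (Fp f k) z - Fp f k z

/-- the drift term `R_s` -/
def Rs (μ : S → ℝ) (P : Matrix S S ℝ) (f : S → Fin n → ℝ) (τ s : ℕ) : ℝ :=
  ∑ k : Fin n, ∑ y, μ y * (aK P f k y * op (P ^ s) (fun z => |hK P f τ k.val z|) y)

/-- the one-step `ℓ_1` energy -/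
def W (μ : S → ℝ) (P : Matrix S S ℝ) (f : S → Fin n → ℝ) : ℝ :=
  ∑ a, ∑ b, μ a * P a b * n1 (f b - f a) ^ 2

/-- mean `ℓ_1` size of the next step -/
def lb (P : Matrix S S ℝ) (f : S → Fin n → ℝ) (y : S) : ℝ := ∑ k : Fin n, aK P f k y

/-- carre du champ -/
def Gam (P : Matrix S S ℝ) (v : S → ℝ) (a : S) : ℝ := ∑ b, P a b * (v b - v a) ^ 2

/-- `∑_{i<τ} P^i g` -/
def Us (P : Matrix S S ℝ) (τ : ℕ) (g : S → ℝ) (x : S) : ℝ :=
  ∑ i ∈ Finset.range τ, op (P ^ i) g x

/-- `Y_k P^s a_k` -/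
noncomputable def ph (P : Matrix S S ℝ) (f : S → Fin n → ℝ) (τ s : ℕ) (k : Fin n) (z : S) : ℝ :=
  (if 0 ≤ hK P f τ k.val z then 1 else -1) * op (P ^ s) (aK P f k) z

/-- tail sums -/
def Ph (φ : Fin n → S → ℝ) (l : ℕ) (z : S) : ℝ := ∑ k : Fin n, if l ≤ k.val then φ k z else 0

lemma stepC1 {μ : S → ℝ} {P : Matrix S S ℝ} (hc : IsChain μ P) (f : S → Fin n → ℝ) (τ s : ℕ)
    (k : Fin n) :
    ∑ y, μ y * (aK P f k y * op (P ^ s) (fun z => |hK P f τ k.val z|) y) =
      (1 / 2) * ∑ a, ∑ b, μ a * P a b *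
        ((Us P τ (ph P f τ s k) a - Us P τ (ph P f τ s k) b) * (Fp f k.val b - Fp f k.val a)) := by
  rw [selfadj (isChain_pow hc s), ← dirichlet hc]
  have e1 : ∀ x, op (P ^ s) (aK P f k) x * |hK P f τ k.val x|
      = ph P f τ s k x * hK P f τ k.val x := by
    intro x
    unfold ph
    split_ifs with h
    · rw [abs_of_nonneg h]; ring
    · rw [abs_of_neg (not_le.mp h)]; ring
  have e2 : ∀ x, hK P f τ k.val x = ∑ i ∈ Finset.range τ,
      op (P ^ i) (fun y => op P (Fp f k.val) y - Fp f k.val y) x := fun x => geom P _ τ x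
  calc ∑ x, μ x * (op (P ^ s) (aK P f k) x * |hK P f τ k.val x|)
      = ∑ x, ∑ i ∈ Finset.range τ, μ x * (ph P f τ s k x *
          op (P ^ i) (fun y => op P (Fp f k.val) y - Fp f k.val y) x) := by
        refine Finset.sum_congr rfl fun x _ => ?_
        rw [e1, e2, Finset.mul_sum, Finset.mul_sum]
    _ = ∑ i ∈ Finset.range τ, ∑ x, μ x * (ph P f τ s k x *
          op (P ^ i) (fun y => op P (Fp f k.val) y - Fp f k.val y) x) := Finset.sum_comm
    _ = ∑ i ∈ Finset.range τ, ∑ x, μ x * (op (P ^ i) (ph P f τ s k) x *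
          (op P (Fp f k.val) x - Fp f k.val x)) := by
        refine Finset.sum_congr rfl fun i _ => selfadj (isChain_pow hc i) _ _
    _ = ∑ x, ∑ i ∈ Finset.range τ, μ x * (op (P ^ i) (ph P f τ s k) x *
          (op P (Fp f k.val) x - Fp f k.val x)) := Finset.sum_comm
    _ = ∑ x, μ x * (Us P τ (ph P f τ s k) x * (op P (Fp f k.val) x - Fp f k.val x)) := by
        refine Finset.sum_congr rfl fun x _ => ?_
        unfold Us
        rw [Finset.sum_mul, Finset.mul_sum]

lemma Fp_sub (f : S → Fin n → ℝ) (k : ℕ) (a b : S) :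
    Fp f k b - Fp f k a = ∑ l : Fin n, if l.val ≤ k then f b l - f a l else 0 := by
  unfold Fp pre
  rw [← Finset.sum_sub_distrib]
  refine Finset.sum_congr rfl fun l _ => ?_
  by_cases h : l.val ≤ k
  · have h' : l.val < k + 1 := by omega
    simp [h, h']
  · have h' : ¬ l.val < k + 1 := by omega
    simp [h, h']

lemma abel (f : S → Fin n → ℝ) (A : Fin n → ℝ) (a b : S) :
    ∑ k : Fin n, A k * (Fp f k.val b - Fp f k.val a) =
      ∑ l : Fin n, (f b l - f a l) * ∑ k : Fin n, if l.val ≤ k.val then A k else 0 := by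
  simp only [Fp_sub, Finset.mul_sum]
  rw [Finset.sum_comm]
  refine Finset.sum_congr rfl fun l _ => Finset.sum_congr rfl fun k _ => ?_
  split_ifs <;> ring

lemma Us_Ph (P : Matrix S S ℝ) (τ : ℕ) (φ : Fin n → S → ℝ) (l : ℕ) (x : S) :
    Us P τ (Ph φ l) x = ∑ k : Fin n, if l ≤ k.val then Us P τ (φ k) x else 0 := by
  unfold Us
  have : ∀ i, op (P ^ i) (Ph φ l) x = ∑ k : Fin n, if l ≤ k.val then op (P ^ i) (φ k) x else 0 := by
    intro i
    have h := op_sum (P ^ i) Finset.univ (fun (k : Fin n) z => if l ≤ k.val then φ k z else 0) x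
    unfold Ph
    rw [h]
    refine Finset.sum_congr rfl fun k _ => ?_
    split_ifs
    · rfl
    · simp [op]
  simp only [this]
  rw [Finset.sum_comm]
  refine Finset.sum_congr rfl fun k _ => ?_
  split_ifs
  · rfl
  · simp

/-- step (C): the drift term as an edge sum -/
lemma stepC {μ : S → ℝ} {P : Matrix S S ℝ} (hc : IsChain μ P) (f : S → Fin n → ℝ) (τ s : ℕ) :
    Rs μ P f τ s = (1 / 2) * ∑ a, ∑ b, μ a * P a b * ∑ l : Fin n, (f b l - f a l) *
      (Us P τ (Ph (ph P f τ s) l.val) a - Us P τ (Ph (ph P f τ s) l.val) b) := by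
  unfold Rs
  simp only [stepC1 hc]
  rw [← Finset.mul_sum]
  congr 1
  rw [Finset.sum_comm]
  refine Finset.sum_congr rfl fun a _ => ?_
  rw [Finset.sum_comm]
  refine Finset.sum_congr rfl fun b _ => ?_
  rw [← Finset.mul_sum, abel]
  congr 1
  refine Finset.sum_congr rfl fun l _ => ?_
  rw [Us_Ph, Us_Ph, ← Finset.sum_sub_distrib]
  congr 1
  refine Finset.sum_congr rfl fun k _ => ?_
  split_ifs <;> simp

end Vale.Agent.P125.Poly6
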