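import Vale.Agent.P125.Poly.StepF_43

set_option linter.unusedSectionVars false
set_option linter.unusedVariables false

/-!
P125, polynomial rate, steps (D), (E), (F) combined, in selector form.
-/

namespace Vale.Agent.P125.Poly43

open scoped BigOperators
open Vale.Agent.P125.Dich

variable {S : Type} [Fintype S] [DecidableEq S]

/-- own measure lemma, from the top -/
lemma own_top (D : ℕ → ℝ) (n : ℕ) (hD : ∀ k, n ≤ k → D k = 0) (k : ℕ) :
    D k ^ 2 ≤ 2 * ∑ j ∈ Finset.range n, |D j| * |D j - D (j + 1)| := by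
  have key : ∀ d k, k + d = n → D k ^ 2 ≤ 2 * ∑ j ∈ Finset.Ico k n, |D j| * |D j - D (j + 1)| := by
    intro d
    induction d with
    | zero =>
      intro k hk
      have : k = n := by omega
      subst this
      rw [hD k le_rfl]
      simp
    | succ d ih =>
      intro k hk
      have h1 := ih (k + 1) (by omega)
      rw [Finset.sum_eq_sum_Ico_succ_bot (by omega : k < n)]
      have h2 : D k * (D k - D (k + 1)) ≤ |D k| * |D k - D (k + 1)| := by
        rw [← abs_mul]
        exact le_abs_self _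
      nlinarith [sq_nonneg (D k - D (k + 1))]
  rcases le_or_gt k n with hk | hk
  · refine (key (n - k) k (by omega)).trans ?_
    apply mul_le_mul_of_nonneg_left _ (by norm_num)
    apply Finset.sum_le_sum_of_subset_of_nonneg
    · intro j hj
      rw [Finset.mem_Ico] at hj
      exact Finset.mem_range.2 hj.2
    · intro j _ _
      positivity
  · rw [hD k hk.le]
    have : 0 ≤ ∑ j ∈ Finset.range n, |D j| * |D j - D (j + 1)| :=
      Finset.sum_nonneg fun j _ => by positivity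
    nlinarith

/-- self-adjointness -/
lemma selfadj {μ : S → ℝ} {R : Matrix S S ℝ} (h : IsChain μ R) (g k : S → ℝ) :
    ∑ a, μ a * (R.mulVec g a * k a) = ∑ a, μ a * (g a * R.mulVec k a) := by
  simp only [mv_apply, Finset.sum_mul, Finset.mul_sum]
  rw [Finset.sum_comm]
  refine Finset.sum_congr rfl fun b _ => Finset.sum_congr rfl fun a _ => ?_
  have := h.2.2.2.2 a b
  calc μ a * (R a b * g b * k a) = (μ a * R a b) * (g b * k a) := by ring
    _ = (μ b * R b a) * (g b * k a) := by rw [this]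
    _ = μ b * (g b * (R b a * k a)) := by ring

/-- the gradient density -/
def gr (P : Matrix S S ℝ) (v : S → ℝ) (a : S) : ℝ := ∑ b, P a b * |v b - v a|

lemma gr_nonneg {μ : S → ℝ} {P : Matrix S S ℝ} (h : IsChain μ P) (v : S → ℝ) (a : S) :
    0 ≤ gr P v a :=
  Finset.sum_nonneg fun b _ => mul_nonneg (h.2.2.1 a b) (abs_nonneg _)

lemma gr_sq_le {μ : S → ℝ} {P : Matrix S S ℝ} (h : IsChain μ P) (v : S → ℝ) (a : S) :
    gr P v a ^ 2 ≤ Gam P v a := by
  have := mv_jensen h (fun b => |v b - v a|) a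
  simp only [sq_abs] at this
  exact this

/-- symmetrisation -/
lemma symm_sum {μ : S → ℝ} {P : Matrix S S ℝ} (h : IsChain μ P) (v ν : S → ℝ) :
    ∑ a, ∑ b, μ a * P a b * (|v b - v a| * (ν a + ν b)) = 2 * ∑ a, μ a * (ν a * gr P v a) := by
  have h1 : ∑ a, ∑ b, μ a * P a b * (|v b - v a| * ν b) =
      ∑ a, ∑ b, μ a * P a b * (|v b - v a| * ν a) := by
    rw [Finset.sum_comm]
    refine Finset.sum_congr rfl fun b _ => Finset.sum_congr rfl fun a _ => ?_
    rw [h.2.2.2.2 a b, abs_sub_comm]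
  have h2 : ∑ a, ∑ b, μ a * P a b * (|v b - v a| * ν a) = ∑ a, μ a * (ν a * gr P v a) := by
    refine Finset.sum_congr rfl fun a _ => ?_
    unfold gr
    rw [Finset.mul_sum, Finset.mul_sum]
    refine Finset.sum_congr rfl fun b _ => ?_
    ring
  have h3 : ∑ a, ∑ b, μ a * P a b * (|v b - v a| * (ν a + ν b)) =
      ∑ a, ∑ b, μ a * P a b * (|v b - v a| * ν a) +
        ∑ a, ∑ b, μ a * P a b * (|v b - v a| * ν b) := by
    rw [← Finset.sum_add_distrib]
    refine Finset.sum_congr rfl fun a _ => ?_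
    rw [← Finset.sum_add_distrib]
    refine Finset.sum_congr rfl fun b _ => ?_
    ring
  rw [h3, h1, h2]
  ring

/-- `P ^ s (A g) = (1 / τ) ∑_{i < τ} P ^ (s + i) g` -/
lemma pow_Av (P : Matrix S S ℝ) (τ s : ℕ) (g : S → ℝ) (y : S) :
    (P ^ s).mulVec ((Av P τ).mulVec g) y =
      (1 / (τ : ℝ)) * ∑ i ∈ Finset.range τ, (P ^ (s + i)).mulVec g y := by
  rw [Matrix.mulVec_mulVec]
  have : P ^ s * Av P τ = (1 / (τ : ℝ)) • ∑ i ∈ Finset.range τ, P ^ (s + i) := by
    unfold Av
    rw [Matrix.mul_smul, Finset.mul_sum]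
    simp only [pow_add]
  rw [this, Matrix.smul_mulVec, Matrix.sum_mulVec]
  simp [Finset.sum_apply]

/-- step (E3): the averaged gradient is small, uniformly in the function -/
lemma avg_gr_le {μ : S → ℝ} {P : Matrix S S ℝ} (h : IsChain μ P) (τ s : ℕ) (hτ : 1 ≤ τ)
    (φ L : S → ℝ) (hφ : ∀ y, |φ y| ≤ L y) (y : S) :
    (P ^ s).mulVec ((Av P τ).mulVec (gr P ((Av P τ).mulVec φ))) y ≤
      (1 / (τ : ℝ)) * Real.sqrt ((τ : ℝ) * EnS P τ s L y) := by
  have hτ0 : (0 : ℝ) < τ := by exact_mod_cast hτ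
  rw [pow_Av]
  apply mul_le_mul_of_nonneg_left _ (by positivity)
  set v := (Av P τ).mulVec φ with hv
  refine le_trans (le_abs_self _) (Real.abs_le_sqrt ?_)
  have h1 : (∑ i ∈ Finset.range τ, (P ^ (s + i)).mulVec (gr P v) y) ^ 2 ≤
      (τ : ℝ) * ∑ i ∈ Finset.range τ, ((P ^ (s + i)).mulVec (gr P v) y) ^ 2 := by
    have := sq_sum_le_card_mul_sum_sq (s := Finset.range τ)
      (f := fun i => (P ^ (s + i)).mulVec (gr P v) y)
    simpa using this
  refine h1.trans (mul_le_mul_of_nonneg_left ?_ hτ0.le)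
  refine le_trans (Finset.sum_le_sum fun i _ => ?_) (F1 h τ s hτ φ L hφ y)
  refine (mv_jensen (isChain_pow h (s + i)) (gr P v) y).trans ?_
  exact mv_mono (isChain_pow h (s + i)) (fun b => gr_sq_le h v b) y

lemma mv_sum (R : Matrix S S ℝ) (n : ℕ) (a : ℕ → S → ℝ) (y : S) :
    R.mulVec (fun b => ∑ j ∈ Finset.range n, a j b) y =
      ∑ j ∈ Finset.range n, R.mulVec (a j) y := by
  simp only [mv_apply, Finset.mul_sum]
  rw [Finset.sum_comm]

/-- the family of functions of step (C) -/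
noncomputable def ph (P : Matrix S S ℝ) (s n : ℕ) (a Y : ℕ → S → ℝ) (k : ℕ) (y : S) : ℝ :=
  ∑ j ∈ Finset.Ico k n, Y j y * (P ^ s).mulVec (a j) y

noncomputable def vv (P : Matrix S S ℝ) (τ s n : ℕ) (a Y : ℕ → S → ℝ) (k : ℕ) : S → ℝ :=
  (Av P τ).mulVec (ph P s n a Y k)

theorem core {μ : S → ℝ} {P : Matrix S S ℝ} (h : IsChain μ P) (τ s n : ℕ) (hτ : 1 ≤ τ)
    (a Y : ℕ → S → ℝ) (ha : ∀ j y, 0 ≤ a j y) (hY : ∀ j y, |Y j y| ≤ 1) (κ : S → S → ℕ) :
    ∑ x, ∑ z, μ x * P x z * (vv P τ s n a Y (κ x z) z - vv P τ s n a Y (κ x z) x) ^ 2 ≤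
      4 * Real.sqrt (5 * (τ : ℝ)) / (τ : ℝ) *
        ∑ y, μ y * (∑ j ∈ Finset.range n, a j y) ^ 2 := by
  have hτ0 : (0 : ℝ) < τ := by exact_mod_cast hτ
  have hA := isChain_Av h τ hτ
  have hPs := isChain_pow h s
  set lb : S → ℝ := fun y => ∑ j ∈ Finset.range n, a j y with hlb
  set L : S → ℝ := (P ^ s).mulVec lb with hL
  set W : ℝ := ∑ y, μ y * lb y ^ 2 with hW
  set v := vv P τ s n a Y with hv
  have hPa0 : ∀ j y, 0 ≤ (P ^ s).mulVec (a j) y := fun j y => mv_nonneg hPs (ha j) y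
  -- bound of the functions
  have hphL : ∀ k y, |ph P s n a Y k y| ≤ L y := by
    intro k y
    unfold ph
    refine (Finset.abs_sum_le_sum_abs _ _).trans ?_
    rw [hL, hlb, mv_sum]
    refine le_trans (Finset.sum_le_sum fun j _ => ?_)
      (Finset.sum_le_sum_of_subset_of_nonneg (s := Finset.Ico k n) ?_ ?_)
    · rw [abs_mul, abs_of_nonneg (hPa0 j y)]
      calc |Y j y| * (P ^ s).mulVec (a j) y ≤ 1 * (P ^ s).mulVec (a j) y :=
            mul_le_mul_of_nonneg_right (hY j y) (hPa0 j y)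
        _ = _ := one_mul _
    · intro j hj
      rw [Finset.mem_Ico] at hj
      exact Finset.mem_range.2 hj.2
    · intro j _ _
      exact hPa0 j y
  -- increments in k
  set ν : ℕ → S → ℝ := fun j => (Av P τ).mulVec ((P ^ s).mulVec (a j)) with hν
  have hinc : ∀ j, j < n → ∀ y, |v j y - v (j + 1) y| ≤ ν j y := by
    intro j hj y
    have e1 : v j y - v (j + 1) y =
        (Av P τ).mulVec (fun y => Y j y * (P ^ s).mulVec (a j) y) y := by
      rw [hv]
      unfold vv
      simp only [mv_apply]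
      rw [← Finset.sum_sub_distrib]
      refine Finset.sum_congr rfl fun b _ => ?_
      unfold ph
      rw [Finset.sum_eq_sum_Ico_succ_bot hj]
      simp only [mv_apply]
      ring
    rw [e1]
    apply mv_abs_le hA
    intro b
    rw [abs_mul, abs_of_nonneg (hPa0 j b)]
    calc |Y j b| * (P ^ s).mulVec (a j) b ≤ 1 * (P ^ s).mulVec (a j) b :=
          mul_le_mul_of_nonneg_right (hY j b) (hPa0 j b)
      _ = _ := one_mul _
  have hvz : ∀ k, n ≤ k → ∀ y, v k y = 0 := by
    intro k hk y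
    rw [hv]
    unfold vv
    have : ph P s n a Y k = fun _ => 0 := by
      funext z
      unfold ph
      rw [Finset.Ico_eq_empty (by omega)]
      simp
    rw [this, mv_apply]
    simp
  -- step (D), pointwise
  have hD : ∀ x z, (v (κ x z) z - v (κ x z) x) ^ 2 ≤
      2 * ∑ j ∈ Finset.range n, |v j z - v j x| * (ν j x + ν j z) := by
    intro x z
    have h1 := own_top (fun k => v k z - v k x) n
      (fun k hk => by simp only [hvz k hk z, hvz k hk x, sub_self]) (κ x z)
    refine h1.trans (mul_le_mul_of_nonneg_left (Finset.sum_le_sum fun j hj => ?_) (by norm_num))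
    apply mul_le_mul_of_nonneg_left _ (abs_nonneg _)
    have hj' := Finset.mem_range.1 hj
    have e : v j z - v j x - (v (j + 1) z - v (j + 1) x) =
        (v j z - v (j + 1) z) - (v j x - v (j + 1) x) := by ring
    rw [e]
    calc |(v j z - v (j + 1) z) - (v j x - v (j + 1) x)|
        ≤ |v j z - v (j + 1) z| + |v j x - v (j + 1) x| := abs_sub _ _
      _ ≤ ν j z + ν j x := add_le_add (hinc j hj' z) (hinc j hj' x)
      _ = ν j x + ν j z := add_comm _ _
  -- step (E)
  have hE1 : ∑ x, ∑ z, μ x * P x z * (v (κ x z) z - v (κ x z) x) ^ 2 ≤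
      4 * ∑ j ∈ Finset.range n, ∑ x, μ x * (ν j x * gr P (v j) x) := by
    have h1 : ∑ x, ∑ z, μ x * P x z * (v (κ x z) z - v (κ x z) x) ^ 2 ≤
        ∑ x, ∑ z, μ x * P x z *
          (2 * ∑ j ∈ Finset.range n, |v j z - v j x| * (ν j x + ν j z)) :=
      Finset.sum_le_sum fun x _ => Finset.sum_le_sum fun z _ =>
        mul_le_mul_of_nonneg_left (hD x z) (mul_nonneg (h.1 x) (h.2.2.1 x z))
    refine h1.trans (le_of_eq ?_)
    have h2 : ∀ j, ∑ x, μ x * (ν j x * gr P (v j) x) =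
        (1 / 2) * ∑ x, ∑ z, μ x * P x z * (|v j z - v j x| * (ν j x + ν j z)) := by
      intro j
      rw [symm_sum h (v j) (ν j)]
      ring
    simp only [h2]
    have h3 : ∑ j ∈ Finset.range n, ∑ x, ∑ z, μ x * P x z * (|v j z - v j x| * (ν j x + ν j z)) =
        ∑ x, ∑ z, μ x * P x z * ∑ j ∈ Finset.range n, |v j z - v j x| * (ν j x + ν j z) := by
      rw [Finset.sum_comm]
      refine Finset.sum_congr rfl fun x _ => ?_
      rw [Finset.sum_comm]
      refine Finset.sum_congr rfl fun z _ => ?_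
      rw [Finset.mul_sum]
    have h4 : ∀ x z, μ x * P x z *
        (2 * ∑ j ∈ Finset.range n, |v j z - v j x| * (ν j x + ν j z)) =
        2 * (μ x * P x z * ∑ j ∈ Finset.range n, |v j z - v j x| * (ν j x + ν j z)) := by
      intro x z
      ring
    simp only [h4]
    rw [← Finset.mul_sum, h3]
    simp only [← Finset.mul_sum]
    ring
  -- duality and the uniform bound
  have hE2 : ∀ j, ∑ x, μ x * (ν j x * gr P (v j) x) ≤
      ∑ x, μ x * (a j x * ((1 / (τ : ℝ)) * Real.sqrt ((τ : ℝ) * EnS P τ s L x))) := by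
    intro j
    rw [hν]
    simp only []
    rw [selfadj hA, selfadj hPs]
    refine Finset.sum_le_sum fun x _ => mul_le_mul_of_nonneg_left ?_ (h.1 x)
    apply mul_le_mul_of_nonneg_left _ (ha j x)
    exact avg_gr_le h τ s hτ (ph P s n a Y j) L (hphL j) x
  have hE3 : ∑ j ∈ Finset.range n, ∑ x, μ x * (ν j x * gr P (v j) x) ≤
      (1 / (τ : ℝ)) * ∑ x, μ x * (lb x * Real.sqrt ((τ : ℝ) * EnS P τ s L x)) := by
    refine (Finset.sum_le_sum fun j _ => hE2 j).trans (le_of_eq ?_)
    rw [Finset.sum_comm, Finset.mul_sum]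
    refine Finset.sum_congr rfl fun x _ => ?_
    rw [hlb]
    simp only [Finset.sum_mul, Finset.mul_sum]
    refine Finset.sum_congr rfl fun j _ => ?_
    ring
  -- Cauchy-Schwarz through the arithmetic-geometric mean inequality
  have hEn0 : ∀ x, 0 ≤ EnS P τ s L x := by
    intro x
    have := F1 h τ s hτ (fun _ => 0) L (fun y => by
      rw [abs_zero]
      exact le_trans (abs_nonneg _) (hphL 0 y)) x
    refine le_trans (Finset.sum_nonneg fun i _ => ?_) this
    apply mv_nonneg (isChain_pow h (s + i))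
    intro b
    exact Finset.sum_nonneg fun c _ => mul_nonneg (h.2.2.1 b c) (sq_nonneg _)
  set c : ℝ := Real.sqrt (5 * (τ : ℝ)) with hc
  have hc0 : 0 < c := Real.sqrt_pos.2 (by positivity)
  have hc2 : c ^ 2 = 5 * (τ : ℝ) := Real.sq_sqrt (by positivity)
  have hLW : ∑ y, μ y * L y ^ 2 ≤ W := contr hPs lb
  have hF2 := F2 h τ s hτ L
  have hCS : ∑ x, μ x * (lb x * Real.sqrt ((τ : ℝ) * EnS P τ s L x)) ≤ c * W := by
    have hpt : ∀ x, μ x * (lb x * Real.sqrt ((τ : ℝ) * EnS P τ s L x)) ≤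
        (c / 2) * (μ x * lb x ^ 2) + ((τ : ℝ) / (2 * c)) * (μ x * EnS P τ s L x) := by
      intro x
      set r := Real.sqrt ((τ : ℝ) * EnS P τ s L x) with hr
      have hr2 : r ^ 2 = (τ : ℝ) * EnS P τ s L x :=
        Real.sq_sqrt (mul_nonneg hτ0.le (hEn0 x))
      have e1 : lb x * r ≤ (c / 2) * lb x ^ 2 + (1 / (2 * c)) * r ^ 2 := by
        have h0 : 0 ≤ (c * lb x - r) ^ 2 := sq_nonneg _
        have e : (c / 2) * lb x ^ 2 + (1 / (2 * c)) * r ^ 2 - lb x * r =
            (c * lb x - r) ^ 2 / (2 * c) := by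
          field_simp
          ring
        have : 0 ≤ (c * lb x - r) ^ 2 / (2 * c) := by positivity
        linarith
      rw [hr2] at e1
      have e2 := mul_le_mul_of_nonneg_left e1 (h.1 x)
      have e3 : μ x * (c / 2 * lb x ^ 2 + 1 / (2 * c) * ((τ : ℝ) * EnS P τ s L x)) =
          (c / 2) * (μ x * lb x ^ 2) + ((τ : ℝ) / (2 * c)) * (μ x * EnS P τ s L x) := by
        field_simp
      linarith
    have hs := Finset.sum_le_sum (fun x (_ : x ∈ Finset.univ) => hpt x)
    rw [Finset.sum_add_distrib, ← Finset.mul_sum, ← Finset.mul_sum] at hs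
    have h5 : ((τ : ℝ) / (2 * c)) * ∑ x, μ x * EnS P τ s L x ≤ ((τ : ℝ) / (2 * c)) * (5 * W) :=
      mul_le_mul_of_nonneg_left (hF2.trans (by linarith)) (by positivity)
    have h6 : ((τ : ℝ) / (2 * c)) * (5 * W) = (c / 2) * W := by
      field_simp
      rw [hc2]
      ring
    linarith
  calc ∑ x, ∑ z, μ x * P x z * (v (κ x z) z - v (κ x z) x) ^ 2
      ≤ 4 * ∑ j ∈ Finset.range n, ∑ x, μ x * (ν j x * gr P (v j) x) := hE1
    _ ≤ 4 * ((1 / (τ : ℝ)) * ∑ x, μ x * (lb x * Real.sqrt ((τ : ℝ) * EnS P τ s L x))) :=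
        mul_le_mul_of_nonneg_left hE3 (by norm_num)
    _ ≤ 4 * ((1 / (τ : ℝ)) * (c * W)) :=
        mul_le_mul_of_nonneg_left (mul_le_mul_of_nonneg_left hCS (by positivity)) (by norm_num)
    _ = 4 * c / (τ : ℝ) * W := by ring

end Vale.Agent.P125.Poly43
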