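import Vale.Agent.P125.Poly.StepC_6

set_option linter.unusedSectionVars false
set_option linter.unusedVariables false

/-!
# P125, polynomial rate: step (D) = own measure for the dual family, and the Cauchy-Schwarz step
-/

namespace Vale.Agent.P125.Poly6

open scoped BigOperators
open Vale.Agent.P125.Dich Vale.Agent.P125.BV

variable {S : Type} [Fintype S] [DecidableEq S] {n : ℕ}

/-- own measure lemma, tails -/
lemma own_tail (G w : ℕ → ℝ) (n : ℕ) (hG : G n = 0)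
    (hw : ∀ i, i < n → |G i - G (i + 1)| ≤ w i) :
    ∀ d j, j + d = n → G j ^ 2 ≤ 2 * ∑ i ∈ Finset.Ico j n, w i * |G i| := by
  intro d
  induction d with
  | zero =>
    intro j hj
    have : j = n := by omega
    subst this
    simp [hG]
  | succ d ih =>
    intro j hj
    have hjn : j < n := by omega
    have h1 := ih (j + 1) (by omega)
    rw [Finset.sum_eq_sum_Ico_succ_bot hjn]
    have h2 := hw j hjn
    have h3 : G j ^ 2 - G (j + 1) ^ 2 ≤ 2 * (w j * |G j|) := by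
      have h6 : G j ^ 2 - G (j + 1) ^ 2 ≤ 2 * (G j * (G j - G (j + 1))) := by
        nlinarith [sq_nonneg (G j - G (j + 1))]
      have h4 : G j * (G j - G (j + 1)) ≤ |G j| * |G j - G (j + 1)| := by
        rw [← abs_mul]; exact le_abs_self _
      have h5 : |G j| * |G j - G (j + 1)| ≤ |G j| * w j :=
        mul_le_mul_of_nonneg_left h2 (abs_nonneg _)
      linarith
    linarith

lemma own_tail_fin (G : ℕ → ℝ) (w : Fin n → ℝ) (hG : G n = 0)
    (hw : ∀ i : Fin n, |G i.val - G (i.val + 1)| ≤ w i) (j : ℕ) (hj : j ≤ n) :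
    G j ^ 2 ≤ 2 * ∑ i : Fin n, w i * |G i.val| := by
  set w' : ℕ → ℝ := fun i => if h : i < n then w ⟨i, h⟩ else 0 with hw'
  have hw1 : ∀ i, i < n → |G i - G (i + 1)| ≤ w' i := by
    intro i hi
    simp only [hw', hi, dif_pos]
    exact hw ⟨i, hi⟩
  have h1 := own_tail G w' n hG hw1 (n - j) j (by omega)
  have h2 : ∑ i ∈ Finset.Ico j n, w' i * |G i| ≤ ∑ i ∈ Finset.range n, w' i * |G i| := by
    refine Finset.sum_le_sum_of_subset_of_nonneg ?_ ?_
    · intro i hi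
      rw [Finset.mem_Ico] at hi
      exact Finset.mem_range.mpr hi.2
    · intro i hi _
      rw [Finset.mem_range] at hi
      exact mul_nonneg ((abs_nonneg _).trans (hw1 i hi)) (abs_nonneg _)
  have h3 : ∑ i ∈ Finset.range n, w' i * |G i| = ∑ i : Fin n, w i * |G i.val| := by
    rw [Finset.sum_range]
    refine Finset.sum_congr rfl fun i _ => ?_
    simp [hw']
  linarith

/-- the dominating measures (not normalised) -/
def Nk (P : Matrix S S ℝ) (f : S → Fin n → ℝ) (τ s : ℕ) (l : Fin n) (x : S) : ℝ :=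
  Us P τ (op (P ^ s) (aK P f l)) x

/-- the dual family (not normalised) -/
noncomputable def Vk (P : Matrix S S ℝ) (f : S → Fin n → ℝ) (τ s : ℕ) (l : ℕ) (x : S) : ℝ :=
  Us P τ (Ph (ph P f τ s) l) x

lemma aK_nonneg {P : Matrix S S ℝ} (h0 : ∀ i j, 0 ≤ P i j) (f : S → Fin n → ℝ) (k : Fin n)
    (y : S) : 0 ≤ aK P f k y :=
  Finset.sum_nonneg fun b _ => mul_nonneg (h0 y b) (abs_nonneg _)

lemma abs_ph_le {μ : S → ℝ} {P : Matrix S S ℝ} (hc : IsChain μ P) (f : S → Fin n → ℝ) (τ s : ℕ)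
    (k : Fin n) (z : S) : |ph P f τ s k z| ≤ op (P ^ s) (aK P f k) z := by
  have h0 : 0 ≤ op (P ^ s) (aK P f k) z :=
    op_nonneg (isChain_pow hc s).2.2.1 (aK_nonneg hc.2.2.1 f k) z
  unfold ph
  split_ifs
  · rw [one_mul, abs_of_nonneg h0]
  · rw [neg_one_mul, abs_neg, abs_of_nonneg h0]

lemma Vk_top (P : Matrix S S ℝ) (f : S → Fin n → ℝ) (τ s : ℕ) (x : S) : Vk P f τ s n x = 0 := by
  unfold Vk
  rw [Us_Ph]
  refine Finset.sum_eq_zero fun k _ => ?_
  have : ¬ n ≤ k.val := by have := k.isLt; omega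
  simp [this]

lemma Vk_diff (P : Matrix S S ℝ) (f : S → Fin n → ℝ) (τ s : ℕ) (l : Fin n) (x : S) :
    Vk P f τ s l.val x - Vk P f τ s (l.val + 1) x = Us P τ (ph P f τ s l) x := by
  unfold Vk
  rw [Us_Ph, Us_Ph, ← Finset.sum_sub_distrib, Finset.sum_eq_single l]
  · simp
  · intro k _ hk
    have hk' : k.val ≠ l.val := fun h => hk (Fin.ext h)
    by_cases h1 : l.val ≤ k.val
    · have h2 : l.val + 1 ≤ k.val := by omega
      simp [h1, h2]
    · have h2 : ¬ l.val + 1 ≤ k.val := by omega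
      simp [h1, h2]
  · intro h
    exact absurd (Finset.mem_univ _) h

lemma abs_Us_le {μ : S → ℝ} {P : Matrix S S ℝ} (hc : IsChain μ P) (τ : ℕ) {g L : S → ℝ}
    (h : ∀ y, |g y| ≤ L y) (x : S) : |Us P τ g x| ≤ Us P τ L x := by
  unfold Us
  refine (Finset.abs_sum_le_sum_abs _ _).trans (Finset.sum_le_sum fun i _ => ?_)
  exact abs_op_le_of (isChain_pow hc i).2.2.1 h x

/-- the own-measure majorant of the squared oscillation of the dual family -/
noncomputable def X2 (P : Matrix S S ℝ) (f : S → Fin n → ℝ) (τ s : ℕ) (a b : S) : ℝ :=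
  2 * ∑ l : Fin n, (Nk P f τ s l a + Nk P f τ s l b) * |Vk P f τ s l.val a - Vk P f τ s l.val b|

/-- step (D) -/
lemma stepD {μ : S → ℝ} {P : Matrix S S ℝ} (hc : IsChain μ P) (f : S → Fin n → ℝ) (τ s : ℕ)
    (a b : S) (j : ℕ) (hj : j ≤ n) :
    (Vk P f τ s j a - Vk P f τ s j b) ^ 2 ≤ X2 P f τ s a b := by
  unfold X2
  refine own_tail_fin (fun l => Vk P f τ s l a - Vk P f τ s l b)
    (fun l => Nk P f τ s l a + Nk P f τ s l b) ?_ ?_ j hj
  · simp [Vk_top]
  · intro i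
    have e : (Vk P f τ s i.val a - Vk P f τ s i.val b) -
        (Vk P f τ s (i.val + 1) a - Vk P f τ s (i.val + 1) b)
        = Us P τ (ph P f τ s i) a - Us P τ (ph P f τ s i) b := by
      rw [← Vk_diff, ← Vk_diff]; ring
    show |(Vk P f τ s i.val a - Vk P f τ s i.val b) -
        (Vk P f τ s (i.val + 1) a - Vk P f τ s (i.val + 1) b)| ≤ _
    rw [e]
    have h1 := abs_Us_le hc τ (abs_ph_le hc f τ s i) a
    have h2 := abs_Us_le hc τ (abs_ph_le hc f τ s i) b
    have h3 := abs_sub (Us P τ (ph P f τ s i) a) (Us P τ (ph P f τ s i) b)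
    unfold Nk
    linarith

lemma X2_nonneg {μ : S → ℝ} {P : Matrix S S ℝ} (hc : IsChain μ P) (f : S → Fin n → ℝ) (τ s : ℕ)
    (a b : S) : 0 ≤ X2 P f τ s a b :=
  (sq_nonneg _).trans (stepD hc f τ s a b n le_rfl)

lemma wcs2 (w x y : S → S → ℝ) (hw : ∀ a b, 0 ≤ w a b) :
    (∑ a, ∑ b, w a b * (x a b * y a b)) ^ 2 ≤
      (∑ a, ∑ b, w a b * x a b ^ 2) * (∑ a, ∑ b, w a b * y a b ^ 2) := by
  have h := wcs (Finset.univ : Finset (S × S)) (fun p => w p.1 p.2) (fun p => x p.1 p.2)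
    (fun p => y p.1 p.2) (fun p _ => hw _ _)
  simpa only [Fintype.sum_prod_type] using h

lemma Rs_nonneg {μ : S → ℝ} {P : Matrix S S ℝ} (hc : IsChain μ P) (f : S → Fin n → ℝ)
    (τ s : ℕ) : 0 ≤ Rs μ P f τ s := by
  unfold Rs
  refine Finset.sum_nonneg fun k _ => Finset.sum_nonneg fun y _ => mul_nonneg (hc.1 y)
    (mul_nonneg (aK_nonneg hc.2.2.1 f k y)
      (op_nonneg (isChain_pow hc s).2.2.1 (fun z => abs_nonneg _) y))

/-- the mean of the majorant over the edges -/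
noncomputable def EX (μ : S → ℝ) (P : Matrix S S ℝ) (f : S → Fin n → ℝ) (τ s : ℕ) : ℝ :=
  ∑ a, ∑ b, μ a * P a b * X2 P f τ s a b

/-- steps (C)+(D)+Cauchy-Schwarz -/
lemma stepCD {μ : S → ℝ} {P : Matrix S S ℝ} (hc : IsChain μ P) (f : S → Fin n → ℝ) (τ s : ℕ) :
    Rs μ P f τ s ^ 2 ≤ (1 / 4) * (W μ P f * EX μ P f τ s) := by
  have h1 : Rs μ P f τ s ≤ (1 / 2) * ∑ a, ∑ b, μ a * P a b *
      (n1 (f b - f a) * Real.sqrt (X2 P f τ s a b)) := by
    rw [stepC hc]
    refine mul_le_mul_of_nonneg_left ?_ (by norm_num)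
    refine Finset.sum_le_sum fun a _ => Finset.sum_le_sum fun b _ => ?_
    refine mul_le_mul_of_nonneg_left ?_ (mul_nonneg (hc.1 a) (hc.2.2.1 a b))
    unfold n1
    rw [Finset.sum_mul]
    refine Finset.sum_le_sum fun l _ => ?_
    have h2 : |Vk P f τ s l.val a - Vk P f τ s l.val b| ≤ Real.sqrt (X2 P f τ s a b) :=
      Real.abs_le_sqrt (stepD hc f τ s a b l.val l.isLt.le)
    calc (f b l - f a l) * (Us P τ (Ph (ph P f τ s) l.val) a - Us P τ (Ph (ph P f τ s) l.val) b)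
        ≤ |(f b l - f a l) * (Vk P f τ s l.val a - Vk P f τ s l.val b)| := le_abs_self _
      _ = |f b l - f a l| * |Vk P f τ s l.val a - Vk P f τ s l.val b| := abs_mul _ _
      _ ≤ |(f b - f a) l| * Real.sqrt (X2 P f τ s a b) :=
          mul_le_mul_of_nonneg_left h2 (abs_nonneg _)
  have h3 := wcs2 (fun a b => μ a * P a b) (fun a b => n1 (f b - f a))
    (fun a b => Real.sqrt (X2 P f τ s a b)) (fun a b => mul_nonneg (hc.1 a) (hc.2.2.1 a b))
  have h4 : ∑ a, ∑ b, μ a * P a b * Real.sqrt (X2 P f τ s a b) ^ 2 = EX μ P f τ s := by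
    unfold EX
    refine Finset.sum_congr rfl fun a _ => Finset.sum_congr rfl fun b _ => ?_
    rw [Real.sq_sqrt (X2_nonneg hc f τ s a b)]
  rw [h4] at h3
  have h5 := Rs_nonneg hc f τ s
  have h6 : Rs μ P f τ s ^ 2 ≤ ((1 / 2) * ∑ a, ∑ b, μ a * P a b *
      (n1 (f b - f a) * Real.sqrt (X2 P f τ s a b))) ^ 2 := by
    exact pow_le_pow_left₀ h5 h1 2
  unfold W
  rw [mul_pow] at h6
  nlinarith [h6, h3]

end Vale.Agent.P125.Poly6
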