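import Vale.Agent.P125.Dich.Iter

set_option linter.unusedSectionVars false
set_option linter.unusedVariables false

/-!
# P125, polynomial rate, step (F): an averaged function is almost harmonic

For a reversible chain `(μ, P)`, `v = A φ` with `A = (1/τ) ∑_{i<τ} P^i` and `|φ| ≤ L`, the energy
`Γ v = ∑_b P a b (v b - v a)^2` summed along `τ` steps is bounded by a function `EnStar` which does
not depend on `φ`, and whose mean is at most `5 ∑ μ L^2`.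
-/

namespace Vale.Agent.P125.Poly1

open scoped BigOperators
open Matrix Vale.Agent.P125.Dich

variable {S : Type} [Fintype S] [DecidableEq S]

lemma mv_mono {μ : S → ℝ} {P : Matrix S S ℝ} (hc : IsChain μ P) {g h : S → ℝ}
    (hgh : ∀ a, g a ≤ h a) (a : S) : (P *ᵥ g) a ≤ (P *ᵥ h) a := by
  simp only [Matrix.mulVec, dotProduct]
  exact Finset.sum_le_sum fun b _ => mul_le_mul_of_nonneg_left (hgh b) (hc.2.2.1 a b)

lemma mv_nonneg {μ : S → ℝ} {P : Matrix S S ℝ} (hc : IsChain μ P) {g : S → ℝ}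
    (hg : ∀ a, 0 ≤ g a) (a : S) : 0 ≤ (P *ᵥ g) a := by
  simp only [Matrix.mulVec, dotProduct]
  exact Finset.sum_nonneg fun b _ => mul_nonneg (hc.2.2.1 a b) (hg b)

lemma mv_abs {μ : S → ℝ} {P : Matrix S S ℝ} (hc : IsChain μ P) (g : S → ℝ) (a : S) :
    |(P *ᵥ g) a| ≤ (P *ᵥ (fun z => |g z|)) a := by
  simp only [Matrix.mulVec, dotProduct]
  refine (Finset.abs_sum_le_sum_abs _ _).trans (Finset.sum_le_sum fun b _ => ?_)
  rw [abs_mul, abs_of_nonneg (hc.2.2.1 a b)]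

lemma mv_abs_le {μ : S → ℝ} {P : Matrix S S ℝ} (hc : IsChain μ P) {g L : S → ℝ}
    (h : ∀ a, |g a| ≤ L a) (a : S) : |(P *ᵥ g) a| ≤ (P *ᵥ L) a :=
  (mv_abs hc g a).trans (mv_mono hc h a)

/-- Jensen -/
lemma mv_sq {μ : S → ℝ} {P : Matrix S S ℝ} (hc : IsChain μ P) (g : S → ℝ) (a : S) :
    ((P *ᵥ g) a) ^ 2 ≤ (P *ᵥ (fun z => g z ^ 2)) a := by
  set m := (P *ᵥ g) a with hm
  have h0 : 0 ≤ ∑ b, P a b * (g b - m) ^ 2 :=
    Finset.sum_nonneg fun b _ => mul_nonneg (hc.2.2.1 a b) (sq_nonneg _)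
  have h1 : ∑ b, P a b * (g b - m) ^ 2 =
      (∑ b, P a b * g b ^ 2) - 2 * m * (∑ b, P a b * g b) + m ^ 2 * ∑ b, P a b := by
    rw [Finset.mul_sum, Finset.mul_sum, ← Finset.sum_sub_distrib, ← Finset.sum_add_distrib]
    exact Finset.sum_congr rfl fun b _ => by ring
  have h2 : ∑ b, P a b * g b = m := rfl
  rw [h1, h2, hc.2.2.2.1 a] at h0
  have h3 : (P *ᵥ (fun z => g z ^ 2)) a = ∑ b, P a b * g b ^ 2 := rfl
  rw [h3]
  nlinarith

/-- stationarity -/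
lemma mu_mv {μ : S → ℝ} {P : Matrix S S ℝ} (hc : IsChain μ P) (g : S → ℝ) :
    ∑ a, μ a * (P *ᵥ g) a = ∑ a, μ a * g a := by
  simp only [Matrix.mulVec, dotProduct, Finset.mul_sum]
  rw [Finset.sum_comm]
  refine Finset.sum_congr rfl fun b _ => ?_
  have h : ∀ a, μ a * (P a b * g b) = μ b * g b * P b a := by
    intro a
    rw [← mul_assoc, hc.2.2.2.2 a b]
    ring
  simp only [h]
  rw [← Finset.mul_sum, hc.2.2.2.1 b, mul_one]

/-- self-adjointness -/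
lemma mu_mv_symm {μ : S → ℝ} {P : Matrix S S ℝ} (hc : IsChain μ P) (g h : S → ℝ) :
    ∑ a, μ a * (g a * (P *ᵥ h) a) = ∑ a, μ a * ((P *ᵥ g) a * h a) := by
  simp only [Matrix.mulVec, dotProduct, Finset.mul_sum, Finset.sum_mul]
  rw [Finset.sum_comm]
  refine Finset.sum_congr rfl fun b _ => Finset.sum_congr rfl fun a _ => ?_
  have := hc.2.2.2.2 a b
  calc μ a * (g a * (P a b * h b)) = (μ a * P a b) * (g a * h b) := by ring
    _ = (μ b * P b a) * (g a * h b) := by rw [this]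
    _ = μ b * (P b a * g a * h b) := by ring

/-- `L_2` contraction -/
lemma l2_contr {μ : S → ℝ} {P : Matrix S S ℝ} (hc : IsChain μ P) (g : S → ℝ) :
    ∑ a, μ a * ((P *ᵥ g) a) ^ 2 ≤ ∑ a, μ a * g a ^ 2 := by
  rw [← mu_mv hc (fun z => g z ^ 2)]
  exact Finset.sum_le_sum fun a _ => mul_le_mul_of_nonneg_left (mv_sq hc g a) (hc.1 a)

/-- the averaging matrix `(1/τ) ∑_{i<τ} P^i` -/
noncomputable def AvM (P : Matrix S S ℝ) (τ : ℕ) : Matrix S S ℝ :=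
  (1 / (τ : ℝ)) • ∑ i ∈ Finset.range τ, P ^ i

lemma AvM_apply (P : Matrix S S ℝ) (τ : ℕ) (a b : S) :
    AvM P τ a b = (1 / (τ : ℝ)) * ∑ i ∈ Finset.range τ, (P ^ i) a b := by
  simp [AvM, Matrix.smul_apply, Matrix.sum_apply]

lemma isChain_AvM {μ : S → ℝ} {P : Matrix S S ℝ} (hc : IsChain μ P) {τ : ℕ} (hτ : 0 < τ) :
    IsChain μ (AvM P τ) := by
  have hτ' : (0 : ℝ) < τ := by exact_mod_cast hτ
  refine ⟨hc.1, hc.2.1, ?_, ?_, ?_⟩
  · intro a b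
    rw [AvM_apply]
    exact mul_nonneg (by positivity)
      (Finset.sum_nonneg fun i _ => (isChain_pow hc i).2.2.1 a b)
  · intro a
    simp only [AvM_apply]
    rw [← Finset.mul_sum, Finset.sum_comm]
    simp only [(isChain_pow hc _).2.2.2.1 a]
    simp
    field_simp
  · intro a b
    simp only [AvM_apply]
    rw [mul_left_comm, mul_left_comm (μ b), Finset.mul_sum (a := μ a), Finset.mul_sum (a := μ b)]
    congr 1
    exact Finset.sum_congr rfl fun i _ => (isChain_pow hc i).2.2.2.2 a b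

lemma AvM_mulVec (P : Matrix S S ℝ) (τ : ℕ) (g : S → ℝ) (a : S) :
    (AvM P τ *ᵥ g) a = (1 / (τ : ℝ)) * ∑ i ∈ Finset.range τ, ((P ^ i) *ᵥ g) a := by
  simp only [AvM, Matrix.smul_mulVec, Matrix.sum_mulVec, Pi.smul_apply, Finset.sum_apply,
    smul_eq_mul]

/-- `P A - A = (P^τ - 1)/τ` -/
lemma step_AvM (P : Matrix S S ℝ) (τ : ℕ) (g : S → ℝ) (a : S) :
    (P *ᵥ (AvM P τ *ᵥ g)) a - (AvM P τ *ᵥ g) a = (1 / (τ : ℝ)) * (((P ^ τ) *ᵥ g) a - g a) := by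
  have h : P * AvM P τ - AvM P τ = (1 / (τ : ℝ)) • (P ^ τ - 1) := by
    rw [← mul_geom_sum, AvM, sub_mul, one_mul, Matrix.mul_smul, smul_sub]
  have h2 : (P *ᵥ (AvM P τ *ᵥ g)) - (AvM P τ *ᵥ g) = (P * AvM P τ - AvM P τ) *ᵥ g := by
    rw [Matrix.sub_mulVec, Matrix.mulVec_mulVec]
  have h3 := congrFun h2 a
  rw [h] at h3
  simp only [Pi.sub_apply] at h3
  rw [h3, Matrix.smul_mulVec, Matrix.sub_mulVec, Matrix.one_mulVec]
  simp

/-- the energy density -/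
def Gam (P : Matrix S S ℝ) (v : S → ℝ) (a : S) : ℝ := ∑ b, P a b * (v b - v a) ^ 2

lemma Gam_eq {μ : S → ℝ} {P : Matrix S S ℝ} (hc : IsChain μ P) (v : S → ℝ) (a : S) :
    Gam P v a = (P *ᵥ (fun z => v z ^ 2)) a - v a ^ 2 - 2 * v a * ((P *ᵥ v) a - v a) := by
  have h1 : Gam P v a =
      (∑ b, P a b * v b ^ 2) - 2 * v a * (∑ b, P a b * v b) + v a ^ 2 * ∑ b, P a b := by
    unfold Gam
    rw [Finset.mul_sum, Finset.mul_sum, ← Finset.sum_sub_distrib, ← Finset.sum_add_distrib]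
    exact Finset.sum_congr rfl fun b _ => by ring
  have h2 : (P *ᵥ v) a = ∑ b, P a b * v b := rfl
  have h3 : (P *ᵥ (fun z => v z ^ 2)) a = ∑ b, P a b * v b ^ 2 := rfl
  rw [h1, h2, h3, hc.2.2.2.1 a]
  ring

/-- the uniform bound for the energy along `τ` steps after time `s` -/
noncomputable def EnStar (P : Matrix S S ℝ) (s τ : ℕ) (L : S → ℝ) (a : S) : ℝ :=
  ((P ^ (s + τ)) *ᵥ (fun z => (AvM P τ *ᵥ L) z ^ 2)) a +
    (2 / (τ : ℝ)) * ∑ i ∈ Finset.range τ,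
      ((P ^ (s + i)) *ᵥ (fun z => (AvM P τ *ᵥ L) z * (((P ^ τ) *ᵥ L) z + L z))) a

/-- (F1) pointwise bound, uniform in `φ` -/
theorem energy_le {μ : S → ℝ} {P : Matrix S S ℝ} (hc : IsChain μ P) {τ : ℕ} (hτ : 0 < τ) (s : ℕ)
    {φ L : S → ℝ} (hφ : ∀ a, |φ a| ≤ L a) (a : S) :
    ∑ i ∈ Finset.range τ, ((P ^ (s + i)) *ᵥ (Gam P (AvM P τ *ᵥ φ))) a ≤ EnStar P s τ L a := by
  have hτ' : (0 : ℝ) < τ := by exact_mod_cast hτ
  set v := AvM P τ *ᵥ φ with hv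
  set AL := AvM P τ *ᵥ L with hAL
  set w : S → ℝ := fun z => v z ^ 2 with hw
  set H : S → ℝ := fun z => AL z * (((P ^ τ) *ᵥ L) z + L z) with hH
  have hvA : ∀ z, |v z| ≤ AL z := fun z => mv_abs_le (isChain_AvM hc hτ) hφ z
  have hpt : ∀ z, Gam P v z ≤ ((P *ᵥ w) - w + (2 / (τ : ℝ)) • H) z := by
    intro z
    rw [Gam_eq hc v z, hv, step_AvM P τ φ z, ← hv]
    simp only [Pi.add_apply, Pi.sub_apply, Pi.smul_apply, smul_eq_mul]
    have e1 : |((P ^ τ) *ᵥ φ) z - φ z| ≤ ((P ^ τ) *ᵥ L) z + L z := by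
      refine (abs_sub _ _).trans (add_le_add (mv_abs_le (isChain_pow hc τ) hφ z) (hφ z))
    have e2 : |v z * (((P ^ τ) *ᵥ φ) z - φ z)| ≤ H z := by
      rw [abs_mul]
      exact mul_le_mul (hvA z) e1 (abs_nonneg _) ((abs_nonneg _).trans (hvA z))
    have e3 := (abs_le.mp e2).1
    have e4 : 2 * v z * (1 / (τ : ℝ) * (((P ^ τ) *ᵥ φ) z - φ z)) =
        (2 / (τ : ℝ)) * (v z * (((P ^ τ) *ᵥ φ) z - φ z)) := by
      field_simp
    rw [e4]
    have e5 : 0 < 2 / (τ : ℝ) := by positivity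
    have e6 : (2 / (τ : ℝ)) * (- H z) ≤ (2 / (τ : ℝ)) * (v z * (((P ^ τ) *ᵥ φ) z - φ z)) :=
      mul_le_mul_of_nonneg_left e3 e5.le
    have e7 : w z = v z ^ 2 := rfl
    rw [e7]
    linarith
  have hi : ∀ i, ((P ^ (s + i)) *ᵥ (Gam P v)) a ≤
      (((P ^ (s + (i + 1))) *ᵥ w) a - ((P ^ (s + i)) *ᵥ w) a) +
        (2 / (τ : ℝ)) * ((P ^ (s + i)) *ᵥ H) a := by
    intro i
    refine (mv_mono (isChain_pow hc (s + i)) hpt a).trans (le_of_eq ?_)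
    rw [Matrix.mulVec_add, Matrix.mulVec_sub, Matrix.mulVec_smul, Matrix.mulVec_mulVec,
      ← pow_succ, add_assoc]
    simp
  refine (Finset.sum_le_sum fun i _ => hi i).trans ?_
  rw [Finset.sum_add_distrib, Finset.sum_range_sub (fun i => ((P ^ (s + i)) *ᵥ w) a),
    ← Finset.mul_sum]
  unfold EnStar
  have h0 : 0 ≤ ((P ^ (s + 0)) *ᵥ w) a := mv_nonneg (isChain_pow hc _) (fun z => sq_nonneg _) a
  have h1 : ((P ^ (s + τ)) *ᵥ w) a ≤ ((P ^ (s + τ)) *ᵥ (fun z => AL z ^ 2)) a :=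
    mv_mono (isChain_pow hc _) (fun z => sq_le_sq' (by linarith [(abs_le.mp (hvA z)).1])
      (abs_le.mp (hvA z)).2) a
  linarith

/-- (F2) the mean of the uniform bound -/
theorem mean_EnStar_le {μ : S → ℝ} {P : Matrix S S ℝ} (hc : IsChain μ P) {τ : ℕ} (hτ : 0 < τ)
    (s : ℕ) (L : S → ℝ) :
    ∑ a, μ a * EnStar P s τ L a ≤ 5 * ∑ a, μ a * L a ^ 2 := by
  have hτ' : (0 : ℝ) < τ := by exact_mod_cast hτ
  set AL := AvM P τ *ᵥ L with hAL
  set H : S → ℝ := fun z => AL z * (((P ^ τ) *ᵥ L) z + L z) with hH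
  have e1 : ∑ a, μ a * EnStar P s τ L a = ∑ a, μ a * AL a ^ 2 + 2 * ∑ a, μ a * H a := by
    unfold EnStar
    have h0 : ∀ a, μ a * (((P ^ (s + τ)) *ᵥ (fun z => (AvM P τ *ᵥ L) z ^ 2)) a +
        (2 / (τ : ℝ)) * ∑ i ∈ Finset.range τ,
          ((P ^ (s + i)) *ᵥ (fun z => (AvM P τ *ᵥ L) z * (((P ^ τ) *ᵥ L) z + L z))) a) =
        μ a * ((P ^ (s + τ)) *ᵥ (fun z => AL z ^ 2)) a +
          μ a * (2 / (τ : ℝ) * ∑ i ∈ Finset.range τ, ((P ^ (s + i)) *ᵥ H) a) := by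
      intro a
      rw [mul_add]
    simp only [h0]
    rw [Finset.sum_add_distrib, mu_mv (isChain_pow hc _)]
    congr 1
    have : ∀ a, μ a * (2 / (τ : ℝ) * ∑ i ∈ Finset.range τ, ((P ^ (s + i)) *ᵥ H) a) =
        2 / (τ : ℝ) * ∑ i ∈ Finset.range τ, μ a * ((P ^ (s + i)) *ᵥ H) a := by
      intro a
      rw [Finset.mul_sum, Finset.mul_sum, Finset.mul_sum]
      exact Finset.sum_congr rfl fun i _ => by ring
    have h2 : ∑ a, μ a * (2 / (τ : ℝ) * ∑ i ∈ Finset.range τ, ((P ^ (s + i)) *ᵥ H) a) =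
        2 * ∑ a, μ a * H a := by
      simp only [this]
      rw [← Finset.mul_sum, Finset.sum_comm]
      simp only [mu_mv (isChain_pow hc _)]
      simp
      field_simp
    exact h2
  have n1 : ∑ a, μ a * AL a ^ 2 ≤ ∑ a, μ a * L a ^ 2 := l2_contr (isChain_AvM hc hτ) L
  have n2 : ∑ a, μ a * (((P ^ τ) *ᵥ L) a) ^ 2 ≤ ∑ a, μ a * L a ^ 2 := l2_contr (isChain_pow hc τ) L
  have n3 : ∑ a, μ a * H a ≤
      ∑ a, μ a * AL a ^ 2 + (1 / 2) * ∑ a, μ a * (((P ^ τ) *ᵥ L) a) ^ 2 +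
        (1 / 2) * ∑ a, μ a * L a ^ 2 := by
    rw [Finset.mul_sum, Finset.mul_sum, ← Finset.sum_add_distrib, ← Finset.sum_add_distrib]
    refine Finset.sum_le_sum fun a _ => ?_
    have : H a ≤ AL a ^ 2 + (1 / 2) * (((P ^ τ) *ᵥ L) a) ^ 2 + (1 / 2) * L a ^ 2 := by
      simp only [hH]
      nlinarith [sq_nonneg (AL a - ((P ^ τ) *ᵥ L) a), sq_nonneg (AL a - L a)]
    have := mul_le_mul_of_nonneg_left this (hc.1 a)
    linarith
  rw [e1]
  linarith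

end Vale.Agent.P125.Poly1
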