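import Vale.Agent.P125.Poly.Op_34

set_option linter.unusedSectionVars false
set_option linter.unusedVariables false

/-!
# P125, polynomial rate, step (F): a time average is almost harmonic, so its energy is bounded
-/

namespace Vale.Agent.P125.Poly34

open Vale.Agent.P125.Dich
open scoped BigOperators Matrix

variable {S : Type} [Fintype S] [DecidableEq S] {μ : S → ℝ} {P : Matrix S S ℝ}

/-- carre du champ -/
def Gam (P : Matrix S S ℝ) (v : S → ℝ) : S → ℝ := fun a => ∑ b, P a b * (v b - v a) ^ 2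

lemma Gam_nonneg (hc : IsChain μ P) (v : S → ℝ) (a : S) : 0 ≤ Gam P v a :=
  Finset.sum_nonneg fun b _ => mul_nonneg (hc.2.2.1 a b) (sq_nonneg _)

lemma Gam_eq (hc : IsChain μ P) (v : S → ℝ) (a : S) :
    Gam P v a = (P *ᵥ (fun z => v z ^ 2)) a - v a ^ 2 - 2 * v a * ((P *ᵥ v) a - v a) := by
  have h1 : Gam P v a = (P *ᵥ (fun z => (v z ^ 2 + (-(2 * v a)) * v z) + v a ^ 2)) a := by
    unfold Gam
    rw [mv_apply]
    exact Finset.sum_congr rfl fun b _ => by ring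
  rw [h1, mv_add P (fun z => v z ^ 2 + (-(2 * v a)) * v z) (fun _ => v a ^ 2),
    mv_add P (fun z => v z ^ 2) (fun z => (-(2 * v a)) * v z), mv_smul, mv_const hc]
  ring

/-- the uniform bound of step (F) -/
noncomputable def EnStar (τ s : ℕ) (P : Matrix S S ℝ) (L : S → ℝ) : S → ℝ := fun y =>
  ((P ^ (s + τ)) *ᵥ (fun z => (avg τ P L z) ^ 2)) y +
    (2 / (τ : ℝ)) * ∑ i ∈ Finset.range τ,
      ((P ^ (s + i)) *ᵥ (fun z => avg τ P L z * (((P ^ τ) *ᵥ L) z + L z))) y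

theorem stepF_pointwise (hc : IsChain μ P) (τ s : ℕ) (hτ : 1 ≤ τ) (φ L : S → ℝ)
    (hφ : ∀ y, |φ y| ≤ L y) (y : S) :
    ∑ i ∈ Finset.range τ, ((P ^ (s + i)) *ᵥ (Gam P (avg τ P φ))) y ≤ EnStar τ s P L y := by
  have hτ0 : (0 : ℝ) < τ := by exact_mod_cast hτ
  set v := avg τ P φ with hv
  set AL := avg τ P L with hAL
  set w : S → ℝ := fun z => v z ^ 2 with hw
  set Cc : S → ℝ := fun z => AL z * (((P ^ τ) *ᵥ L) z + L z) with hCc
  have hvA : ∀ z, |v z| ≤ AL z := fun z => abs_avg_le hc τ hφ z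
  have hB : ∀ z, Gam P v z ≤ ((P *ᵥ w) z - w z) + (2 / (τ : ℝ)) * Cc z := by
    intro z
    rw [Gam_eq hc v z]
    have h1 : (P *ᵥ v) z - v z = (1 / (τ : ℝ)) * (((P ^ τ) *ᵥ φ) z - φ z) := mv_avg_sub τ P φ z
    have h2 : |((P ^ τ) *ᵥ φ) z - φ z| ≤ ((P ^ τ) *ᵥ L) z + L z := by
      refine (abs_sub _ _).trans ?_
      exact add_le_add (abs_mv_le_of (isChain_pow hc τ) hφ z) (hφ z)
    have h3 : |(P *ᵥ v) z - v z| ≤ (1 / (τ : ℝ)) * (((P ^ τ) *ᵥ L) z + L z) := by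
      rw [h1, abs_mul, abs_of_nonneg (by positivity : (0 : ℝ) ≤ 1 / (τ : ℝ))]
      exact mul_le_mul_of_nonneg_left h2 (by positivity)
    have h4 : -(2 * v z * ((P *ᵥ v) z - v z)) ≤ 2 * (|v z| * |(P *ᵥ v) z - v z|) := by
      have := neg_abs_le (v z * ((P *ᵥ v) z - v z))
      rw [abs_mul] at this
      linarith
    have h5 : |v z| * |(P *ᵥ v) z - v z|
        ≤ AL z * ((1 / (τ : ℝ)) * (((P ^ τ) *ᵥ L) z + L z)) :=
      mul_le_mul (hvA z) h3 (abs_nonneg _) ((abs_nonneg _).trans (hvA z))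
    have h6 : (2 / (τ : ℝ)) * Cc z = 2 * (AL z * ((1 / (τ : ℝ)) * (((P ^ τ) *ᵥ L) z + L z))) := by
      simp only [hCc]
      ring
    rw [h6]
    simp only [hw]
    linarith
  have hstep : ∀ i, ((P ^ (s + i)) *ᵥ (Gam P v)) y
      ≤ (((P ^ (s + (i + 1))) *ᵥ w) y - ((P ^ (s + i)) *ᵥ w) y)
        + (2 / (τ : ℝ)) * ((P ^ (s + i)) *ᵥ Cc) y := by
    intro i
    refine (mv_mono (isChain_pow hc (s + i)) hB y).trans (le_of_eq ?_)
    rw [mv_add (P ^ (s + i)) (fun z => (P *ᵥ w) z - w z) (fun z => (2 / (τ : ℝ)) * Cc z),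
      mv_sub, mv_smul]
    have : (P ^ (s + (i + 1))) *ᵥ w = (P ^ (s + i)) *ᵥ (P *ᵥ w) := by
      rw [← add_assoc, pow_succ_mv]
    rw [this]
  have hsum := Finset.sum_le_sum (s := Finset.range τ) fun i _ => hstep i
  rw [Finset.sum_add_distrib, Finset.sum_range_sub (fun i => ((P ^ (s + i)) *ᵥ w) y) τ,
    ← Finset.mul_sum] at hsum
  refine hsum.trans ?_
  unfold EnStar
  have h7 : ((P ^ (s + τ)) *ᵥ w) y ≤ ((P ^ (s + τ)) *ᵥ (fun z => AL z ^ 2)) y := by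
    apply mv_mono (isChain_pow hc (s + τ))
    intro z
    simp only [hw]
    exact sq_le_sq' (by linarith [(abs_le.1 (hvA z)).1]) (abs_le.1 (hvA z)).2
  have h8 : 0 ≤ ((P ^ (s + 0)) *ᵥ w) y :=
    mv_nonneg (isChain_pow hc (s + 0)) (fun z => sq_nonneg _) y
  linarith

theorem stepF_total (hc : IsChain μ P) (τ s : ℕ) (hτ : 1 ≤ τ) (L : S → ℝ) :
    ∑ y, μ y * EnStar τ s P L y ≤ 5 * ∑ y, μ y * L y ^ 2 := by
  have hτ0 : (0 : ℝ) < τ := by exact_mod_cast hτ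
  set AL := avg τ P L with hAL
  set Cc : S → ℝ := fun z => AL z * (((P ^ τ) *ᵥ L) z + L z) with hCc
  set W := ∑ y, μ y * L y ^ 2 with hW
  have hA : ∑ y, μ y * AL y ^ 2 ≤ W := avg_contr hc τ hτ L
  have hPL : ∑ y, μ y * (((P ^ τ) *ᵥ L) y) ^ 2 ≤ W := contr (isChain_pow hc τ) L
  have hC : ∑ y, μ y * Cc y ≤ 2 * W := by
    have e : ∑ y, μ y * Cc y
        = ∑ y, μ y * (AL y * ((P ^ τ) *ᵥ L) y) + ∑ y, μ y * (AL y * L y) := by
      rw [← Finset.sum_add_distrib]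
      refine Finset.sum_congr rfl fun y _ => ?_
      simp only [hCc]
      ring
    rw [e]
    have i1 := inner_le hc AL ((P ^ τ) *ᵥ L)
    have i2 := inner_le hc AL L
    linarith
  have e1 : ∑ y, μ y * EnStar τ s P L y
      = ∑ y, μ y * ((P ^ (s + τ)) *ᵥ (fun z => AL z ^ 2)) y
        + (2 / (τ : ℝ)) * ∑ i ∈ Finset.range τ, ∑ y, μ y * ((P ^ (s + i)) *ᵥ Cc) y := by
    have hy : ∀ y, μ y * EnStar τ s P L y
        = μ y * ((P ^ (s + τ)) *ᵥ (fun z => AL z ^ 2)) y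
          + (2 / (τ : ℝ)) * ∑ i ∈ Finset.range τ, μ y * ((P ^ (s + i)) *ᵥ Cc) y := by
      intro y
      unfold EnStar
      rw [mul_add, ← Finset.mul_sum]
      ring
    rw [Finset.sum_congr rfl fun y _ => hy y, Finset.sum_add_distrib, ← Finset.mul_sum,
      Finset.sum_comm]
  rw [e1, stat (isChain_pow hc (s + τ))]
  have e2 : ∑ i ∈ Finset.range τ, ∑ y, μ y * ((P ^ (s + i)) *ᵥ Cc) y
      = (τ : ℝ) * ∑ y, μ y * Cc y := by
    rw [Finset.sum_congr rfl fun i _ => stat (isChain_pow hc (s + i)) Cc, Finset.sum_const,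
      Finset.card_range, nsmul_eq_mul]
  rw [e2]
  have e3 : (2 / (τ : ℝ)) * ((τ : ℝ) * ∑ y, μ y * Cc y) = 2 * ∑ y, μ y * Cc y := by
    field_simp
  rw [e3]
  linarith

end Vale.Agent.P125.Poly34
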