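import Vale.Agent.P125.Dich.Iter

/-!
# Step (F): an averaged function is almost harmonic, so its energy along the chain is bounded

Matrices only.  `(μ, P)` is a stationary reversible chain on a finite set.
-/

namespace Vale.Agent.P125.Poly72

open scoped BigOperators
open Vale.Agent.P125.Dich

set_option linter.unusedSectionVars false

variable {S : Type} [Fintype S] [DecidableEq S]

/-! ## Small API for a stochastic matrix reversible with respect to `μ` -/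

theorem mulVec_mono {μ : S → ℝ} {R : Matrix S S ℝ} (h : IsChain μ R) {f g : S → ℝ}
    (hfg : ∀ z, f z ≤ g z) (y : S) : R.mulVec f y ≤ R.mulVec g y := by
  obtain ⟨_, _, h3, _, _⟩ := h
  simp only [Matrix.mulVec, dotProduct]
  exact Finset.sum_le_sum fun z _ => mul_le_mul_of_nonneg_left (hfg z) (h3 y z)

theorem mulVec_nonneg {μ : S → ℝ} {R : Matrix S S ℝ} (h : IsChain μ R) {g : S → ℝ}
    (hg : ∀ z, 0 ≤ g z) (y : S) : 0 ≤ R.mulVec g y := by
  obtain ⟨_, _, h3, _, _⟩ := h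
  simp only [Matrix.mulVec, dotProduct]
  exact Finset.sum_nonneg fun z _ => mul_nonneg (h3 y z) (hg z)

theorem abs_mulVec_le {μ : S → ℝ} {R : Matrix S S ℝ} (h : IsChain μ R) {f L : S → ℝ}
    (hf : ∀ z, |f z| ≤ L z) (y : S) : |R.mulVec f y| ≤ R.mulVec L y := by
  obtain ⟨_, _, h3, _, _⟩ := h
  simp only [Matrix.mulVec, dotProduct]
  refine (Finset.abs_sum_le_sum_abs _ _).trans (Finset.sum_le_sum fun z _ => ?_)
  rw [abs_mul, abs_of_nonneg (h3 y z)]
  exact mul_le_mul_of_nonneg_left (hf z) (h3 y z)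

/-- self-adjointness -/
theorem selfadj {μ : S → ℝ} {R : Matrix S S ℝ} (h : IsChain μ R) (f g : S → ℝ) :
    ∑ y, μ y * (f y * R.mulVec g y) = ∑ y, μ y * (R.mulVec f y * g y) := by
  obtain ⟨_, _, _, _, h5⟩ := h
  simp only [Matrix.mulVec, dotProduct, Finset.mul_sum, Finset.sum_mul]
  rw [Finset.sum_comm]
  refine Finset.sum_congr rfl fun z _ => Finset.sum_congr rfl fun y _ => ?_
  calc μ y * (f y * (R y z * g z)) = (μ y * R y z) * (f y * g z) := by ring
    _ = (μ z * R z y) * (f y * g z) := by rw [h5 y z]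
    _ = μ z * (R z y * f y * g z) := by ring

/-- stationarity -/
theorem stat {μ : S → ℝ} {R : Matrix S S ℝ} (h : IsChain μ R) (g : S → ℝ) :
    ∑ y, μ y * R.mulVec g y = ∑ y, μ y * g y := by
  have h4 := h.2.2.2.1
  have := selfadj h (fun _ => 1) g
  have h1 : ∀ y, R.mulVec (fun _ => (1 : ℝ)) y = 1 := by
    intro y
    simp only [Matrix.mulVec, dotProduct, mul_one]
    exact h4 y
  simpa [h1] using this

/-- Jensen -/
theorem jensen {μ : S → ℝ} {R : Matrix S S ℝ} (h : IsChain μ R) (g : S → ℝ) (y : S) :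
    (R.mulVec g y) ^ 2 ≤ R.mulVec (fun z => g z ^ 2) y := by
  obtain ⟨_, _, h3, h4, _⟩ := h
  set m := R.mulVec g y with hm
  have h0 : 0 ≤ ∑ z, R y z * (g z - m) ^ 2 :=
    Finset.sum_nonneg fun z _ => mul_nonneg (h3 y z) (sq_nonneg _)
  have h1 : ∑ z, R y z * (g z - m) ^ 2
      = ∑ z, R y z * g z ^ 2 - 2 * m * ∑ z, R y z * g z + m ^ 2 * ∑ z, R y z := by
    rw [Finset.mul_sum, Finset.mul_sum, ← Finset.sum_sub_distrib, ← Finset.sum_add_distrib]
    exact Finset.sum_congr rfl fun z _ => by ring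
  have h2 : ∑ z, R y z * g z = m := rfl
  have h5 : R.mulVec (fun z => g z ^ 2) y = ∑ z, R y z * g z ^ 2 := rfl
  rw [h1, h2, h4 y] at h0
  rw [h5]
  nlinarith

theorem l2_contr {μ : S → ℝ} {R : Matrix S S ℝ} (h : IsChain μ R) (g : S → ℝ) :
    ∑ y, μ y * (R.mulVec g y) ^ 2 ≤ ∑ y, μ y * g y ^ 2 := by
  rw [← stat h (fun z => g z ^ 2)]
  exact Finset.sum_le_sum fun y _ => mul_le_mul_of_nonneg_left (jensen h g y) (h.1 y)

/-! ## Cesàro averages -/

/-- `A g = (1/τ) ∑_{i<τ} P^i g` -/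
noncomputable def Av (P : Matrix S S ℝ) (τ : ℕ) (g : S → ℝ) (y : S) : ℝ :=
  (1 / (τ : ℝ)) * ∑ i ∈ Finset.range τ, ((P ^ i).mulVec g) y

/-- the carré du champ of `v` -/
def Gam (P : Matrix S S ℝ) (v : S → ℝ) (a : S) : ℝ := ∑ b, P a b * (v b - v a) ^ 2

/-- the function `(A L) (P^τ L + L)` -/
noncomputable def Bf (P : Matrix S S ℝ) (τ : ℕ) (L : S → ℝ) (z : S) : ℝ :=
  Av P τ L z * ((P ^ τ).mulVec L z + L z)

/-- the uniform bound for the energy -/
noncomputable def EnStar (P : Matrix S S ℝ) (s τ : ℕ) (L : S → ℝ) (y : S) : ℝ :=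
  ((P ^ (s + τ)).mulVec (fun z => (Av P τ L z) ^ 2)) y
    + (2 / (τ : ℝ)) * ∑ i ∈ Finset.range τ, ((P ^ (s + i)).mulVec (Bf P τ L)) y

theorem abs_Av_le {μ : S → ℝ} {P : Matrix S S ℝ} (h : IsChain μ P) (τ : ℕ) {φ L : S → ℝ}
    (hφ : ∀ z, |φ z| ≤ L z) (y : S) : |Av P τ φ y| ≤ Av P τ L y := by
  unfold Av
  rw [abs_mul, abs_of_nonneg (by positivity : (0 : ℝ) ≤ 1 / (τ : ℝ))]
  refine mul_le_mul_of_nonneg_left ?_ (by positivity)
  exact (Finset.abs_sum_le_sum_abs _ _).trans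
    (Finset.sum_le_sum fun i _ => abs_mulVec_le (isChain_pow h i) hφ y)

theorem Av_l2_contr {μ : S → ℝ} {P : Matrix S S ℝ} (h : IsChain μ P) {τ : ℕ} (hτ : 1 ≤ τ)
    (g : S → ℝ) : ∑ y, μ y * (Av P τ g y) ^ 2 ≤ ∑ y, μ y * g y ^ 2 := by
  have hτ0 : (0 : ℝ) < τ := by exact_mod_cast hτ
  have h1 : ∀ y, (Av P τ g y) ^ 2 ≤ (1 / (τ : ℝ)) * ∑ i ∈ Finset.range τ, ((P ^ i).mulVec g y) ^ 2 := by
    intro y
    unfold Av
    have := sq_sum_le_card_mul_sum_sq (s := Finset.range τ) (f := fun i => (P ^ i).mulVec g y)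
    rw [Finset.card_range] at this
    rw [mul_pow]
    calc (1 / (τ : ℝ)) ^ 2 * (∑ i ∈ Finset.range τ, (P ^ i).mulVec g y) ^ 2
        ≤ (1 / (τ : ℝ)) ^ 2 * ((τ : ℝ) * ∑ i ∈ Finset.range τ, ((P ^ i).mulVec g y) ^ 2) :=
          mul_le_mul_of_nonneg_left this (by positivity)
      _ = (1 / (τ : ℝ)) * ∑ i ∈ Finset.range τ, ((P ^ i).mulVec g y) ^ 2 := by
          field_simp
  calc ∑ y, μ y * (Av P τ g y) ^ 2
      ≤ ∑ y, μ y * ((1 / (τ : ℝ)) * ∑ i ∈ Finset.range τ, ((P ^ i).mulVec g y) ^ 2) :=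
        Finset.sum_le_sum fun y _ => mul_le_mul_of_nonneg_left (h1 y) (h.1 y)
    _ = (1 / (τ : ℝ)) * ∑ i ∈ Finset.range τ, ∑ y, μ y * ((P ^ i).mulVec g y) ^ 2 := by
        rw [Finset.sum_comm, Finset.mul_sum]
        refine Finset.sum_congr rfl fun y _ => ?_
        rw [Finset.mul_sum, Finset.mul_sum, Finset.mul_sum]
        exact Finset.sum_congr rfl fun i _ => by ring
    _ ≤ (1 / (τ : ℝ)) * ∑ i ∈ Finset.range τ, ∑ y, μ y * g y ^ 2 :=
        mul_le_mul_of_nonneg_left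
          (Finset.sum_le_sum fun i _ => l2_contr (isChain_pow h i) g) (by positivity)
    _ = ∑ y, μ y * g y ^ 2 := by
        rw [Finset.sum_const, Finset.card_range, nsmul_eq_mul]
        field_simp


/-! ## The energy bound -/

theorem Gam_eq {μ : S → ℝ} {P : Matrix S S ℝ} (h : IsChain μ P) (v : S → ℝ) (a : S) :
    Gam P v a = P.mulVec (fun z => v z ^ 2) a - v a ^ 2 - 2 * v a * (P.mulVec v a - v a) := by
  have h4 := h.2.2.2.1 a
  have e1 : P.mulVec (fun z => v z ^ 2) a = ∑ b, P a b * v b ^ 2 := rfl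
  have e2 : P.mulVec v a = ∑ b, P a b * v b := rfl
  have e3 : Gam P v a = ∑ b, P a b * v b ^ 2 - 2 * v a * ∑ b, P a b * v b
      + v a ^ 2 * ∑ b, P a b := by
    unfold Gam
    rw [Finset.mul_sum, Finset.mul_sum, ← Finset.sum_sub_distrib, ← Finset.sum_add_distrib]
    exact Finset.sum_congr rfl fun b _ => by ring
  rw [e3, e1, e2, h4]
  ring

theorem mulVec_Av (P : Matrix S S ℝ) (τ : ℕ) (φ : S → ℝ) (y : S) :
    P.mulVec (Av P τ φ) y
      = (1 / (τ : ℝ)) * ∑ i ∈ Finset.range τ, ((P ^ (i + 1)).mulVec φ) y := by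
  have e1 : P.mulVec (Av P τ φ) y
      = ∑ z, P y z * ((1 / (τ : ℝ)) * ∑ i ∈ Finset.range τ, ((P ^ i).mulVec φ) z) := rfl
  rw [e1]
  have e2 : ∀ i, ((P ^ (i + 1)).mulVec φ) y = ∑ z, P y z * ((P ^ i).mulVec φ) z := by
    intro i
    rw [pow_succ', ← Matrix.mulVec_mulVec]
    rfl
  simp only [e2]
  rw [Finset.sum_comm, Finset.mul_sum]
  refine Finset.sum_congr rfl fun z _ => ?_
  rw [Finset.mul_sum, Finset.mul_sum, Finset.mul_sum]
  exact Finset.sum_congr rfl fun i _ => by ring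

/-- the average is almost harmonic -/
theorem mulVec_Av_sub (P : Matrix S S ℝ) (τ : ℕ) (φ : S → ℝ) (y : S) :
    P.mulVec (Av P τ φ) y - Av P τ φ y = (1 / (τ : ℝ)) * ((P ^ τ).mulVec φ y - φ y) := by
  rw [mulVec_Av]
  unfold Av
  rw [← mul_sub, ← Finset.sum_sub_distrib,
    Finset.sum_range_sub (fun i => ((P ^ i).mulVec φ) y) τ]
  simp

/-- pointwise bound for the carré du champ of an average -/
theorem Gam_Av_le {μ : S → ℝ} {P : Matrix S S ℝ} (h : IsChain μ P) (τ : ℕ) {φ L : S → ℝ}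
    (hφ : ∀ z, |φ z| ≤ L z) (z : S) :
    Gam P (Av P τ φ) z ≤ P.mulVec (fun x => Av P τ φ x ^ 2) z - Av P τ φ z ^ 2
      + (2 / (τ : ℝ)) * (Av P τ L z * ((P ^ τ).mulVec L z + L z)) := by
  rw [Gam_eq h, mulVec_Av_sub]
  have h1 := abs_Av_le h τ hφ z
  have h2 : |(P ^ τ).mulVec φ z - φ z| ≤ (P ^ τ).mulVec L z + L z := by
    have a1 := abs_mulVec_le (isChain_pow h τ) hφ z
    have a2 := hφ z
    calc |(P ^ τ).mulVec φ z - φ z| ≤ |(P ^ τ).mulVec φ z| + |φ z| := abs_sub _ _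
      _ ≤ _ := add_le_add a1 a2
  have h3 : 0 ≤ (1 / (τ : ℝ)) := by positivity
  have h4 : -(Av P τ φ z * ((P ^ τ).mulVec φ z - φ z))
      ≤ Av P τ L z * ((P ^ τ).mulVec L z + L z) := by
    calc -(Av P τ φ z * ((P ^ τ).mulVec φ z - φ z))
        ≤ |Av P τ φ z * ((P ^ τ).mulVec φ z - φ z)| := neg_le_abs _
      _ = |Av P τ φ z| * |(P ^ τ).mulVec φ z - φ z| := abs_mul _ _
      _ ≤ _ := mul_le_mul h1 h2 (abs_nonneg _) ((abs_nonneg _).trans h1)
  have h5 := mul_le_mul_of_nonneg_left h4 h3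
  have e : (2 / (τ : ℝ)) = 2 * (1 / (τ : ℝ)) := by ring
  rw [e]
  nlinarith

/-- **(F1)** the energy of `Av P τ φ` seen from time `s` to time `s + τ` is at most `EnStar`,
uniformly in `φ` with `|φ| ≤ L`. -/
theorem energy_le {μ : S → ℝ} {P : Matrix S S ℝ} (h : IsChain μ P) (s τ : ℕ) {φ L : S → ℝ}
    (hφ : ∀ z, |φ z| ≤ L z) (y : S) :
    ∑ i ∈ Finset.range τ, ((P ^ (s + i)).mulVec (Gam P (Av P τ φ))) y ≤ EnStar P s τ L y := by
  set v := Av P τ φ with hv
  set w : S → ℝ := fun x => v x ^ 2 with hw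
  set B : S → ℝ := Bf P τ L with hB
  have step : ∀ i, ((P ^ (s + i)).mulVec (Gam P v)) y
      ≤ ((P ^ (s + (i + 1))).mulVec w y - (P ^ (s + i)).mulVec w y)
        + (2 / (τ : ℝ)) * (P ^ (s + i)).mulVec B y := by
    intro i
    have m1 := mulVec_mono (isChain_pow h (s + i)) (fun z => Gam_Av_le h τ hφ z) y
    have e1 : (fun z => P.mulVec (fun x => Av P τ φ x ^ 2) z - Av P τ φ z ^ 2
        + (2 / (τ : ℝ)) * (Av P τ L z * ((P ^ τ).mulVec L z + L z)))
        = P.mulVec w - w + (2 / (τ : ℝ)) • B := by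
      funext z
      simp [hw, hv, hB, Bf]
    rw [e1, Matrix.mulVec_add, Matrix.mulVec_sub, Matrix.mulVec_smul, Matrix.mulVec_mulVec,
      ← pow_succ] at m1
    simpa [add_assoc] using m1
  have hsum := Finset.sum_le_sum (fun i (_ : i ∈ Finset.range τ) => step i)
  rw [Finset.sum_add_distrib, Finset.sum_range_sub (fun i => (P ^ (s + i)).mulVec w y) τ,
    ← Finset.mul_sum] at hsum
  have h0 : 0 ≤ (P ^ (s + 0)).mulVec w y :=
    mulVec_nonneg (isChain_pow h (s + 0)) (fun z => sq_nonneg _) y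
  have h1 : (P ^ (s + τ)).mulVec w y ≤ (P ^ (s + τ)).mulVec (fun z => (Av P τ L z) ^ 2) y := by
    refine mulVec_mono (isChain_pow h (s + τ)) (fun z => ?_) y
    have := abs_Av_le h τ hφ z
    rw [hw]
    simp only
    rw [← sq_abs (v z)]
    exact pow_le_pow_left₀ (abs_nonneg _) this 2
  unfold EnStar
  linarith

/-- **(F2)** the total mass of `EnStar` -/
theorem EnStar_total {μ : S → ℝ} {P : Matrix S S ℝ} (h : IsChain μ P) (s : ℕ) {τ : ℕ}
    (hτ : 1 ≤ τ) (L : S → ℝ) :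
    ∑ y, μ y * EnStar P s τ L y ≤ 5 * ∑ y, μ y * L y ^ 2 := by
  have hτ0 : (0 : ℝ) < τ := by exact_mod_cast hτ
  set B : S → ℝ := Bf P τ L with hB
  have hA := Av_l2_contr h hτ L
  have hP := l2_contr (isChain_pow h τ) L
  have hBtot : ∑ y, μ y * B y ≤ 2 * ∑ y, μ y * L y ^ 2 := by
    have pt : ∀ y, μ y * B y ≤ μ y * (Av P τ L y) ^ 2
        + (1 / 2) * (μ y * ((P ^ τ).mulVec L y) ^ 2) + (1 / 2) * (μ y * L y ^ 2) := by
      intro y
      have h0 := h.1 y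
      have : B y ≤ (Av P τ L y) ^ 2 + (1 / 2) * ((P ^ τ).mulVec L y) ^ 2 + (1 / 2) * L y ^ 2 := by
        rw [hB]
        unfold Bf
        nlinarith [sq_nonneg (Av P τ L y - (P ^ τ).mulVec L y), sq_nonneg (Av P τ L y - L y)]
      have := mul_le_mul_of_nonneg_left this h0
      linarith
    have := Finset.sum_le_sum (fun y (_ : y ∈ Finset.univ) => pt y)
    rw [Finset.sum_add_distrib, Finset.sum_add_distrib, ← Finset.mul_sum, ← Finset.mul_sum] at this
    linarith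
  have e : ∑ y, μ y * EnStar P s τ L y
      = ∑ y, μ y * (Av P τ L y) ^ 2 + 2 * ∑ y, μ y * B y := by
    unfold EnStar
    simp only [mul_add]
    rw [Finset.sum_add_distrib, stat (isChain_pow h (s + τ))]
    congr 1
    rw [← hB]
    have e2 : ∀ y, μ y * ((2 / (τ : ℝ)) * ∑ i ∈ Finset.range τ, (P ^ (s + i)).mulVec B y)
        = (2 / (τ : ℝ)) * ∑ i ∈ Finset.range τ, μ y * (P ^ (s + i)).mulVec B y := by
      intro y
      rw [Finset.mul_sum, Finset.mul_sum, Finset.mul_sum]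
      exact Finset.sum_congr rfl fun i _ => by ring
    simp only [e2]
    rw [← Finset.mul_sum, Finset.sum_comm]
    simp only [stat (isChain_pow h _)]
    rw [Finset.sum_const, Finset.card_range, nsmul_eq_mul]
    field_simp
  rw [e]
  linarith

end Vale.Agent.P125.Poly72
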