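import Vale.Agent.P125.Poly.StepDEF_43
import Vale.Agent.P125.Poly.Defs58

set_option linter.unusedSectionVars false
set_option linter.unusedVariables false

/-!
P125, polynomial rate: the bound `R_s ≤ (3/2) τ^(3/4) U` (steps 4 to 7), in the vocabulary of
`Poly/Defs58.lean`.
-/

namespace Vale.Agent.P125.Poly43

open scoped BigOperators
open Vale.Agent.P125.Dich Vale.Agent.P125.Poly

variable {S : Type} [Fintype S] [DecidableEq S]

/-- `P ^ τ g - g = τ A (P g - g)` -/
lemma pow_sub_eq (P : Matrix S S ℝ) (τ : ℕ) (hτ : 1 ≤ τ) (g : S → ℝ) (a : S) :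
    (P ^ τ).mulVec g a - g a = (τ : ℝ) * (Av P τ).mulVec (fun b => P.mulVec g b - g b) a := by
  have hτ0 : (0 : ℝ) < τ := by exact_mod_cast hτ
  have h1 : Av P τ * (P - 1) = (1 / (τ : ℝ)) • (P ^ τ - 1) := by
    unfold Av
    rw [Matrix.smul_mul, geom_sum_mul]
  have h2 : (Av P τ * (P - 1)).mulVec g = (Av P τ).mulVec (fun b => P.mulVec g b - g b) := by
    rw [← Matrix.mulVec_mulVec, Matrix.sub_mulVec, Matrix.one_mulVec]
    rfl
  have h3 : ((1 / (τ : ℝ)) • (P ^ τ - 1)).mulVec g = (1 / (τ : ℝ)) • ((P ^ τ).mulVec g - g) := by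
    rw [Matrix.smul_mulVec, Matrix.sub_mulVec, Matrix.one_mulVec]
  have h4 := congrFun (h2.symm.trans ((congrArg (fun X => Matrix.mulVec X g) h1).trans h3)) a
  rw [h4]
  simp only [Pi.smul_apply, Pi.sub_apply, smul_eq_mul]
  field_simp

/-- the Dirichlet form bound -/
lemma dirichlet_le {μ : S → ℝ} {P : Matrix S S ℝ} (h : IsChain μ P) (V g : S → ℝ) :
    ∑ b, μ b * (V b * (P.mulVec g b - g b)) ≤
      (1 / 2) * ∑ b, ∑ c, μ b * P b c * (|V c - V b| * |g c - g b|) := by
  have e1 : ∑ b, μ b * (V b * (P.mulVec g b - g b)) =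
      ∑ b, ∑ c, μ b * P b c * (V b * (g c - g b)) := by
    refine Finset.sum_congr rfl fun b _ => ?_
    have : P.mulVec g b - g b = ∑ c, P b c * (g c - g b) := by
      simp only [mul_sub]
      rw [Finset.sum_sub_distrib, ← Finset.sum_mul, h.2.2.2.1 b, one_mul, mv_apply]
    rw [this, Finset.mul_sum, Finset.mul_sum]
    refine Finset.sum_congr rfl fun c _ => ?_
    ring
  have e2 : ∑ b, ∑ c, μ b * P b c * (V b * (g c - g b)) =
      ∑ b, ∑ c, μ b * P b c * (V c * (g b - g c)) := by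
    rw [Finset.sum_comm]
    refine Finset.sum_congr rfl fun c _ => Finset.sum_congr rfl fun b _ => ?_
    rw [h.2.2.2.2 b c]
  have e3 : ∑ b, ∑ c, μ b * P b c * (V b * (g c - g b)) =
      (1 / 2) * ∑ b, ∑ c, μ b * P b c * (-((V c - V b) * (g c - g b))) := by
    have : ∑ b, ∑ c, μ b * P b c * (-((V c - V b) * (g c - g b))) =
        ∑ b, ∑ c, μ b * P b c * (V b * (g c - g b)) +
          ∑ b, ∑ c, μ b * P b c * (V c * (g b - g c)) := by
      rw [← Finset.sum_add_distrib]
      refine Finset.sum_congr rfl fun b _ => ?_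
      rw [← Finset.sum_add_distrib]
      refine Finset.sum_congr rfl fun c _ => ?_
      ring
    rw [this, ← e2]
    ring
  rw [e1, e3]
  apply mul_le_mul_of_nonneg_left _ (by norm_num)
  refine Finset.sum_le_sum fun b _ => Finset.sum_le_sum fun c _ => ?_
  apply mul_le_mul_of_nonneg_left _ (mul_nonneg (h.1 b) (h.2.2.1 b c))
  rw [← abs_mul]
  exact neg_le_abs _

theorem stR_43 (hs : StSmall) : StR := by
  intro S _ _ μ P h hL n f τ s
  obtain ⟨hom0, homsum, hlb0, _, _, hlbU, hU0, _, _, _⟩ := hs S μ P h hL n f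
  rcases Nat.eq_zero_or_pos τ with rfl | hτ
  · -- the trivial case
    have : Rr μ P f 0 s = 0 := by
      unfold Rr av
      apply Finset.sum_eq_zero
      intro k _
      apply Finset.sum_eq_zero
      intro b _
      have : (fun z => |hh P f 0 k z|) = fun _ => 0 := by
        funext z
        simp [hh, op, Matrix.one_apply]
      rw [this]
      simp [op]
    rw [this]
    have : (0 : ℝ) ≤ ((0 : ℕ) : ℝ) ^ (3 / 4 : ℝ) := by positivity
    positivity
  have hτ1 : 1 ≤ τ := hτ
  have hτ0 : (0 : ℝ) < τ := by exact_mod_cast hτ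
  have hA := isChain_Av h τ hτ1
  have hPs := isChain_pow h s
  -- the data
  set Y : Fin n → S → ℝ := fun k b => if 0 ≤ hh P f τ k b then 1 else -1 with hY
  set aN : ℕ → S → ℝ := fun j y => if hj : j < n then om P f ⟨j, hj⟩ y else 0 with haN
  set YN : ℕ → S → ℝ := fun j y => if hj : j < n then Y ⟨j, hj⟩ y else 0 with hYN
  have haN' : ∀ k : Fin n, aN k.val = om P f k := by
    intro k
    funext y
    simp [haN, k.isLt]
  have hYN' : ∀ (k : Fin n) y, YN k.val y = Y k y := by
    intro k y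
    simp [hYN, k.isLt]
  have haN0 : ∀ j y, 0 ≤ aN j y := by
    intro j y
    simp only [haN]
    split_ifs
    · exact hom0 _ _
    · exact le_rfl
  have hYN1 : ∀ j y, |YN j y| ≤ 1 := by
    intro j y
    simp only [hYN, hY]
    split_ifs <;> simp
  set V : ℕ → S → ℝ := vv P τ s n aN YN with hV
  set hf : Fin n → S → ℝ := fun i b => (P ^ τ).mulVec (fun x => f x i) b - f b i with hhf
  have hhh : ∀ k b, hh P f τ k b = ∑ i, if i ≤ k then hf i b else 0 := by
    intro k b
    simp only [hh, op, F, Finset.mul_sum, hhf]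
    rw [Finset.sum_comm, ← Finset.sum_sub_distrib]
    refine Finset.sum_congr rfl fun i _ => ?_
    split_ifs <;> simp [mv_apply]
  have hph : ∀ (i : Fin n) b, ph P s n aN YN i.val b =
      ∑ k : Fin n, if i ≤ k then Y k b * (P ^ s).mulVec (om P f k) b else 0 := by
    intro i b
    unfold ph
    have e1 : Finset.Ico i.val n = (Finset.range n).filter (fun j => i.val ≤ j) := by
      ext j
      simp [and_comm]
    rw [e1, Finset.sum_filter,
      ← Fin.sum_univ_eq_sum_range
        (fun j => if i.val ≤ j then YN j b * (P ^ s).mulVec (aN j) b else 0) n]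
    refine Finset.sum_congr rfl fun k _ => ?_
    rw [haN' k, hYN' k b]
    rfl
  -- step (C)
  have hC1 : Rr μ P f τ s = ∑ i : Fin n, ∑ b, μ b * (ph P s n aN YN i.val b * hf i b) := by
    unfold Rr av
    have e1 : ∀ k : Fin n, ∑ b, μ b * (om P f k b * op P s (fun z => |hh P f τ k z|) b) =
        ∑ b, ∑ i : Fin n,
          μ b * ((if i ≤ k then Y k b * (P ^ s).mulVec (om P f k) b else 0) * hf i b) := by
      intro k
      have := (selfadj hPs (om P f k) (fun z => |hh P f τ k z|)).symm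
      refine this.trans (Finset.sum_congr rfl fun b _ => ?_)
      have e2 : |hh P f τ k b| = Y k b * hh P f τ k b := by
        simp only [hY]
        split_ifs with h0
        · rw [abs_of_nonneg h0, one_mul]
        · rw [abs_of_neg (not_le.1 h0)]
          ring
      rw [e2, hhh k b, Finset.mul_sum, Finset.mul_sum, Finset.mul_sum]
      refine Finset.sum_congr rfl fun i _ => ?_
      split_ifs <;> ring
    rw [Finset.sum_congr rfl fun k _ => e1 k, Finset.sum_comm]
    have e3 : ∀ b, ∑ k : Fin n, ∑ i : Fin n,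
        μ b * ((if i ≤ k then Y k b * (P ^ s).mulVec (om P f k) b else 0) * hf i b) =
        ∑ i : Fin n, μ b * (ph P s n aN YN i.val b * hf i b) := by
      intro b
      rw [Finset.sum_comm]
      refine Finset.sum_congr rfl fun i _ => ?_
      rw [hph i b, Finset.sum_mul, Finset.mul_sum]
    rw [Finset.sum_congr rfl fun b _ => e3 b, Finset.sum_comm]
  have hC2 : ∀ i : Fin n, ∑ b, μ b * (ph P s n aN YN i.val b * hf i b) ≤
      (τ : ℝ) * ((1 / 2) * ∑ b, ∑ c, μ b * P b c * (|V i.val c - V i.val b| * w f b c i)) := by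
    intro i
    have e1 : ∑ b, μ b * (ph P s n aN YN i.val b * hf i b) =
        (τ : ℝ) * ∑ b, μ b * (V i.val b *
          (P.mulVec (fun x => f x i) b - f b i)) := by
      rw [hV]
      unfold vv
      rw [selfadj hA, Finset.mul_sum]
      refine Finset.sum_congr rfl fun b _ => ?_
      simp only [hhf]
      rw [pow_sub_eq P τ hτ1 (fun x => f x i) b]
      ring
    rw [e1]
    apply mul_le_mul_of_nonneg_left _ hτ0.le
    exact dirichlet_le h (V i.val) (fun x => f x i)
  -- the selector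
  have hsel : ∀ b c, ∃ κ : ℕ, ∀ i : Fin n, |V i.val c - V i.val b| ≤ |V κ c - V κ b| := by
    intro b c
    rcases isEmpty_or_nonempty (Fin n) with hE | hN
    · exact ⟨0, fun i => (hE.false i).elim⟩
    · obtain ⟨i0, _, hi0⟩ := Finset.exists_max_image Finset.univ
        (fun i : Fin n => |V i.val c - V i.val b|) Finset.univ_nonempty
      exact ⟨i0.val, fun i => hi0 i (Finset.mem_univ _)⟩
  choose κ hκ using hsel
  have hw0 : ∀ b c i, 0 ≤ w f b c i := fun b c i => abs_nonneg _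
  have hC3 : Rr μ P f τ s ≤
      (τ : ℝ) / 2 * ∑ b, ∑ c, μ b * P b c * (ell f b c * |V (κ b c) c - V (κ b c) b|) := by
    rw [hC1]
    refine (Finset.sum_le_sum fun i _ => hC2 i).trans ?_
    rw [← Finset.mul_sum, ← Finset.mul_sum]
    have e1 : ∑ i : Fin n, ∑ b, ∑ c, μ b * P b c * (|V i.val c - V i.val b| * w f b c i) ≤
        ∑ b, ∑ c, μ b * P b c * (ell f b c * |V (κ b c) c - V (κ b c) b|) := by
      rw [Finset.sum_comm]
      refine Finset.sum_le_sum fun b _ => ?_
      rw [Finset.sum_comm]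
      refine Finset.sum_le_sum fun c _ => ?_
      rw [← Finset.mul_sum]
      apply mul_le_mul_of_nonneg_left _ (mul_nonneg (h.1 b) (h.2.2.1 b c))
      unfold ell
      rw [Finset.sum_mul]
      refine Finset.sum_le_sum fun i _ => ?_
      rw [mul_comm]
      exact mul_le_mul_of_nonneg_left (hκ b c i) (hw0 b c i)
    have := mul_le_mul_of_nonneg_left e1 (by positivity : (0 : ℝ) ≤ (τ : ℝ) * (1 / 2))
    calc (τ : ℝ) * ((1 / 2) * ∑ i : Fin n, ∑ b, ∑ c,
          μ b * P b c * (|V i.val c - V i.val b| * w f b c i))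
        = (τ : ℝ) * (1 / 2) * ∑ i : Fin n, ∑ b, ∑ c,
          μ b * P b c * (|V i.val c - V i.val b| * w f b c i) := by ring
      _ ≤ _ := this
      _ = _ := by ring
  -- the core estimate
  have hcore := core h τ s n hτ1 aN YN haN0 hYN1 κ
  have hW : ∑ y, μ y * (∑ j ∈ Finset.range n, aN j y) ^ 2 ≤ U μ P f := by
    refine le_trans (le_of_eq ?_) hlbU
    unfold av
    refine Finset.sum_congr rfl fun y _ => ?_
    show μ y * (∑ j ∈ Finset.range n, aN j y) ^ 2 = μ y * lbar P f y ^ 2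
    rw [← homsum y, ← Fin.sum_univ_eq_sum_range (fun j => aN j y) n]
    congr 2
    refine Finset.sum_congr rfl fun k _ => ?_
    rw [haN' k]
  -- scalars
  set x : ℝ := (τ : ℝ) ^ (1 / 4 : ℝ) with hx
  have hx0 : 0 < x := Real.rpow_pos_of_pos hτ0 _
  have hx4 : x ^ 4 = (τ : ℝ) := by
    rw [hx, ← Real.rpow_natCast, ← Real.rpow_mul hτ0.le]
    norm_num
  have hx3 : (τ : ℝ) ^ (3 / 4 : ℝ) = x ^ 3 := by
    rw [hx, ← Real.rpow_natCast, ← Real.rpow_mul hτ0.le]
    norm_num
  have hsq : Real.sqrt (5 * (τ : ℝ)) ≤ 9 / 4 * x ^ 2 := by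
    rw [show (9 / 4 * x ^ 2 : ℝ) = Real.sqrt ((9 / 4 * x ^ 2) ^ 2) from
      (Real.sqrt_sq (by positivity)).symm]
    apply Real.sqrt_le_sqrt
    have : (9 / 4 * x ^ 2) ^ 2 = 81 / 16 * x ^ 4 := by ring
    rw [this, hx4]
    nlinarith
  set X2 : ℝ := ∑ b, ∑ c, μ b * P b c * (V (κ b c) c - V (κ b c) b) ^ 2 with hX2
  have hX2le : X2 ≤ 9 / x ^ 2 * U μ P f := by
    refine hcore.trans ?_
    have e1 : 4 * Real.sqrt (5 * (τ : ℝ)) / (τ : ℝ) ≤ 9 / x ^ 2 := by
      rw [div_le_div_iff₀ hτ0 (by positivity)]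
      have q1 := mul_le_mul_of_nonneg_right hsq (by positivity : (0 : ℝ) ≤ x ^ 2)
      have q2 : 9 / 4 * x ^ 2 * x ^ 2 = 9 / 4 * (τ : ℝ) := by
        rw [← hx4]
        ring
      linarith
    have e2 : 0 ≤ ∑ y, μ y * (∑ j ∈ Finset.range n, aN j y) ^ 2 :=
      Finset.sum_nonneg fun y _ => mul_nonneg (h.1 y) (sq_nonneg _)
    calc _ ≤ 9 / x ^ 2 * ∑ y, μ y * (∑ j ∈ Finset.range n, aN j y) ^ 2 :=
          mul_le_mul_of_nonneg_right e1 e2
      _ ≤ _ := mul_le_mul_of_nonneg_left hW (by positivity)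
  have hAG : ∑ b, ∑ c, μ b * P b c * (ell f b c * |V (κ b c) c - V (κ b c) b|) ≤
      (3 / (2 * x)) * U μ P f + (x / 6) * X2 := by
    unfold U
    rw [hX2, Finset.mul_sum, Finset.mul_sum, ← Finset.sum_add_distrib]
    refine Finset.sum_le_sum fun b _ => ?_
    rw [Finset.mul_sum, Finset.mul_sum, ← Finset.sum_add_distrib]
    refine Finset.sum_le_sum fun c _ => ?_
    have hm : 0 ≤ μ b * P b c := mul_nonneg (h.1 b) (h.2.2.1 b c)
    set e := ell f b c
    set d := |V (κ b c) c - V (κ b c) b| with hd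
    have hd2 : (V (κ b c) c - V (κ b c) b) ^ 2 = d ^ 2 := by rw [hd, sq_abs]
    rw [hd2]
    have e1 : e * d ≤ (3 / (2 * x)) * e ^ 2 + (x / 6) * d ^ 2 := by
      have h0 : 0 ≤ (3 * e - x * d) ^ 2 / (6 * x) := by positivity
      have e2 : (3 / (2 * x)) * e ^ 2 + (x / 6) * d ^ 2 - e * d = (3 * e - x * d) ^ 2 / (6 * x) := by
        field_simp
        ring
      linarith
    have := mul_le_mul_of_nonneg_left e1 hm
    linarith
  rw [hx3]
  have h7 : (x / 6) * X2 ≤ (x / 6) * (9 / x ^ 2 * U μ P f) :=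
    mul_le_mul_of_nonneg_left hX2le (by positivity)
  have h8 : (x / 6) * (9 / x ^ 2 * U μ P f) = (3 / (2 * x)) * U μ P f := by
    field_simp
    ring
  have h9 : (τ : ℝ) / 2 * ((3 / (2 * x)) * U μ P f + (3 / (2 * x)) * U μ P f) =
      3 / 2 * x ^ 3 * U μ P f := by
    rw [← hx4]
    field_simp
    ring
  calc Rr μ P f τ s ≤ (τ : ℝ) / 2 *
        ∑ b, ∑ c, μ b * P b c * (ell f b c * |V (κ b c) c - V (κ b c) b|) := hC3
    _ ≤ (τ : ℝ) / 2 * ((3 / (2 * x)) * U μ P f + (3 / (2 * x)) * U μ P f) := by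
        apply mul_le_mul_of_nonneg_left _ (by positivity)
        linarith
    _ = _ := h9

end Vale.Agent.P125.Poly43
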