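import Vale.Agent.P125.Poly.Defs_79
import Vale.Agent.P125.Poly.ApiA_79
import Vale.Agent.P125.Poly.ApiB_79

set_option linter.unusedSectionVars false
set_option linter.unusedVariables false

/-! # P125 polynomial rate, path-free form (board 624): step (E): T^2 ≤ τ ∑ P^{s+i} Gam -/

namespace Vale.Agent.P125.Poly79

open scoped BigOperators
open Vale.Agent.P125.Dich Vale.Agent.P125.BV

variable {S : Type} [Fintype S] [DecidableEq S]

/-- `(∑_{i<τ} x_i)^2 ≤ τ ∑ x_i^2`, jensen for `P^(s+i)`, and `gr^2 ≤ Gam` (jensen for the row of `P`). -/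
theorem tt_sq_le {μ : S → ℝ} {P : Matrix S S ℝ} (hc : IsChain μ P) (τ s : ℕ) (U : S → ℝ) (y : S) :
    (TT P τ s U y) ^ 2 ≤ (τ : ℝ) * ∑ i ∈ Finset.range τ, op (P ^ (s + i)) (Gam P U) y := by
  have hg : ∀ z, gr P U z ^ 2 ≤ Gam P U z := by
    intro z
    have h := jensen hc (fun b => |U b - U z|) z
    have e1 : op P (fun b => |U b - U z|) z = gr P U z := rfl
    have e2 : op P (fun b => |U b - U z| ^ 2) z = Gam P U z := by
      unfold op Gam
      refine Finset.sum_congr rfl fun b _ => ?_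
      show P z b * |U b - U z| ^ 2 = P z b * (U b - U z) ^ 2
      rw [sq_abs]
    rw [e1, e2] at h
    exact h
  have h1 : (TT P τ s U y) ^ 2
      ≤ ((Finset.range τ).card : ℝ) * ∑ i ∈ Finset.range τ, (op (P ^ (s + i)) (gr P U) y) ^ 2 := by
    unfold TT
    exact sq_sum_le_card_mul_sum_sq
  rw [Finset.card_range] at h1
  refine h1.trans (mul_le_mul_of_nonneg_left ?_ (Nat.cast_nonneg τ))
  refine Finset.sum_le_sum fun i _ => ?_
  have hci := isChain_pow hc (s + i)
  refine (jensen hci (gr P U) y).trans ?_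
  exact op_mono (P ^ (s + i)) hci.2.2.1 _ _ hg y

end Vale.Agent.P125.Poly79
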