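import Vale.Agent.P125.Poly.Defs58

/-! P125 Poly, subtask Tel (race copy of helper29): telescoping along the four point measure. -/

namespace Vale.Agent.P125.Poly

open scoped BigOperators
open Vale.Agent.P125.Dich

lemma tel_key_29 {S : Type} [Fintype S] [DecidableEq S] (P : Matrix S S ℝ)
    (hP : ∀ k x y, 0 ≤ (P ^ k) x y) (g : S → ℝ) (t : ℕ) : ∀ x y,
    (P ^ t) x y * |g y - g x| ≤ ∑ r ∈ Finset.range t, ∑ a, ∑ b,
      (P ^ r) x a * P a b * (P ^ (t - 1 - r)) b y * |g b - g a| := by
  induction t with
  | zero =>
    intro x y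
    simp only [pow_zero, Finset.range_zero, Finset.sum_empty]
    by_cases h : x = y
    · subst h; simp
    · simp [Matrix.one_apply_ne h]
  | succ t ih =>
    intro x y
    have hP1 : ∀ a b, 0 ≤ P a b := fun a b => by simpa using hP 1 a b
    rw [Finset.sum_range_succ]
    have e1 : (P ^ (t + 1)) x y = ∑ z, (P ^ t) x z * P z y := by
      rw [pow_succ, Matrix.mul_apply]
    have e2 : ∑ a, ∑ b, (P ^ t) x a * P a b * (P ^ (t + 1 - 1 - t)) b y * |g b - g a|
        = ∑ a, (P ^ t) x a * P a y * |g y - g a| := by
      apply Finset.sum_congr rfl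
      intro a _
      have h0 : t + 1 - 1 - t = 0 := by omega
      rw [h0, pow_zero]
      rw [Finset.sum_eq_single y]
      · simp
      · intro b _ hb
        simp [Matrix.one_apply_ne hb]
      · simp
    have e3 : ∑ z, (∑ r ∈ Finset.range t, ∑ a, ∑ b,
          (P ^ r) x a * P a b * (P ^ (t - 1 - r)) b z * |g b - g a|) * P z y
        = ∑ r ∈ Finset.range t, ∑ a, ∑ b,
          (P ^ r) x a * P a b * (P ^ (t + 1 - 1 - r)) b y * |g b - g a| := by
      simp_rw [Finset.sum_mul]
      conv_lhs => rw [Finset.sum_comm]
      apply Finset.sum_congr rfl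
      intro r hr
      have hr' : r < t := Finset.mem_range.mp hr
      have h1 : t + 1 - 1 - r = (t - 1 - r) + 1 := by omega
      rw [h1]
      conv_lhs => rw [Finset.sum_comm]
      apply Finset.sum_congr rfl
      intro a _
      conv_lhs => rw [Finset.sum_comm]
      apply Finset.sum_congr rfl
      intro b _
      rw [pow_succ, Matrix.mul_apply, Finset.mul_sum, Finset.sum_mul]
      apply Finset.sum_congr rfl
      intro z _
      ring
    rw [e1, e2, ← e3, Finset.sum_mul, ← Finset.sum_add_distrib]
    apply Finset.sum_le_sum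
    intro z _
    have h1 := ih x z
    have h2 : |g y - g x| ≤ |g z - g x| + |g y - g z| := by
      have : g y - g x = (g z - g x) + (g y - g z) := by ring
      rw [this]; exact abs_add_le _ _
    have h3 := hP t x z
    have h4 := hP1 z y
    calc (P ^ t) x z * P z y * |g y - g x|
        ≤ (P ^ t) x z * P z y * (|g z - g x| + |g y - g z|) :=
          mul_le_mul_of_nonneg_left h2 (mul_nonneg h3 h4)
      _ = ((P ^ t) x z * |g z - g x|) * P z y + (P ^ t) x z * P z y * |g y - g z| := by ring
      _ ≤ _ := by
          have := mul_le_mul_of_nonneg_right h1 h4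
          linarith

theorem stTel_29 : StTel := by
  intro S _ _ μ P hC hL g Φ hΦ t
  have key := tel_key_29 P hL.pw_nonneg g t
  calc ∑ x, ∑ y, μ x * (P ^ t) x y * (|g y - g x| * Φ x y)
      ≤ ∑ x, ∑ y, μ x * (∑ r ∈ Finset.range t, ∑ a, ∑ b,
          (P ^ r) x a * P a b * (P ^ (t - 1 - r)) b y * |g b - g a|) * Φ x y := by
        apply Finset.sum_le_sum; intro x _
        apply Finset.sum_le_sum; intro y _
        have h0 := key x y
        have h1 := hL.mu_nonneg x
        have h2 := hΦ x y
        calc μ x * (P ^ t) x y * (|g y - g x| * Φ x y)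
            = μ x * ((P ^ t) x y * |g y - g x|) * Φ x y := by ring
          _ ≤ _ := mul_le_mul_of_nonneg_right (mul_le_mul_of_nonneg_left h0 h1) h2
    _ = _ := by
        simp_rw [Finset.mul_sum, Finset.sum_mul]
        conv_rhs => rw [Finset.sum_comm]
        apply Finset.sum_congr rfl; intro x _
        conv_lhs => rw [Finset.sum_comm]
        apply Finset.sum_congr rfl; intro r _
        conv_lhs => rw [Finset.sum_comm]
        apply Finset.sum_congr rfl; intro a _
        conv_lhs => rw [Finset.sum_comm]
        apply Finset.sum_congr rfl; intro b _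
        apply Finset.sum_congr rfl; intro y _
        ring

end Vale.Agent.P125.Poly
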