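import Vale.Agent.P125.Poly.Defs58

namespace Vale.Agent.P125.Poly

open scoped BigOperators
open Vale.Agent.P125.Dich

variable {S : Type} [Fintype S] [DecidableEq S]

theorem pow_nn_47 (R : Matrix S S ℝ) (hR0 : ∀ i j, 0 ≤ R i j) (k : ℕ) : ∀ i j, 0 ≤ (R ^ k) i j := by
  induction k with
  | zero =>
    intro i j
    rw [pow_zero, Matrix.one_apply]
    split_ifs <;> norm_num
  | succ k ih =>
    intro i j
    rw [pow_succ, Matrix.mul_apply]
    exact Finset.sum_nonneg (fun a _ => mul_nonneg (ih i a) (hR0 a j))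

/-- triangle inequality along the path, in matrix form -/
theorem telescope_47 (R : Matrix S S ℝ) (hR0 : ∀ i j, 0 ≤ R i j) (φ : S → ℝ) (i : S) (m : ℕ) :
    ∀ H : S → ℝ, (∀ j, 0 ≤ H j) →
    ∑ j, (R ^ m) i j * (|φ j - φ i| * H j) ≤
      ∑ k ∈ Finset.range m, ∑ a, ∑ b, ∑ j,
        (R ^ k) i a * R a b * (R ^ (m - 1 - k)) b j * (|φ b - φ a| * H j) := by
  induction m with
  | zero =>
    intro H hH
    simp only [pow_zero, Finset.range_zero, Finset.sum_empty]
    refine le_of_eq (Finset.sum_eq_zero ?_)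
    intro j _
    rw [Matrix.one_apply]
    split_ifs with h
    · subst h; simp
    · simp
  | succ m ih =>
    intro H hH
    have hH' : ∀ b, 0 ≤ ∑ j, R b j * H j :=
      fun b => Finset.sum_nonneg (fun j _ => mul_nonneg (hR0 b j) (hH j))
    have h1 := ih (fun b => ∑ j, R b j * H j) hH'
    rw [Finset.sum_range_succ]
    -- the last term
    have hlast : ∑ a, ∑ b, ∑ j, (R ^ m) i a * R a b * (R ^ (m + 1 - 1 - m)) b j
        * (|φ b - φ a| * H j) = ∑ a, ∑ b, (R ^ m) i a * R a b * (|φ b - φ a| * H b) := by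
      refine Finset.sum_congr rfl (fun a _ => Finset.sum_congr rfl (fun b _ => ?_))
      have e : m + 1 - 1 - m = 0 := by omega
      rw [e, pow_zero, Finset.sum_eq_single b]
      · rw [Matrix.one_apply_eq, mul_one]
      · intro j _ hj
        rw [Matrix.one_apply_ne (Ne.symm hj)]
        ring
      · intro h; exact absurd (Finset.mem_univ b) h
    -- the other terms
    have hoth : ∑ k ∈ Finset.range m, ∑ a, ∑ b, ∑ j,
        (R ^ k) i a * R a b * (R ^ (m + 1 - 1 - k)) b j * (|φ b - φ a| * H j)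
        = ∑ k ∈ Finset.range m, ∑ a, ∑ b, ∑ j,
        (R ^ k) i a * R a b * (R ^ (m - 1 - k)) b j * (|φ b - φ a| * ∑ c, R j c * H c) := by
      refine Finset.sum_congr rfl (fun k hk => Finset.sum_congr rfl (fun a _ =>
        Finset.sum_congr rfl (fun b _ => ?_)))
      have hk' : k < m := Finset.mem_range.mp hk
      have e : m + 1 - 1 - k = (m - 1 - k) + 1 := by omega
      rw [e, pow_succ]
      simp only [Matrix.mul_apply, Finset.mul_sum, Finset.sum_mul]
      rw [Finset.sum_comm]
      refine Finset.sum_congr rfl (fun j _ => Finset.sum_congr rfl (fun c _ => ?_))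
      ring
    rw [hlast, hoth]
    -- the left side
    have hL : ∑ j, (R ^ (m + 1)) i j * (|φ j - φ i| * H j)
        ≤ ∑ b, (R ^ m) i b * (|φ b - φ i| * ∑ j, R b j * H j)
          + ∑ a, ∑ b, (R ^ m) i a * R a b * (|φ b - φ a| * H b) := by
      have e1 : ∑ j, (R ^ (m + 1)) i j * (|φ j - φ i| * H j)
          = ∑ b, ∑ j, (R ^ m) i b * R b j * (|φ j - φ i| * H j) := by
        rw [pow_succ]
        simp only [Matrix.mul_apply, Finset.sum_mul]
        rw [Finset.sum_comm]
      have e2 : ∑ b, (R ^ m) i b * (|φ b - φ i| * ∑ j, R b j * H j)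
          = ∑ b, ∑ j, (R ^ m) i b * R b j * (|φ b - φ i| * H j) := by
        refine Finset.sum_congr rfl (fun b _ => ?_)
        simp only [Finset.mul_sum]
        refine Finset.sum_congr rfl (fun j _ => ?_)
        ring
      rw [e1, e2, ← Finset.sum_add_distrib]
      refine Finset.sum_le_sum (fun b _ => ?_)
      rw [← Finset.sum_add_distrib]
      refine Finset.sum_le_sum (fun j _ => ?_)
      rw [← mul_add, ← add_mul]
      refine mul_le_mul_of_nonneg_left ?_ (mul_nonneg (pow_nn_47 R hR0 m i b) (hR0 b j))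
      refine mul_le_mul_of_nonneg_right ?_ (hH j)
      have := abs_sub_le (φ j) (φ b) (φ i)
      linarith
    linarith

/-- TEL from the pointwise telescoping inequality (copied from helper41, StepA_41) -/
theorem stTel_47 : StTel := by
  intro S _ _ μ P hC hL g Φ hΦ t
  have hpt : ∀ x, ∑ y, (P ^ t) x y * (|g y - g x| * Φ x y) ≤
      ∑ r ∈ Finset.range t, ∑ a, ∑ b, ∑ y,
        (P ^ r) x a * P a b * (P ^ (t - 1 - r)) b y * (|g b - g a| * Φ x y) := fun x =>
    telescope_47 P hC.2.2.1 g x t (fun y => Φ x y) (fun y => hΦ x y)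
  calc ∑ x, ∑ y, μ x * (P ^ t) x y * (|g y - g x| * Φ x y)
      = ∑ x, μ x * ∑ y, (P ^ t) x y * (|g y - g x| * Φ x y) := by
        refine Finset.sum_congr rfl fun x _ => ?_
        rw [Finset.mul_sum]
        refine Finset.sum_congr rfl fun y _ => ?_
        ring
    _ ≤ ∑ x, μ x * ∑ r ∈ Finset.range t, ∑ a, ∑ b, ∑ y,
          (P ^ r) x a * P a b * (P ^ (t - 1 - r)) b y * (|g b - g a| * Φ x y) :=
        Finset.sum_le_sum fun x _ => mul_le_mul_of_nonneg_left (hpt x) (hC.1 x)
    _ = ∑ r ∈ Finset.range t, ∑ x, ∑ a, ∑ b, ∑ y,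
          μ x * (P ^ r) x a * P a b * (P ^ (t - 1 - r)) b y * (|g b - g a| * Φ x y) := by
        rw [Finset.sum_comm]
        refine Finset.sum_congr rfl fun x _ => ?_
        rw [Finset.mul_sum]
        refine Finset.sum_congr rfl fun r _ => ?_
        rw [Finset.mul_sum]
        refine Finset.sum_congr rfl fun a _ => ?_
        rw [Finset.mul_sum]
        refine Finset.sum_congr rfl fun b _ => ?_
        rw [Finset.mul_sum]
        refine Finset.sum_congr rfl fun y _ => ?_
        ring

end Vale.Agent.P125.Poly
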