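import Vale.Agent.P125.Poly.Defs58

set_option linter.unusedSectionVars false
set_option linter.unusedVariables false

/-! # P125 Poly: `StTel` (telescoping along the four point path measure) -/

namespace Vale.Agent.P125.Poly

open scoped BigOperators
open Vale.Agent.P125.Dich

theorem stTel_51 : StTel := by
  intro S _ _ μ P hc hL g Φ hΦ t
  have key : ∀ x y, (P ^ t) x y * (g y - g x) = ∑ r ∈ Finset.range t, ∑ a, ∑ b,
      (P ^ r) x a * P a b * (P ^ (t - 1 - r)) b y * (g b - g a) := by
    intro x y
    set c : ℕ → ℝ := fun r => ∑ b, (P ^ r) x b * g b * (P ^ (t - r)) b y with hcdef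
    have h0 : c 0 = g x * (P ^ t) x y := by
      simp [hcdef, Matrix.one_apply]
    have ht : c t = (P ^ t) x y * g y := by
      simp [hcdef, Matrix.one_apply]
    have hstep : ∀ r ∈ Finset.range t, ∑ a, ∑ b,
        (P ^ r) x a * P a b * (P ^ (t - 1 - r)) b y * (g b - g a) = c (r + 1) - c r := by
      intro r hr
      have hr' : r < t := Finset.mem_range.1 hr
      have e1 : t - (r + 1) = t - 1 - r := by omega
      have e2 : t - r = 1 + (t - 1 - r) := by omega
      have c1 : c (r + 1) = ∑ a, ∑ b, (P ^ r) x a * P a b * (P ^ (t - 1 - r)) b y * g b := by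
        simp only [hcdef]
        rw [e1]
        have h3 : ∀ b, (P ^ (r + 1)) x b = ∑ a, (P ^ r) x a * P a b := by
          intro b
          rw [pow_succ, Matrix.mul_apply]
        simp only [h3, Finset.sum_mul]
        rw [Finset.sum_comm]
        exact Finset.sum_congr rfl fun a _ => Finset.sum_congr rfl fun b _ => by ring
      have c2 : c r = ∑ a, ∑ b, (P ^ r) x a * P a b * (P ^ (t - 1 - r)) b y * g a := by
        simp only [hcdef]
        rw [e2]
        have h3 : ∀ a, (P ^ (1 + (t - 1 - r))) a y = ∑ b, P a b * (P ^ (t - 1 - r)) b y := by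
          intro a
          rw [pow_add, pow_one, Matrix.mul_apply]
        simp only [h3, Finset.mul_sum]
        exact Finset.sum_congr rfl fun a _ => Finset.sum_congr rfl fun b _ => by ring
      rw [c1, c2, ← Finset.sum_sub_distrib]
      refine Finset.sum_congr rfl fun a _ => ?_
      rw [← Finset.sum_sub_distrib]
      exact Finset.sum_congr rfl fun b _ => by ring
    rw [Finset.sum_congr rfl hstep, Finset.sum_range_sub c t, h0, ht]
    ring
  have key2 : ∀ x y, (P ^ t) x y * |g y - g x| ≤ ∑ r ∈ Finset.range t, ∑ a, ∑ b,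
      (P ^ r) x a * P a b * (P ^ (t - 1 - r)) b y * |g b - g a| := by
    intro x y
    have h1 : (P ^ t) x y * |g y - g x| = |(P ^ t) x y * (g y - g x)| := by
      rw [abs_mul, abs_of_nonneg (hL.pw_nonneg t x y)]
    rw [h1, key x y]
    refine (Finset.abs_sum_le_sum_abs _ _).trans (Finset.sum_le_sum fun r _ => ?_)
    refine (Finset.abs_sum_le_sum_abs _ _).trans (Finset.sum_le_sum fun a _ => ?_)
    refine (Finset.abs_sum_le_sum_abs _ _).trans (Finset.sum_le_sum fun b _ => ?_)
    rw [abs_mul, abs_of_nonneg (mul_nonneg (mul_nonneg (hL.pw_nonneg r x a) (hc.2.2.1 a b))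
      (hL.pw_nonneg _ b y))]
  have e : ∑ r ∈ Finset.range t, ∑ x, ∑ a, ∑ b, ∑ y,
        μ x * (P ^ r) x a * P a b * (P ^ (t - 1 - r)) b y * (|g b - g a| * Φ x y)
      = ∑ x, ∑ y, μ x * Φ x y * ∑ r ∈ Finset.range t, ∑ a, ∑ b,
          (P ^ r) x a * P a b * (P ^ (t - 1 - r)) b y * |g b - g a| := by
    rw [Finset.sum_comm]
    refine Finset.sum_congr rfl fun x _ => ?_
    simp only [Finset.mul_sum]
    symm
    rw [Finset.sum_comm]
    refine Finset.sum_congr rfl fun r _ => ?_
    rw [Finset.sum_comm]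
    refine Finset.sum_congr rfl fun a _ => ?_
    rw [Finset.sum_comm]
    refine Finset.sum_congr rfl fun b _ => Finset.sum_congr rfl fun y _ => ?_
    ring
  rw [e]
  refine Finset.sum_le_sum fun x _ => Finset.sum_le_sum fun y _ => ?_
  calc μ x * (P ^ t) x y * (|g y - g x| * Φ x y)
      = μ x * Φ x y * ((P ^ t) x y * |g y - g x|) := by ring
    _ ≤ _ := mul_le_mul_of_nonneg_left (key2 x y) (mul_nonneg (hc.1 x) (hΦ x y))

end Vale.Agent.P125.Poly
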