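import Vale.Agent.P125.Poly.Defs58

set_option linter.unusedSectionVars false
set_option linter.unusedVariables false

/-! # P125 Poly: telescoping along the four point path measure, statement `StTel` of `Defs58` -/

namespace Vale.Agent.P125.Poly

open scoped BigOperators
open Vale.Agent.P125.Dich

section
variable {S : Type} [Fintype S] [DecidableEq S]

/-- the telescoping identity -/
lemma tel_id80 (P : Matrix S S ℝ) (g : S → ℝ) (t : ℕ) (x y : S) :
    ∑ r ∈ Finset.range t, ∑ a, ∑ b, (P ^ r) x a * P a b * (P ^ (t - 1 - r)) b y * (g b - g a)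
      = (P ^ t) x y * (g y - g x) := by
  have hterm : ∀ r ∈ Finset.range t,
      ∑ a, ∑ b, (P ^ r) x a * P a b * (P ^ (t - 1 - r)) b y * (g b - g a)
        = (fun r => ∑ b, (P ^ r) x b * g b * (P ^ (t - r)) b y) (r + 1)
          - (fun r => ∑ b, (P ^ r) x b * g b * (P ^ (t - r)) b y) r := by
    intro r hr
    have hr' : r < t := Finset.mem_range.1 hr
    have e1 : ∑ b, (P ^ (r + 1)) x b * g b * (P ^ (t - (r + 1))) b y
        = ∑ a, ∑ b, (P ^ r) x a * P a b * (P ^ (t - 1 - r)) b y * g b := by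
      rw [Finset.sum_comm]
      refine Finset.sum_congr rfl fun b _ => ?_
      have h1 : t - (r + 1) = t - 1 - r := by omega
      rw [pow_succ, Matrix.mul_apply, Finset.sum_mul, Finset.sum_mul, h1]
      refine Finset.sum_congr rfl fun a _ => ?_
      ring
    have e2 : ∑ b, (P ^ r) x b * g b * (P ^ (t - r)) b y
        = ∑ a, ∑ b, (P ^ r) x a * P a b * (P ^ (t - 1 - r)) b y * g a := by
      refine Finset.sum_congr rfl fun a _ => ?_
      have h1 : t - r = (t - 1 - r) + 1 := by omega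
      rw [h1, pow_succ', Matrix.mul_apply, Finset.mul_sum]
      refine Finset.sum_congr rfl fun b _ => ?_
      ring
    show _ = ∑ b, (P ^ (r + 1)) x b * g b * (P ^ (t - (r + 1))) b y
      - ∑ b, (P ^ r) x b * g b * (P ^ (t - r)) b y
    rw [e1, e2, ← Finset.sum_sub_distrib]
    refine Finset.sum_congr rfl fun a _ => ?_
    rw [← Finset.sum_sub_distrib]
    refine Finset.sum_congr rfl fun b _ => ?_
    ring
  rw [Finset.sum_congr rfl hterm,
    Finset.sum_range_sub (fun r => ∑ b, (P ^ r) x b * g b * (P ^ (t - r)) b y) t]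
  have ct : ∑ b, (P ^ t) x b * g b * (P ^ (t - t)) b y = (P ^ t) x y * g y := by
    rw [Nat.sub_self, pow_zero, Finset.sum_eq_single y]
    · simp
    · intro b _ hb
      rw [Matrix.one_apply_ne hb, mul_zero]
    · intro h
      exact absurd (Finset.mem_univ y) h
  have c0 : ∑ b, (P ^ 0) x b * g b * (P ^ (t - 0)) b y = (P ^ t) x y * g x := by
    rw [Nat.sub_zero, pow_zero, Finset.sum_eq_single x]
    · simp
      ring
    · intro b _ hb
      rw [Matrix.one_apply_ne (Ne.symm hb), zero_mul, zero_mul]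
    · intro h
      exact absurd (Finset.mem_univ x) h
  show ∑ b, (P ^ t) x b * g b * (P ^ (t - t)) b y - ∑ b, (P ^ 0) x b * g b * (P ^ (t - 0)) b y = _
  rw [ct, c0]
  ring

/-- the pointwise inequality -/
lemma tel_le80 {μ : S → ℝ} {P : Matrix S S ℝ} (hL : Lib μ P) (g : S → ℝ) (t : ℕ) (x y : S) :
    (P ^ t) x y * |g y - g x| ≤
      ∑ r ∈ Finset.range t, ∑ a, ∑ b, (P ^ r) x a * P a b * (P ^ (t - 1 - r)) b y * |g b - g a| := by
  have hP1 : ∀ a b, 0 ≤ P a b := by
    intro a b
    have := hL.pw_nonneg 1 a b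
    rwa [pow_one] at this
  have h0 : (P ^ t) x y * |g y - g x| = |(P ^ t) x y * (g y - g x)| := by
    rw [abs_mul, abs_of_nonneg (hL.pw_nonneg t x y)]
  rw [h0, ← tel_id80 P g t x y]
  refine (Finset.abs_sum_le_sum_abs _ _).trans (Finset.sum_le_sum fun r _ => ?_)
  refine (Finset.abs_sum_le_sum_abs _ _).trans (Finset.sum_le_sum fun a _ => ?_)
  refine (Finset.abs_sum_le_sum_abs _ _).trans (Finset.sum_le_sum fun b _ => ?_)
  rw [abs_mul, abs_of_nonneg (mul_nonneg (mul_nonneg (hL.pw_nonneg r x a) (hP1 a b))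
    (hL.pw_nonneg _ b y))]

end

theorem stTel_80 : StTel := by
  intro S _ _ μ P hc hL g Φ hΦ t
  have h1 : ∀ x y, μ x * (P ^ t) x y * (|g y - g x| * Φ x y) ≤
      ∑ r ∈ Finset.range t, ∑ a, ∑ b,
        μ x * (P ^ r) x a * P a b * (P ^ (t - 1 - r)) b y * (|g b - g a| * Φ x y) := by
    intro x y
    have h := mul_le_mul_of_nonneg_left (tel_le80 hL g t x y) (mul_nonneg (hc.1 x) (hΦ x y))
    calc μ x * (P ^ t) x y * (|g y - g x| * Φ x y)
        = μ x * Φ x y * ((P ^ t) x y * |g y - g x|) := by ring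
      _ ≤ _ := h
      _ = _ := by
        rw [Finset.mul_sum]
        refine Finset.sum_congr rfl fun r _ => ?_
        rw [Finset.mul_sum]
        refine Finset.sum_congr rfl fun a _ => ?_
        rw [Finset.mul_sum]
        refine Finset.sum_congr rfl fun b _ => ?_
        ring
  calc ∑ x, ∑ y, μ x * (P ^ t) x y * (|g y - g x| * Φ x y)
      ≤ ∑ x, ∑ y, ∑ r ∈ Finset.range t, ∑ a, ∑ b,
        μ x * (P ^ r) x a * P a b * (P ^ (t - 1 - r)) b y * (|g b - g a| * Φ x y) :=
        Finset.sum_le_sum fun x _ => Finset.sum_le_sum fun y _ => h1 x y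
    _ = ∑ x, ∑ r ∈ Finset.range t, ∑ y, ∑ a, ∑ b,
        μ x * (P ^ r) x a * P a b * (P ^ (t - 1 - r)) b y * (|g b - g a| * Φ x y) := by
        refine Finset.sum_congr rfl fun x _ => ?_
        rw [Finset.sum_comm]
    _ = ∑ r ∈ Finset.range t, ∑ x, ∑ y, ∑ a, ∑ b,
        μ x * (P ^ r) x a * P a b * (P ^ (t - 1 - r)) b y * (|g b - g a| * Φ x y) := by
        rw [Finset.sum_comm]
    _ = _ := by
        refine Finset.sum_congr rfl fun r _ => Finset.sum_congr rfl fun x _ => ?_
        rw [Finset.sum_comm]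
        refine Finset.sum_congr rfl fun a _ => ?_
        rw [Finset.sum_comm]

end Vale.Agent.P125.Poly
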