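import Mathlib
import Vale.Agent.P125.Poly.Defs58

set_option linter.unusedSectionVars false
set_option linter.unusedVariables false

/-!
# P125 Poly: telescoping along the four point path measure (StTel), helper91
-/

namespace Vale.Agent.P125.Poly

open scoped BigOperators
open Vale.Agent.P125.Dich

/-- pointwise telescoping, by induction on `t` -/
theorem tel_pt_91 {S : Type} [Fintype S] [DecidableEq S] (P : Matrix S S ℝ)
    (hnn : ∀ k x y, 0 ≤ (P ^ k) x y) (g : S → ℝ) (t : ℕ) : ∀ x y : S,
    (P ^ t) x y * |g y - g x| ≤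
      ∑ r ∈ Finset.range t, ∑ a, ∑ b,
        (P ^ r) x a * P a b * (P ^ (t - 1 - r)) b y * |g b - g a| := by
  have hP : ∀ x y, 0 ≤ P x y := fun x y => by simpa using hnn 1 x y
  induction t with
  | zero =>
    intro x y
    rw [pow_zero, Matrix.one_apply]
    by_cases h : x = y
    · subst h; simp
    · simp [h]
  | succ t ih =>
    intro x y
    rw [Finset.sum_range_succ]
    -- last term
    have hlast : ∑ a, ∑ b, (P ^ t) x a * P a b * (P ^ (t + 1 - 1 - t)) b y * |g b - g a|
        = ∑ z, (P ^ t) x z * P z y * |g y - g z| := by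
      refine Finset.sum_congr rfl (fun a _ => ?_)
      have h0 : t + 1 - 1 - t = 0 := by omega
      rw [h0, pow_zero]
      rw [Finset.sum_eq_single y]
      · simp
      · intro b _ hb
        rw [Matrix.one_apply, if_neg hb]; ring
      · intro h; exact absurd (Finset.mem_univ y) h
    -- earlier terms
    have hearly : ∑ r ∈ Finset.range t, ∑ a, ∑ b,
          (P ^ r) x a * P a b * (P ^ (t + 1 - 1 - r)) b y * |g b - g a|
        = ∑ z, (∑ r ∈ Finset.range t, ∑ a, ∑ b,
          (P ^ r) x a * P a b * (P ^ (t - 1 - r)) b z * |g b - g a|) * P z y := by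
      symm
      simp_rw [Finset.sum_mul]
      rw [Finset.sum_comm]
      refine Finset.sum_congr rfl (fun r hr => ?_)
      rw [Finset.sum_comm]
      refine Finset.sum_congr rfl (fun a _ => ?_)
      rw [Finset.sum_comm]
      refine Finset.sum_congr rfl (fun b _ => ?_)
      have hr' : t + 1 - 1 - r = (t - 1 - r) + 1 := by
        have := Finset.mem_range.mp hr; omega
      rw [hr', pow_succ, Matrix.mul_apply, Finset.mul_sum, Finset.sum_mul]
      refine Finset.sum_congr rfl (fun z _ => ?_)
      ring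
    rw [hlast, hearly, pow_succ, Matrix.mul_apply, Finset.sum_mul, ← Finset.sum_add_distrib]
    refine Finset.sum_le_sum (fun z _ => ?_)
    have h1 : |g y - g x| ≤ |g y - g z| + |g z - g x| := by
      have : g y - g x = (g y - g z) + (g z - g x) := by ring
      rw [this]; exact abs_add_le _ _
    have h2 := ih x z
    have h3 : 0 ≤ (P ^ t) x z * P z y := mul_nonneg (hnn t x z) (hP z y)
    calc (P ^ t) x z * P z y * |g y - g x|
        ≤ (P ^ t) x z * P z y * (|g y - g z| + |g z - g x|) :=
          mul_le_mul_of_nonneg_left h1 h3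
      _ = ((P ^ t) x z * |g z - g x|) * P z y + (P ^ t) x z * P z y * |g y - g z| := by ring
      _ ≤ _ := by
          have := mul_le_mul_of_nonneg_right h2 (hP z y)
          linarith

theorem stTel_91 : StTel := by
  intro S _ _ μ P hC hL g Φ hΦ t
  have hpt := tel_pt_91 P hL.pw_nonneg g t
  have hR : ∑ r ∈ Finset.range t, ∑ x, ∑ a, ∑ b, ∑ y,
        μ x * (P ^ r) x a * P a b * (P ^ (t - 1 - r)) b y * (|g b - g a| * Φ x y)
      = ∑ x, ∑ y, μ x * Φ x y * ∑ r ∈ Finset.range t, ∑ a, ∑ b,
        (P ^ r) x a * P a b * (P ^ (t - 1 - r)) b y * |g b - g a| := by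
    have hsw : ∀ (T : S → S → S → ℝ), ∑ a, ∑ b, ∑ y, T a b y = ∑ y, ∑ a, ∑ b, T a b y := by
      intro T
      calc ∑ a, ∑ b, ∑ y, T a b y = ∑ a, ∑ y, ∑ b, T a b y :=
            Finset.sum_congr rfl (fun a _ => Finset.sum_comm)
        _ = _ := Finset.sum_comm
    rw [Finset.sum_comm]
    refine Finset.sum_congr rfl (fun x _ => ?_)
    calc ∑ r ∈ Finset.range t, ∑ a, ∑ b, ∑ y,
          μ x * (P ^ r) x a * P a b * (P ^ (t - 1 - r)) b y * (|g b - g a| * Φ x y)
        = ∑ r ∈ Finset.range t, ∑ y, ∑ a, ∑ b,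
          μ x * (P ^ r) x a * P a b * (P ^ (t - 1 - r)) b y * (|g b - g a| * Φ x y) :=
          Finset.sum_congr rfl (fun r _ => hsw _)
      _ = ∑ y, ∑ r ∈ Finset.range t, ∑ a, ∑ b,
          μ x * (P ^ r) x a * P a b * (P ^ (t - 1 - r)) b y * (|g b - g a| * Φ x y) :=
          Finset.sum_comm
      _ = _ := by
          refine Finset.sum_congr rfl (fun y _ => ?_)
          rw [Finset.mul_sum]
          refine Finset.sum_congr rfl (fun r _ => ?_)
          rw [Finset.mul_sum]
          refine Finset.sum_congr rfl (fun a _ => ?_)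
          rw [Finset.mul_sum]
          refine Finset.sum_congr rfl (fun b _ => ?_)
          ring
  rw [hR]
  refine Finset.sum_le_sum (fun x _ => Finset.sum_le_sum (fun y _ => ?_))
  have h0 : 0 ≤ μ x * Φ x y := mul_nonneg (hL.mu_nonneg x) (hΦ x y)
  calc μ x * (P ^ t) x y * (|g y - g x| * Φ x y)
      = μ x * Φ x y * ((P ^ t) x y * |g y - g x|) := by ring
    _ ≤ _ := mul_le_mul_of_nonneg_left (hpt x y) h0

end Vale.Agent.P125.Poly
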