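import Vale.Agent.P125.Poly.Defs58
import Vale.Agent.P125.Poly.NoMart_93

set_option linter.unusedSectionVars false
set_option linter.unusedVariables false

namespace Vale.Agent.P125.Poly

open scoped BigOperators
open Vale.Agent.P125.Dich

section tel

variable {S : Type} [Fintype S] [DecidableEq S]

/-- cost of one edge followed by `e` free steps -/
def rho93 (P : Matrix S S ℝ) (g H : S → ℝ) (e : ℕ) (a : S) : ℝ :=
  ∑ b, P a b * (|g b - g a| * ∑ y, (P ^ e) b y * H y)

def kk93 (P : Matrix S S ℝ) (g H : S → ℝ) (t : ℕ) (x : S) : ℝ :=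
  ∑ r ∈ Finset.range t, ∑ a, (P ^ r) x a * rho93 P g H (t - 1 - r) a

theorem kk93_succ (P : Matrix S S ℝ) (g H : S → ℝ) (t : ℕ) (x : S) :
    kk93 P g H (t + 1) x = rho93 P g H t x + ∑ z, P x z * kk93 P g H t z := by
  unfold kk93
  rw [Finset.sum_range_succ', add_comm]
  congr 1
  · simp only [pow_zero, Matrix.one_apply, ite_mul, one_mul, zero_mul, Finset.sum_ite_eq,
      Finset.mem_univ, if_true]
    simp
  · simp only [Finset.mul_sum]
    conv_rhs => rw [Finset.sum_comm]
    apply Finset.sum_congr rfl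
    intro r _
    have e : t + 1 - 1 - (r + 1) = t - 1 - r := by omega
    rw [e, Poly93.pow_succ_apply_sum]
    simp only [Finset.mul_sum]

theorem tel93 (P : Matrix S S ℝ) (h0 : ∀ i j, 0 ≤ P i j) (g H : S → ℝ) (hH : ∀ y, 0 ≤ H y)
    (c : ℝ) (t : ℕ) : ∀ x : S,
    ∑ y, (P ^ t) x y * (|g y - c| * H y) ≤
      |g x - c| * (∑ y, (P ^ t) x y * H y) + kk93 P g H t x := by
  induction t with
  | zero =>
    intro x
    simp only [pow_zero, Matrix.one_apply, ite_mul, one_mul, zero_mul, Finset.sum_ite_eq,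
      Finset.mem_univ, if_true]
    simp [kk93]
  | succ t ih =>
    intro x
    have hPH : ∀ z, 0 ≤ ∑ y, (P ^ t) z y * H y := fun z =>
      Finset.sum_nonneg fun y _ => mul_nonneg (Poly93.pow_nonneg_entry P h0 t z y) (hH y)
    rw [Poly93.pow_succ_apply_sum, Poly93.pow_succ_apply_sum, kk93_succ]
    have s1 : ∑ z, P x z * ∑ y, (P ^ t) z y * (|g y - c| * H y) ≤
        ∑ z, P x z * ((|g z - g x| + |g x - c|) * (∑ y, (P ^ t) z y * H y) + kk93 P g H t z) := by
      apply Finset.sum_le_sum
      intro z _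
      apply mul_le_mul_of_nonneg_left _ (h0 x z)
      refine (ih z).trans ?_
      have h3 : |g z - c| ≤ |g z - g x| + |g x - c| := abs_sub_le _ _ _
      have := mul_le_mul_of_nonneg_right h3 (hPH z)
      linarith
    refine s1.trans (le_of_eq ?_)
    unfold rho93
    rw [Finset.mul_sum, ← Finset.sum_add_distrib, ← Finset.sum_add_distrib]
    apply Finset.sum_congr rfl
    intro z _
    ring

end tel

theorem stTel_93 : StTel := by
  intro S _ _ μ P hC hL g Φ hΦ t
  obtain ⟨h1, h2, h3, h4, h5⟩ := hC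
  have key : ∀ x, ∑ y, μ x * (P ^ t) x y * (|g y - g x| * Φ x y) ≤
      μ x * kk93 P g (Φ x) t x := by
    intro x
    have := tel93 P h3 g (Φ x) (hΦ x) (g x) t x
    rw [sub_self, abs_zero, zero_mul, zero_add] at this
    have h' := mul_le_mul_of_nonneg_left this (h1 x)
    rw [Finset.mul_sum] at h'
    refine le_trans (le_of_eq ?_) h'
    apply Finset.sum_congr rfl
    intro y _
    ring
  refine (Finset.sum_le_sum fun x _ => key x).trans (le_of_eq ?_)
  unfold kk93 rho93
  simp only [Finset.mul_sum]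
  rw [Finset.sum_comm]
  apply Finset.sum_congr rfl
  intro r _
  apply Finset.sum_congr rfl
  intro x _
  apply Finset.sum_congr rfl
  intro a _
  apply Finset.sum_congr rfl
  intro b _
  apply Finset.sum_congr rfl
  intro y _
  ring

end Vale.Agent.P125.Poly
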