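import Vale.Agent.P125.Poly.Defs_79

set_option linter.unusedSectionVars false
set_option linter.unusedVariables false

/-! # P125 polynomial rate, path-free form: sum manipulation (race copy of Term2_79, helper3) -/

namespace Vale.Agent.P125.Poly79

open scoped BigOperators
open Vale.Agent.P125.Dich Vale.Agent.P125.BV

variable {S : Type} [Fintype S] [DecidableEq S]

/-- same statement as `term2` of `Term2_79` -/
theorem term2_3 {μ : S → ℝ} {P : Matrix S S ℝ} (hc : IsChain μ P) (g G : S → ℝ) (k r : ℕ) :
    ∑ a, ∑ b, ∑ c, ∑ d, μ a * (P ^ k) a b * P b c * (P ^ r) c d * (|g c - g b| * |G c - G b|) =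
      ∑ b, ∑ c, μ b * P b c * (|g c - g b| * |G c - G b|) := by
  have hk := isChain_pow hc k
  have hr := isChain_pow hc r
  have e1 : ∀ a b c, ∑ d, μ a * (P ^ k) a b * P b c * (P ^ r) c d * (|g c - g b| * |G c - G b|) =
      μ a * (P ^ k) a b * P b c * (|g c - g b| * |G c - G b|) := by
    intro a b c
    have h : ∀ d, μ a * (P ^ k) a b * P b c * (P ^ r) c d * (|g c - g b| * |G c - G b|) =
        (μ a * (P ^ k) a b * P b c * (|g c - g b| * |G c - G b|)) * (P ^ r) c d := by
      intro d
      ring
    simp only [h, ← Finset.mul_sum, hr.2.2.2.1 c, mul_one]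
  simp only [e1]
  rw [Finset.sum_comm]
  refine Finset.sum_congr rfl fun b _ => ?_
  rw [Finset.sum_comm]
  refine Finset.sum_congr rfl fun c _ => ?_
  have h : ∀ a, μ a * (P ^ k) a b * P b c * (|g c - g b| * |G c - G b|) =
      (μ b * P b c * (|g c - g b| * |G c - G b|)) * (P ^ k) b a := by
    intro a
    rw [hk.2.2.2.2 a b]
    ring
  simp only [h, ← Finset.mul_sum, hk.2.2.2.1 b, mul_one]

end Vale.Agent.P125.Poly79
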