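import Mathlib
import Vale.Agent.P125.Poly.Defs58

set_option linter.unusedSectionVars false
set_option linter.unusedVariables false

/-! # P125 Poly: TRIV1, race copy of helper86 -/

namespace Vale.Agent.P125.Poly

open scoped BigOperators
open Vale.Agent.P125.Dich

theorem stTriv1_86 (hs : StSmall) : StTriv1 := by
  intro S _ _ μ P hc hL n f k ρ z
  obtain ⟨s1, s2, s3, s4, s5, s6, s7, s8, s9, s10⟩ := hs S μ P hc hL n f
  have key : ∀ ρ : ℕ, op P ρ (fun y => |F f k y - F f k z|) z
      ≤ ∑ i ∈ Finset.range ρ, op P i (lbar P f) z := by
    intro ρ
    induction ρ with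
    | zero =>
      rw [hL.op_zero]
      simp
    | succ ρ ih =>
      rw [← hL.op_op ρ 1, Finset.sum_range_succ]
      have h1 : ∀ u, op P 1 (fun y => |F f k y - F f k z|) u
          ≤ lbar P f u + |F f k u - F f k z| := by
        intro u
        rw [hL.op_one]
        have h2 : ∀ y, P u y * |F f k y - F f k z|
            ≤ P u y * ell f u y + P u y * |F f k u - F f k z| := by
          intro y
          rw [← mul_add]
          refine mul_le_mul_of_nonneg_left ?_ (hc.2.2.1 u y)
          calc |F f k y - F f k z|
              = |(F f k y - F f k u) + (F f k u - F f k z)| := by congr 1; ring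
            _ ≤ |F f k y - F f k u| + |F f k u - F f k z| := abs_add_le _ _
            _ ≤ ell f u y + |F f k u - F f k z| := by
                have := s8 k u y
                linarith
        calc ∑ y, P u y * |F f k y - F f k z|
            ≤ ∑ y, (P u y * ell f u y + P u y * |F f k u - F f k z|) :=
              Finset.sum_le_sum fun y _ => h2 y
          _ = lbar P f u + |F f k u - F f k z| := by
              rw [Finset.sum_add_distrib, ← Finset.sum_mul, hc.2.2.2.1 u, one_mul]
              rfl
      have h3 := hL.op_mono ρ _ _ h1 z
      rw [hL.op_add] at h3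
      linarith
  exact key ρ

end Vale.Agent.P125.Poly
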