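import Vale.Agent.P125.Poly.Defs58

set_option linter.unusedSectionVars false
set_option linter.unusedVariables false

namespace Vale.Agent.P125.Poly

open scoped BigOperators
open Vale.Agent.P125.Dich

theorem stTriv1_99 (hs : StSmall) : StTriv1 := by
  intro S _ _ μ P hC hL n f k ρ z
  obtain ⟨_, _, _, _, _, _, _, hF, _, _⟩ := hs S μ P hC hL n f
  obtain ⟨_, _, hP0, hP1, _⟩ := hC
  have key : ∀ ρ : ℕ, op P ρ (fun y => |F f k y - F f k z|) z
      ≤ ∑ i ∈ Finset.range ρ, op P i (lbar P f) z := by
    intro ρ
    induction ρ with
    | zero =>
      rw [hL.op_zero]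
      simp
    | succ ρ ih =>
      rw [Finset.sum_range_succ, ← hL.op_op ρ 1]
      have h1 : ∀ u, op P 1 (fun y => |F f k y - F f k z|) u
          ≤ |F f k u - F f k z| + lbar P f u := by
        intro u
        rw [hL.op_one]
        have h2 : ∀ y ∈ Finset.univ, P u y * |F f k y - F f k z|
            ≤ P u y * |F f k u - F f k z| + P u y * ell f u y := by
          intro y _
          have h3 : |F f k y - F f k z| ≤ |F f k u - F f k z| + ell f u y := by
            have h4 := hF k u y
            have h5 : F f k y - F f k z = (F f k u - F f k z) + (F f k y - F f k u) := by ring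
            rw [h5]
            exact (abs_add_le _ _).trans (by linarith)
          have := mul_le_mul_of_nonneg_left h3 (hP0 u y)
          linarith
        calc ∑ y, P u y * |F f k y - F f k z|
            ≤ ∑ y, (P u y * |F f k u - F f k z| + P u y * ell f u y) := Finset.sum_le_sum h2
          _ = |F f k u - F f k z| + lbar P f u := by
            rw [Finset.sum_add_distrib, ← Finset.sum_mul, hP1 u, one_mul]
            rfl
      have h6 := hL.op_mono ρ _ _ h1 z
      rw [hL.op_add] at h6
      linarith
  exact key ρ

end Vale.Agent.P125.Poly
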