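import Vale.Agent.P125.Poly.Defs_79
import Vale.Agent.P125.Poly.ApiA_79
import Vale.Agent.P125.Poly.ApiB_79

set_option linter.unusedSectionVars false
set_option linter.unusedVariables false

/-! # P125 polynomial rate, path-free form (board 624): step (E) = S6: reverse back -/

namespace Vale.Agent.P125.Poly79

open scoped BigOperators
open Vale.Agent.P125.Dich Vale.Agent.P125.BV

variable {S : Type} [Fintype S] [DecidableEq S]

/-- symmetrisation of the edge sum -/
private lemma edge_symm {μ : S → ℝ} {P : Matrix S S ℝ} (hc : IsChain μ P) (N U : S → ℝ) :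
    ∑ a, ∑ b, μ a * P a b * ((N a + N b) * |U b - U a|) = 2 * ∑ a, μ a * N a * gr P U a := by
  have hrev : ∀ i j, μ i * P i j = μ j * P j i := hc.2.2.2.2
  have h1 : ∑ a, ∑ b, μ a * P a b * (N a * |U b - U a|) = ∑ a, μ a * N a * gr P U a := by
    refine Finset.sum_congr rfl fun a _ => ?_
    unfold gr
    rw [Finset.mul_sum]
    refine Finset.sum_congr rfl fun b _ => ?_
    ring
  have h2 : ∑ a, ∑ b, μ a * P a b * (N b * |U b - U a|) = ∑ a, μ a * N a * gr P U a := by
    rw [Finset.sum_comm, ← h1]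
    refine Finset.sum_congr rfl fun b _ => ?_
    refine Finset.sum_congr rfl fun a _ => ?_
    rw [hrev a b, abs_sub_comm (U b) (U a)]
  have h3 : ∑ a, ∑ b, μ a * P a b * ((N a + N b) * |U b - U a|)
      = ∑ a, ∑ b, μ a * P a b * (N a * |U b - U a|)
        + ∑ a, ∑ b, μ a * P a b * (N b * |U b - U a|) := by
    rw [← Finset.sum_add_distrib]
    refine Finset.sum_congr rfl fun a _ => ?_
    rw [← Finset.sum_add_distrib]
    refine Finset.sum_congr rfl fun b _ => ?_
    ring
  rw [h3, h1, h2]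
  ring

/-- moving the averaging operators to the other side -/
private lemma move_ops {μ : S → ℝ} {P : Matrix S S ℝ} (hc : IsChain μ P) (τ s : ℕ)
    (α g : S → ℝ) :
    ∑ a, μ a * Av P τ (op (P ^ s) α) a * g a
      = ∑ y, μ y * α y * ∑ i ∈ Finset.range τ, op (P ^ (s + i)) g y := by
  have hi : ∀ i : ℕ, ∑ a, μ a * op (P ^ i) (op (P ^ s) α) a * g a
      = ∑ y, μ y * α y * op (P ^ (s + i)) g y := by
    intro i
    rw [← ip_symm (isChain_pow hc i) (op (P ^ s) α) g,
      ← ip_symm (isChain_pow hc s) α (op (P ^ i) g)]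
    refine Finset.sum_congr rfl fun y _ => ?_
    rw [op_pow_add]
  calc ∑ a, μ a * Av P τ (op (P ^ s) α) a * g a
      = ∑ a, ∑ i ∈ Finset.range τ, μ a * op (P ^ i) (op (P ^ s) α) a * g a := by
        refine Finset.sum_congr rfl fun a _ => ?_
        unfold Av
        rw [Finset.mul_sum, Finset.sum_mul]
    _ = ∑ i ∈ Finset.range τ, ∑ a, μ a * op (P ^ i) (op (P ^ s) α) a * g a := Finset.sum_comm
    _ = ∑ i ∈ Finset.range τ, ∑ y, μ y * α y * op (P ^ (s + i)) g y :=
        Finset.sum_congr rfl fun i _ => hi i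
    _ = ∑ y, ∑ i ∈ Finset.range τ, μ y * α y * op (P ^ (s + i)) g y := Finset.sum_comm
    _ = ∑ y, μ y * α y * ∑ i ∈ Finset.range τ, op (P ^ (s + i)) g y := by
        refine Finset.sum_congr rfl fun y _ => ?_
        rw [Finset.mul_sum]

/-- symmetry `a ↔ b` (reversibility) gives `YY = 4 ∑_k ∑_a μ a * NN k a * gr P (UU k) a`;
then `NN k = ∑_{i<τ} op (P^i) (op (P^s) (aa k))`, ip_symm for `P^i`, `P^s`, op_pow_add. -/
theorem yy_eq {μ : S → ℝ} {P : Matrix S S ℝ} (hc : IsChain μ P) (n : ℕ) (F : ℕ → S → ℝ)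
    (τ s : ℕ) :
    YY μ P n F τ s =
      4 * ∑ k ∈ Finset.range n, ∑ y, μ y * aa P F k y * TT P τ s (UU P n F τ s k) y := by
  have hk : ∀ k : ℕ, ∑ a, ∑ b, μ a * P a b * ((NN P F τ s k a + NN P F τ s k b) *
        |UU P n F τ s k b - UU P n F τ s k a|)
      = 2 * ∑ y, μ y * aa P F k y * TT P τ s (UU P n F τ s k) y := by
    intro k
    rw [edge_symm hc (NN P F τ s k) (UU P n F τ s k)]
    congr 1
    exact move_ops hc τ s (aa P F k) (gr P (UU P n F τ s k))
  calc YY μ P n F τ s
      = ∑ a, ∑ b, ∑ k ∈ Finset.range n, 2 * (μ a * P a b *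
          ((NN P F τ s k a + NN P F τ s k b) * |UU P n F τ s k b - UU P n F τ s k a|)) := by
        unfold YY Xi
        refine Finset.sum_congr rfl fun a _ => ?_
        refine Finset.sum_congr rfl fun b _ => ?_
        rw [Finset.mul_sum, Finset.mul_sum]
        refine Finset.sum_congr rfl fun k _ => ?_
        ring
    _ = ∑ k ∈ Finset.range n, 2 * ∑ a, ∑ b, μ a * P a b *
          ((NN P F τ s k a + NN P F τ s k b) * |UU P n F τ s k b - UU P n F τ s k a|) := by
        have e1 : ∀ a : S, ∑ b, ∑ k ∈ Finset.range n, 2 * (μ a * P a b *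
            ((NN P F τ s k a + NN P F τ s k b) * |UU P n F τ s k b - UU P n F τ s k a|))
            = ∑ k ∈ Finset.range n, ∑ b, 2 * (μ a * P a b *
            ((NN P F τ s k a + NN P F τ s k b) * |UU P n F τ s k b - UU P n F τ s k a|)) :=
          fun a => Finset.sum_comm
        rw [Finset.sum_congr rfl fun a _ => e1 a, Finset.sum_comm]
        refine Finset.sum_congr rfl fun k _ => ?_
        rw [Finset.mul_sum]
        refine Finset.sum_congr rfl fun a _ => ?_
        rw [Finset.mul_sum]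
    _ = ∑ k ∈ Finset.range n, 2 * (2 * ∑ y, μ y * aa P F k y * TT P τ s (UU P n F τ s k) y) :=
        Finset.sum_congr rfl fun k _ => by rw [hk k]
    _ = 4 * ∑ k ∈ Finset.range n, ∑ y, μ y * aa P F k y * TT P τ s (UU P n F τ s k) y := by
        rw [Finset.mul_sum]
        refine Finset.sum_congr rfl fun k _ => ?_
        ring

end Vale.Agent.P125.Poly79
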